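import Vale.Agent.P157.RProd

/-! P157 RMap: push-forward of the recursion, link with the one-dimensional recursion of `Defs`, and
the semigroup property of a Gaussian level.
Plan: `Rec_map`/`Tl_map` by induction with `integral_map` and `map_add`. `r2_map_add`: sum of
independent Gaussians (`gw_eq`, `gaussianReal_conv_gaussianReal` or characteristic functions).
`Tm_semigroup`: write `gw √(a+a') = ((gw √a).prod (gw √a')).map add`, `integral_prod`, `exp_Tm`.
-/

open MeasureTheory ProbabilityTheory Real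
open scoped BigOperators Matrix

namespace P157

variable {Y : Type} [NormedAddCommGroup Y] [MeasurableSpace Y] [BorelSpace Y]
  [SecondCountableTopology Y]

variable {Y' : Type} [NormedAddCommGroup Y'] [MeasurableSpace Y'] [BorelSpace Y']
  [SecondCountableTopology Y'] {m : ℕ → ℝ} {ρ : ℕ → Measure Y} {X' φ' : Y' → ℝ} {C b : ℝ}
  {n j k i : ℕ}

omit [BorelSpace Y] [SecondCountableTopology Y] in
theorem rm_Tm (q : Y →+ Y') (hq : Measurable q) (ν : Measure Y) {Z : Y' → ℝ} (hZ : Measurable Z)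
    (a : ℝ) (y : Y) : Tm a ν (fun y => Z (q y)) y = Tm a (ν.map q) Z (q y) := by
  have h2 : Measurable fun η => Z (q y + η) := hZ.comp (measurable_const_add _)
  unfold Tm
  rw [integral_map hq.aemeasurable h2.aestronglyMeasurable,
    integral_map hq.aemeasurable (h2.const_mul a).exp.aestronglyMeasurable]
  simp only [map_add]
theorem rm_tilt {α β : Type} [MeasurableSpace α] [MeasurableSpace β] {q : α → β}
    (hq : Measurable q) (ν : Measure α) {f F : β → ℝ} (hf : Measurable f) (hF : Measurable F) :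
    ∫ σ, F (q σ) ∂(ν.tilted fun σ => f (q σ)) = ∫ σ, F σ ∂((ν.map q).tilted f) := by
  simp only [integral_tilted, integral_map hq.aemeasurable hf.exp.aestronglyMeasurable]
  exact (integral_map hq.aemeasurable ((hf.exp.div_const _).mul hF).aestronglyMeasurable).symm

theorem Rec_map (q : Y →+ Y') (hq : Measurable q) (h : Env X' C)
    (hL : Lv m (fun i => (ρ i).map q) n j) (y : Y) :
    Rec m ρ (fun y => X' (q y)) n j y = Rec m (fun i => (ρ i).map q) X' n j (q y) := by
  induction n generalizing j y with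
  | zero => rfl
  | succ n ih =>
    show Tm (m j) (ρ j) (Rec m ρ (fun y => X' (q y)) n (j + 1)) y = _
    rw [funext (ih hL.tail)]
    exact rm_Tm q hq _ (h.recur hL.tail).meas _ y
theorem Tl_map (q : Y →+ Y') (hq : Measurable q) (h : Env X' C)
    (hL : Lv m (fun i => (ρ i).map q) n j) (hφ : Measurable φ') (y : Y) :
    Tl m ρ (fun y => X' (q y)) (fun y => φ' (q y)) n j y =
      Tl m (fun i => (ρ i).map q) X' φ' n j (q y) := by
  induction n generalizing j y with
  | zero => rfl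
  | succ n ih =>
    show ∫ η, Tl m ρ (fun y => X' (q y)) (fun y => φ' (q y)) n (j + 1) (y + η)
      ∂((ρ j).tilted fun η => m j * Rec m ρ (fun y => X' (q y)) n (j + 1) (y + η)) = _
    simp only [ih hL.tail, Rec_map q hq h hL.tail, map_add]
    exact rm_tilt hq (ρ j)
      (f := fun η => m j * Rec m (fun i => (ρ i).map q) X' n (j + 1) (q y + η))
      (F := fun η => Tl m (fun i => (ρ i).map q) X' φ' n (j + 1) (q y + η))
      (((h.recur hL.tail).meas.comp (measurable_const_add _)).const_mul _)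
      ((Tl_meas h hL.tail hφ).comp (measurable_const_add _))
theorem E2_map (q : Y →+ Y') (hq : Measurable q) (h : Env X' C)
    (hL : Lv m (fun i => (ρ i).map q) (k + 1) 0) (hφ : Measurable φ') (hi : i ≤ k) :
    E2 m ρ (fun y => X' (q y)) (fun y => φ' (q y)) k i =
      E2 m (fun i => (ρ i).map q) X' φ' k i := by
  have h1 : Lv m (fun i => (ρ i).map q) (k - i) (i + 1) := hL.mono (by omega) (by omega)
  have h2 : Lv m (fun i => (ρ i).map q) (i + 1) 0 := hL.mono le_rfl (by omega)
  unfold E2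
  rw [funext (Rec_map q hq h h1)]
  simp only [Tl_map q hq h h1 hφ]
  rw [Tl_map q hq (h.recur h1) h2 ((Tl_meas h h1 hφ).pow_const 2), map_zero]

theorem gw_prod_map_add (w w' : ℝ) :
    ((gw w).prod (gw w')).map (fun y : ℝ × ℝ => y.1 + y.2) = gw √(w ^ 2 + w' ^ 2) := by
  have h := gaussianReal_conv_gaussianReal (m₁ := 0) (m₂ := 0) (v₁ := (w ^ 2).toNNReal)
    (v₂ := (w' ^ 2).toNNReal)
  rw [gw_eq, gw_eq, gw_eq, sq_sqrt (by positivity), Real.toNNReal_add (sq_nonneg w) (sq_nonneg w')]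
  rw [add_zero] at h
  exact h

variable {F φ : ℝ → ℝ} {w₁ w₂ w₃ : ℕ → ℝ}

/-- the sum of the two coordinates -/
def rmAdd : ℝ × ℝ →+ ℝ := AddMonoidHom.fst ℝ ℝ + AddMonoidHom.snd ℝ ℝ
theorem rm_add_meas : Measurable rmAdd := measurable_fst.add measurable_snd
theorem rm_r2_add : (fun i => (r2 w₁ w₂ i).map rmAdd) = fun j => gw √(w₁ j ^ 2 + w₂ j ^ 2) :=
  funext fun _ => gw_prod_map_add _ _
theorem rm_r2_fst : (fun i => (r2 w₁ w₂ i).map (AddMonoidHom.fst ℝ ℝ)) = fun j => gw (w₁ j) := by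
  funext i
  show ((gw (w₁ i)).prod (gw (w₂ i))).map Prod.fst = _
  rw [Measure.map_fst_prod, measure_univ, one_smul]

/-- two independent fields entering through their sum -/
theorem Rec_r2_add (hk : IsPartition k m) (h : Env F C) :
    Rec m (r2 w₁ w₂) (fun y => F (y.1 + y.2)) (k + 1) 0 0 =
      Rec m (fun j => gw √(w₁ j ^ 2 + w₂ j ^ 2)) F (k + 1) 0 0 := by
  have h1 := Rec_map (ρ := r2 w₁ w₂) (m := m) (n := k + 1) (j := 0) rmAdd rm_add_meas h
  rw [rm_r2_add] at h1
  have h3 := h1 ((hk.lv fun _ => expM_gw _).mono le_rfl (by omega)) 0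
  rw [map_zero] at h3
  exact h3
theorem E2_r2_add (hk : IsPartition k m) (h : Env F C) (hφ : Measurable φ) (hi : i ≤ k) :
    E2 m (r2 w₁ w₂) (fun y => F (y.1 + y.2)) (fun y => φ (y.1 + y.2)) k i =
      E2 m (fun j => gw √(w₁ j ^ 2 + w₂ j ^ 2)) F φ k i := by
  have h1 := E2_map (ρ := r2 w₁ w₂) (m := m) (k := k) (i := i) (φ' := φ) rmAdd rm_add_meas h
  rw [rm_r2_add] at h1
  exact h1 ((hk.lv fun _ => expM_gw _).mono le_rfl (by omega)) hφ hi
theorem Rec_r2_fst (hk : IsPartition k m) (h : Env F C) :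
    Rec m (r2 w₁ w₂) (fun y => F y.1) (k + 1) 0 0 = Rec m (fun j => gw (w₁ j)) F (k + 1) 0 0 := by
  have h1 := Rec_map (ρ := r2 w₁ w₂) (m := m) (n := k + 1) (j := 0) (AddMonoidHom.fst ℝ ℝ)
    measurable_fst h
  rw [rm_r2_fst] at h1
  have h3 := h1 ((hk.lv fun _ => expM_gw _).mono le_rfl (by omega)) 0
  rw [map_zero] at h3
  exact h3
theorem E2_r2_fst (hk : IsPartition k m) (h : Env F C) (hφ : Measurable φ) (hi : i ≤ k) :
    E2 m (r2 w₁ w₂) (fun y => F y.1) (fun y => φ y.1) k i = E2 m (fun j => gw (w₁ j)) F φ k i := by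
  have h1 := E2_map (ρ := r2 w₁ w₂) (m := m) (k := k) (i := i) (φ' := φ) (AddMonoidHom.fst ℝ ℝ)
    measurable_fst h
  rw [rm_r2_fst] at h1
  exact h1 ((hk.lv fun _ => expM_gw _).mono le_rfl (by omega)) hφ hi
theorem Rec_r3_fst (hk : IsPartition k m) {X : ℝ × ℝ → ℝ} (h : Env X C) :
    Rec m (r3 w₁ w₂ w₃) (fun y => X y.1) (k + 1) 0 0 = Rec m (r2 w₁ w₂) X (k + 1) 0 0 := by
  have h1 := Rec_map (ρ := r3 w₁ w₂ w₃) (m := m) (n := k + 1) (j := 0)
    (AddMonoidHom.fst (ℝ × ℝ) ℝ) measurable_fst h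
  have h2 : (fun i => (r3 w₁ w₂ w₃ i).map (AddMonoidHom.fst (ℝ × ℝ) ℝ)) = r2 w₁ w₂ := by
    funext i
    show ((r2 w₁ w₂ i).prod (gw (w₃ i))).map Prod.fst = _
    rw [Measure.map_fst_prod, measure_univ, one_smul]
  rw [h2] at h1
  have h3 := h1 ((hk.lv fun _ => expM_r2 _ _ _).mono le_rfl (by omega)) 0
  rw [map_zero] at h3
  exact h3

theorem step_eq_Tm (hF : Measurable F) (a c : ℝ) : step c a F = Tm c (gw √a) F := by
  funext y
  have h1 : Measurable fun z : ℝ => √a * z := measurable_const_mul _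
  have h2 : Measurable fun η => F (y + η) := hF.comp (measurable_const_add _)
  unfold step Tm gw
  rw [integral_map h1.aemeasurable h2.aestronglyMeasurable,
    integral_map h1.aemeasurable (h2.const_mul c).exp.aestronglyMeasurable]
theorem levels_eq_Rec {q : ℕ → ℝ} (h : Env F C) (hL : Lv m (rq q) n j) :
    levels m q F n j = Rec m (rq q) F n j := by
  induction n generalizing j with
  | zero => rfl
  | succ n ih =>
    show step (m j) (inc q j) (levels m q F n (j + 1)) = _
    rw [ih hL.tail, step_eq_Tm (h.recur hL.tail).meas]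
    rfl
theorem parisi_eq_Rec {q : ℕ → ℝ} (hk : IsPartition k m) (h : Env F C) :
    parisi k m q F = Rec m (rq q) F (k + 1) 0 0 := by
  unfold parisi
  rw [levels_eq_Rec h ((hk.lv (expM_rq q)).mono le_rfl (by omega))]

theorem rm_fub {a a' : ℝ} (ha : 0 ≤ a) (ha' : 0 ≤ a') {G : ℝ → ℝ} (hG : Measurable G) {y : ℝ}
    (hI : Integrable (fun η => G (y + η)) (gw √(a + a'))) :
    ∫ η, G (y + η) ∂gw √(a + a') = ∫ η, ∫ η', G (y + η + η') ∂gw √a' ∂gw √a := by
  have h1 := gw_prod_map_add √a √a'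
  have h2 : Measurable fun η => G (y + η) := hG.comp (measurable_const_add _)
  rw [sq_sqrt ha, sq_sqrt ha'] at h1
  rw [← h1] at hI ⊢
  rw [integral_map measurable_add.aemeasurable h2.aestronglyMeasurable,
    integral_prod (fun p : ℝ × ℝ => G (y + (p.1 + p.2))) ((integrable_map_measure
      h2.aestronglyMeasurable measurable_add.aemeasurable).1 hI)]
  simp only [add_assoc]
theorem Tm_semigroup (h : Env F C) {c a a' : ℝ} (hc : 0 ≤ c) (ha : 0 ≤ a) (ha' : 0 ≤ a') :
    Tm c (gw √(a + a')) F = Tm c (gw √a) (Tm c (gw √a') F) := by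
  funext y
  by_cases h0 : c = 0
  · subst h0
    simp only [Tm, if_true]
    exact rm_fub ha ha' h.meas (h.integrable (expM_gw _) y)
  · rw [Tm, Tm, if_neg h0, if_neg h0]
    simp only [exp_Tm h (expM_gw _)]
    rw [rm_fub ha ha' (h.meas.const_mul c).exp (h.integrable_exp (expM_gw _) c y)]
theorem Kt_semigroup (h : Env F C) (hφ : Measurable φ) (hb : ∀ y, |φ y| ≤ b) {c a a' : ℝ}
    (hc : 0 ≤ c) (ha : 0 ≤ a) (ha' : 0 ≤ a') :
    Kt √(a + a') (fun y => c * F y) φ =
      Kt √a (fun y => c * Tm c (gw √a') F y) (Kt √a' (fun y => c * F y) φ) := by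
  funext y
  have h1 := h.integrable_exp (expM_gw √(a + a')) c y
  have h2 := rm_fub ha ha' (h.meas.const_mul c).exp h1
  have h3 := rm_fub ha ha' (G := fun y => exp (c * F y) * φ y) ((h.meas.const_mul c).exp.mul hφ)
    (h1.mul_bdd (hφ.comp (measurable_const_add _)).aestronglyMeasurable (ae_of_all _ fun η => hb _))
  unfold Kt
  simp only [integral_tilted, smul_eq_mul, div_mul_eq_mul_div, integral_div]
  rw [h2, h3]
  simp only [← exp_Tm h (expM_gw √a'), mul_div_cancel₀ _ (exp_pos _).ne']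

end P157
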