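import Vale.Agent.P157.RMap

/-! P157 ROne: facts on the one-dimensional recursion: top level, dependence on `f`, Abel summation.
Plan. `top1_close`: `parisi_eq_Rec`, `Rec_split` to isolate level `k`, `Tm_semigroup` with
`1 - p (k-1) = (p k - p (k-1)) + (1 - p k)`, and `|Tm 1 f - Tm a f| ≤ 2 K (1 - a)` for `0 < a ≤ 1`
(from `exp f ≤ exp ((1-a) K) exp (a f)` and the reverse inequality), `1 - m k ≤ δ`.
`energy_lip`: `energy f k m p = Rec m (rq p') f (k+2) 0 0` with `p' = update p (k+1) 1`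
(`Rec_split`, `Rec_congr`), then `Rec_tangent`, `Tl_le_avg`, and the plain average through all
levels is the `gaussianReal 0 1` average (`Tm_semigroup` with `c = 0`, variances add up to `1`).
-/

open MeasureTheory ProbabilityTheory Real
open scoped BigOperators Matrix

namespace P157


variable {k : ℕ} {m p q : ℕ → ℝ} {f : ℝ → ℝ} {K : ℝ}

theorem IsPath.mono_le (h : IsPath k q) {i j : ℕ} (hij : i ≤ j) (hj : j ≤ k) : q i ≤ q j := by
  induction j, hij using Nat.le_induction with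
  | base => exact le_rfl
  | succ j hij ih => exact (ih (by omega)).trans (h.2 j (by omega))
theorem IsPath.nonneg (h : IsPath k q) {i : ℕ} (hi : i ≤ k) : 0 ≤ q i :=
  h.1.trans (h.mono_le (Nat.zero_le i) hi)
theorem IsPath.inc_nonneg (h : IsPath k q) {i : ℕ} (hi : i ≤ k) : 0 ≤ inc q i := by
  cases i with
  | zero => exact h.1
  | succ i => exact sub_nonneg.2 (h.2 i (by omega))
theorem sum_inc (q : ℕ → ℝ) (i : ℕ) : ∑ j ∈ Finset.range (i + 1), inc q j = q i := by
  induction i with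
  | zero => simp [inc]
  | succ i ih => rw [Finset.sum_range_succ, ih]; simp [inc]
theorem IsPath.bump (h : IsPath k q) {u : ℝ} (hu : 0 ≤ u) (j : ℕ) : IsPath k (bump q u j) := by
  refine ⟨?_, fun i hi => ?_⟩
  · have := h.1
    unfold P157.bump
    split_ifs <;> linarith
  · have := h.2 i hi
    unfold P157.bump
    split_ifs with h1 h2
    · linarith
    · omega
    · linarith
    · linarith
theorem inc_bump (q : ℕ → ℝ) (u : ℝ) (j i : ℕ) :
    inc (bump q u j) i = inc q i + if i = j then u else 0 := by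
  cases i with
  | zero =>
    simp only [inc, bump]
    split_ifs <;> first | omega | ring
  | succ i =>
    simp only [inc, bump]
    split_ifs <;> first | omega | ring
theorem IsPath.add (h : IsPath k q) (h' : IsPath k p) : IsPath k (fun i => q i + p i) :=
  ⟨add_nonneg h.1 h'.1, fun j hj => add_le_add (h.2 j hj) (h'.2 j hj)⟩
theorem inc_add (q p : ℕ → ℝ) (i : ℕ) : inc (fun i => q i + p i) i = inc q i + inc p i := by
  cases i <;> simp only [inc]
  ring
theorem IsPath.top1 (h : IsPath k p) (h1 : p k ≤ 1) : IsOv k (top1 k p) := by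
  refine ⟨⟨?_, fun j hj => ?_⟩, if_pos rfl⟩
  · unfold P157.top1
    split_ifs
    · exact zero_le_one
    · exact h.1
  · unfold P157.top1
    rw [if_neg (by omega)]
    split_ifs
    · exact (h.mono_le hj.le le_rfl).trans h1
    · exact h.2 j hj
theorem abs_wq_le (h : IsPath k q) {R : ℝ} (hR : q k ≤ R ^ 2) (h0 : 0 ≤ R) {j : ℕ} (hj : j ≤ k) :
    |wq q j| ≤ R := by
  have h1 : inc q j ≤ q j := by
    cases j with
    | zero => exact le_rfl
    | succ j => exact sub_le_self _ (h.nonneg (by omega))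
  rw [wq, abs_of_nonneg (sqrt_nonneg _)]
  exact (sqrt_le_left h0).2 ((h1.trans (h.mono_le hj le_rfl)).trans hR)
theorem wq_sq (h : IsPath k q) {j : ℕ} (hj : j ≤ k) : wq q j ^ 2 = inc q j :=
  sq_sqrt (h.inc_nonneg hj)

/-- Abel summation -/
theorem pair_eq_sum_tail (k : ℕ) (m p s : ℕ → ℝ) :
    pair k m p s = ∑ j ∈ Finset.range (k + 1), inc s j * tail k m p j := by
  unfold pair tail
  simp only [Finset.mul_sum]
  rw [← Finset.sum_comm' (s := Finset.range (k + 1)) (t := fun i => Finset.range (i + 1))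
    fun x y => by simp only [Finset.mem_range, Finset.mem_Icc]; omega]
  refine Finset.sum_congr rfl fun i _ => ?_
  rw [← Finset.sum_mul, sum_inc]
  ring
theorem pair_comm (k : ℕ) (m p s : ℕ → ℝ) : pair k m p s = pair k m s p :=
  Finset.sum_congr rfl fun i _ => by rw [mul_comm (p i)]
theorem tail_one (hk : IsPartition k m) {j : ℕ} (hj : j ≤ k) :
    tail k m (fun _ => 1) j = 1 - m j := by
  unfold tail
  simp only [mul_one]
  rw [← Finset.Ico_add_one_right_eq_Icc, Finset.sum_Ico_sub m (by omega), hk.2.1]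
theorem tail_succ {j : ℕ} (hj : j ≤ k) (e : ℕ → ℝ) :
    tail k m e j = (m (j + 1) - m j) * e j + tail k m e (j + 1) := by
  have h1 : Finset.Icc j k = insert j (Finset.Icc (j + 1) k) := by
    ext i
    simp only [Finset.mem_Icc, Finset.mem_insert]
    omega
  unfold tail
  rw [h1, Finset.sum_insert (by simp)]
theorem pair_bump (k : ℕ) (m p s : ℕ → ℝ) (u : ℝ) (j : ℕ) :
    pair k m p (bump s u j) = pair k m p s + u * tail k m p j := by
  have h1 : Finset.Icc j k = (Finset.range (k + 1)).filter (j ≤ ·) := by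
    ext i
    simp only [Finset.mem_Icc, Finset.mem_filter, Finset.mem_range]
    omega
  unfold pair tail bump
  rw [h1, Finset.sum_filter, Finset.mul_sum, ← Finset.sum_add_distrib]
  refine Finset.sum_congr rfl fun i _ => ?_
  split_ifs <;> ring
/-- tail sums control the pairing with a path -/
theorem pair_sub_le {p p' s : ℕ → ℝ} (hs : IsPath k s) {η : ℝ}
    (h : ∀ j ≤ k, tail k m p j - η ≤ tail k m p' j) : pair k m p s - η * s k ≤ pair k m p' s := by
  rw [pair_eq_sum_tail, pair_eq_sum_tail, ← sum_inc s k, Finset.mul_sum, ← Finset.sum_sub_distrib]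
  refine Finset.sum_le_sum fun j hj => ?_
  have hj' : j ≤ k := Nat.lt_succ_iff.1 (Finset.mem_range.1 hj)
  nlinarith [mul_le_mul_of_nonneg_left (h j hj') (hs.inc_nonneg hj')]
theorem pair_bounds (hk : IsPartition k m) (hp : IsPath k p) (hp1 : p k ≤ 1) (hq : IsPath k q) :
    0 ≤ pair k m q p ∧ pair k m q p ≤ pair k m q (fun _ => 1) ∧ pair k m q (fun _ => 1) ≤ q k := by
  have h1 : ∀ j ∈ Finset.range (k + 1), j ≤ k ∧ 0 ≤ m (j + 1) - m j := fun j hj =>
    ⟨Nat.lt_succ_iff.1 (Finset.mem_range.1 hj),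
      (sub_pos.2 (hk.2.2 j (Nat.lt_succ_iff.1 (Finset.mem_range.1 hj)))).le⟩
  refine ⟨Finset.sum_nonneg fun j hj => mul_nonneg (h1 j hj).2
    (mul_nonneg (hq.nonneg (h1 j hj).1) (hp.nonneg (h1 j hj).1)),
    Finset.sum_le_sum fun j hj => mul_le_mul_of_nonneg_left (mul_le_mul_of_nonneg_left
      ((hp.mono_le (h1 j hj).1 le_rfl).trans hp1) (hq.nonneg (h1 j hj).1)) (h1 j hj).2, ?_⟩
  have h2 : pair k m q (fun _ => 1) ≤ ∑ j ∈ Finset.range (k + 1), (m (j + 1) - m j) * q k :=
    Finset.sum_le_sum fun j hj => mul_le_mul_of_nonneg_left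
      ((mul_one _).trans_le (hq.mono_le (h1 j hj).1 le_rfl)) (h1 j hj).2
  rwa [← Finset.sum_mul, Finset.sum_range_sub, hk.1, hk.2.1, sub_zero, one_mul] at h2
theorem abs_tail_top1 (hk : IsPartition k m) {δ : ℝ} (hδ : Mesh k m δ) (hp : IsPath k p)
    (hp1 : p k ≤ 1) {j : ℕ} (hj : j ≤ k) : |tail k m (top1 k p) j - tail k m p j| ≤ δ := by
  have h1 : tail k m (top1 k p) j - tail k m p j = (m (k + 1) - m k) * (1 - p k) := by
    unfold tail
    rw [← Finset.sum_sub_distrib, Finset.sum_eq_single k]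
    · simp only [top1, if_true]
      ring
    · intro i _ hi
      simp only [top1, if_neg hi, sub_self]
    · intro h
      exact absurd (Finset.mem_Icc.2 ⟨hj, le_rfl⟩) h
  have h2 := sub_pos.2 (hk.2.2 k le_rfl)
  have h3 := hp.nonneg le_rfl
  rw [h1, abs_of_nonneg (mul_nonneg h2.le (sub_nonneg.2 hp1))]
  exact (mul_le_of_le_one_right h2.le (by linarith)).trans (hδ k le_rfl)
theorem ro_inc {q' : ℕ → ℝ} (h : ∀ j ≤ k, q j = q' j) {j : ℕ} (hj : j ≤ k) : inc q j = inc q' j := by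
  cases j with
  | zero => exact h 0 hj
  | succ j => simp only [inc, h _ hj, h j (by omega)]
theorem parisi_congr {q' : ℕ → ℝ} (F : ℝ → ℝ) (h : ∀ j ≤ k, q j = q' j) :
    parisi k m q F = parisi k m q' F := by
  have key : ∀ n j, j + n ≤ k + 1 → levels m q F n j = levels m q' F n j := by
    intro n
    induction n with
    | zero => intro _ _; rfl
    | succ n ih =>
      intro j hj
      simp only [levels, ih (j + 1) (by omega), ro_inc h (show j ≤ k by omega)]
  unfold parisi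
  rw [key (k + 1) 0 (by omega)]
theorem e1_congr {q' : ℕ → ℝ} (F φ : ℝ → ℝ) (h : ∀ j ≤ k, q j = q' j) {i : ℕ} (hi : i ≤ k) :
    e1 k m q F φ i = e1 k m q' F φ i :=
  E2_congr hi fun l hl => ⟨rfl, by unfold rq; rw [ro_inc h hl]⟩
theorem e1_isPath (hk : IsPartition k m) {F φ : ℝ → ℝ} {C b : ℝ} (hF : Env F C) (hφ : Measurable φ)
    (hb : ∀ y, |φ y| ≤ b) : IsPath k (e1 k m q F φ) ∧ e1 k m q F φ k ≤ b ^ 2 := by
  have hL : Lv m (rq q) (k + 1) 0 := (hk.lv (expM_rq q)).mono le_rfl (by omega)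
  exact ⟨⟨E2_nonneg, fun j hj => E2_mono hF hL hφ hb hj⟩, E2_le hF hL hb le_rfl⟩

theorem C2d.env {F : ℝ → ℝ} (h : C2d F K) : Env F K :=
  Env.of_lip h.d1.continuous.measurable ((abs_nonneg _).trans (h.b1 0)) fun y y' =>
    convex_univ.norm_image_sub_le_of_norm_deriv_le (fun x _ => h.d1 x) (fun x _ => h.b1 x)
      (Set.mem_univ y') (Set.mem_univ y)
theorem C2b.c2d {F : ℝ → ℝ} (h : C2b F K) : C2d F K := ⟨h.d1, h.d2, h.b1, h.b2⟩
theorem lc_c2d : C2d lc 1 ∧ deriv lc = tanh ∧ ∀ y, deriv (deriv lc) y + deriv lc y ^ 2 = 1 := by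
  have h1 : ∀ y, HasDerivAt lc (tanh y) y := fun y => by
    rw [tanh_eq_sinh_div_cosh]
    exact (hasDerivAt_cosh y).log (cosh_pos y).ne'
  have h2 : ∀ y, HasDerivAt tanh (1 - tanh y ^ 2) y := fun y => by
    have h3 := (hasDerivAt_sinh y).fun_div (hasDerivAt_cosh y) (cosh_pos y).ne'
    simp only [← tanh_eq_sinh_div_cosh] at h3
    refine h3.congr_deriv ?_
    have := (cosh_pos y).ne'
    rw [tanh_eq_sinh_div_cosh]
    field_simp
  have h3 : deriv lc = tanh := funext fun y => (h1 y).deriv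
  refine ⟨⟨fun y => (h1 y).differentiableAt, fun y => ?_, fun y => ?_, fun y => ?_⟩, h3,
    fun y => ?_⟩
  · rw [h3]; exact (h2 y).differentiableAt
  · rw [h3]; exact (abs_tanh_lt_one y).le
  · rw [h3, (h2 y).deriv, abs_le]
    constructor <;> nlinarith [tanh_sq_lt_one y, sq_nonneg (tanh y)]
  · rw [h3, (h2 y).deriv]; ring

theorem abs_parisi_le (hk : IsPartition k m) (hf : Measurable f) (hK : ∀ y, |f y| ≤ K) :
    |parisi k m q f| ≤ K := by
  rw [parisi_eq_Rec hk (Env.of_bdd hf hK)]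
  exact abs_Rec_le hf ((hk.lv (expM_rq q)).mono le_rfl (by omega)) hK 0
theorem ro_Tm_le (hf : Measurable f) (hK : ∀ y, |f y| ≤ K) {a : ℝ} (ha : 0 ≤ a) (ha1 : a ≤ 1)
    (w y : ℝ) : |Tm a (gw w) f y| ≤ K :=
  abs_Rec_le (m := fun _ => a) (ρ := fun _ => gw w) (n := 1) (j := 0) hf
    (fun _ _ _ => ⟨ha, ha1, expM_gw w⟩) hK y
theorem ro_Tm_close (hf : Measurable f) (hK : ∀ y, |f y| ≤ K) {a : ℝ} (ha : 0 ≤ a) (ha1 : a ≤ 1)
    (w y : ℝ) : |Tm a (gw w) f y - Tm 1 (gw w) f y| ≤ 2 * K * (1 - a) := by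
  have hE := Env.of_bdd hf hK
  have h1 := Tm_mono_exp hE (expM_gw w) ha ha1 y
  have h2 := integral_mono (hE.integrable_exp (expM_gw w) 1 y)
    ((hE.integrable_exp (expM_gw w) a y).const_mul (exp ((1 - a) * K))) fun η => by
      show exp (1 * f (y + η)) ≤ exp ((1 - a) * K) * exp (a * f (y + η))
      rw [← exp_add, exp_le_exp]
      nlinarith [mul_le_mul_of_nonneg_left (abs_le.1 (hK (y + η))).2 (sub_nonneg.2 ha1)]
  rw [integral_const_mul, ← exp_Tm hE (expM_gw w), ← exp_Tm hE (expM_gw w), ← exp_add,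
    exp_le_exp] at h2
  have h3 := mul_le_mul_of_nonneg_left (abs_le.1 (ro_Tm_le hf hK ha ha1 w y)).1 (sub_nonneg.2 ha1)
  rw [abs_sub_comm, abs_of_nonneg (sub_nonneg.2 h1)]
  linarith
theorem abs_energy_le (hk : IsPartition k m) (hf : Measurable f) (hK : ∀ y, |f y| ≤ K) :
    |energy f k m p| ≤ K := by
  unfold energy
  rw [step_eq_Tm hf]
  exact abs_parisi_le hk ((Env.of_bdd hf hK).tm (expM_gw _) zero_le_one).meas
    (ro_Tm_le hf hK zero_le_one le_rfl _)
theorem top1_close (hk : IsPartition k m) (h1 : 1 ≤ k) {δ : ℝ} (hδ : Mesh k m δ) (hp : IsPath k p)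
    (hp1 : p k ≤ 1) (hf : Measurable f) (hK : ∀ y, |f y| ≤ K) :
    |parisi k m (top1 k p) f - energy f k m p| ≤ 2 * K * δ := by
  obtain ⟨k, rfl⟩ : ∃ k', k = k' + 1 := ⟨k - 1, by omega⟩
  have hE := Env.of_bdd hf hK
  have ha : 0 < m (k + 1) := hk.pos h1 (by omega)
  have ha1 : m (k + 1) ≤ 1 := (hk.2.2 _ le_rfl).le.trans hk.2.1.le
  have hb : 0 ≤ 1 - p (k + 1) := sub_nonneg.2 hp1
  have h2 : Rec m (rq (top1 (k + 1) p)) f (k + 1 + 1) 0 =
      Rec m (rq p) (Tm (m (k + 1)) (gw √(1 - p (k + 1))) f) (k + 1 + 1) 0 := by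
    rw [Rec_split (k + 1) 1 0, Rec_split (k + 1) 1 0, Rec_congr (n := k + 1) (m' := m)
      (ρ' := rq p) (j' := 0) fun i hi => ⟨rfl, ?_⟩]
    · congr 1
      have h3 : inc (top1 (k + 1) p) (k + 1) = inc p (k + 1) + (1 - p (k + 1)) := by
        simp [inc, top1]
      simp only [Rec, rq, zero_add]
      rw [h3, Tm_semigroup hE ha.le (hp.inc_nonneg le_rfl) hb]
    · unfold rq
      rw [ro_inc (k := k) (q := top1 (k + 1) p) (q' := p) (j := 0 + i)
        (fun j hj => if_neg (by omega)) (by omega)]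
  unfold energy
  rw [step_eq_Tm hf, parisi_eq_Rec hk hE, parisi_eq_Rec hk (hE.tm (expM_gw _) zero_le_one), h2]
  refine abs_Rec_sub_le (hE.tm (expM_gw _) ha.le) (hE.tm (expM_gw _) zero_le_one)
    ((hk.lv (expM_rq p)).mono le_rfl (by omega)) (fun y => ?_) 0
  have h4 := hδ _ le_rfl
  rw [hk.2.1] at h4
  exact (ro_Tm_close hf hK ha.le ha1 _ y).trans (mul_le_mul_of_nonneg_left h4 hE.nonneg)
theorem ro_energy (hk : IsPartition k m) (hf : Measurable f) (hK : ∀ y, |f y| ≤ K) :
    energy f k m p = Rec m (rq (Function.update p (k + 1) 1)) f (k + 2) 0 0 := by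
  have hE := Env.of_bdd hf hK
  unfold energy
  rw [step_eq_Tm hf, parisi_eq_Rec hk (hE.tm (expM_gw _) zero_le_one), Rec_split (k + 1) 1 0,
    Rec_congr (n := k + 1) (m' := m) (ρ' := rq (Function.update p (k + 1) 1)) (j' := 0)
      fun i hi => ⟨rfl, ?_⟩]
  · simp [Rec, rq, inc, hk.2.1]
  · unfold rq
    rw [ro_inc (k := k) (q := p) (q' := Function.update p (k + 1) 1) (j := 0 + i)
      (fun j hj => (Function.update_of_ne (by omega) _ _).symm) (by omega)]
theorem ro_avg (hq : IsPath k q) (n : ℕ) (hn : n ≤ k) {φ : ℝ → ℝ} {C : ℝ} (hφ : Env φ C) :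
    Rec (fun _ => 0) (rq q) φ (n + 1) 0 = Tm 0 (gw √(q n)) φ := by
  induction n generalizing φ with
  | zero => rfl
  | succ n ih =>
    have h1 : q (n + 1) = q n + inc q (n + 1) := by simp [inc]
    rw [Rec_split (n + 1) 1 0, h1, Tm_semigroup hφ le_rfl (hq.nonneg (by omega)) (hq.inc_nonneg hn),
      ← ih (by omega) (hφ.tm (expM_gw _) le_rfl)]
    simp only [Rec, rq, zero_add]
theorem energy_lip (hk : IsPartition k m) (hp : IsPath k p) (hp1 : p k ≤ 1) {f' : ℝ → ℝ}
    (hf : Measurable f) (hK : ∀ y, |f y| ≤ K) (hf' : Measurable f') (hK' : ∀ y, |f' y| ≤ K) :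
    |energy f k m p - energy f' k m p| ≤ exp (2 * K) * ∫ y, |f y - f' y| ∂(gaussianReal 0 1) := by
  have hq : IsPath (k + 1) (Function.update p (k + 1) 1) := by
    refine ⟨by rw [Function.update_of_ne (by omega)]; exact hp.1, fun j hj => ?_⟩
    rw [Function.update_of_ne (by omega)]
    by_cases h : j = k
    · rw [h, Function.update_self]; exact hp1
    · rw [Function.update_of_ne (by omega)]; exact hp.2 j (by omega)
  have hL := hk.lv (expM_rq (Function.update p (k + 1) 1))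
  have key : ∀ {g g' : ℝ → ℝ}, Measurable g → (∀ y, |g y| ≤ K) → Measurable g' →
      (∀ y, |g' y| ≤ K) → energy g k m p - energy g' k m p ≤
        exp (2 * K) * ∫ y, |g y - g' y| ∂(gaussianReal 0 1) := by
    intro g g' hg hgK hg' hgK'
    have hE := Env.of_bdd hg hgK
    have hb : ∀ y, |g' y - g y| ≤ K + K := fun y => (abs_sub _ _).trans (add_le_add (hgK' y) (hgK y))
    have hb' : ∀ y, abs |g y - g' y| ≤ K + K := fun y => by rw [abs_abs, abs_sub_comm]; exact hb y
    have m1 : Measurable fun y => g' y - g y := hg'.sub hg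
    have m2 : Measurable fun y => |g y - g' y| := (hg.sub hg').abs
    have h1 := Rec_tangent hE hL m1 hb 0
    have h2 := Tl_mono hE hL (m2.const_mul (-1)) (b := K + K)
      (fun y => by rw [neg_one_mul, abs_neg]; exact hb' y) m1 hb
      (fun y => by rw [abs_sub_comm, neg_one_mul]; exact neg_abs_le _) 0
    have h3 := Tl_le_avg hg hgK hL (fun i _ hi => (hk.2.2 i (by omega)).le) m2
      (fun y => abs_nonneg _) hb' 0
    rw [Tl_const_mul] at h2
    rw [ro_avg hq (k + 1) le_rfl (Env.of_bdd m2 hb'), Function.update_self,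
      gw_eq] at h3
    simp only [add_sub_cancel] at h1
    simp only [Tm, if_true, zero_add, sqrt_one, one_pow, Real.toNNReal_one] at h3
    rw [ro_energy hk hg hgK, ro_energy hk hg' hgK']
    linarith
  have h1 := key hf hK hf' hK'
  have h2 := key hf' hK' hf hK
  simp only [abs_sub_comm (f' _)] at h2
  rw [abs_le]
  constructor <;> linarith

end P157
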