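import Vale.Agent.P157.Inv
import Vale.Agent.P157.RMap
import Vale.Agent.P157.ROne

/-! P157 ACcor: consequences of `AC`, and `AC` from the invariance property.
Plan. `good_tf*`: `|X y| ≤ |X 0| + C (1 + ‖y‖)` and `‖tf w g ω‖ ≤ ∑_j |w j| ∑_x |g x|` (or
`tf_eq_dot`, `Feat.good`). `AC.two`/`AC.one`: take `w₃ = 0` and `X ∘ fst`, drop unused factors with
`FE_fst`, use `Rec_r3_fst`, `Rec_r2_fst`. `AC.comp`: `FE_comp` with `Prod.map` of measure preserving
maps. `A2_path`: `q (cj) * ind j = ∑ i, inc q i * ind (max i j)`, and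
`∑ i, inc q i * (1 - m (max i j)) = tail k m q j`. `ac_of_inv`: combine the marks into
`E × ((ℝ × ℝ) × ℝ)` with law `ν.prod (((γ.prod γ).prod γ))` (`measurePreserving_arrowProdEquivProdArrow`
three times, `prodAssoc`), apply `inv_FE` to `X₀ ∘ fst + X ∘ snd` (`Env.prod`) and to `X₀`, and subtract
using `Rec_prod` (`Measure.map_prod_map` identifies the level measures); the moment is at most
`Mo * (∫ exp (2 (C₀+B) B |z|))³` since `1 + ‖(a,b)‖ ≤ 1 + ‖a‖ + ‖b‖`. `ac_pure` is the case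
`E = Y = ℝ`, `ν = dirac 0`, `X₀ = 0` (or a direct application of `inv_FE`).
-/

open MeasureTheory ProbabilityTheory Real
open scoped BigOperators Matrix

namespace P157

variable {Ω S : Type} [MeasurableSpace Ω] [MeasurableSpace S] {P : Measure Ω}
  [IsProbabilityMeasure P] {μ : Measure S} [IsProbabilityMeasure μ]

variable {L k : ℕ} {m : ℕ → ℝ} {H : Ω → S → ℝ} {lf : S → Leaf L k} {B τ C : ℝ}

omit [IsProbabilityMeasure P] in
theorem ac_good_env {Y : Type} [NormedAddCommGroup Y] [MeasurableSpace Y] [BorelSpace Y]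
    [SecondCountableTopology Y] [IsFiniteMeasure P] {X : Y → ℝ} (hX : Env X C) {V : Ω → S → Y}
    (hm : Measurable fun p : Ω × S => V p.1 p.2) {D : Ω → S → ℝ} (hD : Good P D)
    (hn : ∀ ω σ, ‖V ω σ‖ ≤ D ω σ) : Good P (fun ω σ => X (V ω σ)) := by
  obtain ⟨b, hb, hb'⟩ := hD.bdd
  refine ⟨hX.meas.comp hm, fun ω => |X 0| + C + C * b ω,
    (integrable_const _).add (hb.const_mul C), fun ω σ => ?_⟩
  have h1 := hX.abs_le_shift 0 (V ω σ)
  rw [zero_add] at h1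
  have h2 := mul_le_mul_of_nonneg_left ((hn ω σ).trans ((le_abs_self _).trans (hb' ω σ))) hX.nonneg
  linarith

theorem good_tf0 (hlf : Measurable lf) (w : ℕ → ℝ) :
    Good (P.prod (gp (Nd L k))) (fun ω σ => tf w ω.2 (lf σ)) := by
  simp only [tf_eq_dot]
  exact (feat_tfeat (Ω := Ω) hlf w).good

theorem ac_norm_le {A A' : Type} [NormedAddCommGroup A] [NormedAddCommGroup A'] (a : A) (a' : A') :
    ‖(a, a')‖ ≤ ‖a‖ + ‖a'‖ := max_le_add_of_nonneg (norm_nonneg _) (norm_nonneg _)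

theorem good_tf1 (hlf : Measurable lf) {F : ℝ → ℝ} (hF : Env F C) (w : ℕ → ℝ) :
    Good (P.prod (gp (Nd L k))) (fun ω σ => F (tf w ω.2 (lf σ))) :=
  ac_good_env hF (good_tf0 (P := P) hlf w).meas (good_tf0 hlf w).abs fun _ _ => le_rfl

theorem good_tf2 (hlf : Measurable lf) {X : ℝ × ℝ → ℝ} (hX : Env X C) (w₁ w₂ : ℕ → ℝ) :
    Good ((P.prod (gp (Nd L k))).prod (gp (Nd L k)))
      (fun ω σ => X (tf w₁ ω.1.2 (lf σ), tf w₂ ω.2 (lf σ))) := by
  have h1 := (good_tf0 (P := P) hlf w₁).fst (gp (Nd L k))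
  have h2 := good_tf0 (P := P.prod (gp (Nd L k))) hlf w₂
  exact ac_good_env hX (h1.meas.prodMk h2.meas) (h1.abs.add h2.abs) fun _ _ => ac_norm_le _ _

theorem good_tf3 (hlf : Measurable lf) {X : (ℝ × ℝ) × ℝ → ℝ} (hX : Env X C) (w₁ w₂ w₃ : ℕ → ℝ) :
    Good (((P.prod (gp (Nd L k))).prod (gp (Nd L k))).prod (gp (Nd L k)))
      (fun ω σ => X ((tf w₁ ω.1.1.2 (lf σ), tf w₂ ω.1.2 (lf σ)), tf w₃ ω.2 (lf σ))) := by
  have h1 := ((good_tf0 (P := P) hlf w₁).fst (gp (Nd L k))).fst (gp (Nd L k))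
  have h2 := (good_tf0 (P := P.prod (gp (Nd L k))) hlf w₂).fst (gp (Nd L k))
  have h3 := good_tf0 (P := (P.prod (gp (Nd L k))).prod (gp (Nd L k))) hlf w₃
  exact ac_good_env hX ((h1.meas.prodMk h2.meas).prodMk h3.meas) ((h1.abs.add h2.abs).add h3.abs)
    fun _ _ => (ac_norm_le _ _).trans (add_le_add_left (ac_norm_le _ _) _)

theorem AC.mono {B' τ' : ℝ} (h : AC k m P μ H lf B τ) (hB : B' ≤ B) (hτ : τ ≤ τ') :
    AC k m P μ H lf B' τ' := fun w₁ w₂ w₃ X hw hX =>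
  (h w₁ w₂ w₃ X (fun j hj => ⟨(hw j hj).1.trans hB, (hw j hj).2.1.trans hB,
    (hw j hj).2.2.trans hB⟩) (hX.mono hB)).trans hτ

theorem ac_env_fst {Y Y' : Type} [NormedAddCommGroup Y] [MeasurableSpace Y] [NormedAddCommGroup Y']
    [MeasurableSpace Y'] {X : Y → ℝ} (hX : Env X C) : Env (fun y : Y × Y' => X y.1) C :=
  ⟨hX.meas.comp measurable_fst, fun y y' => (hX.lip _ _).trans (mul_le_mul_of_nonneg_left
    (add_le_add_right (norm_fst_le (y - y')) 1) (by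
      have h1 := (abs_nonneg _).trans (hX.lip 0 0)
      rwa [sub_self, norm_zero, add_zero, mul_one] at h1))⟩

theorem AC.two (h : AC k m P μ H lf B τ) (hk : IsPartition k m) (hH : Good P H)
    (hlf : Measurable lf) {w₁ w₂ : ℕ → ℝ} (hw : ∀ j ≤ k, |w₁ j| ≤ B ∧ |w₂ j| ≤ B)
    {X : ℝ × ℝ → ℝ} (hX : Env X B) :
    |FE ((P.prod (gp (Nd L k))).prod (gp (Nd L k))) μ
        (fun ω σ => H ω.1.1 σ + X (tf w₁ ω.1.2 (lf σ), tf w₂ ω.2 (lf σ)))
      - FE P μ H - Rec m (r2 w₁ w₂) X (k + 1) 0 0| ≤ τ := by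
  have h1 := h w₁ w₂ (fun _ => 0) (fun y => X y.1) (fun j hj => ⟨(hw j hj).1, (hw j hj).2,
    abs_zero.trans_le hX.nonneg⟩) (ac_env_fst hX)
  rw [Rec_r3_fst hk hX] at h1
  rw [← FE_fst (P' := gp (Nd L k)) (((hH.fst _).fst _).add (good_tf2 hlf hX w₁ w₂))]
  exact h1

theorem AC.one (h : AC k m P μ H lf B τ) (hk : IsPartition k m) (hH : Good P H)
    (hlf : Measurable lf) {w : ℕ → ℝ} (hw : ∀ j ≤ k, |w j| ≤ B) {F : ℝ → ℝ} (hF : Env F B) :
    |FE (P.prod (gp (Nd L k))) μ (fun ω σ => H ω.1 σ + F (tf w ω.2 (lf σ)))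
      - FE P μ H - Rec m (fun j => gw (w j)) F (k + 1) 0 0| ≤ τ := by
  have h1 := h.two hk hH hlf (w₁ := w) (w₂ := fun _ => 0) (X := fun y => F y.1)
    (fun j hj => ⟨hw j hj, abs_zero.trans_le hF.nonneg⟩) (ac_env_fst hF)
  rw [Rec_r2_fst hk hF] at h1
  rw [← FE_fst (P' := gp (Nd L k)) ((hH.fst _).add (good_tf1 hlf hF w))]
  exact h1

theorem ac_comp_iff (hH : Good P H) (hlf : Measurable lf) {Ω' S' : Type}
    [MeasurableSpace Ω'] [MeasurableSpace S'] {P' : Measure Ω'} [IsProbabilityMeasure P']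
    {μ' : Measure S'} [IsProbabilityMeasure μ'] {e : Ω' → Ω} (he : MeasurePreserving e P' P)
    {q : S' → S} (hq : MeasurePreserving q μ' μ) :
    AC k m P' μ' (fun ω σ => H (e ω) (q σ)) (fun σ => lf (q σ)) B τ ↔ AC k m P μ H lf B τ := by
  refine forall_congr' fun w₁ => forall_congr' fun w₂ => forall_congr' fun w₃ =>
    forall_congr' fun X => forall_congr' fun _ => forall_congr' fun hX => ?_
  have h1 := FE_comp ((((hH.fst _).fst _).fst _).add (good_tf3 hlf hX w₁ w₂ w₃))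
    (((he.prod (MeasurePreserving.id (gp (Nd L k)))).prod
      (MeasurePreserving.id (gp (Nd L k)))).prod (MeasurePreserving.id (gp (Nd L k)))) hq
  rw [FE_comp hH he hq, ← h1]
  rfl

theorem AC.comp (h : AC k m P μ H lf B τ) (hH : Good P H) (hlf : Measurable lf) {Ω' S' : Type}
    [MeasurableSpace Ω'] [MeasurableSpace S'] {P' : Measure Ω'} [IsProbabilityMeasure P']
    {μ' : Measure S'} [IsProbabilityMeasure μ'] {e : Ω' → Ω} (he : MeasurePreserving e P' P)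
    {q : S' → S} (hq : MeasurePreserving q μ' μ) :
    AC k m P' μ' (fun ω σ => H (e ω) (q σ)) (fun σ => lf (q σ)) B τ :=
  (ac_comp_iff hH hlf he hq).2 h

theorem ac_ind_mul (i j : ℕ) (ω ω' : Leaf L k) :
    ind i ω ω' * ind j ω ω' = ind (max i j) ω ω' := by
  unfold ind
  by_cases h1 : i ≤ cj ω ω' <;> by_cases h2 : j ≤ cj ω ω' <;> simp [h1, h2]

theorem ac_tail_ind (e : ℕ → ℝ) (i j : ℕ) :
    tail k m (fun l => e l * if j ≤ l then 1 else 0) i = tail k m e (max i j) := by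
  unfold tail
  rw [← Finset.sum_subset (Finset.Icc_subset_Icc_left (le_max_left i j))]
  · refine Finset.sum_congr rfl fun l hl => ?_
    beta_reduce
    rw [if_pos ((le_max_right i j).trans (Finset.mem_Icc.1 hl).1), mul_one]
  · intro l h1 h2
    rw [Finset.mem_Icc] at h1 h2
    beta_reduce
    rw [if_neg fun h3 => h2 ⟨max_le h1.1 h3, h1.2⟩, mul_zero, mul_zero]

theorem ac_tail_eq (hk : IsPartition k m) (q : ℕ → ℝ) {j : ℕ} (hj : j ≤ k) :
    tail k m q j = ∑ i ∈ Finset.range (k + 1), inc q i * (1 - m (max i j)) := by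
  have h1 := pair_eq_sum_tail k m (fun l => 1 * if j ≤ l then 1 else 0) q
  have h2 := ac_tail_ind (k := k) (m := m) q 0 j
  rw [max_eq_right (Nat.zero_le j)] at h2
  have h3 : pair k m (fun l => 1 * if j ≤ l then 1 else 0) q =
      tail k m (fun l => q l * if j ≤ l then 1 else 0) 0 := by
    unfold pair tail
    rw [Finset.range_eq_Ico, Finset.Ico_add_one_right_eq_Icc]
    exact Finset.sum_congr rfl fun l _ => by ring
  rw [← h2, ← h3, h1]
  refine Finset.sum_congr rfl fun i hi => ?_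
  rw [ac_tail_ind (fun _ => 1) i j, tail_one hk (max_le (Nat.lt_succ_iff.1 (Finset.mem_range.1 hi)) hj)]

theorem A2_path (hk : IsPartition k m) (hH : Good P H) (hlf : Measurable lf)
    (h : ∀ j ≤ k, |A2 P μ H (fun _ σ σ' => ind j (lf σ) (lf σ')) - (1 - m j)| ≤ τ) {q : ℕ → ℝ}
    (hq : IsPath k q) {j : ℕ} (hj : j ≤ k) :
    |A2 P μ H (fun _ σ σ' => q (cj (lf σ) (lf σ')) * ind j (lf σ) (lf σ')) - tail k m q j|
      ≤ τ * q k := by
  have h1 : (fun (_ : Ω) σ σ' => q (cj (lf σ) (lf σ')) * ind j (lf σ) (lf σ')) =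
      fun (_ : Ω) σ σ' => ∑ i ∈ Finset.range (k + 1), inc q i * ind (max i j) (lf σ) (lf σ') := by
    funext _ σ σ'
    rw [eq_sum_ind q, Finset.sum_mul]
    exact Finset.sum_congr rfl fun i _ => by rw [mul_assoc, ac_ind_mul]
  rw [h1, A2_sum hH _ (F := fun i _ σ σ' => inc q i * ind (max i j) (lf σ) (lf σ'))
    fun i _ => (bd2_ind hlf _).good2.const_mul _, ac_tail_eq hk q hj, ← Finset.sum_sub_distrib,
    ← sum_inc q k, Finset.mul_sum]
  refine (Finset.abs_sum_le_sum_abs _ _).trans (Finset.sum_le_sum fun i hi => ?_)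
  have hi' := Nat.lt_succ_iff.1 (Finset.mem_range.1 hi)
  rw [A2_const_mul, ← mul_sub, abs_mul, abs_of_nonneg (hq.inc_nonneg hi'), mul_comm τ]
  exact mul_le_mul_of_nonneg_left (h _ (max_le hi' hj)) (hq.inc_nonneg hi')

theorem ac_zip {ι A A' : Type} [Fintype ι] [MeasurableSpace A] [MeasurableSpace A'] (ν : Measure A)
    (ν' : Measure A') [IsProbabilityMeasure ν] [IsProbabilityMeasure ν'] :
    MeasurePreserving (fun (p : (ι → A) × (ι → A')) (x : ι) => (p.1 x, p.2 x))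
      ((Measure.pi fun _ => ν).prod (Measure.pi fun _ => ν')) (Measure.pi fun _ => ν.prod ν') :=
  (measurePreserving_arrowProdEquivProdArrow A A' ι (fun _ => ν) fun _ => ν').symm _

theorem ac_marks {ι E : Type} [Fintype ι] [MeasurableSpace E] (ν : Measure E)
    [IsProbabilityMeasure ν] :
    MeasurePreserving (fun ω : (((Ω × (ι → E)) × (ι → ℝ)) × (ι → ℝ)) × (ι → ℝ) =>
        (ω.1.1.1.1, fun x => (ω.1.1.1.2 x, ((ω.1.1.2 x, ω.1.2 x), ω.2 x))))
      ((((P.prod (Measure.pi fun _ => ν)).prod (gp ι)).prod (gp ι)).prod (gp ι))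
      (P.prod (Measure.pi fun _ => ν.prod
        (((gaussianReal 0 1).prod (gaussianReal 0 1)).prod (gaussianReal 0 1)))) := by
  have h1 := (measurePreserving_prodAssoc (P.prod (Measure.pi fun _ : ι => ν)) (gp ι) (gp ι)).prod
    (MeasurePreserving.id (gp ι))
  have h2 := measurePreserving_prodAssoc (P.prod (Measure.pi fun _ : ι => ν))
    ((gp ι).prod (gp ι)) (gp ι)
  have h3 := (MeasurePreserving.id (P.prod (Measure.pi fun _ : ι => ν))).prod
    ((ac_zip (ι := ι) ((gaussianReal 0 1).prod (gaussianReal 0 1)) (gaussianReal 0 1)).comp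
      ((ac_zip (ι := ι) (gaussianReal 0 1) (gaussianReal 0 1)).prod (MeasurePreserving.id (gp ι))))
  have h4 := measurePreserving_prodAssoc P (Measure.pi fun _ : ι => ν) (Measure.pi fun _ : ι =>
    ((gaussianReal 0 1).prod (gaussianReal 0 1)).prod (gaussianReal 0 1))
  have h5 := (MeasurePreserving.id P).prod (ac_zip (ι := ι) ν
    (((gaussianReal 0 1).prod (gaussianReal 0 1)).prod (gaussianReal 0 1)))
  exact h5.comp (h4.comp (h3.comp (h2.comp h1)))

theorem ac_int {E Y : Type} [MeasurableSpace E] [NormedAddCommGroup Y] [MeasurableSpace Y]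
    {ν : Measure E} {w : E → Y} (hw : Measurable w) (h : ExpM (ν.map w)) (c : ℝ) :
    Integrable (fun η => exp (c * (1 + ‖w η‖))) ν := by
  refine (((h.int c).comp_measurable hw).const_mul (exp c)).congr
    (Filter.Eventually.of_forall fun η => ?_)
  change exp c * exp (c * ‖w η‖) = exp (c * (1 + ‖w η‖))
  rw [← exp_add, mul_add, mul_one]

theorem ac_moment {E Y : Type} [MeasurableSpace E] [NormedAddCommGroup Y] [MeasurableSpace Y]
    {ν : Measure E} [IsProbabilityMeasure ν] {w : E → Y} (hw : Measurable w) (h : ExpM (ν.map w))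
    {c : ℝ} (hc : 0 ≤ c) {a₁ a₂ a₃ : ℝ} (h1 : |a₁| ≤ B) (h2 : |a₂| ≤ B) (h3 : |a₃| ≤ B) :
    ∫ η, exp (c * (1 + ‖Prod.map w (Prod.map (Prod.map (fun z : ℝ => a₁ * z) fun z : ℝ => a₂ * z)
        fun z : ℝ => a₃ * z) η‖))
      ∂(ν.prod (((gaussianReal 0 1).prod (gaussianReal 0 1)).prod (gaussianReal 0 1))) ≤
      (∫ η, exp (c * (1 + ‖w η‖)) ∂ν) * (∫ z, exp (c * B * |z|) ∂(gaussianReal 0 1)) ^ 3 := by
  have hg := integrable_exp_abs_gauss (c * B)
  have hi := (ac_int hw h c).mul_prod ((hg.mul_prod hg).mul_prod hg)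
  refine (integral_mono_of_nonneg (Filter.Eventually.of_forall fun _ => (exp_pos _).le) hi
    (Filter.Eventually.of_forall fun η => ?_)).trans (le_of_eq ?_)
  · obtain ⟨η, ⟨z₁, z₂⟩, z₃⟩ := η
    change exp (c * (1 + ‖(w η, ((a₁ * z₁, a₂ * z₂), a₃ * z₃))‖)) ≤
      exp (c * (1 + ‖w η‖)) * (exp (c * B * |z₁|) * exp (c * B * |z₂|) * exp (c * B * |z₃|))
    rw [← exp_add, ← exp_add, ← exp_add, exp_le_exp]
    have e1 := ac_norm_le (w η) ((a₁ * z₁, a₂ * z₂), a₃ * z₃)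
    have e2 := ac_norm_le (a₁ * z₁, a₂ * z₂) (a₃ * z₃)
    have e3 := ac_norm_le (a₁ * z₁) (a₂ * z₂)
    have e4 : ∀ {a : ℝ} (z : ℝ), |a| ≤ B → ‖a * z‖ ≤ B * |z| := fun z ha => by
      rw [Real.norm_eq_abs, abs_mul]
      exact mul_le_mul_of_nonneg_right ha (abs_nonneg _)
    have e5 : 1 + ‖(w η, ((a₁ * z₁, a₂ * z₂), a₃ * z₃))‖ ≤
        1 + ‖w η‖ + (B * |z₁| + B * |z₂| + B * |z₃|) := by
      linarith [e4 z₁ h1, e4 z₂ h2, e4 z₃ h3]
    have e6 := mul_le_mul_of_nonneg_left e5 hc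
    linarith
  · rw [integral_prod_mul (fun η => exp (c * (1 + ‖w η‖))) fun z : (ℝ × ℝ) × ℝ =>
        exp (c * B * |z.1.1|) * exp (c * B * |z.1.2|) * exp (c * B * |z.2|),
      integral_prod_mul (fun z : ℝ × ℝ => exp (c * B * |z.1|) * exp (c * B * |z.2|))
        fun z : ℝ => exp (c * B * |z|),
      integral_prod_mul (fun z : ℝ => exp (c * B * |z|)) fun z : ℝ => exp (c * B * |z|)]
    ring

theorem ac_small (a : ℝ) {τ : ℝ} (hτ : 0 < τ) : ∀ᶠ L : ℕ in Filter.atTop, a / √(L : ℝ) ≤ τ :=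
  (Filter.Tendsto.const_div_atTop (tendsto_sqrt_atTop.comp tendsto_natCast_atTop_atTop)
    a).eventually_le_const hτ

theorem ac_of_inv (hk : IsPartition k m) (B C₀ Mo : ℝ) {τ : ℝ} (hτ : 0 < τ) :
    ∃ L₀ : ℕ, ∀ L ≥ L₀, 0 < L ∧ ∀ {E Y : Type} [MeasurableSpace E] [NormedAddCommGroup Y]
      [MeasurableSpace Y] [BorelSpace Y] [SecondCountableTopology Y] (ν : Measure E)
      [IsProbabilityMeasure ν] {w : ℕ → E → Y} (_ : ∀ j, Measurable (w j))
      (_ : ∀ j, ExpM (ν.map (w j))) {X₀ : Y → ℝ} (_ : Env X₀ C₀)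
      (_ : ∀ j ≤ k, ∫ η, exp (2 * (C₀ + |B|) * (1 + ‖w j η‖)) ∂ν ≤ Mo),
      AC k m ((PU L k m).prod (Measure.pi fun _ : Nd L k => ν)) (unif L k)
        (fun ω l => lw m ω.1 l + X₀ (st w ω.2 l)) id B τ := by
  obtain ⟨L₀, hL₀⟩ := Filter.eventually_atTop.1 ((Filter.eventually_gt_atTop 0).and
    ((ac_small ((∑ j ∈ Finset.Icc 1 k, (m j)⁻¹) * Mo) hτ).and
      (ac_small ((∑ j ∈ Finset.Icc 1 k, (m j)⁻¹) *
        (Mo * (∫ z, exp (2 * (C₀ + B) * B * |z|) ∂(gaussianReal 0 1)) ^ 3)) hτ)))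
  refine ⟨L₀, fun L hL => ⟨(hL₀ L hL).1, ?_⟩⟩
  intro E Y _ _ _ _ _ ν _ w hw hρ X₀ hX₀ hMo w₁ w₂ w₃ X hb hX
  obtain ⟨hL1, hL2, hL3⟩ := hL₀ L hL
  have := unif_prob hL1 k
  rw [abs_of_nonneg hX.nonneg] at hMo
  have hc : 0 ≤ 2 * (C₀ + B) := by linarith [hX.nonneg, hX₀.nonneg]
  have h1 := inv_FE hk hL1 ν hw hρ hX₀ (Mo := Mo) fun j hj => by
    refine le_trans (integral_mono (ac_int (hw j) (hρ j) _) (ac_int (hw j) (hρ j) _)
      fun η => exp_le_exp.2 (mul_le_mul_of_nonneg_right ?_ (by positivity))) (hMo j hj)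
    linarith [hX.nonneg]
  obtain ⟨w', hw'⟩ : ∃ w' : ℕ → E × ((ℝ × ℝ) × ℝ) → Y × ((ℝ × ℝ) × ℝ), w' = fun j =>
      Prod.map (w j) (Prod.map (Prod.map (fun z : ℝ => w₁ j * z) fun z : ℝ => w₂ j * z)
        fun z : ℝ => w₃ j * z) := ⟨_, rfl⟩
  have hm : ∀ a : ℝ, Measurable fun z : ℝ => a * z := fun a => measurable_const_mul a
  have hw1 : ∀ j, Measurable (w' j) := fun j => by
    rw [hw']
    exact (hw j).prodMap (((hm _).prodMap (hm _)).prodMap (hm _))
  have hw2 : (fun j => (ν.prod (((gaussianReal 0 1).prod (gaussianReal 0 1)).prod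
      (gaussianReal 0 1))).map (w' j)) = fun j => (ν.map (w j)).prod (r3 w₁ w₂ w₃ j) := by
    funext j
    rw [hw', r3, r2, gw, gw, gw, Measure.map_prod_map _ _ (hm _) (hm _),
      Measure.map_prod_map _ _ ((hm _).prodMap (hm _)) (hm _),
      Measure.map_prod_map _ _ (hw j) (((hm _).prodMap (hm _)).prodMap (hm _))]
  have hw3 : ∀ j, ExpM ((ν.prod (((gaussianReal 0 1).prod (gaussianReal 0 1)).prod
      (gaussianReal 0 1))).map (w' j)) := fun j => by
    rw [congrFun hw2 j]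
    exact (hρ j).prod (expM_r3 _ _ _ j)
  have h2 := inv_FE hk hL1 _ hw1 hw3 (hX₀.prod hX)
    (Mo := Mo * (∫ z, exp (2 * (C₀ + B) * B * |z|) ∂(gaussianReal 0 1)) ^ 3) fun j hj => by
      rw [hw']
      exact (ac_moment (hw j) (hρ j) hc (hb j hj).1 (hb j hj).2.1 (hb j hj).2.2).trans
        (mul_le_mul_of_nonneg_right (hMo j hj)
          (pow_nonneg (integral_nonneg fun _ => (exp_pos _).le) 3))
  rw [hw2, Rec_prod hX₀ hX ((hk.lv hρ).mono le_rfl (by omega))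
    ((hk.lv (expM_r3 w₁ w₂ w₃)).mono le_rfl (by omega)),
    ← FE_comp (((lw_good m).fst _).add ((st_good _ hw1 hw3 (hX₀.prod hX)).snd _))
      (ac_marks (P := PU L k m) ν) (MeasurePreserving.id (unif L k))] at h2
  have h3 : ∀ (g : Nd L k → E) (g₁ g₂ g₃ : Nd L k → ℝ) (l : Leaf L k),
      st w' (fun x => (g x, ((g₁ x, g₂ x), g₃ x))) l =
        (st w g l, ((tf w₁ g₁ l, tf w₂ g₂ l), tf w₃ g₃ l)) := by
    intro g g₁ g₂ g₃ l
    rw [hw']
    unfold st tf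
    refine Prod.ext ?_ (Prod.ext (Prod.ext ?_ ?_) ?_) <;>
      simp only [Prod.fst_sum, Prod.snd_sum, Prod.map]
  simp only [h3, id, Prod.fst_zero, Prod.snd_zero, ← add_assoc] at h2 ⊢
  rw [abs_le]
  constructor <;> linarith [h1.1, h1.2, h2.1, h2.2]

theorem ac_pure (hk : IsPartition k m) (B : ℝ) {τ : ℝ} (hτ : 0 < τ) :
    ∃ L₀ : ℕ, ∀ L ≥ L₀, 0 < L ∧ AC k m (PU L k m) (unif L k) (lw m) id B τ := by
  obtain ⟨L₀, hL₀⟩ := ac_of_inv hk B 0 (exp (2 * (0 + |B|) * (1 + ‖(0 : ℝ)‖))) hτ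
  refine ⟨L₀, fun L hL => ⟨(hL₀ L hL).1, ?_⟩⟩
  have := unif_prob (hL₀ L hL).1 k
  have h1 := (hL₀ L hL).2 (Measure.dirac (0 : ℝ)) (w := fun _ _ => (0 : ℝ))
    (fun _ => measurable_const) (fun _ => by
      rw [Measure.map_const, measure_univ, one_smul]
      exact expM_dirac) (X₀ := fun _ => 0) ⟨measurable_const, fun _ _ => by simp⟩
    fun _ _ => by rw [integral_const, probReal_univ, one_smul]
  simp only [add_zero] at h1
  exact (ac_comp_iff (lw_good m) measurable_id measurePreserving_fst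
    (MeasurePreserving.id (unif L k))).1 h1

end P157
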