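import Vale.Agent.P157.Core

/-! P157 NiceB: bounds for smooth compactly supported potentials; density of such potentials.
Plan. `nice_bounds`: `f`, `deriv f`, `theta f` and their derivatives are continuous with compact support
(`ContDiff.deriv'`/`contDiff_infty_iff_deriv`, `HasCompactSupport.deriv`,
`Continuous.bounded_above_of_compact_support`). `nice_lind`: with `c = √(1-a²)`, `|1 - c| ≤ a²`,
`|1 - c - a²/2| ≤ a⁴`; Taylor for `f (cS + az)` around `cS` (third derivative bounded), and for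
`t ↦ f (tS)`, `f' (tS)`, `f'' (tS)` on `[1/2, 1]` (the functions `y f'`, `y² f''`, `y f''` and `y` times the third derivative are
bounded), giving `|DD1 - (a f'(S) z + a² (z² f''(S) - S f'(S))/2)| ≤ C a₀³ (1+|z|)³`; integrate using
`∫ z = 0`, `∫ z² = 1`. For the products both sides are `a a' f'(S) f'(S') z² + O(a₀³ (1+|z|)⁴)`.
`exists_nice`: `f` is integrable for the finite regular measure `gaussianReal 0 1`, so
`Integrable.exists_hasCompactSupport_integral_sub_le` gives a continuous compactly supported `g`; clamp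
it to `[-K, K]`, then approximate uniformly by a smooth compactly supported function (convolution with
a `ContDiffBump`, or a Weierstrass polynomial times a smooth bump function).
-/

open MeasureTheory ProbabilityTheory Real
open scoped BigOperators Matrix

namespace P157

private theorem Nice.der {f : ℝ → ℝ} (hf : Nice f) : Nice (deriv f) :=
  ⟨(contDiff_infty_iff_deriv.1 hf.1).2, hf.2.deriv⟩

private theorem Nice.theta {f : ℝ → ℝ} (hf : Nice f) : Nice (theta f) :=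
  ⟨(hf.der.der.1.add (hf.der.1.pow 2)).sub (contDiff_id.mul hf.der.1),
    hf.2.mono' fun y hy => by
      by_contra h
      have h1 := image_eq_zero_of_notMem_tsupport (fun k => h (tsupport_deriv_subset k))
      have h2 := image_eq_zero_of_notMem_tsupport
        (fun k => h (tsupport_deriv_subset (tsupport_deriv_subset k)))
      exact hy (by rw [P157.theta, h1, h2]; ring)⟩

private theorem Nice.c2b {f : ℝ → ℝ} (hf : Nice f) : ∃ K, C2b f K := by
  obtain ⟨a, ha⟩ := hf.1.continuous.bounded_above_of_compact_support hf.2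
  obtain ⟨b, hb⟩ := hf.der.1.continuous.bounded_above_of_compact_support hf.der.2
  obtain ⟨c, hc⟩ := hf.der.der.1.continuous.bounded_above_of_compact_support hf.der.der.2
  exact ⟨max a (max b c), (contDiff_infty_iff_deriv.1 hf.1).1,
    (contDiff_infty_iff_deriv.1 hf.der.1).1, fun y => (ha y).trans (by simp),
    fun y => (hb y).trans (by simp), fun y => (hc y).trans (by simp)⟩

theorem nice_bounds {f : ℝ → ℝ} (hf : Nice f) : ∃ K, NiceK f K := by
  obtain ⟨K₀, h₀⟩ := hf.c2b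
  obtain ⟨K₁, h₁⟩ := hf.der.c2b
  obtain ⟨K₂, h₂⟩ := hf.theta.c2b
  have mono : ∀ {φ : ℝ → ℝ} {K K' : ℝ}, C2b φ K → K ≤ K' → C2b φ K' := fun h hK =>
    ⟨h.d1, h.d2, fun y => (h.b0 y).trans hK, fun y => (h.b1 y).trans hK,
      fun y => (h.b2 y).trans hK⟩
  exact ⟨max (max 1 K₀) (max K₁ K₂), hf, by simp, mono h₀ (by simp), mono h₁ (by simp),
    mono h₂ (by simp)⟩
theorem NiceK.meas {f : ℝ → ℝ} {K : ℝ} (hf : NiceK f K) : Measurable f := hf.c0.d1.continuous.measurable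
theorem C2b.const {K : ℝ} (hK : 1 ≤ K) : C2b (fun _ => (1 : ℝ)) K :=
  ⟨differentiable_const _, by simp, fun _ => by simpa, fun _ => by simp; linarith,
    fun _ => by simp; linarith⟩
theorem C2b.mono {φ : ℝ → ℝ} {K K' : ℝ} (h : C2b φ K) (hK : K ≤ K') : C2b φ K' :=
  ⟨h.d1, h.d2, fun y => (h.b0 y).trans hK, fun y => (h.b1 y).trans hK, fun y => (h.b2 y).trans hK⟩
theorem measurable_DD1 {f : ℝ → ℝ} (hf : Nice f) :
    Measurable fun p : ℝ × ℝ × ℝ => DD1 f p.1 p.2.1 p.2.2 := by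
  have := hf.1.continuous
  unfold DD1
  exact Continuous.measurable (by fun_prop)
theorem measurable_DD2 {f : ℝ → ℝ} (hf : Nice f) :
    Measurable fun p : ℝ × ℝ × ℝ => DD2 f p.1 p.2.1 p.2.2 := by
  have := hf.der.1.continuous
  have := hf.theta.1.continuous
  unfold DD2
  exact Continuous.measurable (by fun_prop)

private theorem nb_mv {φ φ' : ℝ → ℝ} (hd : ∀ t, HasDerivAt φ (φ' t) t) (h0 : φ 0 = 0) {K : ℝ}
    (hK : 0 ≤ K) {n : ℕ} (hb : ∀ t, |φ' t| ≤ K * |t| ^ n) (h : ℝ) : |φ h| ≤ K * |h| ^ (n + 1) := by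
  have := (convex_closedBall (0 : ℝ) |h|).norm_image_sub_le_of_norm_hasDerivWithin_le
    (C := K * |h| ^ n) (fun x _ => (hd x).hasDerivWithinAt) (fun x hx => (hb x).trans (by
      rw [mem_closedBall_zero_iff, Real.norm_eq_abs] at hx
      gcongr)) (Metric.mem_closedBall_self (abs_nonneg h)) (mem_closedBall_zero_iff.2 le_rfl)
  rwa [h0, sub_zero, sub_zero, mul_assoc, ← Real.norm_eq_abs, ← pow_succ] at this

private theorem nb_taylor {f : ℝ → ℝ} {K : ℝ} (hf : NiceK f K) (y h : ℝ) :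
    |f (y + h) - f y - deriv f y * h - deriv (deriv f) y * h ^ 2 / 2| ≤ K * |h| ^ 3 := by
  have hK := zero_le_one.trans hf.one_le
  have d : ∀ {g : ℝ → ℝ}, Differentiable ℝ g → ∀ t,
      HasDerivAt (fun t => g (y + t) - g y) (deriv g (y + t)) t := fun hg t =>
    ((hg _).hasDerivAt.comp_const_add y t).sub_const _
  have h3 := nb_mv (d hf.c1.d2) (by simp) hK (n := 0) fun t => by simpa using hf.c1.b2 _
  have h2 := nb_mv (fun t => (d hf.c0.d2 t).sub ((hasDerivAt_id' t).const_mul (deriv (deriv f) y)))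
    (by simp) hK (n := 1) fun t => by simpa using h3 t
  exact nb_mv (φ' := fun t => deriv f (y + t) - deriv f y - deriv (deriv f) y * t)
    (fun t => by
      refine (((d hf.c0.d1 t).sub ((hasDerivAt_id' t).const_mul (deriv f y))).sub
        (((hasDerivAt_pow 2 t).const_mul (deriv (deriv f) y)).div_const 2)).congr_deriv ?_
      simp only [Nat.cast_ofNat, Nat.add_one_sub_one, pow_one]
      ring) (by simp) hK (n := 2) h2 h

private theorem nb_sqrt {a a₀ : ℝ} (h0 : a₀ ≤ 1 / 2) (ha : |a| ≤ a₀) :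
    1 / 2 ≤ √(1 - a ^ 2) ∧ |√(1 - a ^ 2) - 1| ≤ a₀ ^ 2 ∧
      |√(1 - a ^ 2) - 1 + a ^ 2 / 2| ≤ a₀ ^ 4 := by
  have h1 : a ^ 2 ≤ a₀ ^ 2 := sq_le_sq.2 (ha.trans (le_abs_self _))
  have h2 : 0 ≤ a₀ := (abs_nonneg a).trans ha
  have h3 : √(1 - a ^ 2) ^ 2 = 1 - a ^ 2 := sq_sqrt (by nlinarith)
  have h4 := sqrt_nonneg (1 - a ^ 2)
  have h5 := sq_nonneg a
  generalize √(1 - a ^ 2) = c at h3 h4
  have h6 : |c - 1| ≤ a₀ ^ 2 := abs_le.2 ⟨by nlinarith, by nlinarith⟩
  refine ⟨by nlinarith [abs_le.1 h6], h6, ?_⟩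
  rw [show c - 1 + a ^ 2 / 2 = -(|c - 1| ^ 2 / 2) by rw [sq_abs]; linarith, abs_neg,
    abs_of_nonneg (by positivity)]
  have := pow_le_pow_left₀ (abs_nonneg _) h6 2
  nlinarith [sq_nonneg (a₀ ^ 2)]

private theorem nb_main {f : ℝ → ℝ} {K : ℝ} (hf : NiceK f K) : ∃ C : ℝ, 0 ≤ C ∧
    ∀ a₀ a S z : ℝ, a₀ ≤ 1 / 2 → |a| ≤ a₀ →
      |DD1 f a S z - DD2 f a S z - a ^ 2 * deriv (deriv f) S / 2 * (z ^ 2 - 1)| ≤
        C * a₀ ^ 3 * (1 + |z|) ^ 3 := by
  have hK := zero_le_one.trans hf.one_le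
  obtain ⟨R₀, p₀, r₀⟩ := hf.nice.2.exists_pos_le_norm
  obtain ⟨R₁, p₁, r₁⟩ := hf.nice.der.2.exists_pos_le_norm
  obtain ⟨R₂, p₂, r₂⟩ := hf.nice.der.der.2.exists_pos_le_norm
  obtain ⟨R, hR, r⟩ : ∃ R : ℝ, 1 ≤ R ∧ ∀ y, R ≤ |y| →
      f y = 0 ∧ deriv f y = 0 ∧ deriv (deriv f) y = 0 :=
    ⟨1 + R₀ + R₁ + R₂, by linarith, fun y hy => ⟨r₀ y (by rw [Real.norm_eq_abs]; linarith),
      r₁ y (by rw [Real.norm_eq_abs]; linarith), r₂ y (by rw [Real.norm_eq_abs]; linarith)⟩⟩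
  refine ⟨K * R ^ 3 + K * R + K * R * (2 * R), by positivity, fun a₀ a S z h0 ha => ?_⟩
  obtain ⟨s1, s2, s3⟩ := nb_sqrt h0 ha
  have h1 : 0 ≤ a₀ := (abs_nonneg a).trans ha
  have h2 := abs_nonneg z
  have h3 : 1 ≤ 1 + |z| := by linarith
  have h4 : |a * z| ≤ a₀ * |z| := by
    rw [abs_mul]
    gcongr
  unfold DD1 DD2 theta
  generalize √(1 - a ^ 2) = c at s1 s2 s3
  rcases le_total |S| (2 * R) with hS | hS
  · have t := nb_taylor hf S ((c - 1) * S + a * z)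
    have h5 : |(c - 1) * S| ≤ a₀ ^ 2 * (2 * R) := by
      rw [abs_mul]
      gcongr
    have h6 : |(c - 1) * S| ≤ a₀ * R := h5.trans (by nlinarith [mul_nonneg h1 (zero_le_one.trans hR)])
    have h7 : |(c - 1) * S + a * z| ≤ a₀ * (R * (1 + |z|)) :=
      (abs_add_le _ _).trans (by nlinarith [mul_nonneg h1 h2])
    have h8 : |(c - 1) * S + a * z + a * z| ≤ a₀ * (2 * R * (1 + |z|)) :=
      (abs_add_le _ _).trans (by nlinarith [mul_nonneg h1 h2, mul_nonneg h1 (zero_le_one.trans hR)])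
    have b1 := hf.c0.b1 S
    have b2 := hf.c0.b2 S
    have e1 : |deriv f S * S * (c - 1 + a ^ 2 / 2)| ≤ K * (2 * R) * a₀ ^ 4 := by
      rw [abs_mul, abs_mul]
      gcongr
    have e2 : |deriv (deriv f) S * ((c - 1) * S) * ((c - 1) * S + a * z + a * z)| ≤
        K * (a₀ ^ 2 * (2 * R)) * (a₀ * (2 * R * (1 + |z|))) := by
      rw [abs_mul, abs_mul]
      gcongr
    have e3 : K * |(c - 1) * S + a * z| ^ 3 ≤ K * (a₀ * (R * (1 + |z|))) ^ 3 := by gcongr
    have e4 : K * (2 * R) * a₀ ^ 4 ≤ K * R * a₀ ^ 3 * (1 + |z|) ^ 3 :=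
      calc _ = K * R * a₀ ^ 3 * (2 * a₀) := by ring
        _ ≤ _ := mul_le_mul_of_nonneg_left (le_trans (by linarith) (one_le_pow₀ h3)) (by positivity)
    have e5 : K * R * (2 * R) * a₀ ^ 3 * (1 + |z|) ≤ K * R * (2 * R) * a₀ ^ 3 * (1 + |z|) ^ 3 :=
      mul_le_mul_of_nonneg_left (le_self_pow₀ h3 (by norm_num)) (by positivity)
    rw [show S + ((c - 1) * S + a * z) = c * S + a * z by ring] at t
    rw [abs_le] at t e1 e2 ⊢
    constructor <;> linarith [t.1, t.2, e1.1, e1.2, e2.1, e2.2]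
  · have t := nb_taylor hf (c * S) (a * z)
    obtain ⟨u0, u1, u2⟩ := r S (by linarith)
    obtain ⟨v0, v1, v2⟩ := r (c * S) (by
      rw [abs_mul, abs_of_nonneg (by linarith : 0 ≤ c)]
      nlinarith)
    rw [v0, v1, v2] at t
    rw [u0, u1, u2]
    simp only [zero_mul, mul_zero, sub_zero, zero_div, zero_pow two_ne_zero, add_zero] at t ⊢
    refine t.trans ?_
    calc K * |a * z| ^ 3 ≤ K * (a₀ * (R * (1 + |z|))) ^ 3 := by
          gcongr
          exact h4.trans (mul_le_mul_of_nonneg_left (by nlinarith) h1)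
      _ = K * R ^ 3 * a₀ ^ 3 * (1 + |z|) ^ 3 := by ring
      _ ≤ _ := by
          gcongr
          rw [add_assoc]
          exact le_add_of_nonneg_right (by positivity)

private theorem nb_ptw {f : ℝ → ℝ} {K : ℝ} (hf : NiceK f K) : ∃ C : ℝ, 0 ≤ C ∧
    ∀ a₀ a S z : ℝ, a₀ ≤ 1 / 2 → |a| ≤ a₀ →
      |DD1 f a S z - DD2 f a S z - a ^ 2 * deriv (deriv f) S / 2 * (z ^ 2 - 1)| ≤
        C * a₀ ^ 3 * (1 + |z|) ^ 3 ∧ |DD1 f a S z| ≤ C * a₀ * (1 + |z|) ^ 2 ∧
      |DD2 f a S z| ≤ C * a₀ * (1 + |z|) ^ 2 ∧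
      |DD1 f a S z - DD2 f a S z| ≤ C * a₀ ^ 2 * (1 + |z|) ^ 3 := by
  have hK := zero_le_one.trans hf.one_le
  obtain ⟨C, hC, h⟩ := nb_main hf
  refine ⟨C + 3 * K + K ^ 2, by positivity, fun a₀ a S z h0 ha => ?_⟩
  have t := h a₀ a S z h0 ha
  have h1 : 0 ≤ a₀ := (abs_nonneg a).trans ha
  have h2 := abs_nonneg z
  have h4 : a ^ 2 ≤ a₀ ^ 2 := sq_le_sq.2 (ha.trans (le_abs_self _))
  have h5 : |z ^ 2 - 1| ≤ (1 + |z|) ^ 2 := by
    rw [← sq_abs z]
    exact abs_le.2 ⟨by nlinarith, by nlinarith⟩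
  have e1 : |a ^ 2 * deriv (deriv f) S / 2 * (z ^ 2 - 1)| ≤ a₀ ^ 2 * K / 2 * (1 + |z|) ^ 2 := by
    have := hf.c0.b2 S
    rw [abs_mul, abs_div, abs_mul, abs_two, abs_sq]
    gcongr
  have e2 : |DD2 f a S z| ≤ a₀ * K * (1 + |z|) + a₀ ^ 2 * K ^ 2 / 2 + a₀ ^ 2 * K / 2 := by
    have := hf.c0.b1 S
    have := hf.ct.b0 S
    refine (abs_add_le _ _).trans (add_le_add ((abs_sub _ _).trans (add_le_add ?_ ?_)) ?_) <;>
      simp only [abs_mul, abs_div, abs_two, abs_pow] <;> gcongr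
    linarith
  have e3 : |DD1 f a S z| ≤ K + K := (abs_sub _ _).trans (add_le_add (hf.c0.b0 _) (hf.c0.b0 _))
  have h3 : 1 ≤ 1 + |z| := by linarith
  generalize 1 + |z| = w at *
  generalize DD1 f a S z = x at *
  generalize DD2 f a S z = y at *
  generalize a ^ 2 * deriv (deriv f) S / 2 * (z ^ 2 - 1) = u at *
  have w1 : w ≤ w ^ 2 := le_self_pow₀ h3 (by norm_num)
  have w2 : w ^ 2 ≤ w ^ 3 := pow_le_pow_right₀ h3 (by norm_num)
  have w3 : a₀ ^ 2 ≤ a₀ * w ^ 2 := by nlinarith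
  have w4 : 0 ≤ a₀ * w ^ 2 := by positivity
  have w5 : a₀ * w ≤ a₀ * w ^ 2 := by gcongr
  have w6 : a₀ ^ 2 * w ^ 2 ≤ a₀ * w ^ 2 := by nlinarith
  have e4 : |y| ≤ (3 / 2 * K + K ^ 2) * (a₀ * w ^ 2) := by
    nlinarith [mul_le_mul_of_nonneg_left w3 hK, mul_le_mul_of_nonneg_left w3 (sq_nonneg K),
      mul_le_mul_of_nonneg_left w5 hK, mul_nonneg (sq_nonneg K) w4]
  have e5 : |x - y| ≤ |x - y - u| + |u| := by simpa using abs_add_le (x - y - u) u
  have e6 : |x| ≤ |x - y| + |y| := by simpa using abs_add_le (x - y) y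
  have k1 := mul_nonneg hK w4
  have k2 := mul_nonneg hC w4
  have k3 := mul_nonneg (sq_nonneg K) w4
  refine ⟨t.trans (by gcongr; linarith [sq_nonneg K]), ?_, by linarith, ?_⟩
  · rcases le_total (a₀ * w) 1 with h6 | h6
    · have : (a₀ * w) ^ 3 ≤ a₀ * w ^ 2 := (pow_le_of_le_one (by positivity) h6 (by norm_num)).trans w5
      linarith [mul_le_mul_of_nonneg_left this hC, mul_le_mul_of_nonneg_left w6 hK]
    · linarith [mul_le_mul_of_nonneg_left (h6.trans w5) hK]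
  · have w7 : a₀ ^ 3 * w ^ 3 ≤ a₀ ^ 2 * w ^ 3 := by
      gcongr ?_ * _
      exact pow_le_pow_of_le_one h1 (by linarith) (by norm_num)
    have w8 : a₀ ^ 2 * w ^ 2 ≤ a₀ ^ 2 * w ^ 3 := by gcongr
    have w9 : 0 ≤ a₀ ^ 2 * w ^ 3 := by positivity
    linarith [mul_le_mul_of_nonneg_left w7 hC, mul_le_mul_of_nonneg_left w8 hK,
      mul_nonneg hK w9, mul_nonneg (sq_nonneg K) w9]

private theorem nb_mom (n : ℕ) : Integrable (fun z : ℝ => (1 + |z|) ^ n) (gaussianReal 0 1) := by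
  have h0 : MemLp id n (gaussianReal 0 1) := memLp_id_gaussianReal' n (ENNReal.natCast_ne_top n)
  have h1 : MemLp (fun _ : ℝ => (1 : ℝ)) n (gaussianReal 0 1) := memLp_const 1
  refine (h1.add h0.norm).integrable_norm_pow'.congr (.of_forall fun z => ?_)
  have : 0 ≤ 1 + |z| := by positivity
  simp only [Pi.add_apply, id, Real.norm_eq_abs, abs_of_nonneg this]

private theorem nb_int {g : ℝ → ℝ} (hg : Continuous g) {C : ℝ} {n : ℕ}
    (h : ∀ z, |g z| ≤ C * (1 + |z|) ^ n) : Integrable g (gaussianReal 0 1) ∧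
      |∫ z, g z ∂(gaussianReal 0 1)| ≤ C * ∫ z, (1 + |z|) ^ n ∂(gaussianReal 0 1) :=
  ⟨((nb_mom n).const_mul C).mono' hg.aestronglyMeasurable (.of_forall h), by
    rw [← integral_const_mul]
    exact norm_integral_le_of_norm_le (f := g) ((nb_mom n).const_mul C) (.of_forall h)⟩

theorem nice_lind {f : ℝ → ℝ} (hf : Nice f) : ∃ K' : ℝ, 0 ≤ K' ∧ ∀ a₀ a a' S S' : ℝ, a₀ ≤ 1 / 2 →
    |a| ≤ a₀ → |a'| ≤ a₀ →
    (∀ z, |DD1 f a S z| ≤ K' * a₀ * (1 + |z|) ^ 2 ∧ |DD2 f a S z| ≤ K' * a₀ * (1 + |z|) ^ 2) ∧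
    |∫ z, DD1 f a S z ∂(gaussianReal 0 1) - ∫ z, DD2 f a S z ∂(gaussianReal 0 1)| ≤ K' * a₀ ^ 3 ∧
    |∫ z, DD1 f a S z * DD1 f a' S' z ∂(gaussianReal 0 1)
      - ∫ z, DD2 f a S z * DD2 f a' S' z ∂(gaussianReal 0 1)| ≤ K' * a₀ ^ 3 := by
  obtain ⟨K, hK⟩ := nice_bounds hf
  obtain ⟨C, hC, h⟩ := nb_ptw hK
  have m3 : 0 ≤ ∫ z, (1 + |z|) ^ 3 ∂(gaussianReal 0 1) := integral_nonneg fun z => by positivity
  have m5 : 0 ≤ ∫ z, (1 + |z|) ^ 5 ∂(gaussianReal 0 1) := integral_nonneg fun z => by positivity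
  refine ⟨C + C * ∫ z, (1 + |z|) ^ 3 ∂(gaussianReal 0 1) +
    2 * C ^ 2 * ∫ z, (1 + |z|) ^ 5 ∂(gaussianReal 0 1), by positivity,
    fun a₀ a a' S S' h0 ha ha' => ?_⟩
  have h1 : 0 ≤ a₀ := (abs_nonneg a).trans ha
  have c1 : ∀ a S, Continuous (DD1 f a S) := fun a S => by
    have := hf.1.continuous
    unfold DD1
    fun_prop
  have c2 : ∀ a S, Continuous (DD2 f a S) := fun a S => by
    unfold DD2
    fun_prop
  have k3 := mul_nonneg hC m3
  have k5 := mul_nonneg (mul_nonneg zero_le_two (sq_nonneg C)) m5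
  have a3 := pow_nonneg h1 3
  refine ⟨fun z => ⟨(h a₀ a S z h0 ha).2.1.trans (by gcongr; linarith),
    (h a₀ a S z h0 ha).2.2.1.trans (by gcongr; linarith)⟩, ?_, ?_⟩
  · have i1 := (nb_int (c1 a S) fun z => (h a₀ a S z h0 ha).2.1).1
    have i2 := (nb_int (c2 a S) fun z => (h a₀ a S z h0 ha).2.2.1).1
    have i3 : Integrable (fun z : ℝ => z ^ 2) (gaussianReal 0 1) :=
      (memLp_id_gaussianReal' 2 (by simp)).integrable_sq
    have i4 : ∫ z, z ^ 2 ∂(gaussianReal 0 1) = 1 := by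
      have := variance_fun_id_gaussianReal (μ := 0) (v := 1)
      rw [variance_eq_integral measurable_id'.aemeasurable] at this
      simpa using this
    have t := (nb_int (by fun_prop) fun z => (h a₀ a S z h0 ha).1).2
    rw [integral_sub (i1.sub' i2) ((i3.sub' (integrable_const _)).const_mul _), integral_sub i1 i2,
      integral_const_mul, integral_sub i3 (integrable_const _), i4] at t
    simp only [integral_const, probReal_univ, smul_eq_mul, mul_one, sub_self, mul_zero,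
      sub_zero] at t
    nlinarith [mul_nonneg hC a3, mul_nonneg k5 a3]
  · have b : ∀ {x y u v : ℝ}, |x| ≤ u → |y| ≤ v → |x * y| ≤ u * v := fun hx hy =>
      (abs_mul _ _).trans_le (mul_le_mul hx hy (abs_nonneg _) ((abs_nonneg _).trans hx))
    have i1 := (nb_int ((c1 a S).fun_mul (c1 a' S')) (C := (C * a₀) ^ 2) (n := 4) fun z =>
      (b (h a₀ a S z h0 ha).2.1 (h a₀ a' S' z h0 ha').2.1).trans_eq (by ring)).1
    have i2 := (nb_int ((c2 a S).fun_mul (c2 a' S')) (C := (C * a₀) ^ 2) (n := 4) fun z =>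
      (b (h a₀ a S z h0 ha).2.2.1 (h a₀ a' S' z h0 ha').2.2.1).trans_eq (by ring)).1
    have t := (nb_int (((c1 a S).fun_mul (c1 a' S')).fun_sub ((c2 a S).fun_mul (c2 a' S')))
      (C := 2 * C ^ 2 * a₀ ^ 3) (n := 5) fun z => by
        have e1 := b (h a₀ a S z h0 ha).2.1 (h a₀ a' S' z h0 ha').2.2.2
        have e2 := b (h a₀ a S z h0 ha).2.2.2 (h a₀ a' S' z h0 ha').2.2.1
        rw [abs_le] at e1 e2 ⊢
        constructor <;> linarith [e1.1, e1.2, e2.1, e2.2]).2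
    rw [integral_sub i1 i2] at t
    nlinarith [mul_nonneg hC a3, mul_nonneg k3 a3]

theorem exists_nice {f : ℝ → ℝ} (hf : Measurable f) {K : ℝ} (hK : ∀ y, |f y| ≤ K) {ε : ℝ}
    (hε : 0 < ε) : ∃ f' : ℝ → ℝ, Nice f' ∧ (∀ y, |f' y| ≤ K + 1) ∧
      ∫ y, |f y - f' y| ∂(gaussianReal 0 1) ≤ ε := by
  have hi : Integrable f (gaussianReal 0 1) :=
    .of_bound hf.aestronglyMeasurable K (.of_forall hK)
  obtain ⟨g, g1, g2, g3, g4⟩ := hi.exists_hasCompactSupport_integral_sub_le (half_pos hε)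
  have hK0 := (abs_nonneg _).trans (hK 0)
  have c : Continuous fun y => max (-K) (min K (g y)) := by fun_prop
  obtain ⟨u, u1, u2, u3⟩ := c.exists_contDiff_approx ⊤ (ε := fun _ => min 1 (ε / 2))
    continuous_const fun _ => lt_min one_pos (half_pos hε)
  simp only [Real.dist_eq, lt_min_iff, abs_lt] at u2
  refine ⟨u, ⟨u1, g1.mono (u3.trans fun y hy h0 => hy ?_)⟩, fun y => ?_, ?_⟩
  · simp [h0, hK0]
  · have := le_max_left (-K) (min K (g y))
    have : max (-K) (min K (g y)) ≤ K := max_le (by linarith) (min_le_left _ _)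
    exact abs_le.2 ⟨by linarith [(u2 y).1.1], by linarith [(u2 y).1.2]⟩
  · have i1 := (hi.sub' g4).norm
    refine (integral_mono_of_nonneg (.of_forall fun y => abs_nonneg _)
      (i1.add (integrable_const (ε / 2))) (.of_forall fun y => ?_)).trans ?_
    · have h1 := abs_le.1 (hK y)
      have h2 := (u2 y).2
      have h3 := le_abs_self (f y - g y)
      have h4 := neg_abs_le (f y - g y)
      simp only [Pi.add_apply, Real.norm_eq_abs]
      rw [max_def, min_def] at h2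
      split_ifs at h2 <;> exact abs_le.2 ⟨by linarith [h2.1, h2.2], by linarith [h2.1, h2.2]⟩
    · simp only [Pi.add_apply]
      rw [integral_add i1 (integrable_const _)]
      simp only [integral_const, probReal_univ, smul_eq_mul, one_mul]
      linarith

end P157
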