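import Vale.Agent.P157.SBasic
import Vale.Agent.P157.NiceB

/-! P157 SC1: first step of the spin cavity (perturbation and patterns of the `(N+1)`-system).
Plan. Geometry of `ext`: `Fin.sum_univ_castSucc`, `Fin.snoc_castSucc`, `Fin.snoc_last`.
`sc1`: reorder the disorder as `((U × G') × g_ex) × g` (measure preserving, `FE_comp`) and apply
`interp_sup` to replace `feat b (spx ..)` (index `II .. (N+1)`) by `feat b (sp c.1.1)` (index `II .. N`):
by `feat_dot` the covariances differ by `∑ b² |ov'^d - ov^d| ≤ ∑ b² d |ov' - ov|`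
(`abs_pow_sub_pow_le`, both overlaps in `[-1,1]`) and `|ov' - ov| ≤ 2B²/(N+1)` by `ov_ext`. Then split
each pattern `G' a = Fin.snoc (G a) (g' a)` (`measurePreserving_piFinSuccAbove` at `Fin.last`, or
`Fin.snocEquiv`; `measurePreserving_arrowProdEquivProdArrow`, `measurePreserving_pi`) and use `fld_ext`:
`f (fld (G' a) (ext x e)) = f (fld (G a) x) + DD1 f (e/√(N+1)) (fld (G a) x) (g' a)`.
-/

open MeasureTheory ProbabilityTheory Real
open scoped BigOperators Matrix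

namespace P157

variable {S₀ : Type} [MeasurableSpace S₀] {N L k n₀ M : ℕ} {μ : Measure S₀}
  [IsProbabilityMeasure μ] {sp : S₀ → Fin N → ℝ} {f : ℝ → ℝ} {K : ℝ} {m : ℕ → ℝ} {b : TT n₀ k → ℝ}
variable {B τ₀ : ℝ} {νξ : Measure ℝ} {ν : Measure (ℝ × ℝ)} {ε ξ : ℝ × ℝ → ℝ} {s' : ℕ → ℝ} {x : ℝ}

theorem sc1_sqrt (hN : 0 < N) (e : ℝ) :
    √(((N : ℝ) + 1 - e ^ 2) / N) =
      √(1 - (e / √((N : ℝ) + 1)) ^ 2) * √((N : ℝ) + 1) / √(N : ℝ) := by
  have h0 : (0 : ℝ) < N := by exact_mod_cast hN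
  rw [← sqrt_mul' _ (by linarith), ← sqrt_div' _ h0.le, div_pow, sq_sqrt (by linarith)]
  congr 2
  field_simp

theorem sc1_dot (c c' e e' : ℝ) (x x' : Fin N → ℝ) :
    (Fin.snoc (α := fun _ => ℝ) (fun i => c * x i) e : Fin (N + 1) → ℝ) ⬝ᵥ
      (Fin.snoc (α := fun _ => ℝ) (fun i => c' * x' i) e' : Fin (N + 1) → ℝ) =
      c * c' * (x ⬝ᵥ x') + e * e' := by
  simp only [dotProduct, Fin.sum_univ_castSucc, Fin.snoc_castSucc, Fin.snoc_last, Finset.mul_sum]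
  congr 1
  exact Finset.sum_congr rfl fun i _ => by ring

theorem ov_ext (hN : 0 < N) (x x' : Fin N → ℝ) {e e' : ℝ} (he : e ^ 2 ≤ N + 1) (he' : e' ^ 2 ≤ N + 1) :
    ov (ext x e) (ext x' e') = √(1 - (e / √((N : ℝ) + 1)) ^ 2) * √(1 - (e' / √((N : ℝ) + 1)) ^ 2) *
      ov x x' + e / √((N : ℝ) + 1) * (e' / √((N : ℝ) + 1)) := by
  have h0 : (0 : ℝ) < N := by exact_mod_cast hN
  have h1 : √(N : ℝ) * √(N : ℝ) = N := mul_self_sqrt h0.le
  have h2 : √((N : ℝ) + 1) * √((N : ℝ) + 1) = N + 1 := mul_self_sqrt (by linarith)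
  have h3 : 0 < √(N : ℝ) := sqrt_pos.2 h0
  have h4 : 0 < √((N : ℝ) + 1) := sqrt_pos.2 (by linarith)
  unfold ov ext
  rw [sc1_dot, sc1_sqrt hN, sc1_sqrt hN]
  push_cast
  generalize √(1 - (e / √((N : ℝ) + 1)) ^ 2) = u
  generalize √(1 - (e' / √((N : ℝ) + 1)) ^ 2) = u'
  generalize √((N : ℝ) + 1) = s at h2 h4 ⊢
  generalize √(N : ℝ) = t at h1 h3 ⊢
  rw [← h2]
  nth_rewrite 1 [← h1]
  field_simp
theorem fld_ext (hN : 0 < N) (g x : Fin N → ℝ) (g' : ℝ) {e : ℝ} (he : e ^ 2 ≤ N + 1) :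
    fld (Fin.snoc (α := fun _ => ℝ) g g') (ext x e) =
      √(1 - (e / √((N : ℝ) + 1)) ^ 2) * fld g x + e / √((N : ℝ) + 1) * g' := by
  have h0 : (0 : ℝ) < N := by exact_mod_cast hN
  have h3 : 0 < √(N : ℝ) := sqrt_pos.2 h0
  have h4 : 0 < √((N : ℝ) + 1) := sqrt_pos.2 (by linarith)
  have h5 := sc1_dot 1 √(((N : ℝ) + 1 - e ^ 2) / N) g' e g x
  simp only [one_mul] at h5
  unfold fld ext
  rw [h5, sc1_sqrt hN]
  push_cast
  field_simp
theorem spx_isSp (h : IsSp sp) (hN : 0 < N) (hm : Measurable ε) (hb : ∀ z, ε z ^ 2 ≤ N + 1) :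
    IsSp (spx sp ε) := by
  have h0 : (0 : ℝ) < N := by exact_mod_cast hN
  refine ⟨measurable_pi_lambda _ fun i => ?_, fun σ => ?_⟩
  · refine Fin.lastCases ?_ (fun i => ?_) i
    · simp only [spx, ext, Fin.snoc_last]
      exact hm.comp measurable_snd
    · simp only [spx, ext, Fin.snoc_castSucc]
      refine Measurable.mul ?_ ((measurable_pi_apply i).comp (h.meas.comp measurable_fst))
      exact (((measurable_const.sub ((hm.comp measurable_snd).pow_const 2)).div_const _)).sqrt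
  · unfold spx ext
    rw [sc1_dot, h.norm, mul_self_sqrt (div_nonneg (by linarith [hb σ.2]) h0.le)]
    push_cast
    field_simp
    ring
theorem SpinData.isSp (hd : SpinData B τ₀ νξ ν ε ξ) (h : IsSp sp) (hN : 0 < N)
    (hB : B ^ 2 ≤ N + 1) : IsSp (spx sp ε) := by
  exact spx_isSp h hN hd.mε fun z => le_trans (sq_le_sq' (abs_le.1 (hd.bε z)).1
    (abs_le.1 (hd.bε z)).2) hB
theorem extra_good (hd : SpinData B τ₀ νξ ν ε ξ) :
    Good (gp (Nd L k)) (extra (S₀ := S₀) (L := L) (k := k) ξ s' x) := by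
  have h1 : Bd1 (fun (_ : Nd L k → ℝ) (c : (S₀ × (ℝ × ℝ)) × Leaf L k) => ξ c.1.2) B :=
    ⟨hd.mξ.comp measurable_snd.fst.snd, fun _ _ => hd.bξ _⟩
  have hmp : MeasurePreserving (fun g : Nd L k → ℝ => ((), g)) (gp (Nd L k))
      ((Measure.dirac ()).prod (gp (Nd L k))) :=
    ⟨measurable_prodMk_left, (Measure.dirac_prod ()).symm⟩
  have h2 := ((feat_tfeat (Ω := Unit) (S := (S₀ × (ℝ × ℝ)) × Leaf L k) measurable_snd
    (wq s')).good (P := Measure.dirac ())).comp hmp measurable_id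
  have h3 := ((Good.bd_mul h1 h2).add (((h1.mul h1).const_mul (x - s' k / 2)).good))
  convert h3 using 3 with g c
  simp only [extra, tf_eq_dot, id]
  ring
theorem extra_eq (hs : IsPath k s') (g : Nd L k → ℝ) (c : (S₀ × (ℝ × ℝ)) × Leaf L k) :
    extra ξ s' x g c = (ξ c.1.2 • tfeat (wq s') c.2) ⬝ᵥ g
      - (ξ c.1.2 • tfeat (wq s') c.2) ⬝ᵥ (ξ c.1.2 • tfeat (wq s') c.2) / 2 + x * ξ c.1.2 ^ 2 := by
  simp only [extra, tf_eq_dot, smul_dotProduct, dotProduct_smul, tfeat_wq hs, cj_self,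
    smul_eq_mul]
  ring

theorem sc1_rot {α β γ : Type} [MeasurableSpace α] [MeasurableSpace β] [MeasurableSpace γ]
    (ν₁ : Measure α) (ν₂ : Measure β) (ν₃ : Measure γ) [SFinite ν₁] [SFinite ν₂] [SFinite ν₃] :
    MeasurePreserving (fun p : (α × β) × γ => ((p.1.1, p.2), p.1.2)) ((ν₁.prod ν₂).prod ν₃)
      ((ν₁.prod ν₃).prod ν₂) :=
  (measurePreserving_prodAssoc ν₁ ν₃ ν₂).symm.comp
    (((MeasurePreserving.id ν₁).prod Measure.measurePreserving_swap).comp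
      (measurePreserving_prodAssoc ν₁ ν₂ ν₃))

theorem sc1_snoc : MeasurePreserving (fun p : (Fin N → ℝ) × ℝ =>
    (Fin.snoc (α := fun _ => ℝ) p.1 p.2 : Fin (N + 1) → ℝ))
    ((gp (Fin N)).prod (gaussianReal 0 1)) (gp (Fin (N + 1))) := by
  have h := (measurePreserving_piFinSuccAbove (fun _ : Fin (N + 1) => gaussianReal 0 1)
    (Fin.last N)).symm.comp Measure.measurePreserving_swap
  convert h using 1
  funext p
  exact (Fin.insertNth_last' p.2 p.1).symm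

theorem sc1_pats : MeasurePreserving (fun (p : (Fin M → Fin N → ℝ) × (Fin M → ℝ)) (a : Fin M) =>
    (Fin.snoc (α := fun _ => ℝ) (p.1 a) (p.2 a) : Fin (N + 1) → ℝ))
    ((PG N M).prod (gp (Fin M))) (PG (N + 1) M) :=
  (measurePreserving_pi _ _ fun _ : Fin M => sc1_snoc).comp
    (measurePreserving_arrowProdEquivProdArrow (Fin N → ℝ) ℝ (Fin M) (fun _ => gp (Fin N))
      (fun _ => gaussianReal 0 1)).symm

theorem sc1_num {a a' t R : ℝ} (ha : a ^ 2 ≤ t) (ha' : a' ^ 2 ≤ t) (ht : t ≤ 1) (hR : |R| ≤ 1) :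
    |√(1 - a ^ 2) * √(1 - a' ^ 2) * R + a * a' - R| ≤ 2 * t := by
  have h1 : √(1 - a ^ 2) * √(1 - a' ^ 2) ≤ 1 :=
    mul_le_one₀ (sqrt_le_one.2 (by nlinarith)) (sqrt_nonneg _) (sqrt_le_one.2 (by nlinarith))
  have h2 : 1 - t ≤ √(1 - a ^ 2) * √(1 - a' ^ 2) := by
    rw [← mul_self_sqrt (by linarith : 0 ≤ 1 - t)]
    exact mul_le_mul (sqrt_le_sqrt (by linarith)) (sqrt_le_sqrt (by linarith)) (sqrt_nonneg _)
      (sqrt_nonneg _)
  generalize √(1 - a ^ 2) * √(1 - a' ^ 2) = u at h1 h2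
  obtain ⟨r1, r2⟩ := abs_le.1 hR
  rw [abs_le]
  constructor <;> nlinarith [sq_nonneg (a + a'), sq_nonneg (a - a'),
    mul_nonneg (sub_nonneg.2 h1) (sub_nonneg.2 r2), mul_nonneg (sub_nonneg.2 h1) (by linarith : 0 ≤ R + 1)]

theorem sc1_cov (hd : SpinData B τ₀ νξ ν ε ξ) (h : IsSp sp) (hN : 0 < N) (hB : B ^ 2 ≤ N + 1)
    (c c' : (S₀ × (ℝ × ℝ)) × Leaf L k) :
    |feat b (spx sp ε c.1) c.2 ⬝ᵥ feat b (spx sp ε c'.1) c'.2 -
      feat b (sp c.1.1) c.2 ⬝ᵥ feat b (sp c'.1.1) c'.2| ≤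
      (∑ t, b t ^ 2 * deg t) * (2 * B ^ 2 / ((N : ℝ) + 1)) := by
  have h0 : (0 : ℝ) < (N : ℝ) + 1 := by positivity
  have he : ∀ z, ε z ^ 2 ≤ B ^ 2 := fun z =>
    sq_le_sq' (abs_le.1 (hd.bε z)).1 (abs_le.1 (hd.bε z)).2
  have ha : ∀ z, (ε z / √((N : ℝ) + 1)) ^ 2 ≤ B ^ 2 / ((N : ℝ) + 1) := fun z => by
    rw [div_pow, sq_sqrt h0.le]
    exact div_le_div_of_nonneg_right (he z) h0.le
  have h1 := abs_ov_le (hd.isSp h hN hB) c.1 c'.1
  have h2 := abs_ov_le h c.1.1 c'.1.1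
  have h3 : |ov (spx sp ε c.1) (spx sp ε c'.1) - ov (sp c.1.1) (sp c'.1.1)| ≤
      2 * B ^ 2 / ((N : ℝ) + 1) := by
    unfold spx
    rw [ov_ext hN _ _ ((he _).trans hB) ((he _).trans hB), mul_div_assoc]
    exact sc1_num (ha _) (ha _) ((div_le_one h0).2 hB) h2
  rw [feat_dot (Nat.succ_pos N), feat_dot hN, ← Finset.sum_sub_distrib, Finset.sum_mul]
  refine (Finset.abs_sum_le_sum_abs _ _).trans (Finset.sum_le_sum fun t _ => ?_)
  unfold ker
  rw [← mul_sub, ← sub_mul, abs_mul, abs_of_nonneg (mul_self_nonneg _), abs_mul, ← sq, mul_assoc]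
  refine mul_le_mul_of_nonneg_left ?_ (sq_nonneg _)
  have h4 := abs_pow_sub_pow_le (ov (spx sp ε c.1) (spx sp ε c'.1)) (ov (sp c.1.1) (sp c'.1.1))
    (deg t)
  have h5 : max |ov (spx sp ε c.1) (spx sp ε c'.1)| |ov (sp c.1.1) (sp c'.1.1)| ^ (deg t - 1) ≤ 1 :=
    pow_le_one₀ (le_max_of_le_left (abs_nonneg _)) (max_le h1 h2)
  calc _ ≤ |ov (spx sp ε c.1) (spx sp ε c'.1) ^ deg t - ov (sp c.1.1) (sp c'.1.1) ^ deg t| :=
        mul_le_of_le_one_right (abs_nonneg _) (abs_ind_le _ _ _)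
    _ ≤ _ := h4
    _ ≤ |ov (spx sp ε c.1) (spx sp ε c'.1) - ov (sp c.1.1) (sp c'.1.1)| * deg t :=
        mul_le_of_le_one_right (by positivity) h5
    _ ≤ _ := by
        rw [mul_comm]
        exact mul_le_mul_of_nonneg_left h3 (by positivity)

theorem sc1 (hd : SpinData B τ₀ νξ ν ε ξ) (h : IsSp sp) (hN : 0 < N) (hL : 0 < L) (hf : NiceK f K)
    (hB : B ^ 2 ≤ N + 1) :
    |SWx L k n₀ M f m μ sp b ν ε ξ s' x - SX (DD1 f) L k n₀ M f m μ sp b ν ε ξ s' x| ≤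
      (∑ t, b t ^ 2 * deg t) * (2 * B ^ 2 / ((N : ℝ) + 1)) := by
  have := unif_prob hL k
  have := hd.prob
  have hx := hd.isSp h hN hB
  have he : ∀ z, ε z ^ 2 ≤ N + 1 := fun z =>
    le_trans (sq_le_sq' (abs_le.1 (hd.bε z)).1 (abs_le.1 (hd.bε z)).2) hB
  have hH : Good (((PU L k m).prod (PG (N + 1) M)).prod (gp (Nd L k)))
      (fun ω (c : (S₀ × (ℝ × ℝ)) × Leaf L k) =>
        lw m ω.1.1 c.2 + pat f ω.1.2 (spx sp ε c.1) + extra ξ s' x ω.2 c) :=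
    ((SH0_good hx hf.meas hf.c0.b0).fst _).add ((extra_good hd).snd _)
  have f1 := feat_feat (L := L)
    (Ω := ((Nd L k → ℝ) × (Fin M → Fin (N + 1) → ℝ)) × (Nd L k → ℝ)) hx b
  have f0 := feat_feat (L := L)
    (Ω := ((Nd L k → ℝ) × (Fin M → Fin (N + 1) → ℝ)) × (Nd L k → ℝ)) (h.fst (S' := ℝ × ℝ)) b
  have key := interp_sup (μ := (μ.prod ν).prod (unif L k)) hH f1 f0
    fun _ c c' => sc1_cov hd h hN hB c c'
  have e1 := FE_comp (μ := (μ.prod ν).prod (unif L k)) ((hH.fst _).add f1.good)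
    (sc1_rot _ (gp (II L k n₀ (N + 1))) (gp (Nd L k))) (MeasurePreserving.id _)
  have j1 := ((MeasurePreserving.id (PU L k m)).prod (sc1_pats (N := N) (M := M))).comp
    (measurePreserving_prodAssoc _ _ _)
  have j2 := (((j1.prod (MeasurePreserving.id (gp (Nd L k)))).prod
    (MeasurePreserving.id (gp (II L k n₀ N)))).comp (sc1_rot _ _ _)).comp
    (((sc1_rot _ _ _).prod (MeasurePreserving.id _)).comp (sc1_rot _ _ _))
  have e0 := FE_comp (μ := (μ.prod ν).prod (unif L k)) ((hH.fst _).add f0.good) j2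
    (MeasurePreserving.id _)
  rw [← e1, ← e0] at key
  unfold SWx SX SP
  convert key using 3
  · congr 1
    funext ω c
    simp only [SH, id]
    ring
  · congr 1
    funext ω c
    simp only [SH, id, Function.comp, Prod.map, MeasurableEquiv.prodAssoc, MeasurableEquiv.coe_mk,
      Equiv.prodAssoc_apply, pat, spx, DD1, fld_ext hN _ _ _ (he _), Finset.sum_sub_distrib]
    ring

end P157
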