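import Vale.Agent.P157.SBasic

/-! P157 SInv: invariance of the enriched system under orthogonal maps.
Plan: `ov (O x) (O x') = ov x x'`, so by `feat_dot` and `gp_isometry` (on the index type
`(Fin N → ℝ) × Leaf L k`) there is a measure preserving `U` with `feat b (O x) ω · g = feat b x ω · U g`;
similarly `fld g (O x) = fld (Oᵀ g) x` and `g ↦ Oᵀ g` preserves `gp` (`gp_isometry` again, or directly),
hence `G ↦ (Oᵀ (G a))_a` preserves `PG` (`measurePreserving_pi`). With `e` the resulting map of the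
disorder, `SH ω (T σ, l) = SH (e ω) (σ, l)` for a.e. `(σ, l)`. So
`SA1 φ = A1 (SH ω (Tσ,l)) (φ (sp (Tσ)) l) = A1 (SH (e ω) (σ,l)) (φ (O (sp σ)) l) = SA1 (φ ∘ O)` by `A1_comp`
(twice) and `A1_congr_ae`.
-/

open MeasureTheory ProbabilityTheory Real
open scoped BigOperators Matrix

namespace P157

variable {S₀ : Type} [MeasurableSpace S₀] {N L k n₀ M : ℕ} {μ : Measure S₀}
  [IsProbabilityMeasure μ] {sp : S₀ → Fin N → ℝ} {f : ℝ → ℝ} {K : ℝ} {m : ℕ → ℝ} {b : TT n₀ k → ℝ}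

theorem si_dot {O : Matrix (Fin N) (Fin N) ℝ} (hO : Oᵀ * O = 1) (x x' : Fin N → ℝ) :
    (O *ᵥ x) ⬝ᵥ (O *ᵥ x') = x ⬝ᵥ x' := by
  rw [Matrix.dotProduct_mulVec, Matrix.vecMul_mulVec, hO, Matrix.vecMul_one]

theorem si_meas (O : Matrix (Fin N) (Fin N) ℝ) : Measurable fun x : Fin N → ℝ => O *ᵥ x := by
  refine measurable_pi_lambda _ fun i => ?_
  simp only [Matrix.mulVec, dotProduct]
  fun_prop

theorem si_map (hN : 0 < N) {O : Matrix (Fin N) (Fin N) ℝ} (hO : Oᵀ * O = 1) :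
    ∃ e : SO L k n₀ N M → SO L k n₀ N M,
      MeasurePreserving e (SP L k n₀ N M m) (SP L k n₀ N M m) ∧
      ∀ ω x l, SH f m id b ω (O *ᵥ x, l) = SH f m id b (e ω) (x, l) := by
  obtain ⟨U, hU, hU'⟩ := gp_isometry (S := (Fin N → ℝ) × Leaf L k)
    (fun c => feat b c.1 c.2) (fun c => feat b (O *ᵥ c.1) c.2) fun c c' => by
      simp only [feat_dot hN, ker, ov, si_dot hO]
  obtain ⟨V, hV, hV'⟩ := gp_isometry (S := Fin N → ℝ) (fun x => x) (fun x => O *ᵥ x)
    fun x x' => si_dot hO x x'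
  have hVV : MeasurePreserving (fun (G : Fin M → Fin N → ℝ) a => V (G a)) (PG N M) (PG N M) :=
    measurePreserving_pi _ _ fun _ => hV
  refine ⟨Prod.map (Prod.map id fun G a => V (G a)) U,
    ((MeasurePreserving.id _).prod hVV).prod hU, fun ω x l => ?_⟩
  have h1 := hU' (x, l) ω.2
  have h2 : ∀ g, fld g (O *ᵥ x) = fld (V g) x := fun g => by
    unfold fld
    rw [dotProduct_comm g, hV' x g, dotProduct_comm]
  simp only [SH, pat, id, Prod.map, h2] at h1 ⊢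
  rw [h1]

theorem si_ae {S₁ : Type} [MeasurableSpace S₁] {μ₁ : Measure S₁} [IsProbabilityMeasure μ₁]
    (hL : 0 < L) {p : S₁ → Prop} (h : ∀ᵐ σ ∂μ₁, p σ) :
    ∀ᵐ c : S₁ × Leaf L k ∂(μ₁.prod (unif L k)), p c.1 := by
  have := unif_prob hL k
  exact (measurePreserving_fst (μ := μ₁) (ν := unif L k)).quasiMeasurePreserving.ae h

theorem si_mp {S₁ : Type} [MeasurableSpace S₁] {μ₁ : Measure S₁} [IsProbabilityMeasure μ₁]
    (hL : 0 < L) {q : S₁ → S₀} (hq : MeasurePreserving q μ₁ μ) :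
    MeasurePreserving (fun c : S₁ × Leaf L k => (q c.1, c.2)) (μ₁.prod (unif L k))
      (μ.prod (unif L k)) := by
  have := unif_prob hL k
  exact hq.prod (MeasurePreserving.id _)

theorem SA1_inv (h : IsSp sp) (hN : 0 < N) (hL : 0 < L) (hf : Measurable f) (hK : ∀ y, |f y| ≤ K)
    {O : Matrix (Fin N) (Fin N) ℝ} (hO : Oᵀ * O = 1) {T : S₀ → S₀} (hT : MeasurePreserving T μ μ)
    (hTO : ∀ᵐ σ ∂μ, sp (T σ) = O *ᵥ sp σ) {φ : (Fin N → ℝ) → ℝ} (hφ : Measurable φ) {C : ℝ}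
    (hC : ∀ x : Fin N → ℝ, x ⬝ᵥ x = N → |φ x| ≤ C) :
    SA1 L k n₀ M f m μ sp b (fun _ c => φ (O *ᵥ sp c.1)) =
      SA1 L k n₀ M f m μ sp b (fun _ c => φ (sp c.1)) := by
  have := unif_prob hL k
  obtain ⟨e, he, he'⟩ := si_map (L := L) (M := M) (m := m) (f := f) (b := b) hN hO
  have hH := SH_good (L := L) (M := M) (m := m) (b := b) h hf hK
  have g1 : Bd1 (fun (_ : SO L k n₀ N M) (c : S₀ × Leaf L k) => φ (O *ᵥ sp c.1)) C :=
    ⟨hφ.comp ((si_meas O).comp (h.meas.comp measurable_snd.fst)),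
      fun _ c => hC _ (by rw [si_dot hO, h.norm])⟩
  have g2 : Bd1 (fun (_ : SO L k n₀ N M) (c : S₀ × Leaf L k) => φ (sp c.1)) C :=
    ⟨hφ.comp (h.meas.comp measurable_snd.fst), fun _ c => hC _ (h.norm _)⟩
  have a1 := A1_comp hH g1.good he (MeasurePreserving.id (μ.prod (unif L k)))
  have a2 := A1_comp hH g2.good (MeasurePreserving.id (SP L k n₀ N M m)) (si_mp hL hT)
  unfold SA1
  rw [← a1, ← a2]
  refine A1_congr_ae (fun ω => ?_) fun ω => ?_
  · filter_upwards [si_ae (k := k) hL hTO] with c hc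
    have := he' ω (sp c.1) c.2
    rw [← hc] at this
    exact this.symm
  · filter_upwards [si_ae (k := k) hL hTO] with c hc
    simp only [id, hc]
theorem SA2_inv (h : IsSp sp) (hN : 0 < N) (hL : 0 < L) (hf : Measurable f) (hK : ∀ y, |f y| ≤ K)
    {O : Matrix (Fin N) (Fin N) ℝ} (hO : Oᵀ * O = 1) {T : S₀ → S₀} (hT : MeasurePreserving T μ μ)
    (hTO : ∀ᵐ σ ∂μ, sp (T σ) = O *ᵥ sp σ) {φ : (Fin N → ℝ) → (Fin N → ℝ) → ℝ}
    (hφ : Measurable fun p : (Fin N → ℝ) × (Fin N → ℝ) => φ p.1 p.2) {C : ℝ}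
    (hC : ∀ x x' : Fin N → ℝ, x ⬝ᵥ x = N → x' ⬝ᵥ x' = N → |φ x x'| ≤ C) (j : ℕ) :
    SA2 L k n₀ M f m μ sp b (fun _ c c' => φ (O *ᵥ sp c.1) (O *ᵥ sp c'.1) * ind j c.2 c'.2) =
      SA2 L k n₀ M f m μ sp b (fun _ c c' => φ (sp c.1) (sp c'.1) * ind j c.2 c'.2) := by
  have := unif_prob hL k
  obtain ⟨e, he, he'⟩ := si_map (L := L) (M := M) (m := m) (f := f) (b := b) hN hO
  have hH := SH_good (L := L) (M := M) (m := m) (b := b) h hf hK
  have g1 : Bd2 (fun (_ : SO L k n₀ N M) (c c' : S₀ × Leaf L k) =>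
      φ (O *ᵥ sp c.1) (O *ᵥ sp c'.1)) C :=
    ⟨hφ.comp (((si_meas O).comp (h.meas.comp measurable_snd.fst.fst)).prodMk
        ((si_meas O).comp (h.meas.comp measurable_snd.snd.fst))),
      fun _ c c' => hC _ _ (by rw [si_dot hO, h.norm]) (by rw [si_dot hO, h.norm])⟩
  have g2 : Bd2 (fun (_ : SO L k n₀ N M) (c c' : S₀ × Leaf L k) => φ (sp c.1) (sp c'.1)) C :=
    ⟨hφ.comp ((h.meas.comp measurable_snd.fst.fst).prodMk (h.meas.comp measurable_snd.snd.fst)),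
      fun _ c c' => hC _ _ (h.norm _) (h.norm _)⟩
  have a1 := A2_comp hH (g1.mul (bd2_ind measurable_snd j)).good2 he
    (MeasurePreserving.id (μ.prod (unif L k)))
  have a2 := A2_comp hH (g2.mul (bd2_ind measurable_snd j)).good2
    (MeasurePreserving.id (SP L k n₀ N M m)) (si_mp hL hT)
  unfold SA2
  rw [← a1, ← a2]
  refine A2_congr_ae (E := {c | sp (T c.1) = O *ᵥ sp c.1}) (fun ω => ?_) (si_ae (k := k) hL hTO)
    fun ω c hc c' hc' => ?_
  · filter_upwards [si_ae (k := k) hL hTO] with c hc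
    have := he' ω (sp c.1) c.2
    rw [← hc] at this
    exact this.symm
  · simp only [Set.mem_ofPred_eq] at hc hc'
    simp only [id, hc, hc']

theorem si_perm (e : Equiv.Perm (Fin N)) : (e.permMatrix ℝ)ᵀ * e.permMatrix ℝ = 1 := by
  rw [Matrix.transpose_permMatrix, ← Matrix.permMatrix_mul]
  simp

theorem si_sq {x : Fin N → ℝ} (hx : x ⬝ᵥ x = N) (i : Fin N) : x i * x i ≤ N := by
  rw [← hx]
  exact Finset.single_le_sum (f := fun i => x i * x i) (fun i _ => mul_self_nonneg _)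
    (Finset.mem_univ i)

theorem si_bd {x x' : Fin N → ℝ} (hx : x ⬝ᵥ x = N) (hx' : x' ⬝ᵥ x' = N) (i : Fin N) :
    |x i * x' i| ≤ N := by
  have h1 := si_sq hx i
  have h2 := si_sq hx' i
  rw [abs_le]
  constructor <;> nlinarith [sq_nonneg (x i + x' i), sq_nonneg (x i - x' i)]

/-- if every coordinate permutation is implemented by a measure preserving map, one coordinate
represents the overlap -/
theorem SA2_coord (h : IsSp sp) (hN : 0 < N) (hL : 0 < L) (hf : Measurable f) (hK : ∀ y, |f y| ≤ K)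
    (hperm : ∀ e : Equiv.Perm (Fin N), ∃ T : S₀ → S₀, MeasurePreserving T μ μ ∧
      ∀ᵐ σ ∂μ, sp (T σ) = sp σ ∘ e) (i : Fin N) (j : ℕ) :
    SA2 L k n₀ M f m μ sp b (fun _ c c' => sp c.1 i * sp c'.1 i * ind j c.2 c'.2) =
      SA2 L k n₀ M f m μ sp b (fun _ c c' => ov (sp c.1) (sp c'.1) * ind j c.2 c'.2) := by
  have := unif_prob hL k
  have hH := SH_good (L := L) (M := M) (m := m) (b := b) h hf hK
  have key : ∀ i' : Fin N,
      SA2 L k n₀ M f m μ sp b (fun _ c c' => sp c.1 i' * sp c'.1 i' * ind j c.2 c'.2) =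
      SA2 L k n₀ M f m μ sp b (fun _ c c' => sp c.1 i * sp c'.1 i * ind j c.2 c'.2) := by
    intro i'
    obtain ⟨T, hT, hT'⟩ := hperm (Equiv.swap i i')
    have := SA2_inv (M := M) (m := m) (b := b) h hN hL hf hK (si_perm (Equiv.swap i i')) hT
      (by simpa only [Matrix.permMatrix_mulVec] using hT') (φ := fun x x' => x i * x' i)
      (by fun_prop) (fun x x' hx hx' => si_bd hx hx' i) j
    simpa only [Matrix.permMatrix_mulVec, Function.comp, Equiv.swap_apply_left] using this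
  have hg : ∀ i' ∈ (Finset.univ : Finset (Fin N)), Good2 (SP L k n₀ N M m)
      (fun (_ : SO L k n₀ N M) (c c' : S₀ × Leaf L k) =>
        sp c.1 i' * sp c'.1 i' * ind j c.2 c'.2) := fun i' _ => by
    have g : Bd2 (fun (_ : SO L k n₀ N M) (c c' : S₀ × Leaf L k) => sp c.1 i' * sp c'.1 i') N :=
      ⟨((measurable_pi_apply i').comp (h.meas.comp measurable_snd.fst.fst)).mul
        ((measurable_pi_apply i').comp (h.meas.comp measurable_snd.snd.fst)),
        fun _ c c' => si_bd (h.norm _) (h.norm _) i'⟩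
    exact (g.mul (bd2_ind measurable_snd j)).good2
  have e : (fun (_ : SO L k n₀ N M) (c c' : S₀ × Leaf L k) =>
      ov (sp c.1) (sp c'.1) * ind j c.2 c'.2) = fun _ c c' =>
      (N : ℝ)⁻¹ * ∑ i', sp c.1 i' * sp c'.1 i' * ind j c.2 c'.2 := by
    funext _ c c'
    rw [← Finset.sum_mul]
    unfold ov dotProduct
    ring
  have hN' : (N : ℝ) ≠ 0 := by exact_mod_cast hN.ne'
  rw [e]
  unfold SA2 at key ⊢
  rw [A2_const_mul, A2_sum hH _ hg]
  simp only [key, Finset.sum_const, Finset.card_univ, Fintype.card_fin, nsmul_eq_mul]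
  field_simp
theorem SA1_coord (h : IsSp sp) (hN : 0 < N) (hL : 0 < L) (hf : Measurable f) (hK : ∀ y, |f y| ≤ K)
    (hperm : ∀ e : Equiv.Perm (Fin N), ∃ T : S₀ → S₀, MeasurePreserving T μ μ ∧
      ∀ᵐ σ ∂μ, sp (T σ) = sp σ ∘ e) (i : Fin N) :
    SA1 L k n₀ M f m μ sp b (fun _ c => sp c.1 i ^ 2) = 1 := by
  have := unif_prob hL k
  have hH := SH_good (L := L) (M := M) (m := m) (b := b) h hf hK
  have hb : ∀ (i' : Fin N) (x : Fin N → ℝ), x ⬝ᵥ x = N → |x i' ^ 2| ≤ N := fun i' x hx => by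
    rw [sq]; exact si_bd hx hx i'
  have key : ∀ i' : Fin N, SA1 L k n₀ M f m μ sp b (fun _ c => sp c.1 i' ^ 2) =
      SA1 L k n₀ M f m μ sp b (fun _ c => sp c.1 i ^ 2) := by
    intro i'
    obtain ⟨T, hT, hT'⟩ := hperm (Equiv.swap i i')
    have := SA1_inv (L := L) (M := M) (m := m) (b := b) h hN hL hf hK (si_perm (Equiv.swap i i')) hT
      (by simpa only [Matrix.permMatrix_mulVec] using hT') (φ := fun x => x i ^ 2)
      (by fun_prop) (hb i)
    simpa only [Matrix.permMatrix_mulVec, Function.comp, Equiv.swap_apply_left] using this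
  have hg : ∀ i' ∈ (Finset.univ : Finset (Fin N)), Good (SP L k n₀ N M m)
      (fun (_ : SO L k n₀ N M) (c : S₀ × Leaf L k) => sp c.1 i' ^ 2) := fun i' _ => by
    have g : Bd1 (fun (_ : SO L k n₀ N M) (c : S₀ × Leaf L k) => sp c.1 i' ^ 2) N :=
      ⟨((measurable_pi_apply i').comp (h.meas.comp measurable_snd.fst)).pow_const 2,
        fun _ c => hb i' _ (h.norm _)⟩
    exact g.good
  have hs := A1_sum (μ := μ.prod (unif L k)) hH _ hg
  have e : (fun (_ : SO L k n₀ N M) (c : S₀ × Leaf L k) => ∑ i', sp c.1 i' ^ 2) =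
      fun _ _ => (N : ℝ) := by
    funext _ c
    rw [← h.norm c.1]
    simp only [dotProduct, sq]
  rw [e, A1_const hH] at hs
  unfold SA1 at key ⊢
  simp only [key, Finset.sum_const, Finset.card_univ, Fintype.card_fin, nsmul_eq_mul] at hs
  have hN' : (N : ℝ) ≠ 0 := by exact_mod_cast hN.ne'
  exact mul_left_cancel₀ hN' (by rw [← hs, mul_one])

section comp
variable {S₁ : Type} [MeasurableSpace S₁] {μ₁ : Measure S₁} [IsProbabilityMeasure μ₁] {q : S₁ → S₀}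
  {sp₁ : S₁ → Fin N → ℝ}
theorem si_SH (hL : 0 < L) (hs : ∀ᵐ σ ∂μ₁, sp₁ σ = sp (q σ)) (ω : SO L k n₀ N M) :
    SH f m sp₁ b ω =ᵐ[μ₁.prod (unif L k)] fun c => SH f m sp b ω (q c.1, c.2) := by
  filter_upwards [si_ae (k := k) hL hs] with c hc
  simp only [SH, hc]

/-- change of the configuration space (up to a null set) -/
theorem SW_comp (h : IsSp sp) (hL : 0 < L) (hf : Measurable f) (hK : ∀ y, |f y| ≤ K)
    (hq : MeasurePreserving q μ₁ μ) (hs : ∀ᵐ σ ∂μ₁, sp₁ σ = sp (q σ)) :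
    SW L k n₀ M f m μ₁ sp₁ b = SW L k n₀ M f m μ sp b := by
  have := unif_prob hL k
  unfold SW
  rw [FE_congr_ae (si_SH hL hs)]
  exact FE_comp (SH_good h hf hK) (MeasurePreserving.id _) (si_mp hL hq)
theorem SA1_comp (h : IsSp sp) (hL : 0 < L) (hf : Measurable f) (hK : ∀ y, |f y| ≤ K)
    (hq : MeasurePreserving q μ₁ μ) (hs : ∀ᵐ σ ∂μ₁, sp₁ σ = sp (q σ))
    {φ : SO L k n₀ N M → S₀ × Leaf L k → ℝ} (hφ : Good (SP L k n₀ N M m) φ) :
    SA1 L k n₀ M f m μ₁ sp₁ b (fun ω c => φ ω (q c.1, c.2)) = SA1 L k n₀ M f m μ sp b φ := by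
  have := unif_prob hL k
  unfold SA1
  rw [A1_congr_ae (si_SH hL hs) fun _ => Filter.EventuallyEq.rfl]
  exact A1_comp (SH_good h hf hK) hφ (MeasurePreserving.id _) (si_mp hL hq)
theorem SA2_comp (h : IsSp sp) (hL : 0 < L) (hf : Measurable f) (hK : ∀ y, |f y| ≤ K)
    (hq : MeasurePreserving q μ₁ μ) (hs : ∀ᵐ σ ∂μ₁, sp₁ σ = sp (q σ))
    {φ : SO L k n₀ N M → S₀ × Leaf L k → S₀ × Leaf L k → ℝ} (hφ : Good2 (SP L k n₀ N M m) φ) :
    SA2 L k n₀ M f m μ₁ sp₁ b (fun ω c c' => φ ω (q c.1, c.2) (q c'.1, c'.2)) =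
      SA2 L k n₀ M f m μ sp b φ := by
  have := unif_prob hL k
  unfold SA2
  rw [A2_congr_ae (E := Set.univ) (si_SH hL hs) (Filter.Eventually.of_forall fun _ => trivial)
    fun _ _ _ _ _ => rfl]
  exact A2_comp (SH_good h hf hK) hφ (MeasurePreserving.id _) (si_mp hL hq)
end comp

end P157
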