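import Vale.Agent.P157.IInit
import Vale.Agent.P157.SInv
import Vale.Agent.P157.SC1

/-! P157 IAn: the Ising input of the lower bound.
Plan. `ising_ext`: `ν = rad.prod (dirac 0)`, `ε = ξ = fun z => if 0 ≤ z.1 then 1 else -1`; the map
`q (x, z) = Fin.snoc x z.1` is measure preserving onto `isingMeasure (N+1)` and
`spx (isingSp N) ε c = isingSp (N+1) (q c)` (the scaling factor is `√((N+1-1)/N) = 1`, `N ≥ 1`), so
`SW_comp`, `SA2_comp` reduce (ii) to `SA2_coord` at `Fin.last N` (permutations act by `x ↦ x ∘ e`,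
`measurePreserving_piCongrLeft`); (iii) is trivial as `ξ² = 1`. `psiNu_rad`: the terminal function is
`lc y - (s k - κ)/2` (`Rec_add_const`). `ising_lbh`: `B = 1`, `t = 0`, `x₀ = 1`; from `Facts` and
`spin_expand`, `|tail p j - tail (phat r) j| ≤ 2τ/u + C √u =: η`; with `p̂ = phat r`:
`parisi p f ≥ parisi (top1 p̂) f - K²(η+δ)/2 ≥ energy p̂ - ...` (`psi0_mono`, `abs_tail_top1`,
`top1_close`), `pair r p ≥ pair p̂ r - η R` (`pair_sub_le`), and
`V ≤ α energy p̂ + isingEntropy p̂ = α energy p̂ + spinTerm r + pair p̂ r/2` (`csInf_le`,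
`isingEntropy_eq`, `values_bddBelow`). Choose `u`, then `τ`, `δ`.
-/

open MeasureTheory ProbabilityTheory Real
open scoped BigOperators Matrix

namespace P157


theorem values_bddBelow {ent : ℕ → (ℕ → ℝ) → (ℕ → ℝ) → ℝ}
    (hent : ∀ k m p, IsPartition k m → IsPath k p → p k < 1 → 0 ≤ ent k m p) {α : ℝ} (hα : 0 < α)
    {f : ℝ → ℝ} (hf : Measurable f) {K : ℝ} (hK : ∀ y, |f y| ≤ K) :
    BddBelow (values ent α f) := by
  refine ⟨-(α * K), ?_⟩
  rintro x ⟨k, m, p, hk, hp, hp1, rfl⟩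
  have h1 := hent k m p hk hp hp1
  have h2 := (abs_le.1 (abs_energy_le (p := p) hk hf hK)).1
  nlinarith [mul_le_mul_of_nonneg_left h2 hα.le]
theorem values_nonempty (ent : ℕ → (ℕ → ℝ) → (ℕ → ℝ) → ℝ) (α : ℝ) (f : ℝ → ℝ) :
    (values ent α f).Nonempty :=
  ⟨_, 0, fun i => (i : ℝ), fun _ => 0, ⟨by simp, by simp, fun j _ => by simp⟩,
    ⟨le_rfl, fun _ _ => le_rfl⟩, zero_lt_one, rfl⟩

/-- the sign of the first coordinate -/
noncomputable def ianSg (z : ℝ × ℝ) : ℝ := if 0 ≤ z.1 then 1 else -1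

theorem ian_meas : Measurable ianSg :=
  Measurable.ite (measurableSet_le measurable_const measurable_fst) measurable_const
    measurable_const

theorem ian_sq (z : ℝ × ℝ) : ianSg z ^ 2 = 1 := by
  unfold ianSg
  split_ifs <;> norm_num

theorem ian_abs (z : ℝ × ℝ) : |ianSg z| ≤ 1 := by
  unfold ianSg
  split_ifs <;> norm_num

theorem ian_law : (rad.prod (Measure.dirac (0 : ℝ))).map ianSg = rad := by
  have h1 : ∀ᵐ z ∂(rad.prod (Measure.dirac (0 : ℝ))), ianSg z = z.1 := by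
    filter_upwards [(Measure.quasiMeasurePreserving_fst (μ := rad)
      (ν := Measure.dirac (0 : ℝ))).ae ii_rad_ae] with z hz
    rcases hz with h | h <;> simp [ianSg, h]
  rw [Measure.map_congr h1]
  simp

/-- append the first coordinate of `z` -/
def ianQ (N : ℕ) (c : (Fin N → ℝ) × (ℝ × ℝ)) : Fin (N + 1) → ℝ :=
  Fin.snoc (α := fun _ => ℝ) c.1 c.2.1

theorem ian_mp (N : ℕ) : MeasurePreserving (ianQ N)
    ((isingMeasure N).prod (rad.prod (Measure.dirac (0 : ℝ)))) (isingMeasure (N + 1)) := by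
  have h := ((measurePreserving_piFinSuccAbove (fun _ : Fin (N + 1) => rad)
    (Fin.last N)).symm.comp Measure.measurePreserving_swap).comp
    ((MeasurePreserving.id (Measure.pi fun _ : Fin N => rad)).prod
      (measurePreserving_fst (μ := rad) (ν := Measure.dirac (0 : ℝ))))
  rw [ii_eq, ii_eq]
  convert h using 1
  funext p
  exact (Fin.insertNth_last' p.2.1 p.1).symm

theorem ian_spx {N : ℕ} (hN : 0 < N) (c : (Fin N → ℝ) × (ℝ × ℝ)) :
    spx (isingSp N) ianSg c = isingSp (N + 1) (ianQ N c) := by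
  have hN' : (N : ℝ) ≠ 0 := by exact_mod_cast hN.ne'
  funext i
  unfold spx ext
  rw [ian_sq, add_sub_cancel_right, div_self hN', sqrt_one]
  refine Fin.lastCases ?_ (fun i => ?_) i
  · simp [isingSp, ianQ, ianSg]
  · simp [isingSp, ianQ]

theorem ian_perm (N : ℕ) (e : Equiv.Perm (Fin N)) : ∃ T : (Fin N → ℝ) → Fin N → ℝ,
    MeasurePreserving T (isingMeasure N) (isingMeasure N) ∧
      ∀ᵐ σ ∂(isingMeasure N), isingSp N (T σ) = isingSp N σ ∘ e := by
  refine ⟨fun x => x ∘ e, ?_, ae_of_all _ fun _ => rfl⟩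
  have h := (measurePreserving_piCongrLeft (fun _ : Fin N => rad) e).symm
  rw [ii_eq]
  convert h using 1
  funext x i
  simp [MeasurableEquiv.piCongrLeft, Equiv.piCongrLeft_symm_apply]

theorem ising_ext {f : ℝ → ℝ} (hf : Measurable f) {K : ℝ} (hK : ∀ y, |f y| ≤ K) :
    ExtH isingMeasure isingSp f 1 rad 0 := by
  intro τ₀ hτ
  filter_upwards [Filter.eventually_gt_atTop 0] with N hN
  refine ⟨rad.prod (Measure.dirac 0), ianSg, ianSg, ⟨inferInstance, ian_meas, ian_meas, ian_abs,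
    ian_abs, fun z => by simpa using hτ.le, ian_law⟩, fun L k n₀ M m b hL hk => ?_⟩
  have hS := ising_fam.isSp (N + 1)
  have hs : ∀ᵐ c ∂((isingMeasure N).prod (rad.prod (Measure.dirac (0 : ℝ)))),
      spx (isingSp N) ianSg c = isingSp (N + 1) (ianQ N c) := ae_of_all _ (ian_spx hN)
  refine ⟨?_, fun j _ => ?_, ?_⟩
  · rw [sub_zero, SW_comp hS hL hf hK (ian_mp N) hs]
  · have g1 : Bd2 (fun (_ : SO L k n₀ (N + 1) M) (c c' : (Fin (N + 1) → ℝ) × Leaf L k) =>
        isingSp (N + 1) c.1 (Fin.last N) * isingSp (N + 1) c'.1 (Fin.last N)) (N + 1 : ℕ) :=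
      ⟨((measurable_pi_apply (Fin.last N)).comp (hS.meas.comp measurable_snd.fst.fst)).mul
        ((measurable_pi_apply (Fin.last N)).comp (hS.meas.comp measurable_snd.snd.fst)),
        fun _ c c' => si_bd (hS.norm _) (hS.norm _) _⟩
    have e1 := SA2_comp (m := m) (b := b) hS hL hf hK (ian_mp N) hs
      (g1.mul (bd2_ind measurable_snd j)).good2
    have e2 := SA2_comp (M := M) (m := m) (b := b) hS hL hf hK (ian_mp N) hs
      ((bd2_ov (sb_fst (S' := Leaf L k) hS)).mul (bd2_ind measurable_snd j)).good2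
    have e3 := SA2_coord (L := L) (M := M) (m := m) (b := b) hS N.succ_pos hL hf hK
      (ian_perm (N + 1)) (Fin.last N) j
    have e4 : ∀ c : (Fin N → ℝ) × (ℝ × ℝ),
        isingSp (N + 1) (ianQ N c) (Fin.last N) = ianSg c.2 := fun c => by
      simp [isingSp, ianQ, ianSg]
    simp only [e4] at e1
    simp only [← ian_spx hN] at e2
    rw [e1, e2, e3, sub_self, abs_zero]
  · have := unif_prob hL k
    simp only [ian_sq]
    unfold SA1
    rw [A1_const (SH_good (spx_isSp (ising_fam.isSp N) hN ian_meas fun z => by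
      rw [ian_sq]; linarith [(Nat.cast_nonneg N : (0 : ℝ) ≤ N)]) hf hK), sub_self, abs_zero]

theorem psiNu_rad {k : ℕ} {m : ℕ → ℝ} (hk : IsPartition k m) (s : ℕ → ℝ) (κ : ℝ) :
    psiNu rad k m s κ = spinTerm k m s + κ / 2 := by
  have e : (fun y => log (∫ x, exp (x * y - x ^ 2 * (s k - κ) / 2) ∂rad)) =
      fun y => lc y + -((s k - κ) / 2) := by
    funext y
    rw [ii_rad_int, lc, ← log_exp (-((s k - κ) / 2)), ← log_mul (cosh_pos y).ne' (exp_pos _).ne',
      cosh_eq]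
    congr 1
    simp only [one_mul, one_pow, neg_mul, even_two, Even.neg_pow, sub_eq_add_neg, exp_add]
    ring
  have hE := lc_c2d.1.env
  unfold psiNu spinTerm
  rw [e, parisi_eq_Rec hk (hE.add_const _),
    Rec_add_const hE ((hk.lv (expM_rq s)).mono le_rfl (by omega)), ← parisi_eq_Rec hk hE]
  change parisi k m s lc + _ = parisi k m s lc - _ + _
  ring

theorem ising_lbh {f : ℝ → ℝ} {K : ℝ} (hf : NiceK f K) {α : ℝ} (hα : 0 < α) {R : ℝ} (hR : 0 ≤ R) :
    LBH isingMeasure isingSp α f R (sInf (values isingEntropy α f)) := by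
  intro ε hε
  obtain ⟨C, hC, hexp⟩ := spin_expand
  have hK0 : 0 < K := zero_lt_one.trans_le hf.one_le
  have hm : Measurable f := hf.c0.d1.continuous.measurable
  obtain ⟨D, hD⟩ : ∃ D, D = α * (K ^ 2 * (2 * (11 + C) + 1) / 2 + 2 * K) + (11 + C) * R + 1 :=
    ⟨_, rfl⟩
  have hD0 : 0 < D := by rw [hD]; positivity
  obtain ⟨v, hv0, hv1, hvD⟩ : ∃ v : ℝ, 0 < v ∧ v ≤ 1 ∧ v * D ≤ ε :=
    ⟨min 1 (ε / D), lt_min one_pos (div_pos hε hD0), min_le_left _ _,
      (le_div_iff₀ hD0).1 (min_le_right _ _)⟩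
  have hu1 : v ^ 2 ≤ 1 := pow_le_one₀ hv0.le hv1
  refine ⟨1, v ^ 2, 1, 0, v ^ 3, v, rad, le_rfl, by positivity, by simpa using hu1, one_pos, le_rfl,
    le_rfl, by positivity, hv0, ising_ext hm hf.c0.b0, fun k m p r h1 hk hδ hp hr hrR hF => ?_⟩
  obtain ⟨q1, q2⟩ := phat_isPath (s := r) hk
  have ht : ∀ j ≤ k, |tail k m p j - tail k m (phat k m r) j| ≤ 2 * (11 + C) * v := by
    intro j hj
    have a1 := abs_le.1 (hF.1 j hj)
    have a2 := abs_le.1 (hexp hk hr (sq_nonneg v) hu1 hj).1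
    rw [psiNu_rad hk, psiNu_rad hk] at a1
    rw [sqrt_sq hv0.le] at a1 a2
    have hv2 : 0 < v ^ 2 := by positivity
    rw [abs_le]
    constructor <;> refine le_of_mul_le_mul_left ?_ hv2 <;> nlinarith [a1.1, a1.2, a2.1, a2.2]
  have b1 := psi0_mono hk hf.c0 hp (q1.top1 q2.le) (η := 2 * (11 + C) * v + v) (by positivity)
    fun j hj => by
      linarith [(abs_le.1 (ht j hj)).2, (abs_le.1 (abs_tail_top1 hk hδ q1 q2.le hj)).1]
  have b2 := (abs_le.1 (top1_close hk h1 hδ q1 q2.le hm hf.c0.b0)).1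
  have b3 := pair_sub_le (p := phat k m r) (p' := p) hr (η := 2 * (11 + C) * v)
    fun j hj => by linarith [(abs_le.1 (ht j hj)).1]
  have b4 : sInf (values isingEntropy α f) ≤
      α * energy f k m (phat k m r) + isingEntropy k m (phat k m r) :=
    csInf_le (values_bddBelow (fun _ _ _ => isingEntropy_nonneg) hα hm hf.c0.b0)
      ⟨k, m, _, hk, q1, q2, rfl⟩
  rw [(isingEntropy_eq hk hr fun _ _ => rfl).2] at b4
  have b5 : α * energy f k m (phat k m r) ≤
      α * (parisi k m p f + K ^ 2 * (2 * (11 + C) * v + v) / 2 + 2 * K * v) :=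
    mul_le_mul_of_nonneg_left (by linarith) hα.le
  have b6 : 2 * (11 + C) * v * r k ≤ 2 * (11 + C) * v * R :=
    mul_le_mul_of_nonneg_left hrR (by positivity)
  rw [psiNu_rad hk, pair_comm k m r p]
  rw [hD] at hvD
  linarith

end P157
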