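import Vale.Agent.P157.SBasic

/-! P157 SAC: the enriched system is an approximate cascade; initial condition.
Plan (`S_ac`): fix the patterns `G`. Let `E = Y = DD n₀ k N → ℝ`, `ν = gp`, `w j η = (1_{lev d = j}) * η`,
`X₀ y = log ∫ exp (pat f G (sp σ) + ∑ d, b d.1 φ_d(σ) y d) ∂μ`, which is Lipschitz for the sup norm with
constant `C₀ = card DD * Bb * (√N)^{n₀+1}` (crude: `|x i| ≤ √N`, `N ≥ 1`), independent of `G, L, M`.
Currying `II → ℝ ≃ Nd → DD → ℝ` preserves the Gaussian measures (`infinitePi_map_curry`,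
`Measure.infinitePi_eq_pi`, or `Measure.pi_eq`), and `feat b x ω · g = ∑ d, b φ_d (st w g ω d)`.
Integrate out `σ` (`FE_intout` after swapping the two configuration coordinates with `FE_comp`),
apply `ac_of_inv`, and integrate over `G` (`FE_prod`, `FE_prod_symm` after a measure preserving
reordering of the factors; `abs_integral_le_integral_abs`). (`S_init`): by `interp_sup` with `τ = 0`
replace `feat` by the features `A (σ,ω) (x,i) = tfeat β ω x * sp σ i` on `Nd × Fin N` (same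
covariance `∑ j, β j² N ov ind j`), curry, integrate out `σ`, apply the upper bound of `inv_FE` with
`E = Y = Fin N → ℝ`, `w j = β j • ·`.
-/

open MeasureTheory ProbabilityTheory Real
open scoped BigOperators Matrix

namespace P157

variable {S₀ : Type} [MeasurableSpace S₀] {N L k n₀ M : ℕ} {μ : Measure S₀}
  [IsProbabilityMeasure μ] {sp : S₀ → Fin N → ℝ} {f : ℝ → ℝ} {K : ℝ} {m : ℕ → ℝ} {b : TT n₀ k → ℝ}

theorem sac_lZ_le {f f' : S₀ → ℝ} (hf : Integrable (fun σ => exp (f σ)) μ)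
    (hf' : Integrable (fun σ => exp (f' σ)) μ) {d : ℝ} (h : ∀ σ, f σ ≤ f' σ + d) :
    lZ μ f ≤ lZ μ f' + d := by
  have h1 := integral_mono hf (hf'.mul_const (exp d)) fun σ => by
    simp only [← exp_add]
    exact exp_le_exp.2 (h σ)
  rw [integral_mul_const] at h1
  have h2 := log_le_log (integral_exp_pos hf) h1
  rwa [log_mul (integral_exp_pos hf').ne' (exp_pos d).ne', log_exp] at h2

theorem sac_dot_le {D : Type} [Fintype D] {φ : D → ℝ} {c : ℝ} (h : ∀ d, |φ d| ≤ c) (y : D → ℝ) :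
    |φ ⬝ᵥ y| ≤ Fintype.card D * c * ‖y‖ := by
  refine (Finset.abs_sum_le_sum_abs _ _).trans ((Finset.sum_le_sum fun d _ =>
    gb_mul (h d) (norm_le_pi_norm y d)).trans (le_of_eq ?_))
  simp [mul_assoc]

omit [IsProbabilityMeasure μ] in
theorem sac_meas {D : Type} [Fintype D] {φ : S₀ → D → ℝ} (hm : ∀ d, Measurable fun σ => φ σ d)
    (y : D → ℝ) : Measurable fun σ => φ σ ⬝ᵥ y :=
  Finset.measurable_sum _ fun d _ => (hm d).mul_const _

theorem sac_env {D : Type} [Fintype D] {φ : S₀ → D → ℝ} (hm : ∀ d, Measurable fun σ => φ σ d)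
    {c : ℝ} (hc : 0 ≤ c) (hφ : ∀ σ d, |φ σ d| ≤ c) {h : S₀ → ℝ} (hh : Measurable h) {K : ℝ}
    (hK : ∀ σ, |h σ| ≤ K) :
    Env (fun y : D → ℝ => lZ μ fun σ => h σ + φ σ ⬝ᵥ y) (Fintype.card D * c) := by
  have h1 : ∀ y : D → ℝ, Integrable (fun σ => exp (h σ + φ σ ⬝ᵥ y)) μ := fun y =>
    gc_exp (hh.add (sac_meas hm y)) fun σ => gb_add (hK σ) (sac_dot_le (hφ σ) y)
  have h2 : ∀ y y' : D → ℝ, (lZ μ fun σ => h σ + φ σ ⬝ᵥ y) ≤
      (lZ μ fun σ => h σ + φ σ ⬝ᵥ y') + Fintype.card D * c * ‖y - y'‖ := fun y y' =>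
    sac_lZ_le (h1 y) (h1 y') fun σ => by
      have h3 := (abs_le.1 (sac_dot_le (hφ σ) (y - y'))).2
      rw [dotProduct_sub] at h3
      linarith
  have h3 : ∀ y y' : D → ℝ, |(lZ μ fun σ => h σ + φ σ ⬝ᵥ y) - lZ μ fun σ => h σ + φ σ ⬝ᵥ y'| ≤
      Fintype.card D * c * ‖y - y'‖ := fun y y' => by
    have h4 := h2 y y'
    have h5 := h2 y' y
    rw [norm_sub_rev] at h5
    exact abs_le.2 ⟨by linarith, by linarith⟩
  refine Env.of_lip ?_ (by positivity) h3
  exact (LipschitzWith.of_dist_le_mul (K := ⟨Fintype.card D * c, by positivity⟩) fun y y' => by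
    rw [Real.dist_eq, dist_eq_norm]; exact h3 y y').continuous.measurable

theorem sac_lZ (hL : 0 < L) (U : Leaf L k → ℝ) {Θ : S₀ → Leaf L k → ℝ}
    (hm : ∀ l, Measurable fun σ => Θ σ l) (hb : ∀ l, ∃ C, ∀ σ, |Θ σ l| ≤ C) :
    lZ (μ.prod (unif L k)) (fun x => U x.2 + Θ x.1 x.2) =
      lZ (unif L k) fun l => U l + lZ μ fun σ => Θ σ l := by
  have := unif_prob hL k
  choose C hC using hb
  have h1 : Integrable (fun x : S₀ × Leaf L k => exp (U x.2 + Θ x.1 x.2)) (μ.prod (unif L k)) := by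
    refine gc_exp (C := ∑ l, (|U l| + C l))
      (measurable_from_prod_countable_left fun l => (hm l).const_add (U l)) fun x => ?_
    obtain ⟨σ, l⟩ := x
    exact (gb_add le_rfl (hC l σ)).trans (Finset.single_le_sum (f := fun l => |U l| + C l)
      (fun l _ => add_nonneg (abs_nonneg _) ((abs_nonneg _).trans (hC l σ))) (Finset.mem_univ l))
  unfold lZ
  rw [integral_prod_symm _ h1]
  refine congrArg log (integral_congr_ae (ae_of_all _ fun l => ?_))
  simp only [exp_add, integral_const_mul]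
  rw [exp_log (integral_exp_pos (gc_exp (hm l) (hC l)))]

theorem sac_uncurry (A D : Type) [Fintype A] [Fintype D] :
    MeasurePreserving (fun (g : A → D → ℝ) (c : A × D) => g c.1 c.2)
      (Measure.pi fun _ : A => gp D) (gp (A × D)) := by
  have hm : Measurable fun (g : A → D → ℝ) (c : A × D) => g c.1 c.2 :=
    measurable_pi_lambda _ fun c => (measurable_pi_apply c.2).comp (measurable_pi_apply c.1)
  refine ⟨hm, (Measure.pi_eq fun s hs => ?_).symm⟩
  have h1 : (fun (g : A → D → ℝ) (c : A × D) => g c.1 c.2) ⁻¹' Set.pi Set.univ s =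
      Set.pi Set.univ fun a : A => Set.pi Set.univ fun d : D => s (a, d) := by
    ext g
    simp only [Set.mem_preimage, Set.mem_pi, Set.mem_univ, forall_true_left, Prod.forall]
  rw [Measure.map_apply hm (MeasurableSet.univ_pi hs), h1, Measure.pi_pi, Fintype.prod_prod_type]
  simp only [Measure.pi_pi]

theorem sac_step {A B C Z : Type} [MeasurableSpace A] [MeasurableSpace B] [MeasurableSpace C]
    [MeasurableSpace Z] {PA : Measure A} {PB : Measure B} {PC : Measure C} (PZ : Measure Z)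
    [SFinite PA] [SFinite PB] [SFinite PC] [SFinite PZ] {e : A × B → C}
    (he : MeasurePreserving e (PA.prod PB) PC) :
    MeasurePreserving (fun p : A × B × Z => (e (p.1, p.2.1), p.2.2)) (PA.prod (PB.prod PZ))
      (PC.prod PZ) :=
  (he.prod (MeasurePreserving.id PZ)).comp (measurePreserving_prodAssoc PA PB PZ).symm

theorem sac_base {U G : Type} [MeasurableSpace U] [MeasurableSpace G] (PU : Measure U)
    (PG : Measure G) [SFinite PU] [SFinite PG] (A D : Type) [Fintype A] [Fintype D] :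
    MeasurePreserving
      (fun p : G × U × (A → D → ℝ) => ((p.2.1, p.1), fun c : A × D => p.2.2 c.1 c.2))
      (PG.prod (PU.prod (Measure.pi fun _ : A => gp D))) ((PU.prod PG).prod (gp (A × D))) :=
  ((MeasurePreserving.id (PU.prod PG)).prod (sac_uncurry A D)).comp
    (sac_step _ (Measure.measurePreserving_swap (μ := PG) (ν := PU)))

theorem sac_dis {Ω S G Q : Type} [MeasurableSpace Ω] [MeasurableSpace S] [MeasurableSpace G]
    [MeasurableSpace Q] {P : Measure Ω} [IsProbabilityMeasure P] (ν : Measure S)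
    [IsProbabilityMeasure ν] {PG : Measure G} [IsProbabilityMeasure PG] {PQ : Measure Q}
    [IsProbabilityMeasure PQ] {H : Ω → S → ℝ} (h : Good P H) {e : G × Q → Ω}
    (he : MeasurePreserving e (PG.prod PQ) P) :
    FE P ν H = ∫ g, FE PQ ν (fun ω σ => H (e (g, ω)) σ) ∂PG ∧
      Integrable (fun g => FE PQ ν fun ω σ => H (e (g, ω)) σ) PG := by
  rw [← FE_comp h he (MeasurePreserving.id ν)]
  exact FE_prod (h.comp he measurable_id)

omit [IsProbabilityMeasure μ] in
theorem sac_sp_le (h : IsSp sp) (σ : S₀) (i : Fin N) : |sp σ i| ≤ √(N : ℝ) := by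
  refine abs_le_sqrt ?_
  rw [← h.norm σ, sq]
  exact Finset.single_le_sum (f := fun i => sp σ i * sp σ i) (fun _ _ => mul_self_nonneg _)
    (Finset.mem_univ i)

theorem sac_feat (b : TT n₀ k → ℝ) (x : Fin N → ℝ) (l : Leaf L k) (g : Nd L k → DD n₀ k N → ℝ) :
    (feat b x l ⬝ᵥ fun c => g c.1 c.2) =
      (fun d : DD n₀ k N => b d.1 * ((∏ i, x (d.2 i)) / √(N : ℝ) ^ deg d.1)) ⬝ᵥ
        st (fun j η => (fun d : DD n₀ k N => if lev d.1 = j then (1 : ℝ) else 0) * η) g l := by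
  unfold dotProduct st feat
  rw [Fintype.sum_prod_type_right]
  refine Finset.sum_congr rfl fun d _ => ?_
  simp only [Finset.sum_apply, Pi.mul_apply, ite_mul, zero_mul, one_mul, Finset.sum_ite_eq,
    Finset.sum_ite_eq', Finset.mem_univ, if_true, Finset.mem_range,
    Nat.lt_succ_of_le (lev_le d.1)]

theorem sac_AC {Ω S S' G Q : Type} [MeasurableSpace Ω] [MeasurableSpace S] [MeasurableSpace S']
    [MeasurableSpace G] [MeasurableSpace Q] {P : Measure Ω} [IsProbabilityMeasure P] {ν : Measure S}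
    [IsProbabilityMeasure ν] {ν' : Measure S'} {PG : Measure G} [IsProbabilityMeasure PG]
    {PQ : Measure Q} [IsProbabilityMeasure PQ] {H : Ω → S → ℝ} (hH : Good P H)
    {lf : S → Leaf L k} (hlf : Measurable lf) {e : G × Q → Ω}
    (he : MeasurePreserving e (PG.prod PQ) P) {H' : G → Q → S' → ℝ} {lf' : S' → Leaf L k}
    (key : ∀ g q (V : Leaf L k → ℝ), lZ ν (fun x => H (e (g, q)) x + V (lf x)) =
      lZ ν' fun x => H' g q x + V (lf' x)) {B τ : ℝ} (hAC : ∀ g, AC k m PQ ν' (H' g) lf' B τ) :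
    AC k m P ν H lf B τ := by
  intro w₁ w₂ w₃ X hw hX
  obtain ⟨a1, a2⟩ := sac_dis ν hH he
  obtain ⟨b1, b2⟩ := sac_dis ν ((((hH.fst _).fst _).fst _).add
    (good_tf3 hlf hX w₁ w₂ w₃)) (sac_step _ (sac_step _ (sac_step _ he)))
  have h3 : ∀ (F F' : G → ℝ) (R : ℝ), Integrable F PG → Integrable F' PG →
      ∫ g, F g ∂PG - ∫ g, F' g ∂PG - R = ∫ g, (F g - F' g - R) ∂PG := fun F F' R hF hF' => by
    rw [integral_sub (f := fun g => F g - F' g) (hF.sub hF') (integrable_const R),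
      integral_sub hF hF']
    simp
  rw [a1, b1, h3 _ _ _ b2 a2]
  refine gb_int fun g => le_of_eq_of_le ?_ (hAC g w₁ w₂ w₃ X hw hX)
  refine congrArg (fun t => |t - _|) (congrArg₂ (· - ·) ?_ ?_)
  · exact integral_congr_ae (ae_of_all _ fun ω => key g ω.1.1.1
      fun l => X ((tf w₁ ω.1.1.2 l, tf w₂ ω.1.2 l), tf w₃ ω.2 l))
  · refine integral_congr_ae (ae_of_all _ fun ω => ?_)
    have h4 := key g ω fun _ => 0
    simpa only [add_zero] using h4

theorem sac_sec {Ω S : Type} [MeasurableSpace Ω] [MeasurableSpace S] {φ : Ω → S → ℝ} {C : ℝ}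
    (h : Bd1 φ C) (ω : Ω) : Measurable (φ ω) := h.meas.comp (measurable_prodMk_left (x := ω))

omit [IsProbabilityMeasure μ] in
theorem sac_phim (h : IsSp sp) (b : TT n₀ k → ℝ) (d : DD n₀ k N) :
    Measurable fun σ => b d.1 * ((∏ i, sp σ (d.2 i)) / √(N : ℝ) ^ deg d.1) :=
  ((Finset.measurable_prod (f := fun i σ => sp σ (d.2 i)) _ fun i _ =>
    (measurable_pi_apply (d.2 i)).comp h.meas).div_const _).const_mul _

omit [IsProbabilityMeasure μ] in
theorem sac_phib (h : IsSp sp) (hN : 0 < N) {Bb : ℝ} (hb : ∀ t, |b t| ≤ Bb) (σ : S₀)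
    (d : DD n₀ k N) : |b d.1 * ((∏ i, sp σ (d.2 i)) / √(N : ℝ) ^ deg d.1)| ≤ |Bb| := by
  have h1 : (0 : ℝ) < √(N : ℝ) ^ deg d.1 := by positivity
  have h2 : |(∏ i, sp σ (d.2 i)) / √(N : ℝ) ^ deg d.1| ≤ 1 := by
    rw [abs_div, abs_of_pos h1, div_le_one h1, Finset.abs_prod]
    refine (Finset.prod_le_prod (fun _ _ => abs_nonneg _) fun i _ => sac_sp_le h σ _).trans ?_
    simp
  exact (gb_mul ((hb _).trans (le_abs_self _)) h2).trans (mul_one _).le

theorem sac_key (h : IsSp sp) (hN : 0 < N) (hL : 0 < L) (hf : Measurable f) (hK : ∀ y, |f y| ≤ K)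
    {Bb : ℝ} (hb : ∀ t, |b t| ≤ Bb) (G : Fin M → Fin N → ℝ) (u : Nd L k → ℝ)
    (g : Nd L k → DD n₀ k N → ℝ) (V : Leaf L k → ℝ) :
    lZ (μ.prod (unif L k)) (fun x => SH f m sp b ((u, G), fun c => g c.1 c.2) x + V x.2) =
      lZ (unif L k) fun l => lw m u l + (lZ μ fun σ => pat f G (sp σ) +
        (fun d : DD n₀ k N => b d.1 * ((∏ i, sp σ (d.2 i)) / √(N : ℝ) ^ deg d.1)) ⬝ᵥ
        st (fun j η => (fun d : DD n₀ k N => if lev d.1 = j then (1 : ℝ) else 0) * η) g l) + V l := by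
  have hp := pat_bd (M := M) h hf hK
  have h1 := sac_lZ (μ := μ) hL (fun l => lw m u l + V l)
    (Θ := fun σ l => pat f G (sp σ) +
      (fun d : DD n₀ k N => b d.1 * ((∏ i, sp σ (d.2 i)) / √(N : ℝ) ^ deg d.1)) ⬝ᵥ
        st (fun j η => (fun d : DD n₀ k N => if lev d.1 = j then (1 : ℝ) else 0) * η) g l)
    (fun l => (sac_sec hp G).add (sac_meas (sac_phim h b) _))
    fun l => ⟨_, fun σ => gb_add (hp.bdd G σ) (sac_dot_le (sac_phib h hN hb σ) _)⟩
  simp only [add_right_comm (lw m u _) (V _)] at h1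
  rw [← h1]
  refine congrArg _ (funext fun x => ?_)
  rw [SH, sac_feat]
  ring

theorem S_ac {k : ℕ} {m : ℕ → ℝ} (hk : IsPartition k m) (n₀ : ℕ) {N : ℕ} (hN : 0 < N)
    (B Bb : ℝ) {τ : ℝ} (hτ : 0 < τ) : ∃ L₀ : ℕ, ∀ L ≥ L₀, 0 < L ∧ ∀ {S₀ : Type} [MeasurableSpace S₀]
      {μ : Measure S₀} [IsProbabilityMeasure μ] {sp : S₀ → Fin N → ℝ} {f : ℝ → ℝ} {K : ℝ}
      (_ : IsSp sp) (_ : Measurable f) (_ : ∀ y, |f y| ≤ K) (M : ℕ) (b : TT n₀ k → ℝ)
      (_ : ∀ t, |b t| ≤ Bb), SAC L k n₀ M f m μ sp b B τ := by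
  obtain ⟨L₀, hL₀⟩ := ac_of_inv hk B (Fintype.card (DD n₀ k N) * |Bb|)
    (∑ j ∈ Finset.range (k + 1), ∫ η, exp (2 * (Fintype.card (DD n₀ k N) * |Bb| + |B|) *
      (1 + ‖(fun d : DD n₀ k N => if lev d.1 = j then (1 : ℝ) else 0) * η‖)) ∂gp (DD n₀ k N)) hτ
  refine ⟨L₀, fun L hL => ⟨(hL₀ L hL).1, ?_⟩⟩
  intro S₀ _ μ _ sp f K h hf hK M b hb
  have hL0 := (hL₀ L hL).1
  have := unif_prob hL0 k
  have hp := pat_bd (M := M) h hf hK
  have hAC := fun G : Fin M → Fin N → ℝ => (hL₀ L hL).2 (gp (DD n₀ k N))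
    (w := fun j η => (fun d : DD n₀ k N => if lev d.1 = j then (1 : ℝ) else 0) * η)
    (fun j => measurable_id.const_mul _) (fun j => expM_gp_mul _)
    (sac_env (μ := μ)
      (φ := fun σ (d : DD n₀ k N) => b d.1 * ((∏ i, sp σ (d.2 i)) / √(N : ℝ) ^ deg d.1))
      (sac_phim h b) (abs_nonneg Bb) (sac_phib h hN hb) (sac_sec hp G) (hp.bdd G))
    (fun j hj => Finset.single_le_sum (f := fun j => ∫ η, exp (2 * (Fintype.card (DD n₀ k N) * |Bb| +
      |B|) * (1 + ‖(fun d : DD n₀ k N => if lev d.1 = j then (1 : ℝ) else 0) * η‖)) ∂gp (DD n₀ k N))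
      (fun _ _ => integral_nonneg fun _ => (exp_pos _).le)
      (Finset.mem_range.2 (Nat.lt_succ_of_le hj)))
  exact sac_AC (SH_good h hf hK) measurable_snd (sac_base (PU L k m) (PG N M) (Nd L k) (DD n₀ k N))
    (fun G q V => sac_key h hN hL0 hf hK hb G q.1 q.2 V) hAC

theorem S_init (hk : IsPartition k m) (h : IsSp sp) (hN : 0 < N) (hL : 0 < L) (β : ℕ → ℝ) :
    SW L k n₀ 0 f m μ sp (Sum.elim (fun _ => 0) fun j => √(N : ℝ) * β j) ≤
      cL L k m + RecN k m μ sp β := by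
  have := unif_prob hL k
  have hN' : (0 : ℝ) < N := by exact_mod_cast hN
  have hm : ∀ i, Measurable fun σ => sp σ i := fun i => (measurable_pi_apply i).comp h.meas
  have hH : Good ((PU L k m).prod (PG N 0)) fun ω (c : S₀ × Leaf L k) => lw m ω.1 c.2 :=
    (lw_good m).comp measurePreserving_fst measurable_snd
  have hA : Feat fun (_ : (Nd L k → ℝ) × (Fin 0 → Fin N → ℝ)) (c : S₀ × Leaf L k)
      (z : Nd L k × Fin N) => tfeat β c.2 z.1 * sp c.1 z.2 := by
    obtain ⟨h1, C, h2⟩ := feat_tfeat (Ω := (Nd L k → ℝ) × (Fin 0 → Fin N → ℝ))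
      (measurable_snd (α := S₀) (β := Leaf L k)) β
    exact ⟨fun z => (h1 z.1).mul ((hm z.2).comp measurable_snd.fst), C * √(N : ℝ),
      fun ω c z => gb_mul (h2 ω c z.1) (sac_sp_le h _ _)⟩
  have h1 := interp_sup (μ := μ.prod (unif L k)) (τ := 0) hH
    (feat_feat (L := L) h (Sum.elim (fun _ => 0) fun j => √(N : ℝ) * β j : TT n₀ k → ℝ)) hA
    (fun _ c c' => by
      rw [feat_dot hN, abs_nonpos_iff, sub_eq_zero, Fintype.sum_sum_type]
      have h2 : ((fun z : Nd L k × Fin N => tfeat β c.2 z.1 * sp c.1 z.2) ⬝ᵥ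
          fun z => tfeat β c'.2 z.1 * sp c'.1 z.2) =
          (tfeat β c.2 ⬝ᵥ tfeat β c'.2) * (sp c.1 ⬝ᵥ sp c'.1) := by
        unfold dotProduct
        rw [Fintype.sum_prod_type, Finset.sum_mul_sum]
        exact Finset.sum_congr rfl fun _ _ => Finset.sum_congr rfl fun _ _ => by ring
      rw [h2, tfeat_dot, Finset.sum_range, Finset.sum_mul]
      simp only [Sum.elim_inl, Sum.elim_inr, zero_mul, Finset.sum_const_zero, zero_add]
      refine Finset.sum_congr rfl fun j _ => ?_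
      have h3 := mul_self_sqrt hN'.le
      simp only [ker, deg, lev, ov, pow_one]
      field_simp
      rw [sq_sqrt hN'.le]
      ring)
  have h2 : SW L k n₀ 0 f m μ sp (Sum.elim (fun _ => 0) fun j => √(N : ℝ) * β j) =
      FE (((PU L k m).prod (PG N 0)).prod (gp (II L k n₀ N))) (μ.prod (unif L k)) fun ω c =>
        lw m ω.1.1 c.2 + feat (Sum.elim (fun _ => 0) fun j => √(N : ℝ) * β j) (sp c.1) c.2 ⬝ᵥ ω.2 := by
    unfold SW SP SH pat
    simp only [Finset.univ_eq_empty, Finset.sum_empty, add_zero]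
  rw [h2, sub_eq_zero.1 (abs_nonpos_iff.1 h1)]
  obtain ⟨a1, a2⟩ := sac_dis (μ.prod (unif L k)) ((hH.fst _).add hA.good)
    (sac_base (PU L k m) (PG N 0) (Nd L k) (Fin N))
  have hE := sac_env (μ := μ) hm (sqrt_nonneg _) (sac_sp_le h) (h := fun _ => 0) measurable_const
    (K := 0) fun _ => by simp
  have h3 := (inv_FE (w := fun j (g : Fin N → ℝ) => β j • g) hk hL (gp (Fin N))
    (fun j => measurable_id.const_smul (β j)) (fun j => expM_gp_smul (β j)) hE
    (fun j hj => Finset.single_le_sum (s := Finset.range (k + 1))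
      (f := fun j => ∫ η, exp (2 * (Fintype.card (Fin N) * √(N : ℝ)) * (1 + ‖β j • η‖)) ∂gp (Fin N))
      (fun _ _ => integral_nonneg fun _ => (exp_pos _).le)
      (Finset.mem_range.2 (Nat.lt_succ_of_le hj)))).2
  have h4 : RecN k m μ sp β = Rec m (fun j => (gp (Fin N)).map fun g => β j • g)
      (fun y => lZ μ fun σ => 0 + sp σ ⬝ᵥ y) (k + 1) 0 0 := by
    simp only [RecN, lZ, zero_add, dotProduct_comm]
  rw [a1, h4]
  refine (integral_mono a2 (integrable_const _) fun G => le_of_eq_of_le ?_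
    (sub_le_iff_le_add'.1 h3)).trans (by simp)
  refine integral_congr_ae (ae_of_all _ fun ω => ?_)
  have h5 := sac_lZ (μ := μ) hL (lw m ω.1)
    (Θ := fun σ l => 0 + sp σ ⬝ᵥ st (fun j (g : Fin N → ℝ) => β j • g) ω.2 l)
    (fun l => (sac_meas hm _).const_add 0)
    fun l => ⟨_, fun σ => by rw [zero_add]; exact sac_dot_le (sac_sp_le h σ) _⟩
  refine Eq.trans (congrArg _ (funext fun x => ?_)) h5
  rw [zero_add]
  refine congrArg _ ?_
  unfold dotProduct st
  rw [Fintype.sum_prod_type_right]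
  refine Finset.sum_congr rfl fun i _ => ?_
  have h6 := tf_eq_dot β (fun z => ω.2 z i) x.2
  simp only [tf, dotProduct] at h6
  simp only [Finset.sum_apply, Pi.smul_apply, smul_eq_mul]
  rw [h6, Finset.mul_sum]
  exact Finset.sum_congr rfl fun _ _ => by ring

end P157
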