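import Vale.Agent.P157.SBasic

/-! P157 SPat: removing patterns.
Plan: `measurePreserving_piFinSuccAbove` (its inverse is `Fin.insertNth`), `Fin.sum_univ_succAbove`,
and measure preserving reorderings of products (`prodAssoc`, `Prod.swap`, `Prod.map`). For `e2`
apply `e1` twice (`Fin.exists_succAbove_eq`). Bounded tilts: `abs_FE_sub_le`, `A2_tilt_le` (for
`SSync_pred` tilt back by `-f`), `A2_fst'`, `A2_comp`. `EZ_lip`: `FE_jensen` in both directions,
`A1_sum`; for each pattern remove it, `A1_tilt_le`, `A1_prod`, `gp_map_dot` (`fld g (sp σ)` is a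
standard Gaussian).
-/

open MeasureTheory ProbabilityTheory Real
open scoped BigOperators Matrix

namespace P157

variable {S₀ : Type} [MeasurableSpace S₀] {N L k n₀ M : ℕ} {μ : Measure S₀}
  [IsProbabilityMeasure μ] {sp : S₀ → Fin N → ℝ} {f : ℝ → ℝ} {K : ℝ} {m : ℕ → ℝ} {b : TT n₀ k → ℝ}

/-- insert one pattern -/
def spIns (a : Fin (M + 1)) (p : (Fin M → Fin N → ℝ) × (Fin N → ℝ)) : Fin (M + 1) → Fin N → ℝ :=
  Fin.insertNth a p.2 p.1

theorem spIns_mp (a : Fin (M + 1)) :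
    MeasurePreserving (spIns a) ((PG N M).prod (gp (Fin N))) (PG N (M + 1)) :=
  (measurePreserving_piFinSuccAbove (fun _ : Fin (M + 1) => gp (Fin N)) a).symm.comp
    Measure.measurePreserving_swap

theorem spIns_pat (a : Fin (M + 1)) (p : (Fin M → Fin N → ℝ) × (Fin N → ℝ)) (x : Fin N → ℝ) :
    pat f (spIns a p) x = pat f p.1 x + f (fld p.2 x) := by
  simp [pat, spIns, Fin.sum_univ_succAbove _ a, add_comm]

theorem sp_rot {α β γ : Type} [MeasurableSpace α] [MeasurableSpace β] [MeasurableSpace γ]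
    (ν₁ : Measure α) (ν₂ : Measure β) (ν₃ : Measure γ) [SFinite ν₁] [SFinite ν₂] [SFinite ν₃] :
    MeasurePreserving (fun p : (α × β) × γ => ((p.1.1, p.2), p.1.2)) ((ν₁.prod ν₂).prod ν₃)
      ((ν₁.prod ν₃).prod ν₂) :=
  (measurePreserving_prodAssoc ν₁ ν₃ ν₂).symm.comp
    (((MeasurePreserving.id ν₁).prod Measure.measurePreserving_swap).comp
      (measurePreserving_prodAssoc ν₁ ν₂ ν₃))

/-- insert one pattern in the enriched system -/
def spE (a : Fin (M + 1)) (ω : SO L k n₀ N M × (Fin N → ℝ)) : SO L k n₀ N (M + 1) :=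
  ((ω.1.1.1, spIns a (ω.1.1.2, ω.2)), ω.1.2)

theorem spE_mp (a : Fin (M + 1)) : MeasurePreserving (spE a)
    ((SP L k n₀ N M m).prod (gp (Fin N))) (SP L k n₀ N (M + 1) m) :=
  ((((MeasurePreserving.id (PU L k m)).prod (spIns_mp a)).comp
    (measurePreserving_prodAssoc _ _ _)).prod (MeasurePreserving.id _)).comp (sp_rot _ _ _)

omit [MeasurableSpace S₀] in
theorem spE_SH (a : Fin (M + 1)) (ω : SO L k n₀ N M × (Fin N → ℝ)) (c : S₀ × Leaf L k) :
    SH f m sp b (spE a ω) c = SH f m sp b ω.1 c + f (fld ω.2 (sp c.1)) := by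
  simp only [SH, spE, spIns_pat]
  ring

theorem sp_bd {Ω : Type} [MeasurableSpace Ω] (h : IsSp sp) (hf : Measurable f)
    (hK : ∀ y, |f y| ≤ K) :
    Bd1 (fun (ω : Ω × (Fin N → ℝ)) (c : S₀ × Leaf L k) => f (fld ω.2 (sp c.1))) K :=
  ⟨hf.comp (measurable_fld h.fst measurable_snd), fun _ _ => hK _⟩

theorem sp_A2 (h : IsSp sp) (hL : 0 < L) (hf : Measurable f) (hK : ∀ y, |f y| ≤ K)
    {Φ : S₀ × Leaf L k → S₀ × Leaf L k → ℝ} (hΦ : Good2 (SP L k n₀ N (M + 1) m) fun _ => Φ) :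
    A2 ((SP L k n₀ N M m).prod (gp (Fin N))) (μ.prod (unif L k))
      (fun ω c => SH f m sp b ω.1 c + f (fld ω.2 (sp c.1))) (fun _ => Φ) =
    A2 (SP L k n₀ N (M + 1) m) (μ.prod (unif L k)) (SH f m sp b) fun _ => Φ := by
  have := unif_prob hL k
  have h1 := A2_comp (SH_good (b := b) (m := m) h hf hK) hΦ (spE_mp (M := M) 0)
    (MeasurePreserving.id (μ.prod (unif L k)))
  simp only [id, spE_SH] at h1
  exact h1

theorem sp_one (h : IsSp sp) (hN : 0 < N) (hf : Measurable f) (hK : ∀ y, |f y| ≤ K) {φ : ℝ → ℝ}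
    (hφ : Measurable φ) {C : ℝ} (hC : ∀ y, |φ y| ≤ C) (h0 : ∀ y, 0 ≤ φ y) (a : Fin M) :
    A1 (PG N M) μ (fun G σ => pat f G (sp σ)) (fun G σ => φ (fld (G a) (sp σ))) ≤
      exp (2 * K) * ∫ y, φ y ∂(gaussianReal 0 1) := by
  obtain ⟨M, rfl⟩ : ∃ M', M = M' + 1 := ⟨M - 1, by have := a.pos; omega⟩
  have g1 : Good (PG N M) _ := (pat_bd h hf hK).good
  have g2 : Good ((PG N M).prod (gp (Fin N))) fun ω σ => φ (fld ω.2 (sp σ)) :=
    Bd1.good (C := C) ⟨hφ.comp (measurable_fld h measurable_snd), fun _ _ => hC _⟩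
  have h1 := A1_comp (pat_bd h hf hK).good (φ := fun G σ => φ (fld (G a) (sp σ)))
    (Bd1.good (C := C) ⟨hφ.comp (measurable_fld h
        (e := fun G : Fin _ → Fin N → ℝ => G a) (measurable_pi_apply a)), fun _ _ => hC _⟩)
    (spIns_mp a) (MeasurePreserving.id μ)
  have h2 := A1_tilt_le (μ := μ) (g1.fst (gp (Fin N))) (D := fun ω σ => f (fld ω.2 (sp σ)))
    ⟨hf.comp (measurable_fld h measurable_snd), fun _ _ => hK _⟩ g2 fun _ _ => h0 _
  have h3 : ∀ σ, ∫ g, φ (fld g (sp σ)) ∂gp (Fin N) = ∫ y, φ y ∂(gaussianReal 0 1) := fun σ => by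
    have hN' : (N : ℝ) ≠ 0 := by exact_mod_cast hN.ne'
    simp only [fld_eq_dot]
    rw [ibp0_integral _ hφ, fld_cov, ov, h.norm, div_self hN', Real.toNNReal_one]
  rw [A1_prod g1 g2] at h2
  simp only [h3, A1_const g1] at h2
  simp only [id, spIns_pat] at h1
  simp only [spIns, Fin.insertNth_apply_same] at h1
  rw [← h1]
  exact h2

theorem exists_e1 (a : Fin (M + 1)) :
    ∃ e : SO L k n₀ N M × (Fin N → ℝ) → SO L k n₀ N (M + 1),
      MeasurePreserving e ((SP L k n₀ N M m).prod (gp (Fin N))) (SP L k n₀ N (M + 1) m) ∧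
      (∀ ω, (e ω).1.2 a = ω.2) ∧
      ∀ ω c, SH f m sp b (e ω) c = SH f m sp b ω.1 c + f (fld ω.2 (sp c.1)) :=
  ⟨spE a, spE_mp a, fun ω => by simp [spE, spIns], spE_SH a⟩
theorem exists_e2 {a a' : Fin (M + 2)} (haa : a ≠ a') :
    ∃ e : (SO L k n₀ N M × (Fin N → ℝ)) × (Fin N → ℝ) → SO L k n₀ N (M + 2),
      MeasurePreserving e (((SP L k n₀ N M m).prod (gp (Fin N))).prod (gp (Fin N)))
        (SP L k n₀ N (M + 2) m) ∧
      (∀ ω, (e ω).1.2 a = ω.1.2 ∧ (e ω).1.2 a' = ω.2) ∧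
      ∀ ω c, SH f m sp b (e ω) c =
        SH f m sp b ω.1.1 c + f (fld ω.1.2 (sp c.1)) + f (fld ω.2 (sp c.1)) := by
  obtain ⟨z, rfl⟩ := Fin.exists_succAbove_eq haa
  refine ⟨fun ω => spE a' (spE z ω.1, ω.2),
    (spE_mp a').comp ((spE_mp z).prod (MeasurePreserving.id _)), fun ω => ?_, fun ω c => ?_⟩
  · simp [spE, spIns]
  · rw [spE_SH, spE_SH]
theorem SW_succ (h : IsSp sp) (hL : 0 < L) (hf : Measurable f) (hK : ∀ y, |f y| ≤ K) :
    SW L k n₀ (M + 1) f m μ sp b = FE ((SP L k n₀ N M m).prod (gp (Fin N))) (μ.prod (unif L k))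
      (fun ω c => SH f m sp b ω.1 c + f (fld ω.2 (sp c.1))) := by
  have := unif_prob hL k
  have h1 := FE_comp (SH_good (b := b) (m := m) h hf hK) (spE_mp (M := M) 0)
    (MeasurePreserving.id (μ.prod (unif L k)))
  simp only [id, spE_SH] at h1
  exact h1.symm
theorem abs_SW_succ_sub (h : IsSp sp) (hL : 0 < L) (hf : Measurable f) (hK : ∀ y, |f y| ≤ K) :
    |SW L k n₀ (M + 1) f m μ sp b - SW L k n₀ M f m μ sp b| ≤ K := by
  have := unif_prob hL k
  have h1 := SH_good (M := M) (b := b) (m := m) (L := L) h hf hK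
  rw [SW_succ h hL hf hK, SW, ← FE_fst (P' := gp (Fin N)) h1]
  exact abs_FE_sub_le (h1.fst _) ((h1.fst _).add (sp_bd h hf hK).good) fun ω c => by
    rw [add_sub_cancel_left]; exact hK _
theorem abs_SW_sub_pat (h : IsSp sp) (hL : 0 < L) (hf : Measurable f) (hK : ∀ y, |f y| ≤ K)
    (M M' : ℕ) : |SW L k n₀ M f m μ sp b - SW L k n₀ M' f m μ sp b| ≤ K * |(M : ℝ) - M'| := by
  have key : ∀ d M : ℕ, |SW L k n₀ (M + d) f m μ sp b - SW L k n₀ M f m μ sp b| ≤ K * d := by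
    intro d M
    induction d with
    | zero => simp
    | succ d ih =>
      have h1 := abs_SW_succ_sub (μ := μ) (M := M + d) (m := m) (b := b) h hL hf hK
      refine (abs_sub_le _ _ _).trans ((add_le_add h1 ih).trans (le_of_eq ?_))
      push_cast
      ring
  rcases le_total M M' with hM | hM
  · obtain ⟨d, rfl⟩ := Nat.exists_eq_add_of_le hM
    rw [abs_sub_comm]
    simpa using key d M
  · obtain ⟨d, rfl⟩ := Nat.exists_eq_add_of_le hM
    simpa using key d M'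
theorem SSync_succ (h : IsSp sp) (hL : 0 < L) (hf : Measurable f) (hK : ∀ y, |f y| ≤ K)
    {p : ℕ → ℝ} (hp : IsOv k p) {η : ℝ} (hs : SSync L k n₀ M f m μ sp b p η) :
    SSync L k n₀ (M + 1) f m μ sp b p (exp (4 * K) * η) := by
  have := unif_prob hL k
  have h1 := SH_good (M := M) (b := b) (m := m) (L := L) h hf hK
  have h2 := fun (Ω : Type) [MeasurableSpace Ω] =>
    (bd2_sync (Ω := Ω) (h.fst (S' := Leaf L k)) measurable_snd hp).abs
  have h3 := A2_tilt_le (μ := μ.prod (unif L k)) (h1.fst (gp (Fin N))) (sp_bd h hf hK)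
    (h2 _).good2 fun _ _ _ => abs_nonneg _
  rw [sp_A2 h hL hf hK (h2 _).good2, A2_fst' h1 (h2 _).good2] at h3
  exact h3.trans (mul_le_mul_of_nonneg_left hs (exp_pos _).le)
theorem SSync_pred (h : IsSp sp) (hL : 0 < L) (hf : Measurable f) (hK : ∀ y, |f y| ≤ K)
    {p : ℕ → ℝ} (hp : IsOv k p) {η : ℝ} (hs : SSync L k n₀ (M + 1) f m μ sp b p η) :
    SSync L k n₀ M f m μ sp b p (exp (4 * K) * η) := by
  have := unif_prob hL k
  have h1 := SH_good (M := M) (b := b) (m := m) (L := L) h hf hK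
  have h2 := fun (Ω : Type) [MeasurableSpace Ω] =>
    (bd2_sync (Ω := Ω) (h.fst (S' := Leaf L k)) measurable_snd hp).abs
  have h3 := A2_tilt_le (μ := μ.prod (unif L k))
    ((h1.fst (gp (Fin N))).add (sp_bd h hf hK).good) (sp_bd (f := fun y => -f y) h hf.neg fun y =>
      (abs_neg _).trans_le (hK y)) (h2 _).good2 fun _ _ _ => abs_nonneg _
  simp only [add_neg_cancel_right] at h3
  rw [sp_A2 h hL hf hK (h2 _).good2, A2_fst' h1 (h2 _).good2] at h3
  exact h3.trans (mul_le_mul_of_nonneg_left hs (exp_pos _).le)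
theorem abs_EZ_le (h : IsSp sp) (hf : Measurable f) (hK : ∀ y, |f y| ≤ K) :
    |EZ μ sp f M| ≤ M * K := by
  have h1 := abs_FE_sub_le (P := PG N M) (μ := μ) (Good.const 0) (pat_bd h hf hK).good
    fun ω σ => by rw [sub_zero]; exact (pat_bd h hf hK).bdd ω σ
  rwa [FE_const, sub_zero] at h1
theorem EZ_lip (h : IsSp sp) (hN : 0 < N) (hf : Measurable f) (hK : ∀ y, |f y| ≤ K) {f' : ℝ → ℝ}
    (hf' : Measurable f') (hK' : ∀ y, |f' y| ≤ K) :
    |EZ μ sp f M - EZ μ sp f' M| ≤ M * (exp (2 * K) * ∫ y, |f y - f' y| ∂(gaussianReal 0 1)) := by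
  have key : ∀ {g g' : ℝ → ℝ}, Measurable g → (∀ y, |g y| ≤ K) → Measurable g' →
      (∀ y, |g' y| ≤ K) → EZ μ sp g M - EZ μ sp g' M ≤
        M * (exp (2 * K) * ∫ y, |g y - g' y| ∂(gaussianReal 0 1)) := by
    intro g g' hg hgK hg' hgK'
    have m2 : Measurable fun y => |g y - g' y| := (hg.sub hg').abs
    have hb : ∀ y, abs |g y - g' y| ≤ K + K := fun y =>
      (abs_abs _).trans_le (gb_sub (hgK y) (hgK' y))
    have g1 : Good (PG N M) _ := (pat_bd h hg hgK).good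
    have g2 : Good (PG N M) _ := (pat_bd h hg' hgK').good
    have g3 : ∀ a : Fin M, Good (PG N M) fun G σ => |g (fld (G a) (sp σ)) - g' (fld (G a) (sp σ))| :=
      fun a => Bd1.good (C := K + K)
        ⟨m2.comp (measurable_fld h
        (e := fun G : Fin _ → Fin N → ℝ => G a) (measurable_pi_apply a)), fun _ _ => hb _⟩
    have h1 := FE_jensen (μ := μ) g1 (g2.sub g1)
    simp only [add_sub_cancel] at h1
    have h2 := A1_mono (μ := μ) g1 (g1.sub g2) (Good.sum Finset.univ fun a _ => g3 a)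
      fun G σ => by
        unfold pat
        rw [← Finset.sum_sub_distrib]
        exact Finset.sum_le_sum fun a _ => le_abs_self _
    rw [A1_sum g1 _ fun a _ => g3 a, A1_sub g1 g1 g2] at h2
    rw [A1_sub g1 g2 g1] at h1
    have h3 := Finset.sum_le_sum fun (a : Fin M) (_ : a ∈ Finset.univ) =>
      sp_one (μ := μ) h hN hg hgK m2 hb (fun y => abs_nonneg _) a
    simp only [Finset.sum_const, Finset.card_univ, Fintype.card_fin, nsmul_eq_mul] at h3
    unfold EZ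
    linarith
  have h1 := key hf hK hf' hK'
  have h2 := key hf' hK' hf hK
  simp only [abs_sub_comm (f' _)] at h2
  rw [abs_le]
  constructor <;> linarith

end P157
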