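import Vale.Agent.P157.SFluct
import Vale.Agent.P157.SAC
import Vale.Agent.P157.SPat

/-! P157 Box: common tools for the two variational (touching) arguments. -/

open MeasureTheory ProbabilityTheory Real Filter
open scoped BigOperators Matrix

namespace P157

theorem ev_sqrt (c₀ C : ℝ) {θ : ℝ} (hθ : 0 < θ) :
    ∀ᶠ N : ℕ in atTop, c₀ + C * √(N : ℝ) ≤ θ * N := by
  have h1 : Tendsto (fun N : ℕ => √(N : ℝ)) atTop atTop :=
    Real.tendsto_sqrt_atTop.comp tendsto_natCast_atTop_atTop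
  filter_upwards [h1.eventually_ge_atTop ((|c₀| + |C|) / θ), h1.eventually_ge_atTop 1] with N h2 h3
  have e : (N : ℝ) = √(N : ℝ) * √(N : ℝ) := (Real.mul_self_sqrt (Nat.cast_nonneg N)).symm
  rw [div_le_iff₀ hθ] at h2
  have h4 := le_abs_self c₀
  have h5 := le_abs_self C
  have h6 := abs_nonneg c₀
  generalize √(N : ℝ) = x at *
  rw [e]
  nlinarith [mul_le_mul_of_nonneg_left h3 h6, mul_le_mul_of_nonneg_right h2 (by linarith : 0 ≤ x),
    mul_le_mul_of_nonneg_right h5 (by linarith : 0 ≤ x)]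

theorem ev_lin (c : ℝ) {θ : ℝ} (hθ : 0 < θ) : ∀ᶠ N : ℕ in atTop, c ≤ θ * N := by
  filter_upwards [ev_sqrt c 0 hθ] with N h
  simpa using h

theorem sum_update_eq {ι : Type} [Fintype ι] [DecidableEq ι] (G : ι → ℝ → ℝ) (b : ι → ℝ) (t : ι)
    (y : ℝ) : ∑ i, G i (Function.update b t y i) = ∑ i, G i (b i) - G t (b t) + G t y := by
  rw [← Finset.add_sum_erase _ _ (Finset.mem_univ t),
    ← Finset.add_sum_erase _ (fun i => G i (b i)) (Finset.mem_univ t), Function.update_self]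
  have : ∑ i ∈ Finset.univ.erase t, G i (Function.update b t y i) =
      ∑ i ∈ Finset.univ.erase t, G i (b i) :=
    Finset.sum_congr rfl fun i hi => by rw [Function.update_of_ne (Finset.ne_of_mem_erase hi)]
  rw [this]; ring

theorem update_mem_Icc {ι : Type} [DecidableEq ι] {lo hi b : ι → ℝ} (hb : b ∈ Set.Icc lo hi) (t : ι)
    {y : ℝ} (h1 : lo t ≤ y) (h2 : y ≤ hi t) : Function.update b t y ∈ Set.Icc lo hi := by
  constructor <;> intro i <;> by_cases h : i = t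
  · subst h; simpa using h1
  · rw [Function.update_of_ne h]; exact hb.1 i
  · subst h; simpa using h2
  · rw [Function.update_of_ne h]; exact hb.2 i

variable {S₀ : Type} [MeasurableSpace S₀] {N L k n₀ M : ℕ} {μ : Measure S₀}
  [IsProbabilityMeasure μ] {sp : S₀ → Fin N → ℝ} {f : ℝ → ℝ} {K : ℝ} {m : ℕ → ℝ}

/-- penalty function: quadratic well around `2 s` for the perturbations, `c j * y²` for the fields -/
noncomputable def pen (s : ℝ) (c : Fin (k + 1) → ℝ) : TT n₀ k → ℝ → ℝ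
  | .inl _, y => -(2 * (y - 2 * s) ^ 2)
  | .inr j, y => c j * y ^ 2

theorem pen_continuous (s : ℝ) (c : Fin (k + 1) → ℝ) :
    Continuous fun b : TT n₀ k → ℝ => ∑ t, pen s c t (b t) := by
  refine continuous_finsetSum _ fun t _ => ?_
  cases t <;> simp only [pen] <;> fun_prop

theorem pen_sum (s : ℝ) (c : Fin (k + 1) → ℝ) (b : TT n₀ k → ℝ) :
    ∑ t, pen s c t (b t) = -(∑ x, 2 * (b (.inl x) - 2 * s) ^ 2) + ∑ j, c j * b (.inr j) ^ 2 := by
  rw [Fintype.sum_sum_type, ← Finset.sum_neg_distrib]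
  rfl

/-- the objective -/
noncomputable def Ob (L k n₀ M : ℕ) (f : ℝ → ℝ) (m : ℕ → ℝ) (μ : Measure S₀) (sp : S₀ → Fin N → ℝ)
    (s : ℝ) (c : Fin (k + 1) → ℝ) (b : TT n₀ k → ℝ) : ℝ :=
  SW L k n₀ M f m μ sp b + ∑ t, pen s c t (b t)

/-- the box -/
def box (n₀ k : ℕ) (s lo hi : ℝ) : Set (TT n₀ k → ℝ) :=
  Set.Icc (Sum.elim (fun _ => 0) fun _ => lo) (Sum.elim (fun _ => 5 * s) fun _ => hi)

theorem mem_box {s lo hi : ℝ} {b : TT n₀ k → ℝ} : b ∈ box n₀ k s lo hi ↔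
    (∀ x, 0 ≤ b (.inl x) ∧ b (.inl x) ≤ 5 * s) ∧ ∀ j, lo ≤ b (.inr j) ∧ b (.inr j) ≤ hi := by
  constructor
  · intro h
    exact ⟨fun x => ⟨h.1 (.inl x), h.2 (.inl x)⟩, fun j => ⟨h.1 (.inr j), h.2 (.inr j)⟩⟩
  · intro h
    constructor <;> rintro (x | j)
    exacts [(h.1 x).1, (h.2 j).1, (h.1 x).2, (h.2 j).2]

theorem exists_max_box (h : IsSp sp) (hN : 0 < N) (hL : 0 < L) (hf : Measurable f)
    (hK : ∀ y, |f y| ≤ K) {s lo hi : ℝ} (hs : 0 ≤ s) (hlo : lo ≤ hi) (c : Fin (k + 1) → ℝ) :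
    ∃ b ∈ box n₀ k s lo hi, ∀ b' ∈ box n₀ k s lo hi,
      Ob L k n₀ M f m μ sp s c b' ≤ Ob L k n₀ M f m μ sp s c b := by
  have hne : (box n₀ k s lo hi).Nonempty :=
    ⟨Sum.elim (fun _ => 0) fun _ => lo, mem_box.2 ⟨fun _ => ⟨le_rfl, by simp; linarith⟩,
      fun _ => ⟨le_rfl, hlo⟩⟩⟩
  have hc : Continuous (Ob L k n₀ M f m μ sp s c) :=
    (SW_continuous h hN hL hf hK).add (pen_continuous s c)
  obtain ⟨b, hb, hmax⟩ := (isCompact_Icc : IsCompact (box n₀ k s lo hi)).exists_isMaxOn hne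
    hc.continuousOn
  exact ⟨b, hb, fun b' hb' => hmax hb'⟩

theorem touch_of_max {s lo hi : ℝ} {c : Fin (k + 1) → ℝ} {b : TT n₀ k → ℝ}
    (hb : b ∈ box n₀ k s lo hi) (hmax : ∀ b' ∈ box n₀ k s lo hi,
      Ob L k n₀ M f m μ sp s c b' ≤ Ob L k n₀ M f m μ sp s c b) :
    Touch L k n₀ M f m μ sp b s := by
  intro x
  refine ⟨((mem_box.1 hb).1 x).1, ((mem_box.1 hb).1 x).2, fun y h0 h5 => ?_⟩
  have h1 := hmax _ (update_mem_Icc hb (.inl x) h0 h5)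
  unfold Ob at h1
  rw [sum_update_eq] at h1
  simp only [pen] at h1
  linarith

theorem kkt_of_max (h : IsSp sp) (hN : 0 < N) (hL : 0 < L) (hf : Measurable f)
    (hK : ∀ y, |f y| ≤ K) {s lo hi : ℝ} {c : Fin (k + 1) → ℝ} {b : TT n₀ k → ℝ} (hlo : 0 < lo)
    (hb : b ∈ box n₀ k s lo hi) (hmax : ∀ b' ∈ box n₀ k s lo hi,
      Ob L k n₀ M f m μ sp s c b' ≤ Ob L k n₀ M f m μ sp s c b) (j : Fin (k + 1))
    (hj : b (.inr j) < hi) :
    1 + 2 * c j ≤ SA2 L k n₀ M f m μ sp b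
      (fun _ c c' => ov (sp c.1) (sp c'.1) * ind j c.2 c'.2) := by
  have e : (fun (_ : SO L k n₀ N M) (c c' : S₀ × Leaf L k) =>
      ker (.inr j : TT n₀ k) (sp c.1) (sp c'.1) c.2 c'.2) =
      fun _ c c' => ov (sp c.1) (sp c'.1) * ind j c.2 c'.2 := by
    funext _ c c'; simp [ker, deg, lev]
  set A := SA2 L k n₀ M f m μ sp b (fun _ c c' => ov (sp c.1) (sp c'.1) * ind j c.2 c'.2) with hA
  have hb0 : lo ≤ b (.inr j) := ((mem_box.1 hb).2 j).1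
  set a := b (.inr j) with ha
  have key : ∀ y, a < y → y ≤ hi → a * (1 - A) + c j * (y + a) ≤ 0 := by
    intro y h1 h2
    have h3 := hmax _ (update_mem_Icc hb (.inr j) (hb0.trans h1.le) h2)
    unfold Ob at h3
    rw [sum_update_eq] at h3
    simp only [pen] at h3
    have h4 := SW_jensen (b := b) (M := M) (m := m) (μ := μ) h hN hL hf hK (.inr j) y
    rw [e, ← hA, ← ha] at h4
    have h5 : (y - a) * (a * (1 - A) + c j * (y + a)) ≤ 0 := by nlinarith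
    by_contra hc
    push Not at hc
    have := mul_pos (sub_pos.2 h1) hc
    linarith
  have h6 : a * (1 - A) + c j * (a + a) ≤ 0 := by
    have ht : Tendsto (fun y => a * (1 - A) + c j * (y + a)) (nhdsWithin a (Set.Ioi a))
        (nhds (a * (1 - A) + c j * (a + a))) :=
      (Continuous.tendsto (by fun_prop) a).mono_left nhdsWithin_le_nhds
    refine le_of_tendsto ht ?_
    filter_upwards [Ioc_mem_nhdsGT hj] with y hy
    exact key y hy.1 hy.2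
  have ha0 : 0 < a := hlo.trans_le hb0
  by_contra hc
  push Not at hc
  have := mul_pos ha0 (sub_pos.2 hc)
  linarith

theorem box_abs {s lo hi : ℝ} {b : TT n₀ k → ℝ} (hb : b ∈ box n₀ k s lo hi) (hlo : 0 ≤ lo)
    (hs : 0 ≤ s) (t : TT n₀ k) : |b t| ≤ 5 * s + hi := by
  obtain ⟨h1, h2⟩ := mem_box.1 hb
  have h3 : 0 ≤ hi := hlo.trans ((h2 0).1.trans (h2 0).2)
  rcases t with x | j
  · rw [abs_of_nonneg (h1 x).1]; linarith [(h1 x).2]
  · rw [abs_of_nonneg (hlo.trans (h2 j).1)]; linarith [(h2 j).2]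

theorem box_sq {s lo hi : ℝ} {b : TT n₀ k → ℝ} (hb : b ∈ box n₀ k s lo hi) :
    ∑ x, b (.inl x) ^ 2 ≤ ((n₀ + 1) * (k + 1) : ℝ) * (25 * s ^ 2) := by
  have h1 := (mem_box.1 hb).1
  calc ∑ x, b (.inl x) ^ 2 ≤ ∑ _x : Fin (n₀ + 1) × Fin (k + 1), 25 * s ^ 2 :=
        Finset.sum_le_sum fun x _ => by nlinarith [(h1 x).1, (h1 x).2]
    _ = _ := by simp

/-- removing the perturbation terms -/
theorem SW_le_inr (h : IsSp sp) (hN : 0 < N) (hL : 0 < L) (hf : Measurable f)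
    (hK : ∀ y, |f y| ≤ K) (b : TT n₀ k → ℝ) :
    SW L k n₀ M f m μ sp b ≤ SW L k n₀ M f m μ sp (Sum.elim (fun _ => 0) fun j => b (.inr j))
      + ∑ x, b (.inl x) ^ 2 := by
  have h1 := SW_sub_le (L := L) (M := M) (m := m) (μ := μ) h hN hL hf hK b
    (Sum.elim (fun _ => 0) fun j => b (.inr j))
  rw [Fintype.sum_sum_type] at h1
  simp only [Sum.elim_inl, Sum.elim_inr, sub_self, abs_zero, Finset.sum_const_zero, add_zero,
    ne_eq, OfNat.ofNat_ne_zero, not_false_eq_true, zero_pow, sub_zero, abs_pow, sq_abs] at h1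
  linarith [le_abs_self (SW L k n₀ M f m μ sp b -
    SW L k n₀ M f m μ sp (Sum.elim (fun _ => 0) fun j => b (.inr j)))]

/-- value of the objective at the centre of the well -/
theorem Ob_center (h : IsSp sp) (hN : 0 < N) (hL : 0 < L) (hf : Measurable f)
    (hK : ∀ y, |f y| ≤ K) (s lo : ℝ) {c : Fin (k + 1) → ℝ} {c₀ : ℝ} (hc : ∀ j, -c₀ ≤ c j) :
    cL L k m + EZ μ sp f M - ((n₀ + 1) * (k + 1) : ℝ) * (4 * s ^ 2) - (k + 1) * ((1 + c₀) * lo ^ 2) ≤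
      Ob L k n₀ M f m μ sp s c (Sum.elim (fun _ => 2 * s) fun _ => lo) := by
  have h1 := SW_sub_le (L := L) (M := M) (m := m) (μ := μ) h hN hL hf hK
    (Sum.elim (fun _ => 2 * s) fun _ => lo : TT n₀ k → ℝ) 0
  rw [SW_zero h hL hf hK, Fintype.sum_sum_type] at h1
  simp only [Sum.elim_inl, Sum.elim_inr, Pi.zero_apply, ne_eq, OfNat.ofNat_ne_zero,
    not_false_eq_true, zero_pow, sub_zero, abs_pow, sq_abs, Finset.sum_const, Finset.card_univ,
    Fintype.card_prod, Fintype.card_fin, nsmul_eq_mul] at h1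
  push_cast at h1
  unfold Ob
  rw [pen_sum]
  simp only [Sum.elim_inl, Sum.elim_inr, sub_self]
  have h2 : ∑ _j : Fin (k + 1), -c₀ * lo ^ 2 ≤ ∑ j, c j * lo ^ 2 :=
    Finset.sum_le_sum fun j _ => mul_le_mul_of_nonneg_right (hc j) (sq_nonneg _)
  simp only [Finset.sum_const, Finset.card_univ, Fintype.card_fin, nsmul_eq_mul] at h2
  push_cast at h2
  have h3 := neg_abs_le (SW L k n₀ M f m μ sp (Sum.elim (fun _ => 2 * s) fun _ => lo) -
    (cL L k m + EZ μ sp f M))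
  simp only [ne_eq, OfNat.ofNat_ne_zero, not_false_eq_true, zero_pow, mul_zero,
    Finset.sum_const_zero, neg_zero, zero_add]
  nlinarith

theorem center_mem {s lo hi : ℝ} (hs : 0 ≤ s) (hlo : lo ≤ hi) :
    (Sum.elim (fun _ => 2 * s) fun _ => lo : TT n₀ k → ℝ) ∈ box n₀ k s lo hi :=
  mem_box.2 ⟨fun _ => ⟨by simp; linarith, by simp; linarith⟩, fun _ => ⟨le_rfl, hlo⟩⟩

theorem fluct_box {k : ℕ} {m : ℕ → ℝ} (hk : IsPartition k m) (n₀ : ℕ) {K a c θ : ℝ} (hK0 : 0 ≤ K)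
    (hc : 0 ≤ c) (hθ : 0 < θ) : ∀ᶠ T : ℕ in atTop, ∀ {S₀ : Type}
    [MeasurableSpace S₀] {N L M : ℕ} {μ : Measure S₀} [IsProbabilityMeasure μ]
    {sp : S₀ → Fin N → ℝ} {f : ℝ → ℝ} (_ : IsSp sp) (_ : 0 < N) (_ : 0 < L)
    (_ : Measurable f) (_ : ∀ y, |f y| ≤ K) (b : TT n₀ k → ℝ) (_ : (M : ℝ) ≤ a * T)
    (_ : ∀ t, |b t| ≤ c * √(T : ℝ)),
    Fluct (SP L k n₀ N M m) (μ.prod (unif L k)) (SH f m sp b) ≤ θ * T := by
  obtain ⟨c₀, h₀⟩ := S_fluct hk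
  filter_upwards [ev_sqrt c₀ (2 * K * √a + 2 * (√(Fintype.card (TT n₀ k)) * c)) hθ] with T hT
  intro S₀ _ N L M μ _ sp f h hN hL hf hK b hM hb
  refine (h₀ h hN hL hf hK b).trans (le_trans ?_ hT)
  have h1 : √(M : ℝ) ≤ √a * √(T : ℝ) := by
    rw [mul_comm, ← Real.sqrt_mul (Nat.cast_nonneg T), mul_comm]
    exact Real.sqrt_le_sqrt hM
  have h2 : √(∑ t, b t ^ 2) ≤ √(Fintype.card (TT n₀ k)) * c * √(T : ℝ) := by
    rw [Real.sqrt_le_left (by positivity), mul_assoc, mul_pow,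
      Real.sq_sqrt (Nat.cast_nonneg _)]
    calc ∑ t, b t ^ 2 ≤ ∑ _t : TT n₀ k, (c * √(T : ℝ)) ^ 2 :=
          Finset.sum_le_sum fun t _ => by
            rw [← sq_abs]; exact pow_le_pow_left₀ (abs_nonneg _) (hb t) 2
      _ = _ := by simp
  nlinarith [mul_le_mul_of_nonneg_left h1 hK0]

theorem S_ac_ev {k : ℕ} {m : ℕ → ℝ} (hk : IsPartition k m) (n₀ : ℕ)
    {μ : ∀ N, Measure (Fin N → ℝ)} {sp : ∀ N, (Fin N → ℝ) → Fin N → ℝ} (hF : Fam μ sp)
    {f : ℝ → ℝ} {K : ℝ} (hf : Measurable f) (hK : ∀ y, |f y| ≤ K) (T : ℕ) (B Bb : ℝ) {τ : ℝ}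
    (hτ : 0 < τ) : ∀ᶠ L : ℕ in atTop, ∀ N, 0 < N → N ≤ T → ∀ (M : ℕ) (b : TT n₀ k → ℝ),
      (∀ t, |b t| ≤ Bb) → SAC L k n₀ M f m (μ N) (sp N) b B τ := by
  have h1 : ∀ N ∈ Finset.Icc 1 T, ∀ᶠ L : ℕ in atTop, ∀ (M : ℕ) (b : TT n₀ k → ℝ),
      (∀ t, |b t| ≤ Bb) → SAC L k n₀ M f m (μ N) (sp N) b B τ := by
    intro N hN
    obtain ⟨L₀, h₀⟩ := S_ac hk n₀ (N := N) (Finset.mem_Icc.1 hN).1 B Bb hτ
    filter_upwards [eventually_ge_atTop L₀] with L hL M b hb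
    haveI := hF.prob N
    exact (h₀ L hL).2 (hF.isSp N) hf hK M b hb
  filter_upwards [(eventually_all_finset _).2 h1] with L hL N h0 hT
  exact hL N (Finset.mem_Icc.2 ⟨h0, hT⟩)

end P157
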