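import Vale.Agent.P157.PCav2
import Vale.Agent.P157.SPat

/-! P157 QSync: the second overlap `Q` is synchronised.
Plan. Let `ρ = (M+2)/(N+1) ≤ α₁`, `e = e1 k m p f f'`, `r = ρ e` (a path, `r k ≤ α₁ K²`, `e1_isPath`).
Transport `pc2` to the system with `M+2` patterns with `exists_e2` and `A1_comp`/`A2_comp`:
(i) `φ₁ = φ₂ = 1`: `A2 (ind j) ≈ 1 - m j` (`E2_one`, `tail_one`); (ii) `φ₂ = 1`:
`A2 (f'(S_a) f'(S_a') ind j) ≈ tail e j` for every `a` (pick any `a' ≠ a`); (iii) `φ₁ = φ₂ = f'`, `j = 0`: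
`A2 (∏) ≈ tail (e²) 0` for `a ≠ a'`; the diagonal terms of `Q²` contribute `≤ (M+2) K⁴/(N+1)²`.
Expand `(Q - r_J)² = Q² - 2 Q r_J + r_J²`, write `r_J = ∑ j, inc r j * ind j` (`eq_sum_ind`,
`∑ inc r = r k`), use `A2_path` for the path `r²`, and `pair_eq_sum_tail`: the main terms are
`pair r r - 2 pair r r + pair r r = 0`.
-/

open MeasureTheory ProbabilityTheory Real
open scoped BigOperators Matrix

namespace P157

variable {S₀ : Type} [MeasurableSpace S₀] {N L k n₀ M : ℕ} {μ : Measure S₀}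
  [IsProbabilityMeasure μ] {sp : S₀ → Fin N → ℝ} {f : ℝ → ℝ} {K : ℝ} {m : ℕ → ℝ} {b : TT n₀ k → ℝ}

theorem qs_ratio {α₁ : ℝ} (hM : (M : ℝ) ≤ α₁ * N) : (M : ℝ) / ((N : ℝ) + 1) ≤ |α₁| := by
  rw [div_le_iff₀ (by positivity)]
  have h1 : α₁ * N ≤ |α₁| * N := mul_le_mul_of_nonneg_right (le_abs_self _) (Nat.cast_nonneg N)
  have h2 := abs_nonneg α₁
  linarith

section
variable {Ω S : Type} [MeasurableSpace Ω] [MeasurableSpace S] {P : Measure Ω}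
  [IsProbabilityMeasure P] {ν : Measure S} [IsProbabilityMeasure ν]

theorem qs_sum1 {ι : Type} [Fintype ι] {u : ι → Ω → S → ℝ} {D : ℝ} (hu : ∀ a, Bd1 (u a) D) :
    Bd1 (fun ω σ => ∑ a, u a ω σ) (Fintype.card ι * D) :=
  ⟨Finset.measurable_sum _ fun a _ => (hu a).meas, fun ω σ =>
    (Finset.abs_sum_le_sum_abs _ _).trans ((Finset.sum_le_sum fun a _ => (hu a).bdd ω σ).trans_eq
      (by simp))⟩

theorem qs_sum2 {ι : Type} [Fintype ι] {u : ι → Ω → S → S → ℝ} {D : ℝ} (hu : ∀ a, Bd2 (u a) D) :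
    Bd2 (fun ω σ σ' => ∑ a, u a ω σ σ') (Fintype.card ι * D) :=
  ⟨Finset.measurable_sum _ fun a _ => (hu a).meas, fun ω σ σ' =>
    (Finset.abs_sum_le_sum_abs _ _).trans ((Finset.sum_le_sum fun a _ =>
      (hu a).bdd ω σ σ').trans_eq (by simp))⟩

theorem qs_ind_zero (ω ω' : Leaf L k) : ind 0 ω ω' = 1 := if_pos (Nat.zero_le _)

theorem qs_tail_pair (e : ℕ → ℝ) : tail k m (fun i => e i * e i) 0 = pair k m e e := by
  unfold tail pair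
  rw [Finset.range_eq_Ico, ← Finset.Ico_add_one_right_eq_Icc]

theorem qs_abs {H : Ω → S → ℝ} {lf : S → Leaf L k} (hk : IsPartition k m) (hH : Good P H)
    (hlf : Measurable lf) {n : ℕ} {u : Fin n → Ω → S → S → ℝ} {D : ℝ} (hu : ∀ a, Bd2 (u a) D)
    {e : ℕ → ℝ} (he : IsPath k e) {t : ℝ} (ht : 0 ≤ t)
    (h0 : ∀ j ≤ k, |A2 P ν H (fun _ σ σ' => ind j (lf σ) (lf σ')) - (1 - m j)| ≤ t)
    (h1 : ∀ a, ∀ j ≤ k,
      |A2 P ν H (fun ω σ σ' => u a ω σ σ' * ind j (lf σ) (lf σ')) - tail k m e j| ≤ t)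
    (h2 : ∀ a a', a ≠ a' → |A2 P ν H (fun ω σ σ' => u a ω σ σ' * u a' ω σ σ')
      - tail k m (fun i => e i * e i) 0| ≤ t) :
    A2 P ν H (fun ω σ σ' => (∑ a, u a ω σ σ' - n * e (cj (lf σ) (lf σ'))) ^ 2) ≤
      n ^ 2 * t * (1 + e k) ^ 2 + n * D ^ 2 := by
  have hT : 0 ≤ pair k m e e := Finset.sum_nonneg fun j hj => mul_nonneg
    (sub_nonneg.2 (hk.2.2 j (Nat.lt_succ_iff.1 (Finset.mem_range.1 hj))).le) (mul_self_nonneg _)
  have hee : IsPath k (fun i => e i * e i) := ⟨mul_self_nonneg _, fun j hj =>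
    mul_self_le_mul_self (he.nonneg hj.le) (he.2 j hj)⟩
  have h3 := A2_path hk hH hlf h0 hee (Nat.zero_le k)
  rw [qs_tail_pair] at h2 h3
  have g1 : ∀ a a', Good2 P (fun ω σ σ' => u a ω σ σ' * u a' ω σ σ') := fun a a' =>
    ((hu a).mul (hu a')).good2
  have g2 : ∀ a j, Good2 P (fun ω σ σ' => inc e j * (u a ω σ σ' * ind j (lf σ) (lf σ'))) :=
    fun a j => ((hu a).mul (bd2_ind hlf j)).good2.const_mul _
  have g3 : Good2 P (fun (_ : Ω) σ σ' =>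
      e (cj (lf σ) (lf σ')) * e (cj (lf σ) (lf σ')) * ind 0 (lf σ) (lf σ')) :=
    ((bd2_leaf hlf (fun ω ω' => e (cj ω ω') * e (cj ω ω')) (C := e k * e k) fun ω ω' => by
      rw [abs_of_nonneg (mul_self_nonneg _)]
      exact hee.mono_le (cj_le _ _) le_rfl).mul (bd2_ind hlf 0)).good2
  have g4 := Good2.sum Finset.univ fun a _ => Good2.sum Finset.univ fun a' _ => g1 a a'
  have g5 := Good2.sum Finset.univ fun a _ => Good2.sum (Finset.range (k + 1)) fun j _ => g2 a j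
  have e1 : (fun ω σ σ' => (∑ a, u a ω σ σ' - n * e (cj (lf σ) (lf σ'))) ^ 2) = fun ω σ σ' =>
      (∑ a, ∑ a', u a ω σ σ' * u a' ω σ σ' - 2 * n * ∑ a, ∑ j ∈ Finset.range (k + 1),
        inc e j * (u a ω σ σ' * ind j (lf σ) (lf σ'))) + n ^ 2 *
      (e (cj (lf σ) (lf σ')) * e (cj (lf σ) (lf σ')) * ind 0 (lf σ) (lf σ')) := by
    funext ω σ σ'
    have e2 : ∑ a, ∑ j ∈ Finset.range (k + 1), inc e j * (u a ω σ σ' * ind j (lf σ) (lf σ')) =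
        (∑ a, u a ω σ σ') * e (cj (lf σ) (lf σ')) := by
      rw [eq_sum_ind e, Finset.sum_mul_sum]
      exact Finset.sum_congr rfl fun a _ => Finset.sum_congr rfl fun j _ => by ring
    rw [e2, ← Finset.sum_mul_sum, qs_ind_zero]
    ring
  rw [e1, A2_add hH (g4.sub (g5.const_mul _)) (g3.const_mul _), A2_sub hH g4 (g5.const_mul _),
    A2_const_mul, A2_const_mul,
    A2_sum hH _ fun a _ => Good2.sum Finset.univ fun a' _ => g1 a a',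
    A2_sum hH _ fun a _ => Good2.sum (Finset.range (k + 1)) fun j _ => g2 a j]
  have k1 : ∀ a, A2 P ν H (fun ω σ σ' => ∑ a', u a ω σ σ' * u a' ω σ σ') ≤
      n * (pair k m e e + t) + D ^ 2 := fun a => by
    rw [A2_sum hH _ fun a' _ => g1 a a']
    have k2 : ∀ a', A2 P ν H (fun ω σ σ' => u a ω σ σ' * u a' ω σ σ') ≤
        (pair k m e e + t) + if a = a' then D ^ 2 else 0 := fun a' => by
      split_ifs with haa
      · have := (le_abs_self _).trans (abs_A2_le_bd (μ := ν) hH ((hu a).mul (hu a')))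
        nlinarith
      · linarith [(abs_le.1 (h2 a a' haa)).2]
    refine (Finset.sum_le_sum fun a' _ => k2 a').trans_eq ?_
    simp [Finset.sum_add_distrib, mul_add]
  have k3 : ∀ a, pair k m e e - t * e k ≤ A2 P ν H (fun ω σ σ' => ∑ j ∈ Finset.range (k + 1),
      inc e j * (u a ω σ σ' * ind j (lf σ) (lf σ'))) := fun a => by
    rw [A2_sum hH _ fun j _ => g2 a j, pair_eq_sum_tail, ← sum_inc e k, Finset.mul_sum,
      ← Finset.sum_sub_distrib]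
    refine Finset.sum_le_sum fun j hj => ?_
    have hj' := Nat.lt_succ_iff.1 (Finset.mem_range.1 hj)
    rw [A2_const_mul]
    have := mul_le_mul_of_nonneg_left (abs_le.1 (h1 a j hj')).1 (he.inc_nonneg hj')
    linarith
  have k4 := Finset.sum_le_sum fun a (_ : a ∈ Finset.univ) => k1 a
  have k5 := Finset.sum_le_sum fun a (_ : a ∈ Finset.univ) => k3 a
  simp only [Finset.sum_const, Finset.card_univ, Fintype.card_fin, nsmul_eq_mul] at k4 k5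
  have k6 := mul_le_mul_of_nonneg_left k5 (by positivity : (0 : ℝ) ≤ 2 * n)
  have k7 := mul_le_mul_of_nonneg_left (abs_le.1 h3).2 (sq_nonneg (n : ℝ))
  linarith

end

omit [IsProbabilityMeasure μ] in
theorem qs_bd1 (h : IsSp sp) {φ : ℝ → ℝ} (hφ : C2b φ K) (a : Fin M) :
    Bd1 (fun (ω : SO L k n₀ N M) (c : S₀ × Leaf L k) => φ (fld (ω.1.2 a) (sp c.1))) K :=
  pc_bd_fld h.fst hφ.meas0 hφ.b0
    ((measurable_pi_apply a).comp (measurable_snd.comp measurable_fst))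

omit [IsProbabilityMeasure μ] in
theorem qs_bd2 (h : IsSp sp) (hf : NiceK f K) (a : Fin M) :
    Bd2 (fun (ω : SO L k n₀ N M) (c c' : S₀ × Leaf L k) =>
      deriv f (fld (ω.1.2 a) (sp c.1)) * deriv f (fld (ω.1.2 a) (sp c'.1))) (K * K) :=
  (qs_bd1 h hf.c1 a).fst2.mul (qs_bd1 h hf.c1 a).snd2

theorem qs_transport (h : IsSp sp) (hL : 0 < L) (hf : C2b f K) {a a' : Fin (M + 2)} (haa : a ≠ a')
    {φ₁ φ₂ : ℝ → ℝ} (h₁ : C2b φ₁ K) (h₂ : C2b φ₂ K) (j : ℕ) :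
    A2 (SP L k n₀ N (M + 2) m) (μ.prod (unif L k)) (SH f m sp b)
      (fun ω c c' => φ₁ (fld (ω.1.2 a) (sp c.1)) * φ₂ (fld (ω.1.2 a') (sp c.1)) *
        (φ₁ (fld (ω.1.2 a) (sp c'.1)) * φ₂ (fld (ω.1.2 a') (sp c'.1))) * ind j c.2 c'.2) =
    A2 (((SP L k n₀ N M m).prod (gp (Fin N))).prod (gp (Fin N))) (μ.prod (unif L k))
      (fun ω c => SH f m sp b ω.1.1 c + f (fld ω.1.2 (sp c.1)) + f (fld ω.2 (sp c.1)))
      (fun ω c c' => φ₁ (fld ω.1.2 (sp c.1)) * φ₂ (fld ω.2 (sp c.1)) *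
        (φ₁ (fld ω.1.2 (sp c'.1)) * φ₂ (fld ω.2 (sp c'.1))) * ind j c.2 c'.2) := by
  have := unif_prob hL k
  obtain ⟨e, he, h1, h2⟩ := exists_e2 (L := L) (k := k) (n₀ := n₀) (m := m) (f := f) (sp := sp)
    (b := b) haa
  have g := ((qs_bd1 (L := L) (k := k) (n₀ := n₀) h h₁ a).mul (qs_bd1 h h₂ a'))
  have h3 := A2_comp (SH_good (b := b) (m := m) h hf.meas0 hf.b0)
    ((g.fst2.mul g.snd2).mul (bd2_ind measurable_snd j)).good2 he
    (MeasurePreserving.id (μ.prod (unif L k)))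
  simp only [id, h2, (h1 _).1, (h1 _).2] at h3
  exact h3.symm

theorem qs_one {K : ℝ} (hK : 1 ≤ K) : C2b (fun _ => (1 : ℝ)) K :=
  ⟨differentiable_const _, by simp, fun _ => by simpa using hK, fun _ => by simp; linarith,
    fun _ => by simp; linarith⟩

theorem rr_isPath (hk : IsPartition k m) (hf : NiceK f K) (p : ℕ → ℝ) {α₁ : ℝ}
    (hM : (M : ℝ) ≤ α₁ * N) : IsPath k (rr f N M k m p) ∧ rr f N M k m p k ≤ |α₁| * K ^ 2 := by
  obtain ⟨h1, h2⟩ := e1_isPath (q := p) hk hf.c0.c2d.env hf.c0.meas1 hf.c0.b1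
  have h0 : 0 ≤ (M : ℝ) / ((N : ℝ) + 1) := by positivity
  refine ⟨⟨mul_nonneg h0 h1.1, fun j hj => mul_le_mul_of_nonneg_left (h1.2 j hj) h0⟩, ?_⟩
  exact mul_le_mul (qs_ratio hM) h2 (h1.nonneg le_rfl) (abs_nonneg _)

theorem bd2_QQ (h : IsSp sp) (hf : NiceK f K) :
    Bd2 (fun (ω : SO L k n₀ N M) (c c' : S₀ × Leaf L k) => QQ f ω.1.2 (sp c.1) (sp c'.1))
      (M / ((N : ℝ) + 1) * K ^ 2) := by
  have h1 := (qs_sum2 (ι := Fin M) fun a => qs_bd2 (L := L) (k := k) (n₀ := n₀) h hf a).const_mul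
    ((N : ℝ) + 1)⁻¹
  rw [abs_of_nonneg (by positivity), Fintype.card_fin] at h1
  convert h1 using 1
  · funext ω c c'
    rw [QQ, div_eq_inv_mul]
  · ring

theorem bd1_TQ (h : IsSp sp) (hf : NiceK f K) :
    Bd1 (fun (ω : SO L k n₀ N M) (c : S₀ × Leaf L k) => TQ f ω.1.2 (sp c.1))
      (M / ((N : ℝ) + 1) * K) := by
  have h1 := (qs_sum1 (ι := Fin M) fun a =>
    qs_bd1 (L := L) (k := k) (n₀ := n₀) h hf.ct a).const_mul ((N : ℝ) + 1)⁻¹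
  rw [abs_of_nonneg (by positivity), Fintype.card_fin] at h1
  convert h1 using 1
  · funext ω c
    rw [TQ, div_eq_inv_mul]
  · ring

theorem qsync {f : ℝ → ℝ} {K : ℝ} (hf : NiceK f K) (α₁ : ℝ) {τ : ℝ} (hτ : 0 < τ) :
    ∃ η B : ℝ, 0 < η ∧ ∀ {k : ℕ} {m : ℕ → ℝ} (_ : IsPartition k m), ∃ (τ' : ℝ) (N₀ : ℕ), 0 < τ' ∧
      ∀ N ≥ N₀, ∀ {S₀ : Type} [MeasurableSpace S₀] {L n₀ M : ℕ} {μ : Measure S₀} [IsProbabilityMeasure μ]
      {sp : S₀ → Fin N → ℝ} (_ : IsSp sp) (_ : 0 < L) {b : TT n₀ k → ℝ}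
      (_ : ((M + 2 : ℕ) : ℝ) ≤ α₁ * N) {p : ℕ → ℝ} (_ : IsOv k p)
      (_ : SSync L k n₀ M f m μ sp b p η) (_ : SAC L k n₀ M f m μ sp b B τ'),
      (∀ j ≤ k, |SA2 L k n₀ (M + 2) f m μ sp b (fun _ c c' => ind j c.2 c'.2) - (1 - m j)| ≤ τ) ∧
      SA2 L k n₀ (M + 2) f m μ sp b (fun ω c c' =>
        (QQ f ω.1.2 (sp c.1) (sp c'.1) - rr f N (M + 2) k m p (cj c.2 c'.2)) ^ 2) ≤ τ := by
  have hK := hf.one_le
  obtain ⟨t, ht0, htτ, ht⟩ : ∃ t : ℝ, 0 < t ∧ t ≤ τ ∧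
      |α₁| ^ 2 * (1 + K ^ 2) ^ 2 * t ≤ τ / 2 := by
    refine ⟨τ / (2 * (|α₁| ^ 2 * (1 + K ^ 2) ^ 2 + 1)), by positivity, ?_, ?_⟩
    · refine div_le_self hτ.le ?_
      have : 0 ≤ |α₁| ^ 2 * (1 + K ^ 2) ^ 2 := by positivity
      linarith
    · rw [← mul_div_assoc, div_le_div_iff₀ (by positivity) (by positivity)]
      nlinarith
  obtain ⟨η, B, hη, hp2⟩ := pc2 hK ht0
  refine ⟨η, B, hη, ?_⟩
  intro k m hk
  obtain ⟨τ', hτ', hp3⟩ := hp2 hk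
  obtain ⟨N₀, hN₀⟩ := exists_nat_ge (|α₁| * (K * K) ^ 2 / (τ / 2))
  refine ⟨τ', N₀ + 1, hτ', ?_⟩
  intro N hN S₀ _ L n₀ M μ _ sp h hL b hM p hp hs hA
  have := unif_prob hL k
  have hN0 : 0 < N := by omega
  have hT : ∀ {a a' : Fin (M + 2)}, a ≠ a' → ∀ {φ₁ φ₂ : ℝ → ℝ}, C2b φ₁ K → C2b φ₂ K → ∀ j ≤ k,
      |A2 (SP L k n₀ N (M + 2) m) (μ.prod (unif L k)) (SH f m sp b)
        (fun ω c c' => φ₁ (fld (ω.1.2 a) (sp c.1)) * φ₂ (fld (ω.1.2 a') (sp c.1)) *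
          (φ₁ (fld (ω.1.2 a) (sp c'.1)) * φ₂ (fld (ω.1.2 a') (sp c'.1))) * ind j c.2 c'.2)
        - tail k m (fun i => e1 k m p f φ₁ i * e1 k m p f φ₂ i) j| ≤ t := by
    intro a a' haa φ₁ φ₂ h₁ h₂ j hj
    rw [qs_transport h hL hf.c0 haa h₁ h₂]
    exact (hp3 (SH_good h hf.c0.meas0 hf.c0.b0) hN0 h.fst measurable_snd hp hs hA hf.c0
      h₁ h₂).2 j hj
  have hL' := (hk.lv (expM_rq p)).mono (n' := k + 1) le_rfl (by omega)
  have hone : ∀ (e : ℕ → ℝ) (j : ℕ),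
      tail k m (fun i => e i * e1 k m p f (fun _ => 1) i) j = tail k m e j := fun e j =>
    Finset.sum_congr rfl fun i hi => by
      simp only [e1, E2_one hf.c0.c2d.env hL' (Finset.mem_Icc.1 hi).2, mul_one]
  have h0 : ∀ j ≤ k, |A2 (SP L k n₀ N (M + 2) m) (μ.prod (unif L k)) (SH f m sp b)
      (fun _ c c' => ind j c.2 c'.2) - (1 - m j)| ≤ t := fun j hj => by
    have h1 := hT (a := 0) (a' := 1) (by simp) (qs_one hK) (qs_one hK) j hj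
    have h2 := hone (fun _ => 1) j
    simp only [one_mul] at h1 h2
    rwa [hone, h2, tail_one hk hj] at h1
  refine ⟨fun j hj => (h0 j hj).trans htτ, ?_⟩
  obtain ⟨he, hek⟩ := e1_isPath (q := p) hk hf.c0.c2d.env hf.c0.meas1 hf.c0.b1
  have h4 := qs_abs (ν := μ.prod (unif L k)) hk (SH_good (b := b) h hf.c0.meas0 hf.c0.b0)
    measurable_snd (fun a : Fin (M + 2) => qs_bd2 (n₀ := n₀) h hf a) he ht0.le h0
    (fun a j hj => by
      obtain ⟨a', ha'⟩ := exists_ne a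
      have h1 := hT ha'.symm hf.c1 (qs_one hK) j hj
      simp only [mul_one] at h1
      rwa [hone] at h1)
    (fun a a' haa => by
      have h1 := hT haa hf.c1 hf.c1 0 (Nat.zero_le k)
      simp only [qs_ind_zero, mul_one] at h1
      simpa only [mul_mul_mul_comm] using h1)
  have e2 : (fun (ω : SO L k n₀ N (M + 2)) (c c' : S₀ × Leaf L k) =>
      (QQ f ω.1.2 (sp c.1) (sp c'.1) - rr f N (M + 2) k m p (cj c.2 c'.2)) ^ 2) =
      fun ω c c' => ((N : ℝ) + 1)⁻¹ ^ 2 * (∑ a, deriv f (fld (ω.1.2 a) (sp c.1)) *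
        deriv f (fld (ω.1.2 a) (sp c'.1)) -
        ((M + 2 : ℕ) : ℝ) * e1 k m p f (deriv f) (cj c.2 c'.2)) ^ 2 := by
    funext ω c c'
    rw [QQ, rr]
    ring
  rw [SA2, e2, A2_const_mul]
  refine (mul_le_mul_of_nonneg_left h4 (sq_nonneg _)).trans ?_
  have hρ := qs_ratio hM
  have hρ0 : 0 ≤ ((M + 2 : ℕ) : ℝ) / ((N : ℝ) + 1) := by positivity
  have e3 : ((N : ℝ) + 1)⁻¹ ^ 2 * (((M + 2 : ℕ) : ℝ) ^ 2 * t * (1 + e1 k m p f (deriv f) k) ^ 2 +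
      ((M + 2 : ℕ) : ℝ) * (K * K) ^ 2) =
      (((M + 2 : ℕ) : ℝ) / ((N : ℝ) + 1)) ^ 2 * (1 + e1 k m p f (deriv f) k) ^ 2 * t +
      ((M + 2 : ℕ) : ℝ) / ((N : ℝ) + 1) * (K * K) ^ 2 / ((N : ℝ) + 1) := by ring
  rw [e3]
  have k1 : (((M + 2 : ℕ) : ℝ) / ((N : ℝ) + 1)) ^ 2 * (1 + e1 k m p f (deriv f) k) ^ 2 * t ≤
      |α₁| ^ 2 * (1 + K ^ 2) ^ 2 * t := by
    have := he.nonneg (le_refl k)
    gcongr
  have k2 : ((M + 2 : ℕ) : ℝ) / ((N : ℝ) + 1) * (K * K) ^ 2 / ((N : ℝ) + 1) ≤ τ / 2 := by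
    rw [div_le_iff₀ (by positivity)]
    rw [div_le_iff₀ (by positivity)] at hN₀
    have k3 : (N₀ : ℝ) ≤ N + 1 := by exact_mod_cast (by omega : N₀ ≤ N + 1)
    have k4 := mul_le_mul_of_nonneg_right hρ (sq_nonneg (K * K))
    have k5 := mul_le_mul_of_nonneg_right k3 (half_pos hτ).le
    linarith
  linarith

end P157
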