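import Vale.Agent.P157.ROne

/-! P157 Refine: inserting a level with zero variance changes nothing; fine partitions.
Plan: `inc (dup i q) (i+1) = 0`, `inc (dup i q) j = inc q j` for `j ≤ i`, `= inc q (j-1)` for
`j ≥ i+2`; `rq _ (i+1) = gw 0 = dirac 0` so `Tm` (and the tilt) of that level is the identity
(`Tm_dirac`, `gw_zero`); use `Rec_split`, `Rec_congr`, `Tl_split`, `Tl_congr`. Sums: split the range
at `i`. `exists_refine`: first show by induction on a finite set `A ⊆ (0,1)` that some refinement has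
every point of `A` among `m 1, ..., m k` (insertion keeps old values); take `A = {l/n}` with
`1/n ≤ δ`, `n ≥ 2`: a gap longer than `1/n` would contain a grid point strictly inside.
-/

open MeasureTheory ProbabilityTheory Real
open scoped BigOperators Matrix

namespace P157


variable {k i : ℕ} {m p q : ℕ → ℝ} {c : ℝ}

theorem rf_lo {j : ℕ} (h : j ≤ i) : ins i c m j = m j := if_pos h
theorem rf_mid : ins i c m (i + 1) = c := by simp [ins]
theorem rf_hi {j : ℕ} (h : i < j) : ins i c m (j + 1) = m j := by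
  unfold ins
  rw [if_neg (by omega), if_neg (by omega), Nat.add_sub_cancel]
theorem rf_dlo {j : ℕ} (h : j ≤ i) : dup i q j = q j := if_pos h
theorem rf_dhi {j : ℕ} (h : i ≤ j) : dup i q (j + 1) = q j := if_neg (by omega)
theorem rf_rlo {j : ℕ} (h : j ≤ i) : rq (dup i q) j = rq q j := by
  unfold rq
  rw [ro_inc (k := i) (q := dup i q) (q' := q) (fun _ => rf_dlo) h]
theorem rf_rmid : rq (dup i q) (i + 1) = Measure.dirac 0 := by
  simp only [rq, inc, rf_dlo le_rfl, rf_dhi le_rfl, sub_self, sqrt_zero, gw_zero]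
theorem rf_rhi {j : ℕ} (h : i < j) : rq (dup i q) (j + 1) = rq q j := by
  obtain ⟨j, rfl⟩ : ∃ j', j = j' + 1 := ⟨j - 1, by omega⟩
  simp only [rq, inc, rf_dhi h.le, rf_dhi (Nat.le_of_lt_succ h)]
theorem rf_RecA {F : ℝ → ℝ} {n j : ℕ} (h : i < j) :
    Rec (ins i c m) (rq (dup i q)) F n (j + 1) = Rec m (rq q) F n j :=
  Rec_congr fun l _ => by
    rw [Nat.add_right_comm]; exact ⟨rf_hi (by omega), rf_rhi (by omega)⟩
theorem rf_TlA {F φ : ℝ → ℝ} {n j : ℕ} (h : i < j) :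
    Tl (ins i c m) (rq (dup i q)) F φ n (j + 1) = Tl m (rq q) F φ n j :=
  Tl_congr fun l _ => by
    rw [Nat.add_right_comm]; exact ⟨rf_hi (by omega), rf_rhi (by omega)⟩
theorem rf_Rec {F : ℝ → ℝ} (d j n : ℕ) (h : j + d = i + 1) (hn : d ≤ n) :
    Rec (ins i c m) (rq (dup i q)) F (n + 1) j = Rec m (rq q) F n j := by
  induction d generalizing j n with
  | zero =>
    obtain rfl : j = i + 1 := h
    funext y
    rw [Rec, rf_rmid, rf_RecA (Nat.lt_succ_self i), Tm]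
    split_ifs with h0
    · simp
    · simp [h0]
  | succ d ih =>
    obtain ⟨n, rfl⟩ : ∃ n', n = n' + 1 := ⟨n - 1, by omega⟩
    rw [Rec, ih (j + 1) n (by omega) (by omega), rf_lo (by omega), rf_rlo (by omega), Rec]
theorem rf_Tl {F φ : ℝ → ℝ} (d j n : ℕ) (h : j + d = i + 1) (hn : d ≤ n) :
    Tl (ins i c m) (rq (dup i q)) F φ (n + 1) j = Tl m (rq q) F φ n j := by
  induction d generalizing j n with
  | zero =>
    obtain rfl : j = i + 1 := h
    funext y
    rw [Tl, rf_rmid, rf_TlA (Nat.lt_succ_self i)]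
    simp [integral_tilted]
  | succ d ih =>
    obtain ⟨n, rfl⟩ : ∃ n', n = n' + 1 := ⟨n - 1, by omega⟩
    rw [Tl, ih (j + 1) n (by omega) (by omega), rf_Rec d (j + 1) n (by omega) (by omega),
      rf_lo (by omega), rf_rlo (by omega), Tl]

theorem IsPartition.ins (hk : IsPartition k m) (hi : i ≤ k) (h1 : m i < c) (h2 : c < m (i + 1)) :
    IsPartition (k + 1) (ins i c m) := by
  refine ⟨(rf_lo (Nat.zero_le i)).trans hk.1, (rf_hi (by omega)).trans hk.2.1, fun j hj => ?_⟩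
  rcases lt_trichotomy j i with h | rfl | h
  · rw [rf_lo h.le, rf_lo h]; exact hk.2.2 j (by omega)
  · rw [rf_lo le_rfl, rf_mid]; exact h1
  · obtain ⟨j, rfl⟩ : ∃ j', j = j' + 1 := ⟨j - 1, by omega⟩
    rw [rf_hi h]
    by_cases e : j = i
    · rw [e, rf_mid]; exact h2
    · rw [rf_hi (by omega)]; exact hk.2.2 j (by omega)
theorem IsPath.dup (h : IsPath k q) (hi : i ≤ k) : IsPath (k + 1) (dup i q) := by
  refine ⟨h.1.trans_eq (rf_dlo (Nat.zero_le i)).symm, fun j hj => ?_⟩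
  rcases lt_trichotomy j i with h' | rfl | h'
  · rw [rf_dlo h'.le, rf_dlo h']; exact h.2 j (by omega)
  · rw [rf_dlo le_rfl, rf_dhi le_rfl]
  · obtain ⟨j, rfl⟩ : ∃ j', j = j' + 1 := ⟨j - 1, by omega⟩
    rw [rf_dhi h'.le, rf_dhi (by omega)]; exact h.2 j (by omega)
theorem dup_last (hi : i ≤ k) : dup i q (k + 1) = q k :=
  rf_dhi hi
theorem parisi_ins (hk : IsPartition k m) (hi : i ≤ k) (h1 : m i < c) (h2 : c < m (i + 1))
    {F : ℝ → ℝ} {C : ℝ} (hF : Env F C) :
    parisi (k + 1) (ins i c m) (dup i q) F = parisi k m q F := by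
  rw [parisi_eq_Rec (hk.ins hi h1 h2) hF, parisi_eq_Rec hk hF,
    rf_Rec (i + 1) 0 (k + 1) (by omega) (by omega)]
theorem energy_ins (hk : IsPartition k m) (hi : i ≤ k) (h1 : m i < c) (h2 : c < m (i + 1))
    {f : ℝ → ℝ} (hf : Measurable f) {K : ℝ} (hK : ∀ y, |f y| ≤ K) :
    energy f (k + 1) (ins i c m) (dup i p) = energy f k m p := by
  unfold energy
  rw [dup_last hi, step_eq_Tm hf]
  exact parisi_ins hk hi h1 h2 ((Env.of_bdd hf hK).tm (expM_gw _) zero_le_one)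
theorem e1_ins (hk : IsPartition k m) (hi : i ≤ k) (h1 : m i < c) (h2 : c < m (i + 1))
    {F φ : ℝ → ℝ} {C b : ℝ} (hF : Env F C) (hφ : Measurable φ) (hb : ∀ y, |φ y| ≤ b) {j : ℕ}
    (hj : j ≤ k + 1) :
    e1 (k + 1) (ins i c m) (dup i q) F φ j = dup i (e1 k m q F φ) j := by
  by_cases h : j ≤ i
  · rw [rf_dlo h]
    unfold e1 E2
    rw [show k + 1 - j = k - j + 1 by omega, rf_Rec (i - j) (j + 1) (k - j) (by omega) (by omega),
      rf_Tl (i - j) (j + 1) (k - j) (by omega) (by omega),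
      Tl_congr (m' := m) (ρ' := rq q) (j' := 0) fun l hl => ⟨rf_lo (by omega), rf_rlo (by omega)⟩]
  · obtain ⟨j, rfl⟩ : ∃ j', j = j' + 1 := ⟨j - 1, by omega⟩
    rw [rf_dhi (by omega)]
    unfold e1 E2
    rw [Nat.add_sub_add_right, rf_RecA (by omega), rf_TlA (by omega),
      rf_Tl (i + 1) 0 (j + 1) (by omega) (by omega)]
theorem pair_ins (hi : i ≤ k) :
    pair (k + 1) (ins i c m) (dup i p) (dup i q) = pair k m p q := by
  unfold pair
  induction k, hi using Nat.le_induction with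
  | base =>
    rw [Finset.sum_range_succ, Finset.sum_range_succ, Finset.sum_range_succ _ i, add_assoc]
    congr 1
    · refine Finset.sum_congr rfl fun j hj => ?_
      have h := Finset.mem_range.1 hj
      rw [rf_lo h, rf_lo h.le, rf_dlo h.le, rf_dlo h.le]
    · rw [rf_hi (Nat.lt_succ_self i), rf_mid, rf_lo le_rfl, rf_dlo le_rfl, rf_dlo le_rfl,
        rf_dhi le_rfl, rf_dhi le_rfl]
      ring
  | succ k hk ih =>
    rw [Finset.sum_range_succ, ih, Finset.sum_range_succ _ (k + 1), rf_hi (by omega),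
      rf_hi (by omega), rf_dhi (by omega), rf_dhi (by omega)]
theorem rf_sum {g' g : ℕ → ℝ} {j : ℕ} (hi : i ≤ k) (hj : j ≤ i) (h1 : ∀ l < i, g' l = g l)
    (h2 : g' i = 0) (h3 : ∀ l, i ≤ l → g' (l + 1) = g l) :
    ∑ l ∈ Finset.Ico j (k + 1), g' l = ∑ l ∈ Finset.Ico j k, g l := by
  induction k, hi using Nat.le_induction with
  | base =>
    rw [Finset.sum_Ico_succ_top hj, h2, add_zero]
    exact Finset.sum_congr rfl fun l hl => h1 l (Finset.mem_Ico.1 hl).2
  | succ k hk ih =>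
    rw [Finset.sum_Ico_succ_top (by omega), ih, Finset.sum_Ico_succ_top (hj.trans hk), h3 k hk]
theorem rf_ddlo (hi : i ≤ k) {j : ℕ} (hj : j ≤ i) :
    dd (k + 1) (ins i c m) (dup i p) j = dd k m p j := by
  unfold dd
  rw [dup_last hi, rf_sum (g := fun l => m (l + 1) * (p (l + 1) - p l)) hi hj]
  · intro l hl
    rw [rf_lo hl, rf_dlo hl, rf_dlo hl.le]
  · rw [rf_dlo le_rfl, rf_dhi le_rfl, sub_self, mul_zero]
  · intro l hl
    rw [rf_hi (by omega), rf_dhi hl, rf_dhi (by omega)]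
theorem rf_ddhi (hi : i ≤ k) {j : ℕ} (hj : i ≤ j) :
    dd (k + 1) (ins i c m) (dup i p) (j + 1) = dd k m p j := by
  unfold dd
  rw [dup_last hi, ← Finset.sum_Ico_add' _ j k 1]
  congr 1
  refine Finset.sum_congr rfl fun l hl => ?_
  have := (Finset.mem_Ico.1 hl).1
  rw [rf_hi (by omega), rf_dhi (by omega), rf_dhi (by omega)]
theorem sphereEntropy_ins (hi : i ≤ k) (hp : IsPath k p) (hp1 : p k < 1) (hk : IsPartition k m) :
    sphereEntropy (k + 1) (ins i c m) (dup i p) = sphereEntropy k m p := by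
  unfold sphereEntropy
  rw [dup_last hi, rf_dlo (Nat.zero_le i), rf_ddlo hi (Nat.zero_le i), Finset.range_eq_Ico,
    Finset.range_eq_Ico, rf_sum (g := fun j => (m (j + 1))⁻¹ * log (dd k m p j / dd k m p (j + 1)))
      hi (Nat.zero_le i)]
  · intro j hj
    rw [rf_lo hj, rf_ddlo hi hj.le, rf_ddlo hi hj]
  · rw [rf_ddlo hi le_rfl, rf_ddhi hi le_rfl, Real.log_div_self, mul_zero]
  · intro j hj
    rw [rf_hi (by omega), rf_ddhi hi hj, rf_ddhi hi (by omega)]

theorem rf_find (m : ℕ → ℝ) (a : ℝ) (h0 : m 0 ≤ a) (k : ℕ) (h1 : a < m (k + 1)) :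
    ∃ i ≤ k, m i ≤ a ∧ a < m (i + 1) := by
  induction k with
  | zero => exact ⟨0, le_rfl, h0, h1⟩
  | succ k ih =>
    by_cases h : a < m (k + 1)
    · obtain ⟨i, hi, h2⟩ := ih h
      exact ⟨i, by omega, h2⟩
    · exact ⟨k + 1, le_rfl, not_lt.1 h, h1⟩

theorem exists_refine {β : Type} (Q : ℕ → (ℕ → ℝ) → β → Prop)
    (hQ : ∀ k m x i c, IsPartition k m → i ≤ k → m i < c → c < m (i + 1) → Q k m x →
      ∃ x', Q (k + 1) (ins i c m) x') {x : β} (hk : IsPartition k m) (hx : Q k m x) {δ : ℝ}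
    (hδ : 0 < δ) : ∃ k' m' x', 1 ≤ k' ∧ IsPartition k' m' ∧ Mesh k' m' δ ∧ Q k' m' x' := by
  have key : ∀ A : Finset ℝ, (∀ a ∈ A, 0 < a ∧ a < 1) → ∃ k' m' x', IsPartition k' m' ∧
      Q k' m' x' ∧ ∀ a ∈ A, ∃ j, 1 ≤ j ∧ j ≤ k' ∧ m' j = a := by
    intro A
    induction A using Finset.induction_on with
    | empty => exact fun _ => ⟨k, m, x, hk, hx, by simp⟩
    | insert a A _ ih =>
      intro hA
      obtain ⟨k', m', x', hk', hx', h'⟩ := ih fun b hb => hA b (Finset.mem_insert_of_mem hb)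
      have ha := hA a (Finset.mem_insert_self a A)
      obtain ⟨i, hi, h1, h2⟩ := rf_find m' a (hk'.1.trans_le ha.1.le) k' (hk'.2.1.symm ▸ ha.2)
      rcases h1.eq_or_lt with h1 | h1
      · refine ⟨k', m', x', hk', hx', Finset.forall_mem_insert _ _ _ |>.2 ⟨⟨i, ?_, hi, h1⟩, h'⟩⟩
        refine Nat.pos_of_ne_zero fun e => ha.1.ne ?_
        rw [← h1, e, hk'.1]
      · obtain ⟨x'', hx''⟩ := hQ k' m' x' i a hk' hi h1 h2 hx'
        refine ⟨k' + 1, _, x'', hk'.ins hi h1 h2, hx'', Finset.forall_mem_insert _ _ _ |>.2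
          ⟨⟨i + 1, by omega, by omega, rf_mid⟩, fun b hb => ?_⟩⟩
        obtain ⟨j, hj1, hj2, hj3⟩ := h' b hb
        by_cases e : j ≤ i
        · exact ⟨j, hj1, by omega, (rf_lo e).trans hj3⟩
        · exact ⟨j + 1, by omega, by omega, (rf_hi (by omega)).trans hj3⟩
  obtain ⟨n, hn⟩ := exists_nat_one_div_lt hδ
  have hn0 : (0 : ℝ) < n + 2 := by positivity
  have hn1 : 1 / ((n : ℝ) + 2) ≤ δ :=
    (one_div_le_one_div_of_le (by positivity) (by linarith)).trans hn.le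
  obtain ⟨k', m', x', hk', hx', h'⟩ := key
    ((Finset.Ioo 0 (n + 2)).image fun l : ℕ => (l : ℝ) / (n + 2)) fun a ha => by
      obtain ⟨l, hl, rfl⟩ := Finset.mem_image.1 ha
      obtain ⟨h1, h2⟩ := Finset.mem_Ioo.1 hl
      exact ⟨div_pos (by exact_mod_cast h1) hn0, (div_lt_one hn0).2 (by exact_mod_cast h2)⟩
  refine ⟨k', m', x', ?_, hk', fun j hj => ?_, hx'⟩
  · obtain ⟨j, h1, h2, -⟩ := h' _ (Finset.mem_image_of_mem _
      (Finset.mem_Ioo.2 ⟨zero_lt_one, by omega⟩ : 1 ∈ Finset.Ioo 0 (n + 2)))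
    omega
  · have h0 : 0 ≤ m' j := hk'.1.symm.trans_le (hk'.mono_le (Nat.zero_le j) (by omega))
    have h1 := Nat.lt_floor_add_one (m' j * (n + 2))
    have h2 := Nat.floor_le (mul_nonneg h0 hn0.le)
    have h3 : m' (j + 1) ≤ ((⌊m' j * (n + 2)⌋₊ + 1 : ℕ) : ℝ) / (n + 2) := by
      by_cases e : ⌊m' j * (n + 2)⌋₊ + 1 < n + 2
      · obtain ⟨l, -, hl, hl'⟩ := h' _ (Finset.mem_image_of_mem _
          (Finset.mem_Ioo.2 ⟨Nat.succ_pos _, e⟩))
        rw [← hl']
        refine hk'.mono_le ?_ (by omega)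
        by_contra hc
        have h4 := hk'.mono_le (show l ≤ j by omega) (by omega)
        rw [hl', div_le_iff₀ hn0] at h4
        push_cast at h4
        linarith
      · refine (hk'.mono_le (show j + 1 ≤ k' + 1 by omega) le_rfl).trans ?_
        rw [hk'.2.1, one_le_div hn0]
        exact_mod_cast not_lt.1 e
    refine le_trans ?_ hn1
    rw [le_div_iff₀ hn0] at h3 ⊢
    push_cast at h3
    linarith

theorem exists_fine {δ : ℝ} (hδ : 0 < δ) : ∃ k m, 1 ≤ k ∧ IsPartition k m ∧ Mesh k m δ := by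
  obtain ⟨k, m, -, h1, h2, h3, -⟩ := exists_refine (fun _ _ (_ : Unit) => True)
    (fun _ _ _ _ _ _ _ _ _ _ => ⟨(), trivial⟩) (k := 0) (m := fun j => (j : ℝ)) (x := ())
    ⟨by simp, by simp, fun j _ => by simp⟩ trivial hδ
  exact ⟨k, m, h1, h2, h3⟩

end P157
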