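import Vale.Agent.P157.Core

/-! P157 IBP0: Gaussian integration by parts and elementary facts on standard Gaussian vectors.
Plan: 1-D: `∫ (ψ' - x ψ) φ_std = ∫ (ψ φ_std)' = 0` (`integral_eq_zero_of_hasDerivAt_of_integrable`,
`integral_gaussianReal_eq_integral_smul`). For `pi`: split off the coordinate `c`
(`measurePreserving_piEquivPiSubtypeProd`, or `lmarginal`/`integral_pi` style lemma, or
`Fintype.equivFin` + `measurePreserving_piFinSuccAbove`) and use Fubini.
`gp_map_dot`: characteristic functions (`charFun_pi`/`Measure.ext_of_charFun`) or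
`map_pi_eq_stdGaussian` + `IsGaussian.map_eq_gaussianReal`. `gp_isometry`: the linear map
`A σ ↦ A' σ` on the span of the `A σ` in `EuclideanSpace ℝ ι` is a linear isometry
(`LinearIsometry.extend` / `Submodule.span` + equal Gram matrices; alternatively
`LinearIsometryEquiv.ofInnerProductSpace`/adjoint), take `U` = its adjoint (inverse) and use
`stdGaussian_map`, `map_pi_eq_stdGaussian`. `gp_mix`: `Measure.pi_eq` on boxes.
-/

open MeasureTheory ProbabilityTheory Real
open scoped BigOperators Matrix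

namespace P157


theorem ibp0_int {f : ℝ → ℝ} (hf : Integrable f (gaussianReal 0 1)) :
    Integrable fun x => f x * gaussianPDFReal 0 1 x := by
  rw [gaussianReal_of_var_ne_zero _ one_ne_zero, integrable_withDensity_iff
    (measurable_gaussianPDF _ _) (ae_of_all _ fun _ => gaussianPDF_lt_top)] at hf
  simpa only [toReal_gaussianPDF] using hf

theorem ibp0_pdf (x : ℝ) :
    HasDerivAt (gaussianPDFReal 0 1) (-x * gaussianPDFReal 0 1 x) x := by
  rw [gaussianPDFReal_def]
  have h := ((((hasDerivAt_id x).sub_const 0).pow 2).neg.div_const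
    (2 * ((1 : NNReal) : ℝ))).exp.const_mul (√(2 * π * ((1 : NNReal) : ℝ)))⁻¹
  refine h.congr_deriv ?_
  simp only [id, NNReal.coe_one, Pi.neg_apply, Pi.pow_apply]
  ring

theorem ibp0_id : Integrable (fun x : ℝ => x) (gaussianReal 0 1) :=
  (memLp_id_gaussianReal' 1 (by simp)).integrable le_rfl

theorem gauss_ibp {ψ ψ' : ℝ → ℝ} (hd : ∀ x, HasDerivAt ψ (ψ' x) x) (hm : Measurable ψ') {C : ℝ}
    (h0 : ∀ x, |ψ x| ≤ C) (h1 : ∀ x, |ψ' x| ≤ C) :
    ∫ x, x * ψ x ∂(gaussianReal 0 1) = ∫ x, ψ' x ∂(gaussianReal 0 1) := by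
  have hc : Measurable ψ :=
    (continuous_iff_continuousAt.2 fun x => (hd x).continuousAt).measurable
  have i0 : Integrable ψ (gaussianReal 0 1) :=
    Integrable.of_bound hc.aestronglyMeasurable C (ae_of_all _ h0)
  have i1 : Integrable ψ' (gaussianReal 0 1) :=
    Integrable.of_bound hm.aestronglyMeasurable C (ae_of_all _ h1)
  have i2 : Integrable (fun x => x * ψ x) (gaussianReal 0 1) :=
    ibp0_id.mul_bdd hc.aestronglyMeasurable (ae_of_all _ h0)
  have key := integral_eq_zero_of_hasDerivAt_of_integrable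
    (f' := fun x => (ψ' x - x * ψ x) * gaussianPDFReal 0 1 x)
    (fun x => ((hd x).mul (ibp0_pdf x)).congr_deriv (by ring)) (ibp0_int (i1.sub i2)) (ibp0_int i0)
  rw [eq_comm, ← sub_eq_zero, ← integral_sub i1 i2, integral_gaussianReal_eq_integral_smul one_ne_zero]
  simpa only [smul_eq_mul, mul_comm] using key

variable {ι : Type} [Fintype ι]

theorem ibp0_mix (r : ι → Prop) [DecidablePred r] :
    MeasurePreserving (fun p : (ι → ℝ) × (ι → ℝ) => fun c => if r c then p.2 c else p.1 c)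
      ((gp ι).prod (gp ι)) (gp ι) := by
  have hm : Measurable (fun p : (ι → ℝ) × (ι → ℝ) => fun c => if r c then p.2 c else p.1 c) := by
    refine measurable_pi_lambda _ fun c => ?_
    split_ifs <;> fun_prop
  refine ⟨hm, (Measure.pi_eq fun s hs => ?_).symm⟩
  rw [Measure.map_apply hm (MeasurableSet.univ_pi hs)]
  have e : (fun p : (ι → ℝ) × (ι → ℝ) => fun c => if r c then p.2 c else p.1 c) ⁻¹'
      Set.pi Set.univ s = (Set.pi Set.univ fun c => if r c then Set.univ else s c) ×ˢ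
        (Set.pi Set.univ fun c => if r c then s c else Set.univ) := by
    ext p
    simp only [Set.mem_preimage, Set.mem_pi, Set.mem_univ, true_imp_iff, Set.mem_prod,
      ← forall_and]
    refine forall_congr' fun c => ?_
    split_ifs <;> simp
  rw [e, Measure.prod_prod, Measure.pi_pi, Measure.pi_pi, ← Finset.prod_mul_distrib]
  refine Finset.prod_congr rfl fun c _ => ?_
  split_ifs <;> simp

theorem ibp0_upd [DecidableEq ι] (c : ι) :
    MeasurePreserving (fun p : (ι → ℝ) × ℝ => Function.update p.1 c p.2)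
      ((gp ι).prod (gaussianReal 0 1)) (gp ι) := by
  have h1 := (MeasurePreserving.id (gp ι)).prod
    (measurePreserving_eval (fun _ : ι => gaussianReal 0 1) c)
  have hm : Measurable fun p : (ι → ℝ) × ℝ => Function.update p.1 c p.2 := measurable_update'
  refine ⟨hm, ?_⟩
  have e : (fun p : (ι → ℝ) × ℝ => Function.update p.1 c p.2) ∘ Prod.map id (Function.eval c) =
      fun p : (ι → ℝ) × (ι → ℝ) => fun i => if i = c then p.2 i else p.1 i := by
    funext p i
    simp only [Function.comp, Prod.map, id, Function.update_apply, Function.eval]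
    split_ifs with h
    · rw [h]
    · rfl
  rw [← h1.map_eq, Measure.map_map hm h1.measurable, e]
  exact (ibp0_mix (· = c)).map_eq

theorem ibp0_resample [DecidableEq ι] (c : ι) {f : (ι → ℝ) → ℝ} (hf : Integrable f (gp ι)) :
    ∫ g, f g ∂(gp ι) = ∫ g, ∫ t, f (Function.update g c t) ∂(gaussianReal 0 1) ∂(gp ι) := by
  have h := ibp0_upd (ι := ι) c
  refine Eq.trans ?_ (integral_prod _ (h.integrable_comp_of_integrable hf))
  conv_lhs => rw [← h.map_eq]
  exact integral_map h.measurable.aemeasurable (by rw [h.map_eq]; exact hf.aestronglyMeasurable)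

theorem gp_ibp [DecidableEq ι] {Ψ Ψ' : (ι → ℝ) → ℝ} (c : ι) (hΨ : Measurable Ψ)
    (hΨ' : Measurable Ψ')
    (hd : ∀ g, HasDerivAt (fun t => Ψ (Function.update g c t)) (Ψ' g) (g c)) {C : ℝ}
    (h0 : ∀ g, |Ψ g| ≤ C) (h1 : ∀ g, |Ψ' g| ≤ C) :
    ∫ g, g c * Ψ g ∂(gp ι) = ∫ g, Ψ' g ∂(gp ι) := by
  have i0 : Integrable (fun g : ι → ℝ => g c) (gp ι) :=
    (measurePreserving_eval (fun _ : ι => gaussianReal 0 1) c).integrable_comp_of_integrable ibp0_id
  rw [ibp0_resample c (i0.mul_bdd hΨ.aestronglyMeasurable (ae_of_all _ h0)),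
    ibp0_resample c (Integrable.of_bound hΨ'.aestronglyMeasurable C (ae_of_all _ h1))]
  refine integral_congr_ae (ae_of_all _ fun g => ?_)
  simp only [Function.update_self]
  refine gauss_ibp (fun x => ?_) (hΨ'.comp (measurable_update g)) (fun x => h0 _) fun x => h1 _
  simpa only [Function.update_idem, Function.update_self] using hd (Function.update g c x)

theorem ibp0_to : MeasurePreserving (WithLp.toLp 2) (gp ι) (stdGaussian (EuclideanSpace ℝ ι)) :=
  ⟨by fun_prop, map_pi_eq_stdGaussian⟩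

theorem ibp0_of : MeasurePreserving (WithLp.ofLp) (stdGaussian (EuclideanSpace ℝ ι)) (gp ι) := by
  refine ⟨by fun_prop, ?_⟩
  rw [← map_pi_eq_stdGaussian, Measure.map_map (by fun_prop) (by fun_prop)]
  exact Measure.map_id

theorem ibp0_inner (a b : ι → ℝ) :
    inner ℝ (WithLp.toLp 2 a : EuclideanSpace ℝ ι) (WithLp.toLp 2 b) = a ⬝ᵥ b := by
  rw [EuclideanSpace.inner_toLp_toLp, star_trivial, dotProduct_comm]

theorem ibp0_nonneg (a : ι → ℝ) : 0 ≤ a ⬝ᵥ a := Finset.sum_nonneg fun _ _ => mul_self_nonneg _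

theorem ibp0_meas (a : ι → ℝ) : Measurable fun g : ι → ℝ => a ⬝ᵥ g := by
  unfold dotProduct
  fun_prop

theorem gp_map_dot (a : ι → ℝ) :
    (gp ι).map (fun g => a ⬝ᵥ g) = gaussianReal 0 (a ⬝ᵥ a).toNNReal := by
  have h := IsGaussian.map_eq_gaussianReal (μ := stdGaussian (EuclideanSpace ℝ ι))
    (innerSL ℝ (WithLp.toLp 2 a : EuclideanSpace ℝ ι))
  rw [integral_strongDual_stdGaussian, variance_dual_stdGaussian, innerSL_apply_norm,
    ← real_inner_self_eq_norm_sq, ibp0_inner, ← map_pi_eq_stdGaussian,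
    Measure.map_map (by fun_prop) (by fun_prop)] at h
  rw [← h]
  exact congrArg (fun f => Measure.map f _) (funext fun g => (ibp0_inner a g).symm)
theorem gp_map_dot' (a : ι → ℝ) : (gp ι).map (fun g => a ⬝ᵥ g) = gw √(a ⬝ᵥ a) := by
  rw [gp_map_dot, gw, gaussianReal_map_const_mul, mul_zero, mul_one]
  refine congrArg _ (NNReal.eq ?_)
  rw [Real.coe_toNNReal _ (ibp0_nonneg a), NNReal.coe_mk, Real.sq_sqrt (ibp0_nonneg a)]
theorem ibp0_mp (a : ι → ℝ) :
    MeasurePreserving (fun g => a ⬝ᵥ g) (gp ι) (gaussianReal 0 (a ⬝ᵥ a).toNNReal) :=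
  ⟨ibp0_meas a, gp_map_dot a⟩

theorem ibp0_integral (a : ι → ℝ) {f : ℝ → ℝ} (hf : Measurable f) :
    ∫ g, f (a ⬝ᵥ g) ∂(gp ι) = ∫ x, f x ∂(gaussianReal 0 (a ⬝ᵥ a).toNNReal) := by
  rw [← gp_map_dot, integral_map (ibp0_meas a).aemeasurable hf.aestronglyMeasurable]

theorem ibp0_memLp (a : ι → ℝ) : MemLp (fun g => a ⬝ᵥ g) 2 (gp ι) :=
  (memLp_id_gaussianReal' 2 (by simp)).comp_measurePreserving (ibp0_mp a)

theorem ibp0_sq (a : ι → ℝ) : ∫ g, (a ⬝ᵥ g) ^ 2 ∂(gp ι) = a ⬝ᵥ a := by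
  have h := variance_fun_id_gaussianReal (μ := 0) (v := (a ⬝ᵥ a).toNNReal)
  rw [variance_of_integral_eq_zero (by fun_prop) integral_id_gaussianReal,
    Real.coe_toNNReal _ (ibp0_nonneg a)] at h
  rw [ibp0_integral a (f := fun x => x ^ 2) (by fun_prop), h]

theorem gp_integrable_exp_dot (a : ι → ℝ) : Integrable (fun g => exp (a ⬝ᵥ g)) (gp ι) := by
  simpa only [Function.comp_def, one_mul] using
    (ibp0_mp a).integrable_comp_of_integrable (integrable_exp_mul_gaussianReal 1)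
theorem gp_exp_dot (a : ι → ℝ) : ∫ g, exp (a ⬝ᵥ g) ∂(gp ι) = exp (a ⬝ᵥ a / 2) := by
  have h := mgf_gaussianReal (gp_map_dot a) 1
  simpa only [mgf, one_mul, mul_one, one_pow, zero_add, Real.coe_toNNReal _ (ibp0_nonneg a)] using h
theorem gp_dot (a : ι → ℝ) : ∫ g, a ⬝ᵥ g ∂(gp ι) = 0 := by
  rw [ibp0_integral a (f := fun x => x) (by fun_prop), integral_id_gaussianReal]
theorem gp_dot_mul (a a' : ι → ℝ) : ∫ g, (a ⬝ᵥ g) * (a' ⬝ᵥ g) ∂(gp ι) = a ⬝ᵥ a' := by
  have e : ∀ g : ι → ℝ, (a ⬝ᵥ g) * (a' ⬝ᵥ g) =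
      (((a + a') ⬝ᵥ g) ^ 2 - ((a - a') ⬝ᵥ g) ^ 2) / 4 := fun g => by
    rw [add_dotProduct, sub_dotProduct]
    ring
  simp only [e]
  rw [integral_div, integral_sub (ibp0_memLp _).integrable_sq (ibp0_memLp _).integrable_sq,
    ibp0_sq, ibp0_sq]
  simp only [add_dotProduct, sub_dotProduct, dotProduct_add, dotProduct_sub, dotProduct_comm a' a]
  ring
theorem gp_integrable_dot_mul (a a' : ι → ℝ) :
    Integrable (fun g => (a ⬝ᵥ g) * (a' ⬝ᵥ g)) (gp ι) := by
  exact (ibp0_memLp a).integrable_mul (ibp0_memLp a')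
theorem gp_abs_dot (a : ι → ℝ) : ∫ g, |a ⬝ᵥ g| ∂(gp ι) ≤ √(a ⬝ᵥ a) := by
  have h := variance_nonneg (fun g => |a ⬝ᵥ g|) (gp ι)
  have hm : MemLp (fun g => |a ⬝ᵥ g|) 2 (gp ι) := (ibp0_memLp a).abs
  rw [variance_eq_sub hm] at h
  refine Real.le_sqrt_of_sq_le ?_
  simp only [Pi.pow_apply, sq_abs, ibp0_sq] at h
  linarith
theorem gp_integrable_exp_sum_abs (c : ℝ) :
    Integrable (fun g : ι → ℝ => exp (c * ∑ i, |g i|)) (gp ι) := by
  simp only [Finset.mul_sum, exp_sum]
  exact Integrable.fintype_prod (f := fun (_ : ι) (x : ℝ) => exp (c * |x|)) fun _ =>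
    integrable_exp_mul_abs (X := fun x => x) (integrable_exp_mul_gaussianReal c)
      (integrable_exp_mul_gaussianReal (-c))

theorem gp_mix (r : ι → Prop) [DecidablePred r] :
    MeasurePreserving (fun p : (ι → ℝ) × (ι → ℝ) => fun c => if r c then p.2 c else p.1 c)
      ((gp ι).prod (gp ι)) (gp ι) := by
  exact ibp0_mix r

theorem ibp0_ext {E S : Type} [NormedAddCommGroup E] [InnerProductSpace ℝ E]
    [FiniteDimensional ℝ E] (v v' : S → E)
    (h : ∀ s t, inner ℝ (v' s) (v' t) = inner ℝ (v s) (v t)) :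
    ∃ W : E ≃ₗᵢ[ℝ] E, ∀ s, W (v s) = v' s := by
  set T := Finsupp.linearCombination ℝ v with hT
  set T' := Finsupp.linearCombination ℝ v' with hT'
  have hn : ∀ x, ‖T' x‖ = ‖T x‖ := by
    intro x
    rw [← sq_eq_sq₀ (norm_nonneg _) (norm_nonneg _), ← real_inner_self_eq_norm_sq,
      ← real_inner_self_eq_norm_sq]
    simp only [hT, hT', Finsupp.linearCombination_apply, Finsupp.sum, sum_inner, inner_sum,
      real_inner_smul_left, real_inner_smul_right, h]
  have hk : LinearMap.ker T ≤ LinearMap.ker T' := fun x hx => by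
    rw [LinearMap.mem_ker, ← norm_eq_zero] at hx ⊢
    rw [hn, hx]
  set L : LinearMap.range T →ₗ[ℝ] E :=
    ((LinearMap.ker T).liftQ T' hk) ∘ₗ T.quotKerEquivRange.symm.toLinearMap with hL
  have hL1 : ∀ x, L ⟨T x, LinearMap.mem_range_self T x⟩ = T' x := fun x => by
    simp only [hL, LinearMap.comp_apply, LinearEquiv.coe_coe,
      LinearMap.quotKerEquivRange_symm_apply_image, Submodule.mkQ_apply, Submodule.liftQ_apply]
  let L' : LinearMap.range T →ₗᵢ[ℝ] E := ⟨L, by
    rintro ⟨_, x, rfl⟩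
    exact (congrArg norm (hL1 x)).trans (hn x)⟩
  refine ⟨L'.extend.toLinearIsometryEquiv rfl, fun s => ?_⟩
  have h1 := L'.extend_apply ⟨T (Finsupp.single s 1), LinearMap.mem_range_self T _⟩
  have h2 := hL1 (Finsupp.single s 1)
  have e1 : T (Finsupp.single s 1) = v s := by simp [hT]
  have e2 : T' (Finsupp.single s 1) = v' s := by simp [hT']
  rw [LinearIsometry.toLinearIsometryEquiv_apply, ← e1, ← e2, ← h2]
  exact h1

theorem gp_isometry {S : Type} (A A' : S → ι → ℝ) (h : ∀ σ σ', A' σ ⬝ᵥ A' σ' = A σ ⬝ᵥ A σ') :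
    ∃ U : (ι → ℝ) → ι → ℝ, MeasurePreserving U (gp ι) (gp ι) ∧
      ∀ σ g, A' σ ⬝ᵥ g = A σ ⬝ᵥ U g := by
  obtain ⟨W, hW⟩ := ibp0_ext (E := EuclideanSpace ℝ ι) (fun σ => WithLp.toLp 2 (A σ))
    (fun σ => WithLp.toLp 2 (A' σ)) fun s t => by rw [ibp0_inner, ibp0_inner, h]
  have hm : MeasurePreserving W.symm (stdGaussian (EuclideanSpace ℝ ι))
      (stdGaussian (EuclideanSpace ℝ ι)) :=
    ⟨W.symm.continuous.measurable, stdGaussian_map W.symm⟩
  refine ⟨_, (ibp0_of.comp hm).comp ibp0_to, fun σ g => ?_⟩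
  rw [← ibp0_inner, ← ibp0_inner, ← hW, LinearIsometryEquiv.inner_map_eq_flip]
  rfl

/-- rotation invariance of a pair of independent standard Gaussian vectors -/
theorem gp_rotate (θ : ℝ) :
    MeasurePreserving (fun p : (ι → ℝ) × (ι → ℝ) =>
        (sin θ • p.1 + cos θ • p.2, cos θ • p.1 - sin θ • p.2))
      ((gp ι).prod (gp ι)) ((gp ι).prod (gp ι)) := by
  have e : gp ι = (stdGaussian (EuclideanSpace ℝ ι)).map
      (EuclideanSpace.equiv ι ℝ).toContinuousLinearMap := ibp0_of.map_eq.symm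
  have hG : IsGaussian (gp ι) := by
    rw [e]
    infer_instance
  have h0 : ∀ L : StrongDual ℝ (ι → ℝ), (gp ι)[L] = 0 := fun L => by
    rw [e, integral_map (by fun_prop) (by fun_prop)]
    exact integral_strongDual_stdGaussian (L.comp (EuclideanSpace.equiv ι ℝ).toContinuousLinearMap)
  have h1 : MeasurePreserving (ContinuousLinearMap.rotation (E := ι → ℝ) (-θ))
      ((gp ι).prod (gp ι)) ((gp ι).prod (gp ι)) :=
    ⟨by fun_prop, IsGaussian.map_rotation_eq_self_of_forall_strongDual_eq_zero h0 _⟩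
  have h2 := (Measure.measurePreserving_swap (μ := gp ι) (ν := gp ι)).comp h1
  have e2 : (fun p : (ι → ℝ) × (ι → ℝ) => (sin θ • p.1 + cos θ • p.2, cos θ • p.1 - sin θ • p.2)) =
      Prod.swap ∘ ContinuousLinearMap.rotation (E := ι → ℝ) (-θ) := by
    funext p
    simp only [Function.comp, ContinuousLinearMap.rotation_apply, Prod.swap, sin_neg, cos_neg,
      neg_neg, neg_smul, sub_eq_add_neg]
  rw [e2]
  exact h2

end P157
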