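import Vale.Agent.P157.GIneq

/-! P157 GExp: second order expansion of `log ∫ exp D`.
Plan (`lZ_expand`): if `b ≥ 1/4` all terms are bounded by `2b + b²/2 ≤ 34 b³`. If `b ≤ 1/4`, put
`w = ∫ (exp D - 1)`; `|exp x - 1 - x - x²/2| ≤ |x|³` (`Real.exp_bound`), `|w| ≤ 2b ≤ 1/2`,
`|log (1+w) - w + w²/2| ≤ |w|³/(1-|w|)` (`Real.abs_log_sub_add_sum_range_le`), `|w² - (∫D)²| ≤ 3 b³`.
Model level: `FE_add_eq`, `A2_mul`.
-/

open MeasureTheory ProbabilityTheory Real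
open scoped BigOperators Matrix

namespace P157

variable {Ω S : Type} [MeasurableSpace Ω] [MeasurableSpace S] {P : Measure Ω}
  [IsProbabilityMeasure P] {μ : Measure S} [IsProbabilityMeasure μ]

variable {H D : Ω → S → ℝ}

private theorem gexp_int (G : Measure S) [IsProbabilityMeasure G] {f : S → ℝ} (hf : Measurable f)
    {c : ℝ} (hc : ∀ σ, |f σ| ≤ c) : Integrable f G :=
  Integrable.of_bound hf.aestronglyMeasurable c (Filter.Eventually.of_forall hc)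

private theorem gexp_abs (G : Measure S) [IsProbabilityMeasure G] {f : S → ℝ} {c : ℝ}
    (hc : ∀ σ, |f σ| ≤ c) : |∫ σ, f σ ∂G| ≤ c := by
  have := norm_integral_le_of_norm_le_const (μ := G) (f := f) (C := c)
    (Filter.Eventually.of_forall hc)
  simpa using this

private theorem gexp_basic (G : Measure S) [IsProbabilityMeasure G] {D : S → ℝ} (hD : Measurable D)
    {b : ℝ} (hb : ∀ σ, |D σ| ≤ b) : 0 ≤ b ∧ |lZ G D| ≤ b ∧ |∫ σ, D σ ∂G| ≤ b ∧
      |∫ σ, D σ ^ 2 ∂G - (∫ σ, D σ ∂G) ^ 2| ≤ b ^ 2 := by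
  have h1 := gexp_abs G hb
  have hb0 : 0 ≤ b := (abs_nonneg _).trans h1
  have hi : Integrable (fun σ => exp (D σ)) G :=
    gexp_int G hD.exp (c := exp b) fun σ => by
      rw [abs_of_pos (exp_pos _)]; exact exp_le_exp.2 (abs_le.1 (hb σ)).2
  have hlo : exp (-b) ≤ ∫ σ, exp (D σ) ∂G := by
    have := integral_mono (integrable_const (μ := G) (exp (-b))) hi
      fun σ => exp_le_exp.2 (abs_le.1 (hb σ)).1
    simpa using this
  have hhi : ∫ σ, exp (D σ) ∂G ≤ exp b := by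
    have := integral_mono hi (integrable_const (μ := G) (exp b))
      fun σ => exp_le_exp.2 (abs_le.1 (hb σ)).2
    simpa using this
  have hpos : 0 < ∫ σ, exp (D σ) ∂G := (exp_pos _).trans_le hlo
  have h2 : |∫ σ, D σ ^ 2 ∂G| ≤ b ^ 2 := gexp_abs G fun σ => by
    rw [abs_pow]; exact pow_le_pow_left₀ (abs_nonneg _) (hb σ) 2
  have h3 : 0 ≤ ∫ σ, D σ ^ 2 ∂G := integral_nonneg fun σ => sq_nonneg _
  have h4 : (∫ σ, D σ ∂G) ^ 2 ≤ b ^ 2 := by
    rw [← sq_abs]; exact pow_le_pow_left₀ (abs_nonneg _) h1 2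
  refine ⟨hb0, abs_le.2 ⟨?_, ?_⟩, h1, abs_le.2 ⟨?_, ?_⟩⟩
  · exact (le_log_iff_exp_le hpos).2 hlo
  · exact (log_le_iff_le_exp hpos).2 hhi
  · linarith
  · linarith [(abs_le.1 h2).2, sq_nonneg (∫ σ, D σ ∂G)]

theorem lZ_expand (G : Measure S) [IsProbabilityMeasure G] {D : S → ℝ} (hD : Measurable D)
    {b : ℝ} (hb : ∀ σ, |D σ| ≤ b) :
    |lZ G D - ∫ σ, D σ ∂G - (∫ σ, D σ ^ 2 ∂G - (∫ σ, D σ ∂G) ^ 2) / 2| ≤ 100 * b ^ 3 := by
  obtain ⟨hb0, h1, h2, h3⟩ := gexp_basic G hD hb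
  have hb3 : 0 ≤ b ^ 3 := by positivity
  by_cases hs : 1 / 4 ≤ b
  · have h4 : b ≤ 16 * b ^ 3 := by nlinarith [mul_le_mul hs hs (by norm_num) hb0]
    have h5 : b ^ 2 ≤ 4 * b ^ 3 := by nlinarith [sq_nonneg b]
    rw [abs_le] at h1 h2 h3 ⊢
    constructor <;> linarith [h1.1, h1.2, h2.1, h2.2, h3.1, h3.2]
  push Not at hs
  have hb1 : ∀ σ, |D σ| ≤ 1 := fun σ => (hb σ).trans (by linarith)
  have i1 : Integrable D G := gexp_int G hD hb
  have i2 : Integrable (fun σ => D σ ^ 2) G := gexp_int G (hD.pow_const 2) (c := b ^ 2) fun σ => by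
    rw [abs_pow]; exact pow_le_pow_left₀ (abs_nonneg _) (hb σ) 2
  have i3 : Integrable (fun σ => exp (D σ)) G :=
    gexp_int G hD.exp (c := exp b) fun σ => by
      rw [abs_of_pos (exp_pos _)]; exact exp_le_exp.2 (abs_le.1 (hb σ)).2
  set m₁ := ∫ σ, D σ ∂G with hm₁
  set m₂ := ∫ σ, D σ ^ 2 ∂G with hm₂
  set w := ∫ σ, exp (D σ) ∂G - 1 with hw
  have e0 : ∫ σ, (exp (D σ) - 1) ∂G = w := by
    rw [integral_sub i3 (integrable_const _)]; simp [hw]
  have i4 : Integrable (fun σ => exp (D σ) - 1) G := i3.sub (integrable_const _)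
  have e1 : ∫ σ, (exp (D σ) - 1 - D σ) ∂G = w - m₁ := by rw [integral_sub i4 i1, e0]
  have e2 : ∫ σ, (exp (D σ) - 1 - D σ - D σ ^ 2 / 2) ∂G = w - m₁ - m₂ / 2 := by
    have i5 : Integrable (fun σ => exp (D σ) - 1 - D σ) G := i4.sub i1
    rw [integral_sub i5 (i2.div_const 2), integral_div, e1]
  have a0 : |w| ≤ 2 * b := by
    rw [← e0]
    exact gexp_abs G fun σ => (abs_exp_sub_one_le (hb1 σ)).trans (by linarith [hb σ])
  have a1 : |w - m₁| ≤ b ^ 2 := by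
    rw [← e1]
    refine gexp_abs G fun σ => (abs_exp_sub_one_sub_id_le (hb1 σ)).trans ?_
    rw [← sq_abs]; exact pow_le_pow_left₀ (abs_nonneg _) (hb σ) 2
  have a2 : |w - m₁ - m₂ / 2| ≤ b ^ 3 := by
    rw [← e2]
    refine gexp_abs G fun σ => ?_
    have h := Real.exp_bound (hb1 σ) (n := 3) (by norm_num)
    simp only [Finset.sum_range_succ, Finset.sum_range_zero, Nat.factorial] at h
    norm_num at h
    have h6 : |D σ| ^ 3 ≤ b ^ 3 := pow_le_pow_left₀ (abs_nonneg _) (hb σ) 3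
    have e : exp (D σ) - 1 - D σ - D σ ^ 2 / 2 = exp (D σ) - (1 + D σ + D σ ^ 2 / 2) := by ring
    rw [e]
    have h7 : 0 ≤ |D σ| ^ 3 := by positivity
    linarith
  have a3 : |lZ G D - w + w ^ 2 / 2| ≤ 16 * b ^ 3 := by
    have h := abs_log_sub_add_sum_range_le (x := -w) (by rw [abs_neg]; linarith) 2
    simp only [Finset.sum_range_succ, Finset.sum_range_zero, abs_neg] at h
    have e : lZ G D = log (1 - -w) := by
      unfold lZ; congr 1; rw [hw]; ring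
    have e' : lZ G D - w + w ^ 2 / 2 =
        0 + (-w) ^ (0 + 1) / (((0 : ℕ) : ℝ) + 1) + (-w) ^ (1 + 1) / (((1 : ℕ) : ℝ) + 1) +
          log (1 - -w) := by
      rw [e]; push_cast; ring
    rw [e']
    refine h.trans ?_
    rw [div_le_iff₀ (by linarith)]
    have h6 : |w| ^ (2 + 1) ≤ (2 * b) ^ 3 := pow_le_pow_left₀ (abs_nonneg _) a0 3
    nlinarith
  have a4 : |w ^ 2 - m₁ ^ 2| ≤ 3 * b ^ 3 := by
    rw [sq_sub_sq, abs_mul]
    have h6 : |w + m₁| ≤ 3 * b := (abs_add_le _ _).trans (by linarith)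
    calc _ ≤ 3 * b * b ^ 2 := mul_le_mul h6 a1 (abs_nonneg _) (by linarith)
      _ = _ := by ring
  rw [abs_le] at a2 a3 a4 ⊢
  constructor <;> linarith [a2.1, a2.2, a3.1, a3.2, a4.1, a4.2]

theorem lZ_expand1 (G : Measure S) [IsProbabilityMeasure G] {D : S → ℝ} (hD : Measurable D)
    {b : ℝ} (hb : ∀ σ, |D σ| ≤ b) : |lZ G D - ∫ σ, D σ ∂G| ≤ 101 * b ^ 2 := by
  obtain ⟨hb0, h1, h2, h3⟩ := gexp_basic G hD hb
  have h4 := lZ_expand G hD hb
  rw [abs_le] at h1 h2 h3 h4 ⊢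
  by_cases hs : b ≤ 1
  · have : b ^ 3 ≤ b ^ 2 := by nlinarith [sq_nonneg b]
    constructor <;> nlinarith [h3.1, h3.2, h4.1, h4.2, sq_nonneg b]
  · push Not at hs
    constructor <;> nlinarith [h1.1, h1.2, h2.1, h2.2]

private theorem gexp_sec {d : ℝ} (hD : Bd1 D d) (ω : Ω) : Measurable (D ω) :=
  hD.meas.comp measurable_prodMk_left

private theorem gexp_lZ (h : Good P H) {d : ℝ} (hD : Bd1 D d) :
    Integrable (fun ω => lZ (μ.tilted (H ω)) (D ω)) P := by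
  have h1 := ((h.add hD.good).integrable_lZ (μ := μ)).sub (h.integrable_lZ (μ := μ))
  refine h1.congr (Filter.Eventually.of_forall fun ω => ?_)
  have := lZ_add (μ := μ) h ω (gexp_sec hD ω) (hD.bdd ω)
  simp only [Pi.sub_apply]
  linarith

theorem FE_expand (h : Good P H) {d : ℝ} (hD : Bd1 D d) :
    |FE P μ (fun ω σ => H ω σ + D ω σ) - FE P μ H - A1 P μ H D
      - (A1 P μ H (fun ω σ => D ω σ ^ 2) - A2 P μ H (fun ω σ σ' => D ω σ * D ω σ')) / 2|
      ≤ 100 * d ^ 3 := by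
  have hD2 : Good P fun ω σ => D ω σ ^ 2 := by
    simpa only [sq] using (hD.mul hD).good (P := P)
  have i0 := gexp_lZ (μ := μ) h hD
  have i1 := h.integrable_A1 (μ := μ) hD.good
  have i2 := h.integrable_A1 (μ := μ) hD2
  have i3 : Integrable (fun ω => (∫ σ, D ω σ ∂(μ.tilted (H ω))) *
      ∫ σ, D ω σ ∂(μ.tilted (H ω))) P := by
    refine i1.bdd_mul (c := d) i1.aestronglyMeasurable (Filter.Eventually.of_forall fun ω => ?_)
    have := h.isProb (μ := μ) ω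
    exact gexp_abs _ (hD.bdd ω)
  rw [FE_add_eq h hD.good, A2_mul]
  unfold A1
  have i4 : Integrable (fun ω => lZ (μ.tilted (H ω)) (D ω) - ∫ σ, D ω σ ∂(μ.tilted (H ω))) P :=
    i0.sub i1
  have i5 : Integrable (fun ω => ∫ σ, D ω σ ^ 2 ∂(μ.tilted (H ω)) -
      (∫ σ, D ω σ ∂(μ.tilted (H ω))) * ∫ σ, D ω σ ∂(μ.tilted (H ω))) P := i2.sub i3
  rw [← integral_sub i0 i1, ← integral_sub i2 i3, ← integral_div,
    ← integral_sub i4 (i5.div_const 2)]
  refine gexp_abs P fun ω => ?_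
  have := h.isProb (μ := μ) ω
  have h1 := lZ_expand (μ.tilted (H ω)) (gexp_sec hD ω) (hD.bdd ω)
  rw [sq (∫ σ, D ω σ ∂(μ.tilted (H ω)))] at h1
  exact h1

theorem FE_expand1 (h : Good P H) {d : ℝ} (hD : Bd1 D d) :
    |FE P μ (fun ω σ => H ω σ + D ω σ) - FE P μ H - A1 P μ H D| ≤ 101 * d ^ 2 := by
  have i0 := gexp_lZ (μ := μ) h hD
  have i1 := h.integrable_A1 (μ := μ) hD.good
  rw [FE_add_eq h hD.good]
  unfold A1
  rw [← integral_sub i0 i1]
  refine gexp_abs P fun ω => ?_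
  have := h.isProb (μ := μ) ω
  exact lZ_expand1 (μ.tilted (H ω)) (gexp_sec hD ω) (hD.bdd ω)

end P157
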