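import Vale.Agent.P157.RTilt
import Vale.Agent.P157.GExp

/-! P157 RExp: second order expansion of the recursion in a bounded perturbation.
Plan: define `V 0 j = 0`, `V (n+1) j y = ∫ V n (j+1) ∂W + m j (∫ (Tl n (j+1))² ∂W - (Tl (n+1) j y)²)`
(`W` the tilted measure of level `j` at `y`); `|V n j| ≤ n`. Induction on `n`:
`|Rec (X + x h) n j y - Rec X n j y - x Tl n j y - x²/2 V n j y| ≤ c n |x|³` uniformly in `y`
(replace the inner function by `Rec X + D`, `D = x Tl + x²/2 V`, with `abs_Rec_sub_le`/`Tm_mono`; then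
`Tm a (X+D) - Tm a X = a⁻¹ log ∫ exp (a D) ∂W` and `lZ_expand` with `b = a (1 + n) |x|`, `a ≤ 1`; the case
`a = 0` is linear). Finally identify `V (k+1) 0 0 = ∑_{i=1}^k m i (E2 i - E2 (i-1)) = E2 k - tail 0`
(e.g. prove `V n j y = ∑_{l<n} m (j+l) (Tl_{j..j+l}[(Tl h)²] - Tl_{j..j+l-1}[(Tl h)²])` using
`Tl_split`, then Abel summation with `m 0 = 0`, `m (k+1) = 1`).
-/

open MeasureTheory ProbabilityTheory Real
open scoped BigOperators Matrix

namespace P157

section aux

variable {Y : Type} [NormedAddCommGroup Y] [MeasurableSpace Y] [BorelSpace Y]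
  [SecondCountableTopology Y]

omit [NormedAddCommGroup Y] [BorelSpace Y] [SecondCountableTopology Y] in
private theorem rexp_int (G : Measure Y) [IsProbabilityMeasure G] {f : Y → ℝ} (hf : Measurable f)
    {c : ℝ} (hc : ∀ σ, |f σ| ≤ c) : Integrable f G :=
  Integrable.of_bound hf.aestronglyMeasurable c (Filter.Eventually.of_forall hc)

private theorem rexp_step {ν : Measure Y} (hν : ExpM ν) {R D : Y → ℝ} {C b a : ℝ} (hR : Env R C)
    (hD : Measurable D) (hb : ∀ y, |D y| ≤ b) (ha : 0 ≤ a) (ha1 : a ≤ 1) (y : Y) :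
    |Tm a ν (fun y => R y + D y) y - Tm a ν R y
      - ∫ η, D (y + η) ∂(ν.tilted fun η => a * R (y + η))
      - a / 2 * (∫ η, D (y + η) ^ 2 ∂(ν.tilted fun η => a * R (y + η))
        - (∫ η, D (y + η) ∂(ν.tilted fun η => a * R (y + η))) ^ 2)| ≤ 100 * b ^ 3 := by
  have := hν.prob
  have hb0 : 0 ≤ b := (abs_nonneg _).trans (hb y)
  have hDy : Measurable fun η => D (y + η) := hD.comp (measurable_const_add y)
  rcases ha.eq_or_lt with rfl | ha'
  · simp only [Tm, if_true, zero_mul, zero_div, tilted_const]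
    rw [integral_add (hR.integrable hν y) (rexp_int ν hDy fun η => hb _)]
    simp only [add_sub_cancel_left, sub_self, abs_zero]
    positivity
  · have hi := hR.integrable_exp hν a y
    have := isProbabilityMeasure_tilted hi
    have h1 := lZ_expand (ν.tilted fun η => a * R (y + η)) (hDy.const_mul a) (b := a * b)
      fun η => by
        rw [abs_mul, abs_of_pos ha']
        exact mul_le_mul_of_nonneg_left (hb _) ha
    have hZ := integral_exp_pos hi
    have h2 : ∫ η, exp (a * D (y + η)) ∂(ν.tilted fun η => a * R (y + η)) =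
        (∫ η, exp (a * (R (y + η) + D (y + η))) ∂ν) / ∫ η, exp (a * R (y + η)) ∂ν := by
      rw [integral_tilted, ← integral_div]
      refine integral_congr_ae (Filter.Eventually.of_forall fun η => ?_)
      simp only [smul_eq_mul, mul_add, exp_add]
      ring
    have h3 := integral_exp_pos ((hR.add (Env.of_bdd hD hb)).integrable_exp hν a y)
    simp only [lZ, h2, log_div h3.ne' hZ.ne', mul_pow, integral_const_mul] at h1
    simp only [Tm, if_neg ha'.ne']
    have h4 := mul_le_mul_of_nonneg_left h1 (inv_pos.2 ha').le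
    rw [← abs_of_pos (inv_pos.2 ha'), ← abs_mul, abs_of_pos (inv_pos.2 ha')] at h4
    refine (le_of_eq (congrArg abs ?_)).trans (h4.trans ?_)
    · field_simp
    · have h5 : a⁻¹ * (100 * (a ^ 3 * b ^ 3)) = a ^ 2 * (100 * b ^ 3) := by field_simp
      rw [h5]
      exact mul_le_of_le_one_left (by positivity) (pow_le_one₀ ha ha1)

private theorem rexp_sq {u v x n : ℝ} (hn : 0 ≤ n) (hx : |x| ≤ 1) (hu : |u| ≤ 1)
    (hv : |v| ≤ 2 * n) : |x * u + x ^ 2 / 2 * v| ≤ (1 + n) * |x| ∧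
      |(x * u + x ^ 2 / 2 * v) ^ 2 - x ^ 2 * u ^ 2| ≤ n * (n + 2) * |x| ^ 3 := by
  have h0 := abs_nonneg x
  have h1 : |x * u| ≤ |x| := (gb_mul le_rfl hu).trans_eq (mul_one _)
  have h2 : |x ^ 2 / 2 * v| ≤ n * |x| ^ 2 := by
    rw [abs_mul, abs_div, abs_pow, abs_two]
    nlinarith [mul_le_mul_of_nonneg_left hv (pow_nonneg h0 2)]
  have h3 : n * |x| ^ 2 ≤ n * |x| := mul_le_mul_of_nonneg_left (by nlinarith) hn
  have h4 : |x * u + x ^ 2 / 2 * v| ≤ (1 + n) * |x| := (gb_add h1 h2).trans (by linarith)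
  refine ⟨h4, ?_⟩
  have e : (x * u + x ^ 2 / 2 * v) ^ 2 - x ^ 2 * u ^ 2 =
      x ^ 2 / 2 * v * (x * u + x ^ 2 / 2 * v + x * u) := by ring
  rw [e]
  exact (gb_mul h2 (gb_add h4 h1)).trans_eq (by ring)

variable (m : ℕ → ℝ) (ρ : ℕ → Measure Y) (X h : Y → ℝ)

/-- two replicas that branch after `l` of the levels `j, ..., j+n-1` -/
private noncomputable def rG (n j l : ℕ) : Y → ℝ :=
  Tl m ρ (Rec m ρ X (n - l) (j + l)) (fun y => Tl m ρ X h (n - l) (j + l) y ^ 2) l j

/-- the second order term -/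
private noncomputable def rV (n j : ℕ) (y : Y) : ℝ :=
  ∑ l ∈ Finset.range n, m (j + l) * (rG m ρ X h n j (l + 1) y - rG m ρ X h n j l y)

variable {m ρ X h} {C : ℝ} {n j l : ℕ}

private theorem rG_succ (hl : l ≤ n) (y : Y) : rG m ρ X h (n + 1) j (l + 1) y =
    ∫ η, rG m ρ X h n (j + 1) l (y + η)
      ∂((ρ j).tilted fun η => m j * Rec m ρ X n (j + 1) (y + η)) := by
  have e := Rec_split (m := m) (ρ := ρ) (X := X) l (n - l) (j + 1)
  rw [Nat.add_sub_cancel' hl] at e
  rw [e]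
  simp only [rG, Nat.add_sub_add_right, show j + (l + 1) = j + 1 + l by omega]
  rfl

private theorem rG_bd (hX : Env X C) (hL : Lv m ρ n j) (hh : Measurable h) (hb : ∀ y, |h y| ≤ 1)
    (hl : l ≤ n) : Measurable (rG m ρ X h n j l) ∧ ∀ y, |rG m ρ X h n j l y| ≤ 1 := by
  have h1 : Lv m ρ (n - l) (j + l) := hL.mono (by omega) (by omega)
  have h2 : Lv m ρ l j := hL.mono le_rfl (by omega)
  refine ⟨Tl_meas (hX.recur h1) h2 ((Tl_meas hX h1 hh).pow_const 2),
    abs_Tl_le (hX.recur h1) h2 fun y => ?_⟩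
  rw [abs_pow]
  exact pow_le_one₀ (abs_nonneg _) (abs_Tl_le hX h1 hb y)

private theorem rV_bd (hX : Env X C) (hL : Lv m ρ n j) (hh : Measurable h) (hb : ∀ y, |h y| ≤ 1) :
    Measurable (rV m ρ X h n j) ∧ ∀ y, |rV m ρ X h n j y| ≤ 2 * n := by
  constructor
  · refine Finset.measurable_sum _ fun l hl => ?_
    have hl' := Finset.mem_range.1 hl
    exact ((rG_bd hX hL hh hb hl').1.sub (rG_bd hX hL hh hb hl'.le).1).const_mul _
  · intro y
    refine (Finset.abs_sum_le_sum_abs _ _).trans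
      ((Finset.sum_le_card_nsmul _ _ (1 * (1 + 1)) fun l hl => ?_).trans_eq ?_)
    · have hl' := Finset.mem_range.1 hl
      have h1 := hL (j + l) (by omega) (by omega)
      exact gb_mul (by rw [abs_of_nonneg h1.1]; exact h1.2.1)
        (gb_sub ((rG_bd hX hL hh hb hl').2 y) ((rG_bd hX hL hh hb hl'.le).2 y))
    · rw [Finset.card_range, nsmul_eq_mul]
      ring

private theorem rV_succ (hX : Env X C) (hL : Lv m ρ (n + 1) j) (hh : Measurable h)
    (hb : ∀ y, |h y| ≤ 1) (y : Y) : rV m ρ X h (n + 1) j y =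
    ∫ η, rV m ρ X h n (j + 1) (y + η)
      ∂((ρ j).tilted fun η => m j * Rec m ρ X n (j + 1) (y + η)) +
    m j * (∫ η, Tl m ρ X h n (j + 1) (y + η) ^ 2
      ∂((ρ j).tilted fun η => m j * Rec m ρ X n (j + 1) (y + η)) -
        Tl m ρ X h (n + 1) j y ^ 2) := by
  have hν := (hL j le_rfl (by omega)).2.2
  have := hν.prob
  have := isProbabilityMeasure_tilted ((hX.recur hL.tail).integrable_exp hν (m j) y)
  have hi : ∀ l, l ≤ n → Integrable (fun η => rG m ρ X h n (j + 1) l (y + η))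
      ((ρ j).tilted fun η => m j * Rec m ρ X n (j + 1) (y + η)) := fun l hl =>
    rexp_int _ ((rG_bd hX hL.tail hh hb hl).1.comp (measurable_const_add y))
      fun η => (rG_bd hX hL.tail hh hb hl).2 _
  rw [rV, Finset.sum_range_succ', rG_succ (Nat.zero_le n)]
  refine congrArg₂ (· + ·) ?_ rfl
  simp only [rV]
  rw [integral_finsetSum]
  swap
  · exact fun l hl => ((hi _ (Finset.mem_range.1 hl)).sub
      (hi _ (Finset.mem_range.1 hl).le)).const_mul _
  refine Finset.sum_congr rfl fun l hl => ?_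
  have hl' := Finset.mem_range.1 hl
  rw [integral_const_mul, integral_sub (hi _ hl') (hi _ hl'.le), rG_succ hl', rG_succ hl'.le,
    show j + (l + 1) = j + 1 + l by omega]

private theorem rexp_ind (hX : Env X C) (hh : Measurable h) (hb : ∀ y, |h y| ≤ 1) {x : ℝ}
    (hx : |x| ≤ 1) (n : ℕ) : ∀ j, Lv m ρ n j → ∀ y,
    |Rec m ρ (fun y => X y + x * h y) n j y - Rec m ρ X n j y - x * Tl m ρ X h n j y
      - x ^ 2 / 2 * rV m ρ X h n j y| ≤
      (∑ i ∈ Finset.range n, (100 * (1 + (i : ℝ)) ^ 3 + i * (i + 2))) * |x| ^ 3 := by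
  induction n with
  | zero =>
    intro j _ y
    simp [Rec, Tl, rV]
  | succ n ih =>
    intro j hL y
    obtain ⟨a0, a1, hν⟩ := hL j le_rfl (by omega)
    have := hν.prob
    have hR := hX.recur hL.tail
    have := isProbabilityMeasure_tilted (hR.integrable_exp hν (m j) y)
    have hT := Tl_meas hX hL.tail hh
    have hT' := abs_Tl_le hX hL.tail hb
    obtain ⟨hV, hV'⟩ := rV_bd hX hL.tail hh hb
    have hn : (0 : ℝ) ≤ n := Nat.cast_nonneg n
    have hD : Measurable fun y => x * Tl m ρ X h n (j + 1) y + x ^ 2 / 2 * rV m ρ X h n (j + 1) y :=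
      (hT.const_mul x).add (hV.const_mul _)
    have hD' := fun y => rexp_sq hn hx (hT' y) (hV' y)
    have h1 := rexp_step hν hR hD (fun y => (hD' y).1) a0 a1 y
    have h2 := abs_Rec_sub_le (m := m) (ρ := ρ) (n := 1) (j := j)
      ((hX.add ((Env.of_bdd hh hb).const_mul x)).recur hL.tail)
      (hR.add (Env.of_bdd hD fun y => (hD' y).1)) (hL.mono le_rfl (by omega))
      (fun z => (le_of_eq (congrArg abs (by ring))).trans (ih (j + 1) hL.tail z)) y
    have h3 := rV_succ hX hL hh hb y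
    change |Tm (m j) (ρ j) (Rec m ρ (fun y => X y + x * h y) n (j + 1)) y -
      Tm (m j) (ρ j) (fun y => Rec m ρ X n (j + 1) y + (x * Tl m ρ X h n (j + 1) y +
        x ^ 2 / 2 * rV m ρ X h n (j + 1) y)) y| ≤ _ at h2
    change |Tm (m j) (ρ j) _ y - Tm (m j) (ρ j) _ y - _ - _| ≤ _
    have h4 : Tl m ρ X h (n + 1) j y = ∫ η, Tl m ρ X h n (j + 1) (y + η)
      ∂((ρ j).tilted fun η => m j * Rec m ρ X n (j + 1) (y + η)) := rfl
    rw [h3, h4, Finset.sum_range_succ]
    generalize ((ρ j).tilted fun η => m j * Rec m ρ X n (j + 1) (y + η)) = W at *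
    have iT := rexp_int W (hT.comp (measurable_const_add y)) fun η => hT' _
    have iV := rexp_int W (hV.comp (measurable_const_add y)) fun η => hV' _
    have iT2 := rexp_int W ((hT.comp (measurable_const_add y)).pow_const 2) (c := 1) fun η => by
      rw [abs_pow]
      exact pow_le_one₀ (abs_nonneg _) (hT' _)
    have iD2 := rexp_int W ((hD.comp (measurable_const_add y)).pow_const 2)
      (c := ((1 + n) * |x|) ^ 2) fun η => by
      rw [abs_pow]
      exact pow_le_pow_left₀ (abs_nonneg _) (hD' _).1 2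
    simp only [Function.comp_def] at iT iV iT2 iD2
    have h5 := gb_int (μ := W) fun η => (hD' (y + η)).2
    rw [integral_sub iD2 (iT2.const_mul _), integral_const_mul] at h5
    have h6 := (rexp_sq hn hx (gb_int (μ := W) fun η => hT' (y + η))
      (gb_int (μ := W) fun η => hV' (y + η))).2
    rw [integral_add (iT.const_mul _) (iV.const_mul _), integral_const_mul, integral_const_mul,
      mul_pow] at h1
    have h7 := gb_mul (show |m j / 2| ≤ 1 / 2 by rw [abs_of_nonneg (by linarith)]; linarith)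
      (gb_sub h5 h6)
    refine (le_of_eq (congrArg abs ?_)).trans ((gb_add (gb_add h2 h1) h7).trans_eq ?_) <;> ring

end aux

theorem rec_expand (k : ℕ) : ∃ c : ℝ, 0 ≤ c ∧ ∀ {Y : Type} [NormedAddCommGroup Y] [MeasurableSpace Y]
    [BorelSpace Y] [SecondCountableTopology Y] {m : ℕ → ℝ} {ρ : ℕ → Measure Y} {X h : Y → ℝ} {C : ℝ}
    (_ : IsPartition k m) (_ : ∀ i, ExpM (ρ i)) (_ : Env X C) (_ : Measurable h)
    (_ : ∀ y, |h y| ≤ 1) (x : ℝ) (_ : |x| ≤ 1),
    |Rec m ρ (fun y => X y + x * h y) (k + 1) 0 0 - Rec m ρ X (k + 1) 0 0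
      - x * Tl m ρ X h (k + 1) 0 0
      - x ^ 2 / 2 * (E2 m ρ X h k k - tail k m (E2 m ρ X h k) 0)| ≤ c * |x| ^ 3 := by
  refine ⟨∑ i ∈ Finset.range (k + 1), (100 * (1 + (i : ℝ)) ^ 3 + i * (i + 2)), by positivity, ?_⟩
  intro Y _ _ _ _ m ρ X h C hm hρ hX hh hb x hx
  have h1 := rexp_ind hX hh hb hx (k + 1) 0 ((hm.lv hρ).mono le_rfl (by omega)) 0
  have h2 : ∀ i, E2 m ρ X h k i = rG m ρ X h (k + 1) 0 (i + 1) 0 := fun i => by
    simp only [E2, rG, Nat.add_sub_add_right, zero_add]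
  have h3 : rV m ρ X h (k + 1) 0 0 = E2 m ρ X h k k - tail k m (E2 m ρ X h k) 0 := by
    have h4 := Finset.sum_range_sub (fun i => m i * rG m ρ X h (k + 1) 0 i 0) (k + 1)
    rw [hm.1, hm.2.1, one_mul, zero_mul, sub_zero] at h4
    rw [eq_sub_iff_add_eq, tail, ← Nat.range_succ_eq_Icc_zero, rV, ← Finset.sum_add_distrib, h2,
      ← h4]
    refine Finset.sum_congr rfl fun i _ => ?_
    rw [h2, zero_add]
    ring
  rwa [h3] at h1

end P157
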