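import Vale.Agent.P157.ACcor
import Vale.Agent.P157.RExp
import Vale.Agent.P157.IBP0

/-! P157 R12: one- and two-replica averages in an approximate cascade.
Plan. Let `c` be the constant of `rec_expand k`, `h = φ / B`. One replica: compare
`FE (H₂ + x h) - FE H₂` (`FE_expand1`) with `Rec (X + x h) - Rec X` (`AC.two` twice, `rec_expand`);
choose `x` small, then `τ'`. Two replicas: third weight `w₃ = 1_{i = j}`, `ς y = if 0 ≤ y then 1 else -1`,
`X₃ ((y₁,y₂),y₃) = X (y₁,y₂) + x ς y₃ h (y₁,y₂)`. On the finite side use `FE_expand` on the product space,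
`A1_prod`, `A2_prod`, `tf_single` and `∫ ς(g a) = 0`, `∫ ς(g a) ς(g b) = 1_{a = b}`, `anc_eq_iff`, giving
`x²/2 (A1 h² - A2 (h h' ind j)) + O(x³)`. On the recursion side `rec_expand`, `Tl_prod`, `E2_prod` with
`X' = 0` on the third coordinate: `Tl ς = 0`, and `E2 ς k i = 1` for `j ≤ i`, `0` for `i < j`
(levels other than `j` are `gw 0 = dirac 0`). The one-replica statement for `h²` and `E2_last` cancel
the diagonal terms.
-/

open MeasureTheory ProbabilityTheory Real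
open scoped BigOperators Matrix

namespace P157

/-- the sign function with values `±1` -/
noncomputable def rsg (y : ℝ) : ℝ := if 0 ≤ y then 1 else -1

theorem rsg_meas : Measurable rsg :=
  Measurable.ite measurableSet_Ici measurable_const measurable_const

theorem rsg_abs (y : ℝ) : |rsg y| = 1 := by
  unfold rsg
  split_ifs
  · exact abs_one
  · rw [abs_neg, abs_one]

theorem rsg_sq (y : ℝ) : rsg y ^ 2 = 1 := by rw [← sq_abs, rsg_abs, one_pow]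

theorem rsg_integral : ∫ z, rsg z ∂(gaussianReal 0 1) = 0 := by
  have h1 : MeasurePreserving (fun z : ℝ => -z) (gaussianReal 0 1) (gaussianReal 0 1) :=
    ⟨measurable_neg, by rw [gaussianReal_map_neg, neg_zero]⟩
  have h2 := gc_map h1 rsg_meas
  have := nullSingletonClass_gaussianReal (μ := 0) (v := 1) one_ne_zero
  have h3 : ∫ z, rsg (-z) ∂(gaussianReal 0 1) = ∫ z, -rsg z ∂(gaussianReal 0 1) := by
    refine integral_congr_ae ?_
    filter_upwards [compl_mem_ae_iff.2 (measure_singleton (0 : ℝ))] with z hz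
    unfold rsg
    rcases lt_or_gt_of_ne (show z ≠ 0 from hz) with h | h
    · rw [if_pos (neg_nonneg.2 h.le), if_neg (not_le.2 h), neg_neg]
    · rw [if_neg (not_le.2 (neg_neg_of_pos h)), if_pos h.le]
  rw [integral_neg] at h3
  linarith

theorem rsg_gp {ι : Type} [Fintype ι] (a : ι) : ∫ g, rsg (g a) ∂(gp ι) = 0 :=
  (gc_map (measurePreserving_eval (fun _ : ι => gaussianReal 0 1) a) rsg_meas).trans rsg_integral

theorem rsg_gp2 {ι : Type} [Fintype ι] [DecidableEq ι] (a b : ι) :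
    ∫ g, rsg (g a) * rsg (g b) ∂(gp ι) = if a = b then 1 else 0 := by
  split_ifs with h
  · subst h
    simp only [← sq, rsg_sq, integral_const, probReal_univ, one_smul]
  · rw [ibp0_resample a (f := fun g => rsg (g a) * rsg (g b)) (Integrable.of_bound ((rsg_meas.comp (measurable_pi_apply a)).mul
      (rsg_meas.comp (measurable_pi_apply b))).aestronglyMeasurable 1
      (Filter.Eventually.of_forall fun g => by
        rw [Real.norm_eq_abs, abs_mul, rsg_abs, rsg_abs, one_mul]))]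
    simp only [Function.update_self, Function.update_of_ne (Ne.symm h), integral_mul_const,
      rsg_integral, zero_mul, integral_zero]

section
variable {k : ℕ} {m : ℕ → ℝ}

theorem r12_Tl (j : ℕ) (φ : ℝ → ℝ) (n : ℕ) : ∀ i,
    Lv m (fun l => gw (if l = j then 1 else 0)) n i → ∀ y,
    Tl m (fun l => gw (if l = j then 1 else 0)) (fun _ => 0) φ n i y =
      if i ≤ j ∧ j < i + n then ∫ η, φ (y + η) ∂(gaussianReal 0 1) else φ y := by
  induction n with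
  | zero => intro i _ y; rw [if_neg (by omega)]; rfl
  | succ n ih =>
    intro i hL y
    change ∫ η, Tl m (fun l => gw (if l = j then 1 else 0)) (fun _ => 0) φ n (i + 1) (y + η)
      ∂((gw (if i = j then 1 else 0)).tilted fun η => m i *
        Rec m (fun l => gw (if l = j then 1 else 0)) (fun _ => 0) n (i + 1) (y + η)) = _
    simp only [Rec_const hL.tail, tilted_const, ih _ hL.tail]
    by_cases h : i = j
    · have h1 : gw 1 = gaussianReal 0 1 := by rw [gw_eq, one_pow, toNNReal_one]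
      rw [if_pos h, h1, if_pos (by omega)]
      simp only [show ¬ (i + 1 ≤ j ∧ j < i + 1 + n) by omega, if_false]
    · rw [if_neg h, gw_zero, integral_dirac, add_zero]
      exact if_congr (by omega) rfl rfl

theorem r12_E2 (hk : IsPartition k m) {j i : ℕ} (hj : j ≤ k) (hi : i ≤ k) :
    E2 m (fun l => gw (if l = j then 1 else 0)) (fun _ => 0) rsg k i = if j ≤ i then 1 else 0 := by
  have hL := hk.lv fun l => expM_gw (if l = j then 1 else 0)
  have h1 : Rec m (fun l => gw (if l = j then 1 else 0)) (fun _ => 0) (k - i) (i + 1) =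
      fun _ => 0 := funext fun y => Rec_const (hL.mono (by omega) (by omega)) 0 y
  unfold E2
  rw [h1, r12_Tl j _ _ 0 (hL.mono le_rfl (by omega))]
  simp only [r12_Tl j rsg (k - i) (i + 1) (hL.mono (by omega) (by omega))]
  by_cases h : j ≤ i
  · rw [if_pos h, if_pos (by omega)]
    simp only [show ¬ (i + 1 ≤ j ∧ j < i + 1 + (k - i)) by omega, if_false, rsg_sq,
      integral_const, probReal_univ, one_smul]
  · rw [if_neg h, if_neg (by omega), if_pos (by omega)]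
    simp only [zero_add, rsg_integral]
    exact zero_pow two_ne_zero

theorem r12_tail (hk : IsPartition k m) {e : ℕ → ℝ} (he : ∀ i ≤ k, 0 ≤ e i ∧ e i ≤ 1) :
    |e k - tail k m e 0| ≤ 1 := by
  have h1 : ∀ i ∈ Finset.Icc 0 k, 0 ≤ m (i + 1) - m i := fun i hi =>
    sub_nonneg.2 (hk.2.2 i (Finset.mem_Icc.1 hi).2).le
  have h2 : 0 ≤ tail k m e 0 := Finset.sum_nonneg fun i hi =>
    mul_nonneg (h1 i hi) (he i (Finset.mem_Icc.1 hi).2).1
  have h3 : tail k m e 0 ≤ tail k m (fun _ => 1) 0 := Finset.sum_le_sum fun i hi =>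
    mul_le_mul_of_nonneg_left (he i (Finset.mem_Icc.1 hi).2).2 (h1 i hi)
  rw [tail_one hk (Nat.zero_le k), hk.1] at h3
  rw [abs_le]
  constructor <;> linarith [(he k le_rfl).1, (he k le_rfl).2]

theorem r12_env {Y : Type} [NormedAddCommGroup Y] [MeasurableSpace Y] [BorelSpace Y]
    [SecondCountableTopology Y] {X h : Y → ℝ} {B x : ℝ} (hX : Env X B) (hh : Measurable h)
    (hb : ∀ y, |h y| ≤ 1) (hx : |x| ≤ 1) : Env (fun y => X y + x * h y) (B + 2) :=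
  (hX.add ((Env.of_bdd hh hb).const_mul x)).mono (by linarith)

theorem r12_num1 {a b x c τ e F₁ F₂ F₀ R₁ R₂ : ℝ} (hx0 : 0 < x) (hx : x ≤ 1) (hc : 0 ≤ c)
    (h1 : |F₁ - F₀ - R₁| ≤ τ) (h2 : |F₂ - F₀ - R₂| ≤ τ) (h3 : |F₁ - F₂ - x * a| ≤ 101 * x ^ 2)
    (h4 : |R₁ - R₂ - x * b - x ^ 2 / 2 * e| ≤ c * x ^ 3) (h5 : |e| ≤ 1) :
    x ^ 2 * |a - b| ≤ 2 * τ + (102 + c) * x ^ 3 := by
  have hτ : 0 ≤ τ := (abs_nonneg _).trans h1
  have e1 : c * x ^ 3 ≤ c * x ^ 2 :=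
    mul_le_mul_of_nonneg_left (pow_le_pow_of_le_one hx0.le hx (by norm_num)) hc
  have e2 : |x ^ 2 / 2 * e| ≤ x ^ 2 := by
    rw [abs_mul, abs_of_nonneg (by positivity)]
    nlinarith [sq_nonneg x]
  have e3 : |x * (a - b)| ≤ 2 * τ + (102 + c) * x ^ 2 := by
    rw [abs_le] at *
    constructor <;> linarith [h1.1, h1.2, h2.1, h2.2, h3.1, h3.2, h4.1, h4.2, e2.1, e2.2]
  rw [abs_mul, abs_of_pos hx0] at e3
  have e4 := mul_le_mul_of_nonneg_left e3 hx0.le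
  have e5 := mul_le_of_le_one_left hτ hx
  linarith

theorem r12_num2 {a a' b b' x c τ F₁ F₂ F₀ R₁ R₂ : ℝ} (hx0 : 0 < x)
    (h1 : |F₁ - F₀ - R₁| ≤ τ) (h2 : |F₂ - F₀ - R₂| ≤ τ)
    (h3 : |F₁ - F₂ - 0 - (x ^ 2 * a - x ^ 2 * a') / 2| ≤ 100 * x ^ 3)
    (h4 : |R₁ - R₂ - x * 0 - x ^ 2 / 2 * (b - b')| ≤ c * x ^ 3)
    (h5 : x ^ 2 * |a - b| ≤ 2 * τ + (102 + c) * x ^ 3) :
    x ^ 2 * |a' - b'| ≤ 6 * τ + (302 + 3 * c) * x ^ 3 := by
  have hx2 : 0 < x ^ 2 := by positivity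
  rw [← abs_of_pos hx2, ← abs_mul] at h5 ⊢
  rw [abs_le] at *
  constructor <;> linarith [h1.1, h1.2, h2.1, h2.2, h3.1, h3.2, h4.1, h4.2, h5.1, h5.2]

variable {Ω S : Type} [MeasurableSpace Ω] [MeasurableSpace S] {P : Measure Ω}
  [IsProbabilityMeasure P] {μ : Measure S} [IsProbabilityMeasure μ] {H : Ω → S → ℝ} {L : ℕ}
  {lf : S → Leaf L k} {B τ c x : ℝ} {w₁ w₂ : ℕ → ℝ} {X h : ℝ × ℝ → ℝ}

/-- the conclusion of `rec_expand` -/
def RExpC (k : ℕ) (c : ℝ) : Prop :=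
  ∀ {Y : Type} [NormedAddCommGroup Y] [MeasurableSpace Y]
    [BorelSpace Y] [SecondCountableTopology Y] {m : ℕ → ℝ} {ρ : ℕ → Measure Y} {X h : Y → ℝ} {C : ℝ}
    (_ : IsPartition k m) (_ : ∀ i, ExpM (ρ i)) (_ : Env X C) (_ : Measurable h)
    (_ : ∀ y, |h y| ≤ 1) (x : ℝ) (_ : |x| ≤ 1),
    |Rec m ρ (fun y => X y + x * h y) (k + 1) 0 0 - Rec m ρ X (k + 1) 0 0
      - x * Tl m ρ X h (k + 1) 0 0
      - x ^ 2 / 2 * (E2 m ρ X h k k - tail k m (E2 m ρ X h k) 0)| ≤ c * |x| ^ 3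

omit [IsProbabilityMeasure P] in
theorem r12_bd (hlf : Measurable lf) (hh : Measurable h) (hb : ∀ y, |h y| ≤ 1) :
    Bd1 (fun (ω : (Ω × (Nd L k → ℝ)) × (Nd L k → ℝ)) σ =>
      h (tf w₁ ω.1.2 (lf σ), tf w₂ ω.2 (lf σ))) 1 :=
  ⟨hh.comp ((measurable_tf hlf w₁ (measurable_snd.comp measurable_fst)).prodMk
    (measurable_tf hlf w₂ measurable_snd)), fun _ _ => hb _⟩

theorem r12_one (hk : IsPartition k m) (hc0 : 0 ≤ c) (hc : RExpC k c) (hH : Good P H)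
    (hlf : Measurable lf) (hA : AC k m P μ H lf (B + 2) τ)
    (hw : ∀ j ≤ k, |w₁ j| ≤ B ∧ |w₂ j| ≤ B) (hX : Env X B) (hh : Measurable h)
    (hb : ∀ y, |h y| ≤ 1) (hx0 : 0 < x) (hx : x ≤ 1) :
    x ^ 2 * |A1 ((P.prod (gp (Nd L k))).prod (gp (Nd L k))) μ
          (fun ω σ => H ω.1.1 σ + X (tf w₁ ω.1.2 (lf σ), tf w₂ ω.2 (lf σ)))
          (fun ω σ => h (tf w₁ ω.1.2 (lf σ), tf w₂ ω.2 (lf σ)))
        - Tl m (r2 w₁ w₂) X h (k + 1) 0 0| ≤ 2 * τ + (102 + c) * x ^ 3 := by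
  have hx1 : |x| ≤ 1 := by rwa [abs_of_pos hx0]
  have hw' : ∀ j ≤ k, |w₁ j| ≤ B + 2 ∧ |w₂ j| ≤ B + 2 := fun j hj =>
    ⟨by linarith [(hw j hj).1], by linarith [(hw j hj).2]⟩
  have h1 := hA.two hk hH hlf hw' (r12_env hX hh hb hx1)
  have h2 := hA.two hk hH hlf hw' (hX.mono (by linarith))
  have h3 := FE_expand1 (μ := μ) (((hH.fst _).fst _).add (good_tf2 hlf hX w₁ w₂))
    ((r12_bd (w₁ := w₁) (w₂ := w₂) hlf hh hb).const_mul x)
  have h4 := hc hk (expM_r2 w₁ w₂) hX hh hb x hx1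
  have hL := (hk.lv (expM_r2 w₁ w₂)).mono (n' := k + 1) le_rfl (by omega)
  have h5 := r12_tail hk (e := E2 m (r2 w₁ w₂) X h k) fun i hi =>
    ⟨E2_nonneg, (E2_le hX hL hb hi).trans_eq (one_pow 2)⟩
  rw [A1_const_mul, mul_one, abs_of_pos hx0] at h3
  rw [abs_of_pos hx0] at h4
  simp only [← add_assoc] at h1
  exact r12_num1 hx0 hx hc0 h1 h2 h3 h4 h5

theorem r12_rec (hk : IsPartition k m) (hc : RExpC k c) (hX : Env X B) (hh : Measurable h)
    (hb : ∀ y, |h y| ≤ 1) (hx0 : 0 < x) (hx : x ≤ 1) {j : ℕ} (hj : j ≤ k) :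
    |Rec m (r3 w₁ w₂ fun l => if l = j then 1 else 0)
        (fun y => X y.1 + x * (h y.1 * rsg y.2)) (k + 1) 0 0 - Rec m (r2 w₁ w₂) X (k + 1) 0 0
      - x * 0 - x ^ 2 / 2 * (Tl m (r2 w₁ w₂) X (fun y => h y ^ 2) (k + 1) 0 0
        - tail k m (E2 m (r2 w₁ w₂) X h k) j)| ≤ c * x ^ 3 := by
  have hx1 : |x| ≤ 1 := by rwa [abs_of_pos hx0]
  have hL := (hk.lv (expM_r2 w₁ w₂)).mono (n' := k + 1) le_rfl (by omega)
  have hL' := (hk.lv fun l => expM_gw (if l = j then 1 else 0)).mono (n' := k + 1) le_rfl (by omega)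
  have h0 : Env (fun _ : ℝ => (0 : ℝ)) 0 := ⟨measurable_const, fun _ _ => by simp⟩
  have h1 := hc hk (expM_r3 w₁ w₂ fun l => if l = j then 1 else 0) (ac_env_fst hX)
    (h := fun y : (ℝ × ℝ) × ℝ => h y.1 * rsg y.2) ((hh.comp measurable_fst).mul (rsg_meas.comp measurable_snd))
    (fun y => by rw [abs_mul, rsg_abs, mul_one]; exact hb _) x hx1
  have h2 := Tl_prod (φ := h) (φ' := rsg) hX h0 hL hL' 0
  have h3 : ∀ i ≤ k, E2 m (r3 w₁ w₂ fun l => if l = j then 1 else 0) (fun y => X y.1)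
      (fun y => h y.1 * rsg y.2) k i = E2 m (r2 w₁ w₂) X h k i * if j ≤ i then 1 else 0 := by
    intro i hi
    have h4 := E2_prod (φ := h) (φ' := rsg) hX h0 hL hL' hi
    simp only [add_zero] at h4
    rw [← r12_E2 hk hj hi]
    exact h4
  rw [r12_Tl j rsg _ 0 hL', if_pos (by omega)] at h2
  simp only [add_zero, Prod.snd_zero, zero_add, rsg_integral, mul_zero] at h2
  have h4 : Tl m (r3 w₁ w₂ fun l => if l = j then 1 else 0) (fun y => X y.1)
      (fun y => h y.1 * rsg y.2) (k + 1) 0 0 = 0 := h2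
  have h5 : tail k m (E2 m (r3 w₁ w₂ fun l => if l = j then 1 else 0) (fun y => X y.1)
      (fun y => h y.1 * rsg y.2) k) 0 = tail k m (E2 m (r2 w₁ w₂) X h k) j := by
    have h6 := ac_tail_ind (k := k) (m := m) (E2 m (r2 w₁ w₂) X h k) 0 j
    rw [max_eq_right (Nat.zero_le j)] at h6
    rw [← h6]
    exact Finset.sum_congr rfl fun i hi => congrArg _ (h3 i (Finset.mem_Icc.1 hi).2)
  rw [h4, h5, h3 k le_rfl, if_pos hj, mul_one, E2_last, Rec_r3_fst hk hX, abs_of_pos hx0] at h1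
  exact h1

theorem r12_fin {K h : Ω → S → ℝ} (hK : Good P K) (hh : Bd1 h 1) (hlf : Measurable lf)
    (hx0 : 0 < x) {j : ℕ} (hj : j ≤ k) :
    |FE (P.prod (gp (Nd L k))) μ (fun ω σ => K ω.1 σ +
        x * (h ω.1 σ * rsg (tf (fun l => if l = j then 1 else 0) ω.2 (lf σ)))) - FE P μ K - 0
      - (x ^ 2 * A1 P μ K (fun ω σ => h ω σ ^ 2)
        - x ^ 2 * A2 P μ K (fun ω σ σ' => h ω σ * h ω σ' * ind j (lf σ) (lf σ'))) / 2|
      ≤ 100 * x ^ 3 := by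
  have h1 : Bd1 (fun (ω : Ω × (Nd L k → ℝ)) σ =>
      rsg (tf (fun l => if l = j then 1 else 0) ω.2 (lf σ))) 1 :=
    ⟨rsg_meas.comp (measurable_tf hlf _ measurable_snd), fun _ _ => (rsg_abs _).le⟩
  have h2 := ((hh.comp (e := fun ω : Ω × (Nd L k → ℝ) => ω.1) measurable_fst
    measurable_id).mul h1).const_mul x
  have h3 := FE_expand (μ := μ) (hK.fst (gp (Nd L k))) h2
  have h4 := A1_prod (μ := μ) (P' := gp (Nd L k)) hK h2.good
  have h5 := A2_prod (μ := μ) (P' := gp (Nd L k)) hK (h2.fst2.mul h2.snd2).good2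
  have h6 := A1_fst (μ := μ) (P' := gp (Nd L k)) hK (hh.mul hh).good
  rw [FE_fst hK, h4, h5, mul_one, mul_one, abs_of_pos hx0] at h3
  have e1 : ∀ a s : ℝ, (x * (a * rsg s)) ^ 2 = x ^ 2 * (a * a) := fun a s => by
    rw [mul_pow, mul_pow, rsg_sq, mul_one, sq a]
  have e2 : ∀ a b s t : ℝ, x * (a * s) * (x * (b * t)) = x ^ 2 * (a * b) * (s * t) :=
    fun a b s t => by ring
  have e3 : ∀ σ σ', (if anc (lf σ) j = anc (lf σ') j then (1 : ℝ) else 0) = ind j (lf σ) (lf σ') :=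
    fun σ σ' => if_congr (anc_eq_iff _ _ hj) rfl rfl
  simp only [id, e1, e2, tf_single j hj, one_mul, integral_const_mul, rsg_gp, rsg_gp2, mul_zero,
    e3, A1_const hK, A1_const_mul, h6] at h3
  simp only [mul_assoc (x ^ 2), A2_const_mul] at h3
  simp only [tf_single j hj, one_mul, sq (h _ _)]
  exact h3

theorem r12_two (hk : IsPartition k m) (hc0 : 0 ≤ c) (hc : RExpC k c) (hH : Good P H)
    (hlf : Measurable lf) (hA : AC k m P μ H lf (B + 2) τ) (hB : 0 ≤ B)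
    (hw : ∀ j ≤ k, |w₁ j| ≤ B ∧ |w₂ j| ≤ B) (hX : Env X B) (hh : Measurable h)
    (hb : ∀ y, |h y| ≤ 1) (hx0 : 0 < x) (hx : x ≤ 1) {j : ℕ} (hj : j ≤ k) :
    x ^ 2 * |A2 ((P.prod (gp (Nd L k))).prod (gp (Nd L k))) μ
          (fun ω σ => H ω.1.1 σ + X (tf w₁ ω.1.2 (lf σ), tf w₂ ω.2 (lf σ)))
          (fun ω σ σ' => h (tf w₁ ω.1.2 (lf σ), tf w₂ ω.2 (lf σ)) *
            h (tf w₁ ω.1.2 (lf σ'), tf w₂ ω.2 (lf σ')) * ind j (lf σ) (lf σ'))
        - tail k m (E2 m (r2 w₁ w₂) X h k) j| ≤ 6 * τ + (302 + 3 * c) * x ^ 3 := by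
  have hx1 : |x| ≤ 1 := by rwa [abs_of_pos hx0]
  have hw' : ∀ j ≤ k, |w₁ j| ≤ B + 2 ∧ |w₂ j| ≤ B + 2 := fun j hj =>
    ⟨by linarith [(hw j hj).1], by linarith [(hw j hj).2]⟩
  have h1 := hA w₁ w₂ (fun l => if l = j then 1 else 0) (fun y => X y.1 + x * (h y.1 * rsg y.2))
    (fun i hi => ⟨(hw' i hi).1, (hw' i hi).2, by
      split_ifs
      · rw [abs_one]; linarith
      · rw [abs_zero]; linarith⟩)
    (r12_env (ac_env_fst hX) ((hh.comp measurable_fst).mul (rsg_meas.comp measurable_snd))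
      (fun y => by rw [abs_mul, rsg_abs, mul_one]; exact hb _) hx1)
  have h2 := hA.two hk hH hlf hw' (hX.mono (by linarith))
  have h3 := r12_fin (μ := μ) (((hH.fst _).fst _).add (good_tf2 hlf hX w₁ w₂))
    (r12_bd (w₁ := w₁) (w₂ := w₂) hlf hh hb) hlf hx0 hj
  have h4 := r12_rec (w₁ := w₁) (w₂ := w₂) hk hc hX hh hb hx0 hx hj
  have h5 := r12_one hk hc0 hc hH hlf hA hw hX (hh.pow_const 2)
    (fun y => (abs_sq_le_of_bdd hb y).trans_eq (one_pow 2)) hx0 hx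
  simp only [← add_assoc] at h1
  exact r12_num2 hx0 h1 h2 h3 h4 h5

theorem r12_E2_mul {Y : Type} [NormedAddCommGroup Y] [MeasurableSpace Y] [BorelSpace Y]
    [SecondCountableTopology Y] {ρ : ℕ → Measure Y} {X h : Y → ℝ} (a : ℝ) (j : ℕ) :
    tail k m (E2 m ρ X (fun y => a * h y) k) j = a ^ 2 * tail k m (E2 m ρ X h k) j := by
  unfold tail
  rw [Finset.mul_sum]
  refine Finset.sum_congr rfl fun i _ => ?_
  unfold E2
  simp only [Tl_const_mul, mul_pow]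
  ring

end

theorem r12 {k : ℕ} {m : ℕ → ℝ} (hk : IsPartition k m) {B : ℝ} (hB : 1 ≤ B) {τ : ℝ} (hτ : 0 < τ) :
    ∃ τ' : ℝ, 0 < τ' ∧ ∀ {Ω S : Type} [MeasurableSpace Ω] [MeasurableSpace S] {P : Measure Ω}
      [IsProbabilityMeasure P] {μ : Measure S} [IsProbabilityMeasure μ] {H : Ω → S → ℝ}
      (_ : Good P H) {L : ℕ} {lf : S → Leaf L k} (_ : Measurable lf)
      (_ : AC k m P μ H lf (B + 2) τ') {w₁ w₂ : ℕ → ℝ} (_ : ∀ j ≤ k, |w₁ j| ≤ B ∧ |w₂ j| ≤ B)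
      {X φ : ℝ × ℝ → ℝ} (_ : Env X B) (_ : Measurable φ) (_ : ∀ y, |φ y| ≤ B),
      |A1 ((P.prod (gp (Nd L k))).prod (gp (Nd L k))) μ
          (fun ω σ => H ω.1.1 σ + X (tf w₁ ω.1.2 (lf σ), tf w₂ ω.2 (lf σ)))
          (fun ω σ => φ (tf w₁ ω.1.2 (lf σ), tf w₂ ω.2 (lf σ)))
        - Tl m (r2 w₁ w₂) X φ (k + 1) 0 0| ≤ τ ∧
      ∀ j ≤ k, |A2 ((P.prod (gp (Nd L k))).prod (gp (Nd L k))) μ
          (fun ω σ => H ω.1.1 σ + X (tf w₁ ω.1.2 (lf σ), tf w₂ ω.2 (lf σ)))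
          (fun ω σ σ' => φ (tf w₁ ω.1.2 (lf σ), tf w₂ ω.2 (lf σ)) *
            φ (tf w₁ ω.1.2 (lf σ'), tf w₂ ω.2 (lf σ')) * ind j (lf σ) (lf σ'))
        - tail k m (E2 m (r2 w₁ w₂) X φ k) j| ≤ τ := by
  obtain ⟨c, hc0, hc⟩ := rec_expand k
  have hB0 : 0 < B := by linarith
  obtain ⟨x, hx0, hx, hx2⟩ : ∃ x : ℝ, 0 < x ∧ x ≤ 1 ∧ B ^ 2 * (302 + 3 * c) * x ≤ τ / 2 := by
    refine ⟨min 1 (τ / 2 / (B ^ 2 * (302 + 3 * c))), lt_min one_pos (by positivity),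
      min_le_left _ _, ?_⟩
    rw [mul_comm, ← le_div_iff₀ (by positivity)]
    exact min_le_right _ _
  refine ⟨x ^ 2 * τ / (12 * B ^ 2), by positivity, ?_⟩
  intro Ω S _ _ P _ μ _ H hH L lf hlf hA w₁ w₂ hw X φ hX hφ hb
  obtain ⟨h, rfl⟩ : ∃ h : ℝ × ℝ → ℝ, φ = fun y => B * h y :=
    ⟨fun y => B⁻¹ * φ y, funext fun y => (mul_inv_cancel_left₀ hB0.ne' _).symm⟩
  have hh : Measurable h := by
    have h1 := hφ.const_mul B⁻¹
    simpa only [inv_mul_cancel_left₀ hB0.ne'] using h1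
  have hb' : ∀ y, |h y| ≤ 1 := fun y => by
    have h1 := hb y
    rwa [abs_mul, abs_of_pos hB0, mul_le_iff_le_one_right hB0] at h1
  have key : ∀ d : ℝ, x ^ 2 * d ≤ 6 * (x ^ 2 * τ / (12 * B ^ 2)) + (302 + 3 * c) * x ^ 3 →
      B ^ 2 * d ≤ τ := fun d hd => by
    refine le_of_mul_le_mul_left (a := x ^ 2) ?_ (by positivity)
    have h1 := mul_le_mul_of_nonneg_left hd (sq_nonneg B)
    have h2 : B ^ 2 * (6 * (x ^ 2 * τ / (12 * B ^ 2))) = x ^ 2 * τ / 2 := by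
      field_simp
      ring
    have h3 := mul_le_mul_of_nonneg_left hx2 (sq_nonneg x)
    linarith
  refine ⟨?_, fun j hj => ?_⟩
  · have h1 := r12_one hk hc0 hc hH hlf hA hw hX hh hb' hx0 hx
    have h2 := key _ (h1.trans (by
      have h3 : 0 ≤ x ^ 2 * τ / (12 * B ^ 2) := by positivity
      have h4 : 0 ≤ c * x ^ 3 := by positivity
      have h5 : 0 ≤ x ^ 3 := by positivity
      linarith))
    rw [A1_const_mul, Tl_const_mul, ← mul_sub, abs_mul, abs_of_pos hB0]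
    exact (mul_le_mul_of_nonneg_right (le_self_pow₀ hB two_ne_zero) (abs_nonneg _)).trans h2
  · have h2 := key _ (r12_two hk hc0 hc hH hlf hA hB0.le hw hX hh hb' hx0 hx hj)
    have e1 : ∀ a b s : ℝ, B * a * (B * b) * s = B ^ 2 * (a * b * s) := fun a b s => by ring
    simp only [e1]
    rw [A2_const_mul, r12_E2_mul, ← mul_sub, abs_mul, abs_of_nonneg (sq_nonneg B)]
    exact h2

theorem ac_ind {k : ℕ} {m : ℕ → ℝ} (hk : IsPartition k m) {τ : ℝ} (hτ : 0 < τ) :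
    ∃ τ' : ℝ, 0 < τ' ∧ ∀ {Ω S : Type} [MeasurableSpace Ω] [MeasurableSpace S] {P : Measure Ω}
      [IsProbabilityMeasure P] {μ : Measure S} [IsProbabilityMeasure μ] {H : Ω → S → ℝ}
      (_ : Good P H) {L : ℕ} {lf : S → Leaf L k} (_ : Measurable lf)
      (_ : AC k m P μ H lf 3 τ'),
      ∀ j ≤ k, |A2 P μ H (fun _ σ σ' => ind j (lf σ) (lf σ')) - (1 - m j)| ≤ τ := by
  obtain ⟨τ', h0, h1⟩ := r12 hk (le_refl 1) hτ
  refine ⟨τ', h0, ?_⟩
  intro Ω S _ _ P _ μ _ H hH L lf hlf hA j hj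
  have hX : Env (fun _ : ℝ × ℝ => (0 : ℝ)) 1 := ⟨measurable_const, fun _ _ => by
    rw [sub_self, abs_zero]
    positivity⟩
  have h2 := (h1 hH hlf (hA.mono (by norm_num) le_rfl) (w₁ := fun _ => 0) (w₂ := fun _ => 0)
    (fun _ _ => ⟨abs_zero.trans_le zero_le_one, abs_zero.trans_le zero_le_one⟩) hX
    (φ := fun _ => 1) measurable_const fun _ => abs_one.le).2 j hj
  have h3 : tail k m (E2 m (r2 (fun _ => 0) fun _ => 0) (fun _ => 0) (fun _ => 1) k) j = 1 - m j := by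
    rw [← tail_one hk hj]
    exact Finset.sum_congr rfl fun i hi => congrArg _ (E2_one hX
      ((hk.lv (expM_r2 _ _)).mono le_rfl (by omega)) (Finset.mem_Icc.1 hi).2)
  have h4 := A2_fst' (μ := μ) (P' := gp (Nd L k)) (hH.fst (gp (Nd L k))) (bd2_ind hlf j).good2
  have h5 := A2_fst' (μ := μ) (P' := gp (Nd L k)) hH (bd2_ind hlf j).good2
  simp only [add_zero, one_mul] at h2
  rw [h3, h4, h5] at h2
  exact h2

end P157
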