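import Vale.Agent.P157.SBasic
import Vale.Agent.P157.R12

/-! P157 SSync: touching implies synchronisation.
Plan. `touch_loc`: by `SW_jensen` and `Touch`, for admissible `y` near `x = b t`,
`(y - x) x (1 - c) ≤ 2 (y - 2s)² - 2 (x - 2s)²` with `0 ≤ 1 - c ≤ 2` (`bd2_ker`, `abs_A2_le_bd`).
`y = x + h` (if `x < 5s`): `0 ≤ h x (1-c) ≤ 4h(x-2s) + 2h²` forces `x ≥ 2s`; `y = x - h`:
`-h x (1-c) ≤ -4h(x-2s) + 2h²` gives `4(x-2s) ≤ 2x`, so `x ≤ 4s`.
`touch_sync`: take `n₀, ε'` from `sync_model k (ε/2)`; for `t = inl (a,j)` and `h = feat (single t 1)·g`,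
`SH (update b t (b t ± y)) = SH b ± y h` (`feat_update`), the second differences are `≤ 4 y²` by `Touch`
for `y ≤ s`; `conc_of_touch` with `u = θ' s`, then `gg_of_conc` (`feat_dot`) gives `GGa` with error
`(5 + 2v/u + 8u)/(2s) ≤ ε'` for `θ'` small, `θ ≪ θ' ε'`. `A2 1_{cj = j} = A2 (ind j) - A2 (ind (j+1))`
(for `j = k` just `ind k`) is at most `δ + 2τ` by `ac_ind`.
-/

open MeasureTheory ProbabilityTheory Real
open scoped BigOperators Matrix

namespace P157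

variable {S₀ : Type} [MeasurableSpace S₀] {N L k n₀ M : ℕ} {μ : Measure S₀}
  [IsProbabilityMeasure μ] {sp : S₀ → Fin N → ℝ} {f : ℝ → ℝ} {K : ℝ} {m : ℕ → ℝ} {b : TT n₀ k → ℝ}

theorem touch_loc (h : IsSp sp) (hN : 0 < N) (hL : 0 < L) (hf : Measurable f) (hK : ∀ y, |f y| ≤ K)
    {s : ℝ} (hs : 0 < s) (hT : Touch L k n₀ M f m μ sp b s) (x : Fin (n₀ + 1) × Fin (k + 1)) :
    2 * s ≤ b (.inl x) ∧ b (.inl x) ≤ 4 * s := by
  have := unif_prob hL k
  obtain ⟨h0, h5, hy⟩ := hT x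
  have hc : |SA2 L k n₀ M f m μ sp b fun _ c c' => ker (.inl x : TT n₀ k) (sp c.1) (sp c'.1) c.2 c'.2|
      ≤ 1 := abs_A2_le_bd (SH_good h hf hK) (bd2_ker h _)
  have key := fun y (a1 : 0 ≤ y) (a2 : y ≤ 5 * s) =>
    And.intro (SW_jensen (M := M) (m := m) (μ := μ) (b := b) h hN hL hf hK (.inl x) y) (hy y a1 a2)
  generalize (SA2 L k n₀ M f m μ sp b fun _ c c' =>
    ker (.inl x : TT n₀ k) (sp c.1) (sp c'.1) c.2 c'.2) = c at hc key
  obtain ⟨hc1, hc2⟩ := abs_le.1 hc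
  have key2 : ∀ y, 0 ≤ y → y ≤ 5 * s → (y - b (.inl x)) * (b (.inl x) * (1 - c)) ≤
      2 * (y - 2 * s) ^ 2 - 2 * (b (.inl x) - 2 * s) ^ 2 := fun y a1 a2 => by
    obtain ⟨a, a'⟩ := key y a1 a2
    linarith
  generalize b (.inl x) = z at h0 h5 key2
  constructor
  · by_contra hlt
    push Not at hlt
    have h1 := key2 (2 * s) (by linarith) (by linarith)
    have h2 : 0 ≤ (2 * s - z) * (z * (1 - c)) :=
      mul_nonneg (by linarith) (mul_nonneg h0 (by linarith))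
    have h3 : 0 < (2 * s - z) ^ 2 := by have : 0 < 2 * s - z := by linarith
                                        positivity
    nlinarith
  · by_contra hlt
    push Not at hlt
    have h1 := key2 (z - (z - 4 * s) / 2) (by linarith) (by linarith)
    have h2 : 0 ≤ (z - 4 * s) * (z * (1 + c)) :=
      mul_nonneg (by linarith) (mul_nonneg h0 (by linarith))
    have h3 : 0 < (z - 4 * s) ^ 2 := by have : 0 < z - 4 * s := by linarith
                                        positivity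
    nlinarith

theorem ss_upd (t : TT n₀ k) (y : ℝ) :
    SH (L := L) (M := M) f m sp (Function.update b t (b t + y)) = fun ω c =>
      SH f m sp b ω c + y * (feat (Pi.single t 1) (sp c.1) c.2 ⬝ᵥ ω.2) := by
  funext ω c
  unfold SH
  rw [feat_update, add_dotProduct, smul_dotProduct, smul_eq_mul]
  ring

theorem ss_second {s : ℝ} (hT : Touch L k n₀ M f m μ sp b s) (x : Fin (n₀ + 1) × Fin (k + 1))
    (h2 : 2 * s ≤ b (.inl x)) (h4 : b (.inl x) ≤ 4 * s) {y : ℝ} (hy0 : 0 ≤ y) (hy : y ≤ s) :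
    FE (SP L k n₀ N M m) (μ.prod (unif L k)) (fun ω c => SH f m sp b ω c +
        y * (feat (Pi.single (.inl x : TT n₀ k) 1) (sp c.1) c.2 ⬝ᵥ ω.2)) +
      FE (SP L k n₀ N M m) (μ.prod (unif L k)) (fun ω c => SH f m sp b ω c -
        y * (feat (Pi.single (.inl x : TT n₀ k) 1) (sp c.1) c.2 ⬝ᵥ ω.2)) -
      2 * FE (SP L k n₀ N M m) (μ.prod (unif L k)) (SH f m sp b) ≤ 4 * y ^ 2 := by
  obtain ⟨-, -, hy'⟩ := hT x
  have a1 := hy' (b (.inl x) + y) (by linarith) (by linarith)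
  have a2 := hy' (b (.inl x) + -y) (by linarith) (by linarith)
  unfold SW at a1 a2
  rw [ss_upd] at a1 a2
  simp only [neg_mul, ← sub_eq_add_neg] at a2
  nlinarith

theorem ss_dot (hN : 0 < N) (t : TT n₀ k) (b : TT n₀ k → ℝ) (x x' : Fin N → ℝ) (ω ω' : Leaf L k) :
    feat b x ω ⬝ᵥ feat (Pi.single t 1) x' ω' = b t * ker t x x' ω ω' := by
  rw [feat_dot hN, Finset.sum_eq_single t]
  · simp
  · intro u _ hu
    simp [Pi.single_eq_of_ne hu]
  · simp

theorem ss_gg_mono {Ω S : Type} [MeasurableSpace Ω] [MeasurableSpace S] {P : Measure Ω}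
    {ν : Measure S} {H : Ω → S → ℝ} {C : S → S → ℝ} {n : ℕ} {e e' : ℝ} (h : GGa P ν H C n e)
    (he : e ≤ e') : GGa P ν H C n e' := fun Φ h1 h2 => (h Φ h1 h2).trans he

theorem ss_num {η s x : ℝ} (hη : 0 < η) (hη1 : η ≤ 1) (hs : (η ^ 2)⁻¹ ≤ s) (hx : 2 * s ≤ x) :
    (5 + 2 * (η ^ 2 * s ^ 2) / (η * s) + 8 * (η * s)) / x ≤ 8 * η := by
  have h2 : 0 < η ^ 2 := by positivity
  have hs0 : 0 < s := lt_of_lt_of_le (inv_pos.2 h2) hs
  have h1 : 1 ≤ η ^ 2 * s := by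
    calc (1 : ℝ) = η ^ 2 * (η ^ 2)⁻¹ := (mul_inv_cancel₀ h2.ne').symm
      _ ≤ _ := mul_le_mul_of_nonneg_left hs h2.le
  have h3 : 1 ≤ η * s := by nlinarith [mul_nonneg (mul_nonneg hη.le hs0.le) (sub_nonneg.2 hη1)]
  have e : 2 * (η ^ 2 * s ^ 2) / (η * s) = 2 * (η * s) := by field_simp
  rw [e, div_le_iff₀ (by linarith)]
  nlinarith [mul_le_mul_of_nonneg_left hx hη.le]

theorem ss_gg (h : IsSp sp) (hN : 0 < N) (hL : 0 < L) (hf : Measurable f) (hK : ∀ y, |f y| ≤ K)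
    {s η : ℝ} (hη : 0 < η) (hη1 : η ≤ 1) (hs : (η ^ 2)⁻¹ ≤ s)
    (hF : ∀ b' : TT n₀ k → ℝ, (∀ t, |b' t| ≤ |b t| + s) →
        Fluct (SP L k n₀ N M m) (μ.prod (unif L k)) (SH f m sp b') ≤ η ^ 2 * s ^ 2)
    (hT : Touch L k n₀ M f m μ sp b s) (x : Fin (n₀ + 1) × Fin (k + 1)) (n : ℕ) :
    GGa (SP L k n₀ N M m) (μ.prod (unif L k)) (SH f m sp b)
      (fun c c' => ker (.inl x : TT n₀ k) (sp c.1) (sp c'.1) c.2 c'.2) n (8 * η) := by
  have := unif_prob hL k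
  have h2 : 0 < η ^ 2 := by positivity
  have hs1 : 1 ≤ s := le_trans ((one_le_inv₀ h2).2 (by nlinarith)) hs
  have hs0 : 0 < s := by linarith
  obtain ⟨l2, l4⟩ := touch_loc h hN hL hf hK hs0 hT x
  have hu : 0 < η * s := by positivity
  have hus : η * s ≤ s := by nlinarith
  have hg : Good (SP L k n₀ N M m) (fun ω (c : S₀ × Leaf L k) =>
      feat (Pi.single (.inl x : TT n₀ k) 1) (sp c.1) c.2 ⬝ᵥ ω.2) :=
    (feat_feat (Ω := (Nd L k → ℝ) × (Fin M → Fin N → ℝ)) h _).good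
  have s1 := ss_second hT x l2 l4 zero_le_one hs1
  simp only [one_mul, one_pow, mul_one] at s1
  have f1 := hF b fun t => by linarith
  have f2 := hF (Function.update b (.inl x) (b (.inl x) + η * s)) fun t => by
    by_cases ht : t = .inl x
    · subst ht
      rw [Function.update_self]
      refine (abs_add_le _ _).trans ?_
      rw [abs_of_pos hu]; linarith
    · rw [Function.update_of_ne ht]; linarith
  rw [ss_upd] at f2
  have hc := conc_of_touch (μ := μ.prod (unif L k)) (SH_good h hf hK) hg hu s1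
    (ss_second hT x l2 l4 hu.le hus) f1 f2
  have hone : ∀ c c' : S₀ × Leaf L k,
      feat (Pi.single (.inl x : TT n₀ k) 1) (sp c.1) c.2 ⬝ᵥ
        feat (Pi.single (.inl x : TT n₀ k) 1) (sp c'.1) c'.2 =
        ker (.inl x : TT n₀ k) (sp c.1) (sp c'.1) c.2 c'.2 := fun c c' => by
    rw [ss_dot hN]; simp
  have hG := gg_of_conc (μ := μ.prod (unif L k)) (SH0_good (L := L) (k := k) (M := M) (m := m) h hf hK)
    (feat_feat h b) (feat_feat h (Pi.single (.inl x : TT n₀ k) 1)) (b := b (.inl x)) (by linarith)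
    (fun c c' => by rw [ss_dot hN, dotProduct_comm, hone])
    (fun c => by rw [hone, ker_self h hN]) hc n
  simp only [hone] at hG
  exact ss_gg_mono hG (ss_num hη hη1 hs l2)

theorem ss_ind {j : ℕ} (ω ω' : Leaf L k) :
    (if cj ω ω' = j then (1 : ℝ) else 0) = ind j ω ω' - ind (j + 1) ω ω' := by
  unfold ind
  split_ifs <;> first | omega | norm_num

theorem touch_sync {k : ℕ} {m : ℕ → ℝ} (hk : IsPartition k m) {ε : ℝ} (hε : 0 < ε) :
    ∃ (n₀ : ℕ) (θ τ' : ℝ), 0 < θ ∧ 0 < τ' ∧ ∀ {S₀ : Type} [MeasurableSpace S₀] {N L M : ℕ}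
      {μ : Measure S₀} [IsProbabilityMeasure μ] {sp : S₀ → Fin N → ℝ} {f : ℝ → ℝ} {K : ℝ}
      (_ : IsSp sp) (_ : 0 < N) (_ : 0 < L) (_ : Measurable f) (_ : ∀ y, |f y| ≤ K)
      {b : TT n₀ k → ℝ} {s : ℝ} (_ : θ⁻¹ ≤ s)
      (_ : ∀ b' : TT n₀ k → ℝ, (∀ t, |b' t| ≤ |b t| + s) →
        Fluct (SP L k n₀ N M m) (μ.prod (unif L k)) (SH f m sp b') ≤ θ * s ^ 2)
      (_ : SAC L k n₀ M f m μ sp b 3 τ') (_ : Touch L k n₀ M f m μ sp b s) {δ : ℝ}
      (_ : Mesh k m δ), ∃ p, IsOv k p ∧ SSync L k n₀ M f m μ sp b p (2 * δ + ε) := by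
  obtain ⟨n₀, ε', hε', hS⟩ := sync_model k (half_pos hε)
  obtain ⟨τ', hτ', hA⟩ := ac_ind hk (τ := ε / 8) (by positivity)
  have hη : 0 < min 1 (ε' / 8) := lt_min one_pos (by positivity)
  refine ⟨n₀, min 1 (ε' / 8) ^ 2, τ', by positivity, hτ', ?_⟩
  intro S₀ _ N L M μ _ sp f K h hN hL hf hK b s hs hF hAC hT δ hδ
  have := unif_prob hL k
  have hH := SH_good (L := L) (M := M) (m := m) (b := b) h hf hK
  have hi := hA (μ := μ.prod (unif L k)) hH measurable_snd hAC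
  obtain ⟨p, hp, hsy⟩ := hS (μ := μ.prod (unif L k)) hH (h.fst (S' := Leaf L k)) measurable_snd
    (fun n _ a ha j hj => ss_gg_mono
      (ss_gg h hN hL hf hK hη (min_le_left _ _) hs hF hT
        (⟨a, Nat.lt_succ_of_le ha⟩, ⟨j, Nat.lt_succ_of_le hj⟩) n)
      (by have := min_le_right 1 (ε' / 8); linarith)) (δ + ε / 4) (fun j hj => by
      simp only [ss_ind]
      rw [A2_sub hH (bd2_ind measurable_snd j).good2 (bd2_ind measurable_snd (j + 1)).good2]
      have a1 := (abs_le.1 (hi j hj)).2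
      have a2 := hδ j hj
      rcases hj.lt_or_eq with hlt | rfl
      · have a3 := (abs_le.1 (hi (j + 1) hlt)).1
        linarith
      · have a3 : 0 ≤ A2 (SP L j n₀ N M m) (μ.prod (unif L j)) (SH f m sp b)
            (fun _ σ σ' => ind (j + 1) σ.2 σ'.2) :=
          A2_nonneg fun _ σ σ' => by unfold ind; split_ifs <;> norm_num
        have a4 := hk.2.1
        linarith)
  refine ⟨p, hp, ?_⟩
  have e : 2 * δ + ε = 2 * (δ + ε / 4) + ε / 2 := by ring
  rw [e]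
  exact hsy

end P157
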