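import Vale.Agent.P157.Incr
import Vale.Agent.P157.SSync
import Vale.Agent.P157.Box
import Vale.Agent.P157.Refine
import Vale.Agent.P157.QSync

/-! P157 Lower: the lower bound. For `N` in a window `[ε T, T]` maximise
`SW - penalty - (M - α N)²/(2A)` over the perturbation parameters and the number of patterns; the
increments in `N` of the maximum are bounded below by the cavity computations.
-/

open MeasureTheory ProbabilityTheory Real Filter
open scoped BigOperators Matrix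

namespace P157

theorem abstract_lower {β : Type} (W : ℕ → ℕ → β → ℝ) (D : Set β) {α K A c : ℝ} (hα : 0 < α)
    (hK0 : 0 ≤ K) (hA : 0 < A) {N₁ N₂ : ℕ} (h12 : N₁ ≤ N₂)
    (hmax : ∀ N, N₁ ≤ N → N ≤ N₂ → ∀ M, ∃ b ∈ D, ∀ b' ∈ D, W N M b' ≤ W N M b)
    (hK : ∀ N, N₁ ≤ N → N ≤ N₂ → ∀ M b, |W N (M + 1) b - W N M b| ≤ K)
    (hstep : ∀ N, N₁ ≤ N → N < N₂ → ∀ (M : ℕ), ∀ b ∈ D, (∀ b' ∈ D, W N M b' ≤ W N M b) →
      |(M : ℝ) - α * N| ≤ K * A + 1 / 2 →
      c ≤ α * (W N (M + 1) b - W N M b) + (W (N + 1) M b - W N M b))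
    {b₀ : β} (hb₀ : b₀ ∈ D) {M₀ : ℕ} (hM₀ : (M₀ : ℝ) ≤ α * N₁) :
    ∃ (M : ℕ), ∃ b ∈ D, W N₁ M₀ b₀ - (M₀ - α * N₁) ^ 2 / (2 * A)
      + ((N₂ : ℝ) - N₁) * (c - (α + α ^ 2) / (2 * A)) ≤ W N₂ M b - (M - α * N₂) ^ 2 / (2 * A) := by
  classical
  obtain ⟨Mx, hMx⟩ : ∃ Mx : ℕ, α * N₂ + K * A + 2 ≤ Mx := exists_nat_ge _
  have hex : ∀ N, N₁ ≤ N → N ≤ N₂ → ∃ M ≤ Mx, ∃ b ∈ D, ∀ M' ≤ Mx, ∀ b' ∈ D,
      W N M' b' - (M' - α * N) ^ 2 / (2 * A) ≤ W N M b - (M - α * N) ^ 2 / (2 * A) := by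
    intro N h1 h2
    choose bm hbm hm using hmax N h1 h2
    obtain ⟨M, hM, hM'⟩ := Finset.exists_max_image (Finset.range (Mx + 1))
      (fun M : ℕ => W N M (bm M) - (M - α * N) ^ 2 / (2 * A)) ⟨0, by simp⟩
    refine ⟨M, Nat.lt_succ_iff.1 (Finset.mem_range.1 hM), bm M, hbm M, fun M' h' b' hb' => ?_⟩
    have h3 := hM' M' (Finset.mem_range.2 (Nat.lt_succ_of_le h'))
    have h4 := hm M' b' hb'
    linarith
  have key : ∀ d : ℕ, N₁ + d ≤ N₂ → ∃ M ≤ Mx, ∃ b ∈ D, W N₁ M₀ b₀ - (M₀ - α * N₁) ^ 2 / (2 * A)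
      + d * (c - (α + α ^ 2) / (2 * A)) ≤
      W (N₁ + d) M b - (M - α * ((N₁ + d : ℕ) : ℝ)) ^ 2 / (2 * A) := by
    intro d
    induction d with
    | zero =>
      intro _
      refine ⟨M₀, ?_, b₀, hb₀, by simp⟩
      have h1 : (N₁ : ℝ) ≤ N₂ := by exact_mod_cast h12
      have h2 : (M₀ : ℝ) ≤ Mx := by nlinarith [mul_nonneg hK0 hA.le]
      exact_mod_cast h2
    | succ d ih =>
      intro hd
      obtain ⟨M₁, hM₁, b₁, hb₁, h₁⟩ := ih (by omega)
      obtain ⟨N, hN⟩ : ∃ N, N = N₁ + d := ⟨_, rfl⟩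
      rw [← add_assoc, ← hN]
      rw [← hN] at h₁
      have hN1 : N₁ ≤ N := by omega
      have hN2 : N < N₂ := by omega
      have hN3 : (N : ℝ) ≤ N₂ := by exact_mod_cast hN2.le
      obtain ⟨M, hM, b, hb, hopt⟩ := hex N hN1 hN2.le
      have hA2 : 0 < 2 * A := by linarith
      have hup : (M : ℝ) - α * N ≤ K * A + 1 / 2 := by
        rcases M with _ | M
        · have : 0 ≤ α * N := by positivity
          have := mul_nonneg hK0 hA.le
          simp only [Nat.cast_zero]; linarith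
        · have h1 := hopt M (by omega) b hb
          have h2 := (abs_le.1 (hK N hN1 hN2.le M b)).2
          have h3 : (((M + 1 : ℕ) : ℝ) - α * N) ^ 2 / (2 * A) - ((M : ℝ) - α * N) ^ 2 / (2 * A)
              ≤ K := by linarith
          rw [← sub_div, div_le_iff₀ hA2] at h3
          push_cast at h3 ⊢
          nlinarith
      have hM1 : M + 1 ≤ Mx := by
        have : ((M + 1 : ℕ) : ℝ) ≤ Mx := by
          push_cast; nlinarith [mul_le_mul_of_nonneg_left hN3 hα.le]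
        exact_mod_cast this
      have h4 : W N (M + 1) b - W N M b ≤ (2 * ((M : ℝ) - α * N) + 1) / (2 * A) := by
        have h1 := hopt (M + 1) hM1 b hb
        have e : (2 * ((M : ℝ) - α * N) + 1) / (2 * A) =
            (((M + 1 : ℕ) : ℝ) - α * N) ^ 2 / (2 * A) - ((M : ℝ) - α * N) ^ 2 / (2 * A) := by
          push_cast; ring
        rw [e]; linarith
      have hlo : -(K * A + 1 / 2) ≤ (M : ℝ) - α * N := by
        have h2 := (abs_le.1 (hK N hN1 hN2.le M b)).1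
        have h3 := h2.trans h4
        rw [le_div_iff₀ hA2] at h3
        linarith
      have h5 := hstep N hN1 hN2 M b hb (fun b' hb' => by
        have := hopt M hM b' hb'; linarith) (abs_le.2 ⟨hlo, hup⟩)
      refine ⟨M, hM, b, hb, ?_⟩
      have h6 := hopt M₁ hM₁ b₁ hb₁
      have h7 := mul_le_mul_of_nonneg_left h4 hα.le
      have e : ((M : ℝ) - α * ((N + 1 : ℕ) : ℝ)) ^ 2 / (2 * A) = ((M : ℝ) - α * N) ^ 2 / (2 * A)
          - α * ((2 * ((M : ℝ) - α * N) + 1) / (2 * A)) + (α + α ^ 2) / (2 * A) := by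
        push_cast; ring
      rw [e]
      push_cast
      linarith
  obtain ⟨M, -, b, hb, h⟩ := key (N₂ - N₁) (by omega)
  rw [Nat.add_sub_cancel' h12, Nat.cast_sub h12] at h
  exact ⟨M, b, hb, h⟩

theorem low_final {T N₁ e E₀ E₂ V c K α lam lam' nX Mf M P : ℝ} (hT : 0 < T) (hK : 0 ≤ K)
    (hl : 0 < lam') (hα : 0 ≤ α) (he : 0 ≤ e)
    (hN : N₁ ≤ e * T + 1) (hN0 : 0 ≤ N₁) (hM : |Mf - α * T| ≤ 1) (hc : V - c = P)
    (h : E₀ - 1 / (2 * (lam' * T)) + (T - N₁) * c ≤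
      E₂ + nX * (25 * (lam * T)) + K * |M - Mf| - (M - α * T) ^ 2 / (2 * (lam' * T)))
    (h0 : -(α * N₁ * K) - nX * (4 * (lam * T)) ≤ E₀) :
    (V - P) * T - (e * T + 1) * (|c| + α * K) - 29 * nX * lam * T - K ^ 2 * lam' / 2 * T
      - 1 / (2 * (lam' * T)) - K ≤ E₂ := by
  have hA : 0 < 2 * (lam' * T) := by positivity
  have h1 : |M - Mf| ≤ |M - α * T| + 1 := by
    have := abs_sub_le M (α * T) Mf
    rw [abs_sub_comm (α * T)] at this
    linarith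
  have h2 : K * |M - α * T| - (M - α * T) ^ 2 / (2 * (lam' * T)) ≤ K ^ 2 * lam' / 2 * T := by
    rw [← sq_abs (M - α * T), sub_le_comm, le_div_iff₀ hA]
    nlinarith [sq_nonneg (|M - α * T| - K * (lam' * T))]
  have h3 := mul_le_mul_of_nonneg_left h1 hK
  have h4 : N₁ * c ≤ (e * T + 1) * |c| :=
    (mul_le_mul_of_nonneg_left (le_abs_self c) hN0).trans
      (mul_le_mul_of_nonneg_right hN (abs_nonneg c))
  have h5 := mul_le_mul_of_nonneg_right hN (mul_nonneg hα hK)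
  have h6 : c = V - P := by linarith
  rw [← h6]
  linarith

theorem lower {μ : ∀ N, Measure (Fin N → ℝ)} {sp : ∀ N, (Fin N → ℝ) → Fin N → ℝ} (hF : Fam μ sp)
    {f : ℝ → ℝ} {K : ℝ} (hf : NiceK f K) {α : ℝ} (hα : 0 < α) {V : ℝ}
    (hV : LBH μ sp α f ((α + 1) * K ^ 2) V) {ε : ℝ} (hε : 0 < ε) :
    ∀ᶠ N : ℕ in Filter.atTop, V - ε ≤ EZ (μ N) (sp N) f ⌊α * N⌋₊ / N := by
  have hK0 : 0 < K := zero_lt_one.trans_le hf.one_le
  have hfm := hf.meas
  have hfK := hf.c0.b0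
  obtain ⟨ε₁, hε₁⟩ : ∃ ε₁ : ℝ, ε₁ = ε / (5 * (3 + α)) := ⟨_, rfl⟩
  have hε₁0 : 0 < ε₁ := by rw [hε₁]; positivity
  have hε₁1 : (3 + α) * ε₁ = ε / 5 := by rw [hε₁]; field_simp
  obtain ⟨B, u, x₀, t, τ, δL, νξ, hB, hu, huB, hx, hx1, ht, hτ, hδL, hExt, hLB⟩ := hV ε₁ hε₁0
  obtain ⟨η, B', τ₀, lamI, hη, hτ₀, hlamI, hinc⟩ :=
    incr hf (α + 1) hB hu huB hx hx1 (lt_min hτ hε₁0)
  obtain ⟨k, m, hk1, hk, hm⟩ := exists_fine (lt_min hδL (by positivity : 0 < η / 3))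
  obtain ⟨τ₂, N₀, hτ₂, hinc⟩ := hinc hk
  obtain ⟨n₀, θ, τ₁, hθ, hτ₁, hts⟩ := touch_sync hk (by positivity : 0 < η / 3)
  obtain ⟨NE, hNE⟩ := eventually_atTop.1 (hExt τ₀ hτ₀)
  obtain ⟨nX, hnX⟩ : ∃ nX : ℝ, nX = (n₀ + 1) * (k + 1) := ⟨_, rfl⟩
  have hnX0 : 0 < nX := by rw [hnX]; positivity
  obtain ⟨c, hc⟩ : ∃ c : ℝ, c = V - (3 + α) * ε₁ := ⟨_, rfl⟩
  -- the window
  obtain ⟨e, he0, he1, he2⟩ : ∃ e : ℝ, 0 < e ∧ e ≤ 1 ∧ e * (|c| + α * K) ≤ ε / 5 := by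
    have h0 : 0 < |c| + α * K := by positivity
    refine ⟨min 1 (ε / 5 / (|c| + α * K)), by positivity, min_le_left _ _, ?_⟩
    rw [← le_div_iff₀ h0]; exact min_le_right _ _
  obtain ⟨lam, hlam0, hlam1, hlam2⟩ : ∃ lam : ℝ, 0 < lam ∧ 29 * nX * lam ≤ ε / 5 ∧
      nX * 25 * n₀ * lam ≤ lamI * e := by
    refine ⟨min (ε / 5 / (29 * nX)) (lamI * e / (nX * 25 * (n₀ + 1))), by positivity, ?_, ?_⟩
    · rw [mul_comm, ← le_div_iff₀ (by positivity)]; exact min_le_left _ _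
    · have h1 : min (ε / 5 / (29 * nX)) (lamI * e / (nX * 25 * (n₀ + 1))) * (nX * 25 * (n₀ + 1))
          ≤ lamI * e := by
        rw [← le_div_iff₀ (by positivity)]; exact min_le_right _ _
      have h2 : 0 < min (ε / 5 / (29 * nX)) (lamI * e / (nX * 25 * (n₀ + 1))) := by positivity
      nlinarith [mul_pos h2 hnX0]
  obtain ⟨lam', hl0, hl1, hl2, hl3⟩ : ∃ lam' : ℝ, 0 < lam' ∧ K ^ 2 * lam' / 2 ≤ ε / 5 ∧
      K * lam' ≤ e / 2 ∧ K * lam' ≤ α * e / 2 := by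
    refine ⟨min (ε / 5 / K ^ 2) (min (e / 2 / K) (α * e / 2 / K)), by positivity, ?_, ?_, ?_⟩
    · have h1 : min (ε / 5 / K ^ 2) (min (e / 2 / K) (α * e / 2 / K)) * K ^ 2 ≤ ε / 5 := by
        rw [← le_div_iff₀ (by positivity)]; exact min_le_left _ _
      linarith
    · rw [mul_comm, ← le_div_iff₀ hK0]; exact (min_le_right _ _).trans (min_le_left _ _)
    · rw [mul_comm, ← le_div_iff₀ hK0]; exact (min_le_right _ _).trans (min_le_right _ _)
  filter_upwards [eventually_gt_atTop 0, ev_lin (θ⁻¹ ^ 2) hlam0,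
    fluct_box hk n₀ (a := α + 1) (c := 6 * √lam) hK0.le (by positivity) (mul_pos hθ hlam0),
    ev_lin (N₀ + NE + 1) he0, ev_lin (5 / 2) (by positivity : 0 < α * e / 2),
    ev_lin ((α + α ^ 2) / 2) (mul_pos hε₁0 hl0), ev_lin (1 / 2) hl0,
    ev_lin (|c| + α * K + 1 + K) (by positivity : 0 < ε / 5)]
    with T hT hθT hFl hTe hTα hTA hTl hTε
  have hT' : (0 : ℝ) < T := by exact_mod_cast hT
  obtain ⟨s, hs⟩ : ∃ s : ℝ, s = √lam * √(T : ℝ) := ⟨_, rfl⟩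
  have hs0 : 0 ≤ s := by rw [hs]; positivity
  have hs2 : s ^ 2 = lam * T := by rw [hs, mul_pow, Real.sq_sqrt hlam0.le, Real.sq_sqrt hT'.le]
  have hθs : θ⁻¹ ≤ s := by
    rw [← hs2] at hθT
    exact (pow_le_pow_iff_left₀ (by positivity) hs0 two_ne_zero).1 hθT
  obtain ⟨L, hL, hAC₁, hAC₂⟩ := ((eventually_gt_atTop 0).and
    ((S_ac_ev hk n₀ hF hfm hfK T 3 (5 * s + 0) hτ₁).and
      (S_ac_ev hk n₀ hF hfm hfK T B' (5 * s + 0 + 1) hτ₂))).exists
  obtain ⟨N₁, hN₁⟩ : ∃ N₁ : ℕ, N₁ = ⌈e * T⌉₊ := ⟨_, rfl⟩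
  have hN₁a : e * T ≤ N₁ := hN₁ ▸ Nat.le_ceil _
  have hN₁b : (N₁ : ℝ) ≤ e * T + 1 := hN₁ ▸ (Nat.ceil_lt_add_one (by positivity)).le
  have hN₁c : N₁ ≤ T := hN₁ ▸ Nat.ceil_le.2 (by nlinarith)
  have hN₁d : N₀ + NE + 1 ≤ N₁ := by exact_mod_cast hTe.trans hN₁a
  have hA : 0 < lam' * T := by positivity
  obtain ⟨M, b, hb, hfin⟩ := abstract_lower
    (fun N M b => Ob L k n₀ M f m (μ N) (sp N) s (fun _ => 0) b) (box n₀ k s 0 0)
    (c := V - (2 + α) * ε₁) hα hK0.le hA hN₁c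
    (fun N h1 _ M => by
      have := hF.prob N
      exact exists_max_box (hF.isSp N) (by omega) hL hfm hfK hs0 le_rfl _)
    (fun N _ _ M b => by
      have := hF.prob N
      simp only [Ob, add_sub_add_right_eq_sub]
      exact abs_SW_succ_sub (hF.isSp N) hL hfm hfK)
    (fun N h1 h2 M b hb hmax hM => by
      have := hF.prob N
      have hsp := hF.isSp N
      have hN : 0 < N := by omega
      have hNe : e * T ≤ N := hN₁a.trans (by exact_mod_cast h1)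
      have hNT : (N : ℝ) ≤ T := by exact_mod_cast h2.le
      have hNe1 : (1 : ℝ) ≤ e * T := le_trans (by
        have : (0 : ℝ) ≤ N₀ + NE := by positivity
        linarith) hTe
      obtain ⟨hM1, hM2⟩ := abs_le.1 hM
      have hM3 : (M : ℝ) ≤ (α + 1) * N := by
        linarith only [hM2, mul_le_mul_of_nonneg_right hl2 hT'.le, hNe, hNe1]
      have hM4 : (2 : ℝ) ≤ M := by
        linarith only [hM1, mul_le_mul_of_nonneg_right hl3 hT'.le,
          mul_le_mul_of_nonneg_left hNe hα.le, hTα]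
      obtain ⟨M', rfl⟩ : ∃ M', M = M' + 2 :=
        ⟨M - 2, (Nat.sub_add_cancel (by exact_mod_cast hM4)).symm⟩
      have hbabs := box_abs hb le_rfl hs0
      obtain ⟨p, hp, hsync⟩ := hts (M := M' + 2) (μ := μ N) hsp hN hL hfm hfK (b := b) hθs
        (fun b' hb' => by
          rw [hs2, ← mul_assoc]
          refine hFl hsp hN hL hfm hfK b'
            (hM3.trans (mul_le_mul_of_nonneg_left hNT (by positivity))) fun t => (hb' t).trans ?_
          have := hbabs t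
          rw [mul_assoc, ← hs]; linarith)
        (hAC₁ N hN h2.le _ _ hbabs) (touch_of_max hb hmax) hm
      have hsync' : SSync L k n₀ (M' + 2) f m (μ N) (sp N) b p η :=
        le_trans hsync (by linarith only [min_le_right δL (η / 3), hη])
      obtain ⟨ν, εf, ξ, hSD, hE⟩ := hNE N (by omega)
      obtain ⟨hE1, hE2, hE3⟩ := hE L k n₀ (M' + 2) m b hL hk
      have hb0 : ∀ j, b (.inr j) = 0 := fun j =>
        le_antisymm ((mem_box.1 hb).2 j).2 ((mem_box.1 hb).2 j).1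
      have hdeg : ∑ t, b t ^ 2 * deg t ≤ lamI * N := by
        rw [Fintype.sum_sum_type]
        simp only [hb0, ne_eq, OfNat.ofNat_ne_zero, not_false_eq_true, zero_pow, zero_mul,
          Finset.sum_const_zero, add_zero]
        have h3 : ∑ x, b (.inl x) ^ 2 * (deg (.inl x : TT n₀ k) : ℝ) ≤ ∑ x, b (.inl x) ^ 2 * n₀ :=
          Finset.sum_le_sum fun x _ => mul_le_mul_of_nonneg_left
            (by exact_mod_cast Nat.lt_succ_iff.1 x.1.2) (sq_nonneg _)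
        rw [← Finset.sum_mul] at h3
        have h4 := mul_le_mul_of_nonneg_right (box_sq hb) (Nat.cast_nonneg n₀ : (0 : ℝ) ≤ n₀)
        rw [← hnX, hs2] at h4
        linarith only [h3, h4, mul_le_mul_of_nonneg_right hlam2 hT'.le,
          mul_le_mul_of_nonneg_left hNe hlamI.le]
      obtain ⟨hF1, hF2, hF3⟩ := hinc N (by omega) (L := L) (M := M') (μ := μ N) hsp hL hM3 hb0 hdeg hp
        hsync' (fun M'' b' hb' => hAC₂ N hN h2.le _ _ fun t => (hb' t).trans (by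
          linarith only [hbabs t])) hSD hE2 hE3
      obtain ⟨hr1, hr2⟩ := rr_isPath (N := N) (M := M' + 2) hk hf p hM3
      rw [abs_of_pos (by positivity)] at hr2
      have h5 := hLB k m p _ hk1 hk (fun j hj => (hm j hj).trans (min_le_left _ _)) hp hr1 hr2
        (hF1.mono (min_le_left _ _))
      simp only [Ob, add_sub_add_right_eq_sub]
      have h6 := mul_le_mul_of_nonneg_left hF3 hα.le
      have h7 := mul_le_mul_of_nonneg_left (min_le_right τ ε₁) hα.le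
      linarith only [h5, h6, h7, hF2, hE1, min_le_right τ ε₁])
    (center_mem hs0 le_rfl) (M₀ := ⌊α * N₁⌋₊) (Nat.floor_le (by positivity))
  have := hF.prob T
  have := hF.prob N₁
  have hN₁0 : 0 < N₁ := by omega
  have hfl : ∀ x : ℝ, 0 ≤ x → |(⌊x⌋₊ : ℝ) - x| ≤ 1 := fun x hx =>
    abs_le.2 ⟨by linarith [Nat.lt_floor_add_one x], by linarith [Nat.floor_le hx]⟩
  have h1 := Ob_center (L := L) (n₀ := n₀) (M := ⌊α * N₁⌋₊) (m := m) (μ := μ N₁) (hF.isSp N₁) hN₁0 hL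
    hfm hfK s 0 (c := fun _ : Fin (k + 1) => 0) (c₀ := 0) (fun _ => by simp)
  have h2 := abs_EZ_le (μ := μ N₁) (M := ⌊α * N₁⌋₊) (hF.isSp N₁) hfm hfK
  have h3 := mul_le_mul_of_nonneg_right (Nat.floor_le (by positivity : 0 ≤ α * N₁)) hK0.le
  have h4 : ((⌊α * N₁⌋₊ : ℝ) - α * N₁) ^ 2 / (2 * (lam' * T)) ≤ 1 / (2 * (lam' * T)) := by
    refine div_le_div_of_nonneg_right ?_ (by positivity)
    rw [← sq_abs]
    exact pow_le_one₀ (abs_nonneg _) (hfl _ (by positivity))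
  have h5 : Ob L k n₀ M f m (μ T) (sp T) s (fun _ => 0) b ≤ cL L k m + EZ (μ T) (sp T) f ⌊α * T⌋₊
      + nX * (25 * (lam * T)) + K * |(M : ℝ) - ⌊α * T⌋₊| := by
    have g1 := abs_SW_sub_pat (L := L) (m := m) (μ := μ T) (b := b) (hF.isSp T) hL hfm hfK M ⌊α * T⌋₊
    have g2 := SW_le_inr (L := L) (M := ⌊α * T⌋₊) (m := m) (μ := μ T) (hF.isSp T) hT hL hfm hfK b
    have g3 : (Sum.elim (fun _ => 0) fun j => b (.inr j) : TT n₀ k → ℝ) = 0 := by
      funext t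
      rcases t with x | j
      · rfl
      · exact le_antisymm ((mem_box.1 hb).2 j).2 ((mem_box.1 hb).2 j).1
    rw [g3, SW_zero (hF.isSp T) hL hfm hfK] at g2
    have g4 := box_sq hb
    rw [← hnX, hs2] at g4
    have g5 : 0 ≤ ∑ x, 2 * (b (.inl x) - 2 * s) ^ 2 := Finset.sum_nonneg fun x _ => by positivity
    unfold Ob
    rw [pen_sum]
    simp only [zero_mul, Finset.sum_const_zero, add_zero]
    linarith only [g2, g4, g5, (abs_le.1 g1).2]
  have h6 : (α + α ^ 2) / (2 * (lam' * T)) ≤ ε₁ := by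
    rw [div_le_iff₀ (by positivity)]; linarith only [hTA]
  have h7 : ((T : ℝ) - N₁) * c ≤ (T - N₁) * (V - (2 + α) * ε₁ - (α + α ^ 2) / (2 * (lam' * T))) :=
    mul_le_mul_of_nonneg_left (by rw [hc]; linarith only [h6])
      (sub_nonneg.2 (by exact_mod_cast hN₁c))
  rw [← hnX, hs2] at h1
  have h8 := low_final (E₀ := EZ (μ N₁) (sp N₁) f ⌊α * N₁⌋₊ - nX * (4 * (lam * T)))
    (E₂ := EZ (μ T) (sp T) f ⌊α * T⌋₊) (V := V) (c := c) (P := ε / 5) (lam := lam) (nX := nX)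
    (M := M) hT' hK0.le hl0 hα.le he0.le hN₁b (Nat.cast_nonneg _) (hfl _ (by positivity))
    (by rw [hc, ← hε₁1]; ring)
    (by simp only [ne_eq, OfNat.ofNat_ne_zero, not_false_eq_true, zero_pow, mul_zero,
          sub_zero] at h1
        linarith only [hfin, h1, h4, h5, h7])
    (by linarith only [h3, (abs_le.1 h2).1])
  have h9 : 1 / (2 * (lam' * T)) ≤ 1 := by
    rw [div_le_one (by positivity)]; linarith only [hTl]
  rw [le_div_iff₀ hT']
  linarith only [h8, h9, hTε, mul_le_mul_of_nonneg_right he2 hT'.le,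
    mul_le_mul_of_nonneg_right hlam1 hT'.le, mul_le_mul_of_nonneg_right hl1 hT'.le]

end P157
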