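import Vale.Agent.P157.Upper
import Vale.Agent.P157.Lower
import Vale.Agent.P157.IAn

/-! P157 Approx: assembling the two bounds, and passing from smooth to bounded Borel potentials.
Plan. `tendsto_nice`: `tendsto_order.2`/`Metric.tendsto_atTop`; lower bound by `lower`; for the upper
bound pick an element of `values` below `sInf + ε` (`exists_lt_of_csInf_lt`, `values_nonempty`), refine
it with `href` for the `δ` of `upper`. `tendsto_general`: approximate `f` by `exists_nice`;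
`EZ_lip` (with `⌊αN⌋ ≤ αN`) and `energy_lip` (which moves every element of `values`, hence `sInf`, by at
most `α exp (2(K+1)) ε`).
-/

open MeasureTheory ProbabilityTheory Real
open scoped BigOperators Matrix

namespace P157


variable {μ : ∀ N, Measure (Fin N → ℝ)} {sp : ∀ N, (Fin N → ℝ) → Fin N → ℝ}
  {ent : ℕ → (ℕ → ℝ) → (ℕ → ℝ) → ℝ} {α : ℝ}

theorem tendsto_nice (hF : Fam μ sp) (hα : 0 < α) {f : ℝ → ℝ} {K : ℝ} (hf : NiceK f K)
    (href : ∀ k m p, IsPartition k m → IsPath k p → p k < 1 → ∀ δ > (0 : ℝ),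
      ∃ k' m' p', 1 ≤ k' ∧ IsPartition k' m' ∧ Mesh k' m' δ ∧ IsPath k' p' ∧ p' k' ≤ 1 ∧
        energy f k' m' p' = energy f k m p ∧ InitB μ sp k' m' p' (ent k m p))
    (hlb : LBH μ sp α f ((α + 1) * K ^ 2) (sInf (values ent α f))) :
    Filter.Tendsto (fun N : ℕ => EZ (μ N) (sp N) f ⌊α * N⌋₊ / N) Filter.atTop
      (nhds (sInf (values ent α f))) := by
  refine tendsto_order.2 ⟨fun a ha => ?_, fun a ha => ?_⟩
  · filter_upwards [lower hF hf hα hlb (half_pos (sub_pos.2 ha))] with N hN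
    linarith
  · obtain ⟨v, ⟨k, m, p, hk, hp, hp1, rfl⟩, hv⟩ := exists_lt_of_csInf_lt (values_nonempty ent α f) ha
    obtain ⟨δ, hδ, hU⟩ := upper hF hf hα (half_pos (sub_pos.2 hv))
    obtain ⟨k', m', p', h1, h2, h3, h4, h5, h6, h7⟩ := href k m p hk hp hp1 δ hδ
    filter_upwards [hU k' m' p' _ h1 h2 h3 h4 h5 h7] with N hN
    rw [h6] at hN
    linarith

theorem approx_inf (hα : 0 < α)
    (hent : ∀ k m p, IsPartition k m → IsPath k p → p k < 1 → 0 ≤ ent k m p) {f g : ℝ → ℝ}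
    (hf : Measurable f) (hg : Measurable g) {K : ℝ} (hK : ∀ y, |f y| ≤ K) (hK' : ∀ y, |g y| ≤ K) :
    sInf (values ent α f) ≤ sInf (values ent α g) +
      α * (exp (2 * K) * ∫ y, |f y - g y| ∂(gaussianReal 0 1)) := by
  rw [← sub_le_iff_le_add]
  refine le_csInf (values_nonempty ent α g) ?_
  rintro _ ⟨k, m, p, hk, hp, hp1, rfl⟩
  have h1 := csInf_le (values_bddBelow hent hα hf hK) ⟨k, m, p, hk, hp, hp1, rfl⟩
  have h2 := mul_le_mul_of_nonneg_left (abs_le.1 (energy_lip hk hp hp1.le hf hK hg hK')).2 hα.le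
  linarith

theorem tendsto_general (hF : Fam μ sp) (hα : 0 < α)
    (hent : ∀ k m p, IsPartition k m → IsPath k p → p k < 1 → 0 ≤ ent k m p)
    (h : ∀ f, Nice f → Filter.Tendsto (fun N : ℕ => EZ (μ N) (sp N) f ⌊α * N⌋₊ / N) Filter.atTop
      (nhds (sInf (values ent α f)))) {f : ℝ → ℝ} (hf : Measurable f) {K : ℝ} (hK : ∀ y, |f y| ≤ K) :
    Filter.Tendsto (fun N : ℕ => EZ (μ N) (sp N) f ⌊α * N⌋₊ / N) Filter.atTop
      (nhds (sInf (values ent α f))) := by
  refine Metric.tendsto_nhds.2 fun ε hε => ?_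
  have hc : 0 < α * exp (2 * (K + 1)) := mul_pos hα (exp_pos _)
  obtain ⟨g, hg, hgK, hfg⟩ := exists_nice hf hK (div_pos (div_pos hε three_pos) hc)
  have hgm : Measurable g := hg.1.continuous.measurable
  have hK1 : ∀ y, |f y| ≤ K + 1 := fun y => (hK y).trans (le_add_of_nonneg_right zero_le_one)
  have h0 : α * (exp (2 * (K + 1)) * ∫ y, |f y - g y| ∂(gaussianReal 0 1)) ≤ ε / 3 := by
    rw [← mul_assoc, mul_comm]
    exact (le_div_iff₀ hc).1 hfg
  have h1 := approx_inf hα hent hf hgm hK1 hgK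
  have h2 := approx_inf hα hent hgm hf hgK hK1
  simp only [abs_sub_comm (g _)] at h2
  filter_upwards [Metric.tendsto_nhds.1 (h g hg) _ (div_pos hε three_pos),
    Filter.eventually_gt_atTop 0] with N hN hN0
  have := hF.prob N
  have h3 := EZ_lip (μ := μ N) (M := ⌊α * N⌋₊) (hF.isSp N) hN0 hf hK1 hgm hgK
  have hN' : (0 : ℝ) < N := Nat.cast_pos.2 hN0
  have h4 : |EZ (μ N) (sp N) f ⌊α * N⌋₊ / N - EZ (μ N) (sp N) g ⌊α * N⌋₊ / N| ≤ ε / 3 := by
    rw [← sub_div, abs_div, abs_of_pos hN', div_le_iff₀ hN']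
    refine h3.trans ((mul_le_mul_of_nonneg_right (Nat.floor_le (mul_pos hα hN').le)
      (mul_nonneg (exp_pos _).le (integral_nonneg fun _ => abs_nonneg _))).trans ?_)
    rw [mul_right_comm]
    exact mul_le_mul_of_nonneg_right h0 hN'.le
  rw [Real.dist_eq, abs_lt] at hN ⊢
  rw [abs_le] at h4
  constructor <;> linarith [hN.1, hN.2, h4.1, h4.2]

end P157
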