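import Vale.Agent.P157.Ultra

/-! P157 Comono: synchronisation of the spin overlap `R` with the tree overlap `J` in the limit.
Plan. On `ArrC k` the array `J` is `PSD` (it is `∑_{1 ≤ j ≤ k} 1_{j ≤ J}` and each `1_{j ≤ J}` is an
equivalence relation by ultrametricity: `∑ c c' 1_{~} = ∑_{classes} (∑ c)²`; or prove `PSD` of an
equivalence-relation kernel by `∑_i c_i² ... ` via the class representative function), so `R + J` is
`PSD`; `arr_ultra` applies to `R` and to `R + J` (and to permuted triples by `Exch`).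
Comonotonicity: if `Λ {R₀₁ ≤ a, J₀₁ = j} ≠ 0`, `Λ {R₀₁ ≥ a', J₀₁ = j'} ≠ 0`, `a < a'`, `j' < j`, then
`GGset` with `n = 1` gives positive probability to `(R₀₁,J₀₁) ∈ B₁, (R₀₂,J₀₂) ∈ B₂`; there
`J₁₂ = j'`, `R₁₂ ≤ R₀₁`, so `(R+J)₁₂ < min ((R+J)₀₁, (R+J)₀₂)`, contradiction. Define
`p j = sInf {t ∈ [0,1] | Λ {R₀₁ > t, J₀₁ ≤ j} = 0}`; then a.s. `p (J-1) ≤ R ≤ p J` (with `p (-1) = 0` by
`arr_pos`), so `∫ |R - p J| ≤ ∑_j Λ{J = j} (p j - p (j-1)) ≤ δ`.
-/

open MeasureTheory ProbabilityTheory Real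
open scoped BigOperators Matrix

namespace P157


theorem psd_equiv {r : ℕ → ℕ → Prop} [DecidableRel r] (h1 : ∀ i, r i i) (h2 : ∀ i j, r i j → r j i)
    (h3 : ∀ a b c, r a c → r b c → r a b) (n : ℕ) (c : ℕ → ℝ) :
    0 ≤ ∑ i ∈ Finset.range n, ∑ j ∈ Finset.range n, c i * c j * (if r i j then 1 else 0) := by
  classical
  let ρ : ℕ → ℕ := fun i => Nat.find (⟨i, h1 i⟩ : ∃ j, r j i)
  have hρ : ∀ i, r (ρ i) i := fun i => Nat.find_spec (⟨i, h1 i⟩ : ∃ j, r j i)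
  have hρ' : ∀ i j, r j i → ρ i ≤ j := fun i j h => Nat.find_min' _ h
  have hiff : ∀ i j, r i j ↔ ρ i = ρ j := fun i j => by
    refine ⟨fun h => le_antisymm (hρ' _ _ (h3 _ _ _ (hρ j) h))
      (hρ' _ _ (h3 _ _ _ (hρ i) (h2 _ _ h))), fun h => ?_⟩
    exact h3 _ _ (ρ i) (h2 _ _ (hρ i)) (h2 _ _ (h ▸ hρ j))
  have key : ∑ i ∈ Finset.range n, ∑ j ∈ Finset.range n, c i * c j * (if r i j then 1 else 0) =
      ∑ m ∈ Finset.range n, (∑ i ∈ Finset.range n, if ρ i = m then c i else 0) ^ 2 := by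
    simp only [sq, Finset.sum_mul_sum]
    rw [Finset.sum_comm (s := Finset.range n)
      (f := fun m i => ∑ j ∈ Finset.range n, (if ρ i = m then c i else 0) * if ρ j = m then c j else 0)]
    refine Finset.sum_congr rfl fun i hi => ?_
    rw [Finset.sum_comm (s := Finset.range n)
      (f := fun m j => (if ρ i = m then c i else 0) * if ρ j = m then c j else 0)]
    refine Finset.sum_congr rfl fun j _ => ?_
    have hm : ρ i ∈ Finset.range n :=
      Finset.mem_range.2 ((hρ' i i (h1 i)).trans_lt (Finset.mem_range.1 hi))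
    simp only [ite_mul, zero_mul]
    rw [Finset.sum_ite_eq, if_pos hm]
    by_cases h : r i j
    · rw [if_pos h, if_pos ((hiff i j).1 h).symm, mul_one]
    · rw [if_neg h, if_neg (fun g => h ((hiff i j).2 g.symm)), mul_zero, mul_zero]
  rw [key]
  exact Finset.sum_nonneg fun m _ => sq_nonneg _

theorem ArrC.psd_add {k : ℕ} {A : ℕ → ℕ → KK k} (h : A ∈ ArrC k) :
    PSD fun i j => ((A i j).1 : ℝ) + (((A i j).2 : ℕ) : ℝ) := by
  obtain ⟨hP, hs, hd, hu⟩ := h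
  refine ⟨fun i j => by simp only [hP.1 i j, hs i j], fun n c => ?_⟩
  have hJ : ∀ i j, (((A i j).2 : ℕ) : ℝ) =
      ∑ l ∈ Finset.range k, if l < ((A i j).2 : ℕ) then 1 else 0 := fun i j => by
    rw [Finset.sum_boole]
    congr 1
    have : (Finset.range k).filter (fun l => l < ((A i j).2 : ℕ)) = Finset.range (A i j).2 := by
      ext l
      simp only [Finset.mem_filter, Finset.mem_range]
      have := (A i j).2.2
      omega
    rw [this, Finset.card_range]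
  simp only [mul_add, Finset.sum_add_distrib]
  refine add_nonneg (hP.2 n c) ?_
  simp only [hJ, Finset.mul_sum]
  have e : ∑ i ∈ Finset.range n, ∑ j ∈ Finset.range n, ∑ l ∈ Finset.range k,
      c i * c j * (if l < ((A i j).2 : ℕ) then (1 : ℝ) else 0) =
      ∑ l ∈ Finset.range k, ∑ i ∈ Finset.range n, ∑ j ∈ Finset.range n,
      c i * c j * (if l < ((A i j).2 : ℕ) then (1 : ℝ) else 0) := by
    rw [Finset.sum_comm (s := Finset.range k)]
    exact Finset.sum_congr rfl fun i _ => Finset.sum_comm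
  rw [e]
  refine Finset.sum_nonneg fun l hl => psd_equiv (r := fun i j => l < ((A i j).2 : ℕ))
    (fun i => ?_) (fun i j g => by rwa [hs j i]) (fun a b c g1 g2 => ?_) n c
  · rw [hd i, Fin.val_last]
    exact Finset.mem_range.1 hl
  · have := hu a b c
    rw [min_le_iff, Fin.le_def, Fin.le_def] at this
    omega

theorem comono_ae {k : ℕ} {Λ : Measure (ℕ → ℕ → KK k)} [IsProbabilityMeasure Λ] (hE : Exch Λ)
    (hG : GGset Λ) (hC : ∀ᵐ A ∂Λ, A ∈ ArrC k) :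
    ∀ᵐ A ∂Λ, ((A 0 2).2 : ℕ) < (A 0 1).2 → ((A 0 2).1 : ℝ) ≤ (A 0 1).1 := by
  have h1 := arr_ultra hE hG (u := fun x : KK k => (x.1 : ℝ)) (by fun_prop) (us := 1)
    (fun x => abs_le.2 x.1.2) (hC.mono fun A hA => hA.1)
  have h2 := arr_ultra hE hG (u := fun x : KK k => (x.1 : ℝ) + ((x.2 : ℕ) : ℝ))
    ((show Measurable fun x : KK k => (x.1 : ℝ) by fun_prop).add
      ((measurable_of_countable fun j : Fin (k + 1) => ((j : ℕ) : ℝ)).comp measurable_snd))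
    (us := 1 + k) (fun x => ?_) (hC.mono fun A hA => ArrC.psd_add hA)
  · have h3 := hE.ae (Equiv.swap 0 2).injective h2
    filter_upwards [hC, h1, h3] with A hA g1 g2 hJ
    have e1 : Equiv.swap 0 2 1 = 1 := Equiv.swap_apply_of_ne_of_ne (by omega) (by omega)
    simp only [Equiv.swap_apply_left, Equiv.swap_apply_right, e1] at g2
    obtain ⟨hP, hs, -, hu⟩ := hA
    have r20 : ((A 2 0).1 : ℝ) = (A 0 2).1 := hP.1 2 0
    have r10 : ((A 1 0).1 : ℝ) = (A 0 1).1 := hP.1 1 0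
    have r21 : ((A 2 1).1 : ℝ) = (A 1 2).1 := hP.1 2 1
    have u1 := hu 0 2 1
    rw [min_le_iff, Fin.le_def, Fin.le_def] at u1
    have j21 : ((A 2 1).2 : ℕ) ≤ (A 0 2).2 := by omega
    rw [r20, r10, r21, hs 2 0, hs 1 0] at g2
    have c1 : (((A 2 1).2 : ℕ) : ℝ) ≤ ((A 0 2).2 : ℕ) := by exact_mod_cast j21
    have c2 : (((A 0 2).2 : ℕ) : ℝ) < ((A 0 1).2 : ℕ) := by exact_mod_cast hJ
    by_contra hneg
    rw [not_le] at hneg
    rw [min_le_iff] at g1 g2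
    rcases g1 with g1 | g1 <;> rcases g2 with g2 | g2 <;> linarith
  · have h0 : ((x.2 : ℕ) : ℝ) ≤ k := by exact_mod_cast Nat.lt_succ_iff.1 x.2.2
    have h1 := x.1.2
    rw [abs_le]
    constructor <;> linarith [h1.1, h1.2, (Nat.cast_nonneg (x.2 : ℕ) : (0 : ℝ) ≤ _)]

theorem comono_null {k : ℕ} {Λ : Measure (ℕ → ℕ → KK k)} [IsProbabilityMeasure Λ] (hE : Exch Λ)
    (hG : GGset Λ) (hC : ∀ᵐ A ∂Λ, A ∈ ArrC k) (t : ℝ) (j : ℕ)
    (h : Λ {A | t < ((A 0 1).1 : ℝ) ∧ ((A 0 1).2 : ℕ) ≤ j} ≠ 0) :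
    ∀ᵐ A ∂Λ, j < ((A 0 1).2 : ℕ) → t < ((A 0 1).1 : ℝ) := by
  have m1 : Measurable fun x : KK k => (x.1 : ℝ) := by fun_prop
  have m2 : Measurable fun x : KK k => (x.2 : ℕ) :=
    (measurable_of_countable fun j : Fin (k + 1) => (j : ℕ)).comp measurable_snd
  have hD : MeasurableSet {x : KK k | t < (x.1 : ℝ) ∧ (x.2 : ℕ) ≤ j} :=
    (m1 measurableSet_Ioi).inter (m2 (MeasurableSet.of_discrete (s := Set.Iic j)))
  have hB : MeasurableSet {x : KK k | (x.1 : ℝ) ≤ t ∧ j < (x.2 : ℕ)} :=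
    (m1 measurableSet_Iic).inter (m2 (MeasurableSet.of_discrete (s := Set.Ioi j)))
  have key := hG 1 {A | A 0 1 ∈ {x : KK k | (x.1 : ℝ) ≤ t ∧ j < (x.2 : ℕ)}} _
    ((show Measurable fun A : ℕ → ℕ → KK k => A 0 1 by fun_prop) hB) hD
    (fun A A' g => by simp only [Set.mem_ofPred_eq, g 0 (by omega) 1 le_rfl])
  have z : Λ.real ({A | A 0 1 ∈ {x : KK k | (x.1 : ℝ) ≤ t ∧ j < (x.2 : ℕ)}} ∩
      {A | A 0 (1 + 1) ∈ {x : KK k | t < (x.1 : ℝ) ∧ (x.2 : ℕ) ≤ j}}) = 0 := by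
    rw [measureReal_eq_zero_iff, measure_eq_zero_iff_ae_notMem]
    filter_upwards [comono_ae hE hG hC] with A hA hm
    obtain ⟨⟨a1, a2⟩, a3, a4⟩ := hm
    exact absurd (a3.trans_le ((hA (a4.trans_lt a2)).trans a1)) (lt_irrefl t)
  rw [z, mul_zero] at key
  have s0 : 0 ≤ ∑ l ∈ Finset.Icc 1 1, Λ.real
      ({A | A 0 1 ∈ {x : KK k | (x.1 : ℝ) ≤ t ∧ j < (x.2 : ℕ)}} ∩
      {A | A 0 l ∈ {x : KK k | t < (x.1 : ℝ) ∧ (x.2 : ℕ) ≤ j}}) :=
    Finset.sum_nonneg fun _ _ => measureReal_nonneg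
  have p1 : 0 < Λ.real {A | A 0 1 ∈ {x : KK k | t < (x.1 : ℝ) ∧ (x.2 : ℕ) ≤ j}} :=
    lt_of_le_of_ne measureReal_nonneg fun g => h ((measureReal_eq_zero_iff).1 g.symm)
  have p2 : Λ.real {A | A 0 1 ∈ {x : KK k | (x.1 : ℝ) ≤ t ∧ j < (x.2 : ℕ)}} = 0 := by
    refine le_antisymm (le_of_mul_le_mul_right ?_ p1) measureReal_nonneg
    linarith
  rw [measureReal_eq_zero_iff, measure_eq_zero_iff_ae_notMem] at p2
  filter_upwards [p2] with A hA hj
  by_contra hneg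
  exact hA ⟨not_lt.1 hneg, hj⟩

theorem sync_exact {k : ℕ} {Λ : Measure (ℕ → ℕ → KK k)} [IsProbabilityMeasure Λ] (hE : Exch Λ)
    (hG : GGset Λ) (hC : ∀ᵐ A ∂Λ, A ∈ ArrC k) :
    ∃ p : ℕ → ℝ, IsPath k p ∧ p k ≤ 1 ∧ ∀ δ : ℝ, (∀ j : Fin (k + 1), Λ.real {A | (A 0 1).2 = j} ≤ δ) →
      ∫ A, |((A 0 1).1 : ℝ) - p (A 0 1).2| ∂Λ ≤ δ := by
  let W : ℕ → Set ℝ := fun j =>
    {t | 0 ≤ t ∧ Λ {A | t < ((A 0 1).1 : ℝ) ∧ ((A 0 1).2 : ℕ) ≤ j} = 0}
  have hW1 : ∀ j, (1 : ℝ) ∈ W j := fun j => ⟨zero_le_one, by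
    rw [Set.eq_empty_of_forall_notMem (s := {A : ℕ → ℕ → KK k | (1 : ℝ) < ((A 0 1).1 : ℝ) ∧
      ((A 0 1).2 : ℕ) ≤ j}) fun A hA => absurd hA.1 (not_lt.2 (A 0 1).1.2.2), measure_empty]⟩
  have hWb : ∀ j, BddBelow (W j) := fun j => ⟨0, fun t ht => ht.1⟩
  obtain ⟨p, hp⟩ : ∃ p : ℕ → ℝ, ∀ j, p j = sInf (W j) := ⟨_, fun _ => rfl⟩
  have hp0 : ∀ j, 0 ≤ p j := fun j => hp j ▸ le_csInf ⟨1, hW1 j⟩ fun t ht => ht.1
  have hp1 : ∀ j, p j ≤ 1 := fun j => hp j ▸ csInf_le (hWb j) (hW1 j)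
  have hpm : ∀ j, p j ≤ p (j + 1) := fun j => by
    rw [hp, hp]
    exact csInf_le_csInf (hWb j) ⟨1, hW1 _⟩ fun t ht =>
      ⟨ht.1, measure_mono_null (fun A hA => by exact ⟨hA.1, hA.2.trans (Nat.le_succ j)⟩) ht.2⟩
  have hpos := arr_pos hE hG (u := fun x : KK k => (x.1 : ℝ)) (by fun_prop) (us := 1)
    (fun x => abs_le.2 x.1.2) (hC.mono fun A hA => hA.1)
  have up : ∀ (j : ℕ) (q : ℚ), ∀ᵐ A ∂Λ, p j < q → ((A 0 1).2 : ℕ) ≤ j → ((A 0 1).1 : ℝ) ≤ q := by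
    intro j q
    by_cases hq : p j < q
    · obtain ⟨t, ht, htq⟩ := exists_lt_of_csInf_lt ⟨1, hW1 j⟩ (hp j ▸ hq)
      filter_upwards [measure_eq_zero_iff_ae_notMem.1 ht.2] with A hA _ hj
      by_contra hneg
      exact hA ⟨htq.trans (not_le.1 hneg), hj⟩
    · exact Filter.Eventually.of_forall fun A h => absurd h hq
  have lo : ∀ (j : ℕ) (q : ℚ), ∀ᵐ A ∂Λ, (q : ℝ) < p j → j < ((A 0 1).2 : ℕ) →
      (q : ℝ) < ((A 0 1).1 : ℝ) := by
    intro j q
    by_cases hq : (q : ℝ) < p j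
    · rcases lt_or_ge (q : ℝ) 0 with h0 | h0
      · filter_upwards [hpos] with A hA _ _
        exact h0.trans_le hA
      · filter_upwards [comono_null hE hG hC q j fun hz =>
          absurd (csInf_le (hWb j) ⟨h0, hz⟩) (not_le.2 (hp j ▸ hq))] with A hA _ hj
        exact hA hj
    · exact Filter.Eventually.of_forall fun A h => absurd h hq
  let pm : ℕ → ℝ := fun j => Nat.casesOn j 0 p
  have hpm' : ∀ j, 0 ≤ pm (j + 1) - pm j := fun j => by
    cases j with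
    | zero => exact sub_nonneg.2 (hp0 0)
    | succ j => exact sub_nonneg.2 (hpm j)
  have hms : ∀ j : Fin (k + 1), MeasurableSet {A : ℕ → ℕ → KK k | (A 0 1).2 = j} := fun j =>
    (show Measurable fun A : ℕ → ℕ → KK k => (A 0 1).2 by fun_prop) (measurableSet_singleton j)
  refine ⟨p, ⟨hp0 0, fun j _ => hpm j⟩, hp1 k, fun δ hδ => ?_⟩
  have hδ0 : 0 ≤ δ := measureReal_nonneg.trans (hδ 0)
  calc ∫ A, |((A 0 1).1 : ℝ) - p (A 0 1).2| ∂Λ
      ≤ ∫ A, ∑ j : Fin (k + 1), Set.indicator {A : ℕ → ℕ → KK k | (A 0 1).2 = j}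
          (fun _ => pm (j + 1) - pm j) A ∂Λ := by
        refine integral_mono_of_nonneg (Filter.Eventually.of_forall fun A => abs_nonneg _)
          (integrable_finsetSum _ fun j _ => (integrable_const _).indicator (hms j)) ?_
        filter_upwards [hpos, ae_all_iff.2 fun j => ae_all_iff.2 (up j),
          ae_all_iff.2 fun j => ae_all_iff.2 (lo j)] with A g0 g1 g2
        simp only [Set.indicator_apply, Set.mem_ofPred_eq, Finset.sum_ite_eq, Finset.mem_univ,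
          if_true]
        have a1 : ((A 0 1).1 : ℝ) ≤ p (A 0 1).2 := by
          by_contra hneg
          obtain ⟨q, q1, q2⟩ := exists_rat_btwn (not_le.1 hneg)
          exact absurd (g1 _ q q1 le_rfl) (not_le.2 q2)
        have a2 : ∀ j : ℕ, j ≤ ((A 0 1).2 : ℕ) → pm j ≤ ((A 0 1).1 : ℝ) := fun j hj => by
          cases j with
          | zero => exact g0
          | succ j =>
            by_contra hneg
            obtain ⟨q, q1, q2⟩ := exists_rat_btwn (not_le.1 hneg)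
            exact absurd (g2 j q q2 hj) (not_lt.2 q1.le)
        rw [abs_sub_comm, abs_of_nonneg (sub_nonneg.2 a1)]
        exact sub_le_sub_left (a2 _ le_rfl) _
    _ = ∑ j : Fin (k + 1), Λ.real {A | (A 0 1).2 = j} * (pm (j + 1) - pm j) := by
        rw [integral_finsetSum _ fun j _ => (integrable_const _).indicator (hms j)]
        exact Finset.sum_congr rfl fun j _ => by rw [integral_indicator_const _ (hms j), smul_eq_mul]
    _ ≤ ∑ j : Fin (k + 1), δ * (pm (j + 1) - pm j) :=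
        Finset.sum_le_sum fun j _ => mul_le_mul_of_nonneg_right (hδ j) (hpm' j)
    _ = δ * p k := by
        rw [← Finset.mul_sum, Fin.sum_univ_eq_sum_range (fun j => pm (j + 1) - pm j),
          Finset.sum_range_sub]
        exact congrArg _ (sub_zero _)
    _ ≤ δ := mul_le_of_le_one_right hδ0 (hp1 k)

end P157
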