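import Vale.Agent.P157.GIneq
import Vale.Agent.P157.IBP0

/-! P157 Conc: `L¹` concentration of `log Z`.
Plan. `Fluct_prod_le`: `|Z - EZ| ≤ |Z - E₁Z| + |E₁ (Z - E₂ Z)| + ...`; precisely
`Z(ω₁,ω₂) - EZ = (Z - E₁Z(ω₂)) + (E₁Z(ω₂) - E₂E₁Z)` and
`E₂|E₁Z - E₂E₁Z| ≤ E₁E₂|Z - E₂Z|`. `Fluct_gauss` (Pisier): `E|F - EF| ≤ E|F(g) - F(g')|`,
`F(g) - F(g') = ∫_0^{π/2} ⟨A⟩_{g_θ} · g_θ' dθ` with `g_θ = sin θ g + cos θ g'`,
`g_θ' = cos θ g - sin θ g'`; by `gp_rotate`, `E|⟨A⟩_{g_θ}·g_θ'| = E_g E_{g'} |⟨A⟩_g · g'| ≤ √V`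
(`gp_abs_dot`, `⟨A⟩·⟨A⟩ ≤ V`), and `π/2 ≤ 2`. `Fluct_bdd`: variance `≤ M (2K)²` by induction on `M`
(`measurePreserving_piFinSuccAbove`, conditional variance decomposition; removing one pattern moves
`lZ` by at most `K`), then `E|X| ≤ √(E X²)`. A general statement for functions with bounded
differences on `Fin M → E` is the cleanest induction.
-/

open MeasureTheory ProbabilityTheory Real
open scoped BigOperators Matrix

namespace P157

variable {Ω S : Type} [MeasurableSpace Ω] [MeasurableSpace S] {P : Measure Ω}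
  [IsProbabilityMeasure P] {μ : Measure S} [IsProbabilityMeasure μ]

theorem conc_prod {Ω' : Type} [MeasurableSpace Ω'] {P' : Measure Ω'} [IsProbabilityMeasure P']
    {Z : Ω × Ω' → ℝ} (hZ : Integrable Z (P.prod P')) {a b : ℝ}
    (h₁ : ∀ ω', ∫ ω, |Z (ω, ω') - ∫ x, Z (x, ω') ∂P| ∂P ≤ a)
    (h₂ : ∀ ω, ∫ ω', |Z (ω, ω') - ∫ y, Z (ω, y) ∂P'| ∂P' ≤ b) :
    ∫ p, |Z p - ∫ q, Z q ∂(P.prod P')| ∂(P.prod P') ≤ a + b := by
  obtain ⟨g, hg⟩ : ∃ g : Ω' → ℝ, g = fun ω' => ∫ x, Z (x, ω') ∂P := ⟨_, rfl⟩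
  obtain ⟨k, hk⟩ : ∃ k : Ω → ℝ, k = fun ω => ∫ y, Z (ω, y) ∂P' := ⟨_, rfl⟩
  obtain ⟨m, hm⟩ : ∃ m : ℝ, m = ∫ q, Z q ∂(P.prod P') := ⟨_, rfl⟩
  have hgi : Integrable g P' := hg ▸ hZ.integral_prod_right
  have hki : Integrable k P := hk ▸ hZ.integral_prod_left
  have hmk : m = ∫ ω, k ω ∂P := by rw [hm, hk, integral_prod _ hZ]
  have hg2 : Integrable (fun p : Ω × Ω' => g p.2) (P.prod P') := hgi.comp_snd P
  have hk1 : Integrable (fun p : Ω × Ω' => k p.1) (P.prod P') := hki.comp_fst P'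
  have i1 : Integrable (fun p : Ω × Ω' => |Z p - g p.2|) (P.prod P') := (hZ.sub hg2).abs
  have i2 : Integrable (fun p : Ω × Ω' => |Z p - k p.1|) (P.prod P') := (hZ.sub hk1).abs
  have i3 : Integrable (fun ω' => |g ω' - m|) P' := (hgi.sub (integrable_const m)).abs
  have e1 : ∫ p, |Z p - g p.2| ∂(P.prod P') ≤ a := by
    rw [integral_prod_symm _ i1]
    calc ∫ ω', ∫ ω, |Z (ω, ω') - g ω'| ∂P ∂P' ≤ ∫ _ω', a ∂P' :=
          integral_mono i1.integral_prod_right (integrable_const a) (fun ω' => by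
            simpa only [hg] using h₁ ω')
      _ = a := by simp
  have e2 : ∫ p, |Z p - k p.1| ∂(P.prod P') ≤ b := by
    rw [integral_prod _ i2]
    calc ∫ ω, ∫ ω', |Z (ω, ω') - k ω| ∂P' ∂P ≤ ∫ _ω, b ∂P :=
          integral_mono i2.integral_prod_left (integrable_const b) (fun ω => by
            simpa only [hk] using h₂ ω)
      _ = b := by simp
  have e3 : ∫ ω', |g ω' - m| ∂P' ≤ ∫ p, |Z p - k p.1| ∂(P.prod P') := by
    rw [integral_prod_symm _ i2]
    refine integral_mono_ae i3 i2.integral_prod_right ?_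
    filter_upwards [hZ.prod_left_ae] with ω' hω'
    have : g ω' - m = ∫ ω, (Z (ω, ω') - k ω) ∂P := by
      rw [integral_sub hω' hki, ← hmk, hg]
    rw [this]
    exact abs_integral_le_integral_abs
  have e4 : ∫ p : Ω × Ω', |g p.2 - m| ∂(P.prod P') = ∫ ω', |g ω' - m| ∂P' := by
    rw [integral_prod _ (i3.comp_snd P)]
    simp
  rw [← hm]
  calc ∫ p, |Z p - m| ∂(P.prod P')
      ≤ ∫ p, (|Z p - g p.2| + |g p.2 - m|) ∂(P.prod P') :=
        integral_mono (hZ.sub (integrable_const m)).abs (i1.add (i3.comp_snd P))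
          (fun p => abs_sub_le _ _ _)
    _ = ∫ p, |Z p - g p.2| ∂(P.prod P') + ∫ p : Ω × Ω', |g p.2 - m| ∂(P.prod P') :=
        integral_add i1 (i3.comp_snd P)
    _ ≤ a + b := by rw [e4]; linarith

theorem conc_pair {F : Ω → ℝ} (hF : Integrable F P) :
    ∫ x, |F x - ∫ y, F y ∂P| ∂P ≤ ∫ p : Ω × Ω, |F p.1 - F p.2| ∂(P.prod P) := by
  have i1 : Integrable (fun p : Ω × Ω => |F p.1 - F p.2|) (P.prod P) :=
    ((hF.comp_fst P).sub (hF.comp_snd P)).abs
  rw [integral_prod _ i1]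
  refine integral_mono (hF.sub (integrable_const _)).abs i1.integral_prod_left (fun x => ?_)
  have : F x - ∫ y, F y ∂P = ∫ y, (F x - F y) ∂P := by
    rw [integral_sub (integrable_const _) hF]; simp
  simp only
  rw [this]
  exact abs_integral_le_integral_abs

theorem conc_abs_le_sqrt {f : Ω → ℝ} (hf : MemLp f 2 P) :
    ∫ x, |f x - ∫ y, f y ∂P| ∂P ≤ √(Var[f; P]) := by
  rw [variance_eq_integral hf.aemeasurable]
  have hg : MemLp (fun x => |f x - ∫ y, f y ∂P|) 2 P := (hf.sub (memLp_const _)).abs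
  have h1 := variance_nonneg (fun x => |f x - ∫ y, f y ∂P|) P
  rw [variance_eq_sub hg] at h1
  apply Real.le_sqrt_of_sq_le
  have : (∫ x, ((fun x => |f x - ∫ y, f y ∂P|) ^ 2) x ∂P) = ∫ x, (f x - ∫ y, f y ∂P) ^ 2 ∂P := by
    congr 1; funext x; simp [sq_abs]
  rw [this] at h1
  linarith

theorem conc_var_prod {E Y : Type} [MeasurableSpace E] [MeasurableSpace Y] (ν : Measure E)
    [IsProbabilityMeasure ν] (ρ : Measure Y) [IsProbabilityMeasure ρ] {Z : E × Y → ℝ}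
    (hZ : Measurable Z) {B c : ℝ} (hB : ∀ p, |Z p| ≤ B)
    (hc : ∀ x x' y, |Z (x, y) - Z (x', y)| ≤ c) :
    Var[Z; ν.prod ρ] ≤ c ^ 2 + Var[fun y => ∫ x, Z (x, y) ∂ν; ρ] := by
  obtain ⟨x₀⟩ : Nonempty E := nonempty_of_isProbabilityMeasure ν
  have hI : ∀ p, Z p ∈ Set.Icc (-B) B := fun p => abs_le.1 (hB p)
  have hZ2 : MemLp Z 2 (ν.prod ρ) :=
    memLp_of_bounded (ae_of_all _ hI) hZ.aestronglyMeasurable 2
  have hsec : ∀ y, Measurable fun x => Z (x, y) := fun y => hZ.comp (measurable_prodMk_right)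
  have hsec2 : ∀ y, MemLp (fun x => Z (x, y)) 2 ν := fun y =>
    memLp_of_bounded (ae_of_all _ fun x => hI _) (hsec y).aestronglyMeasurable 2
  have hgm : Measurable fun y => ∫ x, Z (x, y) ∂ν :=
    (hZ.stronglyMeasurable.integral_prod_left' (μ := ν)).measurable
  have hgb : ∀ y, (∫ x, Z (x, y) ∂ν) ∈ Set.Icc (-B) B := fun y => by
    rw [Set.mem_Icc, ← abs_le]
    calc |∫ x, Z (x, y) ∂ν| ≤ ∫ x, |Z (x, y)| ∂ν := abs_integral_le_integral_abs
      _ ≤ ∫ _x, B ∂ν := integral_mono ((hsec2 y).integrable (by simp)).abs (integrable_const B)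
          (fun x => hB _)
      _ = B := by simp
  have hg2 : MemLp (fun y => ∫ x, Z (x, y) ∂ν) 2 ρ :=
    memLp_of_bounded (ae_of_all _ hgb) hgm.aestronglyMeasurable 2
  rw [variance_eq_sub hZ2, variance_eq_sub hg2]
  have e1 : (∫ p, Z p ∂(ν.prod ρ)) = ∫ y, ∫ x, Z (x, y) ∂ν ∂ρ :=
    integral_prod_symm _ (hZ2.integrable (by simp))
  have e2 : (∫ p, (Z ^ 2) p ∂(ν.prod ρ)) = ∫ y, ∫ x, Z (x, y) ^ 2 ∂ν ∂ρ :=
    integral_prod_symm _ hZ2.integrable_sq
  have e3 : ∀ y, ∫ x, Z (x, y) ^ 2 ∂ν ≤ c ^ 2 + (∫ x, Z (x, y) ∂ν) ^ 2 := fun y => by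
    have h1 := variance_le_sq_of_bounded (μ := ν) (a := Z (x₀, y) - c) (b := Z (x₀, y) + c)
      (X := fun x => Z (x, y)) (ae_of_all _ fun x => by
        have := abs_le.1 (hc x x₀ y)
        constructor <;> linarith [this.1, this.2]) (hsec y).aemeasurable
    rw [variance_eq_sub (hsec2 y)] at h1
    have h2 : ((Z (x₀, y) + c - (Z (x₀, y) - c)) / 2) ^ 2 = c ^ 2 := by ring
    rw [h2] at h1
    have h3 : (∫ x, ((fun x => Z (x, y)) ^ 2) x ∂ν) = ∫ x, Z (x, y) ^ 2 ∂ν := rfl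
    rw [h3] at h1
    linarith
  have e4 : ∫ y, ∫ x, Z (x, y) ^ 2 ∂ν ∂ρ ≤ ∫ y, (c ^ 2 + (∫ x, Z (x, y) ∂ν) ^ 2) ∂ρ :=
    integral_mono hZ2.integrable_sq.integral_prod_right
      ((integrable_const _).add hg2.integrable_sq) e3
  rw [integral_add (integrable_const _) hg2.integrable_sq] at e4
  have e5 : (∫ y, ((fun y => ∫ x, Z (x, y) ∂ν) ^ 2) y ∂ρ) = ∫ y, (∫ x, Z (x, y) ∂ν) ^ 2 ∂ρ := rfl
  rw [e1, e2, e5]
  simp only [integral_const, probReal_univ, smul_eq_mul, one_mul] at e4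
  linarith

theorem conc_var_pi {E : Type} [MeasurableSpace E] (ν : Measure E) [IsProbabilityMeasure ν]
    {B c : ℝ} : ∀ (M : ℕ) (f : (Fin M → E) → ℝ), Measurable f → (∀ x, |f x| ≤ B) →
      (∀ x a y, |f x - f (Function.update x a y)| ≤ c) →
      Var[f; Measure.pi fun _ : Fin M => ν] ≤ M * c ^ 2 := by
  intro M
  induction M with
  | zero =>
    intro f hf _ _
    have : f = fun _ => f default := by funext x; rw [Subsingleton.elim x default]
    rw [this]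
    simp [variance_eq_integral]
  | succ M ih =>
    intro f hf hB hc
    have hmp := (measurePreserving_piFinSuccAbove (fun _ : Fin (M + 1) => ν) 0).symm
    obtain ⟨Z, hZ⟩ : ∃ Z : E × (Fin M → E) → ℝ, Z = fun p => f (Fin.cons p.1 p.2) := ⟨_, rfl⟩
    have hZe : Z = f ∘ (MeasurableEquiv.piFinSuccAbove (fun _ : Fin (M + 1) => E) 0).symm := by
      rw [hZ]; funext p
      simp [MeasurableEquiv.piFinSuccAbove_symm_apply, Fin.insertNthEquiv]
    have hZm : Measurable Z := by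
      rw [hZe]; exact hf.comp (MeasurableEquiv.measurable _)
    have hv : Var[f; Measure.pi fun _ : Fin (M + 1) => ν] =
        Var[Z; ν.prod (Measure.pi fun _ : Fin M => ν)] := by
      rw [hZe, ← hmp.variance_fun_comp hf.aemeasurable]
      rfl
    have hZB : ∀ p, |Z p| ≤ B := fun p => by rw [hZ]; exact hB _
    have h1 := conc_var_prod ν (Measure.pi fun _ : Fin M => ν) hZm hZB (c := c) (fun x x' y => by
      have := hc (Fin.cons x y) 0 x'
      rw [Fin.update_cons_zero] at this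
      rw [hZ]; exact this)
    have hsec : ∀ y, Integrable (fun x => Z (x, y)) ν := fun y =>
      Integrable.of_bound (hZm.comp measurable_prodMk_right).aestronglyMeasurable B
        (ae_of_all _ fun x => hZB _)
    have h2 := ih (fun y => ∫ x, Z (x, y) ∂ν)
      (hZm.stronglyMeasurable.integral_prod_left' (μ := ν)).measurable
      (fun y => by
        calc |∫ x, Z (x, y) ∂ν| ≤ ∫ x, |Z (x, y)| ∂ν := abs_integral_le_integral_abs
          _ ≤ ∫ _x, B ∂ν := integral_mono (hsec y).abs (integrable_const B) (fun x => hZB _)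
          _ = B := by simp)
      (fun y a e => by
        rw [← integral_sub (hsec _) (hsec _)]
        calc |∫ x, (Z (x, y) - Z (x, Function.update y a e)) ∂ν|
            ≤ ∫ x, |Z (x, y) - Z (x, Function.update y a e)| ∂ν := abs_integral_le_integral_abs
          _ ≤ ∫ _x, c ∂ν := integral_mono ((hsec _).sub (hsec _)).abs (integrable_const c)
              (fun x => by
                have := hc (Fin.cons x y) a.succ e
                rw [← Fin.cons_update] at this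
                rw [hZ]; exact this)
          _ = c := by simp)
    rw [hv]
    push_cast
    linarith

theorem conc_int_bdd {h : S → ℝ} (hm : Measurable h) {C : ℝ} (hb : ∀ σ, |h σ| ≤ C) :
    Integrable h μ :=
  Integrable.of_bound hm.aestronglyMeasurable C (ae_of_all _ fun σ => hb σ)

theorem conc_int_exp {h : S → ℝ} (hm : Measurable h) {C : ℝ} (hb : ∀ σ, |h σ| ≤ C) :
    Integrable (fun σ => exp (h σ)) μ :=
  conc_int_bdd hm.exp (C := exp C) fun σ => by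
    rw [abs_of_pos (exp_pos _)]
    exact exp_le_exp.2 (le_of_abs_le (hb σ))

theorem conc_lZ_le {h h' : S → ℝ} (hi : Integrable (fun σ => exp (h σ)) μ)
    (hi' : Integrable (fun σ => exp (h' σ)) μ) {d : ℝ} (hd : ∀ σ, h σ ≤ h' σ + d) :
    lZ μ h ≤ lZ μ h' + d := by
  unfold lZ
  have p1 := integral_exp_pos hi
  have p2 := integral_exp_pos hi'
  have : ∫ σ, exp (h σ) ∂μ ≤ (∫ σ, exp (h' σ) ∂μ) * exp d := by
    rw [← integral_mul_const]
    refine integral_mono hi (hi'.mul_const _) fun σ => ?_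
    simp only
    rw [← exp_add]
    exact exp_le_exp.2 (hd σ)
  calc log (∫ σ, exp (h σ) ∂μ) ≤ log ((∫ σ, exp (h' σ) ∂μ) * exp d) := log_le_log p1 this
    _ = _ := by rw [log_mul p2.ne' (exp_pos d).ne', log_exp]

theorem conc_lZ_abs {h h' : S → ℝ} (hi : Integrable (fun σ => exp (h σ)) μ)
    (hi' : Integrable (fun σ => exp (h' σ)) μ) {d : ℝ} (hd : ∀ σ, |h σ - h' σ| ≤ d) :
    |lZ μ h - lZ μ h'| ≤ d := by
  have h1 := conc_lZ_le hi hi' (d := d) fun σ => by linarith [(abs_le.1 (hd σ)).2]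
  have h2 := conc_lZ_le hi' hi (d := d) fun σ => by linarith [(abs_le.1 (hd σ)).1]
  rw [abs_le]; constructor <;> linarith

/-- Gibbs mean of the linear observable `A σ ⬝ v` in the field `u`. -/
noncomputable def concD {ι : Type} [Fintype ι] (μ : Measure S) (H₀ : S → ℝ) (A : S → ι → ℝ)
    (p : (ι → ℝ) × (ι → ℝ)) : ℝ :=
  (∫ σ, (A σ ⬝ᵥ p.2) * exp (H₀ σ + A σ ⬝ᵥ p.1) ∂μ) / ∫ σ, exp (H₀ σ + A σ ⬝ᵥ p.1) ∂μ

section gauss
variable {ι : Type} [Fintype ι] {H₀ : S → ℝ} {C CA : ℝ} {A : S → ι → ℝ}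

omit [MeasurableSpace S] in
theorem conc_dot_le (hA : ∀ σ c, |A σ c| ≤ CA) (σ : S) (v : ι → ℝ) :
    |A σ ⬝ᵥ v| ≤ CA * ∑ c, |v c| := by
  unfold dotProduct
  rw [Finset.mul_sum]
  refine (Finset.abs_sum_le_sum_abs _ _).trans (Finset.sum_le_sum fun c _ => ?_)
  rw [abs_mul]
  exact mul_le_mul_of_nonneg_right (hA σ c) (abs_nonneg _)

theorem conc_meas_dot (hA : ∀ c, Measurable fun σ => A σ c) :
    Measurable fun q : (ι → ℝ) × S => A q.2 ⬝ᵥ q.1 := by
  unfold dotProduct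
  exact Finset.measurable_sum _ fun c _ =>
    ((hA c).comp measurable_snd).mul ((measurable_pi_apply c).comp measurable_fst)

theorem conc_meas_dot' (hA : ∀ c, Measurable fun σ => A σ c) (v : ι → ℝ) :
    Measurable fun σ => A σ ⬝ᵥ v :=
  (conc_meas_dot hA).comp (measurable_prodMk_left (x := v))

theorem conc_meas_D (hm : Measurable H₀) (hA : ∀ c, Measurable fun σ => A σ c) :
    Measurable (concD μ H₀ A) := by
  unfold concD
  have m1 : Measurable fun q : ((ι → ℝ) × (ι → ℝ)) × S => exp (H₀ q.2 + A q.2 ⬝ᵥ q.1.1) :=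
    ((hm.comp measurable_snd).add ((conc_meas_dot hA).comp
      (measurable_fst.fst.prodMk measurable_snd))).exp
  have m2 : Measurable fun q : ((ι → ℝ) × (ι → ℝ)) × S => A q.2 ⬝ᵥ q.1.2 :=
    (conc_meas_dot hA).comp (measurable_fst.snd.prodMk measurable_snd)
  exact ((m2.mul m1).stronglyMeasurable.integral_prod_right' (ν := μ)).measurable.div
    (m1.stronglyMeasurable.integral_prod_right' (ν := μ)).measurable

theorem conc_int_W (hm : Measurable H₀) (hb : ∀ σ, |H₀ σ| ≤ C)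
    (hA : ∀ c, Measurable fun σ => A σ c) (hAb : ∀ σ c, |A σ c| ≤ CA) (u : ι → ℝ) :
    Integrable (fun σ => exp (H₀ σ + A σ ⬝ᵥ u)) μ :=
  conc_int_exp (hm.add (conc_meas_dot' hA u)) (C := C + CA * ∑ c, |u c|) fun σ =>
    (abs_add_le _ _).trans (add_le_add (hb σ) (conc_dot_le hAb σ u))

theorem conc_int_W' (hm : Measurable H₀) (hb : ∀ σ, |H₀ σ| ≤ C)
    (hA : ∀ c, Measurable fun σ => A σ c) (hAb : ∀ σ c, |A σ c| ≤ CA) (u : ι → ℝ)
    {φ : S → ℝ} (hφ : Measurable φ) {K : ℝ} (hK : ∀ σ, |φ σ| ≤ K) :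
    Integrable (fun σ => φ σ * exp (H₀ σ + A σ ⬝ᵥ u)) μ :=
  (conc_int_W hm hb hA hAb u).bdd_mul hφ.aestronglyMeasurable (ae_of_all _ fun σ => hK σ)

theorem conc_D_le (hm : Measurable H₀) (hb : ∀ σ, |H₀ σ| ≤ C)
    (hA : ∀ c, Measurable fun σ => A σ c) (hAb : ∀ σ c, |A σ c| ≤ CA) (u v : ι → ℝ) {t : ℝ}
    (ht : ∀ σ, A σ ⬝ᵥ v ≤ t) : concD μ H₀ A (u, v) ≤ t := by
  unfold concD
  have hW := conc_int_W (μ := μ) hm hb hA hAb u
  rw [div_le_iff₀ (integral_exp_pos hW), ← integral_const_mul]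
  refine integral_mono (conc_int_W' hm hb hA hAb u (conc_meas_dot' hA v)
    (fun σ => conc_dot_le hAb σ v)) (hW.const_mul t) fun σ => ?_
  exact mul_le_mul_of_nonneg_right (ht σ) (exp_pos _).le

theorem conc_D_lin (hm : Measurable H₀) (hb : ∀ σ, |H₀ σ| ≤ C)
    (hA : ∀ c, Measurable fun σ => A σ c) (hAb : ∀ σ c, |A σ c| ≤ CA) (u : ι → ℝ) :
    ∃ a : ι → ℝ, ∀ v, concD μ H₀ A (u, v) = a ⬝ᵥ v := by
  refine ⟨fun c => (∫ σ, A σ c * exp (H₀ σ + A σ ⬝ᵥ u) ∂μ) / ∫ σ, exp (H₀ σ + A σ ⬝ᵥ u) ∂μ,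
    fun v => ?_⟩
  unfold concD
  have : ∫ σ, (A σ ⬝ᵥ v) * exp (H₀ σ + A σ ⬝ᵥ u) ∂μ =
      ∑ c, (∫ σ, A σ c * exp (H₀ σ + A σ ⬝ᵥ u) ∂μ) * v c := by
    simp_rw [← integral_mul_const]
    rw [← integral_finsetSum _ fun c _ =>
      (conc_int_W' hm hb hA hAb u (hA c) (fun σ => hAb σ c)).mul_const (v c)]
    congr 1; funext σ
    rw [dotProduct, Finset.sum_mul]
    exact Finset.sum_congr rfl fun c _ => by ring
  simp only
  rw [this, Finset.sum_div]
  conv_rhs => rw [dotProduct]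
  exact Finset.sum_congr rfl fun c _ => by ring

theorem conc_D_mean (hm : Measurable H₀) (hb : ∀ σ, |H₀ σ| ≤ C)
    (hA : ∀ c, Measurable fun σ => A σ c) (hAb : ∀ σ c, |A σ c| ≤ CA) {V : ℝ}
    (hV : ∀ σ, A σ ⬝ᵥ A σ ≤ V) (u : ι → ℝ) :
    ∫ v, |concD μ H₀ A (u, v)| ∂(gp ι) ≤ √V := by
  obtain ⟨a, ha⟩ := conc_D_lin (μ := μ) hm hb hA hAb u
  simp_rw [ha]
  refine (gp_abs_dot a).trans (Real.sqrt_le_sqrt ?_)
  have h1 := conc_D_le (μ := μ) hm hb hA hAb u a (t := (V + a ⬝ᵥ a) / 2) fun σ => by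
    have h2 : 0 ≤ (A σ - a) ⬝ᵥ (A σ - a) :=
      Finset.sum_nonneg fun c _ => mul_self_nonneg _
    rw [sub_dotProduct, dotProduct_sub, dotProduct_sub, dotProduct_comm a (A σ)] at h2
    linarith [hV σ]
  rw [ha] at h1
  linarith

theorem conc_D_abs (hm : Measurable H₀) (hb : ∀ σ, |H₀ σ| ≤ C)
    (hA : ∀ c, Measurable fun σ => A σ c) (hAb : ∀ σ c, |A σ c| ≤ CA) (u v : ι → ℝ) :
    |concD μ H₀ A (u, v)| ≤ CA * ∑ c, |v c| := by
  obtain ⟨a, ha⟩ := conc_D_lin (μ := μ) hm hb hA hAb u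
  have h1 := conc_D_le (μ := μ) hm hb hA hAb u v fun σ => le_of_abs_le (conc_dot_le hAb σ v)
  have h2 := conc_D_le (μ := μ) hm hb hA hAb u (-v) (t := CA * ∑ c, |v c|) fun σ => by
    rw [dotProduct_neg]; exact (neg_le_abs _).trans (conc_dot_le hAb σ v)
  rw [ha, dotProduct_neg, ← ha] at h2
  rw [abs_le]; constructor <;> linarith

theorem conc_sum_le (g g' : ι → ℝ) {s t : ℝ} (hs : |s| ≤ 1) (ht : |t| ≤ 1) :
    ∑ c, |(s • g + t • g') c| ≤ ∑ c, |g c| + ∑ c, |g' c| := by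
  rw [← Finset.sum_add_distrib]
  refine Finset.sum_le_sum fun c _ => ?_
  simp only [Pi.add_apply, Pi.smul_apply, smul_eq_mul]
  refine (abs_add_le _ _).trans ?_
  rw [abs_mul, abs_mul]
  have := abs_nonneg (g c)
  have := abs_nonneg (g' c)
  nlinarith

theorem conc_sum_le' (g g' : ι → ℝ) (θ : ℝ) :
    ∑ c, |(cos θ • g - sin θ • g') c| ≤ ∑ c, |g c| + ∑ c, |g' c| := by
  have : cos θ • g - sin θ • g' = cos θ • g + (-sin θ) • g' := by
    rw [neg_smul, sub_eq_add_neg]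
  rw [this]
  exact conc_sum_le g g' (abs_cos_le_one θ) (by rw [abs_neg]; exact abs_sin_le_one θ)

theorem conc_deriv (hm : Measurable H₀) (hb : ∀ σ, |H₀ σ| ≤ C)
    (hA : ∀ c, Measurable fun σ => A σ c) (hAb : ∀ σ c, |A σ c| ≤ CA) (hCA : 0 ≤ CA)
    (g g' : ι → ℝ) (θ : ℝ) :
    HasDerivAt (fun θ => lZ μ fun σ => H₀ σ + A σ ⬝ᵥ (sin θ • g + cos θ • g'))
      (concD μ H₀ A (sin θ • g + cos θ • g', cos θ • g - sin θ • g')) θ := by
  obtain ⟨K, hK⟩ : ∃ K : ℝ, K = CA * (∑ c, |g c| + ∑ c, |g' c|) := ⟨_, rfl⟩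
  have b1 : ∀ σ t, |A σ ⬝ᵥ (sin t • g + cos t • g')| ≤ K := fun σ t => by
    rw [hK]
    exact (conc_dot_le hAb σ _).trans (mul_le_mul_of_nonneg_left
      (conc_sum_le g g' (abs_sin_le_one t) (abs_cos_le_one t)) hCA)
  have b2 : ∀ σ t, |A σ ⬝ᵥ (cos t • g - sin t • g')| ≤ K := fun σ t => by
    rw [hK]
    exact (conc_dot_le hAb σ _).trans (mul_le_mul_of_nonneg_left (conc_sum_le' g g' t) hCA)
  have key := hasDerivAt_integral_of_dominated_loc_of_deriv_le (μ := μ) (x₀ := θ)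
    (F := fun t σ => exp (H₀ σ + A σ ⬝ᵥ (sin t • g + cos t • g')))
    (F' := fun t σ => (A σ ⬝ᵥ (cos t • g - sin t • g')) *
      exp (H₀ σ + A σ ⬝ᵥ (sin t • g + cos t • g')))
    (bound := fun _ => K * exp (C + K)) (s := Set.univ) Filter.univ_mem
    (Filter.Eventually.of_forall fun t => (conc_int_W hm hb hA hAb _).aestronglyMeasurable)
    (conc_int_W hm hb hA hAb _)
    (conc_int_W' hm hb hA hAb _ (conc_meas_dot' hA _) (fun σ => b2 σ θ)).aestronglyMeasurable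
    (ae_of_all _ fun σ t _ => by
      rw [Real.norm_eq_abs, abs_mul, abs_of_pos (exp_pos _)]
      refine mul_le_mul (b2 σ t) (exp_le_exp.2 ?_) (exp_pos _).le
        ((abs_nonneg _).trans (b2 σ t))
      exact add_le_add (le_of_abs_le (hb σ)) (le_of_abs_le (b1 σ t)))
    (integrable_const _)
    (ae_of_all _ fun σ t _ => by
      have h1 : HasDerivAt (fun t => H₀ σ + A σ ⬝ᵥ (sin t • g + cos t • g'))
          (A σ ⬝ᵥ (cos t • g - sin t • g')) t := by
        simp only [dotProduct_add, dotProduct_sub, dotProduct_smul, smul_eq_mul]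
        have h2 := (((hasDerivAt_sin t).mul_const (A σ ⬝ᵥ g)).add
          ((hasDerivAt_cos t).mul_const (A σ ⬝ᵥ g'))).const_add (H₀ σ)
        have e : cos t * (A σ ⬝ᵥ g) - sin t * (A σ ⬝ᵥ g') =
            cos t * (A σ ⬝ᵥ g) + -sin t * (A σ ⬝ᵥ g') := by ring
        rw [e]
        exact h2
      have h3 := h1.exp
      rw [mul_comm] at h3
      exact h3)
  exact key.2.log (integral_exp_pos (conc_int_W hm hb hA hAb _)).ne'

theorem conc_int_sum : Integrable (fun g : ι → ℝ => ∑ c, |g c|) (gp ι) := by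
  refine (gp_integrable_exp_sum_abs (ι := ι) 1).mono' ?_ (ae_of_all _ fun g => ?_)
  · exact (Finset.measurable_sum _ fun c _ => (measurable_pi_apply c).abs).aestronglyMeasurable
  · rw [Real.norm_eq_abs, abs_of_nonneg (Finset.sum_nonneg fun c _ => abs_nonneg _), one_mul]
    linarith [add_one_le_exp (∑ c, |g c|)]

theorem conc_meas_rot : Measurable fun q : ((ι → ℝ) × (ι → ℝ)) × ℝ =>
    ((sin q.2 • q.1.1 + cos q.2 • q.1.2, cos q.2 • q.1.1 - sin q.2 • q.1.2) :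
      (ι → ℝ) × (ι → ℝ)) := by
  apply Continuous.measurable
  fun_prop

theorem conc_pisier (hm : Measurable H₀) (hb : ∀ σ, |H₀ σ| ≤ C)
    (hA : ∀ c, Measurable fun σ => A σ c) (hAb : ∀ σ c, |A σ c| ≤ CA) (hCA : 0 ≤ CA) {V : ℝ}
    (hV : ∀ σ, A σ ⬝ᵥ A σ ≤ V) :
    ∫ p : (ι → ℝ) × (ι → ℝ), |lZ μ (fun σ => H₀ σ + A σ ⬝ᵥ p.1) - lZ μ (fun σ => H₀ σ + A σ ⬝ᵥ p.2)|
      ∂((gp ι).prod (gp ι)) ≤ 2 * √V := by
  obtain ⟨J, hJ⟩ : ∃ J : ((ι → ℝ) × (ι → ℝ)) × ℝ → ℝ, J = fun q =>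
      |concD μ H₀ A (sin q.2 • q.1.1 + cos q.2 • q.1.2, cos q.2 • q.1.1 - sin q.2 • q.1.2)| :=
    ⟨_, rfl⟩
  have hDm := conc_meas_D (μ := μ) hm hA
  have hJm : Measurable J := by rw [hJ]; exact (hDm.comp conc_meas_rot).abs
  have hJb : ∀ q, ‖J q‖ ≤ CA * (∑ c, |q.1.1 c| + ∑ c, |q.1.2 c|) := fun q => by
    rw [hJ, Real.norm_eq_abs, abs_abs]
    exact (conc_D_abs hm hb hA hAb _ _).trans
      (mul_le_mul_of_nonneg_left (conc_sum_le' _ _ _) hCA)
  have hb0 : Integrable (fun p : (ι → ℝ) × (ι → ℝ) => CA * (∑ c, |p.1 c| + ∑ c, |p.2 c|))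
      ((gp ι).prod (gp ι)) :=
    ((conc_int_sum.comp_fst (gp ι)).add (conc_int_sum.comp_snd (gp ι))).const_mul CA
  have hJi : Integrable J (((gp ι).prod (gp ι)).prod (volume.restrict (Set.Ioc 0 (π / 2)))) :=
    (hb0.comp_fst _).mono' hJm.aestronglyMeasurable (ae_of_all _ hJb)
  have hpi : (0 : ℝ) ≤ π / 2 := by positivity
  have h1 : ∀ p : (ι → ℝ) × (ι → ℝ),
      |lZ μ (fun σ => H₀ σ + A σ ⬝ᵥ p.1) - lZ μ (fun σ => H₀ σ + A σ ⬝ᵥ p.2)| ≤
        ∫ θ in Set.Ioc 0 (π / 2), J (p, θ) := fun p => by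
    have hi : IntervalIntegrable (fun θ => concD μ H₀ A
        (sin θ • p.1 + cos θ • p.2, cos θ • p.1 - sin θ • p.2)) volume 0 (π / 2) := by
      rw [intervalIntegrable_iff_integrableOn_Ioc_of_le hpi]
      refine Integrable.of_bound
        ((hDm.comp conc_meas_rot).comp (measurable_prodMk_left (x := p))).aestronglyMeasurable
        (CA * (∑ c, |p.1 c| + ∑ c, |p.2 c|)) (ae_of_all _ fun θ => ?_)
      have := hJb (p, θ)
      rw [hJ, Real.norm_eq_abs, abs_abs] at this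
      exact this
    have h2 := intervalIntegral.integral_eq_sub_of_hasDerivAt
      (fun θ _ => conc_deriv (μ := μ) hm hb hA hAb hCA p.1 p.2 θ) hi
    simp only [sin_pi_div_two, cos_pi_div_two, sin_zero, cos_zero, one_smul, zero_smul, add_zero,
      zero_add] at h2
    rw [← h2, intervalIntegral.integral_of_le hpi, hJ]
    exact abs_integral_le_integral_abs
  have hDi : Integrable (fun p => |concD μ H₀ A p|) ((gp ι).prod (gp ι)) :=
    ((conc_int_sum.comp_snd (gp ι)).const_mul CA).mono' hDm.abs.aestronglyMeasurable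
      (ae_of_all _ fun p => by
        rw [Real.norm_eq_abs, abs_abs]; exact conc_D_abs hm hb hA hAb p.1 p.2)
  have h3 : ∫ p, |concD μ H₀ A p| ∂((gp ι).prod (gp ι)) ≤ √V := by
    rw [integral_prod _ hDi]
    calc ∫ u, ∫ v, |concD μ H₀ A (u, v)| ∂(gp ι) ∂(gp ι) ≤ ∫ _u, √V ∂(gp ι) :=
          integral_mono hDi.integral_prod_left (integrable_const _)
            (fun u => conc_D_mean hm hb hA hAb hV u)
      _ = √V := by simp
  have h4 : ∀ θ, ∫ p, J (p, θ) ∂((gp ι).prod (gp ι)) =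
      ∫ p, |concD μ H₀ A p| ∂((gp ι).prod (gp ι)) := fun θ => by
    have hr := gp_rotate (ι := ι) θ
    rw [hJ]
    conv_rhs => rw [← hr.map_eq]
    rw [integral_map hr.measurable.aemeasurable hDm.abs.aestronglyMeasurable]
  calc _ ≤ ∫ p, ∫ θ in Set.Ioc 0 (π / 2), J (p, θ) ∂volume ∂((gp ι).prod (gp ι)) :=
        integral_mono_of_nonneg (ae_of_all _ fun p => abs_nonneg _) hJi.integral_prod_left
          (ae_of_all _ h1)
    _ = ∫ θ in Set.Ioc 0 (π / 2), ∫ p, J (p, θ) ∂((gp ι).prod (gp ι)) ∂volume :=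
        integral_integral_swap (f := fun p θ => J (p, θ)) hJi
    _ = π / 2 * ∫ p, |concD μ H₀ A p| ∂((gp ι).prod (gp ι)) := by
        simp_rw [h4]
        rw [setIntegral_const, Real.volume_real_Ioc_of_le hpi, sub_zero, smul_eq_mul]
    _ ≤ 2 * √V := by
        have := pi_le_four
        have h5 : 0 ≤ ∫ p, |concD μ H₀ A p| ∂((gp ι).prod (gp ι)) :=
          integral_nonneg fun p => abs_nonneg _
        exact mul_le_mul (by linarith) h3 h5 (by norm_num)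

end gauss

theorem Fluct_nonneg {H : Ω → S → ℝ} : 0 ≤ Fluct P μ H :=
  integral_nonneg fun _ => abs_nonneg _

theorem Fluct_prod_le {Ω' : Type} [MeasurableSpace Ω'] {P' : Measure Ω'} [IsProbabilityMeasure P']
    {H : Ω × Ω' → S → ℝ} (h : Good (P.prod P') H) {a b : ℝ}
    (h₁ : ∀ ω', Good P (fun ω σ => H (ω, ω') σ) ∧ Fluct P μ (fun ω σ => H (ω, ω') σ) ≤ a)
    (h₂ : ∀ ω, Good P' (fun ω' σ => H (ω, ω') σ) ∧ Fluct P' μ (fun ω' σ => H (ω, ω') σ) ≤ b) :
    Fluct (P.prod P') μ H ≤ a + b :=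
  conc_prod (Z := fun p => lZ μ (H p)) h.integrable_lZ (fun ω' => (h₁ ω').2) (fun ω => (h₂ ω).2)

theorem Fluct_gauss {ι : Type} [Fintype ι] {H₀ : S → ℝ} (hm : Measurable H₀) {C : ℝ}
    (hb : ∀ σ, |H₀ σ| ≤ C) {A : S → ι → ℝ} (hA : Feat fun (_ : Unit) σ => A σ) {V : ℝ}
    (hV : ∀ σ, A σ ⬝ᵥ A σ ≤ V) :
    Fluct (gp ι) μ (fun g σ => H₀ σ + A σ ⬝ᵥ g) ≤ 2 * √V := by
  obtain ⟨CA, hCA⟩ := hA.bdd
  have hAm : ∀ c, Measurable fun σ => A σ c := fun c =>
    (hA.meas c).comp (measurable_prodMk_left (x := ()))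
  have hAb : ∀ σ c, |A σ c| ≤ |CA| := fun σ c => (hCA () σ c).trans (le_abs_self _)
  have hg : Good (gp ι) (fun g σ => H₀ σ + A σ ⬝ᵥ g) :=
    ⟨(hm.comp measurable_snd).add (conc_meas_dot hAm),
      fun g => C + |CA| * ∑ c, |g c|, (integrable_const C).add (conc_int_sum.const_mul _),
      fun g σ => (abs_add_le _ _).trans (add_le_add (hb σ) (conc_dot_le hAb σ g))⟩
  exact (conc_pair (hg.integrable_lZ (μ := μ))).trans
    (conc_pisier hm hb hAm hAb (abs_nonneg _) hV)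

theorem Fluct_bdd {E : Type} [MeasurableSpace E] (ν : Measure E) [IsProbabilityMeasure ν]
    {H₀ : S → ℝ} (hm : Measurable H₀) {C : ℝ} (hb : ∀ σ, |H₀ σ| ≤ C) {X : E → S → ℝ} {K : ℝ}
    (hX : Bd1 X K) (M : ℕ) :
    Fluct (Measure.pi fun _ : Fin M => ν) μ (fun G σ => H₀ σ + ∑ a, X (G a) σ) ≤ 2 * K * √M := by
  obtain ⟨x₀⟩ : Nonempty E := nonempty_of_isProbabilityMeasure ν
  obtain ⟨σ₀⟩ : Nonempty S := nonempty_of_isProbabilityMeasure μ
  have hK : 0 ≤ K := (abs_nonneg _).trans (hX.bdd x₀ σ₀)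
  have hbd : Bd1 (fun (G : Fin M → E) σ => H₀ σ + ∑ a, X (G a) σ) (C + M * K) := by
    have hXa : ∀ a, Measurable fun p : (Fin M → E) × S => X (p.1 a) p.2 := fun a =>
      (hX.comp (measurable_pi_apply (X := fun _ : Fin M => E) a) measurable_id).meas
    refine ⟨(hm.comp measurable_snd).add (Finset.measurable_sum _ fun a _ => hXa a),
      fun G σ => (abs_add_le _ _).trans (add_le_add (hb σ) ?_)⟩
    refine (Finset.abs_sum_le_sum_abs _ _).trans ?_
    calc ∑ a, |X (G a) σ| ≤ ∑ _a : Fin M, K := Finset.sum_le_sum fun a _ => hX.bdd _ _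
      _ = M * K := by simp
  have hg : Good (Measure.pi fun _ : Fin M => ν) (fun G σ => H₀ σ + ∑ a, X (G a) σ) := hbd.good
  have hint := fun G => hg.integrable_exp (μ := μ) G
  have hB : ∀ G : Fin M → E, |lZ μ (fun σ => H₀ σ + ∑ a, X (G a) σ)| ≤ C + M * K := fun G => by
    have h1 := conc_lZ_abs (μ := μ) (hint G) (h' := fun _ => 0) (integrable_const _)
      (d := C + M * K) fun σ => by rw [sub_zero]; exact hbd.bdd G σ
    have h2 : lZ μ (fun _ : S => (0 : ℝ)) = 0 := by simp [lZ]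
    rwa [h2, sub_zero] at h1
  have hv := conc_var_pi ν (B := C + M * K) (c := 2 * K) M
    (fun G => lZ μ (fun σ => H₀ σ + ∑ a, X (G a) σ)) hg.measurable_lZ hB (fun G a y => by
      refine conc_lZ_abs (hint G) (hint _) fun σ => ?_
      rw [← Finset.add_sum_erase _ _ (Finset.mem_univ a),
        ← Finset.add_sum_erase _ (fun b => X (Function.update G a y b) σ) (Finset.mem_univ a),
        Finset.sum_congr rfl (fun b hb' => by
          rw [Function.update_of_ne (Finset.ne_of_mem_erase hb')] :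
          ∀ b ∈ Finset.univ.erase a, X (Function.update G a y b) σ = X (G b) σ),
        Function.update_self]
      have h1 := abs_le.1 (hX.bdd (G a) σ)
      have h2 := abs_le.1 (hX.bdd y σ)
      rw [abs_le]; constructor <;> linarith [h1.1, h1.2, h2.1, h2.2])
  have hL : MemLp (fun G : Fin M → E => lZ μ (fun σ => H₀ σ + ∑ a, X (G a) σ)) 2
      (Measure.pi fun _ : Fin M => ν) :=
    memLp_of_bounded (ae_of_all _ fun G => abs_le.1 (hB G)) hg.measurable_lZ.aestronglyMeasurable 2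
  refine (conc_abs_le_sqrt hL).trans ((Real.sqrt_le_sqrt hv).trans (le_of_eq ?_))
  rw [Real.sqrt_mul (Nat.cast_nonneg M), Real.sqrt_sq (by linarith), mul_comm]

end P157
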