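import Vale.Agent.P157.Defs

/-! Internal definitions for the P157 proof (see notes/P157.md). No proofs of substance here. -/

open MeasureTheory ProbabilityTheory Real
open scoped BigOperators Matrix

namespace P157

/-! ## Gibbs layer: disorder `(Ω, P)`, configurations `(S, μ)`, Hamiltonian `H`. -/
section Gibbs
variable {Ω S : Type} [MeasurableSpace Ω] [MeasurableSpace S]

/-- jointly measurable, bounded in `σ` by an integrable function of the disorder -/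
structure Good (P : Measure Ω) (H : Ω → S → ℝ) : Prop where
  meas : Measurable fun p : Ω × S => H p.1 p.2
  bdd : ∃ B : Ω → ℝ, Integrable B P ∧ ∀ ω σ, |H ω σ| ≤ B ω

/-- two-replica observables -/
structure Good2 (P : Measure Ω) (φ : Ω → S → S → ℝ) : Prop where
  meas : Measurable fun p : Ω × S × S => φ p.1 p.2.1 p.2.2
  bdd : ∃ B : Ω → ℝ, Integrable B P ∧ ∀ ω σ σ', |φ ω σ σ'| ≤ B ω

/-- `n`-replica observables -/
structure Goodn (P : Measure Ω) {n : ℕ} (Φ : Ω → (Fin n → S) → ℝ) : Prop where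
  meas : Measurable fun p : Ω × (Fin n → S) => Φ p.1 p.2
  bdd : ∃ B : Ω → ℝ, Integrable B P ∧ ∀ ω σ, |Φ ω σ| ≤ B ω

/-- jointly measurable and bounded by the constant `C` -/
structure Bd1 (φ : Ω → S → ℝ) (C : ℝ) : Prop where
  meas : Measurable fun p : Ω × S => φ p.1 p.2
  bdd : ∀ ω σ, |φ ω σ| ≤ C

structure Bd2 (φ : Ω → S → S → ℝ) (C : ℝ) : Prop where
  meas : Measurable fun p : Ω × S × S => φ p.1 p.2.1 p.2.2
  bdd : ∀ ω σ σ', |φ ω σ σ'| ≤ C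

/-- bounded measurable feature vectors (coefficients of a Gaussian field) -/
structure Feat {ι : Type} (A : Ω → S → ι → ℝ) : Prop where
  meas : ∀ c, Measurable fun p : Ω × S => A p.1 p.2 c
  bdd : ∃ C : ℝ, ∀ ω σ c, |A ω σ c| ≤ C

/-- log partition function -/
noncomputable def lZ (μ : Measure S) (h : S → ℝ) : ℝ := log (∫ σ, exp (h σ) ∂μ)

/-- quenched free energy `E log Z` -/
noncomputable def FE (P : Measure Ω) (μ : Measure S) (H : Ω → S → ℝ) : ℝ := ∫ ω, lZ μ (H ω) ∂P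

/-- `L¹` fluctuation of `log Z` -/
noncomputable def Fluct (P : Measure Ω) (μ : Measure S) (H : Ω → S → ℝ) : ℝ :=
  ∫ ω, |lZ μ (H ω) - FE P μ H| ∂P

/-- `E ⟨φ(σ)⟩` -/
noncomputable def A1 (P : Measure Ω) (μ : Measure S) (H : Ω → S → ℝ) (φ : Ω → S → ℝ) : ℝ :=
  ∫ ω, ∫ σ, φ ω σ ∂(μ.tilted (H ω)) ∂P

/-- `E ⟨φ(σ¹,σ²)⟩` -/
noncomputable def A2 (P : Measure Ω) (μ : Measure S) (H : Ω → S → ℝ) (φ : Ω → S → S → ℝ) : ℝ :=
  ∫ ω, ∫ σ, ∫ σ', φ ω σ σ' ∂(μ.tilted (H ω)) ∂(μ.tilted (H ω)) ∂P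

/-- `E ⟨Φ(σ⁰,...,σ^{n-1})⟩` -/
noncomputable def An (P : Measure Ω) (μ : Measure S) (H : Ω → S → ℝ) (n : ℕ)
    (Φ : Ω → (Fin n → S) → ℝ) : ℝ :=
  ∫ ω, ∫ σ, Φ ω σ ∂(Measure.pi fun _ : Fin n => μ.tilted (H ω)) ∂P

/-- approximate Ghirlanda-Guerra identity for the kernel `C` with `n+1` old replicas -/
def GGa (P : Measure Ω) (μ : Measure S) (H : Ω → S → ℝ) (C : S → S → ℝ) (n : ℕ) (ε : ℝ) : Prop :=
  ∀ Φ : (Fin (n + 1) → S) → ℝ, Measurable Φ → (∀ σ, |Φ σ| ≤ 1) →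
    |((n : ℝ) + 1) * An P μ H (n + 2) (fun _ σ => Φ (Fin.init σ) * C (σ 0) (σ (Fin.last (n + 1))))
      - An P μ H (n + 1) (fun _ σ => Φ σ) * A2 P μ H (fun _ σ σ' => C σ σ')
      - ∑ l : Fin n, An P μ H (n + 1) (fun _ σ => Φ σ * C (σ 0) (σ l.succ))| ≤ ε

end Gibbs

/-- standard Gaussian vector indexed by `ι` -/
noncomputable abbrev gp (ι : Type) [Fintype ι] : Measure (ι → ℝ) :=
  Measure.pi fun _ : ι => gaussianReal 0 1

section Interp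
variable {Ω S : Type} [MeasurableSpace Ω] [MeasurableSpace S]

/-- `y ↦ F ω σ y` is `C²` with derivatives `F'`, `F''` bounded by `K` -/
structure C2F (P : Measure Ω) (F F' F'' : Ω → S → ℝ → ℝ) (K : ℝ) : Prop where
  m0 : Measurable fun p : Ω × S × ℝ => F p.1 p.2.1 p.2.2
  m1 : Measurable fun p : Ω × S × ℝ => F' p.1 p.2.1 p.2.2
  m2 : Measurable fun p : Ω × S × ℝ => F'' p.1 p.2.1 p.2.2
  d1 : ∀ ω σ y, HasDerivAt (F ω σ) (F' ω σ y) y
  d2 : ∀ ω σ y, HasDerivAt (F' ω σ) (F'' ω σ y) y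
  b1 : ∀ ω σ y, |F' ω σ y| ≤ K
  b2 : ∀ ω σ y, |F'' ω σ y| ≤ K
  g0 : Good P fun ω σ => F ω σ 0

/-- interpolating Gaussian field -/
noncomputable def iY {ι₁ ι₀ : Type} [Fintype ι₁] [Fintype ι₀] (A₁ : Ω → S → ι₁ → ℝ)
    (A₀ : Ω → S → ι₀ → ℝ) (θ : ℝ) (ω : (Ω × (ι₁ → ℝ)) × (ι₀ → ℝ)) (σ : S) : ℝ :=
  sin θ * (A₁ ω.1.1 σ ⬝ᵥ ω.1.2) + cos θ * (A₀ ω.1.1 σ ⬝ᵥ ω.2)

/-- interpolating Hamiltonian -/
noncomputable def iH {ι₁ ι₀ : Type} [Fintype ι₁] [Fintype ι₀] (F : Ω → S → ℝ → ℝ)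
    (κ : Ω → S → ℝ) (A₁ : Ω → S → ι₁ → ℝ) (A₀ : Ω → S → ι₀ → ℝ) (θ : ℝ)
    (ω : (Ω × (ι₁ → ℝ)) × (ι₀ → ℝ)) (σ : S) : ℝ :=
  F ω.1.1 σ (iY A₁ A₀ θ ω σ) + sin θ ^ 2 * κ ω.1.1 σ

end Interp

/-- law of `w Z` -/
noncomputable def gw (w : ℝ) : Measure ℝ := (gaussianReal 0 1).map (fun z => w * z)

/-- `C²` with the function and two derivatives bounded by `K` -/
structure C2b (φ : ℝ → ℝ) (K : ℝ) : Prop where
  d1 : Differentiable ℝ φ
  d2 : Differentiable ℝ (deriv φ)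
  b0 : ∀ y, |φ y| ≤ K
  b1 : ∀ y, |deriv φ y| ≤ K
  b2 : ∀ y, |deriv (deriv φ) y| ≤ K

/-- `C²` with two derivatives bounded by `K` (the function itself may be unbounded) -/
structure C2d (φ : ℝ → ℝ) (K : ℝ) : Prop where
  d1 : Differentiable ℝ φ
  d2 : Differentiable ℝ (deriv φ)
  b1 : ∀ y, |deriv φ y| ≤ K
  b2 : ∀ y, |deriv (deriv φ) y| ≤ K

/-- smooth with compact support -/
def Nice (f : ℝ → ℝ) : Prop := ContDiff ℝ ((⊤ : ℕ∞) : WithTop ℕ∞) f ∧ HasCompactSupport f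

/-- `θ = f'' + f'² - y f'` -/
noncomputable def theta (f : ℝ → ℝ) (y : ℝ) : ℝ :=
  deriv (deriv f) y + deriv f y ^ 2 - y * deriv f y

/-- the bounds on `f` used everywhere -/
structure NiceK (f : ℝ → ℝ) (K : ℝ) : Prop where
  nice : Nice f
  one_le : 1 ≤ K
  c0 : C2b f K
  c1 : C2b (deriv f) K
  ct : C2b (theta f) K

/-! ## Recursions on a general state space `Y` with increments `ρ j`. -/
section Rec
variable {Y : Type} [NormedAddCommGroup Y] [MeasurableSpace Y]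

/-- measurable with a linear envelope on increments -/
structure Env (X : Y → ℝ) (C : ℝ) : Prop where
  meas : Measurable X
  lip : ∀ y y', |X y - X y'| ≤ C * (1 + ‖y - y'‖)

/-- probability measure with all exponential moments -/
structure ExpM (ρ : Measure Y) : Prop where
  prob : IsProbabilityMeasure ρ
  int : ∀ c : ℝ, Integrable (fun η => exp (c * ‖η‖)) ρ

/-- the levels `j, ..., j+n-1` are admissible -/
def Lv (m : ℕ → ℝ) (ρ : ℕ → Measure Y) (n j : ℕ) : Prop :=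
  ∀ i, j ≤ i → i < j + n → 0 ≤ m i ∧ m i ≤ 1 ∧ ExpM (ρ i)

noncomputable def Tm (m : ℝ) (ρ : Measure Y) (φ : Y → ℝ) (y : Y) : ℝ :=
  if m = 0 then ∫ η, φ (y + η) ∂ρ else m⁻¹ * log (∫ η, exp (m * φ (y + η)) ∂ρ)

/-- levels `j, ..., j+n-1` applied to the terminal function `X` -/
noncomputable def Rec (m : ℕ → ℝ) (ρ : ℕ → Measure Y) (X : Y → ℝ) : ℕ → ℕ → Y → ℝ
  | 0, _ => X
  | n + 1, j => Tm (m j) (ρ j) (Rec m ρ X n (j + 1))

/-- tilted conditional expectation of `φ` through the levels `j, ..., j+n-1` -/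
noncomputable def Tl (m : ℕ → ℝ) (ρ : ℕ → Measure Y) (X φ : Y → ℝ) : ℕ → ℕ → Y → ℝ
  | 0, _ => φ
  | n + 1, j => fun y => ∫ η, Tl m ρ X φ n (j + 1) (y + η)
      ∂((ρ j).tilted fun η => m j * Rec m ρ X n (j + 1) (y + η))

/-- `e_i = E[(E_i φ)²]` : two replicas that branch after level `i ≤ k` -/
noncomputable def E2 (m : ℕ → ℝ) (ρ : ℕ → Measure Y) (X φ : Y → ℝ) (k i : ℕ) : ℝ :=
  Tl m ρ (Rec m ρ X (k - i) (i + 1)) (fun y => Tl m ρ X φ (k - i) (i + 1) y ^ 2) (i + 1) 0 0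

end Rec

/-- Gaussian increments of the path `q` -/
noncomputable def rq (q : ℕ → ℝ) (j : ℕ) : Measure ℝ := gw √(inc q j)

/-- `∑_{j ≤ i ≤ k} (m (i+1) - m i) e i` -/
def tail (k : ℕ) (m e : ℕ → ℝ) (j : ℕ) : ℝ := ∑ i ∈ Finset.Icc j k, (m (i + 1) - m i) * e i

/-- all gaps of the partition are at most `δ` -/
def Mesh (k : ℕ) (m : ℕ → ℝ) (δ : ℝ) : Prop := ∀ j ≤ k, m (j + 1) - m j ≤ δ

/-- `q + u 1_{≥ j}` -/
def bump (q : ℕ → ℝ) (u : ℝ) (j : ℕ) : ℕ → ℝ := fun i => if j ≤ i then q i + u else q i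

/-- replace the last value by `1` -/
def top1 (k : ℕ) (p : ℕ → ℝ) : ℕ → ℝ := fun i => if i = k then 1 else p i

/-- insert the value `c` at position `i+1` -/
def ins (i : ℕ) (c : ℝ) (m : ℕ → ℝ) : ℕ → ℝ :=
  fun j => if j ≤ i then m j else if j = i + 1 then c else m (j - 1)

/-- duplicate the value at position `i` -/
def dup (i : ℕ) (p : ℕ → ℝ) : ℕ → ℝ := fun j => if j ≤ i then p j else p (j - 1)

/-- overlap paths produced by synchronisation: monotone, in `[0,1]`, last value `1` -/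
def IsOv (k : ℕ) (p : ℕ → ℝ) : Prop := IsPath k p ∧ p k = 1

/-- `e_i` for the one-dimensional recursion -/
noncomputable def e1 (k : ℕ) (m q : ℕ → ℝ) (F φ : ℝ → ℝ) (i : ℕ) : ℝ := E2 m (rq q) F φ k i

/-- one-replica tilted mean for the one-dimensional recursion -/
noncomputable def t1 (k : ℕ) (m q : ℕ → ℝ) (F φ : ℝ → ℝ) : ℝ := Tl m (rq q) F φ (k + 1) 0 0

noncomputable def lc (y : ℝ) : ℝ := log (cosh y)

/-- overlap path of one Ising spin in the field `s` -/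
noncomputable def phat (k : ℕ) (m s : ℕ → ℝ) (i : ℕ) : ℝ := e1 k m s lc tanh i

/-- cavity spin with law `ν`, field path `s`, quadratic correction `κ` -/
noncomputable def psiNu (ν : Measure ℝ) (k : ℕ) (m s : ℕ → ℝ) (κ : ℝ) : ℝ :=
  parisi k m s (fun y => log (∫ x, exp (x * y - x ^ 2 * (s k - κ) / 2) ∂ν))

/-! ## Trees and cascades -/

/-- leaves of the `L`-ary tree of depth `n` -/
def Leaf (L : ℕ) : ℕ → Type
  | 0 => Unit
  | n + 1 => Fin L × Leaf L n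

/-- nodes (root included) of the `L`-ary tree of depth `n` -/
def Nd (L : ℕ) : ℕ → Type
  | 0 => Unit
  | n + 1 => Option (Fin L × Nd L n)

instance instFintypeLeaf (L : ℕ) : ∀ n, Fintype (Leaf L n)
  | 0 => inferInstanceAs (Fintype Unit)
  | n + 1 => @instFintypeProd _ _ _ (instFintypeLeaf L n)

instance instDecEqLeaf (L : ℕ) : ∀ n, DecidableEq (Leaf L n)
  | 0 => inferInstanceAs (DecidableEq Unit)
  | n + 1 => @instDecidableEqProd _ _ _ (instDecEqLeaf L n)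

instance instFintypeNd (L : ℕ) : ∀ n, Fintype (Nd L n)
  | 0 => inferInstanceAs (Fintype Unit)
  | n + 1 => @instFintypeOption _ (@instFintypeProd _ _ _ (instFintypeNd L n))

instance instDecEqNd (L : ℕ) : ∀ n, DecidableEq (Nd L n)
  | 0 => inferInstanceAs (DecidableEq Unit)
  | n + 1 => @Option.instDecidableEq _ (@instDecidableEqProd _ _ _ (instDecEqNd L n))

instance instMSLeaf (L n : ℕ) : MeasurableSpace (Leaf L n) := ⊤

instance instDMSLeaf (L n : ℕ) : DiscreteMeasurableSpace (Leaf L n) := ⟨fun _ => trivial⟩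

/-- ancestor of a leaf at depth `j` -/
def anc {L : ℕ} : ∀ {n : ℕ}, Leaf L n → ℕ → Nd L n
  | 0, _, _ => ()
  | _ + 1, _, 0 => none
  | _ + 1, ω, j + 1 => some (ω.1, anc ω.2 j)

/-- depth of a node -/
def dep {L : ℕ} : ∀ {n : ℕ}, Nd L n → ℕ
  | 0, _ => 0
  | _ + 1, none => 0
  | _ + 1, some x => dep x.2 + 1

/-- length of the common prefix of two leaves -/
def cj {L : ℕ} : ∀ {n : ℕ}, Leaf L n → Leaf L n → ℕ
  | 0, _, _ => 0
  | _ + 1, ω, ω' => if ω.1 = ω'.1 then cj ω.2 ω'.2 + 1 else 0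

/-- uniform measure on the leaves -/
noncomputable def unif (L k : ℕ) : Measure (Leaf L k) :=
  ((L : ENNReal) ^ k)⁻¹ • Measure.count

/-- `ν` is the law of `log S` for a positive `α`-stable `S` -/
structure IsStab (α : ℝ) (ν : Measure ℝ) : Prop where
  prob : IsProbabilityMeasure ν
  lap : ∀ l : ℝ, 0 ≤ l → ∫ u, exp (-(l * exp u)) ∂ν = exp (-(l ^ α))
  int : Integrable (fun u : ℝ => u) ν

open Classical in
noncomputable def stab (α : ℝ) : Measure ℝ :=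
  if h : ∃ ν, IsStab α ν then h.choose else Measure.dirac 0

/-- law of the log-weights attached to the nodes -/
noncomputable def PU (L k : ℕ) (m : ℕ → ℝ) : Measure (Nd L k → ℝ) :=
  Measure.pi fun x => stab (m (dep x) / m (dep x + 1))

/-- log-weight of a leaf -/
noncomputable def lw {L k : ℕ} (m : ℕ → ℝ) (u : Nd L k → ℝ) (ω : Leaf L k) : ℝ :=
  ∑ j ∈ Finset.Icc 1 k, u (anc ω j) / m (j + 1)

/-- normalising constant of the cascade -/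
noncomputable def cL (L k : ℕ) (m : ℕ → ℝ) : ℝ := FE (PU L k m) (unif L k) (lw m)

/-- nested finite averages (levels `j, ..., j+n-1`) -/
noncomputable def nest {L : ℕ} (m : ℕ → ℝ) : ∀ (n : ℕ) (_ : ℕ), (Leaf L n → ℝ) → ℝ
  | 0, _, a => a ()
  | n + 1, j, a => (m j)⁻¹ * log ((L : ℝ)⁻¹ * ∑ i : Fin L, exp (m j * nest m n (j + 1) fun ω => a (i, ω)))

/-- state of a leaf: sum of the marks along its path -/
def st {L k : ℕ} {E Y : Type} [AddCommMonoid Y] (w : ℕ → E → Y) (g : Nd L k → E) (ω : Leaf L k) : Y :=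
  ∑ j ∈ Finset.range (k + 1), w j (g (anc ω j))

/-- feature vector of the tree field with weights `w` -/
def tfeat {L k : ℕ} (w : ℕ → ℝ) (ω : Leaf L k) (x : Nd L k) : ℝ :=
  ∑ j ∈ Finset.range (k + 1), if x = anc ω j then w j else 0

/-- scalar tree field with weights `w` -/
def tf {L k : ℕ} (w : ℕ → ℝ) (g : Nd L k → ℝ) (ω : Leaf L k) : ℝ :=
  ∑ j ∈ Finset.range (k + 1), w j * g (anc ω j)

/-- weights of the path `q` -/
noncomputable def wq (q : ℕ → ℝ) (j : ℕ) : ℝ := √(inc q j)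

/-- indicator that two leaves share their ancestor at depth `j` -/
noncomputable def ind {L k : ℕ} (j : ℕ) (ω ω' : Leaf L k) : ℝ := if j ≤ cj ω ω' then 1 else 0

noncomputable def r2 (w₁ w₂ : ℕ → ℝ) (j : ℕ) : Measure (ℝ × ℝ) := (gw (w₁ j)).prod (gw (w₂ j))

noncomputable def r3 (w₁ w₂ w₃ : ℕ → ℝ) (j : ℕ) : Measure ((ℝ × ℝ) × ℝ) :=
  (r2 w₁ w₂ j).prod (gw (w₃ j))

section AC
variable {Ω S : Type} [MeasurableSpace Ω] [MeasurableSpace S]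

/-- The leaf marginal of the Gibbs measure is an approximate Ruelle cascade: tested on three
independent tree fields. -/
def AC {L : ℕ} (k : ℕ) (m : ℕ → ℝ) (P : Measure Ω) (μ : Measure S) (H : Ω → S → ℝ)
    (lf : S → Leaf L k) (B τ : ℝ) : Prop :=
  ∀ (w₁ w₂ w₃ : ℕ → ℝ) (X : (ℝ × ℝ) × ℝ → ℝ), (∀ j ≤ k, |w₁ j| ≤ B ∧ |w₂ j| ≤ B ∧ |w₃ j| ≤ B) →
    Env X B →
    |FE (((P.prod (gp (Nd L k))).prod (gp (Nd L k))).prod (gp (Nd L k))) μ
        (fun ω σ => H ω.1.1.1 σ + X ((tf w₁ ω.1.1.2 (lf σ), tf w₂ ω.1.2 (lf σ)), tf w₃ ω.2 (lf σ)))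
      - FE P μ H - Rec m (r3 w₁ w₂ w₃) X (k + 1) 0 0| ≤ τ

/-- overlap of two configurations -/
noncomputable def ov {N : ℕ} (x x' : Fin N → ℝ) : ℝ := (x ⬝ᵥ x') / N

/-- synchronisation of the spin overlap with the tree overlap -/
def Sync {L N : ℕ} (k : ℕ) (P : Measure Ω) (μ : Measure S) (H : Ω → S → ℝ) (sp : S → Fin N → ℝ)
    (lf : S → Leaf L k) (p : ℕ → ℝ) (η : ℝ) : Prop :=
  A2 P μ H (fun _ σ σ' => |ov (sp σ) (sp σ') - p (cj (lf σ) (lf σ'))|) ≤ η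

/-- configurations on the sphere of radius `√N` -/
structure IsSp {N : ℕ} (sp : S → Fin N → ℝ) : Prop where
  meas : Measurable sp
  norm : ∀ σ, sp σ ⬝ᵥ sp σ = N

end AC

/-! ## Overlap arrays -/

/-- entries: spin overlap and tree overlap -/
abbrev KK (k : ℕ) : Type := Set.Icc (-1 : ℝ) 1 × Fin (k + 1)

section Arr
variable {K : Type} [MeasurableSpace K]

/-- replica exchangeability -/
def Exch (Λ : Measure (ℕ → ℕ → K)) : Prop :=
  ∀ e : ℕ → ℕ, Function.Injective e → Λ.map (fun A i j => A (e i) (e j)) = Λ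

/-- depends only on the entries with indices `≤ n` -/
def DepOn {β : Type} (n : ℕ) (Φ : (ℕ → ℕ → K) → β) : Prop :=
  ∀ A A' : ℕ → ℕ → K, (∀ i ≤ n, ∀ j ≤ n, A i j = A' i j) → Φ A = Φ A'

/-- exact Ghirlanda-Guerra identities, for sets -/
def GGset (Λ : Measure (ℕ → ℕ → K)) : Prop :=
  ∀ (n : ℕ) (E : Set (ℕ → ℕ → K)) (D : Set K), MeasurableSet E → MeasurableSet D →
    DepOn n (fun A => A ∈ E) →
    ((n : ℝ) + 1) * Λ.real (E ∩ {A | A 0 (n + 1) ∈ D}) =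
      Λ.real E * Λ.real {A | A 0 1 ∈ D} + ∑ l ∈ Finset.Icc 1 n, Λ.real (E ∩ {A | A 0 l ∈ D})

/-- symmetric and positive semidefinite -/
def PSD (U : ℕ → ℕ → ℝ) : Prop :=
  (∀ i j, U i j = U j i) ∧
    ∀ (n : ℕ) (c : ℕ → ℝ), 0 ≤ ∑ i ∈ Finset.range n, ∑ j ∈ Finset.range n, c i * c j * U i j

end Arr

/-- deterministic constraints on the arrays -/
def ArrC (k : ℕ) : Set (ℕ → ℕ → KK k) :=
  {A | PSD (fun i j => ((A i j).1 : ℝ)) ∧ (∀ i j, (A i j).2 = (A j i).2) ∧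
    (∀ i, (A i i).2 = Fin.last k) ∧ ∀ a b c, min (A a c).2 (A b c).2 ≤ (A a b).2}

/-- test functions of one entry -/
noncomputable def psiK {k : ℕ} (a j : ℕ) (x : KK k) : ℝ :=
  (x.1 : ℝ) ^ a * if j ≤ (x.2 : ℕ) then 1 else 0

/-- approximate Ghirlanda-Guerra identity for continuous test functions -/
def ArrGG {k : ℕ} (Λ : Measure (ℕ → ℕ → KK k)) (n a j : ℕ) (ε : ℝ) : Prop :=
  ∀ Φ : (ℕ → ℕ → KK k) → ℝ, Continuous Φ → DepOn n Φ → (∀ A, |Φ A| ≤ 1) →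
    |((n : ℝ) + 1) * ∫ A, Φ A * psiK a j (A 0 (n + 1)) ∂Λ
      - (∫ A, Φ A ∂Λ) * ∫ A, psiK a j (A 0 1) ∂Λ
      - ∑ l ∈ Finset.Icc 1 n, ∫ A, Φ A * psiK a j (A 0 l) ∂Λ| ≤ ε

/-! ## The enriched perceptron system -/
section Sys
variable {S₀ : Type} [MeasurableSpace S₀] {N : ℕ}

/-- law of `M` patterns -/
noncomputable abbrev PG (N M : ℕ) : Measure (Fin M → Fin N → ℝ) := Measure.pi fun _ => gp (Fin N)

/-- normalised pattern field -/
noncomputable def fld (g x : Fin N → ℝ) : ℝ := (g ⬝ᵥ x) / √(N : ℝ)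

/-- pattern part of the Hamiltonian -/
noncomputable def pat (f : ℝ → ℝ) {M : ℕ} (G : Fin M → Fin N → ℝ) (x : Fin N → ℝ) : ℝ :=
  ∑ a, f (fld (G a) x)

/-- `E log Z` of the perceptron -/
noncomputable def EZ (μ : Measure S₀) (sp : S₀ → Fin N → ℝ) (f : ℝ → ℝ) (M : ℕ) : ℝ :=
  FE (PG N M) μ (fun G σ => pat f G (sp σ))

/-- perturbation terms `inl (a, j)` (covariance `R^a 1_{J ≥ j}`) and field terms `inr j`
(covariance `R 1_{J ≥ j}`) -/
abbrev TT (n₀ k : ℕ) : Type := (Fin (n₀ + 1) × Fin (k + 1)) ⊕ Fin (k + 1)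

def deg {n₀ k : ℕ} : TT n₀ k → ℕ
  | .inl x => x.1
  | .inr _ => 1

def lev {n₀ k : ℕ} : TT n₀ k → ℕ
  | .inl x => x.2
  | .inr j => j

/-- Gaussian coordinates attached to each node -/
abbrev DD (n₀ k N : ℕ) : Type := Σ t : TT n₀ k, (Fin (deg t) → Fin N)

abbrev II (L k n₀ N : ℕ) : Type := Nd L k × DD n₀ k N

/-- feature vector of the Gaussian part of the Hamiltonian -/
noncomputable def feat {L k n₀ : ℕ} (b : TT n₀ k → ℝ) (x : Fin N → ℝ) (ω : Leaf L k)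
    (c : II L k n₀ N) : ℝ :=
  if c.1 = anc ω (lev c.2.1) then b c.2.1 * ((∏ l, x (c.2.2 l)) / √(N : ℝ) ^ deg c.2.1) else 0

/-- covariance kernel of the term `t` -/
noncomputable def ker {L k n₀ : ℕ} (t : TT n₀ k) (x x' : Fin N → ℝ) (ω ω' : Leaf L k) : ℝ :=
  ov x x' ^ deg t * ind (lev t) ω ω'

abbrev SO (L k n₀ N M : ℕ) : Type := ((Nd L k → ℝ) × (Fin M → Fin N → ℝ)) × (II L k n₀ N → ℝ)

noncomputable def SP (L k n₀ N M : ℕ) (m : ℕ → ℝ) : Measure (SO L k n₀ N M) :=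
  ((PU L k m).prod (PG N M)).prod (gp (II L k n₀ N))

/-- Hamiltonian of the enriched system -/
noncomputable def SH {L k n₀ M : ℕ} (f : ℝ → ℝ) (m : ℕ → ℝ) (sp : S₀ → Fin N → ℝ)
    (b : TT n₀ k → ℝ) (ω : SO L k n₀ N M) (x : S₀ × Leaf L k) : ℝ :=
  lw m ω.1.1 x.2 + pat f ω.1.2 (sp x.1) + feat b (sp x.1) x.2 ⬝ᵥ ω.2

/-- free energy of the enriched system -/
noncomputable def SW (L k n₀ M : ℕ) (f : ℝ → ℝ) (m : ℕ → ℝ) (μ : Measure S₀)
    (sp : S₀ → Fin N → ℝ) (b : TT n₀ k → ℝ) : ℝ :=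
  FE (SP L k n₀ N M m) (μ.prod (unif L k)) (SH f m sp b)

/-- `Sync` for the enriched system -/
def SSync (L k n₀ M : ℕ) (f : ℝ → ℝ) (m : ℕ → ℝ) (μ : Measure S₀) (sp : S₀ → Fin N → ℝ)
    (b : TT n₀ k → ℝ) (p : ℕ → ℝ) (η : ℝ) : Prop :=
  Sync k (SP L k n₀ N M m) (μ.prod (unif L k)) (SH f m sp b) (fun x => sp x.1) Prod.snd p η

/-- `AC` for the enriched system -/
def SAC (L k n₀ M : ℕ) (f : ℝ → ℝ) (m : ℕ → ℝ) (μ : Measure S₀) (sp : S₀ → Fin N → ℝ)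
    (b : TT n₀ k → ℝ) (B τ : ℝ) : Prop :=
  AC k m (SP L k n₀ N M m) (μ.prod (unif L k)) (SH f m sp b) Prod.snd B τ

/-- `E ⟨φ⟩` in the enriched system, two replicas -/
noncomputable def SA2 (L k n₀ M : ℕ) (f : ℝ → ℝ) (m : ℕ → ℝ) (μ : Measure S₀)
    (sp : S₀ → Fin N → ℝ) (b : TT n₀ k → ℝ)
    (φ : SO L k n₀ N M → S₀ × Leaf L k → S₀ × Leaf L k → ℝ) : ℝ :=
  A2 (SP L k n₀ N M m) (μ.prod (unif L k)) (SH f m sp b) φ

noncomputable def SA1 (L k n₀ M : ℕ) (f : ℝ → ℝ) (m : ℕ → ℝ) (μ : Measure S₀)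
    (sp : S₀ → Fin N → ℝ) (b : TT n₀ k → ℝ) (φ : SO L k n₀ N M → S₀ × Leaf L k → ℝ) : ℝ :=
  A1 (SP L k n₀ N M m) (μ.prod (unif L k)) (SH f m sp b) φ

/-- `b` maximises `SW - penalty` in each perturbation direction inside the box `[0, 5 s]` -/
def Touch (L k n₀ M : ℕ) (f : ℝ → ℝ) (m : ℕ → ℝ) (μ : Measure S₀) (sp : S₀ → Fin N → ℝ)
    (b : TT n₀ k → ℝ) (s : ℝ) : Prop :=
  ∀ x : Fin (n₀ + 1) × Fin (k + 1), 0 ≤ b (.inl x) ∧ b (.inl x) ≤ 5 * s ∧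
    ∀ y : ℝ, 0 ≤ y → y ≤ 5 * s →
      SW L k n₀ M f m μ sp (Function.update b (.inl x) y) - 2 * (y - 2 * s) ^ 2 ≤
        SW L k n₀ M f m μ sp b - 2 * (b (.inl x) - 2 * s) ^ 2

/-- second-species overlap `Q`, normalised by `N+1` -/
noncomputable def QQ (f : ℝ → ℝ) {M : ℕ} (G : Fin M → Fin N → ℝ) (x x' : Fin N → ℝ) : ℝ :=
  (∑ a, deriv f (fld (G a) x) * deriv f (fld (G a) x')) / ((N : ℝ) + 1)

noncomputable def TQ (f : ℝ → ℝ) {M : ℕ} (G : Fin M → Fin N → ℝ) (x : Fin N → ℝ) : ℝ :=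
  (∑ a, theta f (fld (G a) x)) / ((N : ℝ) + 1)

/-- the field path seen by a cavity spin -/
noncomputable def rr (f : ℝ → ℝ) (N M k : ℕ) (m p : ℕ → ℝ) (j : ℕ) : ℝ :=
  (M : ℝ) / ((N : ℝ) + 1) * e1 k m p f (deriv f) j

/-- add one coordinate `e` and rescale to the sphere of radius `√(N+1)` -/
noncomputable def ext (x : Fin N → ℝ) (e : ℝ) : Fin (N + 1) → ℝ :=
  Fin.snoc (α := fun _ => ℝ) (fun i => √(((N : ℝ) + 1 - e ^ 2) / N) * x i) e

/-- data describing the added coordinate -/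
structure SpinData (B τ₀ : ℝ) (νξ : Measure ℝ) (ν : Measure (ℝ × ℝ)) (ε ξ : ℝ × ℝ → ℝ) : Prop where
  prob : IsProbabilityMeasure ν
  mε : Measurable ε
  mξ : Measurable ξ
  bε : ∀ z, |ε z| ≤ B
  bξ : ∀ z, |ξ z| ≤ B
  close : ∀ z, |ε z - ξ z| ≤ τ₀
  law : ν.map ξ = νξ

/-- configurations of the (truncated) system with one more coordinate -/
noncomputable def spx (sp : S₀ → Fin N → ℝ) (ε : ℝ × ℝ → ℝ) (x : S₀ × (ℝ × ℝ)) : Fin (N + 1) → ℝ :=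
  ext (sp x.1) (ε x.2)

/-- extra field `s'` and quadratic term `x` on the new coordinate -/
noncomputable def extra {L k : ℕ} (ξ : ℝ × ℝ → ℝ) (s' : ℕ → ℝ) (x : ℝ) (g : Nd L k → ℝ)
    (c : (S₀ × (ℝ × ℝ)) × Leaf L k) : ℝ :=
  ξ c.1.2 * tf (wq s') g c.2 - ξ c.1.2 ^ 2 * s' k / 2 + x * ξ c.1.2 ^ 2

/-- free energy of the truncated `(N+1)`-system with the extra term -/
noncomputable def SWx (L k n₀ M : ℕ) (f : ℝ → ℝ) (m : ℕ → ℝ) (μ : Measure S₀)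
    (sp : S₀ → Fin N → ℝ) (b : TT n₀ k → ℝ) (ν : Measure (ℝ × ℝ)) (ε ξ : ℝ × ℝ → ℝ)
    (s' : ℕ → ℝ) (x : ℝ) : ℝ :=
  FE ((SP L k n₀ (N + 1) M m).prod (gp (Nd L k))) ((μ.prod ν).prod (unif L k))
    (fun ω c => SH f m (spx sp ε) b ω.1 c + extra ξ s' x ω.2 c)

/-- change of one pattern term when a coordinate `a √(N+1)` is added -/
noncomputable def DD1 (f : ℝ → ℝ) (a S z : ℝ) : ℝ := f (√(1 - a ^ 2) * S + a * z) - f S

/-- its second order approximation -/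
noncomputable def DD2 (f : ℝ → ℝ) (a S z : ℝ) : ℝ :=
  a * deriv f S * z - a ^ 2 * deriv f S ^ 2 / 2 + a ^ 2 * theta f S / 2

/-- intermediate free energies of the spin cavity (`D = DD1 f` or `DD2 f`) -/
noncomputable def SX (D : ℝ → ℝ → ℝ → ℝ) (L k n₀ M : ℕ) (f : ℝ → ℝ) (m : ℕ → ℝ) (μ : Measure S₀)
    (sp : S₀ → Fin N → ℝ) (b : TT n₀ k → ℝ) (ν : Measure (ℝ × ℝ)) (ε ξ : ℝ × ℝ → ℝ)
    (s' : ℕ → ℝ) (x : ℝ) : ℝ :=
  FE (((SP L k n₀ N M m).prod (gp (Nd L k))).prod (gp (Fin M))) ((μ.prod ν).prod (unif L k))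
    (fun ω c => SH f m sp b ω.1.1 (c.1.1, c.2) + extra ξ s' x ω.1.2 c +
      ∑ a, D (ε c.1.2 / √((N : ℝ) + 1)) (fld (ω.1.1.1.2 a) (sp c.1.1)) (ω.2 a))

/-- `N`-dimensional recursion for the free spins in a hierarchical field -/
noncomputable def RecN (k : ℕ) (m : ℕ → ℝ) (μ : Measure S₀) (sp : S₀ → Fin N → ℝ) (β : ℕ → ℝ) : ℝ :=
  Rec m (fun j => (gp (Fin N)).map (fun g => β j • g))
    (fun y => log (∫ σ, exp (y ⬝ᵥ sp σ) ∂μ)) (k + 1) 0 0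

end Sys

/-! ## Hypotheses on a family of configuration spaces -/

/-- a family of configuration spaces -/
structure Fam (μ : ∀ N, Measure (Fin N → ℝ)) (sp : ∀ N, (Fin N → ℝ) → Fin N → ℝ) : Prop where
  prob : ∀ N, IsProbabilityMeasure (μ N)
  isSp : ∀ N, IsSp (sp N)

/-- bound on the initial condition (no patterns) -/
def InitB (μ : ∀ N, Measure (Fin N → ℝ)) (sp : ∀ N, (Fin N → ℝ) → Fin N → ℝ) (k : ℕ)
    (m p : ℕ → ℝ) (S : ℝ) : Prop :=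
  ∀ η > (0 : ℝ), ∀ᶠ N in Filter.atTop, ∀ β : ℕ → ℝ,
    RecN k m (μ N) (sp N) β / N + ∑ j ∈ Finset.range (k + 1), β j ^ 2 * (tail k m p j - 1) / 2
      ≤ S + η * (1 + ∑ j ∈ Finset.range (k + 1), β j ^ 2)

/-- the `(N+1)`-system is well approximated by a truncated extension of the `N`-system -/
def ExtH (μ : ∀ N, Measure (Fin N → ℝ)) (sp : ∀ N, (Fin N → ℝ) → Fin N → ℝ) (f : ℝ → ℝ)
    (B : ℝ) (νξ : Measure ℝ) (t : ℝ) : Prop :=
  ∀ τ₀ > (0 : ℝ), ∀ᶠ N in Filter.atTop, ∃ (ν : Measure (ℝ × ℝ)) (ε ξ : ℝ × ℝ → ℝ),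
    SpinData B τ₀ νξ ν ε ξ ∧
    ∀ (L k n₀ M : ℕ) (m : ℕ → ℝ) (b : TT n₀ k → ℝ), 0 < L → IsPartition k m →
      SW L k n₀ M f m ((μ N).prod ν) (spx (sp N) ε) b - t ≤
        SW L k n₀ M f m (μ (N + 1)) (sp (N + 1)) b ∧
      (∀ j ≤ k, |SA2 L k n₀ M f m ((μ N).prod ν) (spx (sp N) ε) b
            (fun _ c c' => ξ c.1.2 * ξ c'.1.2 * ind j c.2 c'.2)
          - SA2 L k n₀ M f m ((μ N).prod ν) (spx (sp N) ε) b
            (fun _ c c' => ov (spx (sp N) ε c.1) (spx (sp N) ε c'.1) * ind j c.2 c'.2)| ≤ t) ∧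
      |SA1 L k n₀ M f m ((μ N).prod ν) (spx (sp N) ε) b (fun _ c => ξ c.1.2 ^ 2) - 1| ≤ t

/-- the approximate self-consistency equations delivered by the spin cavity -/
def Facts (νξ : Measure ℝ) (k : ℕ) (m p r : ℕ → ℝ) (B u x₀ t τ : ℝ) : Prop :=
  (∀ j ≤ k, |psiNu νξ k m (bump r u j) (pair k m r p) - psiNu νξ k m r (pair k m r p)
      + u / 2 * tail k m p j| ≤ τ + u * t + 10 * B ^ 3 * (u * √u)) ∧
  ∀ x : ℝ, |x| = x₀ →
    x - x₀ * t - τ ≤ psiNu νξ k m r (pair k m r p + 2 * x) - psiNu νξ k m r (pair k m r p)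

/-- the space-dependent input of the lower bound -/
def LBH (μ : ∀ N, Measure (Fin N → ℝ)) (sp : ∀ N, (Fin N → ℝ) → Fin N → ℝ) (α : ℝ) (f : ℝ → ℝ)
    (R V : ℝ) : Prop :=
  ∀ ε > (0 : ℝ), ∃ (B u x₀ t τ δ : ℝ) (νξ : Measure ℝ), 1 ≤ B ∧ 0 < u ∧ u * B ^ 2 ≤ 1 ∧ 0 < x₀ ∧
    x₀ ≤ 1 ∧ 0 ≤ t ∧ 0 < τ ∧ 0 < δ ∧ ExtH μ sp f B νξ t ∧
    ∀ (k : ℕ) (m p r : ℕ → ℝ), 1 ≤ k → IsPartition k m → Mesh k m δ → IsOv k p → IsPath k r →
      r k ≤ R → Facts νξ k m p r B u x₀ t τ →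
      V - ε ≤ α * parisi k m p f + psiNu νξ k m r (pair k m r p) - t

/-! ## Ising and spherical configuration spaces -/

/-- even and nondecreasing on `[0, ∞)` -/
def EI (φ : ℝ → ℝ) : Prop := (∀ y, φ (-y) = φ y) ∧ MonotoneOn φ (Set.Ici 0)

/-- odd and nondecreasing on `[0, ∞)` -/
def OI (u : ℝ → ℝ) : Prop := (∀ y, u (-y) = -u y) ∧ MonotoneOn u (Set.Ici 0)

/-- tilted Gaussian kernel -/
noncomputable def Kt (w : ℝ) (X φ : ℝ → ℝ) (y : ℝ) : ℝ :=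
  ∫ η, φ (y + η) ∂((gw w).tilted fun η => X (y + η))

noncomputable def isingSp (N : ℕ) (x : Fin N → ℝ) : Fin N → ℝ := fun i => if 0 ≤ x i then 1 else -1

/-- Rademacher law -/
noncomputable def rad : Measure ℝ :=
  (2⁻¹ : ENNReal) • Measure.dirac (1 : ℝ) + (2⁻¹ : ENNReal) • Measure.dirac (-1 : ℝ)

open Classical in
noncomputable def sphSp (N : ℕ) (x : Fin N → ℝ) : Fin N → ℝ :=
  if x = 0 then fun _ => 1 else (√(N : ℝ) / √(x ⬝ᵥ x)) • x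

/-- law of the Euclidean norm of a standard Gaussian vector -/
noncomputable def chi (N : ℕ) : Measure ℝ := (gp (Fin N)).map fun x => √(x ⬝ᵥ x)

/-- standard Gaussian conditioned on `[-B, B]` -/
noncomputable def gB (B : ℝ) : Measure ℝ := ProbabilityTheory.cond (gaussianReal 0 1) (Set.Icc (-B) B)

/-- precision of the Gaussian spin after the levels `> j` are integrated out; `bq k m r b k = b` -/
def bq (k : ℕ) (m r : ℕ → ℝ) (b : ℝ) (j : ℕ) : ℝ :=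
  b - ∑ i ∈ Finset.Ico j k, m (i + 1) * (r (i + 1) - r i)

/-- explicit value of the recursion with terminal function `y² / (2b)` -/
noncomputable def quadV (k : ℕ) (m r : ℕ → ℝ) (b : ℝ) : ℝ :=
  r 0 / (2 * bq k m r b 0) +
    ∑ j ∈ Finset.range k, (2 * m (j + 1))⁻¹ * log (bq k m r b (j + 1) / bq k m r b j)

/-- value for the untruncated Gaussian cavity spin -/
noncomputable def psiG (k : ℕ) (m r : ℕ → ℝ) (κ : ℝ) : ℝ :=
  quadV k m r (1 + r k - κ) - log (1 + r k - κ) / 2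

/-- overlap path of the untruncated Gaussian cavity spin -/
noncomputable def pG (k : ℕ) (m r : ℕ → ℝ) (b : ℝ) (j : ℕ) : ℝ :=
  r 0 / bq k m r b 0 ^ 2 +
    ∑ i ∈ Finset.range j, (r (i + 1) - r i) / (bq k m r b (i + 1) * bq k m r b i)

end P157
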