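import Vale.Agent.P157.Core

/-! P157 Dup: the duplication lemma from the Ghirlanda-Guerra identities.
Plan. By exchangeability (swap `i₀` and `0`) assume `i₀ = 0`. Let `A = Ev n`, for `i > n` let
`O i = {∀ l ∈ [1,n], u (X l i) ∈ T (τ l) (τ 0)}` and `D i = {u (X 0 i) > c}` (use a.e. symmetry to
pass between `X l i` and `X i l`). Suppose `Λ (A ∩ O (n+1) \ D (n+1)) = 0`; by exchangeability the
same holds for every `i > n`. Put `E k = A ∩ ⋂_{i=1..k} (O (n+i))ᶜ`, `e k = Λ.real (E k)`,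
`b k = Λ.real (E k ∩ D (n+k+1))`, `γ = Λ.real {u (X 0 1) > c} < 1` (as `Λ A > 0` and `u (X 0 1) ≤ c`
on `A`, `n ≥ 1`). `GGset` for `E k` (with `n+k` in place of `n`; the terms `l ≤ n` vanish on `A`) and
exchangeability give `(n+k+1) b k = γ e k + k (b (k-1) - (e (k-1) - e k))`. Summing over `k ≤ K`:
`(1-γ) ∑_{k<K} e k ≤ (K+1) e K`. Next `∑_k e k ≤ 1`: `A = A' ∩ O 0` where `A'` only constrains the
replicas `1..n` and `O 0` is the same event for replica `0`; by exchangeability (a permutation of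
`{0, n+1, ..., n+k}`) `e k` is the probability of `A' ∩ (O (n+1))ᶜ ∩ ... ∩ (O (n+k))ᶜ ∩ O (n+k+1)`,
and these events are disjoint. `e` is antitone and summable so `K e K → 0`, whence `e 0 = 0`,
a contradiction.
-/

open MeasureTheory ProbabilityTheory Real
open scoped BigOperators Matrix

namespace P157

variable {K : Type} [MeasurableSpace K] {Λ : Measure (ℕ → ℕ → K)} [IsProbabilityMeasure Λ]

theorem measurable_rx (e : ℕ → ℕ) :
    Measurable (fun (A : ℕ → ℕ → K) i j => A (e i) (e j)) := by fun_prop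

theorem Exch.pre (hE : Exch Λ) {e : ℕ → ℕ} (he : Function.Injective e) {E : Set (ℕ → ℕ → K)}
    (hm : MeasurableSet E) : Λ ((fun A i j => A (e i) (e j)) ⁻¹' E) = Λ E := by
  rw [← Measure.map_apply (measurable_rx e) hm, hE e he]

theorem Exch.real_pre (hE : Exch Λ) {e : ℕ → ℕ} (he : Function.Injective e)
    {E : Set (ℕ → ℕ → K)} (hm : MeasurableSet E) :
    Λ.real ((fun A i j => A (e i) (e j)) ⁻¹' E) = Λ.real E := by
  rw [measureReal_def, measureReal_def, hE.pre he hm]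

theorem Exch.ae (hE : Exch Λ) {e : ℕ → ℕ} (he : Function.Injective e)
    {p : (ℕ → ℕ → K) → Prop} (h : ∀ᵐ A ∂Λ, p A) : ∀ᵐ A ∂Λ, p (fun i j => A (e i) (e j)) := by
  rw [← hE e he] at h
  exact ae_of_ae_map (measurable_rx e).aemeasurable h

theorem dup_real {e b : ℕ → ℝ} {γ : ℝ} {n : ℕ} (he : ∀ k, 0 ≤ e k) (hb : ∀ k, 0 ≤ b k)
    (hγ0 : 0 ≤ γ) (hγ : γ ≤ 1 - e 0) (hs : ∀ N, ∑ k ∈ Finset.range N, e k ≤ 1)
    (h0 : ((n : ℝ) + 1) * b 0 = e 0 * γ)
    (h1 : ∀ k : ℕ, ((n : ℝ) + (k + 1) + 1) * b (k + 1) =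
      e (k + 1) * γ + (k + 1) * (b k - (e k - e (k + 1)))) : e 0 = 0 := by
  have hn : (0 : ℝ) ≤ n := Nat.cast_nonneg n
  have key : ∀ N : ℕ, ((N : ℝ) + 1) * b N ≤ γ * ∑ k ∈ Finset.range (N + 1), e k
      - ∑ k ∈ Finset.range N, e k + N * e N := by
    intro N
    induction N with
    | zero =>
      simp only [Nat.cast_zero, zero_add, one_mul, Finset.range_one, Finset.sum_singleton,
        Finset.range_zero, Finset.sum_empty, sub_zero, zero_mul, add_zero]
      nlinarith [mul_nonneg hn (hb 0)]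
    | succ N ih =>
      have := h1 N
      rw [Finset.sum_range_succ _ (N + 1), Finset.sum_range_succ e N]
      rw [Finset.sum_range_succ e N] at ih
      push_cast
      nlinarith [mul_nonneg hn (hb (N + 1))]
  by_contra hne
  have hp : 0 < e 0 := lt_of_le_of_ne (he 0) (Ne.symm hne)
  have low : ∀ N : ℕ, e 0 * e 0 * (1 / ((N : ℝ) + 1)) ≤ e N := by
    intro N
    have hN : (0 : ℝ) < (N : ℝ) + 1 := by positivity
    rw [mul_one_div, div_le_iff₀ hN]
    rcases Nat.eq_zero_or_pos N with rfl | hN0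
    · simp only [Nat.cast_zero, zero_add, mul_one]
      nlinarith
    · have h2 := key N
      have h3 : e 0 ≤ ∑ k ∈ Finset.range N, e k :=
        Finset.single_le_sum (f := e) (fun k _ => he k) (Finset.mem_range.2 hN0)
      rw [Finset.sum_range_succ] at h2
      have h4 := mul_nonneg hN.le (hb N)
      have h5 : γ * e N ≤ e N := by nlinarith [he N]
      nlinarith
  have ht := Real.tendsto_sum_range_one_div_nat_succ_atTop
  obtain ⟨N, hN⟩ := (ht.eventually_gt_atTop (1 / (e 0 * e 0))).exists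
  have h6 : e 0 * e 0 * ∑ k ∈ Finset.range N, 1 / ((k : ℝ) + 1) ≤ 1 := by
    rw [Finset.mul_sum]
    exact (Finset.sum_le_sum fun k _ => low k).trans (hs N)
  rw [div_lt_iff₀ (by positivity)] at hN
  linarith

theorem dup_core (hE : Exch Λ) (hG : GGset Λ) {n : ℕ} (hn : 1 ≤ n) {B : Set (ℕ → ℕ → K)}
    {O : ℕ → Set (ℕ → ℕ → K)} {D : Set K} (hB : MeasurableSet B) (hO : ∀ i, MeasurableSet (O i))
    (hD : MeasurableSet D)
    (hBe : ∀ e : ℕ → ℕ, (∀ l, 1 ≤ l → l ≤ n → e l = l) →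
      ∀ A : ℕ → ℕ → K, (fun i j => A (e i) (e j)) ∈ B ↔ A ∈ B)
    (hOe : ∀ e : ℕ → ℕ, (∀ l, 1 ≤ l → l ≤ n → e l = l) →
      ∀ (m : ℕ) (A : ℕ → ℕ → K), (fun i j => A (e i) (e j)) ∈ O m ↔ A ∈ O (e m))
    (hBd : DepOn n (fun A => A ∈ B)) (hOd : ∀ i N, n ≤ N → i ≤ N → DepOn N (fun A => A ∈ O i))
    (h0 : ∀ A ∈ O 0, ∀ l, 1 ≤ l → l ≤ n → A 0 l ∉ D)
    (hz : Λ (B ∩ O 0 ∩ O (n + 1) ∩ {A | A 0 (n + 1) ∉ D}) = 0) : Λ (B ∩ O 0) = 0 := by
  classical
  let F : ℕ → Set (ℕ → ℕ → K) := fun k => B ∩ {A | ∀ i, n < i → i ≤ n + k → A ∉ O i}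
  let DD : ℕ → Set (ℕ → ℕ → K) := fun m => {A | A 0 m ∈ D}
  have hDD : ∀ m, MeasurableSet (DD m) := fun m =>
    (show Measurable fun A : ℕ → ℕ → K => A 0 m by fun_prop) hD
  have hF : ∀ k, MeasurableSet (F k) := fun k => by
    refine hB.inter ?_
    have : {A | ∀ i, n < i → i ≤ n + k → A ∉ O i} = ⋂ i ∈ Set.Ioc n (n + k), (O i)ᶜ := by
      ext A; simp
    rw [this]
    exact MeasurableSet.biInter (Set.to_countable _) fun i _ => (hO i).compl
  have hF0 : F 0 = B := by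
    ext A
    simp only [F, Set.mem_inter_iff, Set.mem_ofPred_eq, add_zero, and_iff_left_iff_imp]
    intro _ i h1 h2
    omega
  have hFs : ∀ k, F (k + 1) = F k \ O (n + k + 1) := fun k => by
    ext A
    simp only [F, Set.mem_inter_iff, Set.mem_ofPred_eq, Set.mem_sdiff]
    constructor
    · rintro ⟨h1, h2⟩
      exact ⟨⟨h1, fun i a b => h2 i a (by omega)⟩, h2 _ (by omega) (by omega)⟩
    · rintro ⟨⟨h1, h2⟩, h3⟩
      refine ⟨h1, fun i a b => ?_⟩
      rcases Nat.lt_or_ge i (n + k + 1) with h | h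
      · exact h2 i a (by omega)
      · rwa [show i = n + k + 1 by omega]
  -- invariance of `F k` under swaps
  have hFe : ∀ k a b, (a = 0 ∨ n < a) → (b = 0 ∨ n < b) →
      ((n < a ∧ a ≤ n + k) ↔ (n < b ∧ b ≤ n + k)) →
      ∀ A : ℕ → ℕ → K, (fun i j => A (Equiv.swap a b i) (Equiv.swap a b j)) ∈ F k ↔ A ∈ F k := by
    intro k a b ha hb hab A
    have hfix : ∀ l, 1 ≤ l → l ≤ n → Equiv.swap a b l = l := fun l h1 h2 =>
      Equiv.swap_apply_of_ne_of_ne (by omega) (by omega)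
    have hin : ∀ i, n < i → i ≤ n + k → n < Equiv.swap a b i ∧ Equiv.swap a b i ≤ n + k := by
      intro i h1 h2
      rw [Equiv.swap_apply_def]
      split_ifs with h3 h4
      · exact hab.1 (h3 ▸ ⟨h1, h2⟩)
      · exact hab.2 (h4 ▸ ⟨h1, h2⟩)
      · exact ⟨h1, h2⟩
    simp only [F, Set.mem_inter_iff, Set.mem_ofPred_eq, hBe _ hfix, hOe _ hfix]
    refine and_congr_right fun _ => ⟨fun h i h1 h2 => ?_, fun h i h1 h2 => h _ (hin i h1 h2).1
      (hin i h1 h2).2⟩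
    have := h _ (hin i h1 h2).1 (hin i h1 h2).2
    rwa [Equiv.swap_apply_self] at this
  have hfix : ∀ a b, (a = 0 ∨ n < a) → (b = 0 ∨ n < b) → ∀ l, 1 ≤ l → l ≤ n →
      Equiv.swap a b l = l := fun a b ha hb l h1 h2 =>
    Equiv.swap_apply_of_ne_of_ne (by omega) (by omega)
  have hz' : ∀ m, n < m → Λ (B ∩ O 0 ∩ O m ∩ (DD m)ᶜ) = 0 := by
    intro m hm
    rw [← hz, ← hE.pre (Equiv.swap (n + 1) m).injective
      (((hB.inter (hO 0)).inter (hO m)).inter (hDD m).compl)]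
    congr 1
    ext A
    have h00 : Equiv.swap (n + 1) m 0 = 0 := Equiv.swap_apply_of_ne_of_ne (by omega) (by omega)
    have hf := hfix (n + 1) m (by omega) (by omega)
    simp only [DD, Set.mem_preimage, Set.mem_inter_iff, hBe _ hf, hOe _ hf, h00,
      Equiv.swap_apply_right, Set.mem_compl_iff, Set.mem_ofPred_eq]
  let e : ℕ → ℝ := fun k => Λ.real (F k ∩ O 0)
  let b : ℕ → ℝ := fun k => Λ.real (F k ∩ O 0 ∩ DD (n + k + 1))
  have hGk : ∀ k, ((n + k : ℕ) + 1 : ℝ) * b k = e k * Λ.real (DD 1) +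
      ∑ l ∈ Finset.Icc 1 (n + k), Λ.real (F k ∩ O 0 ∩ DD l) := fun k => by
    refine hG (n + k) (F k ∩ O 0) D ((hF k).inter (hO 0)) hD ?_
    intro A A' h
    have h1 := hBd A A' fun i hi j hj => h i (by omega) j (by omega)
    have h2 : ∀ i, i ≤ n + k → (A ∈ O i) = (A' ∈ O i) := fun i hi =>
      hOd i (n + k) (by omega) hi A A' h
    simp only [F, Set.mem_inter_iff, Set.mem_ofPred_eq] at h1 ⊢
    rw [h1, h2 0 (by omega)]
    refine propext (and_congr_left fun _ => and_congr_right fun _ => ?_)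
    exact ⟨fun g i a b => h2 i b ▸ g i a b, fun g i a b => (h2 i b).symm ▸ g i a b⟩
  have hsum : ∀ k, ∑ l ∈ Finset.Icc 1 (n + k), Λ.real (F k ∩ O 0 ∩ DD l) =
      k * Λ.real (F k ∩ O 0 ∩ DD (n + k)) := fun k => by
    have hsub : Finset.Ioc n (n + k) ⊆ Finset.Icc 1 (n + k) := fun l hl => by
      simp only [Finset.mem_Ioc, Finset.mem_Icc] at hl ⊢
      omega
    rw [← Finset.sum_subset hsub, Finset.sum_congr rfl (g := fun _ =>
      Λ.real (F k ∩ O 0 ∩ DD (n + k)))]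
    · simp
    · intro l hl
      rw [Finset.mem_Ioc] at hl
      rw [← hE.real_pre (Equiv.swap l (n + k)).injective
        (((hF k).inter (hO 0)).inter (hDD (n + k)))]
      congr 1
      ext A
      have h00 : Equiv.swap l (n + k) 0 = 0 := Equiv.swap_apply_of_ne_of_ne (by omega) (by omega)
      have hf := hfix l (n + k) (by omega) (by omega)
      simp only [DD, Set.mem_preimage, Set.mem_inter_iff,
        hFe k l (n + k) (by omega) (by omega) (by omega), hOe _ hf, h00,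
        Equiv.swap_apply_right, Set.mem_ofPred_eq]
    · intro l hl hl'
      simp only [Finset.mem_Ioc, Finset.mem_Icc] at hl hl'
      have : F k ∩ O 0 ∩ DD l = ∅ :=
        Set.eq_empty_of_forall_notMem fun A hA => h0 A hA.1.2 l hl.1 (by omega) hA.2
      rw [this, measureReal_empty]
  have hes : ∀ k, e k - e (k + 1) = Λ.real (F k ∩ O 0 ∩ O (n + k + 1)) := fun k => by
    have := measureReal_inter_add_sdiff (μ := Λ) (s := F k ∩ O 0) (hO (n + k + 1))
    have h2 : (F k ∩ O 0) \ O (n + k + 1) = F (k + 1) ∩ O 0 := by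
      rw [hFs]; ext A; simp only [Set.mem_sdiff, Set.mem_inter_iff]; tauto
    rw [h2] at this
    simp only [e]
    linarith
  have hbs : ∀ k, Λ.real (F (k + 1) ∩ O 0 ∩ DD (n + (k + 1))) = b k - (e k - e (k + 1)) := by
    intro k
    rw [hes]
    have h1 := measureReal_inter_add_sdiff (μ := Λ) (s := F k ∩ O 0 ∩ DD (n + k + 1))
      (hO (n + k + 1))
    have h2 : (F k ∩ O 0 ∩ DD (n + k + 1)) \ O (n + k + 1) =
        F (k + 1) ∩ O 0 ∩ DD (n + (k + 1)) := by
      rw [hFs, ← add_assoc]; ext A; simp only [Set.mem_sdiff, Set.mem_inter_iff]; tauto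
    have h3 := measureReal_inter_add_sdiff (μ := Λ) (s := F k ∩ O 0 ∩ O (n + k + 1))
      (hDD (n + k + 1))
    have h4 : Λ.real ((F k ∩ O 0 ∩ O (n + k + 1)) \ DD (n + k + 1)) = 0 := by
      rw [measureReal_eq_zero_iff]
      refine measure_mono_null ?_ (hz' (n + k + 1) (by omega))
      exact fun A hA => ⟨⟨⟨hA.1.1.1.1, hA.1.1.2⟩, hA.1.2⟩, hA.2⟩
    rw [h2] at h1
    rw [h4, Set.inter_right_comm] at h3
    simp only [b]
    linarith
  have hef : ∀ k, e k = Λ.real (F k) - Λ.real (F (k + 1)) := fun k => by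
    have h1 := measureReal_inter_add_sdiff (μ := Λ) (s := F k) (hO (n + k + 1))
    rw [← hFs] at h1
    have h2 : e k = Λ.real (F k ∩ O (n + k + 1)) := by
      rw [← hE.real_pre (Equiv.swap 0 (n + k + 1)).injective ((hF k).inter (hO (n + k + 1)))]
      simp only [e]
      congr 1
      ext A
      have hf := hfix 0 (n + k + 1) (by omega) (by omega)
      simp only [Set.mem_preimage, Set.mem_inter_iff,
        hFe k 0 (n + k + 1) (by omega) (by omega) (by omega), hOe _ hf, Equiv.swap_apply_right]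
    linarith
  have hfin : e 0 = 0 := by
    refine dup_real (n := n) (b := b) (γ := Λ.real (DD 1)) (fun k => measureReal_nonneg)
      (fun k => measureReal_nonneg) measureReal_nonneg ?_ (fun N => ?_) ?_ (fun k => ?_)
    · have h1 : e 0 ≤ Λ.real (DD 1)ᶜ :=
        measureReal_mono fun A hA => h0 A hA.2 1 le_rfl hn
      rw [probReal_compl_eq_one_sub (hDD 1)] at h1
      linarith
    · simp only [hef]
      rw [Finset.sum_range_sub']
      linarith [measureReal_le_one (μ := Λ) (s := F 0), measureReal_nonneg (μ := Λ) (s := F N)]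
    · have := hGk 0
      rw [hsum] at this
      simpa using this
    · have := hGk (k + 1)
      rw [hsum, hbs] at this
      push_cast at this
      exact this
  simp only [e, hF0] at hfin
  rwa [measureReal_eq_zero_iff] at hfin

theorem measurableSet_ev {u : K → ℝ} (hu : Measurable u) (W : ℕ → ℕ → Set ℝ)
    (hW : ∀ a b, MeasurableSet (W a b)) (p : ℕ → ℕ → Prop) :
    MeasurableSet {A : ℕ → ℕ → K | ∀ i j, p i j → u (A i j) ∈ W i j} := by
  have : {A : ℕ → ℕ → K | ∀ i j, p i j → u (A i j) ∈ W i j} =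
      ⋂ i, ⋂ j, ⋂ (_ : p i j), (fun A : ℕ → ℕ → K => u (A i j)) ⁻¹' W i j := by
    ext A; simp
  rw [this]
  exact MeasurableSet.iInter fun i => MeasurableSet.iInter fun j => MeasurableSet.iInter fun _ =>
    (hu.comp (by fun_prop)) (hW i j)

theorem measurableSet_Ev {u : K → ℝ} (hu : Measurable u) (W : ℕ → ℕ → Set ℝ)
    (hW : ∀ a b, MeasurableSet (W a b)) (n : ℕ) :
    MeasurableSet {A : ℕ → ℕ → K | ∀ i ≤ n, ∀ j ≤ n, i ≠ j → u (A i j) ∈ W i j} := by
  have := measurableSet_ev hu W hW (fun i j => i ≤ n ∧ j ≤ n ∧ i ≠ j)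
  refine (congrArg MeasurableSet ?_).mp this
  ext A
  exact ⟨fun h i hi j hj hij => h i j ⟨hi, hj, hij⟩, fun h i j g => h i g.1 j g.2.1 g.2.2⟩

theorem dup_zero (hE : Exch Λ) (hG : GGset Λ) {u : K → ℝ} (hu : Measurable u)
    (hs : ∀ᵐ A ∂Λ, ∀ i j, u (A i j) = u (A j i)) {ι : Type} (T : ι → ι → Set ℝ)
    (hTs : ∀ a b, T a b = T b a) (hTm : ∀ a b, MeasurableSet (T a b)) {c : ℝ}
    (hTc : ∀ a b, T a b ⊆ Set.Iic c) (τ : ℕ → ι) {n : ℕ} (hn : 1 ≤ n)
    (hτ : τ (n + 1) = τ 0) (hT : T (τ 0) (τ 0) = Set.Iic c)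
    (h : Λ {A | ∀ i ≤ n, ∀ j ≤ n, i ≠ j → u (A i j) ∈ T (τ i) (τ j)} ≠ 0) :
    Λ {A | ∀ i ≤ n + 1, ∀ j ≤ n + 1, i ≠ j → u (A i j) ∈ T (τ i) (τ j)} ≠ 0 := by
  intro hz
  apply h
  let B : Set (ℕ → ℕ → K) :=
    {A | ∀ i j, (1 ≤ i ∧ i ≤ n ∧ 1 ≤ j ∧ j ≤ n ∧ i ≠ j) → u (A i j) ∈ T (τ i) (τ j)}
  let O : ℕ → Set (ℕ → ℕ → K) := fun m =>
    {A | ∀ l, 1 ≤ l → l ≤ n → u (A l m) ∈ T (τ l) (τ 0) ∧ u (A m l) ∈ T (τ l) (τ 0)}
  have hOm : ∀ m, MeasurableSet (O m) := fun m => by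
    have : O m = ⋂ l ∈ Set.Icc 1 n, ((fun A : ℕ → ℕ → K => u (A l m)) ⁻¹' T (τ l) (τ 0) ∩
        (fun A : ℕ → ℕ → K => u (A m l)) ⁻¹' T (τ l) (τ 0)) := by
      ext A; simp [O]
    rw [this]
    exact MeasurableSet.biInter (Set.to_countable _) fun l _ =>
      ((hu.comp (by fun_prop)) (hTm _ _)).inter ((hu.comp (by fun_prop)) (hTm _ _))
  have key := dup_core hE hG hn (B := B) (O := O) (D := u ⁻¹' Set.Ioi c)
    (measurableSet_ev hu (fun i j => T (τ i) (τ j)) (fun _ _ => hTm _ _) _) hOm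
    (hu measurableSet_Ioi) (fun e he A => ?_) (fun e he m A => ?_) (fun A A' hA => ?_)
    (fun i N hN hi A A' hA => ?_) (fun A hA l h1 h2 => ?_) ?_
  · refine measure_mono_null (fun A hA => ?_) key
    refine ⟨fun i j g => hA i g.2.1 j g.2.2.2.1 g.2.2.2.2, fun l h1 h2 => ⟨?_, ?_⟩⟩
    · exact hA l h2 0 (by omega) (by omega)
    · rw [hTs]; exact hA 0 (by omega) l h2 (by omega)
  · refine forall_congr' fun i => forall_congr' fun j => imp_congr_right fun g => ?_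
    simp only [he i g.1 g.2.1, he j g.2.2.1 g.2.2.2.1]
  · refine forall_congr' fun l => imp_congr_right fun h1 => imp_congr_right fun h2 => ?_
    simp only [he l h1 h2]
  · refine propext (forall_congr' fun i => forall_congr' fun j => imp_congr_right fun g => ?_)
    rw [hA i g.2.1 j g.2.2.2.1]
  · refine propext (forall_congr' fun l => imp_congr_right fun h1 => imp_congr_right fun h2 => ?_)
    rw [hA l (by omega) i hi, hA i hi l (by omega)]
  · have := hTc _ _ (hA l h1 h2).2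
    simpa using this
  · refine measure_mono_null_ae ?_ hz
    filter_upwards [hs] with A hA hm
    obtain ⟨⟨⟨hB, h0⟩, h1⟩, hD⟩ := hm
    have hD' : u (A 0 (n + 1)) ∈ T (τ 0) (τ 0) := by
      rw [hT]; simpa using hD
    intro i hi j hj hij
    rcases Nat.eq_zero_or_pos i with rfl | hi0
    · rcases Nat.lt_or_ge j (n + 1) with g | g
      · rw [hTs]; exact (h0 j (by omega) (by omega)).2
      · rw [show j = n + 1 by omega, hτ]; exact hD'
    · rcases Nat.lt_or_ge i (n + 1) with gi | gi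
      · rcases Nat.eq_zero_or_pos j with rfl | hj0
        · exact (h0 i hi0 (by omega)).1
        · rcases Nat.lt_or_ge j (n + 1) with g | g
          · exact hB i j ⟨hi0, by omega, hj0, by omega, hij⟩
          · rw [show j = n + 1 by omega, hτ]; exact (h1 i hi0 (by omega)).1
      · rw [show i = n + 1 by omega, hτ]
        rcases Nat.eq_zero_or_pos j with rfl | hj0
        · rw [hA]; exact hD'
        · rw [hTs]; exact (h1 j hj0 (by omega)).2

theorem dup_types (hE : Exch Λ) (hG : GGset Λ) {u : K → ℝ} (hu : Measurable u)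
    (hs : ∀ᵐ A ∂Λ, ∀ i j, u (A i j) = u (A j i)) {ι : Type} (T : ι → ι → Set ℝ)
    (hTs : ∀ a b, T a b = T b a) (hTm : ∀ a b, MeasurableSet (T a b)) {c : ℝ}
    (hTc : ∀ a b, T a b ⊆ Set.Iic c) (τ : ℕ → ι) {n i₀ : ℕ} (hn : 1 ≤ n) (hi : i₀ ≤ n)
    (hτ : τ (n + 1) = τ i₀) (hT : T (τ i₀) (τ i₀) = Set.Iic c)
    (h : Λ {A | ∀ i ≤ n, ∀ j ≤ n, i ≠ j → u (A i j) ∈ T (τ i) (τ j)} ≠ 0) :
    Λ {A | ∀ i ≤ n + 1, ∀ j ≤ n + 1, i ≠ j → u (A i j) ∈ T (τ i) (τ j)} ≠ 0 := by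
  have tr : ∀ m, n ≤ m → Λ {A | ∀ i ≤ m, ∀ j ≤ m, i ≠ j → u (A i j) ∈ T (τ i) (τ j)} =
      Λ {A | ∀ i ≤ m, ∀ j ≤ m, i ≠ j →
        u (A i j) ∈ T (τ (Equiv.swap 0 i₀ i)) (τ (Equiv.swap 0 i₀ j))} := by
    intro m hm
    have hin : ∀ i ≤ m, Equiv.swap 0 i₀ i ≤ m := fun i h1 => by
      rw [Equiv.swap_apply_def]; split_ifs <;> omega
    rw [← hE.pre (Equiv.swap 0 i₀).injective (measurableSet_Ev hu
      (fun i j => T (τ (Equiv.swap 0 i₀ i)) (τ (Equiv.swap 0 i₀ j))) (fun _ _ => hTm _ _) m)]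
    congr 1
    ext A
    simp only [Set.mem_ofPred_eq, Set.mem_preimage]
    refine ⟨fun g i h1 j h2 h3 => g _ (hin i h1) _ (hin j h2)
      ((Equiv.swap 0 i₀).injective.ne h3), fun g i h1 j h2 h3 => ?_⟩
    have := g _ (hin i h1) _ (hin j h2) ((Equiv.swap 0 i₀).injective.ne h3)
    simpa only [Equiv.swap_apply_self] using this
  rw [tr _ le_rfl] at h
  rw [tr _ (Nat.le_succ n)]
  refine dup_zero hE hG hu hs T hTs hTm hTc (fun i => τ (Equiv.swap 0 i₀ i)) hn ?_ ?_ h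
  · simp only [Equiv.swap_apply_left]
    rw [Equiv.swap_apply_of_ne_of_ne (by omega) (by omega), hτ]
  · simp only [Equiv.swap_apply_left]
    exact hT

end P157
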