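import Vale.Agent.P157.SpQuad

/-! P157 SpCalc: calculus for the explicit Gaussian functional.
Plan. `psiG_eq`: with `b_j = bq j`, `p̂ = pG`, `ρ = p̂ k + 1/b`, `p̃ = p̂/ρ` one has
`dd p̃ j = 1/(ρ b_j)` (downward induction: `m (j+1) (p̂ (j+1) - p̂ j) = 1/b_j - 1/b_{j+1}`), so every term of
`sphereEntropy` is explicit. `psiG_bump`: under `bump r u j`, `b_i ↦ b_i + u` for `i ≥ j` and
`b_i ↦ b_i + (1 - m j) u` for `i < j`. The function `g u = psiG (bump r u j) κ` is smooth on `[0,1]`, with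
`g' 0 = -(1/2) tail p̂ j` and `|g''| ≤ C (R)` uniformly in `k` (terms `i ≠ j`: at most `C (r (i+1) - r i)`;
the term at level `j` is `-(2m)⁻¹ log (1 - m (a+u)/(b_j+u))`, whose second derivative is bounded
uniformly in `m`); either use `HasDerivAt` + mean value twice or the elementary bound
`|log (1+x) - x| ≤ x²` term by term after combining the two logarithms of each level into
`log (1 + m · stuff)`. The identity for `g' 0` uses `∑_{i ≥ j} Δ_i p̂ i = p̂ k - m j p̂ j - ∑_{i>j} m_i (p̂ i - p̂ (i-1))`.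
`psiG_kappa`: all `b_i ↦ b_i - 2x`, derivative at `0` is `ρ`. `sph_concave`: with `c_j = 1/dd p j`,
`b = c_0 + ∑ m (i+1) (s (i+1) - s i)` so that `bq 0 = c_0`; use `log x ≤ log c + (x - c)/c` for each
`bq j` (the coefficients `(2 m j)⁻¹ - (2 m (j+1))⁻¹ ≥ 0`, and `(2 m k)⁻¹ - 1/2 ≥ 0` for `bq k = b`); the
linear terms cancel by Abel summation. `sphereEntropy_nonneg`: `m⁻¹ log (1 + m x) ≥ log (1 + x)`,
`dd (j+1) ≤ 1 - p (j+1)`, telescoping, `log (1-q) + q/(1-q) ≥ 0`.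
-/

open MeasureTheory ProbabilityTheory Real
open scoped BigOperators Matrix

namespace P157


variable {k : ℕ} {m p r : ℕ → ℝ}

theorem spc_le_one (hk : IsPartition k m) {i : ℕ} (hi : i ≤ k + 1) : m i ≤ 1 :=
  (hk.mono_le hi le_rfl).trans_eq hk.2.1

theorem spc_dd_last : dd k m p k = 1 - p k := by simp [dd]

theorem spc_dd_succ {j : ℕ} (hj : j < k) :
    dd k m p j = dd k m p (j + 1) + m (j + 1) * (p (j + 1) - p j) := by
  unfold dd
  rw [Finset.sum_eq_sum_Ico_succ_bot hj]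
  ring

theorem spc_dd_ge (hk : IsPartition k m) (hp : IsPath k p) (j : ℕ) : 1 - p k ≤ dd k m p j :=
  le_add_of_nonneg_right (Finset.sum_nonneg fun i hi => mul_nonneg
    (hk.pos i.succ_pos (by have := (Finset.mem_Ico.1 hi).2; omega)).le
    (sub_nonneg.2 (hp.2 i (Finset.mem_Ico.1 hi).2)))

theorem dd_pos (hk : IsPartition k m) (hp : IsPath k p) (hp1 : p k < 1) {j : ℕ} (hj : j ≤ k) :
    0 < dd k m p j ∧ dd k m p j ≤ 1 - p j := by
  refine ⟨(sub_pos.2 hp1).trans_le (spc_dd_ge hk hp j), ?_⟩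
  have h : ∑ i ∈ Finset.Ico j k, m (i + 1) * (p (i + 1) - p i) ≤ ∑ i ∈ Finset.Ico j k, (p (i + 1) - p i) :=
    Finset.sum_le_sum fun i hi => mul_le_of_le_one_left (sub_nonneg.2 (hp.2 i (Finset.mem_Ico.1 hi).2))
      (spc_le_one hk (by have := (Finset.mem_Ico.1 hi).2; omega))
  rw [Finset.sum_Ico_sub _ hj] at h
  unfold dd
  linarith
theorem sphereEntropy_nonneg (hk : IsPartition k m) (hp : IsPath k p) (hp1 : p k < 1) :
    0 ≤ sphereEntropy k m p := by
  have h1 : ∀ j ∈ Finset.range k, log (1 - p j) - log (1 - p (j + 1)) ≤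
      (m (j + 1))⁻¹ * log (dd k m p j / dd k m p (j + 1)) := fun j hj => by
    have hj := Finset.mem_range.1 hj
    have hm := hk.pos j.succ_pos (by omega)
    obtain ⟨a1, a2⟩ := dd_pos hk hp hp1 (j := j + 1) hj
    have a3 := sub_nonneg.2 (hp.2 j hj)
    have a4 : 0 ≤ (p (j + 1) - p j) / dd k m p (j + 1) := div_nonneg a3 a1.le
    have a5 := log_le_log (by positivity) (rpow_one_add_le_one_add_mul_self (s := (p (j + 1) - p j) /
      dd k m p (j + 1)) (by linarith) hm.le (spc_le_one hk (by omega)))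
    rw [log_rpow (by positivity)] at a5
    have a6 : 0 < 1 - p (j + 1) := a1.trans_le a2
    rw [le_inv_mul_iff₀ hm, spc_dd_succ hj, add_div, div_self a1.ne', mul_div_assoc,
      ← log_div (by linarith) a6.ne']
    refine le_trans (mul_le_mul_of_nonneg_left (log_le_log (div_pos (by linarith) a6) ?_) hm.le) a5
    have a7 := div_le_div_of_nonneg_left a3 a1 a2
    rw [show 1 - p j = 1 - p (j + 1) + (p (j + 1) - p j) by ring, add_div, div_self a6.ne']
    linarith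
  have h2 := Finset.sum_le_sum h1
  rw [Finset.sum_range_sub' fun j => log (1 - p j)] at h2
  obtain ⟨a1, a2⟩ := dd_pos hk hp hp1 (Nat.zero_le k)
  have a3 := div_le_div_of_nonneg_left hp.1 a1 a2
  have a4 := one_sub_inv_le_log_of_pos (a1.trans_le a2)
  have a5 : 1 - (1 - p 0)⁻¹ + p 0 / (1 - p 0) = 0 := by
    have := (a1.trans_le a2).ne'
    field_simp
    ring
  unfold sphereEntropy
  linarith

theorem spc_pos (hk : IsPartition k m) (hr : IsPath k r) {b : ℝ} (hb : 0 < bq k m r b 0) {j : ℕ}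
    (hj : j ≤ k) : 0 < bq k m r b j := hb.trans_le (bq_mono hk hr (Nat.zero_le j) hj)

theorem spc_pG_succ (b : ℝ) (j : ℕ) : pG k m r b (j + 1) - pG k m r b j =
    (r (j + 1) - r j) / (bq k m r b (j + 1) * bq k m r b j) := by
  unfold pG
  rw [Finset.sum_range_succ]
  ring

theorem spc_pG_m (hk : IsPartition k m) (hr : IsPath k r) {b : ℝ} (hb : 0 < bq k m r b 0) {j : ℕ}
    (hj : j < k) : m (j + 1) * (pG k m r b (j + 1) - pG k m r b j) =
      (bq k m r b j)⁻¹ - (bq k m r b (j + 1))⁻¹ := by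
  have h1 := (spc_pos hk hr hb hj.le).ne'
  have h2 := (spc_pos hk hr hb (j := j + 1) hj).ne'
  rw [spc_pG_succ, ← mul_div_assoc, inv_sub_inv h1 h2, mul_comm (bq k m r b j)]
  congr 1
  rw [bq_succ hj]
  ring

theorem pG_isPath (hk : IsPartition k m) (hr : IsPath k r) {b : ℝ} (hb : 0 < bq k m r b 0) :
    IsPath k (pG k m r b) :=
  ⟨by simpa [pG] using div_nonneg hr.1 (sq_nonneg _), fun j hj => sub_nonneg.1 (by
    rw [spc_pG_succ]
    exact div_nonneg (sub_nonneg.2 (hr.2 j hj))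
      (mul_pos (spc_pos hk hr hb hj) (spc_pos hk hr hb hj.le)).le)⟩

theorem psiG_eq (hk : IsPartition k m) (hr : IsPath k r) {κ : ℝ}
    (hb : 0 < bq k m r (1 + r k - κ) 0) :
    psiG k m r κ = sphereEntropy k m (fun j => pG k m r (1 + r k - κ) j /
        (pG k m r (1 + r k - κ) k + (1 + r k - κ)⁻¹))
      + log (pG k m r (1 + r k - κ) k + (1 + r k - κ)⁻¹) / 2 := by
  unfold psiG
  generalize 1 + r k - κ = b at hb ⊢
  have hbk : 0 < b := bq_last (k := k) (m := m) (r := r) (b := b) ▸ spc_pos hk hr hb le_rfl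
  have hρ : 0 < pG k m r b k + b⁻¹ := add_pos_of_nonneg_of_pos ((pG_isPath hk hr hb).nonneg le_rfl)
    (inv_pos.2 hbk)
  have h0 : 1 - pG k m r b k / (pG k m r b k + b⁻¹) = b⁻¹ / (pG k m r b k + b⁻¹) := by
    rw [one_sub_div hρ.ne', add_sub_cancel_left]
  have h1 : ∀ j ≤ k, dd k m (fun j => pG k m r b j / (pG k m r b k + b⁻¹)) j =
      (bq k m r b j)⁻¹ / (pG k m r b k + b⁻¹) := fun j hj => by
    unfold dd
    have h2 := Finset.sum_Ico_sub (fun i => -(bq k m r b i)⁻¹) hj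
    rw [bq_last] at h2
    rw [h0, Finset.sum_congr rfl fun i hi => by
      rw [← sub_div, ← mul_div_assoc, spc_pG_m hk hr hb (Finset.mem_Ico.1 hi).2, ← neg_sub_neg],
      ← Finset.sum_div, h2, ← add_div]
    congr 1
    ring
  unfold sphereEntropy quadV
  rw [h0, h1 0 (Nat.zero_le k), log_div (inv_pos.2 hbk).ne' hρ.ne', log_inv,
    div_div_div_cancel_right₀ hρ.ne', Finset.sum_congr rfl (g := fun j => 2 * ((2 * m (j + 1))⁻¹ *
      log (bq k m r b (j + 1) / bq k m r b j))) (f := fun j => (m (j + 1))⁻¹ * log (dd k m _ j / _))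
      fun j hj => by
        have hj := Finset.mem_range.1 hj
        rw [h1 j hj.le, h1 (j + 1) hj, div_div_div_cancel_right₀ hρ.ne', inv_div_inv]
        ring, ← Finset.mul_sum]
  have h3 : pG k m r b 0 / (bq k m r b 0)⁻¹ = 2 * (r 0 / (2 * bq k m r b 0)) := by
    unfold pG
    rw [Finset.sum_range_zero]
    field_simp
    ring
  rw [h3]
  ring

theorem spc_log {y : ℝ} (hy : 1 / 4 ≤ 1 + y) : |log (1 + y) - y| ≤ 4 * y ^ 2 := by
  have h0 : 0 < 1 + y := by linarith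
  have h1 := log_le_sub_one_of_pos h0
  have h2 := one_sub_inv_le_log_of_pos h0
  have h3 : y - (1 - (1 + y)⁻¹) = y ^ 2 * (1 + y)⁻¹ := by
    field_simp
    ring
  have h4 : (1 + y)⁻¹ ≤ 4 := by
    rw [inv_le_comm₀ h0 (by norm_num)]
    linarith
  have h5 := mul_le_mul_of_nonneg_left h4 (sq_nonneg y)
  rw [abs_le]
  constructor <;> nlinarith [sq_nonneg y]

theorem spc_level {μ B0 B0' D e τ R : ℝ} (hμ : 0 < μ) (hμ1 : μ ≤ 1) (h0 : 1 ≤ B0) (hD : 0 ≤ D)
    (hR : D ≤ R) (t0 : -1 / 2 ≤ B0' - B0) (t1 : |B0' - B0| ≤ τ) (t2 : -1 / 2 ≤ B0' - B0 + μ * e)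
    (he : |e| ≤ τ) (hτ : τ ≤ 1) :
    |(2 * μ)⁻¹ * log ((B0' + μ * (D + e)) / B0') - (2 * μ)⁻¹ * log ((B0 + μ * D) / B0) -
      (e / (B0 + μ * D) - (B0' - B0) * (D / ((B0 + μ * D) * B0))) / 2| ≤
      (8 * (1 + R) + 1) * τ * (|e| + τ * D) := by
  have hτ0 : 0 ≤ τ := (abs_nonneg _).trans he
  have a0 := mul_nonneg hμ.le hD
  obtain ⟨B1, hB1⟩ : ∃ B1, B1 = B0 + μ * D := ⟨_, rfl⟩
  obtain ⟨t, rfl⟩ : ∃ t, B0' = B0 + t := ⟨B0' - B0, by ring⟩
  rw [add_sub_cancel_left] at t0 t1 t2 ⊢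
  have a1 : 1 ≤ B1 := by linarith
  have a2 : 0 < B0 + t := by linarith
  have a3 : 0 < B0 + t + μ * (D + e) := by linarith
  have a4 := abs_le.1 t1
  obtain ⟨z, hz⟩ : ∃ z, z = e / B1 - t * (D / (B1 * B0)) := ⟨_, rfl⟩
  obtain ⟨a, ha⟩ : ∃ a, a = |e| + τ * D := ⟨_, rfl⟩
  have b0 : 0 ≤ a := by rw [ha]; positivity
  have b1 : |z| ≤ a := by
    rw [hz, ha]
    refine (abs_sub _ _).trans (add_le_add ?_ ?_)
    · rw [abs_div, abs_of_pos (by linarith : 0 < B1)]
      exact div_le_self (abs_nonneg _) a1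
    · rw [abs_mul, abs_of_nonneg (by positivity : 0 ≤ D / (B1 * B0))]
      exact mul_le_mul t1 (div_le_self hD (by nlinarith)) (by positivity) hτ0
  have b2 : a ≤ (1 + R) * τ := by nlinarith
  obtain ⟨w, hw⟩ : ∃ w, w = B0 / (B0 + t) := ⟨_, rfl⟩
  have c0 : 0 ≤ w := by rw [hw]; positivity
  have c1 : w ≤ 2 := by
    rw [hw, div_le_iff₀ a2]
    linarith
  have c2 : |w - 1| ≤ 2 * τ := by
    rw [hw, div_sub_one a2.ne', abs_div, abs_of_pos a2, div_le_iff₀ a2, sub_add_cancel_left, abs_neg]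
    nlinarith
  have e1 : 1 + μ * (z * w) = (B0 + t + μ * (D + e)) / (B0 + t) / (B1 / B0) := by
    rw [hz, hw]
    field_simp
    rw [hB1]
    ring
  have d1 := spc_log (y := μ * (z * w)) (by
    rw [e1, div_div_eq_mul_div, div_mul_eq_mul_div, div_div, le_div_iff₀ (by positivity)]
    nlinarith [mul_le_mul (by linarith : B1 / 2 ≤ B0 + t + μ * (D + e)) (by linarith : (B0 + t) / 2 ≤ B0)
      (by positivity) a3.le])
  rw [← hB1, ← hz, ← ha, ← mul_sub, ← log_div (by positivity) (by positivity), ← e1]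
  have e2 : (2 * μ)⁻¹ * log (1 + μ * (z * w)) - z / 2 =
      (2 * μ)⁻¹ * (log (1 + μ * (z * w)) - μ * (z * w)) + z * (w - 1) / 2 := by
    field_simp
    ring
  have d2 : |z * (w - 1)| ≤ a * (2 * τ) := by
    rw [abs_mul]
    exact mul_le_mul b1 c2 (abs_nonneg _) b0
  have d3 : (z * w) ^ 2 ≤ (a * 2) ^ 2 := by
    rw [← sq_abs, abs_mul, abs_of_nonneg c0]
    gcongr
  have d4 : (2 * μ)⁻¹ * (4 * (μ * (z * w)) ^ 2) ≤ 2 * (z * w) ^ 2 := by
    rw [inv_mul_le_iff₀ (by positivity)]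
    nlinarith [mul_le_mul_of_nonneg_left hμ1 (mul_nonneg hμ.le (sq_nonneg (z * w)))]
  rw [e2]
  refine (abs_add_le _ _).trans ?_
  rw [abs_mul, abs_of_pos (by positivity : 0 < (2 * μ)⁻¹), abs_div, abs_two]
  nlinarith [mul_le_mul_of_nonneg_left d1 (by positivity : 0 ≤ (2 * μ)⁻¹),
    mul_le_mul_of_nonneg_left b2 b0]

theorem spc_bot {B B' x x' τ R : ℝ} (h0 : 1 ≤ B) (hx : 0 ≤ x) (hR : x ≤ R) (t0 : -1 / 2 ≤ B' - B)
    (t1 : |B' - B| ≤ τ) (he : |x' - x| ≤ τ) :
    |x' / (2 * B') - x / (2 * B) - ((x' - x) * B⁻¹ - (B' - B) * (x / B ^ 2)) / 2| ≤ (1 + R) * τ ^ 2 := by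
  have hτ0 : 0 ≤ τ := (abs_nonneg _).trans he
  have a2 : 1 / 2 ≤ B' := by linarith
  have e : x' / (2 * B') - x / (2 * B) - ((x' - x) * B⁻¹ - (B' - B) * (x / B ^ 2)) / 2 =
      (B' - B) * ((B' - B) * (x / B) - (x' - x)) / (B * (2 * B')) := by
    field_simp
    ring
  have h1 : |(B' - B) * (x / B) - (x' - x)| ≤ τ * R + τ := by
    refine (abs_sub _ _).trans (add_le_add ?_ he)
    rw [abs_mul, abs_of_nonneg (by positivity : 0 ≤ x / B)]
    exact mul_le_mul t1 ((div_le_self hx h0).trans hR) (by positivity) hτ0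
  rw [e, abs_div, abs_mul, abs_of_pos (by positivity : 0 < B * (2 * B'))]
  refine (div_le_self (by positivity) (by nlinarith)).trans
    ((mul_le_mul t1 h1 (abs_nonneg _) hτ0).trans_eq ?_)
  ring

theorem spc_top {b b' τ : ℝ} (h0 : 1 ≤ b) (t0 : -1 / 2 ≤ b' - b) (t1 : |b' - b| ≤ τ) :
    |log b' - log b - (b' - b) * b⁻¹| ≤ 4 * τ ^ 2 := by
  have e : 1 + (b' - b) * b⁻¹ = b' / b := by
    field_simp
    ring
  have h1 := spc_log (y := (b' - b) * b⁻¹) (by
    rw [e, le_div_iff₀ (by positivity)]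
    linarith)
  rw [e, log_div (by linarith) (by linarith)] at h1
  refine h1.trans (mul_le_mul_of_nonneg_left ?_ (by norm_num))
  rw [← sq_abs, abs_mul, abs_of_pos (by positivity : 0 < b⁻¹)]
  exact pow_le_pow_left₀ (by positivity) ((mul_le_of_le_one_right (abs_nonneg _)
    (inv_le_one_of_one_le₀ h0)).trans t1) 2

theorem spc_abel (t P : ℕ → ℝ) (n : ℕ) : t 0 * P 0 + ∑ i ∈ Finset.range n, t i * (P (i + 1) - P i) =
    t n * P n - ∑ i ∈ Finset.range n, (t (i + 1) - t i) * P (i + 1) := by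
  induction n with
  | zero => simp
  | succ n ih =>
    rw [Finset.sum_range_succ, Finset.sum_range_succ]
    linarith

theorem spc_taylor (hk : IsPartition k m) (hr : IsPath k r) {R τ b b' : ℝ} (hR : r k ≤ R)
    (hb : 1 ≤ bq k m r b 0) {r' : ℕ → ℝ} (hτ : τ ≤ 1)
    (ht : ∀ i ≤ k, -1 / 2 ≤ bq k m r' b' i - bq k m r b i ∧ |bq k m r' b' i - bq k m r b i| ≤ τ)
    (he : ∑ i ∈ Finset.range k, |r' (i + 1) - r' i - (r (i + 1) - r i)| ≤ τ) (h0 : |r' 0 - r 0| ≤ τ) :
    |quadV k m r' b' - log b' / 2 - (quadV k m r b - log b / 2) -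
      ((r' 0 - r 0) * (bq k m r b 0)⁻¹ + ∑ i ∈ Finset.range k, (r' (i + 1) - r' i - (r (i + 1) - r i)) *
        ((bq k m r b (i + 1))⁻¹ + m (i + 1) * pG k m r b (i + 1)) -
        (b' - b) * (pG k m r b k + b⁻¹)) / 2| ≤ ((8 * (1 + R) + 2) * (1 + R) + 2) * τ ^ 2 := by
  have hτ0 : 0 ≤ τ := (abs_nonneg _).trans h0
  have hR0 : 0 ≤ R := (hr.nonneg le_rfl).trans hR
  have h1 : ∀ i ≤ k, 1 ≤ bq k m r b i := fun i hi => hb.trans (bq_mono hk hr (Nat.zero_le i) hi)
  have a1 := spc_bot hb hr.1 ((hr.mono_le (Nat.zero_le k) le_rfl).trans hR) (ht 0 (Nat.zero_le k)).1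
    (ht 0 (Nat.zero_le k)).2 h0
  have a2 := spc_top (h1 k le_rfl) (ht k le_rfl).1 (ht k le_rfl).2
  have a3 := spc_abel (fun i => bq k m r' b' i - bq k m r b i) (pG k m r b) k
  simp only [bq_last] at a2 a3
  have a4 : ∀ i ∈ Finset.range k, |(2 * m (i + 1))⁻¹ * log (bq k m r' b' (i + 1) / bq k m r' b' i) -
      (2 * m (i + 1))⁻¹ * log (bq k m r b (i + 1) / bq k m r b i) -
      ((r' (i + 1) - r' i - (r (i + 1) - r i)) * ((bq k m r b (i + 1))⁻¹ + m (i + 1) * pG k m r b (i + 1)) -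
        (bq k m r' b' (i + 1) - bq k m r b (i + 1) - (bq k m r' b' i - bq k m r b i)) * pG k m r b (i + 1) -
        (bq k m r' b' i - bq k m r b i) * (pG k m r b (i + 1) - pG k m r b i)) / 2| ≤
      (8 * (1 + R) + 1) * τ * (|r' (i + 1) - r' i - (r (i + 1) - r i)| + τ * (r (i + 1) - r i)) := by
    intro i hi'
    have hi := Finset.mem_range.1 hi'
    have e1 : bq k m r b (i + 1) = bq k m r b i + m (i + 1) * (r (i + 1) - r i) := by
      rw [bq_succ hi]
      ring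
    have e2 : bq k m r' b' (i + 1) = bq k m r' b' i + m (i + 1) * (r (i + 1) - r i +
        (r' (i + 1) - r' i - (r (i + 1) - r i))) := by
      rw [bq_succ hi]
      ring
    have := spc_level (R := R) (hk.pos i.succ_pos (by omega)) (spc_le_one hk (by omega)) (h1 i hi.le)
      (sub_nonneg.2 (hr.2 i hi)) (by linarith [hr.nonneg hi.le, hr.mono_le (i := i + 1) hi le_rfl])
      (ht i hi.le).1 (ht i hi.le).2 (e := r' (i + 1) - r' i - (r (i + 1) - r i))
      (by have := (ht (i + 1) hi).1; rw [e1, e2] at this; linarith)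
      ((Finset.single_le_sum (f := fun i => |r' (i + 1) - r' i - (r (i + 1) - r i)|)
        (fun _ _ => abs_nonneg _) hi').trans he) hτ
    rw [← e1, ← e2, ← spc_pG_succ] at this
    refine le_of_eq_of_le (congrArg abs ?_) this
    have e3 : bq k m r' b' (i + 1) - bq k m r b (i + 1) - (bq k m r' b' i - bq k m r b i) =
        m (i + 1) * (r' (i + 1) - r' i - (r (i + 1) - r i)) := by
      rw [e1, e2]
      ring
    rw [e3]
    ring
  have a5 := (Finset.abs_sum_le_sum_abs _ _).trans (Finset.sum_le_sum a4)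
  rw [← Finset.mul_sum, Finset.sum_add_distrib, ← Finset.mul_sum, Finset.sum_range_sub,
    Finset.sum_sub_distrib, Finset.sum_sub_distrib, ← Finset.sum_div, Finset.sum_sub_distrib,
    Finset.sum_sub_distrib] at a5
  have a6 : (8 * (1 + R) + 1) * τ * (∑ i ∈ Finset.range k, |r' (i + 1) - r' i - (r (i + 1) - r i)| +
      τ * (r k - r 0)) ≤ (8 * (1 + R) + 1) * τ * (τ + τ * R) := by
    have := hr.1
    gcongr
    linarith
  have e : pG k m r b 0 = r 0 / bq k m r b 0 ^ 2 := by simp [pG]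
  rw [← e] at a1
  unfold quadV
  rw [abs_le] at a1 a2 a5 ⊢
  constructor <;> linarith [a1.1, a1.2, a2.1, a2.2, a5.1, a5.2]

theorem spc_tail (hk : IsPartition k m) (hr : IsPath k r) {b : ℝ} (hb : 0 < bq k m r b 0) {j : ℕ}
    (hj : j ≤ k) : tail k m (pG k m r b) j =
      pG k m r b k + b⁻¹ - ((bq k m r b j)⁻¹ + m j * pG k m r b j) := by
  have h := Finset.sum_Ico_sub (fun i => (bq k m r b i)⁻¹ + m i * pG k m r b i) hj
  rw [bq_last] at h
  unfold tail
  rw [← Finset.Ico_add_one_right_eq_Icc, Finset.sum_Ico_succ_top hj, hk.2.1, Finset.sum_congr rfl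
    fun i hi => (by linarith [spc_pG_m hk hr hb (Finset.mem_Ico.1 hi).2] :
      (m (i + 1) - m i) * pG k m r b i = (bq k m r b (i + 1))⁻¹ + m (i + 1) * pG k m r b (i + 1) -
        ((bq k m r b i)⁻¹ + m i * pG k m r b i)), h]
  ring

theorem spc_bump (u : ℝ) (j i : ℕ) : bump r u j (i + 1) - bump r u j i - (r (i + 1) - r i) =
    if i + 1 = j then u else 0 := by
  unfold bump
  split_ifs <;> first | omega | ring

theorem psiG_bump (R : ℝ) : ∃ C : ℝ, 0 ≤ C ∧ ∀ {k : ℕ} {m r : ℕ → ℝ} {κ : ℝ} (_ : IsPartition k m)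
    (_ : IsPath k r) (_ : r k ≤ R) (_ : 1 ≤ bq k m r (1 + r k - κ) 0) {u : ℝ} (_ : 0 ≤ u) (_ : u ≤ 1)
    {j : ℕ} (_ : j ≤ k),
    1 ≤ bq k m (bump r u j) (1 + bump r u j k - κ) 0 ∧
    |psiG k m (bump r u j) κ - psiG k m r κ + u / 2 * tail k m (pG k m r (1 + r k - κ)) j|
      ≤ C * u ^ 2 := by
  refine ⟨(8 * (1 + |R|) + 2) * (1 + |R|) + 2, by positivity, ?_⟩
  intro k m r κ hk hr hR hb u hu hu1 j hj
  have e0 : 1 + bump r u j k - κ = 1 + r k - κ + u := by
    rw [bump, if_pos hj]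
    ring
  unfold psiG
  rw [e0]
  generalize 1 + r k - κ = b at hb ⊢
  have hs : ∀ (f : ℕ → ℝ) (s : Finset ℕ), ∑ i ∈ s, (if i + 1 = j then u else 0) * f (i + 1) =
      if ∃ i ∈ s, i + 1 = j then u * f j else 0 := fun f s => by
    split_ifs with h
    · obtain ⟨i, hi, rfl⟩ := h
      rw [Finset.sum_eq_single_of_mem i hi fun l _ hl => by rw [if_neg (by omega), zero_mul], if_pos rfl]
    · exact Finset.sum_eq_zero fun i hi => by rw [if_neg fun h1 => h ⟨i, hi, h1⟩, zero_mul]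
  have ht : ∀ i, 0 ≤ bq k m (bump r u j) (b + u) i - bq k m r b i ∧
      bq k m (bump r u j) (b + u) i - bq k m r b i ≤ u := fun i => by
    have e : bq k m (bump r u j) (b + u) i - bq k m r b i =
        u - ∑ l ∈ Finset.Ico i k, (if l + 1 = j then u else 0) * m (l + 1) := by
      simp only [bq, ← spc_bump (r := r), sub_mul, Finset.sum_sub_distrib, mul_comm (m _)]
      ring
    have h1 := mul_le_mul_of_nonneg_left (spc_le_one hk (Nat.le_succ_of_le hj)) hu
    have h2 := mul_nonneg hu (hk.1.ge.trans (hk.mono_le (Nat.zero_le j) (Nat.le_succ_of_le hj)))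
    rw [e, hs m]
    split_ifs <;> constructor <;> linarith
  refine ⟨by linarith [(ht 0).1], ?_⟩
  have h := spc_taylor hk hr (hR.trans (le_abs_self R)) hb (r' := bump r u j) (b' := b + u) hu1
    (fun i _ => ⟨by linarith [(ht i).1], abs_le.2 ⟨by linarith [(ht i).1], (ht i).2⟩⟩) (by
      have := hs (fun _ => 1) (Finset.range k)
      simp only [mul_one] at this
      simp only [spc_bump, apply_ite abs, abs_zero, abs_of_nonneg hu, this]
      split_ifs <;> linarith) (by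
      unfold bump
      split_ifs <;> simp [abs_of_nonneg hu, hu])
  refine le_of_eq_of_le (congrArg abs ?_) h
  simp only [spc_bump]
  rw [hs fun i => (bq k m r b i)⁻¹ + m i * pG k m r b i, spc_tail hk hr (by linarith) hj]
  cases j with
  | zero =>
    rw [if_neg (by simp), bump, if_pos le_rfl, hk.1]
    ring
  | succ j =>
    rw [if_pos ⟨j, Finset.mem_range.2 hj, rfl⟩, bump, if_neg (by omega)]
    ring

theorem psiG_kappa (R : ℝ) : ∃ C : ℝ, 0 ≤ C ∧ ∀ {k : ℕ} {m r : ℕ → ℝ} {κ : ℝ} (_ : IsPartition k m)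
    (_ : IsPath k r) (_ : r k ≤ R) (_ : 1 ≤ bq k m r (1 + r k - κ) 0) {x : ℝ} (_ : |x| ≤ 1 / 4),
    |psiG k m r (κ + 2 * x) - psiG k m r κ
      - x * (pG k m r (1 + r k - κ) k + (1 + r k - κ)⁻¹)| ≤ C * x ^ 2 := by
  refine ⟨((8 * (1 + |R|) + 2) * (1 + |R|) + 2) * 4, by positivity, ?_⟩
  intro k m r κ hk hr hR hb x hx
  unfold psiG
  rw [show 1 + r k - (κ + 2 * x) = 1 + r k - κ - 2 * x by ring]
  generalize 1 + r k - κ = b at hb ⊢
  have h0 := abs_nonneg x
  have h := spc_taylor hk hr (hR.trans (le_abs_self R)) hb (r' := r) (b' := b - 2 * x) (τ := 2 * |x|)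
    (by linarith) (fun i _ => by
      rw [show bq k m r (b - 2 * x) i - bq k m r b i = -(2 * x) by unfold bq; ring, abs_neg, abs_mul,
        abs_two]
      exact ⟨by linarith [le_abs_self x], le_rfl⟩) (by simp) (by simp)
  simp only [sub_self, zero_mul, Finset.sum_const_zero] at h
  rw [mul_pow, sq_abs] at h
  refine (le_of_eq_of_le (congrArg abs ?_) h).trans_eq ?_ <;> ring

theorem sph_concave (hk : IsPartition k m) (hp : IsPath k p) (hp1 : p k < 1) {s : ℕ → ℝ}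
    (hs : IsPath k s) : ∃ b : ℝ, 1 ≤ bq k m s b 0 ∧ b ≤ (1 - p k)⁻¹ + s k ∧
      (b - 1 - log b) / 2 + quadV k m s b - s k / 2 + pair k m p s / 2 ≤ sphereEntropy k m p := by
  have hD : ∀ j ≤ k, 0 < dd k m p j := fun j hj => (dd_pos hk hp hp1 hj).1
  have d0 := hD 0 (Nat.zero_le k)
  obtain ⟨b, hb⟩ : ∃ b, b = (dd k m p 0)⁻¹ + ∑ i ∈ Finset.Ico 0 k, m (i + 1) * (s (i + 1) - s i) :=
    ⟨_, rfl⟩
  have h0 : bq k m s b 0 = (dd k m p 0)⁻¹ := by rw [bq, hb, add_sub_cancel_right]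
  have h1 : 1 ≤ bq k m s b 0 := by
    rw [h0, one_le_inv₀ d0]
    linarith [(dd_pos hk hp hp1 (Nat.zero_le k)).2, hp.1]
  have hB : ∀ j ≤ k, 0 < bq k m s b j := fun j hj => spc_pos hk hs (by linarith) hj
  refine ⟨b, h1, ?_, ?_⟩
  · have h2 : ∑ i ∈ Finset.Ico 0 k, m (i + 1) * (s (i + 1) - s i) ≤
        ∑ i ∈ Finset.Ico 0 k, (s (i + 1) - s i) :=
      Finset.sum_le_sum fun i hi => mul_le_of_le_one_left (sub_nonneg.2 (hs.2 i (Finset.mem_Ico.1 hi).2))
        (spc_le_one hk (by have := (Finset.mem_Ico.1 hi).2; omega))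
    rw [Finset.sum_Ico_sub _ (Nat.zero_le k)] at h2
    linarith [inv_anti₀ (sub_pos.2 hp1) (spc_dd_ge hk hp 0), hs.1]
  obtain ⟨v, hv⟩ : ∃ v : ℕ → ℝ, ∀ j, v j =
      bq k m s b j * dd k m p j - 1 - log (bq k m s b j) - log (dd k m p j) := ⟨_, fun _ => rfl⟩
  have v0 : ∀ j ≤ k, 0 ≤ v j := fun j hj => by
    have := log_le_sub_one_of_pos (mul_pos (hB j hj) (hD j hj))
    rw [log_mul (hB j hj).ne' (hD j hj).ne'] at this
    linarith [hv j]
  have key : ∀ n ≤ k, ∑ j ∈ Finset.range n, (2 * m (j + 1))⁻¹ * log (bq k m s b (j + 1) / bq k m s b j) * 2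
      + (m (n + 1))⁻¹ * v n + ∑ j ∈ Finset.range (n + 1), (m (j + 1) - m j) * (p j * s j) ≤
      ∑ j ∈ Finset.range n, (m (j + 1))⁻¹ * log (dd k m p j / dd k m p (j + 1)) +
        (s n * dd k m p n - s 0 * dd k m p 0 - bq k m s b n * p n + bq k m s b 0 * p 0 +
          m (n + 1) * (p n * s n)) := by
    intro n
    induction n with
    | zero =>
      intro _
      rw [hv, h0, inv_mul_cancel₀ d0.ne', log_inv]
      simp [hk.1]
    | succ n ih =>
      intro hn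
      have ih := ih (Nat.le_of_succ_le hn)
      have hm := hk.pos n.succ_pos (by omega)
      have a1 := mul_le_mul_of_nonneg_right (inv_anti₀ hm (hk.2.2 (n + 1) hn).le) (v0 (n + 1) hn)
      have a2 : (m (n + 1))⁻¹ * (bq k m s b (n + 1) * dd k m p (n + 1) - bq k m s b n * dd k m p n) =
          (s (n + 1) - s n) * dd k m p (n + 1) - (p (n + 1) - p n) * bq k m s b n := by
        rw [inv_mul_eq_iff_eq_mul₀ hm.ne', spc_dd_succ hn, bq_succ (j := n) hn]
        ring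
      rw [Finset.sum_range_succ, Finset.sum_range_succ _ (n + 1),
        Finset.sum_range_succ (fun j => (m (j + 1))⁻¹ * log (dd k m p j / dd k m p (j + 1))),
        log_div (hB _ hn).ne' (hB _ (Nat.le_of_succ_le hn)).ne',
        log_div (hD _ (Nat.le_of_succ_le hn)).ne' (hD _ hn).ne', mul_inv]
      rw [hv] at ih
      rw [hv (n + 1)] at a1 ⊢
      have a3 := spc_dd_succ (m := m) (p := p) hn
      have a4 := bq_succ (m := m) (r := s) (b := b) hn
      linear_combination ih + a1 + a2 + s n * a3 - p (n + 1) * a4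
  have h2 := key k le_rfl
  rw [hv, hk.2.1, bq_last, spc_dd_last, ← Finset.sum_mul, h0] at h2
  unfold sphereEntropy quadV pair
  rw [h0, div_eq_mul_inv (p 0), show s 0 / (2 * (dd k m p 0)⁻¹) = s 0 * dd k m p 0 / 2 by
    field_simp]
  linarith

end P157
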