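import Vale.Agent.P157.SpExt
import Vale.Agent.P157.SpCalc
import Vale.Agent.P157.IAn

/-! P157 SpAn: the spherical input of the lower bound.
Plan. Take `B₀` large, `B = 2 B₀`, `νξ = gB B₀`, `t = C/B₀` (`sph_ext`), `u = B⁻⁸`, `x₀ = 1/(4 B₀)`, then `τ`, `δ`
small. With `κ = pair r p`, `b = 1 + r k - κ`: `bq 0 = 1 - κ + pair r 1 ≥ 1` (`bq_zero`, `pair_bounds`). Replace
`psiNu` by `psiG` (`psiNu_gB (R+1)`), use `psiG_bump`, `psiG_kappa` and `Facts` to get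
`|tail p j - tail p̂ j| ≤ η₁`, `|ρ - 1| ≤ η₁` (`p̂ = pG`, `ρ = p̂ k + b⁻¹`) with `η₁ → 0` as `B₀ → ∞`,
`τ/u → 0`, `τ/x₀ → 0` (`exp (-B₀/8) B₀⁸ → 0`). Let `p̃ = p̂/ρ` (a path with `p̃ k < 1`); `psiG_eq`,
`csInf_le (values_bddBelow sphereEntropy_nonneg ..)`, `psi0_mono` (compare `top1 k p̃` with `p`),
`abs_tail_top1`, `top1_close`, and `log ρ ≥ -2 |ρ - 1|` for `ρ ≥ 1/2`.
-/

open MeasureTheory ProbabilityTheory Real
open scoped BigOperators Matrix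

namespace P157

theorem sa_tail {k : ℕ} {m p : ℕ → ℝ} (hk : IsPartition k m) (hp : IsPath k p) (h1 : p k ≤ 1) {j : ℕ}
    (hj : j ≤ k) : |tail k m p j| ≤ 1 := by
  have h : ∀ i ∈ Finset.Icc j k, 0 ≤ m (i + 1) - m i := fun i hi =>
    sub_nonneg.2 (hk.2.2 i (Finset.mem_Icc.1 hi).2).le
  have h0 : 0 ≤ tail k m p j :=
    Finset.sum_nonneg fun i hi => mul_nonneg (h i hi) (hp.nonneg (Finset.mem_Icc.1 hi).2)
  have h2 : tail k m p j ≤ tail k m (fun _ => 1) j := Finset.sum_le_sum fun i hi =>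
    mul_le_mul_of_nonneg_left ((hp.mono_le (Finset.mem_Icc.1 hi).2 le_rfl).trans h1) (h i hi)
  have h3 := hk.mono_le (Nat.zero_le j) (hj.trans (Nat.le_succ k))
  rw [tail_one hk hj] at h2
  rw [abs_of_nonneg h0]
  linarith [hk.1]

theorem sa_par {C₀ C₁ s : ℝ} (h₁ : 0 ≤ C₁) (hs : 0 < s) : ∃ B u : ℝ, 2 ≤ B ∧ 0 < u ∧ u ≤ s ∧
    u * (2 * B) ^ 2 ≤ 1 ∧ C₀ / B ≤ s ∧ (2 * B) ^ 3 * √u ≤ s ∧ C₁ * exp (-B / 8) ≤ s * u := by
  have h := (tendsto_pow_mul_exp_neg_atTop_nhds_zero 8).eventually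
    (gt_mem_nhds (show 0 < s / (C₁ * 16 ^ 8 + 1) by positivity))
  obtain ⟨y, hy, h1, h2, h3⟩ := (h.and ((Filter.eventually_ge_atTop 1).and
    ((Filter.eventually_ge_atTop (C₀ / s)).and (Filter.eventually_ge_atTop s⁻¹)))).exists
  have hz : (16 * y)⁻¹ ≤ s := inv_le_of_inv_le₀ hs (by linarith)
  have hz1 : (16 * y)⁻¹ ≤ 1 := inv_le_one_of_one_le₀ (by linarith)
  have hz0 : 0 < (16 * y)⁻¹ := by positivity
  refine ⟨8 * y, ((16 * y)⁻¹ ^ 4) ^ 2, by linarith, by positivity, ?_, ?_, ?_, ?_, ?_⟩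
  · rw [← pow_mul]
    exact (pow_le_of_le_one hz0.le hz1 (by norm_num)).trans hz
  · refine le_of_eq_of_le (b := (16 * y)⁻¹ ^ 6) (by field_simp; ring) (pow_le_one₀ hz0.le hz1)
  · rw [div_le_iff₀ hs] at h2
    rw [div_le_iff₀ (by positivity)]
    nlinarith
  · rw [sqrt_sq (by positivity)]
    exact le_of_eq_of_le (by field_simp; ring) hz
  · rw [lt_div_iff₀ (by positivity)] at hy
    rw [show -(8 * y) / 8 = -y by ring, ← pow_mul, inv_pow, ← div_eq_mul_inv,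
      le_div_iff₀ (by positivity), mul_pow]
    have : 0 < y ^ 8 * exp (-y) := by positivity
    norm_num at hy ⊢
    linarith

theorem sa_num1 {a₁ a₀ g₁ g₀ T T' u s t B C E : ℝ} (hu : 0 < u) (hus : u ≤ s) (ht : t ≤ s)
    (hB : B ^ 3 * √u ≤ s) (hC : 0 ≤ C) (hE : E ≤ s * u)
    (h : |a₁ - a₀ + u / 2 * T| ≤ s * u + u * t + 10 * B ^ 3 * (u * √u)) (h₁ : |a₁ - g₁| ≤ E)
    (h₀ : |a₀ - g₀| ≤ E) (hg : |g₁ - g₀ + u / 2 * T'| ≤ C * u ^ 2) : T - 2 * (14 + C) * s ≤ T' := by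
  refine le_of_mul_le_mul_left ?_ hu
  have e1 := mul_le_mul_of_nonneg_left ht hu.le
  have e2 := mul_le_mul_of_nonneg_left hB hu.le
  have e3 := mul_le_mul_of_nonneg_left hus (mul_nonneg hC hu.le)
  linarith [(abs_le.1 h).2, (abs_le.1 h₁).1, (abs_le.1 h₀).2, (abs_le.1 hg).1]

theorem sa_num2 {a g : ℝ → ℝ} {a₀ g₀ ρ u s t C E : ℝ} (hu : 0 < u) (hus : u ≤ s) (ht : t ≤ s)
    (hC : 0 ≤ C) (hE : E ≤ s * u) (h : ∀ x, |x| = u → x - u * t - s * u ≤ a x - a₀)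
    (h₁ : ∀ x, |x| = u → |a x - g x| ≤ E) (h₀ : |a₀ - g₀| ≤ E)
    (hg : ∀ x, |x| = u → |g x - g₀ - x * ρ| ≤ C * x ^ 2) : |ρ - 1| ≤ (4 + C) * s := by
  have e1 := mul_le_mul_of_nonneg_left ht hu.le
  have e3 := mul_le_mul_of_nonneg_left hus (mul_nonneg hC hu.le)
  have p := abs_of_pos hu
  have n := (abs_neg u).trans p
  rw [abs_le]
  constructor <;> refine le_of_mul_le_mul_left ?_ hu
  · linarith [h u p, (abs_le.1 (h₁ u p)).2, (abs_le.1 h₀).1, (abs_le.1 (hg u p)).2]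
  · linarith [h _ n, (abs_le.1 (h₁ _ n)).2, (abs_le.1 h₀).1, (abs_le.1 (hg _ n)).2]

theorem sa_log {ρ η : ℝ} (h : |ρ - 1| ≤ η) (hη : η ≤ 1 / 2) : -(2 * η) ≤ log ρ := by
  obtain ⟨h1, h2⟩ := abs_le.1 h
  have h0 : 0 < ρ := by linarith
  refine le_trans ?_ (one_sub_inv_le_log_of_pos h0)
  have : ρ⁻¹ ≤ 1 + 2 * η := by
    rw [inv_le_iff_one_le_mul₀ h0]
    nlinarith
  linarith

theorem sph_lbh {f : ℝ → ℝ} {K : ℝ} (hf : NiceK f K) {α : ℝ} (hα : 0 < α) {R : ℝ} (hR : 0 ≤ R) :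
    LBH (fun N => gp (Fin N)) sphSp α f R (sInf (values sphereEntropy α f)) := by
  intro ε hε
  have hK := hf.one_le
  obtain ⟨C₀, hC₀, H₀⟩ := sph_ext
  obtain ⟨C₁, hC₁, H₁⟩ := psiNu_gB (R + 1)
  obtain ⟨C₂, hC₂, H₂⟩ := psiG_bump R
  obtain ⟨C₃, hC₃, H₃⟩ := psiG_kappa R
  obtain ⟨D, hD⟩ : ∃ D, D = 6 + C₃ + α * (K ^ 2 * (2 * (14 + C₂) + (4 + C₃) + 1) / 2 + 2 * K) :=
    ⟨_, rfl⟩
  have hD0 : 0 < D := by rw [hD]; positivity
  obtain ⟨s, hs, hs1, hs2⟩ : ∃ s : ℝ, 0 < s ∧ s * (2 * (4 + C₃)) ≤ 1 ∧ s * D ≤ ε :=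
    ⟨min (1 / (2 * (4 + C₃))) (ε / D), by positivity, (le_div_iff₀ (by positivity)).1 (min_le_left _ _),
      (le_div_iff₀ hD0).1 (min_le_right _ _)⟩
  have hs3 : s ≤ 1 / 4 := by nlinarith
  obtain ⟨B, u, hB, hu, hus, huB, ht, hBu, hE⟩ := sa_par (C₀ := C₀) hC₁ hs
  refine ⟨2 * B, u, u, C₀ / B, s * u, s, gB B, by linarith, hu, huB, hu, by linarith, by positivity,
    by positivity, hs, H₀ hf.meas hf.c0.b0 hB, fun k m p r hk1 hk hδ hp hr hrR hF => ?_⟩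
  obtain ⟨κ0, κ1, -⟩ := pair_bounds hk hp.1 hp.2.le hr
  obtain ⟨F1, F2⟩ := hF
  generalize pair k m r p = κ at *
  have hb : 1 ≤ bq k m r (1 + r k - κ) 0 := by rw [bq_zero hk]; linarith
  have hb' : 0 < bq k m r (1 + r k - κ) 0 := by linarith
  have hb0 : 0 < 1 + r k - κ := hb'.trans_le ((bq_mono hk hr (Nat.zero_le k) le_rfl).trans_eq bq_last)
  have a0 := H₁ (B := B) (by linarith) hk hr (by linarith) (κ := κ) (by linarith) (by linarith)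
  have a1 : ∀ j ≤ k, tail k m p j - 2 * (14 + C₂) * s ≤ tail k m (pG k m r (1 + r k - κ)) j :=
    fun j hj => by
      obtain ⟨b1, b2⟩ := H₂ hk hr hrR hb hu.le (by linarith) hj
      refine sa_num1 hu hus ht hBu hC₂ hE (F1 j hj) (H₁ (by linarith) hk (hr.bump hu.le j) ?_
        (by linarith) (by linarith)) a0 b2
      rw [bump, if_pos hj]
      linarith
  have a2 := sa_num2 (g := fun x => psiG k m r (κ + 2 * x)) hu hus ht hC₃ hE F2
    (fun x hx => H₁ (by linarith) hk hr (by linarith) (by linarith [neg_abs_le x])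
      (by rw [bq_zero hk]; linarith [le_abs_self x])) a0
    fun x hx => H₃ hk hr hrR hb (by linarith)
  have a3 := sa_log a2 (by linarith)
  have a4 := psiG_eq hk hr hb'
  have a5 := pG_isPath hk hr hb'
  have a6 := a5.nonneg le_rfl
  have a7 := inv_pos.2 hb0
  generalize pG k m r (1 + r k - κ) = q at *
  generalize (1 + r k - κ)⁻¹ = w at *
  have hρ : 0 < q k + w := by linarith
  have hq : IsPath k fun j => q j / (q k + w) :=
    ⟨div_nonneg a5.1 hρ.le, fun j hj => div_le_div_of_nonneg_right (a5.2 j hj) hρ.le⟩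
  have hq1 : q k / (q k + w) < 1 := (div_lt_one hρ).2 (by linarith)
  have b1 := csInf_le (values_bddBelow (fun k m p => sphereEntropy_nonneg) hα hf.meas hf.c0.b0)
    ⟨k, m, _, hk, hq, hq1, rfl⟩
  have b2 := (abs_le.1 (top1_close hk hk1 hδ hq hq1.le hf.meas hf.c0.b0)).1
  have b3 := psi0_mono hk hf.c0 hp (hq.top1 hq1.le) (η := (2 * (14 + C₂) + (4 + C₃) + 1) * s)
    (by positivity) fun j hj => by
      have c1 := (abs_le.1 (abs_tail_top1 hk hδ hq hq1.le hj)).1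
      have c2 := (abs_le.1 (gb_mul a2 (sa_tail hk hq hq1.le hj))).2
      have c3 : tail k m q j = (q k + w) * tail k m (fun j => q j / (q k + w)) j := by
        simp only [tail, Finset.mul_sum]
        exact Finset.sum_congr rfl fun i _ => by field_simp
      linarith [a1 j hj]
  have b4 := mul_le_mul_of_nonneg_left (b2.trans (sub_le_sub_right b3 _)) hα.le
  have b5 := mul_le_of_le_one_right hs.le (show u ≤ 1 by linarith)
  rw [hD] at hs2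
  linarith [(abs_le.1 a0).1]

end P157
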