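import Vale.Agent.P157.RTilt

/-! P157 RProd: additivity of the recursion over independent marks.
Plan: induction on `n`; `integral_prod_mul` for `exp (a (X₁ + X₂)) = exp (a X₁) exp (a X₂)` and
`log_mul`; for `a = 0` use `integral_prod` and `integral_add`. For tilts expand with
`integral_tilted`. `Rec_pi`: `integral_map`, `integral_fintype_prod_eq_prod`, `Real.log_prod`.
-/

open MeasureTheory ProbabilityTheory Real
open scoped BigOperators Matrix

namespace P157

variable {Y : Type} [NormedAddCommGroup Y] [MeasurableSpace Y] [BorelSpace Y]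
  [SecondCountableTopology Y]

variable {Y' : Type} [NormedAddCommGroup Y'] [MeasurableSpace Y'] [BorelSpace Y']
  [SecondCountableTopology Y'] {m : ℕ → ℝ} {ρ : ℕ → Measure Y} {ρ' : ℕ → Measure Y'}
  {X φ : Y → ℝ} {X' φ' : Y' → ℝ} {C C' b b' : ℝ} {n j k i : ℕ}

theorem Env.prod (h : Env X C) (h' : Env X' C') :
    Env (fun y : Y × Y' => X y.1 + X' y.2) (C + C') := by
  refine (h.comp measurable_fst le_rfl fun y y' => ?_).add
    (h'.comp measurable_snd le_rfl fun y y' => ?_) |>.mono (by rw [mul_one, mul_one])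
  · rw [one_mul]
    exact norm_fst_le (y - y')
  · rw [one_mul]
    exact norm_snd_le (y - y')
theorem Lv.prod (hL : Lv m ρ n j) (hL' : Lv m ρ' n j) :
    Lv m (fun i => (ρ i).prod (ρ' i)) n j := by
  intro i h1 h2
  exact ⟨(hL i h1 h2).1, (hL i h1 h2).2.1, (hL i h1 h2).2.2.prod (hL' i h1 h2).2.2⟩
private theorem rprod_Tm (h : Env X C) (h' : Env X' C') {ν : Measure Y} {ν' : Measure Y'}
    (hν : ExpM ν) (hν' : ExpM ν') (a : ℝ) (y : Y × Y') :
    Tm a (ν.prod ν') (fun y => X y.1 + X' y.2) y = Tm a ν X y.1 + Tm a ν' X' y.2 := by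
  have := hν.prob
  have := hν'.prob
  unfold Tm
  simp only [Prod.fst_add, Prod.snd_add]
  split_ifs with ha
  · rw [integral_add ((h.integrable hν y.1).comp_fst ν') ((h'.integrable hν' y.2).comp_snd ν),
      integral_fun_fst (fun η => X (y.1 + η)), integral_fun_snd (fun η => X' (y.2 + η))]
    simp
  · simp only [mul_add, exp_add]
    rw [integral_prod_mul (fun η => exp (a * X (y.1 + η))) (fun η => exp (a * X' (y.2 + η))),
      log_mul (integral_exp_pos (h.integrable_exp hν a y.1)).ne'
        (integral_exp_pos (h'.integrable_exp hν' a y.2)).ne', mul_add]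

theorem Rec_prod (h : Env X C) (h' : Env X' C') (hL : Lv m ρ n j) (hL' : Lv m ρ' n j) (y : Y × Y') :
    Rec m (fun i => (ρ i).prod (ρ' i)) (fun y => X y.1 + X' y.2) n j y =
      Rec m ρ X n j y.1 + Rec m ρ' X' n j y.2 := by
  induction n generalizing j y with
  | zero => rfl
  | succ n ih =>
    have e : Rec m (fun i => (ρ i).prod (ρ' i)) (fun y => X y.1 + X' y.2) n (j + 1) =
        fun y => Rec m ρ X n (j + 1) y.1 + Rec m ρ' X' n (j + 1) y.2 :=
      funext fun y => ih hL.tail hL'.tail y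
    simp only [Rec, e]
    exact rprod_Tm (h.recur hL.tail) (h'.recur hL'.tail) (hL j le_rfl (by omega)).2.2
      (hL' j le_rfl (by omega)).2.2 _ y
theorem Tl_prod (h : Env X C) (h' : Env X' C') (hL : Lv m ρ n j) (hL' : Lv m ρ' n j) (y : Y × Y') :
    Tl m (fun i => (ρ i).prod (ρ' i)) (fun y => X y.1 + X' y.2) (fun y => φ y.1 * φ' y.2) n j y =
      Tl m ρ X φ n j y.1 * Tl m ρ' X' φ' n j y.2 := by
  induction n generalizing j y with
  | zero => rfl
  | succ n ih =>
    have := (hL j le_rfl (by omega)).2.2.prob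
    have := (hL' j le_rfl (by omega)).2.2.prob
    simp only [Tl]
    rw [integral_tilted, integral_tilted, integral_tilted]
    simp only [ih hL.tail hL'.tail, Rec_prod h h' hL.tail hL'.tail,
      Prod.fst_add, Prod.snd_add, mul_add, exp_add, smul_eq_mul]
    rw [integral_prod_mul (fun η => exp (m j * Rec m ρ X n (j + 1) (y.1 + η)))
      (fun η => exp (m j * Rec m ρ' X' n (j + 1) (y.2 + η)))]
    refine Eq.trans ?_ (integral_prod_mul _ _)
    congr 1
    funext η
    simp only [div_eq_mul_inv, mul_inv]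
    ring
theorem E2_prod (h : Env X C) (h' : Env X' C') (hL : Lv m ρ (k + 1) 0) (hL' : Lv m ρ' (k + 1) 0)
    (hi : i ≤ k) :
    E2 m (fun i => (ρ i).prod (ρ' i)) (fun y => X y.1 + X' y.2) (fun y => φ y.1 * φ' y.2) k i =
      E2 m ρ X φ k i * E2 m ρ' X' φ' k i := by
  have h1 : Lv m ρ (k - i) (i + 1) := hL.mono (by omega) (by omega)
  have h1' : Lv m ρ' (k - i) (i + 1) := hL'.mono (by omega) (by omega)
  have e1 : Rec m (fun i => (ρ i).prod (ρ' i)) (fun y => X y.1 + X' y.2) (k - i) (i + 1) =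
      fun y => Rec m ρ X (k - i) (i + 1) y.1 + Rec m ρ' X' (k - i) (i + 1) y.2 :=
    funext fun y => Rec_prod h h' h1 h1' y
  unfold E2
  simp only [e1, Tl_prod h h' h1 h1', mul_pow]
  exact Tl_prod (φ := fun y => Tl m ρ X φ (k - i) (i + 1) y ^ 2)
    (φ' := fun y => Tl m ρ' X' φ' (k - i) (i + 1) y ^ 2) (h.recur h1) (h'.recur h1')
    (hL.mono le_rfl (by omega)) (hL'.mono le_rfl (by omega)) 0

private theorem rprod_Tm_pi {N : ℕ} {F : ℝ → ℝ} (hF : Env F C) (β a : ℝ) (y : Fin N → ℝ) :
    Tm a ((gp (Fin N)).map fun g => β • g) (fun y => ∑ l, F (y l)) y =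
      ∑ l, Tm a (gw β) F (y l) := by
  have e : ((gp (Fin N)).map fun g => β • g) = Measure.pi fun _ : Fin N => gw β :=
    Measure.pi_map_pi (μ := fun _ : Fin N => gaussianReal 0 1) (f := fun _ z => β * z)
      fun _ => by fun_prop
  rw [e]
  unfold Tm
  simp only [Pi.add_apply]
  split_ifs with ha
  · rw [integral_finsetSum (f := fun l (η : Fin N → ℝ) => F (y l + η l)) _ fun l _ =>
      integrable_comp_eval (μ := fun _ : Fin N => gw β) (i := l) (hF.integrable (expM_gw β) (y l))]
    exact Finset.sum_congr rfl fun l _ => integral_comp_eval (μ := fun _ : Fin N => gw β) (i := l)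
      (hF.integrable (expM_gw β) (y l)).aestronglyMeasurable
  · simp only [Finset.mul_sum, exp_sum]
    rw [integral_fintype_prod_eq_prod (fun l η => exp (a * F (y l + η))),
      log_prod fun l _ => (integral_exp_pos (hF.integrable_exp (expM_gw β) a (y l))).ne',
      Finset.mul_sum]

theorem Rec_pi {N : ℕ} {F : ℝ → ℝ} (hF : Env F C) (β : ℕ → ℝ) (hL : Lv m (fun i => gw (β i)) n j)
    (y : Fin N → ℝ) :
    Rec m (fun i => (gp (Fin N)).map fun g => β i • g) (fun y => ∑ l, F (y l)) n j y =
      ∑ l, Rec m (fun i => gw (β i)) F n j (y l) := by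
  induction n generalizing j y with
  | zero => rfl
  | succ n ih =>
    have e : Rec m (fun i => (gp (Fin N)).map fun g => β i • g) (fun y => ∑ l, F (y l)) n (j + 1) =
        fun y => ∑ l, Rec m (fun i => gw (β i)) F n (j + 1) (y l) :=
      funext fun y => ih hL.tail y
    simp only [Rec, e]
    exact rprod_Tm_pi (hF.recur hL.tail) _ _ y

end P157
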