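import Vale.Agent.P157.SpPolar
import Vale.Agent.P157.SpCalc
import Vale.Agent.P157.Refine
import Vale.Agent.P157.RProd

/-! P157 SpInit: initial condition for the sphere.
Plan. Let `s j = ∑_{i ≤ j} β i²` and `b ≥ 1` from `sph_concave`. For `y`, the function
`t ↦ ∫ exp (t y·sphSp x) ∂gp = ∫ cosh (t y·sphSp x)` is nondecreasing on `[0,∞)` (symmetry `x ↦ -x`). By
`polar_mp`, `exp (y·y/(2b)) = ∫ exp (b^{-1/2} y·x) ∂gp ≥ chi {r ≥ √(bN)} ∫ exp (y·sphSp x)`. Lower bound
`chi {r² ≥ bN} ≥ (1/2) exp (-N (b - 1 - log b)/2 - η N b)` for `N ≥ N₀(η)`, uniformly in `b ≥ 1`: change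
measure to the Gaussian of variance `b (1+η')` (density ratio on `{bN ≤ |x|² ≤ bN (1+3η')}`) and use
`chi_conc`. Thus `X y := log ∫ exp (y·sphSp) ≤ ∑ (y i)²/(2b) + c`. Then `RecN_quad_le`: prove by
downward induction on the levels that `Rec m ρ X n j y ≤ y·y/(2 bq) + N const + c` for `Env X` with
`X ≤ y·y/(2b) + c` (`N`-dimensional version of `parisi_quad_le`: each level factorises by
`integral_fintype_prod_eq_prod` into one-dimensional Gaussian integrals; reuse the one-level lemma of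
SpQuad.lean if available). In `sph_init` apply `chi_lower` with `η (1 - p k)`.
`sph_refine`: `exists_refine` with
`energy_ins`, `sphereEntropy_ins`.
-/

open MeasureTheory ProbabilityTheory Real
open scoped BigOperators Matrix

namespace P157

theorem spi_tilt {ι : Type} [Fintype ι] (μ : Measure ℝ) [SigmaFinite μ] (h : ℝ → ℝ)
    [SigmaFinite (μ.tilted h)] : (Measure.pi fun _ : ι => μ.tilted h) =
      (Measure.pi fun _ : ι => μ).tilted (fun σ => ∑ l, h (σ l)) := by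
  refine Measure.pi_eq fun s hs => ?_
  have e1 : ∀ σ : ι → ℝ, exp (∑ l, h (σ l)) = ∏ l, exp (h (σ l)) := fun σ => exp_sum _ _
  have e2 : ∫ σ : ι → ℝ, exp (∑ l, h (σ l)) ∂(Measure.pi fun _ : ι => μ)
      = ∏ _l : ι, ∫ x, exp (h x) ∂μ := by
    simp only [e1]
    exact integral_fintype_prod_eq_prod (fun (_ : ι) x => exp (h x))
  rw [tilted_apply_eq_ofReal_integral, e2, Measure.restrict_pi_pi]
  simp only [e1, ← Finset.prod_div_distrib, tilted_apply_eq_ofReal_integral]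
  rw [integral_fintype_prod_eq_prod (fun (_ : ι) x => exp (h x) / ∫ x, exp (h x) ∂μ),
    ENNReal.ofReal_prod_of_nonneg fun i _ => integral_nonneg fun x => by positivity]

theorem spi_dens {l : ℝ} (hl : 0 < l) : (gw l).withDensity
    (fun x => ENNReal.ofReal (exp (log l - (1 - l⁻¹ ^ 2) * x ^ 2 / 2))) = gaussianReal 0 1 := by
  have h1 : (l ^ 2).toNNReal ≠ 0 := (Real.toNNReal_pos.2 (by positivity)).ne'
  rw [gw_eq, gaussianReal_of_var_ne_zero _ h1, gaussianReal_of_var_ne_zero _ one_ne_zero,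
    ← withDensity_mul _ (measurable_gaussianPDF _ _) (by fun_prop)]
  congr 1
  funext x
  rw [Pi.mul_apply, gaussianPDF, gaussianPDF, ← ENNReal.ofReal_mul (gaussianPDFReal_nonneg _ _ _)]
  congr 1
  rw [gaussianPDFReal, gaussianPDFReal, Real.coe_toNNReal _ (sq_nonneg l), NNReal.coe_one,
    sqrt_mul (by positivity) (l ^ 2), sqrt_sq hl.le, exp_sub, exp_log hl, mul_one, mul_inv,
    mul_assoc, mul_assoc, div_eq_mul_inv l, mul_left_comm _ l, ← mul_assoc l⁻¹,
    inv_mul_cancel₀ hl.ne', one_mul, ← exp_neg, ← exp_add]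
  congr 2
  field_simp
  ring

theorem spi_mass {l : ℝ} (hl : 0 < l) :
    ∫ x, exp (log l - (1 - l⁻¹ ^ 2) * x ^ 2 / 2) ∂(gw l) = 1 := by
  rw [integral_eq_lintegral_of_nonneg_ae (ae_of_all _ fun x => (exp_pos _).le)
    (Measurable.aestronglyMeasurable (by fun_prop)), ← setLIntegral_univ,
    ← withDensity_apply _ MeasurableSet.univ, spi_dens hl, measure_univ, ENNReal.toReal_one]

theorem spi_scale {N : ℕ} {l : ℝ} (hl : 0 < l) {A : Set (Fin N → ℝ)} (hA : MeasurableSet A) {c : ℝ}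
    (hc : ∀ x ∈ A, c ≤ N * log l - (1 - l⁻¹ ^ 2) * (x ⬝ᵥ x) / 2) :
    exp c * (gp (Fin N)).real ((fun z => l • z) ⁻¹' A) ≤ (gp (Fin N)).real A := by
  have e1 : (gw l).tilted (fun x => log l - (1 - l⁻¹ ^ 2) * x ^ 2 / 2) = gaussianReal 0 1 := by
    rw [Measure.tilted, spi_mass hl]
    simpa only [div_one] using spi_dens hl
  have : SigmaFinite ((gw l).tilted fun x => log l - (1 - l⁻¹ ^ 2) * x ^ 2 / 2) := by
    rw [e1]
    infer_instance
  have e2 := spi_tilt (ι := Fin N) (gw l) (fun x => log l - (1 - l⁻¹ ^ 2) * x ^ 2 / 2)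
  have e3 : ∫ σ : Fin N → ℝ, exp (∑ i, (log l - (1 - l⁻¹ ^ 2) * σ i ^ 2 / 2))
      ∂(Measure.pi fun _ => gw l) = 1 := by
    simp only [exp_sum]
    rw [integral_fintype_prod_eq_prod
      (fun (_ : Fin N) x => exp (log l - (1 - l⁻¹ ^ 2) * x ^ 2 / 2)), spi_mass hl,
      Finset.prod_const_one]
  have e4 : MeasurePreserving (fun z : Fin N → ℝ => l • z) (gp (Fin N))
      (Measure.pi fun _ => gw l) :=
    measurePreserving_pi _ _ (f := fun _ z => l * z) fun _ => ⟨by fun_prop, rfl⟩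
  rw [e1, Measure.tilted, e3] at e2
  have h1 : ENNReal.ofReal (exp c) * gp (Fin N) ((fun z => l • z) ⁻¹' A) ≤ gp (Fin N) A := by
    rw [e4.measure_preimage hA.nullMeasurableSet, ← setLIntegral_const]
    refine le_trans (setLIntegral_mono' hA fun x hx => ?_)
      ((withDensity_apply _ hA).symm.trans (congrArg (fun ν : Measure _ => ν A) e2.symm)).le
    refine ENNReal.ofReal_le_ofReal ?_
    rw [div_one]
    refine exp_le_exp.2 ((hc x hx).trans (le_of_eq ?_))
    rw [Finset.sum_sub_distrib, ← Finset.sum_div, ← Finset.mul_sum, Finset.sum_const,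
      Finset.card_univ, Fintype.card_fin, nsmul_eq_mul]
    simp only [dotProduct, sq]
  have h2 := ENNReal.toReal_mono (measure_ne_top _ _) h1
  rwa [ENNReal.toReal_mul, ENNReal.toReal_ofReal (exp_pos c).le] at h2

theorem spi_chi (N : ℕ) {p : ℝ → Prop} (hp : MeasurableSet {t | p t}) :
    (chi N).real {r | p (r ^ 2)} = (gp (Fin N)).real {x | p (x ⬝ᵥ x)} := by
  have hm : Measurable fun x : Fin N → ℝ => √(x ⬝ᵥ x) := by
    unfold dotProduct
    fun_prop
  have hs : MeasurableSet {r : ℝ | p (r ^ 2)} := measurable_id.pow_const 2 hp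
  rw [chi, map_measureReal_apply hm hs]
  congr 1
  ext x
  simp only [Set.mem_preimage, Set.mem_ofPred_eq, sq_sqrt (ibp0_nonneg x)]

theorem chi_lower {η : ℝ} (hη : 0 < η) : ∀ᶠ N : ℕ in Filter.atTop, ∀ b : ℝ, 1 ≤ b →
    exp (-(N * ((b - 1 - log b) / 2 + η * b))) ≤ (chi N).real {r | b * N ≤ r ^ 2} := by
  obtain ⟨θ, h0, h1, h2⟩ : ∃ θ : ℝ, 0 < θ ∧ θ ≤ 1 / 2 ∧ θ ≤ η / 4 :=
    ⟨min (1 / 2) (η / 4), by positivity, min_le_left _ _, min_le_right _ _⟩
  filter_upwards [tendsto_natCast_atTop_atTop (R := ℝ).eventually_ge_atTop (4 / θ ^ 2),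
    tendsto_natCast_atTop_atTop (R := ℝ).eventually_ge_atTop (2 / η),
    Filter.eventually_gt_atTop 0] with N hN1 hN2 hN b hb
  have hN0 : (0 : ℝ) < N := Nat.cast_pos.2 hN
  have hm : Measurable fun x : Fin N → ℝ => x ⬝ᵥ x := by
    unfold dotProduct
    fun_prop
  obtain ⟨l, hl, hl2⟩ : ∃ l : ℝ, 0 < l ∧ l ^ 2 = b * (1 + 2 * θ) :=
    ⟨√(b * (1 + 2 * θ)), by positivity, sq_sqrt (by positivity)⟩
  have hbl : b ≤ l ^ 2 := by nlinarith
  have c1 := chi_conc hN h0
  rw [spi_chi N (p := fun t => θ * N < |t - N|) (measurableSet_lt measurable_const (by fun_prop))] at c1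
  have c2 : 2 / (θ ^ 2 * N) ≤ 1 / 2 := by
    rw [div_le_iff₀ (by positivity)] at hN1 ⊢
    linarith
  have c3 := measureReal_compl (μ := gp (Fin N)) (s := {x | θ * N < |x ⬝ᵥ x - N|})
    (measurableSet_lt measurable_const (by fun_prop))
  rw [probReal_univ] at c3
  have c4 := spi_scale hl (A := {x : Fin N → ℝ | b * N ≤ x ⬝ᵥ x} ∩ {x | x ⬝ᵥ x ≤ l ^ 2 * ((1 + θ) * N)})
    ((measurableSet_le measurable_const hm).inter (measurableSet_le hm measurable_const))
    (c := N * log l - (l ^ 2 - 1) * ((1 + θ) * N) / 2) fun x hx => by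
      have h3 : 0 ≤ 1 - l⁻¹ ^ 2 := by
        rw [inv_pow, sub_nonneg]
        exact inv_le_one_of_one_le₀ (by linarith)
      have h4 := mul_le_mul_of_nonneg_left hx.2 h3
      rw [← mul_assoc, show (1 - l⁻¹ ^ 2) * l ^ 2 = l ^ 2 - 1 by field_simp] at h4
      linarith
  have c5 : (gp (Fin N)).real {x | θ * N < |x ⬝ᵥ x - N|}ᶜ ≤ (gp (Fin N)).real ((fun z => l • z) ⁻¹'
      ({x : Fin N → ℝ | b * N ≤ x ⬝ᵥ x} ∩ {x | x ⬝ᵥ x ≤ l ^ 2 * ((1 + θ) * N)})) := by
    refine measureReal_mono fun z hz => ?_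
    have hz' : ¬ θ * N < |z ⬝ᵥ z - N| := hz
    have h3 := abs_le.1 (not_lt.1 hz')
    have e : (l • z) ⬝ᵥ (l • z) = l ^ 2 * (z ⬝ᵥ z) := by
      rw [smul_dotProduct, dotProduct_smul, smul_eq_mul, smul_eq_mul, sq, mul_assoc]
    refine ⟨?_, ?_⟩
    · show b * N ≤ (l • z) ⬝ᵥ (l • z)
      have h4 := mul_le_mul_of_nonneg_left (by linarith : (1 - θ) * N ≤ z ⬝ᵥ z) (sq_nonneg l)
      have h5 : b * N * 1 ≤ b * N * ((1 + 2 * θ) * (1 - θ)) :=
        mul_le_mul_of_nonneg_left (by nlinarith) (by positivity)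
      rw [e]
      rw [hl2] at h4 ⊢
      linarith
    · show (l • z) ⬝ᵥ (l • z) ≤ _
      rw [e]
      exact mul_le_mul_of_nonneg_left (by linarith) (sq_nonneg l)
  rw [spi_chi N (p := fun t => b * N ≤ t) measurableSet_Ici]
  refine le_trans ?_ (c4.trans (measureReal_mono Set.inter_subset_left))
  refine le_trans ?_ (mul_le_mul_of_nonneg_left ((by linarith : (1 : ℝ) / 2 ≤ _).trans c5)
    (exp_pos _).le)
  have c6 : exp (-1) ≤ 1 / 2 := by
    rw [exp_neg, one_div]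
    exact inv_anti₀ two_pos (by linarith [add_one_le_exp (1 : ℝ)])
  refine le_trans ?_ (mul_le_mul_of_nonneg_left c6 (exp_pos _).le)
  rw [← exp_add]
  refine exp_le_exp.2 ?_
  have c7 := log_le_log (by linarith) hbl
  rw [log_pow] at c7
  have c8 := mul_le_mul_of_nonneg_left c7 hN0.le
  have c9 : (l ^ 2 - 1) * (1 + θ) ≤ b - 1 + η * b := by
    have := mul_le_mul_of_nonneg_right (by nlinarith : 3 * θ + 2 * θ ^ 2 ≤ η) (by linarith : 0 ≤ b)
    rw [hl2]
    nlinarith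
  have c10 := mul_le_mul_of_nonneg_right c9 hN0.le
  rw [div_le_iff₀ hη] at hN2
  have c11 := mul_le_mul_of_nonneg_left hb (by positivity : 0 ≤ N * η)
  push_cast at c8
  nlinarith

theorem spi_inc (β : ℕ → ℝ) (j : ℕ) :
    inc (fun j => ∑ i ∈ Finset.range (j + 1), β i ^ 2) j = β j ^ 2 := by
  cases j with
  | zero => simp [inc]
  | succ j =>
    show ∑ i ∈ Finset.range (j + 1 + 1), β i ^ 2 - ∑ i ∈ Finset.range (j + 1), β i ^ 2 = _
    rw [Finset.sum_range_succ _ (j + 1), add_sub_cancel_left]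

theorem spi_path (k : ℕ) (β : ℕ → ℝ) :
    IsPath k (fun j => ∑ i ∈ Finset.range (j + 1), β i ^ 2) := by
  refine ⟨Finset.sum_nonneg fun i _ => sq_nonneg _, fun j _ => ?_⟩
  show _ ≤ ∑ i ∈ Finset.range (j + 1 + 1), β i ^ 2
  rw [Finset.sum_range_succ _ (j + 1)]
  exact le_add_of_nonneg_right (sq_nonneg _)

theorem spi_env_sum {N : ℕ} {F : ℝ → ℝ} {C : ℝ} (hF : Env F C) :
    Env (fun y : Fin N → ℝ => ∑ l, F (y l)) (N * C) := by
  refine ⟨Finset.measurable_sum _ fun l _ => hF.meas.comp (measurable_pi_apply l), fun y y' => ?_⟩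
  rw [← Finset.sum_sub_distrib]
  refine (Finset.abs_sum_le_sum_abs _ _).trans ((Finset.sum_le_sum (g := fun _ => C * (1 + ‖y - y'‖))
    fun l _ => (hF.lip _ _).trans (mul_le_mul_of_nonneg_left
      (add_le_add le_rfl (norm_le_pi_norm (y - y') l)) hF.nonneg)).trans (le_of_eq ?_))
  rw [Finset.sum_const, Finset.card_univ, Fintype.card_fin, nsmul_eq_mul, mul_assoc]

theorem spi_trunc {b C : ℝ} (hb : 0 < b) (hC : 0 ≤ C) : ∃ (F : ℝ → ℝ) (C' : ℝ), Env F C' ∧
    (∀ t, F t ≤ t ^ 2 / (2 * b)) ∧ ∀ {N : ℕ} (y : Fin N → ℝ),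
      min (y ⬝ᵥ y / (2 * b)) (C * (1 + ‖y‖)) ≤ ∑ l, F (y l) := by
  obtain ⟨T, hT⟩ : ∃ T, T = 2 * b * C + 1 := ⟨_, rfl⟩
  have hbC : 0 ≤ 2 * b * C := by positivity
  have e1 : Env (fun t : ℝ => C * |t| + C) C :=
    (Env.of_lip (by fun_prop) hC fun y y' => by
      rw [← mul_sub, abs_mul, abs_of_nonneg hC]
      exact mul_le_mul_of_nonneg_left (abs_abs_sub_abs_le_abs_sub y y') hC).add_const C
  have e2 : Env (fun t : ℝ => if |t| ≤ T then t ^ 2 / (2 * b) - (C * |t| + C) else 0)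
      (2 * (T ^ 2 / (2 * b) + (C * T + C))) := by
    refine Env.of_bdd (Measurable.ite (measurableSet_le (by fun_prop) measurable_const)
      (by fun_prop) measurable_const) fun t => ?_
    have h0 : 0 ≤ T := by linarith
    split_ifs with h
    · refine gb_sub ?_ ?_
      · rw [abs_of_nonneg (by positivity), ← sq_abs]
        exact div_le_div_of_nonneg_right (pow_le_pow_left₀ (abs_nonneg _) h 2) (by positivity)
      · rw [abs_of_nonneg (by positivity)]
        exact add_le_add (mul_le_mul_of_nonneg_left h hC) le_rfl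
    · rw [abs_zero]
      positivity
  refine ⟨_, _, e1.add e2, fun t => ?_, fun {N} y => ?_⟩
  · split_ifs with h
    · linarith
    · rw [add_zero, le_div_iff₀ (by positivity), ← sq_abs]
      have := not_le.1 h
      nlinarith
  · by_cases h : ∀ l, |y l| ≤ T
    · refine (min_le_left _ _).trans (le_of_eq ?_)
      rw [dotProduct, Finset.sum_div]
      refine Finset.sum_congr rfl fun l _ => ?_
      rw [if_pos (h l)]
      ring
    · obtain ⟨l₀, h0⟩ := not_forall.1 h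
      have : Nonempty (Fin N) := ⟨l₀⟩
      obtain ⟨l, hl⟩ := Finite.exists_max fun l => |y l|
      have h1 : ‖y‖ ≤ |y l| := (pi_norm_le_iff_of_nonneg (abs_nonneg _)).2 hl
      refine (min_le_right _ _).trans (le_trans ?_ (Finset.single_le_sum (fun i _ => ?_)
        (Finset.mem_univ l)))
      · rw [if_neg fun h2 => h0 ((hl l₀).trans h2)]
        nlinarith
      · split_ifs
        · rw [add_sub_cancel]
          positivity
        · positivity

theorem RecN_quad_le {k N : ℕ} {m : ℕ → ℝ} (hk : IsPartition k m) (β : ℕ → ℝ) {b : ℝ}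
    (hb : 0 < bq k m (fun j => ∑ i ∈ Finset.range (j + 1), β i ^ 2) b 0) {X : (Fin N → ℝ) → ℝ}
    {C c : ℝ} (hX : Env X C) (h : ∀ y, X y ≤ y ⬝ᵥ y / (2 * b) + c) :
    Rec m (fun j => (gp (Fin N)).map fun g => β j • g) X (k + 1) 0 0 ≤
      N * quadV k m (fun j => ∑ i ∈ Finset.range (j + 1), β i ^ 2) b + c := by
  have hs := spi_path k β
  have hb0 : 0 < b := (hb.trans_le (bq_mono hk hs (Nat.zero_le k) le_rfl)).trans_eq bq_last
  obtain ⟨F, C', hF, h1, h2⟩ := spi_trunc hb0 hX.nonneg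
  have hL := (hk.lv fun j => expM_gp_smul (ι := Fin N) (β j)).mono (n' := k + 1) le_rfl (by omega)
  have hL1 := (hk.lv fun j => expM_gw (β j)).mono (n' := k + 1) le_rfl (by omega)
  have h3 := Rec_mono hX ((spi_env_sum hF).add_const c) hL (fun y => by
    have h4 := (abs_le.1 (hX.lip y 0)).2
    have h5 := h 0
    have h6 := h y
    rw [sub_zero] at h4
    rw [zero_dotProduct, zero_div] at h5
    refine le_trans ?_ (add_le_add (h2 y) le_rfl)
    rw [← sub_le_iff_le_add, le_min_iff]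
    constructor <;> linarith) 0
  rw [Rec_add_const (spi_env_sum hF) hL, Rec_pi hF β hL1] at h3
  have e : Rec m (fun i => gw (β i)) F (k + 1) 0 0 =
      parisi k m (fun j => ∑ i ∈ Finset.range (j + 1), β i ^ 2) F := by
    rw [parisi_eq_Rec hk hF]
    refine congrFun (Rec_congr fun i _ => ⟨rfl, gw_congr ?_⟩) 0
    rw [spi_inc, sq_sqrt (sq_nonneg _)]
  have h7 := parisi_quad_le hk hs hb hF (c₀ := 0) fun y => (h1 y).trans_eq (add_zero _).symm
  simp only [Pi.zero_apply, e, Finset.sum_const, Finset.card_univ, Fintype.card_fin,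
    nsmul_eq_mul] at h3
  rw [add_zero] at h7
  exact h3.trans (add_le_add (mul_le_mul_of_nonneg_left h7 (Nat.cast_nonneg N)) le_rfl)

theorem spi_dot {N : ℕ} {S : Type} [MeasurableSpace S] {sp : S → Fin N → ℝ} (h : IsSp sp)
    (y : Fin N → ℝ) (σ : S) : |y ⬝ᵥ sp σ| ≤ N * √(N : ℝ) * ‖y‖ := by
  refine (Finset.abs_sum_le_sum_abs _ _).trans ((Finset.sum_le_sum (g := fun _ => ‖y‖ * √(N : ℝ))
    fun l _ => gb_mul (norm_le_pi_norm y l) (sb_coord h σ l)).trans (le_of_eq ?_))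
  rw [Finset.sum_const, Finset.card_univ, Fintype.card_fin, nsmul_eq_mul]
  ring

theorem spi_meas {N : ℕ} {S : Type} [MeasurableSpace S] {sp : S → Fin N → ℝ} (h : IsSp sp) :
    Measurable fun p : (Fin N → ℝ) × S => p.1 ⬝ᵥ sp p.2 := by
  have := h.meas
  unfold dotProduct
  fun_prop

theorem spi_int {N : ℕ} {S : Type} [MeasurableSpace S] (μ : Measure S) [IsProbabilityMeasure μ]
    {sp : S → Fin N → ℝ} (h : IsSp sp) (y : Fin N → ℝ) :
    Integrable (fun σ => exp (y ⬝ᵥ sp σ)) μ :=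
  gc_exp ((spi_meas h).comp (measurable_const.prodMk measurable_id)) (spi_dot h y)

theorem spi_env {N : ℕ} {S : Type} [MeasurableSpace S] (μ : Measure S) [IsProbabilityMeasure μ]
    {sp : S → Fin N → ℝ} (h : IsSp sp) :
    Env (fun y : Fin N → ℝ => log (∫ σ, exp (y ⬝ᵥ sp σ) ∂μ)) (N * √(N : ℝ)) := by
  have hle : ∀ y y' : Fin N → ℝ, log (∫ σ, exp (y ⬝ᵥ sp σ) ∂μ) ≤
      log (∫ σ, exp (y' ⬝ᵥ sp σ) ∂μ) + N * √(N : ℝ) * ‖y - y'‖ := fun y y' => by
    have h1 := integral_mono (spi_int μ h y) ((spi_int μ h y').mul_const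
      (exp (N * √(N : ℝ) * ‖y - y'‖))) fun σ => by
      have h2 := (abs_le.1 (spi_dot h (y - y') σ)).2
      rw [sub_dotProduct] at h2
      rw [← exp_add]
      exact exp_le_exp.2 (by linarith)
    rw [integral_mul_const] at h1
    have h3 := log_le_log (integral_exp_pos (spi_int μ h y)) h1
    rwa [log_mul (integral_exp_pos (spi_int μ h y')).ne' (exp_pos _).ne', log_exp] at h3
  refine Env.of_lip (Measurable.log ?_) (by positivity) fun y y' => ?_
  · exact (StronglyMeasurable.integral_prod_right' (f := fun p : (Fin N → ℝ) × S =>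
      exp (p.1 ⬝ᵥ sp p.2)) (spi_meas h).exp.stronglyMeasurable).measurable
  · have h1 := hle y y'
    have h2 := hle y' y
    rw [norm_sub_rev] at h2
    rw [abs_le]
    constructor <;> linarith

theorem spi_key {N : ℕ} (hN : 0 < N) {b : ℝ} (hb : 0 < b) (y : Fin N → ℝ) :
    (∫ σ, exp (y ⬝ᵥ sphSp N σ) ∂(gp (Fin N))) * (chi N).real {r | b * N ≤ r ^ 2} ≤
      2 * exp (y ⬝ᵥ y / (2 * b)) := by
  have hN0 : (0 : ℝ) < N := Nat.cast_pos.2 hN
  obtain ⟨a, ha⟩ : ∃ a : Fin N → ℝ, a = (√b)⁻¹ • y := ⟨_, rfl⟩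
  have e : a ⬝ᵥ a / 2 = y ⬝ᵥ y / (2 * b) := by
    rw [ha, smul_dotProduct, dotProduct_smul, smul_eq_mul, smul_eq_mul, ← mul_assoc, ← mul_inv,
      mul_self_sqrt hb.le]
    field_simp
  have hi : Integrable (fun g => exp (a ⬝ᵥ g) + exp ((-a) ⬝ᵥ g)) (gp (Fin N)) :=
    (gp_integrable_exp_dot a).add (gp_integrable_exp_dot (-a))
  have e1 : ∫ g, (exp (a ⬝ᵥ g) + exp ((-a) ⬝ᵥ g)) ∂(gp (Fin N)) = 2 * exp (y ⬝ᵥ y / (2 * b)) := by
    rw [integral_add (gp_integrable_exp_dot a) (gp_integrable_exp_dot (-a)), gp_exp_dot, gp_exp_dot,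
      neg_dotProduct_neg, e, two_mul (exp _)]
  have hA : MeasurableSet {r : ℝ | b * N ≤ r ^ 2} := measurableSet_le measurable_const (by fun_prop)
  have hm : Measurable fun g => exp (a ⬝ᵥ g) + exp ((-a) ⬝ᵥ g) :=
    (ibp0_meas a).exp.add (ibp0_meas (-a)).exp
  rw [← e1, ← gc_map (polar_mp hN) hm, ← integral_indicator_one hA, ← integral_prod_mul]
  refine integral_mono_of_nonneg (ae_of_all _ fun p => mul_nonneg (exp_pos _).le
    (Set.indicator_nonneg (fun _ _ => zero_le_one) _))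
    ((polar_mp hN).integrable_comp_of_integrable hi) (ae_of_all _ fun p => ?_)
  by_cases hp : p.2 ∈ {r : ℝ | b * N ≤ r ^ 2}
  · have h1 : 1 ≤ |(√b)⁻¹ * (p.2 / √(N : ℝ))| := by
      rw [← one_le_sq_iff_one_le_abs, mul_pow, div_pow, inv_pow, sq_sqrt hb.le, sq_sqrt hN0.le,
        inv_mul_eq_div, div_div, one_le_div (by positivity), mul_comm]
      exact hp
    have h2 := cosh_le_cosh.2 (show |y ⬝ᵥ sphSp N p.1| ≤
      |(√b)⁻¹ * (p.2 / √(N : ℝ)) * y ⬝ᵥ sphSp N p.1| by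
        rw [abs_mul]
        exact le_mul_of_one_le_left (abs_nonneg _) h1)
    simp only [Set.indicator_of_mem hp, Pi.one_apply, mul_one]
    rw [neg_dotProduct, ha, smul_dotProduct, dotProduct_smul, smul_eq_mul, smul_eq_mul, ← mul_assoc]
    rw [cosh_eq, cosh_eq] at h2
    linarith [exp_pos (-(y ⬝ᵥ sphSp N p.1))]
  · simp only [Set.indicator_of_notMem hp, mul_zero]
    positivity

theorem sph_init {k : ℕ} {m p : ℕ → ℝ} (hk : IsPartition k m) (hp : IsPath k p) (hp1 : p k < 1) :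
    InitB (fun N => gp (Fin N)) sphSp k m p (sphereEntropy k m p) := by
  intro η hη
  have h0 : 0 < 1 - p k := sub_pos.2 hp1
  filter_upwards [chi_lower (η := η / 2 * (1 - p k)) (by positivity),
    tendsto_natCast_atTop_atTop (R := ℝ).eventually_ge_atTop (2 / η),
    Filter.eventually_gt_atTop 0] with N h1 h2 hN β
  have hN0 : (0 : ℝ) < N := Nat.cast_pos.2 hN
  have hs := spi_path k β
  obtain ⟨b, hb1, hb2, hb3⟩ := sph_concave hk hp hp1 hs
  have hb : 1 ≤ b := (hb1.trans (bq_mono hk hs (Nat.zero_le k) le_rfl)).trans_eq bq_last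
  have h3 := RecN_quad_le hk β (one_pos.trans_le hb1) (spi_env (gp (Fin N)) (sphSp_isSp N))
    (c := N * ((b - 1 - log b) / 2 + η / 2 * (1 - p k) * b) + 1) fun y => by
      have h4 := integral_exp_pos (spi_int (gp (Fin N)) (sphSp_isSp N) y)
      have h5 := (mul_le_mul_of_nonneg_left (h1 b hb) h4.le).trans (spi_key hN (by linarith) y)
      have h6 := log_le_log (mul_pos h4 (exp_pos _)) h5
      rw [log_mul h4.ne' (exp_pos _).ne', log_mul two_ne_zero (exp_pos _).ne', log_exp,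
        log_exp] at h6
      linarith [log_le_sub_one_of_pos two_pos]
  have e : ∑ j ∈ Finset.range (k + 1), β j ^ 2 * (tail k m p j - 1) / 2 =
      pair k m p (fun j => ∑ i ∈ Finset.range (j + 1), β i ^ 2) / 2
        - (∑ j ∈ Finset.range (k + 1), β j ^ 2) / 2 := by
    rw [pair_eq_sum_tail, ← sub_div, ← Finset.sum_sub_distrib, Finset.sum_div]
    refine Finset.sum_congr rfl fun j _ => ?_
    rw [spi_inc]
    ring
  have h4 : RecN k m (gp (Fin N)) (sphSp N) β / N ≤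
      quadV k m (fun j => ∑ i ∈ Finset.range (j + 1), β i ^ 2) b + ((b - 1 - log b) / 2
        + η / 2 * (1 - p k) * b) + η / 2 := by
    rw [div_le_iff₀ hN0]
    rw [div_le_iff₀ hη] at h2
    refine h3.trans ?_
    linarith
  have h5 := mul_le_mul_of_nonneg_left hb2 h0.le
  rw [mul_add, mul_inv_cancel₀ h0.ne'] at h5
  have h6 := mul_nonneg (hp.nonneg le_rfl) (hs.nonneg le_rfl)
  have h7 : η / 2 * ((1 - p k) * b) ≤ η / 2 * (1 + ∑ j ∈ Finset.range (k + 1), β j ^ 2) :=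
    mul_le_mul_of_nonneg_left (by linarith) (by positivity)
  have h8 := mul_nonneg hη.le (hs.nonneg le_rfl)
  rw [e]
  linarith

theorem sph_refine {k : ℕ} {m p : ℕ → ℝ} (hk : IsPartition k m) (hp : IsPath k p) (hp1 : p k < 1)
    {f : ℝ → ℝ} (hf : Measurable f) {K : ℝ} (hK : ∀ y, |f y| ≤ K) {δ : ℝ} (hδ : 0 < δ) :
    ∃ k' m' p', 1 ≤ k' ∧ IsPartition k' m' ∧ Mesh k' m' δ ∧ IsPath k' p' ∧ p' k' ≤ 1 ∧
      energy f k' m' p' = energy f k m p ∧
      InitB (fun N => gp (Fin N)) sphSp k' m' p' (sphereEntropy k m p) := by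
  obtain ⟨k', m', p', h1, h2, h3, h4, h5, h6, h7⟩ := exists_refine
    (fun k' m' (p' : ℕ → ℝ) => IsPath k' p' ∧ p' k' < 1 ∧ energy f k' m' p' = energy f k m p ∧
      sphereEntropy k' m' p' = sphereEntropy k m p)
    (fun k' m' p' i c h1 hi h2 h3 h4 => ⟨dup i p', h4.1.dup hi, (dup_last hi).trans_lt h4.2.1,
      (energy_ins h1 hi h2 h3 hf hK).trans h4.2.2.1,
      (sphereEntropy_ins hi h4.1 h4.2.1 h1).trans h4.2.2.2⟩) hk ⟨hp, hp1, rfl, rfl⟩ hδ
  exact ⟨k', m', p', h1, h2, h3, h4, h5.le, h6, h7 ▸ sph_init h2 h4 h5⟩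

end P157
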