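import Vale.Agent.P157.Approx
import Vale.Agent.P157.SpAn
import Vale.Agent.P157.SpInit

/-! P157 Final: the two theorems.
-/

open MeasureTheory ProbabilityTheory Real
open scoped BigOperators Matrix

namespace P157


theorem ising_main {α : ℝ} (hα : 0 < α) {f : ℝ → ℝ} (hf : Measurable f) {K : ℝ}
    (hK : ∀ y, |f y| ≤ K) :
    Filter.Tendsto (meanPressure isingMeasure α f) Filter.atTop
      (nhds (sInf (values isingEntropy α f))) := by
  have h := tendsto_general ising_fam hα
    (fun k m p hk hp hp1 => isingEntropy_nonneg hk hp hp1) (fun f' hf' => by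
      obtain ⟨K', hK'⟩ := nice_bounds hf'
      exact tendsto_nice ising_fam hα hK'
        (fun k m p hk hp hp1 δ hδ => ising_refine hk hp hp1 hK'.meas hK'.c0.b0 hδ)
        (ising_lbh hK' hα (by positivity))) hf hK
  refine h.congr fun N => ?_
  rw [meanPressure_ising]

theorem sphere_main {α : ℝ} (hα : 0 < α) {f : ℝ → ℝ} (hf : Measurable f) {K : ℝ}
    (hK : ∀ y, |f y| ≤ K) :
    Filter.Tendsto (meanPressure sphereMeasure α f) Filter.atTop
      (nhds (sInf (values sphereEntropy α f))) := by
  have h := tendsto_general sph_fam hα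
    (fun k m p hk hp hp1 => sphereEntropy_nonneg hk hp hp1) (fun f' hf' => by
      obtain ⟨K', hK'⟩ := nice_bounds hf'
      exact tendsto_nice sph_fam hα hK'
        (fun k m p hk hp hp1 δ hδ => sph_refine hk hp hp1 hK'.meas hK'.c0.b0 hδ)
        (sph_lbh hK' hα (by positivity))) hf hK
  refine h.congr' ?_
  filter_upwards [Filter.eventually_gt_atTop 0] with N hN
  rw [meanPressure_sphere α hf hN]

end P157
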