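import Vale.Agent.P157.GComp

/-! P157 GAn: API for `n`-replica averages.
Plan: measurability of `ω ↦ ∫ Φ ω ∂(pi fun _ => μ.tilted (H ω))`: show
`Measure.pi (fun _ => μ.tilted h) = (Measure.pi fun _ => μ).tilted (fun σ => ∑ l, h (σ l))`
(`Measure.pi_eq` on boxes, `integral_fintype_prod_eq_prod`), so that `An` is an `A1` for the good
Hamiltonian `∑ l, H ω (σ l)` on the configuration space `Fin n → S` (`An_eq_A1`); the linear API
then follows from GBasic. Marginals: `measurePreserving_eval`, for injective `e` the map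
`σ ↦ σ ∘ e` sends `pi` to `pi` (`Measure.pi_eq`, or `measurePreserving_piCongrLeft` +
`sumPiEquivProdPi`), `measurePreserving_finTwoArrow`.
-/

open MeasureTheory ProbabilityTheory Real
open scoped BigOperators Matrix

namespace P157

variable {Ω S : Type} [MeasurableSpace Ω] [MeasurableSpace S] {P : Measure Ω}
  [IsProbabilityMeasure P] {μ : Measure S} [IsProbabilityMeasure μ]

variable {H : Ω → S → ℝ} {n : ℕ} {Φ Ψ : Ω → (Fin n → S) → ℝ}

theorem Goodn.good (h : Goodn P Φ) : Good P Φ := ⟨h.meas, h.bdd⟩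
theorem Good.goodn (h : Good P Φ) : Goodn P Φ := ⟨h.meas, h.bdd⟩
theorem Good.sumRep (h : Good P H) (n : ℕ) :
    Good P (fun ω (σ : Fin n → S) => ∑ l, H ω (σ l)) := by
  exact Good.sum Finset.univ (F := fun l ω (σ : Fin n → S) => H ω (σ l)) fun l _ =>
    h.comp (MeasurePreserving.id P) (measurable_pi_apply l)
theorem pi_tilted (h : Good P H) (n : ℕ) (ω : Ω) :
    (Measure.pi fun _ : Fin n => μ.tilted (H ω)) =
      (Measure.pi fun _ : Fin n => μ).tilted (fun σ => ∑ l, H ω (σ l)) := by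
  haveI := h.isProb (μ := μ) ω
  refine Measure.pi_eq fun s hs => ?_
  have e1 : ∀ σ : Fin n → S, exp (∑ l, H ω (σ l)) = ∏ l, exp (H ω (σ l)) := fun σ => exp_sum _ _
  have e2 : ∫ σ : Fin n → S, exp (∑ l, H ω (σ l)) ∂(Measure.pi fun _ : Fin n => μ)
      = ∏ _l : Fin n, ∫ x, exp (H ω x) ∂μ := by
    simp only [e1]
    exact integral_fintype_prod_eq_prod (fun (_ : Fin n) x => exp (H ω x))
  rw [tilted_apply_eq_ofReal_integral, e2, Measure.restrict_pi_pi]
  simp only [e1, ← Finset.prod_div_distrib, tilted_apply_eq_ofReal_integral]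
  rw [integral_fintype_prod_eq_prod (fun (_ : Fin n) x => exp (H ω x) / ∫ x, exp (H ω x) ∂μ),
    ENNReal.ofReal_prod_of_nonneg fun i _ => integral_nonneg fun x => by positivity]
theorem An_eq_A1 (h : Good P H) :
    An P μ H n Φ = A1 P (Measure.pi fun _ : Fin n => μ) (fun ω σ => ∑ l, H ω (σ l)) Φ := by
  simp only [An, A1, pi_tilted h]
theorem An_add (h : Good P H) (hΦ : Goodn P Φ) (hΨ : Goodn P Ψ) :
    An P μ H n (fun ω σ => Φ ω σ + Ψ ω σ) = An P μ H n Φ + An P μ H n Ψ := by
  simp only [An_eq_A1 h]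
  exact A1_add (h.sumRep n) hΦ.good hΨ.good
theorem An_sub (h : Good P H) (hΦ : Goodn P Φ) (hΨ : Goodn P Ψ) :
    An P μ H n (fun ω σ => Φ ω σ - Ψ ω σ) = An P μ H n Φ - An P μ H n Ψ := by
  simp only [An_eq_A1 h]
  exact A1_sub (h.sumRep n) hΦ.good hΨ.good
theorem An_const_mul (c : ℝ) : An P μ H n (fun ω σ => c * Φ ω σ) = c * An P μ H n Φ := by
  simp only [An, integral_const_mul]
theorem An_sum (h : Good P H) {ι : Type} (s : Finset ι) {F : ι → Ω → (Fin n → S) → ℝ}
    (hF : ∀ i ∈ s, Goodn P (F i)) :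
    An P μ H n (fun ω σ => ∑ i ∈ s, F i ω σ) = ∑ i ∈ s, An P μ H n (F i) := by
  simp only [An_eq_A1 h]
  exact A1_sum (h.sumRep n) s fun i hi => (hF i hi).good
theorem An_mono (h : Good P H) (hΦ : Goodn P Φ) (hΨ : Goodn P Ψ) (hle : ∀ ω σ, Φ ω σ ≤ Ψ ω σ) :
    An P μ H n Φ ≤ An P μ H n Ψ := by
  simp only [An_eq_A1 h]
  exact A1_mono (h.sumRep n) hΦ.good hΨ.good hle
theorem abs_An_le (h : Good P H) (hΦ : Goodn P Φ) :
    |An P μ H n Φ| ≤ An P μ H n (fun ω σ => |Φ ω σ|) := by
  simp only [An_eq_A1 h]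
  exact abs_A1_le (h.sumRep n) hΦ.good
theorem gan_reindex (G : Measure S) [IsProbabilityMeasure G] {n' : ℕ} {e : Fin n → Fin n'}
    (he : Function.Injective e) : MeasurePreserving (fun σ : Fin n' → S => σ ∘ e)
      (Measure.pi fun _ => G) (Measure.pi fun _ => G) := by
  refine ⟨measurable_pi_lambda _ fun i => measurable_pi_apply (e i), ?_⟩
  have h1 : iIndepFun (fun (i : Fin n') (σ : Fin n' → S) => σ i) (Measure.pi fun _ => G) :=
    iIndepFun_pi (X := fun _ => id) fun _ => aemeasurable_id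
  have h2 := (iIndepFun_iff_map_fun_eq_pi_map
    fun i => (measurable_pi_apply (e i)).aemeasurable).1 (h1.precomp he)
  refine h2.trans (congrArg Measure.pi (funext fun i => ?_))
  exact (measurePreserving_eval (fun _ : Fin n' => G) (e i)).map_eq

theorem gan_comp {α β : Type} [MeasurableSpace α] [MeasurableSpace β] {ν : Measure α}
    {ν' : Measure β} {q : α → β} (hq : MeasurePreserving q ν ν') {f : β → ℝ} (hf : Measurable f) :
    ∫ x, f (q x) ∂ν = ∫ y, f y ∂ν' := by
  rw [← hq.map_eq, integral_map hq.measurable.aemeasurable hf.aestronglyMeasurable]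

theorem An_reindex (h : Good P H) (hΦ : Goodn P Φ) {n' : ℕ} {e : Fin n → Fin n'}
    (he : Function.Injective e) : An P μ H n' (fun ω σ => Φ ω (σ ∘ e)) = An P μ H n Φ := by
  refine integral_congr_ae (Filter.Eventually.of_forall fun ω => ?_)
  haveI := h.isProb (μ := μ) ω
  exact gan_comp (gan_reindex _ he) (hΦ.meas.comp measurable_prodMk_left)
theorem An_eval (h : Good P H) {φ : Ω → S → ℝ} (hφ : Good P φ) (i : Fin n) :
    An P μ H n (fun ω σ => φ ω (σ i)) = A1 P μ H φ := by
  refine integral_congr_ae (Filter.Eventually.of_forall fun ω => ?_)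
  haveI := h.isProb (μ := μ) ω
  exact gan_comp (measurePreserving_eval (fun _ : Fin n => μ.tilted (H ω)) i)
    (hφ.meas.comp measurable_prodMk_left)
theorem An_pair (h : Good P H) {φ : Ω → S → S → ℝ} (hφ : Good2 P φ) {i j : Fin n} (hij : i ≠ j) :
    An P μ H n (fun ω σ => φ ω (σ i) (σ j)) = A2 P μ H φ := by
  refine integral_congr_ae (Filter.Eventually.of_forall fun ω => ?_)
  haveI := h.isProb (μ := μ) ω
  have he : Function.Injective (![i, j] : Fin 2 → Fin n) := by
    intro a b hab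
    fin_cases a <;> fin_cases b
    · rfl
    · exact absurd hab hij
    · exact absurd hab.symm hij
    · rfl
  have h1 := (measurePreserving_finTwoArrow (μ.tilted (H ω))).comp (gan_reindex _ he)
  have h2 : Measurable fun p : S × S => φ ω p.1 p.2 := hφ.meas.comp measurable_prodMk_left
  obtain ⟨B, -, hB⟩ := hφ.bdd
  have h3 : Integrable (fun p : S × S => φ ω p.1 p.2) ((μ.tilted (H ω)).prod (μ.tilted (H ω))) :=
    Integrable.of_bound h2.aestronglyMeasurable (B ω)
      (Filter.Eventually.of_forall fun p => hB ω p.1 p.2)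
  exact (gan_comp h1 h2).trans (integral_prod _ h3)
/-- integrate out the last replica -/
theorem An_snoc (h : Good P H) {Φ : Ω → (Fin (n + 1) → S) → ℝ} (hΦ : Goodn P Φ) :
    An P μ H (n + 1) Φ =
      An P μ H n (fun ω σ => ∫ τ, Φ ω (Fin.snoc (α := fun _ => S) σ τ) ∂(μ.tilted (H ω))) := by
  refine integral_congr_ae (Filter.Eventually.of_forall fun ω => ?_)
  haveI := h.isProb (μ := μ) ω
  have h1 := (measurePreserving_piFinSuccAbove (fun _ : Fin (n + 1) => μ.tilted (H ω))
    (Fin.last n)).symm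
  have h2 : Measurable (Φ ω) := hΦ.meas.comp measurable_prodMk_left
  have h3 := (h1.integrable_comp h2.aestronglyMeasurable).2
    (hΦ.good.integrable_sec ω (Measure.pi fun _ => μ.tilted (H ω)))
  refine (gan_comp h1 h2).symm.trans ((integral_prod_symm _ h3).trans ?_)
  simp only [Function.comp_apply, MeasurableEquiv.piFinSuccAbove_symm_apply, Fin.insertNthEquiv,
    Equiv.coe_fn_mk, Fin.insertNth_last']

end P157
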