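import Vale.Agent.P157.Core

/-! P157 GBasic: elementary API for `Good`, `Good2`, `Bd1`, `Bd2`, `FE`, `A1`, `A2`.
Plan: `μ.tilted (H ω)` is a probability measure since `exp (H ω ·)` is bounded measurable
(`isProbabilityMeasure_tilted`). `integral_tilted` writes `∫ φ ∂(μ.tilted h)` as
`∫ (exp (h σ) / ∫ exp h) • φ σ ∂μ`, so measurability in `ω` (or `(ω, σ)`) follows from
`StronglyMeasurable.integral_prod_right'`; `|∫ φ ω ∂tilted| ≤ B ω` gives integrability.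
`|lZ μ (H ω)| ≤ B ω` since `exp (-B) ≤ ∫ exp H ≤ exp B`.
-/

open MeasureTheory ProbabilityTheory Real
open scoped BigOperators Matrix

namespace P157

variable {Ω S : Type} [MeasurableSpace Ω] [MeasurableSpace S] {P : Measure Ω}
  [IsProbabilityMeasure P] {μ : Measure S} [IsProbabilityMeasure μ]

variable {H φ ψ : Ω → S → ℝ} {Φ Ψ : Ω → S → S → ℝ}

theorem gb_mul {a b A B : ℝ} (h : |a| ≤ A) (h' : |b| ≤ B) : |a * b| ≤ A * B := by
  rw [abs_mul]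
  exact mul_le_mul h h' (abs_nonneg _) ((abs_nonneg _).trans h)
theorem gb_add {a b A B : ℝ} (h : |a| ≤ A) (h' : |b| ≤ B) : |a + b| ≤ A + B :=
  (abs_add_le _ _).trans (add_le_add h h')
theorem gb_sub {a b A B : ℝ} (h : |a| ≤ A) (h' : |b| ≤ B) : |a - b| ≤ A + B :=
  (abs_sub _ _).trans (add_le_add h h')
theorem gb_int {f : S → ℝ} {C : ℝ} (h : ∀ σ, |f σ| ≤ C) : |∫ σ, f σ ∂μ| ≤ C := by
  simpa using norm_integral_le_of_norm_le_const (μ := μ) (f := f) (ae_of_all _ h)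
theorem gb_lZ {f : S → ℝ} {C : ℝ} (hf : Integrable (fun σ => exp (f σ)) μ) (h : ∀ σ, |f σ| ≤ C) :
    |lZ μ f| ≤ C := by
  have h0 := integral_exp_pos hf
  have h1 := integral_mono hf (integrable_const (exp C))
    fun σ => exp_le_exp.2 (abs_le.1 (h σ)).2
  have h2 := integral_mono (integrable_const (exp (-C))) hf
    fun σ => exp_le_exp.2 (abs_le.1 (h σ)).1
  simp only [integral_const, probReal_univ, one_smul] at h1 h2
  exact abs_le.2 ⟨(le_log_iff_exp_le h0).2 h2, (log_le_iff_le_exp h0).2 h1⟩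
theorem gb_tilt {f : S → ℝ} (hf : Integrable (fun σ => exp (f σ)) μ) (c : ℝ) :
    μ.tilted (fun σ => f σ + c) = μ.tilted f := by
  have := isProbabilityMeasure_tilted hf
  exact (tilted_tilted hf fun _ => c).symm.trans (tilted_const _ c)

theorem Bd1.good {C : ℝ} (h : Bd1 φ C) : Good P φ :=
  ⟨h.meas, fun _ => C, integrable_const C, h.bdd⟩
theorem Bd2.good2 {C : ℝ} (h : Bd2 Φ C) : Good2 P Φ :=
  ⟨h.meas, fun _ => C, integrable_const C, h.bdd⟩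
theorem Bd1.mono {C C' : ℝ} (h : Bd1 φ C) (hC : C ≤ C') : Bd1 φ C' :=
  ⟨h.meas, fun ω σ => (h.bdd ω σ).trans hC⟩
theorem Bd2.mono {C C' : ℝ} (h : Bd2 Φ C) (hC : C ≤ C') : Bd2 Φ C' :=
  ⟨h.meas, fun ω σ σ' => (h.bdd ω σ σ').trans hC⟩
theorem Bd1.const (c : ℝ) : Bd1 (fun (_ : Ω) (_ : S) => c) |c| :=
  ⟨measurable_const, fun _ _ => le_rfl⟩
theorem Bd1.mul {C C' : ℝ} (h : Bd1 φ C) (h' : Bd1 ψ C') :
    Bd1 (fun ω σ => φ ω σ * ψ ω σ) (C * C') :=
  ⟨h.meas.mul h'.meas, fun ω σ => gb_mul (h.bdd ω σ) (h'.bdd ω σ)⟩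
theorem Bd1.add {C C' : ℝ} (h : Bd1 φ C) (h' : Bd1 ψ C') :
    Bd1 (fun ω σ => φ ω σ + ψ ω σ) (C + C') :=
  ⟨h.meas.add h'.meas, fun ω σ => gb_add (h.bdd ω σ) (h'.bdd ω σ)⟩
theorem Bd1.sub {C C' : ℝ} (h : Bd1 φ C) (h' : Bd1 ψ C') :
    Bd1 (fun ω σ => φ ω σ - ψ ω σ) (C + C') :=
  ⟨h.meas.sub h'.meas, fun ω σ => gb_sub (h.bdd ω σ) (h'.bdd ω σ)⟩
theorem Bd1.const_mul {C : ℝ} (h : Bd1 φ C) (c : ℝ) : Bd1 (fun ω σ => c * φ ω σ) (|c| * C) :=
  ⟨h.meas.const_mul c, fun ω σ => gb_mul le_rfl (h.bdd ω σ)⟩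
theorem Bd2.mul {C C' : ℝ} (h : Bd2 Φ C) (h' : Bd2 Ψ C') :
    Bd2 (fun ω σ σ' => Φ ω σ σ' * Ψ ω σ σ') (C * C') :=
  ⟨h.meas.mul h'.meas, fun ω σ σ' => gb_mul (h.bdd ω σ σ') (h'.bdd ω σ σ')⟩
theorem Bd2.add {C C' : ℝ} (h : Bd2 Φ C) (h' : Bd2 Ψ C') :
    Bd2 (fun ω σ σ' => Φ ω σ σ' + Ψ ω σ σ') (C + C') :=
  ⟨h.meas.add h'.meas, fun ω σ σ' => gb_add (h.bdd ω σ σ') (h'.bdd ω σ σ')⟩
theorem Bd2.sub {C C' : ℝ} (h : Bd2 Φ C) (h' : Bd2 Ψ C') :
    Bd2 (fun ω σ σ' => Φ ω σ σ' - Ψ ω σ σ') (C + C') :=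
  ⟨h.meas.sub h'.meas, fun ω σ σ' => gb_sub (h.bdd ω σ σ') (h'.bdd ω σ σ')⟩
theorem Bd2.abs {C : ℝ} (h : Bd2 Φ C) : Bd2 (fun ω σ σ' => |Φ ω σ σ'|) C :=
  ⟨h.meas.abs, fun ω σ σ' => (abs_abs _).trans_le (h.bdd ω σ σ')⟩
theorem Bd2.sq {C : ℝ} (h : Bd2 Φ C) : Bd2 (fun ω σ σ' => Φ ω σ σ' ^ 2) (C ^ 2) :=
  ⟨h.meas.pow_const 2, fun ω σ σ' => by
    rw [abs_pow]; exact pow_le_pow_left₀ (abs_nonneg _) (h.bdd ω σ σ') 2⟩
theorem Bd2.const_mul {C : ℝ} (h : Bd2 Φ C) (c : ℝ) :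
    Bd2 (fun ω σ σ' => c * Φ ω σ σ') (|c| * C) :=
  ⟨h.meas.const_mul c, fun ω σ σ' => gb_mul le_rfl (h.bdd ω σ σ')⟩
theorem Bd1.fst2 {C : ℝ} (h : Bd1 φ C) : Bd2 (fun ω σ (_ : S) => φ ω σ) C :=
  ⟨h.meas.comp (measurable_fst.prodMk measurable_snd.fst), fun ω σ _ => h.bdd ω σ⟩
theorem Bd1.snd2 {C : ℝ} (h : Bd1 φ C) : Bd2 (fun ω (_ : S) σ' => φ ω σ') C :=
  ⟨h.meas.comp (measurable_fst.prodMk measurable_snd.snd), fun ω _ σ' => h.bdd ω σ'⟩
theorem Bd1.comp {Ω' S' : Type} [MeasurableSpace Ω'] [MeasurableSpace S'] {C : ℝ} (h : Bd1 φ C)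
    {e : Ω' → Ω} (he : Measurable e) {q : S' → S} (hq : Measurable q) :
    Bd1 (fun ω σ => φ (e ω) (q σ)) C :=
  ⟨h.meas.comp (he.prodMap hq), fun _ _ => h.bdd _ _⟩
theorem Bd2.comp {Ω' S' : Type} [MeasurableSpace Ω'] [MeasurableSpace S'] {C : ℝ} (h : Bd2 Φ C)
    {e : Ω' → Ω} (he : Measurable e) {q : S' → S} (hq : Measurable q) :
    Bd2 (fun ω σ σ' => Φ (e ω) (q σ) (q σ')) C :=
  ⟨h.meas.comp (he.prodMap (hq.prodMap hq)), fun _ _ _ => h.bdd _ _ _⟩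

theorem Good.const (c : ℝ) : Good P (fun _ (_ : S) => c) :=
  (Bd1.const c).good
theorem Good.add (h : Good P φ) (h' : Good P ψ) : Good P (fun ω σ => φ ω σ + ψ ω σ) := by
  obtain ⟨B, hB, h1⟩ := h.bdd
  obtain ⟨B', hB', h2⟩ := h'.bdd
  exact ⟨h.meas.add h'.meas, _, hB.add hB', fun ω σ => gb_add (h1 ω σ) (h2 ω σ)⟩
theorem Good.sub (h : Good P φ) (h' : Good P ψ) : Good P (fun ω σ => φ ω σ - ψ ω σ) := by
  obtain ⟨B, hB, h1⟩ := h.bdd
  obtain ⟨B', hB', h2⟩ := h'.bdd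
  exact ⟨h.meas.sub h'.meas, _, hB.add hB', fun ω σ => gb_sub (h1 ω σ) (h2 ω σ)⟩
theorem Good.neg (h : Good P φ) : Good P (fun ω σ => -φ ω σ) := by
  obtain ⟨B, hB, h1⟩ := h.bdd
  exact ⟨h.meas.neg, B, hB, fun ω σ => (abs_neg _).trans_le (h1 ω σ)⟩
theorem Good.abs (h : Good P φ) : Good P (fun ω σ => |φ ω σ|) := by
  obtain ⟨B, hB, h1⟩ := h.bdd
  exact ⟨h.meas.abs, B, hB, fun ω σ => (abs_abs _).trans_le (h1 ω σ)⟩
theorem Good.const_mul (h : Good P φ) (c : ℝ) : Good P (fun ω σ => c * φ ω σ) := by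
  obtain ⟨B, hB, h1⟩ := h.bdd
  exact ⟨h.meas.const_mul c, _, hB.const_mul |c|, fun ω σ => gb_mul le_rfl (h1 ω σ)⟩
theorem Good.bd_mul {C : ℝ} (h : Bd1 φ C) (h' : Good P ψ) :
    Good P (fun ω σ => φ ω σ * ψ ω σ) := by
  obtain ⟨B, hB, h1⟩ := h'.bdd
  exact ⟨h.meas.mul h'.meas, _, hB.const_mul C, fun ω σ => gb_mul (h.bdd ω σ) (h1 ω σ)⟩
theorem Good.sum {ι : Type} (s : Finset ι) {F : ι → Ω → S → ℝ} (h : ∀ i ∈ s, Good P (F i)) :
    Good P (fun ω σ => ∑ i ∈ s, F i ω σ) := by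
  classical
  induction s using Finset.induction_on with
  | empty => simpa using Good.const (P := P) (S := S) 0
  | insert i s hi ih =>
    simp only [Finset.sum_insert hi]
    exact (h i (Finset.mem_insert_self i s)).add (ih fun j hj => h j (Finset.mem_insert_of_mem hj))
theorem Good.comp {Ω' S' : Type} [MeasurableSpace Ω'] [MeasurableSpace S'] {P' : Measure Ω'}
    (h : Good P φ) {e : Ω' → Ω} (he : MeasurePreserving e P' P) {q : S' → S} (hq : Measurable q) :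
    Good P' (fun ω σ => φ (e ω) (q σ)) := by
  obtain ⟨B, hB, h1⟩ := h.bdd
  exact ⟨h.meas.comp (he.measurable.prodMap hq), _, he.integrable_comp_of_integrable hB,
    fun _ _ => h1 _ _⟩
theorem Good.fst {Ω' : Type} [MeasurableSpace Ω'] (P' : Measure Ω') [IsProbabilityMeasure P']
    (h : Good P φ) : Good (P.prod P') (fun ω σ => φ ω.1 σ) :=
  h.comp measurePreserving_fst measurable_id
theorem Good.snd {Ω' : Type} [MeasurableSpace Ω'] (P' : Measure Ω') [IsProbabilityMeasure P']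
    (h : Good P φ) : Good (P'.prod P) (fun ω σ => φ ω.2 σ) :=
  h.comp measurePreserving_snd measurable_id
theorem Good2.add (h : Good2 P Φ) (h' : Good2 P Ψ) :
    Good2 P (fun ω σ σ' => Φ ω σ σ' + Ψ ω σ σ') := by
  obtain ⟨B, hB, h1⟩ := h.bdd
  obtain ⟨B', hB', h2⟩ := h'.bdd
  exact ⟨h.meas.add h'.meas, _, hB.add hB', fun ω σ σ' => gb_add (h1 ω σ σ') (h2 ω σ σ')⟩
theorem Good2.sub (h : Good2 P Φ) (h' : Good2 P Ψ) :
    Good2 P (fun ω σ σ' => Φ ω σ σ' - Ψ ω σ σ') := by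
  obtain ⟨B, hB, h1⟩ := h.bdd
  obtain ⟨B', hB', h2⟩ := h'.bdd
  exact ⟨h.meas.sub h'.meas, _, hB.add hB', fun ω σ σ' => gb_sub (h1 ω σ σ') (h2 ω σ σ')⟩
theorem Good2.abs (h : Good2 P Φ) : Good2 P (fun ω σ σ' => |Φ ω σ σ'|) := by
  obtain ⟨B, hB, h1⟩ := h.bdd
  exact ⟨h.meas.abs, B, hB, fun ω σ σ' => (abs_abs _).trans_le (h1 ω σ σ')⟩
theorem Good2.const_mul (h : Good2 P Φ) (c : ℝ) : Good2 P (fun ω σ σ' => c * Φ ω σ σ') := by
  obtain ⟨B, hB, h1⟩ := h.bdd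
  exact ⟨h.meas.const_mul c, _, hB.const_mul |c|, fun ω σ σ' => gb_mul le_rfl (h1 ω σ σ')⟩
theorem Good2.bd_mul {C : ℝ} (h : Bd2 Φ C) (h' : Good2 P Ψ) :
    Good2 P (fun ω σ σ' => Φ ω σ σ' * Ψ ω σ σ') := by
  obtain ⟨B, hB, h1⟩ := h'.bdd
  exact ⟨h.meas.mul h'.meas, _, hB.const_mul C,
    fun ω σ σ' => gb_mul (h.bdd ω σ σ') (h1 ω σ σ')⟩
theorem Good2.sum {ι : Type} (s : Finset ι) {F : ι → Ω → S → S → ℝ} (h : ∀ i ∈ s, Good2 P (F i)) :
    Good2 P (fun ω σ σ' => ∑ i ∈ s, F i ω σ σ') := by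
  classical
  induction s using Finset.induction_on with
  | empty => exact ⟨by simp, fun _ => 0, integrable_const 0, by simp⟩
  | insert i s hi ih =>
    simp only [Finset.sum_insert hi]
    exact (h i (Finset.mem_insert_self i s)).add (ih fun j hj => h j (Finset.mem_insert_of_mem hj))
theorem Good.fst2 (h : Good P φ) : Good2 P (fun ω σ (_ : S) => φ ω σ) := by
  obtain ⟨B, hB, h1⟩ := h.bdd
  exact ⟨h.meas.comp (measurable_fst.prodMk measurable_snd.fst), B, hB, fun ω σ _ => h1 ω σ⟩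
theorem Good.snd2 (h : Good P φ) : Good2 P (fun ω (_ : S) σ' => φ ω σ') := by
  obtain ⟨B, hB, h1⟩ := h.bdd
  exact ⟨h.meas.comp (measurable_fst.prodMk measurable_snd.snd), B, hB, fun ω _ σ' => h1 ω σ'⟩
theorem Good2.comp {Ω' S' : Type} [MeasurableSpace Ω'] [MeasurableSpace S'] {P' : Measure Ω'}
    (h : Good2 P Φ) {e : Ω' → Ω} (he : MeasurePreserving e P' P) {q : S' → S}
    (hq : Measurable q) : Good2 P' (fun ω σ σ' => Φ (e ω) (q σ) (q σ')) := by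
  obtain ⟨B, hB, h1⟩ := h.bdd
  exact ⟨h.meas.comp (he.measurable.prodMap (hq.prodMap hq)), _,
    he.integrable_comp_of_integrable hB, fun _ _ _ => h1 _ _ _⟩

theorem Feat.comp {ι Ω' S' : Type} [MeasurableSpace Ω'] [MeasurableSpace S'] {A : Ω → S → ι → ℝ}
    (h : Feat A) {e : Ω' → Ω} (he : Measurable e) {q : S' → S} (hq : Measurable q) :
    Feat (fun ω σ => A (e ω) (q σ)) := by
  obtain ⟨C, h1⟩ := h.bdd
  exact ⟨fun c => (h.meas c).comp (he.prodMap hq), C, fun _ _ _ => h1 _ _ _⟩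
theorem Feat.bd_smul {ι : Type} {A : Ω → S → ι → ℝ} {C : ℝ} (h : Feat A) (hφ : Bd1 φ C) :
    Feat (fun ω σ => φ ω σ • A ω σ) := by
  obtain ⟨C', h1⟩ := h.bdd
  exact ⟨fun c => hφ.meas.mul (h.meas c), C * C', fun ω σ c => gb_mul (hφ.bdd ω σ) (h1 ω σ c)⟩
theorem Feat.add {ι : Type} {A A' : Ω → S → ι → ℝ} (h : Feat A) (h' : Feat A') :
    Feat (fun ω σ => A ω σ + A' ω σ) := by
  obtain ⟨C, h1⟩ := h.bdd
  obtain ⟨C', h2⟩ := h'.bdd
  exact ⟨fun c => (h.meas c).add (h'.meas c), C + C', fun ω σ c => gb_add (h1 ω σ c) (h2 ω σ c)⟩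
/-- covariances of bounded features are bounded two-replica observables -/
theorem Feat.bd2 {ι : Type} [Fintype ι] {A A' : Ω → S → ι → ℝ} (h : Feat A) (h' : Feat A') :
    ∃ C, Bd2 (fun ω σ σ' => A ω σ ⬝ᵥ A' ω σ') C := by
  obtain ⟨C, h1⟩ := h.bdd
  obtain ⟨C', h2⟩ := h'.bdd
  refine ⟨∑ _c : ι, C * C', Finset.measurable_sum _ fun c _ =>
    ((h.meas c).comp (measurable_fst.prodMk measurable_snd.fst)).mul
      ((h'.meas c).comp (measurable_fst.prodMk measurable_snd.snd)), fun ω σ σ' => ?_⟩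
  exact (Finset.abs_sum_le_sum_abs _ _).trans
    (Finset.sum_le_sum fun c _ => gb_mul (h1 ω σ c) (h2 ω σ' c))
theorem Feat.bd1 {ι : Type} [Fintype ι] {A A' : Ω → S → ι → ℝ} (h : Feat A) (h' : Feat A') :
    ∃ C, Bd1 (fun ω σ => A ω σ ⬝ᵥ A' ω σ) C := by
  obtain ⟨C, h1⟩ := h.bdd
  obtain ⟨C', h2⟩ := h'.bdd
  refine ⟨∑ _c : ι, C * C', Finset.measurable_sum _ fun c _ => (h.meas c).mul (h'.meas c),
    fun ω σ => ?_⟩
  exact (Finset.abs_sum_le_sum_abs _ _).trans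
    (Finset.sum_le_sum fun c _ => gb_mul (h1 ω σ c) (h2 ω σ c))
/-- a Gaussian field is a good observable -/
theorem Feat.good {ι : Type} [Fintype ι] {A : Ω → S → ι → ℝ} (h : Feat A) :
    Good (P.prod (gp ι)) (fun ω σ => A ω.1 σ ⬝ᵥ ω.2) := by
  obtain ⟨C, h1⟩ := h.bdd
  have h2 : ∀ c : ι, Integrable (fun g : ι → ℝ => g c) (gp ι) := fun c =>
    integrable_eval IsGaussian.integrable_id
  refine ⟨Finset.measurable_sum _ fun c _ =>
    ((h.meas c).comp (measurable_fst.fst.prodMk measurable_snd)).mul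
      ((measurable_pi_apply c).comp measurable_fst.snd), fun ω => ∑ c, C * |ω.2 c|,
    integrable_finsetSum _ fun c _ => ((h2 c).abs.const_mul C).comp_snd P, fun ω σ => ?_⟩
  exact (Finset.abs_sum_le_sum_abs _ _).trans
    (Finset.sum_le_sum fun c _ => gb_mul (h1 ω.1 σ c) le_rfl)

theorem Good.integrable_exp (h : Good P H) (ω : Ω) : Integrable (fun σ => exp (H ω σ)) μ := by
  obtain ⟨B, -, h1⟩ := h.bdd
  refine Integrable.of_bound (h.meas.comp measurable_prodMk_left).exp.aestronglyMeasurable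
    (exp (B ω)) (ae_of_all _ fun σ => ?_)
  rw [Real.norm_eq_abs, abs_of_pos (exp_pos _)]
  exact exp_le_exp.2 ((le_abs_self _).trans (h1 ω σ))
theorem Good.isProb (h : Good P H) (ω : Ω) : IsProbabilityMeasure (μ.tilted (H ω)) :=
  isProbabilityMeasure_tilted (h.integrable_exp ω)
theorem Good.integrable_sec (h : Good P φ) (ω : Ω) (G : Measure S) [IsProbabilityMeasure G] :
    Integrable (φ ω) G := by
  obtain ⟨B, -, h1⟩ := h.bdd
  exact Integrable.of_bound (h.meas.comp measurable_prodMk_left).aestronglyMeasurable (B ω)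
    (ae_of_all _ fun σ => h1 ω σ)
theorem Good.measurable_lZ (h : Good P H) : Measurable fun ω => lZ μ (H ω) :=
  h.meas.exp.stronglyMeasurable.integral_prod_right'.measurable.log
theorem Good.integrable_lZ (h : Good P H) : Integrable (fun ω => lZ μ (H ω)) P := by
  obtain ⟨B, hB, h1⟩ := h.bdd
  exact hB.mono' h.measurable_lZ.aestronglyMeasurable
    (ae_of_all _ fun ω => gb_lZ (h.integrable_exp ω) (h1 ω))
theorem gb_meas (h : Good P H) {T : Type} [MeasurableSpace T] {e : T → Ω} (he : Measurable e)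
    {F : T × S → ℝ} (hF : Measurable F) :
    Measurable fun t => ∫ σ, F (t, σ) ∂(μ.tilted (H (e t))) := by
  simp only [integral_tilted]
  have h1 : Measurable fun ω => ∫ σ, exp (H ω σ) ∂μ :=
    h.meas.exp.stronglyMeasurable.integral_prod_right'.measurable
  exact (((h.meas.comp (he.prodMap measurable_id)).exp.div (h1.comp (he.comp measurable_fst))).mul
    hF).stronglyMeasurable.integral_prod_right'.measurable
theorem gb_sec2 (h : Good2 P Φ) (ω : Ω) (σ : S) (G : Measure S) [IsProbabilityMeasure G] :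
    Integrable (Φ ω σ) G := by
  obtain ⟨B, -, h1⟩ := h.bdd
  exact Integrable.of_bound
    (h.meas.comp (measurable_prodMk_left.comp measurable_prodMk_left)).aestronglyMeasurable (B ω)
    (ae_of_all _ fun σ' => h1 ω σ σ')
theorem Good.measurable_A1 (h : Good P H) (hφ : Good P φ) :
    Measurable fun ω => ∫ σ, φ ω σ ∂(μ.tilted (H ω)) :=
  gb_meas h measurable_id hφ.meas
theorem Good.integrable_A1 (h : Good P H) (hφ : Good P φ) :
    Integrable (fun ω => ∫ σ, φ ω σ ∂(μ.tilted (H ω))) P := by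
  obtain ⟨B, hB, h1⟩ := hφ.bdd
  refine hB.mono' (h.measurable_A1 hφ).aestronglyMeasurable (ae_of_all _ fun ω => ?_)
  have := h.isProb (μ := μ) ω
  exact gb_int (h1 ω)
/-- the inner average of a two-replica observable is a good one-replica observable -/
theorem Good.inner (h : Good P H) (hΦ : Good2 P Φ) :
    Good P (fun ω σ => ∫ σ', Φ ω σ σ' ∂(μ.tilted (H ω))) := by
  obtain ⟨B, hB, h1⟩ := hΦ.bdd
  refine ⟨gb_meas h measurable_fst (F := fun p : (Ω × S) × S => Φ p.1.1 p.1.2 p.2)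
    (hΦ.meas.comp (measurable_fst.fst.prodMk (measurable_fst.snd.prodMk measurable_snd))),
    B, hB, fun ω σ => ?_⟩
  have := h.isProb (μ := μ) ω
  exact gb_int (h1 ω σ)

theorem FE_add_const (h : Good P H) (c : ℝ) :
    FE P μ (fun ω σ => H ω σ + c) = FE P μ H + c := by
  have h1 : ∀ ω, lZ μ (fun σ => H ω σ + c) = lZ μ (H ω) + c := fun ω => by
    unfold lZ
    simp only [exp_add]
    rw [integral_mul_const, log_mul (integral_exp_pos (h.integrable_exp ω)).ne' (exp_pos c).ne',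
      log_exp]
  unfold FE
  simp only [h1]
  rw [integral_add h.integrable_lZ (integrable_const c)]
  simp
theorem FE_const (c : ℝ) : FE P μ (fun _ _ => c) = c := by simp [FE, lZ]

theorem A1_const (h : Good P H) (c : ℝ) : A1 P μ H (fun _ _ => c) = c := by
  have h1 : ∀ ω, ∫ _σ, c ∂(μ.tilted (H ω)) = c := fun ω => by
    have := h.isProb (μ := μ) ω
    simp
  simp [A1, h1]
theorem A1_add (h : Good P H) (hφ : Good P φ) (hψ : Good P ψ) :
    A1 P μ H (fun ω σ => φ ω σ + ψ ω σ) = A1 P μ H φ + A1 P μ H ψ := by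
  unfold A1
  rw [← integral_add (h.integrable_A1 hφ) (h.integrable_A1 hψ)]
  refine integral_congr_ae (ae_of_all _ fun ω => ?_)
  have := h.isProb (μ := μ) ω
  exact integral_add (hφ.integrable_sec ω _) (hψ.integrable_sec ω _)
theorem A1_sub (h : Good P H) (hφ : Good P φ) (hψ : Good P ψ) :
    A1 P μ H (fun ω σ => φ ω σ - ψ ω σ) = A1 P μ H φ - A1 P μ H ψ := by
  unfold A1
  rw [← integral_sub (h.integrable_A1 hφ) (h.integrable_A1 hψ)]
  refine integral_congr_ae (ae_of_all _ fun ω => ?_)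
  have := h.isProb (μ := μ) ω
  exact integral_sub (hφ.integrable_sec ω _) (hψ.integrable_sec ω _)
theorem A1_const_mul (c : ℝ) : A1 P μ H (fun ω σ => c * φ ω σ) = c * A1 P μ H φ := by simp only [A1, integral_const_mul]
theorem A1_sum (h : Good P H) {ι : Type} (s : Finset ι) {F : ι → Ω → S → ℝ}
    (hF : ∀ i ∈ s, Good P (F i)) :
    A1 P μ H (fun ω σ => ∑ i ∈ s, F i ω σ) = ∑ i ∈ s, A1 P μ H (F i) := by
  unfold A1
  rw [← integral_finsetSum _ fun i hi => h.integrable_A1 (hF i hi)]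
  refine integral_congr_ae (ae_of_all _ fun ω => ?_)
  have := h.isProb (μ := μ) ω
  exact integral_finsetSum _ fun i hi => (hF i hi).integrable_sec ω _
theorem A1_mono (h : Good P H) (hφ : Good P φ) (hψ : Good P ψ) (hle : ∀ ω σ, φ ω σ ≤ ψ ω σ) :
    A1 P μ H φ ≤ A1 P μ H ψ := by
  refine integral_mono (h.integrable_A1 hφ) (h.integrable_A1 hψ) fun ω => ?_
  have := h.isProb (μ := μ) ω
  exact integral_mono (hφ.integrable_sec ω _) (hψ.integrable_sec ω _) (hle ω)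
theorem A1_nonneg (hφ : ∀ ω σ, 0 ≤ φ ω σ) : 0 ≤ A1 P μ H φ :=
  integral_nonneg fun ω => integral_nonneg (hφ ω)
theorem abs_A1_le (h : Good P H) (hφ : Good P φ) :
    |A1 P μ H φ| ≤ A1 P μ H (fun ω σ => |φ ω σ|) :=
  abs_integral_le_integral_abs.trans (integral_mono (h.integrable_A1 hφ).abs
    (h.integrable_A1 hφ.abs) fun _ => abs_integral_le_integral_abs)
theorem abs_A1_le_bd (h : Good P H) {C : ℝ} (hφ : Bd1 φ C) : |A1 P μ H φ| ≤ C :=
  gb_int fun ω => by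
    have := h.isProb (μ := μ) ω
    exact gb_int (hφ.bdd ω)
theorem A1_add_const_H (h : Good P H) (c : ℝ) :
    A1 P μ (fun ω σ => H ω σ + c) φ = A1 P μ H φ := by simp only [A1, gb_tilt (h.integrable_exp _)]

theorem A2_const (h : Good P H) (c : ℝ) : A2 P μ H (fun _ _ _ => c) = c := by
  have h1 : ∀ ω, ∫ _σ, c ∂(μ.tilted (H ω)) = c := fun ω => by
    have := h.isProb (μ := μ) ω
    simp
  simp [A2, h1]
theorem A2_add (h : Good P H) (hΦ : Good2 P Φ) (hΨ : Good2 P Ψ) :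
    A2 P μ H (fun ω σ σ' => Φ ω σ σ' + Ψ ω σ σ') = A2 P μ H Φ + A2 P μ H Ψ := by
  refine Eq.trans ?_ (A1_add h (h.inner hΦ) (h.inner hΨ))
  refine integral_congr_ae (ae_of_all _ fun ω => integral_congr_ae (ae_of_all _ fun σ => ?_))
  have := h.isProb (μ := μ) ω
  exact integral_add (gb_sec2 hΦ ω σ _) (gb_sec2 hΨ ω σ _)
theorem A2_sub (h : Good P H) (hΦ : Good2 P Φ) (hΨ : Good2 P Ψ) :
    A2 P μ H (fun ω σ σ' => Φ ω σ σ' - Ψ ω σ σ') = A2 P μ H Φ - A2 P μ H Ψ := by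
  refine Eq.trans ?_ (A1_sub h (h.inner hΦ) (h.inner hΨ))
  refine integral_congr_ae (ae_of_all _ fun ω => integral_congr_ae (ae_of_all _ fun σ => ?_))
  have := h.isProb (μ := μ) ω
  exact integral_sub (gb_sec2 hΦ ω σ _) (gb_sec2 hΨ ω σ _)
theorem A2_const_mul (c : ℝ) : A2 P μ H (fun ω σ σ' => c * Φ ω σ σ') = c * A2 P μ H Φ := by simp only [A2, integral_const_mul]
theorem A2_sum (h : Good P H) {ι : Type} (s : Finset ι) {F : ι → Ω → S → S → ℝ}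
    (hF : ∀ i ∈ s, Good2 P (F i)) :
    A2 P μ H (fun ω σ σ' => ∑ i ∈ s, F i ω σ σ') = ∑ i ∈ s, A2 P μ H (F i) := by
  refine Eq.trans ?_ (A1_sum h s fun i hi => h.inner (hF i hi))
  refine integral_congr_ae (ae_of_all _ fun ω => integral_congr_ae (ae_of_all _ fun σ => ?_))
  have := h.isProb (μ := μ) ω
  exact integral_finsetSum _ fun i hi => gb_sec2 (hF i hi) ω σ _
theorem A2_mono (h : Good P H) (hΦ : Good2 P Φ) (hΨ : Good2 P Ψ)
    (hle : ∀ ω σ σ', Φ ω σ σ' ≤ Ψ ω σ σ') : A2 P μ H Φ ≤ A2 P μ H Ψ := by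
  refine A1_mono h (h.inner hΦ) (h.inner hΨ) fun ω σ => ?_
  have := h.isProb (μ := μ) ω
  exact integral_mono (gb_sec2 hΦ ω σ _) (gb_sec2 hΨ ω σ _) (hle ω σ)
theorem A2_nonneg (hΦ : ∀ ω σ σ', 0 ≤ Φ ω σ σ') : 0 ≤ A2 P μ H Φ :=
  integral_nonneg fun ω => integral_nonneg fun σ => integral_nonneg (hΦ ω σ)
theorem abs_A2_le (h : Good P H) (hΦ : Good2 P Φ) :
    |A2 P μ H Φ| ≤ A2 P μ H (fun ω σ σ' => |Φ ω σ σ'|) :=
  (abs_A1_le h (h.inner hΦ)).trans (A1_mono h (h.inner hΦ).abs (h.inner hΦ.abs)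
    fun _ _ => abs_integral_le_integral_abs)
theorem abs_A2_le_bd (h : Good P H) {C : ℝ} (hΦ : Bd2 Φ C) : |A2 P μ H Φ| ≤ C :=
  gb_int fun ω => by
    have := h.isProb (μ := μ) ω
    exact gb_int fun σ => gb_int (hΦ.bdd ω σ)
theorem A2_fst (h : Good P H) : A2 P μ H (fun ω σ _ => φ ω σ) = A1 P μ H φ := by
  refine integral_congr_ae (ae_of_all _ fun ω => integral_congr_ae (ae_of_all _ fun σ => ?_))
  have := h.isProb (μ := μ) ω
  simp
theorem A2_snd (h : Good P H) : A2 P μ H (fun ω _ σ' => φ ω σ') = A1 P μ H φ := by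
  refine integral_congr_ae (ae_of_all _ fun ω => ?_)
  have := h.isProb (μ := μ) ω
  simp
theorem A2_swap (h : Good P H) (hΦ : Good2 P Φ) :
    A2 P μ H (fun ω σ σ' => Φ ω σ' σ) = A2 P μ H Φ := by
  refine integral_congr_ae (ae_of_all _ fun ω => ?_)
  have := h.isProb (μ := μ) ω
  obtain ⟨B, -, h1⟩ := hΦ.bdd
  exact (integral_integral_swap (f := Φ ω) (Integrable.of_bound
    (hΦ.meas.comp measurable_prodMk_left).aestronglyMeasurable (B ω)
    (ae_of_all _ fun p => h1 ω p.1 p.2))).symm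
theorem A2_mul : A2 P μ H (fun ω σ σ' => φ ω σ * ψ ω σ') =
    ∫ ω, (∫ σ, φ ω σ ∂(μ.tilted (H ω))) * (∫ σ, ψ ω σ ∂(μ.tilted (H ω))) ∂P := by simp only [A2, integral_const_mul, integral_mul_const]
theorem A2_add_const_H (h : Good P H) (c : ℝ) :
    A2 P μ (fun ω σ => H ω σ + c) Φ = A2 P μ H Φ := by simp only [A2, gb_tilt (h.integrable_exp _)]

end P157
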