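import Vale.Agent.P157.GBasic

/-! P157 GComp: change of variables and Fubini for `FE`, `A1`, `A2`.
Plan: for the disorder map use `MeasurePreserving.integral_comp'`/`integral_map` with the
measurability lemmas of GBasic; for the configuration map note
`(μ'.tilted (h ∘ q)).map q = μ.tilted h` (or expand with `integral_tilted` and use `integral_map`).
`A1_prod`: `integral_prod` then `integral_integral_swap` for each fixed `ω` (for a.e. `ω` the section
of the bound is integrable: `Integrable.prod_right_ae`). `FE_split`: `integral_exp_tilted`.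
-/

open MeasureTheory ProbabilityTheory Real
open scoped BigOperators Matrix

namespace P157

variable {Ω S : Type} [MeasurableSpace Ω] [MeasurableSpace S] {P : Measure Ω}
  [IsProbabilityMeasure P] {μ : Measure S} [IsProbabilityMeasure μ]

variable {H φ : Ω → S → ℝ} {Φ : Ω → S → S → ℝ}
variable {Ω' S' : Type} [MeasurableSpace Ω'] [MeasurableSpace S'] {P' : Measure Ω'}
  [IsProbabilityMeasure P'] {μ' : Measure S'} [IsProbabilityMeasure μ']

theorem gc_map {α β : Type} [MeasurableSpace α] [MeasurableSpace β] {ν : Measure α}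
    {ν' : Measure β} {e : α → β} (he : MeasurePreserving e ν ν') {g : β → ℝ} (hg : Measurable g) :
    ∫ a, g (e a) ∂ν = ∫ b, g b ∂ν' := by
  rw [← he.map_eq, integral_map he.measurable.aemeasurable hg.aestronglyMeasurable]
omit [IsProbabilityMeasure P] in
theorem gc_sec (h : Good P H) (ω : Ω) : Measurable (H ω) := h.meas.comp measurable_prodMk_left
omit [IsProbabilityMeasure μ] [IsProbabilityMeasure μ'] in
theorem gc_lZ {q : S' → S} (hq : MeasurePreserving q μ' μ) {f : S → ℝ} (hf : Measurable f) :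
    lZ μ' (fun σ => f (q σ)) = lZ μ f := congrArg log (gc_map hq hf.exp)
omit [IsProbabilityMeasure μ] [IsProbabilityMeasure μ'] in
theorem gc_tilt {q : S' → S} (hq : MeasurePreserving q μ' μ) {f F : S → ℝ} (hf : Measurable f)
    (hF : Measurable F) :
    ∫ σ, F (q σ) ∂(μ'.tilted fun σ => f (q σ)) = ∫ σ, F σ ∂(μ.tilted f) := by
  simp only [integral_tilted, gc_map hq hf.exp]
  exact gc_map hq ((hf.exp.div_const _).mul hF)
theorem gc_exp {f : S → ℝ} (hf : Measurable f) {C : ℝ} (h : ∀ σ, |f σ| ≤ C) :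
    Integrable (fun σ => exp (f σ)) μ := by
  refine Integrable.of_bound hf.exp.aestronglyMeasurable (exp C) (ae_of_all _ fun σ => ?_)
  rw [Real.norm_eq_abs, abs_of_pos (exp_pos _)]
  exact exp_le_exp.2 ((le_abs_self _).trans (h σ))

theorem FE_comp (h : Good P H) {e : Ω' → Ω} (he : MeasurePreserving e P' P) {q : S' → S}
    (hq : MeasurePreserving q μ' μ) : FE P' μ' (fun ω σ => H (e ω) (q σ)) = FE P μ H := by
  unfold FE
  simp only [fun ω => gc_lZ hq (gc_sec h (e ω))]
  exact gc_map he h.measurable_lZ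
theorem Fluct_comp (h : Good P H) {e : Ω' → Ω} (he : MeasurePreserving e P' P) {q : S' → S}
    (hq : MeasurePreserving q μ' μ) : Fluct P' μ' (fun ω σ => H (e ω) (q σ)) = Fluct P μ H := by
  unfold Fluct
  rw [FE_comp h he hq]
  simp only [fun ω => gc_lZ hq (gc_sec h (e ω))]
  exact gc_map he (h.measurable_lZ.sub_const _).abs
theorem A1_comp (h : Good P H) (hφ : Good P φ) {e : Ω' → Ω} (he : MeasurePreserving e P' P)
    {q : S' → S} (hq : MeasurePreserving q μ' μ) :
    A1 P' μ' (fun ω σ => H (e ω) (q σ)) (fun ω σ => φ (e ω) (q σ)) = A1 P μ H φ := by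
  unfold A1
  simp only [fun ω => gc_tilt hq (gc_sec h (e ω)) (gc_sec hφ (e ω))]
  exact gc_map he (h.measurable_A1 hφ)
theorem A2_comp (h : Good P H) (hΦ : Good2 P Φ) {e : Ω' → Ω} (he : MeasurePreserving e P' P)
    {q : S' → S} (hq : MeasurePreserving q μ' μ) :
    A2 P' μ' (fun ω σ => H (e ω) (q σ)) (fun ω σ σ' => Φ (e ω) (q σ) (q σ')) = A2 P μ H Φ := by
  refine Eq.trans ?_ (A1_comp h (h.inner hΦ) he hq)
  refine integral_congr_ae (ae_of_all _ fun ω => integral_congr_ae (ae_of_all _ fun σ => ?_))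
  exact gc_tilt hq (gc_sec h (e ω)) (F := Φ (e ω) (q σ))
    (hΦ.meas.comp (measurable_prodMk_left.comp measurable_prodMk_left))

/-- an unused independent factor can be dropped -/
theorem FE_fst (h : Good P H) : FE (P.prod P') μ (fun ω σ => H ω.1 σ) = FE P μ H :=
  FE_comp h measurePreserving_fst (MeasurePreserving.id μ)
theorem A1_fst (h : Good P H) (hφ : Good P φ) :
    A1 (P.prod P') μ (fun ω σ => H ω.1 σ) (fun ω σ => φ ω.1 σ) = A1 P μ H φ :=
  A1_comp h hφ measurePreserving_fst (MeasurePreserving.id μ)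
theorem A2_fst' (h : Good P H) (hΦ : Good2 P Φ) :
    A2 (P.prod P') μ (fun ω σ => H ω.1 σ) (fun ω σ σ' => Φ ω.1 σ σ') = A2 P μ H Φ :=
  A2_comp h hΦ measurePreserving_fst (MeasurePreserving.id μ)

/-- a.e. modifications in the configuration -/
theorem FE_congr_ae {H' : Ω → S → ℝ} (h : ∀ ω, H ω =ᵐ[μ] H' ω) : FE P μ H = FE P μ H' := by
  refine integral_congr_ae (ae_of_all _ fun ω => congrArg log (integral_congr_ae ?_))
  filter_upwards [h ω] with σ hσ
  rw [hσ]
theorem A1_congr_ae {H' φ' : Ω → S → ℝ} (h : ∀ ω, H ω =ᵐ[μ] H' ω) (h' : ∀ ω, φ ω =ᵐ[μ] φ' ω) :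
    A1 P μ H φ = A1 P μ H' φ' := by
  refine integral_congr_ae (ae_of_all _ fun ω => ?_)
  simp only [← tilted_congr (h ω)]
  exact integral_congr_ae ((tilted_absolutelyContinuous μ _).ae_eq (h' ω))
theorem A2_congr_ae {H' : Ω → S → ℝ} {Φ' : Ω → S → S → ℝ} (h : ∀ ω, H ω =ᵐ[μ] H' ω)
    {E : Set S} (hE : ∀ᵐ σ ∂μ, σ ∈ E) (h' : ∀ ω, ∀ σ ∈ E, ∀ σ' ∈ E, Φ ω σ σ' = Φ' ω σ σ') :
    A2 P μ H Φ = A2 P μ H' Φ' := by
  refine integral_congr_ae (ae_of_all _ fun ω => ?_)
  simp only [← tilted_congr (h ω)]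
  have h1 : ∀ᵐ σ ∂(μ.tilted (H ω)), σ ∈ E := (tilted_absolutelyContinuous μ _).ae_le hE
  exact integral_congr_ae (h1.mono fun σ hσ => integral_congr_ae (h1.mono fun σ' hσ' =>
    h' ω σ hσ σ' hσ'))

/-- integrate out disorder on which the Hamiltonian does not depend -/
theorem A1_prod (h : Good P H) {ψ : Ω × Ω' → S → ℝ} (hψ : Good (P.prod P') ψ) :
    A1 (P.prod P') μ (fun ω σ => H ω.1 σ) ψ = A1 P μ H (fun ω σ => ∫ ω', ψ (ω, ω') σ ∂P') := by
  obtain ⟨B, hB, h1⟩ := hψ.bdd
  refine (integral_prod _ ((h.fst P').integrable_A1 hψ)).trans (integral_congr_ae ?_)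
  filter_upwards [hB.prod_right_ae] with ω hω
  have := h.isProb (μ := μ) ω
  exact integral_integral_swap (f := fun ω' σ => ψ (ω, ω') σ) ((hω.comp_fst _).mono'
    (hψ.meas.comp ((measurable_prodMk_left.comp measurable_fst).prodMk
      measurable_snd)).aestronglyMeasurable (ae_of_all _ fun p => h1 _ _))
theorem A2_prod (h : Good P H) {Ψ : Ω × Ω' → S → S → ℝ} (hΨ : Good2 (P.prod P') Ψ) :
    A2 (P.prod P') μ (fun ω σ => H ω.1 σ) Ψ =
      A2 P μ H (fun ω σ σ' => ∫ ω', Ψ (ω, ω') σ σ' ∂P') := by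
  obtain ⟨B, hB, h1⟩ := hΨ.bdd
  refine (A1_prod h ((h.fst P').inner hΨ)).trans (integral_congr_ae ?_)
  filter_upwards [hB.prod_right_ae] with ω hω
  refine integral_congr_ae (ae_of_all _ fun σ => ?_)
  have := h.isProb (μ := μ) ω
  exact integral_integral_swap (f := fun ω' σ' => Ψ (ω, ω') σ σ') ((hω.comp_fst _).mono'
    (hΨ.meas.comp ((measurable_prodMk_left.comp measurable_fst).prodMk
      (measurable_prodMk_left.comp measurable_snd))).aestronglyMeasurable
    (ae_of_all _ fun p => h1 _ _ _))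

theorem FE_prod {K : Ω × Ω' → S → ℝ} (h : Good (P.prod P') K) :
    FE (P.prod P') μ K = ∫ ω, FE P' μ (fun ω' σ => K (ω, ω') σ) ∂P ∧
      Integrable (fun ω => FE P' μ (fun ω' σ => K (ω, ω') σ)) P :=
  ⟨integral_prod _ h.integrable_lZ, h.integrable_lZ.integral_prod_left⟩
theorem FE_prod_symm {K : Ω × Ω' → S → ℝ} (h : Good (P.prod P') K) :
    FE (P.prod P') μ K = ∫ ω', FE P μ (fun ω σ => K (ω, ω') σ) ∂P' ∧
      Integrable (fun ω' => FE P μ (fun ω σ => K (ω, ω') σ)) P' :=
  ⟨integral_prod_symm _ h.integrable_lZ, h.integrable_lZ.integral_prod_right⟩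

theorem lZ_add (h : Good P H) (ω : Ω) {D : S → ℝ} (hD : Measurable D) {C : ℝ}
    (hC : ∀ σ, |D σ| ≤ C) :
    lZ μ (fun σ => H ω σ + D σ) = lZ μ (H ω) + lZ (μ.tilted (H ω)) D := by
  obtain ⟨B, -, h1⟩ := h.bdd
  have h2 := integral_exp_pos (h.integrable_exp (μ := μ) ω)
  have h3 := integral_exp_pos (gc_exp (μ := μ) ((gc_sec h ω).add hD)
    fun σ => gb_add (h1 ω σ) (hC σ))
  unfold lZ
  rw [integral_exp_tilted, log_div h3.ne' h2.ne']
  simp
theorem FE_add_eq (h : Good P H) {D : Ω → S → ℝ} (hD : Good P D) :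
    FE P μ (fun ω σ => H ω σ + D ω σ) - FE P μ H = ∫ ω, lZ (μ.tilted (H ω)) (D ω) ∂P := by
  obtain ⟨B, -, h1⟩ := hD.bdd
  unfold FE
  rw [← integral_sub (h.add hD).integrable_lZ h.integrable_lZ]
  refine integral_congr_ae (ae_of_all _ fun ω => ?_)
  simp only [lZ_add h ω (gc_sec hD ω) (h1 ω), add_sub_cancel_left]
theorem tilted_add (h : Good P H) (ω : Ω) (D : S → ℝ) :
    μ.tilted (fun σ => H ω σ + D σ) = (μ.tilted (H ω)).tilted D :=
  (tilted_tilted (h.integrable_exp ω) D).symm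

/-- integrate out a coordinate of the configuration -/
theorem FE_intout (h : Good P H) {Θ : Ω → S × S' → ℝ} (hΘ : Good P Θ) :
    FE P (μ.prod μ') (fun ω x => H ω x.1 + Θ ω x) =
      FE P μ (fun ω σ => H ω σ + log (∫ z, exp (Θ ω (σ, z)) ∂μ')) ∧
    Good P (fun ω σ => log (∫ z, exp (Θ ω (σ, z)) ∂μ')) := by
  obtain ⟨B, hB, h1⟩ := hΘ.bdd
  have h2 : ∀ ω σ, Integrable (fun z => exp (Θ ω (σ, z))) μ' := fun ω σ =>
    gc_exp ((gc_sec hΘ ω).comp measurable_prodMk_left) fun z => h1 ω _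
  refine ⟨integral_congr_ae (ae_of_all _ fun ω => congrArg log ?_), ?_, B, hB,
    fun ω σ => gb_lZ (h2 ω σ) fun z => h1 ω _⟩
  · have h3 : Good P fun ω (x : S × S') => H ω x.1 :=
      h.comp (MeasurePreserving.id P) measurable_fst
    rw [integral_prod _ ((h3.add hΘ).integrable_exp ω)]
    refine integral_congr_ae (ae_of_all _ fun σ => ?_)
    simp only [exp_add, integral_const_mul, exp_log (integral_exp_pos (h2 ω σ))]
  · have h3 : Measurable fun p : (Ω × S) × S' => exp (Θ p.1.1 (p.1.2, p.2)) :=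
      (hΘ.meas.comp (measurable_fst.fst.prodMk (measurable_fst.snd.prodMk measurable_snd))).exp
    exact h3.stronglyMeasurable.integral_prod_right'.measurable.log

/-- independent disorders acting on independent coordinates -/
theorem FE_indep (h : Good P H) {H' : Ω' → S' → ℝ} (h' : Good P' H') :
    FE (P.prod P') (μ'.prod μ) (fun ω x => H ω.1 x.2 + H' ω.2 x.1) = FE P μ H + FE P' μ' H' := by
  have h1 : ∀ ω : Ω × Ω', lZ (μ'.prod μ) (fun x => H ω.1 x.2 + H' ω.2 x.1) =
      lZ μ (H ω.1) + lZ μ' (H' ω.2) := fun ω => by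
    unfold lZ
    simp only [exp_add, mul_comm (exp (H _ _))]
    rw [integral_prod_mul (fun x => exp (H' ω.2 x)) fun x => exp (H ω.1 x),
      log_mul (integral_exp_pos (h'.integrable_exp _)).ne'
        (integral_exp_pos (h.integrable_exp _)).ne', add_comm]
  unfold FE
  simp only [h1]
  rw [integral_add (h.integrable_lZ.comp_fst P') (h'.integrable_lZ.comp_snd P),
    integral_fun_fst fun ω => lZ μ (H ω), integral_fun_snd fun ω => lZ μ' (H' ω)]
  simp

end P157
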