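import Vale.Agent.P157.GIneq

/-! P157 GCond: conditioning the reference measure on an event.
Plan: for fixed `ω` put `G = μ.tilted (H ω)`, `β = G.real Eᶜ < 1`. With `cond μ E = (μ E)⁻¹ • μ.restrict E`
and `integral_tilted`, `∫ φ ∂((cond μ E).tilted h) = (∫_E φ e^h)/(∫_E e^h) = (1-β)⁻¹ ∫ φ 1_E ∂G`, hence
`|∫ φ ∂G^E - ∫ φ 1_E ∂G| = β |∫ φ ∂G^E| ≤ C β`; for two replicas the factor is `1 - (1-β)² ≤ 2β`.
-/

open MeasureTheory ProbabilityTheory Real
open scoped BigOperators Matrix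

namespace P157

variable {Ω S : Type} [MeasurableSpace Ω] [MeasurableSpace S] {P : Measure Ω}
  [IsProbabilityMeasure P] {μ : Measure S} [IsProbabilityMeasure μ]

variable {H : Ω → S → ℝ} {E : Set S}

private lemma gc_int (g : S → ℝ) :
    ∫ σ, g σ ∂(ProbabilityTheory.cond μ E) = (μ.real E)⁻¹ * ∫ σ in E, g σ ∂μ := by
  rw [ProbabilityTheory.cond, integral_smul_measure, ENNReal.toReal_inv, smul_eq_mul]
  rfl

private lemma gc_pos {g : S → ℝ} (hg : Integrable (fun σ => exp (g σ)) μ) (h0 : μ E ≠ 0) :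
    0 < ∫ σ in E, exp (g σ) ∂μ := by
  have : NeZero (μ.restrict E) := ⟨fun h => h0 (Measure.restrict_eq_zero.1 h)⟩
  exact integral_exp_pos hg.integrableOn

private lemma gc_key {g : S → ℝ} (hg : Integrable (fun σ => exp (g σ)) μ) (hE : MeasurableSet E)
    (h0 : μ E ≠ 0) : ∃ γ : ℝ, 0 ≤ γ ∧ γ ≤ 1 ∧
      ∫ σ, Eᶜ.indicator (1 : S → ℝ) σ ∂(μ.tilted g) = 1 - γ ∧
      ∀ f : S → ℝ, ∫ σ, E.indicator f σ ∂(μ.tilted g) =
        γ * ∫ σ, f σ ∂((ProbabilityTheory.cond μ E).tilted g) := by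
  have hZ : 0 < ∫ σ, exp (g σ) ∂μ := integral_exp_pos hg
  have hZE := gc_pos hg h0
  have hm : 0 < μ.real E := ENNReal.toReal_pos h0 (measure_ne_top _ _)
  have := isProbabilityMeasure_tilted hg
  have k1 : ∀ f : S → ℝ, ∫ σ, E.indicator f σ ∂(μ.tilted g) =
      (∫ σ in E, exp (g σ) * f σ ∂μ) / ∫ σ, exp (g σ) ∂μ := fun f => by
    rw [integral_tilted, ← integral_div, ← integral_indicator hE]
    refine integral_congr_ae (Filter.Eventually.of_forall fun σ => ?_)
    by_cases hσ : σ ∈ E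
    · simp only [Set.indicator_of_mem hσ, smul_eq_mul]
      ring
    · simp [Set.indicator_of_notMem hσ]
  have k2 : ∀ f : S → ℝ, ∫ σ, f σ ∂((ProbabilityTheory.cond μ E).tilted g) =
      (∫ σ in E, exp (g σ) * f σ ∂μ) / ∫ σ in E, exp (g σ) ∂μ := fun f => by
    rw [integral_tilted, gc_int, gc_int, ← integral_div, ← integral_const_mul]
    refine integral_congr_ae (Filter.Eventually.of_forall fun σ => ?_)
    simp only [smul_eq_mul]
    field_simp
  have k3 : (μ.tilted g).real E = (∫ σ in E, exp (g σ) ∂μ) / ∫ σ, exp (g σ) ∂μ := by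
    rw [← integral_indicator_one hE, k1]
    simp
  refine ⟨(μ.tilted g).real E, measureReal_nonneg, measureReal_le_one, ?_, fun f => ?_⟩
  · rw [integral_indicator_one hE.compl, probReal_compl_eq_one_sub hE]
  · rw [k1, k2, k3]
    field_simp

private lemma gc_ind (hE : MeasurableSet E) : Bd1 (fun (_ : Ω) σ => E.indicator (1 : S → ℝ) σ) 1 :=
  ⟨(measurable_one.indicator hE).comp measurable_snd, fun _ σ => by
    by_cases hσ : σ ∈ E <;> simp [hσ]⟩

theorem FE_cond (h : Good P H) (hE : MeasurableSet E) (h0 : μ E ≠ 0) :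
    FE P (ProbabilityTheory.cond μ E) H + log (μ.real E) ≤ FE P μ H := by
  have := cond_isProbabilityMeasure (μ := μ) h0
  have hm : 0 < μ.real E := ENNReal.toReal_pos h0 (measure_ne_top _ _)
  have e : FE P (ProbabilityTheory.cond μ E) H + log (μ.real E) =
      ∫ ω, (lZ (ProbabilityTheory.cond μ E) (H ω) + log (μ.real E)) ∂P := by
    rw [integral_add h.integrable_lZ (integrable_const _)]
    simp [FE]
  rw [e]
  refine integral_mono (h.integrable_lZ.add (integrable_const _)) h.integrable_lZ fun ω => ?_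
  have hZ := gc_pos (h.integrable_exp (μ := μ) ω) h0
  simp only [lZ]
  rw [gc_int, ← log_mul (by positivity) hm.ne', mul_comm, ← mul_assoc, mul_inv_cancel₀ hm.ne',
    one_mul]
  exact log_le_log hZ (setIntegral_le_integral (h.integrable_exp ω)
    (Filter.Eventually.of_forall fun σ => (exp_pos _).le))

theorem A1_cond (h : Good P H) (hE : MeasurableSet E) (h0 : μ E ≠ 0) {φ : Ω → S → ℝ} {C : ℝ}
    (hφ : Bd1 φ C) :
    |A1 P (ProbabilityTheory.cond μ E) H φ - A1 P μ H (fun ω σ => E.indicator (φ ω) σ)| ≤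
      C * A1 P μ H (fun _ σ => Eᶜ.indicator 1 σ) := by
  have := cond_isProbabilityMeasure (μ := μ) h0
  have e : (fun ω σ => E.indicator (φ ω) σ) = fun ω σ => E.indicator (1 : S → ℝ) σ * φ ω σ := by
    funext ω σ
    by_cases hσ : σ ∈ E <;> simp [hσ]
  have hφ' : Good P fun ω σ => E.indicator (φ ω) σ := by
    rw [e]
    exact ((gc_ind hE).mul hφ).good
  have i1 := h.integrable_A1 (μ := ProbabilityTheory.cond μ E) hφ.good
  have i2 := h.integrable_A1 (μ := μ) hφ'
  have i3 := h.integrable_A1 (μ := μ) (gc_ind (Ω := Ω) hE.compl).good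
  simp only [A1]
  rw [← integral_sub i1 i2, ← integral_const_mul]
  refine abs_integral_le_integral_abs.trans
    (integral_mono (i1.sub i2).abs (i3.const_mul C) fun ω => ?_)
  obtain ⟨γ, g0, g1, g2, g3⟩ := gc_key (h.integrable_exp (μ := μ) ω) hE h0
  have := h.isProb (μ := ProbabilityTheory.cond μ E) ω
  have hb := gb_int (μ := (ProbabilityTheory.cond μ E).tilted (H ω)) (hφ.bdd ω)
  simp only [g2, g3]
  rw [← one_sub_mul, abs_mul, abs_of_nonneg (sub_nonneg.2 g1), mul_comm]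
  exact mul_le_mul_of_nonneg_right hb (sub_nonneg.2 g1)

theorem A2_cond (h : Good P H) (hE : MeasurableSet E) (h0 : μ E ≠ 0) {Φ : Ω → S → S → ℝ} {C : ℝ}
    (hΦ : Bd2 Φ C) :
    |A2 P (ProbabilityTheory.cond μ E) H Φ -
        A2 P μ H (fun ω σ σ' => E.indicator 1 σ * E.indicator 1 σ' * Φ ω σ σ')| ≤
      2 * C * A1 P μ H (fun _ σ => Eᶜ.indicator 1 σ) := by
  have := cond_isProbabilityMeasure (μ := μ) h0
  have hΦ' : Good2 P fun ω σ σ' =>
      E.indicator (1 : S → ℝ) σ * E.indicator (1 : S → ℝ) σ' * Φ ω σ σ' :=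
    (((gc_ind hE).fst2.mul (gc_ind hE).snd2).mul hΦ).good2
  have i1 := h.integrable_A1 (μ := ProbabilityTheory.cond μ E)
    (h.inner (μ := ProbabilityTheory.cond μ E) hΦ.good2)
  have i2 := h.integrable_A1 (μ := μ) (h.inner (μ := μ) hΦ')
  have i3 := h.integrable_A1 (μ := μ) (gc_ind (Ω := Ω) hE.compl).good
  simp only [A1, A2]
  rw [← integral_sub i1 i2, ← integral_const_mul]
  refine abs_integral_le_integral_abs.trans
    (integral_mono (i1.sub i2).abs (i3.const_mul _) fun ω => ?_)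
  obtain ⟨γ, g0, g1, g2, g3⟩ := gc_key (h.integrable_exp (μ := μ) ω) hE h0
  have := h.isProb (μ := ProbabilityTheory.cond μ E) ω
  have hb := gb_int (μ := (ProbabilityTheory.cond μ E).tilted (H ω)) fun σ =>
    gb_int (μ := (ProbabilityTheory.cond μ E).tilted (H ω)) (hΦ.bdd ω σ)
  have e : ∀ σ, ∫ σ', E.indicator (1 : S → ℝ) σ * E.indicator (1 : S → ℝ) σ' * Φ ω σ σ'
      ∂(μ.tilted (H ω)) = E.indicator (fun σ => γ * ∫ σ', Φ ω σ σ'
        ∂((ProbabilityTheory.cond μ E).tilted (H ω))) σ := fun σ => by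
    by_cases hσ : σ ∈ E
    · rw [Set.indicator_of_mem hσ, Set.indicator_of_mem hσ, ← g3]
      refine integral_congr_ae (Filter.Eventually.of_forall fun σ' => ?_)
      by_cases hσ' : σ' ∈ E <;> simp [hσ']
    · simp [hσ]
  simp only [g2, e, g3, integral_const_mul]
  have hC := (abs_nonneg _).trans hb
  have h1 : 0 ≤ 1 - γ * γ := by nlinarith
  rw [← mul_assoc, ← one_sub_mul, abs_mul, abs_of_nonneg h1]
  refine (mul_le_mul_of_nonneg_left hb h1).trans ?_
  nlinarith [mul_nonneg hC (mul_nonneg (sub_nonneg.2 g1) (sub_nonneg.2 g1))]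

end P157
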