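import Vale.Agent.P157.Core

/-! P157 GGext: from continuous test functions to sets.
Plan. Fix `n`. Let `ρ A : Fin (n+1) → Fin (n+1) → KK k` be the restriction. Consider the finite
measures on `(Fin (n+1) → Fin (n+1) → KK k) × KK k`: `ν₁ = (n+1) • Λ.map (ρ, A 0 (n+1))` and
`ν₂ = (Λ.map ρ).prod (Λ.map (A 0 1)) + ∑_l Λ.map (ρ, A 0 l)`. They agree on `Φ ⊗ psiK a j`; the span of
the `psiK a j` is a point-separating subalgebra of `C(KK k, ℝ)` (`psiK a j * psiK a' j' =
psiK (a+a') (max j j')`), so by Stone-Weierstrass they agree on `Φ ⊗ ψ` for all continuous `Φ, ψ`;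
conclude with `Measure.ext_of_integral_mul_boundedContinuousFunction`. A measurable set `E` with
`DepOn n` is `ρ ⁻¹' E'` with `E' = (extension by a fixed value) ⁻¹' E` measurable.
-/

open MeasureTheory ProbabilityTheory Real
open scoped BigOperators Matrix

namespace P157

open scoped BoundedContinuousFunction

theorem ggx_int {k : ℕ} (Λ : Measure (ℕ → ℕ → KK k)) [IsProbabilityMeasure Λ]
    {F : (ℕ → ℕ → KK k) → ℝ} (hF : Continuous F) : Integrable F Λ :=
  hF.integrable_of_hasCompactSupport (HasCompactSupport.of_compactSpace _)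

/-- the functional `ψ ↦ ∫ Φ A * ψ (A 0 l)` -/
noncomputable def ggxT {k : ℕ} (Λ : Measure (ℕ → ℕ → KK k)) [IsProbabilityMeasure Λ]
    (Φ : C(ℕ → ℕ → KK k, ℝ)) (l : ℕ) : C(KK k, ℝ) →L[ℝ] ℝ :=
  LinearMap.mkContinuous
    { toFun := fun ψ => ∫ A, Φ A * ψ (A 0 l) ∂Λ
      map_add' := fun ψ ψ' => by
        simp only [ContinuousMap.add_apply, mul_add]
        exact integral_add (ggx_int Λ (by fun_prop)) (ggx_int Λ (by fun_prop))
      map_smul' := fun c ψ => by
        simp only [ContinuousMap.smul_apply, smul_eq_mul, RingHom.id_apply, mul_left_comm _ c]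
        exact integral_const_mul _ _ } ‖Φ‖ fun ψ => by
    have := norm_integral_le_of_norm_le_const (μ := Λ) (f := fun A => Φ A * ψ (A 0 l))
      (C := ‖Φ‖ * ‖ψ‖) (Filter.Eventually.of_forall fun A => by
        rw [norm_mul]
        exact mul_le_mul (Φ.norm_coe_le_norm _) (ψ.norm_coe_le_norm _) (norm_nonneg _)
          (norm_nonneg _))
    simpa using this

theorem ggxT_apply {k : ℕ} (Λ : Measure (ℕ → ℕ → KK k)) [IsProbabilityMeasure Λ]
    (Φ : C(ℕ → ℕ → KK k, ℝ)) (l : ℕ) (ψ : C(KK k, ℝ)) :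
    ggxT Λ Φ l ψ = ∫ A, Φ A * ψ (A 0 l) ∂Λ := rfl

/-- `psiK` as a continuous map -/
noncomputable def ggxP (k a j : ℕ) : C(KK k, ℝ) :=
  ⟨psiK a j, ((continuous_subtype_val.comp continuous_fst).pow a).mul
    ((continuous_of_discreteTopology (f := fun i : Fin (k + 1) =>
      if j ≤ (i : ℕ) then (1 : ℝ) else 0)).comp continuous_snd)⟩

theorem ggxP_apply (k a j : ℕ) (x : KK k) : ggxP k a j x = psiK a j x := rfl

theorem ggx_all {k : ℕ} (T : C(KK k, ℝ) →L[ℝ] ℝ) (h : ∀ a j, j ≤ k → T (ggxP k a j) = 0)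
    (ψ : C(KK k, ℝ)) : T ψ = 0 := by
  let S : Submonoid C(KK k, ℝ) :=
    { carrier := {ψ | ∃ a j, j ≤ k ∧ ψ = ggxP k a j}
      one_mem' := ⟨0, 0, Nat.zero_le _, by ext x; simp [ggxP_apply, psiK]⟩
      mul_mem' := by
        rintro _ _ ⟨a, j, hj, rfl⟩ ⟨a', j', hj', rfl⟩
        refine ⟨a + a', max j j', max_le hj hj', ?_⟩
        ext x
        simp only [ggxP_apply, psiK, ContinuousMap.mul_apply, max_le_iff, pow_add]
        by_cases h1 : j ≤ (x.2 : ℕ) <;> by_cases h2 : j' ≤ (x.2 : ℕ) <;> simp [h1, h2] }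
  have sep : (Algebra.adjoin ℝ (S : Set C(KK k, ℝ))).SeparatesPoints := by
    intro x y hxy
    by_cases h1 : x.1 = y.1
    · have h2 : x.2 ≠ y.2 := fun h2 => hxy (Prod.ext h1 h2)
      refine ⟨_, ⟨ggxP k 0 (max x.2 y.2 : Fin (k + 1)),
        Algebra.subset_adjoin ⟨0, _, Nat.lt_succ_iff.1 (Fin.is_lt _), rfl⟩, rfl⟩, ?_⟩
      rcases lt_or_gt_of_ne h2 with h3 | h3
      · have h4 : ¬(y.2 : ℕ) ≤ x.2 := not_le.2 h3
        simp [ggxP_apply, psiK, max_eq_right h3.le, h4]
      · have h4 : ¬(x.2 : ℕ) ≤ y.2 := not_le.2 h3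
        simp [ggxP_apply, psiK, max_eq_left h3.le, h4]
    · refine ⟨_, ⟨ggxP k 1 0, Algebra.subset_adjoin ⟨1, 0, Nat.zero_le _, rfl⟩, rfl⟩, ?_⟩
      simpa [ggxP_apply, psiK, Subtype.ext_iff] using h1
  have top := ContinuousMap.subalgebra_topologicalClosure_eq_top_of_separatesPoints _ sep
  have sub : (Algebra.adjoin ℝ (S : Set C(KK k, ℝ)) : Set C(KK k, ℝ)) ⊆ {ψ | T ψ = 0} := by
    intro φ hφ
    have h1 : φ ∈ Subalgebra.toSubmodule (Algebra.adjoin ℝ (S : Set C(KK k, ℝ))) := hφ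
    rw [Algebra.adjoin_eq_span, Submonoid.closure_eq] at h1
    refine (Submodule.span_le (p := LinearMap.ker (T : C(KK k, ℝ) →ₗ[ℝ] ℝ))).2 ?_ h1
    rintro _ ⟨a, j, hj, rfl⟩
    exact h a j hj
  have : ψ ∈ (Algebra.adjoin ℝ (S : Set C(KK k, ℝ))).topologicalClosure := top ▸ trivial
  exact closure_minimal sub (isClosed_eq T.continuous continuous_const) this

theorem ggx_cont {k : ℕ} {Λ : Measure (ℕ → ℕ → KK k)} [IsProbabilityMeasure Λ] {n : ℕ}
    (h : ∀ a j, j ≤ k → ArrGG Λ n a j 0) (Φ : C(ℕ → ℕ → KK k, ℝ)) (hΦ : DepOn n Φ)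
    (ψ : C(KK k, ℝ)) :
    ((n : ℝ) + 1) * ∫ A, Φ A * ψ (A 0 (n + 1)) ∂Λ = (∫ A, Φ A ∂Λ) * ∫ A, ψ (A 0 1) ∂Λ +
      ∑ l ∈ Finset.Icc 1 n, ∫ A, Φ A * ψ (A 0 l) ∂Λ := by
  have key := ggx_all (((n : ℝ) + 1) • ggxT Λ Φ (n + 1) - (∫ A, Φ A ∂Λ) • ggxT Λ 1 1 -
    ∑ l ∈ Finset.Icc 1 n, ggxT Λ Φ l) (fun a j hj => ?_) ψ
  · simp only [ContinuousLinearMap.sub_apply, ContinuousLinearMap.smul_apply,
      ContinuousLinearMap.sum_apply, ggxT_apply, smul_eq_mul, ContinuousMap.one_apply,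
      one_mul] at key
    linarith
  have c0 : 0 < ‖Φ‖ + 1 := by positivity
  have h1 := h a j hj (fun A => (‖Φ‖ + 1)⁻¹ * Φ A) (by fun_prop)
    (fun A A' hA => by simp only [hΦ A A' hA]) fun A => by
      rw [abs_mul, abs_of_pos (inv_pos.2 c0), inv_mul_le_iff₀ c0]
      linarith [Φ.norm_coe_le_norm A, Real.norm_eq_abs (Φ A)]
  simp only [mul_assoc, integral_const_mul, ← Finset.mul_sum] at h1
  rw [abs_nonpos_iff, mul_left_comm, ← mul_sub, ← mul_sub,
    mul_eq_zero_iff_left (inv_pos.2 c0).ne'] at h1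
  simpa only [ContinuousLinearMap.sub_apply, ContinuousLinearMap.smul_apply,
    ContinuousLinearMap.sum_apply, ggxT_apply, smul_eq_mul, ContinuousMap.one_apply,
    one_mul, ggxP_apply] using h1

theorem ggset_of_arrGG {k : ℕ} {Λ : Measure (ℕ → ℕ → KK k)} [IsProbabilityMeasure Λ]
    (h : ∀ n a j, j ≤ k → ArrGG Λ n a j 0) : GGset Λ := by
  intro n E D hE hD hdep
  let r : C(ℕ → ℕ → KK k, ℕ → ℕ → KK k) := ⟨fun A i j => A (min i n) (min j n), by fun_prop⟩
  have mr : Measurable r := r.continuous.measurable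
  have me : ∀ l, Measurable fun A : ℕ → ℕ → KK k => A 0 l := fun l => by fun_prop
  have mp : ∀ l, Measurable fun A : ℕ → ℕ → KK k => (r A, A 0 l) := fun l => mr.prodMk (me l)
  have rE : r ⁻¹' E = E := by
    ext A
    exact (hdep (r A) A fun i hi j hj => by
      simp only [r, ContinuousMap.coe_mk, min_eq_left hi, min_eq_left hj]).to_iff
  have eq : ((n + 1 : ℕ) : NNReal) • Λ.map (fun A => (r A, A 0 (n + 1))) =
      (Λ.map r).prod (Λ.map fun A => A 0 1) +
        ∑ l ∈ Finset.Icc 1 n, Λ.map fun A => (r A, A 0 l) := by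
    refine Measure.ext_of_integral_mul_boundedContinuousFunction fun f g => ?_
    have cf : Continuous fun p : (ℕ → ℕ → KK k) × KK k => f p.1 * g p.2 := by fun_prop
    have ii : ∀ (μ : Measure ((ℕ → ℕ → KK k) × KK k)) [IsFiniteMeasure μ],
        Integrable (fun p => f p.1 * g p.2) μ := fun μ _ =>
      cf.integrable_of_hasCompactSupport (HasCompactSupport.of_compactSpace _)
    rw [integral_smul_nnreal_measure, integral_add_measure (ii _) (ii _),
      integral_finsetSum_measure fun l _ => ii _, integral_prod_mul,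
      integral_map mr.aemeasurable f.continuous.aestronglyMeasurable,
      integral_map (me 1).aemeasurable g.continuous.aestronglyMeasurable]
    simp only [integral_map (mp _).aemeasurable cf.aestronglyMeasurable]
    have := ggx_cont (h n) (f.toContinuousMap.comp r) (fun A A' hA => by
      have : r A = r A' := funext fun i => funext fun j =>
        hA _ (min_le_right _ _) _ (min_le_right _ _)
      simp only [ContinuousMap.comp_apply, this]) g.toContinuousMap
    simpa [NNReal.smul_def] using this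
  have e1 : ∀ l, (Λ.map fun A => (r A, A 0 l)).real (E ×ˢ D) = Λ.real (E ∩ {A | A 0 l ∈ D}) :=
    fun l => by
      rw [map_measureReal_apply (mp l) (hE.prod hD), Set.mk_preimage_prod, rE]
      rfl
  have e2 := congrArg (fun μ => Measure.real μ (E ×ˢ D)) eq
  simp only [measureReal_nnreal_smul_apply, e1] at e2
  rw [measureReal_add_apply, measureReal_prod_prod, map_measureReal_apply mr hE,
    map_measureReal_apply (me 1) hD, rE] at e2
  push_cast at e2
  rw [e2]
  congr 1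
  rw [Measure.real, Measure.finsetSum_apply, ENNReal.toReal_sum fun l _ => measure_ne_top _ _]
  exact Finset.sum_congr rfl fun l _ => e1 l

end P157
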