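import Vale.Agent.P157.GComp

/-! P157 GIneq: Jensen, bounded tilts, Cauchy-Schwarz.
Plan: `FE_add_eq` reduces everything to inequalities for a fixed probability measure
`G = μ.tilted (H ω)`: `∫ D ∂G ≤ log ∫ exp D ∂G` (from `1 + x ≤ exp x` applied to `D - ∫ D`);
`∫ φ ∂(G.tilted D) = ∫ (exp D / Z) φ ∂G` with `exp (-d) ≤ Z`; for `tilt_close` put `ρ = exp D / Z`,
then `∫ |ρ - 1| ≤ |1 - Z| + ∫ |exp D - 1| ≤ 2 ∫ |exp D - 1|` (because `∫ |ρ - exp D| = |1 - Z|`) and
`|ρ ρ' - 1| ≤ ρ' |ρ - 1| + |ρ' - 1|`. Cauchy-Schwarz: `|x| ≤ x²/(2c) + c/2` for every `c > 0`.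
-/

open MeasureTheory ProbabilityTheory Real
open scoped BigOperators Matrix

namespace P157

variable {Ω S : Type} [MeasurableSpace Ω] [MeasurableSpace S] {P : Measure Ω}
  [IsProbabilityMeasure P] {μ : Measure S} [IsProbabilityMeasure μ]

variable {H D φ : Ω → S → ℝ} {Φ : Ω → S → S → ℝ}

theorem integral_le_lZ (G : Measure S) [IsProbabilityMeasure G] {D : S → ℝ} (hD : Measurable D)
    {C : ℝ} (hC : ∀ σ, |D σ| ≤ C) : ∫ σ, D σ ∂G ≤ lZ G D := by
  have h1 := gc_exp (μ := G) hD hC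
  have h2 : Integrable D G := Integrable.of_bound hD.aestronglyMeasurable C (ae_of_all _ hC)
  have h5 : Integrable (fun σ => D σ - ∫ σ, D σ ∂G) G := h2.sub (integrable_const _)
  have h3 : Integrable (fun σ => D σ - ∫ σ, D σ ∂G + 1) G := h5.add (integrable_const _)
  have h4 := integral_mono (h3.const_mul (exp (∫ σ, D σ ∂G))) h1 fun σ => by
    have := mul_le_mul_of_nonneg_left (add_one_le_exp (D σ - ∫ σ, D σ ∂G))
      (exp_pos (∫ σ, D σ ∂G)).le
    rwa [← exp_add, add_sub_cancel] at this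
  rw [integral_const_mul, integral_add h5 (integrable_const _),
    integral_sub h2 (integrable_const _)] at h4
  refine (le_log_iff_exp_le (integral_exp_pos h1)).2 ?_
  simpa using h4
theorem FE_jensen (h : Good P H) (hD : Good P D) :
    FE P μ H + A1 P μ H D ≤ FE P μ (fun ω σ => H ω σ + D ω σ) := by
  obtain ⟨B, -, h1⟩ := hD.bdd
  have h2 : Integrable (fun ω => lZ (μ.tilted (H ω)) (D ω)) P :=
    (((h.add hD).integrable_lZ (μ := μ)).sub (h.integrable_lZ (μ := μ))).congr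
      (ae_of_all _ fun ω => by
        simp only [Pi.sub_apply, lZ_add h ω (gc_sec hD ω) (h1 ω), add_sub_cancel_left])
  have h3 := integral_mono (h.integrable_A1 hD) h2 fun ω => by
    have := h.isProb (μ := μ) ω
    exact integral_le_lZ _ (gc_sec hD ω) (h1 ω)
  rw [← FE_add_eq h hD] at h3
  unfold A1
  linarith
theorem FE_mono {H' : Ω → S → ℝ} (h : Good P H) (h' : Good P H') (hle : ∀ ω σ, H ω σ ≤ H' ω σ) :
    FE P μ H ≤ FE P μ H' :=
  integral_mono h.integrable_lZ h'.integrable_lZ fun ω =>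
    log_le_log (integral_exp_pos (h.integrable_exp ω)) (integral_mono (h.integrable_exp ω)
      (h'.integrable_exp ω) fun σ => exp_le_exp.2 (hle ω σ))
theorem abs_FE_sub_le {H' : Ω → S → ℝ} (h : Good P H) (h' : Good P H') {d : ℝ}
    (hle : ∀ ω σ, |H' ω σ - H ω σ| ≤ d) : |FE P μ H' - FE P μ H| ≤ d := by
  have h1 := FE_mono (μ := μ) h' (h.add (Good.const d)) fun ω σ => by
    linarith [(abs_le.1 (hle ω σ)).2]
  have h2 := FE_mono (μ := μ) h (h'.add (Good.const d)) fun ω σ => by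
    linarith [(abs_le.1 (hle ω σ)).1]
  rw [FE_add_const h] at h1
  rw [FE_add_const h'] at h2
  rw [abs_le]
  constructor <;> linarith
theorem gi_tilt {D f : S → ℝ} (hD : Measurable D) {d : ℝ} (hd : ∀ σ, |D σ| ≤ d)
    (hf : Integrable f μ) (h0 : ∀ σ, 0 ≤ f σ) :
    ∫ σ, f σ ∂(μ.tilted D) ≤ exp (2 * d) * ∫ σ, f σ ∂μ := by
  have h1 := gc_exp (μ := μ) hD hd
  have h2 := integral_exp_pos h1
  have h3 := (le_log_iff_exp_le h2).1 (abs_le.1 (gb_lZ h1 hd)).1
  rw [integral_tilted, ← integral_const_mul]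
  refine integral_mono_of_nonneg (ae_of_all _ fun σ => mul_nonneg (div_pos (exp_pos _) h2).le (h0 σ))
    (hf.const_mul _) (ae_of_all _ fun σ => mul_le_mul_of_nonneg_right ?_ (h0 σ))
  refine (div_le_div₀ (exp_pos d).le (exp_le_exp.2 (abs_le.1 (hd σ)).2) (exp_pos _) h3).trans
    (le_of_eq ?_)
  rw [← exp_sub]
  congr 1
  ring
theorem gi_close {D f : S → ℝ} (hD : Measurable D) {d : ℝ} (hd : ∀ σ, |D σ| ≤ d)
    (hf : Measurable f) {C : ℝ} (hC : ∀ σ, |f σ| ≤ C) :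
    |∫ σ, f σ ∂(μ.tilted D) - ∫ σ, f σ ∂μ| ≤ 2 * C * ∫ σ, |exp (D σ) - 1| ∂μ := by
  have h1 := gc_exp (μ := μ) hD hd
  have h2 := integral_exp_pos h1
  set Z := ∫ σ, exp (D σ) ∂μ with hZ
  obtain ⟨σ0⟩ := nonempty_of_isProbabilityMeasure μ
  have hC0 : 0 ≤ C := (abs_nonneg _).trans (hC σ0)
  have h3 : Integrable f μ := Integrable.of_bound hf.aestronglyMeasurable C (ae_of_all _ hC)
  have h4 : Integrable (fun σ => exp (D σ) / Z * f σ) μ :=
    (h1.div_const Z).mul_bdd hf.aestronglyMeasurable (ae_of_all _ hC)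
  have h5 : Integrable (fun σ => |exp (D σ) - 1|) μ := (h1.sub (integrable_const 1)).abs
  have h6 : |Z - 1| ≤ ∫ σ, |exp (D σ) - 1| ∂μ := by
    refine le_trans (le_of_eq ?_) abs_integral_le_integral_abs
    rw [integral_sub h1 (integrable_const 1)]
    simp [hZ]
  have h7 : Integrable (fun σ => |Z - 1| / Z * exp (D σ) + |exp (D σ) - 1|) μ :=
    (h1.const_mul _).add h5
  have h8 := integral_mono (h4.sub h3).abs (h7.const_mul C) fun σ => by
    show |exp (D σ) / Z * f σ - f σ| ≤ C * (|Z - 1| / Z * exp (D σ) + |exp (D σ) - 1|)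
    rw [← sub_one_mul, mul_comm]
    refine gb_mul (hC σ) ((abs_sub_le _ (exp (D σ)) _).trans (le_of_eq ?_))
    congr 1
    have e : exp (D σ) / Z - exp (D σ) = -((Z - 1) / Z * exp (D σ)) := by
      field_simp
      ring
    rw [e, abs_neg, abs_mul, abs_div, abs_of_pos h2, abs_of_pos (exp_pos _)]
  rw [integral_const_mul, integral_add (h1.const_mul _) h5, integral_const_mul, ← hZ,
    div_mul_cancel₀ _ h2.ne'] at h8
  rw [integral_tilted]
  simp only [smul_eq_mul, ← hZ]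
  rw [← integral_sub h4 h3]
  refine (abs_integral_le_integral_abs.trans h8).trans ?_
  nlinarith [mul_le_mul_of_nonneg_left h6 hC0]
theorem A1_tilt_le (h : Good P H) {d : ℝ} (hD : Bd1 D d) (hφ : Good P φ) (h0 : ∀ ω σ, 0 ≤ φ ω σ) :
    A1 P μ (fun ω σ => H ω σ + D ω σ) φ ≤ exp (2 * d) * A1 P μ H φ := by
  unfold A1
  rw [← integral_const_mul]
  refine integral_mono ((h.add hD.good).integrable_A1 hφ) ((h.integrable_A1 hφ).const_mul _)
    fun ω => ?_
  have := h.isProb (μ := μ) ω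
  simp only [tilted_add h ω]
  exact gi_tilt (gc_sec (hD.good (P := P)) ω) (hD.bdd ω) (hφ.integrable_sec ω _) (h0 ω)
theorem A2_tilt_le (h : Good P H) {d : ℝ} (hD : Bd1 D d) (hΦ : Good2 P Φ)
    (h0 : ∀ ω σ σ', 0 ≤ Φ ω σ σ') :
    A2 P μ (fun ω σ => H ω σ + D ω σ) Φ ≤ exp (4 * d) * A2 P μ H Φ := by
  have h1 := A1_tilt_le (μ := μ) h hD ((h.add hD.good).inner (μ := μ) hΦ)
    fun ω σ => integral_nonneg (h0 ω σ)
  have h2 := A1_mono (μ := μ) h ((h.add hD.good).inner (μ := μ) hΦ)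
    ((h.inner (μ := μ) hΦ).const_mul (exp (2 * d))) fun ω σ => by
      have := h.isProb (μ := μ) ω
      simp only [tilted_add h ω]
      exact gi_tilt (gc_sec (hD.good (P := P)) ω) (hD.bdd ω) (gb_sec2 hΦ ω σ _) (h0 ω σ)
  rw [A1_const_mul] at h2
  refine h1.trans ((mul_le_mul_of_nonneg_left h2 (exp_pos _).le).trans (le_of_eq ?_))
  rw [← mul_assoc, ← exp_add, show 2 * d + 2 * d = 4 * d by ring]
  rfl
theorem abs_FE_sub_le_A1 (h : Good P H) {d : ℝ} (hD : Bd1 D d) :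
    |FE P μ (fun ω σ => H ω σ + D ω σ) - FE P μ H| ≤
      exp (2 * d) * A1 P μ H (fun ω σ => |D ω σ|) := by
  have hG : Good P D := hD.good
  obtain ⟨ω0⟩ := nonempty_of_isProbabilityMeasure P
  obtain ⟨σ0⟩ := nonempty_of_isProbabilityMeasure μ
  have hd : 0 ≤ d := (abs_nonneg _).trans (hD.bdd ω0 σ0)
  have h1 := FE_jensen (μ := μ) h hG
  have h2 := FE_jensen (μ := μ) (h.add hG) (hG.const_mul (-1))
  simp only [neg_one_mul, add_neg_cancel_right] at h2
  have h3 := A1_const_mul (P := P) (μ := μ) (H := fun ω σ => H ω σ + D ω σ) (φ := D) (-1)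
  simp only [neg_one_mul] at h3
  have h4 := (abs_le.1 (abs_A1_le (μ := μ) h hG)).1
  have h5 := (abs_le.1 (abs_A1_le (μ := μ) (h.add hG) hG)).2
  have h6 := A1_tilt_le (μ := μ) h hD hG.abs fun ω σ => abs_nonneg _
  have h7 := le_mul_of_one_le_left (A1_nonneg (P := P) (μ := μ) (H := H)
    (φ := fun ω σ => |D ω σ|) fun ω σ => abs_nonneg _) (one_le_exp (by linarith : 0 ≤ 2 * d))
  rw [abs_le]
  constructor <;> linarith
theorem A1_tilt_close (h : Good P H) (hD : Good P D) (hE : Good P fun ω σ => exp (D ω σ))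
    {C : ℝ} (hφ : Bd1 φ C) :
    |A1 P μ (fun ω σ => H ω σ + D ω σ) φ - A1 P μ H φ| ≤
      2 * C * A1 P μ H (fun ω σ => |exp (D ω σ) - 1|) := by
  obtain ⟨B, -, h1⟩ := hD.bdd
  have hG : Good P φ := hφ.good
  unfold A1
  rw [← integral_sub ((h.add hD).integrable_A1 hG) (h.integrable_A1 hG), ← integral_const_mul]
  refine abs_integral_le_integral_abs.trans (integral_mono
    (((h.add hD).integrable_A1 hG).sub (h.integrable_A1 hG)).abs
    ((h.integrable_A1 (hE.sub (Good.const 1)).abs).const_mul _) fun ω => ?_)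
  have := h.isProb (μ := μ) ω
  simp only [tilted_add h ω]
  exact gi_close (gc_sec hD ω) (h1 ω) (gc_sec hG ω) (hφ.bdd ω)
theorem A2_tilt_close (h : Good P H) (hD : Good P D) (hE : Good P fun ω σ => exp (D ω σ))
    {C : ℝ} (hΦ : Bd2 Φ C) :
    |A2 P μ (fun ω σ => H ω σ + D ω σ) Φ - A2 P μ H Φ| ≤
      4 * C * A1 P μ H (fun ω σ => |exp (D ω σ) - 1|) := by
  obtain ⟨B, -, h1⟩ := hD.bdd
  have hG : Good2 P Φ := hΦ.good2
  have g1 := (h.add hD).inner (μ := μ) hG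
  have g2 := h.inner (μ := μ) hG
  have g3 := (hE.sub (Good.const 1)).abs.const_mul (2 * C)
  have h2 := A1_tilt_close (μ := μ) h hD hE (C := C)
    (φ := fun ω σ => ∫ σ', Φ ω σ σ' ∂(μ.tilted fun σ => H ω σ + D ω σ)) ⟨g1.meas, fun ω σ => by
    have := (h.add hD).isProb (μ := μ) ω
    exact gb_int (hΦ.bdd ω σ)⟩
  have h3 := abs_A1_le (μ := μ) h (g1.sub g2)
  have h4 := A1_mono (μ := μ) h (g1.sub g2).abs (h.inner (μ := μ) g3.snd2) fun ω σ => by
    have := h.isProb (μ := μ) ω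
    simp only [tilted_add h ω, integral_const_mul]
    exact gi_close (gc_sec hD ω) (h1 ω)
      (hΦ.meas.comp (measurable_prodMk_left.comp measurable_prodMk_left)) (hΦ.bdd ω σ)
  have h5 := A2_snd (μ := μ) (φ := fun ω σ => 2 * C * |exp (D ω σ) - 1|) h
  rw [A1_const_mul] at h5
  rw [A1_sub h g1 g2] at h3
  have h6 := (h3.trans h4).trans h5.le
  have h7 := (abs_sub_le _ _ _).trans (add_le_add h2 h6)
  refine le_trans h7 (le_of_eq ?_)
  ring
theorem A1_cs (h : Good P H) {C : ℝ} (hφ : Bd1 φ C) :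
    A1 P μ H (fun ω σ => |φ ω σ|) ≤ √(A1 P μ H fun ω σ => φ ω σ ^ 2) := by
  have hG : Good P φ := hφ.good
  have g2 : Good P fun ω σ => φ ω σ ^ 2 := by simpa only [sq] using (hφ.mul hφ).good
  set a := A1 P μ H (fun ω σ => |φ ω σ|) with ha
  have h1 := A1_mono (μ := μ) h ((hG.abs.const_mul (2 * a)).sub (Good.const (a ^ 2))) g2
    fun ω σ => by nlinarith [sq_nonneg (|φ ω σ| - a), sq_abs (φ ω σ)]
  rw [A1_sub h (hG.abs.const_mul (2 * a)) (Good.const (a ^ 2)), A1_const_mul, A1_const h] at h1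
  exact (le_abs_self a).trans (abs_le_sqrt (by nlinarith))
theorem A2_cs (h : Good P H) {C : ℝ} (hΦ : Bd2 Φ C) :
    A2 P μ H (fun ω σ σ' => |Φ ω σ σ'|) ≤ √(A2 P μ H fun ω σ σ' => Φ ω σ σ' ^ 2) := by
  have hG : Good2 P Φ := hΦ.good2
  set a := A2 P μ H (fun ω σ σ' => |Φ ω σ σ'|) with ha
  have g1 : Good2 P fun _ (_ _ : S) => a ^ 2 := (Good.const (a ^ 2)).fst2
  have h1 := A2_mono (μ := μ) h ((hG.abs.const_mul (2 * a)).sub g1) hΦ.sq.good2
    fun ω σ σ' => by nlinarith [sq_nonneg (|Φ ω σ σ'| - a), sq_abs (Φ ω σ σ')]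
  rw [A2_sub h (hG.abs.const_mul (2 * a)) g1, A2_const_mul, A2_const h] at h1
  exact (le_abs_self a).trans (abs_le_sqrt (by nlinarith))

end P157
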