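import Vale.Agent.P157.GIneq
import Vale.Agent.P157.IBP0

/-! P157 GTilt: transfer of small averages through a Gaussian tilt.
Plan: fix `ω`, `G = μ.tilted (H ω)`, `X = A·g + D`, `Z = ∫ exp X ∂G`. Then
`⟨Φ⟩_{H+X} = ∫∫ Φ exp(X σ + X σ') / Z² ≤ c/2 · ∫∫ Φ² ... `: use `ab ≤ a²/(2c) + c b²/2` and optimise
`c` at the end (or Cauchy-Schwarz on the product measure), with
`E_g ∫∫ exp(2X + 2X') Z^{-4} ≤ E_g ∫∫∫ exp(2Xσ + 2Xσ' - 4Xσ'') ≤ exp(8d) exp(32 V)` since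
`Z^{-4} ≤ exp(-4 ∫X) ≤ ∫ exp(-4X)` (Jensen twice) and `|2A+2A'-4A''|² ≤ 64 V`, `gp_exp_dot`.
`comp_close`: `E (e^D - 1)² = e^{v} - 1` for `D = a·g - v/2`, `v = a·a ≤ 1`, and `e^v - 1 ≤ 2v`.
-/

open MeasureTheory ProbabilityTheory Real
open scoped BigOperators Matrix

namespace P157

variable {Ω S : Type} [MeasurableSpace Ω] [MeasurableSpace S] {P : Measure Ω}
  [IsProbabilityMeasure P] {μ : Measure S} [IsProbabilityMeasure μ]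

variable {H : Ω → S → ℝ} {ι : Type} [Fintype ι] {A : Ω → S → ι → ℝ} {V d C : ℝ}

theorem Feat.good_exp (hA : Feat A) {D : Ω × (ι → ℝ) → S → ℝ} (hD : Bd1 D d) :
    Good (P.prod (gp ι)) (fun ω σ => exp (A ω.1 σ ⬝ᵥ ω.2 + D ω σ)) := by
  obtain ⟨C, hC⟩ := hA.bdd
  refine ⟨((hA.good (P := P)).meas.add hD.meas).exp, fun ω => exp (C * ∑ i, |ω.2 i|) * exp d,
    (measurePreserving_snd.integrable_comp_of_integrable (gp_integrable_exp_sum_abs C)).mul_const _,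
    fun ω σ => ?_⟩
  beta_reduce
  rw [abs_exp, ← exp_add, exp_le_exp, Finset.mul_sum]
  refine add_le_add (Finset.sum_le_sum fun i _ => (le_abs_self _).trans ?_) (abs_le.1 (hD.bdd ω σ)).2
  rw [abs_mul]
  exact mul_le_mul_of_nonneg_right (hC _ _ _) (abs_nonneg _)

theorem gtilt_opt {x a M : ℝ} (ha : 0 ≤ a) (hM : 0 < M)
    (h : ∀ c > 0, x ≤ a / (2 * c) + c / 2 * M ^ 2) : x ≤ M * √a := by
  refine le_of_forall_pos_le_add fun ε hε => ?_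
  have hs := Real.sqrt_nonneg a
  have h1 := h ((√a + ε / M) / M) (by positivity)
  have h2 : a / (2 * ((√a + ε / M) / M)) ≤ M * √a / 2 := by
    rw [div_le_iff₀ (by positivity)]
    have : M * √a / 2 * (2 * ((√a + ε / M) / M)) = √a * √a + √a * (ε / M) := by field_simp
    rw [this, Real.mul_self_sqrt ha]
    exact le_add_of_nonneg_right (by positivity)
  have h3 : (√a + ε / M) / M / 2 * M ^ 2 = M * √a / 2 + ε / 2 := by field_simp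
  linarith

theorem gtilt_exp (h : Good P H) (hA : Feat A) {D : Ω → S → ℝ} (hD : Bd1 D d) :
    A1 (P.prod (gp ι)) μ (fun ω σ => H ω.1 σ) (fun ω σ => exp (A ω.1 σ ⬝ᵥ ω.2 + D ω.1 σ)) =
      A1 P μ H (fun ω σ => exp (A ω σ ⬝ᵥ A ω σ / 2 + D ω σ)) := by
  refine (A1_prod h (hA.good_exp (hD.comp measurable_fst measurable_id))).trans ?_
  simp only [exp_add, id, integral_mul_const, gp_exp_dot]

theorem gtilt_exp_le (h : Good P H) (hA : Feat A) {D : Ω → S → ℝ} (hD : Bd1 D d) {c : ℝ}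
    (hc : ∀ ω σ, A ω σ ⬝ᵥ A ω σ / 2 + D ω σ ≤ c) :
    A1 (P.prod (gp ι)) μ (fun ω σ => H ω.1 σ) (fun ω σ => exp (A ω.1 σ ⬝ᵥ ω.2 + D ω.1 σ)) ≤
      exp c := by
  obtain ⟨C, hC⟩ := hA.bd1 hA
  rw [gtilt_exp h hA hD]
  refine (le_abs_self _).trans (abs_A1_le_bd h ⟨((hC.meas.div_const 2).add hD.meas).exp, ?_⟩)
  intro ω σ
  rw [abs_exp]
  exact exp_le_exp.2 (hc ω σ)

theorem gtilt_mom (h : Good P H) (hA : Feat A) (hV : ∀ ω σ, A ω σ ⬝ᵥ A ω σ ≤ V)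
    {D : Ω × (ι → ℝ) → S → ℝ} (hD : Bd1 D d) {a : ℝ} (ha : |a| = 8) :
    Good (P.prod (gp ι)) (fun ω σ => exp (a * (A ω.1 σ ⬝ᵥ ω.2 + D ω σ))) ∧
    A1 (P.prod (gp ι)) μ (fun ω σ => H ω.1 σ) (fun ω σ => exp (a * (A ω.1 σ ⬝ᵥ ω.2 + D ω σ))) ≤
      exp (4 * d + 16 * V) ^ 2 := by
  have hA' := hA.bd_smul (Bd1.const a)
  have g1 : Good (P.prod (gp ι)) (fun ω σ => exp (a * (A ω.1 σ ⬝ᵥ ω.2 + D ω σ))) := by
    simpa only [smul_dotProduct, smul_eq_mul, mul_add] using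
      hA'.good_exp (P := P) (hD.const_mul a)
  have h2 : a * a = 64 := by rw [← abs_mul_abs_self, ha]; norm_num
  refine ⟨g1, (A1_mono (h.fst _) g1 (hA'.good_exp (Bd1.const (8 * d))) fun ω σ => ?_).trans
    ((gtilt_exp_le h hA' (Bd1.const (8 * d)) (c := 8 * d + 32 * V) fun ω σ => ?_).trans_eq ?_)⟩
  · have := le_abs_self (a * D ω σ)
    rw [abs_mul, ha] at this
    rw [exp_le_exp, smul_dotProduct, smul_eq_mul]
    linarith [hD.bdd ω σ]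
  · rw [smul_dotProduct, dotProduct_smul, smul_eq_mul, smul_eq_mul, ← mul_assoc, h2]
    linarith [hV ω σ]
  · rw [pow_two, ← exp_add]; congr 1; ring

theorem gtilt_point {x y L T c φ : ℝ} (hc : 0 < c) (hT : exp (-8 * L) ≤ T) :
    exp x / exp L * (exp y / exp L * |φ|) ≤
      (2 * c)⁻¹ * φ ^ 2 + c / 8 * (exp (8 * x) + exp (8 * y) + 2 * T) := by
  have e1 : exp (8 * x) = exp x ^ 8 := by rw [← exp_nat_mul]; norm_num
  have e2 : exp (8 * y) = exp y ^ 8 := by rw [← exp_nat_mul]; norm_num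
  have e3 : exp (-8 * L) = (exp L)⁻¹ ^ 8 := by rw [← exp_neg, ← exp_nat_mul]; norm_num
  rw [e3] at hT
  rw [e1, e2, div_eq_mul_inv, div_eq_mul_inv, ← sq_abs φ]
  generalize exp x = u
  generalize exp y = v
  generalize (exp L)⁻¹ = w at hT ⊢
  generalize |φ| = f
  have h1 : u * w * (v * w * f) ≤ (2 * c)⁻¹ * f ^ 2 + c / 2 * (u * v * w ^ 2) ^ 2 := by
    have : (2 * c)⁻¹ * f ^ 2 + c / 2 * (u * v * w ^ 2) ^ 2 - u * w * (v * w * f) =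
        (2 * c)⁻¹ * (f - c * (u * v * w ^ 2)) ^ 2 := by field_simp; ring
    have h0 : 0 ≤ (2 * c)⁻¹ * (f - c * (u * v * w ^ 2)) ^ 2 := by positivity
    linarith
  have h2 : (u * v * w ^ 2) ^ 2 ≤ (u ^ 8 + v ^ 8 + 2 * T) / 4 := by
    linarith [sq_nonneg (u ^ 2 * v ^ 2 - w ^ 4), sq_nonneg (u ^ 4 - v ^ 4)]
  linarith [mul_le_mul_of_nonneg_left h2 (half_pos hc).le]

theorem A2_gtilt_le (h : Good P H) (hA : Feat A) (hV : ∀ ω σ, A ω σ ⬝ᵥ A ω σ ≤ V)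
    {D : Ω × (ι → ℝ) → S → ℝ} (hD : Bd1 D d) {Φ : Ω → S → S → ℝ} (hΦ : Bd2 Φ C) :
    A2 (P.prod (gp ι)) μ (fun ω σ => H ω.1 σ + A ω.1 σ ⬝ᵥ ω.2 + D ω σ)
        (fun ω σ σ' => |Φ ω.1 σ σ'|) ≤
      exp (4 * d + 16 * V) * √(A2 P μ H fun ω σ σ' => Φ ω σ σ' ^ 2) := by
  have h0 := h.fst (gp ι)
  have hX : Good (P.prod (gp ι)) fun ω σ => A ω.1 σ ⬝ᵥ ω.2 + D ω σ := hA.good.add hD.good
  obtain ⟨gp8, mp8⟩ := gtilt_mom (μ := μ) h hA hV hD (a := 8) (by norm_num)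
  obtain ⟨gm8, mm8⟩ := gtilt_mom (μ := μ) h hA hV hD (a := -8) (by norm_num)
  have gT := h0.inner (μ := μ) gm8.snd2
  have hΦ' := hΦ.comp (measurable_fst (β := ι → ℝ)) measurable_id
  simp only [id] at hΦ'
  have mZ := h0.measurable_A1 (μ := μ) (hA.good_exp hD)
  refine gtilt_opt (A2_nonneg fun _ _ _ => sq_nonneg _) (exp_pos _) fun c hc => ?_
  have gR := (hΦ'.sq.good2.const_mul (2 * c)⁻¹).add
    (((gp8.fst2.add gp8.snd2).add (gT.fst2.const_mul 2)).const_mul (c / 8))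
  have pt : ∀ (ω : Ω × (ι → ℝ)) (σ σ' : S),
      exp (A ω.1 σ ⬝ᵥ ω.2 + D ω σ) / (∫ τ, exp (A ω.1 τ ⬝ᵥ ω.2 + D ω τ) ∂μ.tilted (H ω.1)) *
        (exp (A ω.1 σ' ⬝ᵥ ω.2 + D ω σ') / (∫ τ, exp (A ω.1 τ ⬝ᵥ ω.2 + D ω τ) ∂μ.tilted (H ω.1)) *
          |Φ ω.1 σ σ'|) ≤ (2 * c)⁻¹ * Φ ω.1 σ σ' ^ 2 + c / 8 *
        (exp (8 * (A ω.1 σ ⬝ᵥ ω.2 + D ω σ)) + exp (8 * (A ω.1 σ' ⬝ᵥ ω.2 + D ω σ')) +
          2 * ∫ τ, exp (-8 * (A ω.1 τ ⬝ᵥ ω.2 + D ω τ)) ∂μ.tilted (H ω.1)) := by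
    intro ω σ σ'
    have := h.isProb (μ := μ) ω.1
    obtain ⟨B, -, hB⟩ := hX.bdd
    obtain ⟨B', -, hB'⟩ := (hX.const_mul (-8)).bdd
    have j1 := integral_le_lZ (μ.tilted (H ω.1)) (hX.meas.comp measurable_prodMk_left) (hB ω)
    have j2 := integral_le_lZ (μ.tilted (H ω.1))
      ((hX.const_mul (-8)).meas.comp measurable_prodMk_left) (hB' ω)
    have p1 := integral_exp_pos ((hA.good_exp (P := P) hD).integrable_sec ω (μ.tilted (H ω.1)))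
    have p2 := integral_exp_pos (gm8.integrable_sec ω (μ.tilted (H ω.1)))
    simp only [Function.comp_def, lZ, integral_const_mul] at j1 j2
    rw [← exp_log p1]
    refine gtilt_point hc ?_
    rw [← exp_log p2, exp_le_exp]
    linarith
  have e1 : A2 (P.prod (gp ι)) μ (fun ω σ => H ω.1 σ + A ω.1 σ ⬝ᵥ ω.2 + D ω σ)
      (fun ω σ σ' => |Φ ω.1 σ σ'|) = A2 (P.prod (gp ι)) μ (fun ω σ => H ω.1 σ) fun ω σ σ' =>
      exp (A ω.1 σ ⬝ᵥ ω.2 + D ω σ) / (∫ τ, exp (A ω.1 τ ⬝ᵥ ω.2 + D ω τ) ∂μ.tilted (H ω.1)) *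
        (exp (A ω.1 σ' ⬝ᵥ ω.2 + D ω σ') / (∫ τ, exp (A ω.1 τ ⬝ᵥ ω.2 + D ω τ) ∂μ.tilted (H ω.1)) *
          |Φ ω.1 σ σ'|) := by
    unfold A2
    refine integral_congr_ae (.of_forall fun ω => ?_)
    simp only [add_assoc]
    rw [tilted_add h ω.1, integral_tilted]
    simp only [integral_tilted (μ := μ.tilted (H ω.1)), smul_eq_mul, integral_const_mul]
  have m1 : Measurable fun p : (Ω × (ι → ℝ)) × S × S => exp (A p.1.1 p.2.1 ⬝ᵥ p.1.2 + D p.1 p.2.1) :=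
    (hA.good_exp (P := P) hD).fst2.meas
  have m2 : Measurable fun p : (Ω × (ι → ℝ)) × S × S => exp (A p.1.1 p.2.2 ⬝ᵥ p.1.2 + D p.1 p.2.2) :=
    (hA.good_exp (P := P) hD).snd2.meas
  obtain ⟨B, iB, hB⟩ := gR.bdd
  rw [e1]
  refine (A2_mono h0 ⟨(m1.div (mZ.comp measurable_fst)).mul ((m2.div (mZ.comp measurable_fst)).mul
    hΦ'.abs.meas), B, iB, fun ω σ σ' => ?_⟩ gR pt).trans ?_
  · have z : 0 ≤ ∫ τ, exp (A ω.1 τ ⬝ᵥ ω.2 + D ω τ) ∂μ.tilted (H ω.1) :=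
      integral_nonneg fun _ => (exp_pos _).le
    rw [abs_of_nonneg (by positivity)]
    exact (pt ω σ σ').trans ((le_abs_self _).trans (hB ω σ σ'))
  · rw [A2_add h0 (hΦ'.sq.good2.const_mul _)
        (((gp8.fst2.add gp8.snd2).add (gT.fst2.const_mul 2)).const_mul _), A2_const_mul,
      A2_const_mul, A2_add h0 (gp8.fst2.add gp8.snd2) (gT.fst2.const_mul 2),
      A2_add h0 gp8.fst2 gp8.snd2, A2_const_mul, A2_fst h0, A2_snd h0, A2_fst h0,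
      A2_fst' h hΦ.sq.good2]
    have e2 : A1 (P.prod (gp ι)) μ (fun ω σ => H ω.1 σ) (fun ω _ =>
        ∫ σ', exp (-8 * (A ω.1 σ' ⬝ᵥ ω.2 + D ω σ')) ∂μ.tilted fun σ => H ω.1 σ) = _ :=
      A2_snd (μ := μ) (φ := fun ω σ => exp (-8 * (A ω.1 σ ⬝ᵥ ω.2 + D ω σ))) h0
    rw [e2, div_eq_inv_mul _ (2 * c)]
    linarith [mul_le_mul_of_nonneg_left mp8 hc.le, mul_le_mul_of_nonneg_left mm8 hc.le]

theorem A1_gtilt_le (h : Good P H) (hA : Feat A) (hV : ∀ ω σ, A ω σ ⬝ᵥ A ω σ ≤ V)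
    {D : Ω × (ι → ℝ) → S → ℝ} (hD : Bd1 D d) {φ : Ω → S → ℝ} (hφ : Bd1 φ C) :
    A1 (P.prod (gp ι)) μ (fun ω σ => H ω.1 σ + A ω.1 σ ⬝ᵥ ω.2 + D ω σ) (fun ω σ => |φ ω.1 σ|) ≤
      exp (4 * d + 16 * V) * √(A1 P μ H fun ω σ => φ ω σ ^ 2) := by
  have := A2_gtilt_le (μ := μ) h hA hV hD hφ.fst2
  rwa [A2_fst (((h.fst _).add hA.good).add hD.good), A2_fst h] at this

/-- a small compensated Gaussian field changes two-replica averages by `O(√V)` -/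
theorem A2_comp_close (h : Good P H) (hA : Feat A) (hV : ∀ ω σ, A ω σ ⬝ᵥ A ω σ ≤ V) (hV1 : V ≤ 1)
    {Φ : Ω → S → S → ℝ} (hΦ : Bd2 Φ C) :
    |A2 (P.prod (gp ι)) μ (fun ω σ => H ω.1 σ + A ω.1 σ ⬝ᵥ ω.2 - A ω.1 σ ⬝ᵥ A ω.1 σ / 2)
        (fun ω σ σ' => Φ ω.1 σ σ') - A2 P μ H Φ| ≤ 6 * C * √V := by
  have h0 := h.fst (gp ι)
  obtain ⟨C', hC'⟩ := hA.bd1 hA
  have b1 := hC'.const_mul (-(1 / 2))
  have b2 := hC'.const_mul (-1)
  have hA2 := hA.bd_smul (Bd1.const 2)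
  have hD := b1.comp (measurable_fst (β := ι → ℝ)) measurable_id
  have gE := hA.good_exp (P := P) hD
  have gE2 := hA2.good_exp (P := P) (b2.comp (measurable_fst (β := ι → ℝ)) measurable_id)
  have hΦ' := hΦ.comp (measurable_fst (β := ι → ℝ)) measurable_id
  have t := A2_tilt_close (μ := μ) h0 (hA.good.add hD.good) gE hΦ'
  have hC : 0 ≤ C := (abs_nonneg _).trans (abs_A2_le_bd (μ := μ) h hΦ)
  have hV0 : 0 ≤ V := by
    obtain ⟨ω⟩ := nonempty_of_isProbabilityMeasure P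
    obtain ⟨σ⟩ := nonempty_of_isProbabilityMeasure μ
    exact (Finset.sum_nonneg fun i _ => mul_self_nonneg _).trans (hV ω σ)
  have m1 := gtilt_exp (μ := μ) h hA b1
  have m2 := gtilt_exp_le (μ := μ) h hA2 b2 (c := V) fun ω σ => by
    rw [smul_dotProduct, dotProduct_smul, smul_eq_mul, smul_eq_mul]
    linarith [hV ω σ]
  have m3 := (abs_le.1 (Real.abs_exp_sub_one_le (x := V) (by rwa [abs_of_nonneg hV0]))).2
  rw [abs_of_nonneg hV0] at m3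
  simp only [id] at gE gE2 t
  have m1' : (fun ω σ => exp (A ω σ ⬝ᵥ A ω σ / 2 + -(1 / 2) * (A ω σ ⬝ᵥ A ω σ))) =
      fun _ _ => (1 : ℝ) := by
    funext ω σ
    rw [exp_eq_one_iff]; ring
  rw [m1', A1_const h] at m1
  have key := gtilt_opt (x := A1 (P.prod (gp ι)) μ (fun ω σ => H ω.1 σ) fun ω σ =>
    |exp (A ω.1 σ ⬝ᵥ ω.2 + -(1 / 2) * (A ω.1 σ ⬝ᵥ A ω.1 σ)) - 1|) hV0 (M := 3 / 2) (by norm_num)
    fun c hc => by
      have gR1 := ((gE2.sub (gE.const_mul 2)).add (Good.const 1)).const_mul (4 * c)⁻¹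
      refine (A1_mono h0 (gE.sub (Good.const 1)).abs (gR1.add (Good.const c)) fun ω σ => ?_).trans ?_
      · have e : exp (((2 : ℝ) • A ω.1 σ) ⬝ᵥ ω.2 + -1 * (A ω.1 σ ⬝ᵥ A ω.1 σ)) =
            exp (A ω.1 σ ⬝ᵥ ω.2 + -(1 / 2) * (A ω.1 σ ⬝ᵥ A ω.1 σ)) ^ 2 := by
          rw [pow_two, ← exp_add, smul_dotProduct, smul_eq_mul]; congr 1; ring
        rw [e]
        generalize exp (A ω.1 σ ⬝ᵥ ω.2 + -(1 / 2) * (A ω.1 σ ⬝ᵥ A ω.1 σ)) = y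
        have e1 : (4 * c)⁻¹ * (|y - 1| - 2 * c) ^ 2 =
            (4 * c)⁻¹ * |y - 1| ^ 2 + c - |y - 1| := by field_simp; ring
        have e2 : 0 ≤ (4 * c)⁻¹ * (|y - 1| - 2 * c) ^ 2 := by positivity
        rw [sq_abs] at e1
        linarith
      · rw [A1_add h0 gR1 (Good.const c), A1_const_mul, A1_add h0 (gE2.sub (gE.const_mul 2))
          (Good.const 1), A1_sub h0 gE2 (gE.const_mul 2), A1_const_mul, A1_const h0, A1_const h0, m1]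
        have e1 : V / (2 * c) = (4 * c)⁻¹ * (2 * V) := by field_simp; norm_num
        have e2 := mul_le_mul_of_nonneg_left (m2.trans (sub_le_iff_le_add.1 m3))
          (show 0 ≤ (4 * c)⁻¹ by positivity)
        linarith
  rw [A2_fst' h hΦ.good2] at t
  have e : (fun (ω : Ω × (ι → ℝ)) σ => H ω.1 σ + A ω.1 σ ⬝ᵥ ω.2 - A ω.1 σ ⬝ᵥ A ω.1 σ / 2) =
      fun ω σ => H ω.1 σ + (A ω.1 σ ⬝ᵥ ω.2 + -(1 / 2) * (A ω.1 σ ⬝ᵥ A ω.1 σ)) := by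
    funext ω σ; ring
  rw [e]
  linarith [mul_le_mul_of_nonneg_left key hC]

end P157
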