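import Vale.Agent.P157.Interp
import Vale.Agent.P157.GTilt

/-! P157 InterpCor: the four ways in which the interpolation is used.
Plan: apply `interp_le` and `interp_ge`. `interp_nonlin`: `F = H + G`, `κ = 0`; the tilt `G` is
bounded by `K`, so `A2_tilt_le` and `A2_fst'` bound the error. `interp_sup`: `F y = H + y`,
`κ = -(C₁σσ - C₀σσ)/2` is bounded by `τ/2` (`abs_FE_sub_le`). `interp_lin`: `F y = H - C₀σσ/2 + y`,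
same `κ`; apply `A2_gtilt_le` twice (once for each Gaussian family; the first application gives a
square root, so bound `A2 |Φ|` on the product space by writing the interpolating field as one field on
the index set `ι₁ ⊕ ι₀` via `measurePreserving_sumPiEquivProdPi_symm` and `A2_comp`, with
`V` unchanged and `d = V/2`). `interp_small`: `A₀ = 0` on `ι₀ = Empty` (or `Unit`),
`A₁ = √u • A`; at angle `θ` the field is `sin θ √u A`, use `A2_comp_close` (after dropping the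
unused factor).
-/

open MeasureTheory ProbabilityTheory Real
open scoped BigOperators Matrix

namespace P157

variable {Ω S : Type} [MeasurableSpace Ω] [MeasurableSpace S] {P : Measure Ω}
  [IsProbabilityMeasure P] {μ : Measure S} [IsProbabilityMeasure μ]

variable {H : Ω → S → ℝ} {ι₁ ι₀ : Type} [Fintype ι₁] [Fintype ι₀]
  {A₁ : Ω → S → ι₁ → ℝ} {A₀ : Ω → S → ι₀ → ℝ}

theorem ic_dot_nonneg {ι : Type} [Fintype ι] (a : ι → ℝ) : 0 ≤ a ⬝ᵥ a :=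
  Finset.sum_nonneg fun _ _ => mul_self_nonneg _

theorem ic_abs_dot {ι : Type} [Fintype ι] {a b : ι → ℝ} {V : ℝ} (ha : a ⬝ᵥ a ≤ V)
    (hb : b ⬝ᵥ b ≤ V) : |a ⬝ᵥ b| ≤ V := by
  have h1 := ic_dot_nonneg (a + b)
  have h2 := ic_dot_nonneg (a - b)
  simp only [add_dotProduct, dotProduct_add, sub_dotProduct, dotProduct_sub,
    dotProduct_comm b a] at h1 h2
  rw [abs_le]
  constructor <;> linarith

theorem ic_two {F F' F'' : Ω → S → ℝ → ℝ} {K Cκ : ℝ} {κ : Ω → S → ℝ} (hF : C2F P F F' F'' K)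
    (h₁ : Feat A₁) (h₀ : Feat A₀) (hκ : Bd1 κ Cκ)
    (hself : ∀ ω σ y, (F'' ω σ y + F' ω σ y ^ 2) * (A₁ ω σ ⬝ᵥ A₁ ω σ - A₀ ω σ ⬝ᵥ A₀ ω σ)
      + 2 * κ ω σ = 0) {c e : ℝ}
    (hc : ∀ θ : ℝ, |-(1 / 2) * A2 ((P.prod (gp ι₁)).prod (gp ι₀)) μ (iH F κ A₁ A₀ θ)
        (fun ω σ σ' => F' ω.1.1 σ (iY A₁ A₀ θ ω σ) * F' ω.1.1 σ' (iY A₁ A₀ θ ω σ') *
          (A₁ ω.1.1 σ ⬝ᵥ A₁ ω.1.1 σ' - A₀ ω.1.1 σ ⬝ᵥ A₀ ω.1.1 σ')) - c| ≤ e) :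
    |FE (P.prod (gp ι₁)) μ (fun ω σ => F ω.1 σ (A₁ ω.1 σ ⬝ᵥ ω.2) + κ ω.1 σ) -
      FE (P.prod (gp ι₀)) μ (fun ω σ => F ω.1 σ (A₀ ω.1 σ ⬝ᵥ ω.2)) - c| ≤ e := by
  have h1 := interp_le (μ := μ) hF h₁ h₀ hκ hself (c := c + e) fun θ _ => by
    linarith [(abs_le.1 (hc θ)).2]
  have h2 := interp_ge (μ := μ) hF h₁ h₀ hκ hself (c := c - e) fun θ _ => by
    linarith [(abs_le.1 (hc θ)).1]
  rw [abs_le]
  constructor <;> linarith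

theorem ic_bd (h₁ : Feat A₁) (h₀ : Feat A₀) :
    ∃ C, Bd2 (fun ω σ σ' => A₁ ω σ ⬝ᵥ A₁ ω σ' - A₀ ω σ ⬝ᵥ A₀ ω σ') C := by
  obtain ⟨C, hC⟩ := h₁.bd2 h₁
  obtain ⟨C', hC'⟩ := h₀.bd2 h₀
  exact ⟨_, hC.sub hC'⟩

theorem ic_meas_iY (h₁ : Feat A₁) (h₀ : Feat A₀) (θ : ℝ) :
    Measurable fun p : ((Ω × (ι₁ → ℝ)) × (ι₀ → ℝ)) × S => iY A₁ A₀ θ p.1 p.2 := by
  refine Measurable.add (Measurable.const_mul (Finset.measurable_sum _ fun c _ => ?_) _)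
    (Measurable.const_mul (Finset.measurable_sum _ fun c _ => ?_) _)
  · exact ((h₁.meas c).comp (measurable_fst.fst.fst.prodMk measurable_snd)).mul
      ((measurable_pi_apply c).comp measurable_fst.fst.snd)
  · exact ((h₀.meas c).comp (measurable_fst.fst.fst.prodMk measurable_snd)).mul
      ((measurable_pi_apply c).comp measurable_fst.snd)

theorem ic_lin (h : Good P H) : C2F P (fun ω σ y => H ω σ + y) (fun _ _ _ => 1) (fun _ _ _ => 0) 1 where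
  m0 := (h.meas.comp (measurable_fst.prodMk measurable_snd.fst)).add measurable_snd.snd
  m1 := measurable_const
  m2 := measurable_const
  d1 := fun ω σ y => (hasDerivAt_id y).const_add _
  d2 := fun ω σ y => hasDerivAt_const _ _
  b1 := fun _ _ _ => by simp
  b2 := fun _ _ _ => by simp
  g0 := h.add (Good.const 0)

theorem ic_kappa (h₁ : Feat A₁) (h₀ : Feat A₀) :
    ∃ C, Bd1 (fun ω σ => -(1 / 2) * (A₁ ω σ ⬝ᵥ A₁ ω σ - A₀ ω σ ⬝ᵥ A₀ ω σ)) C := by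
  obtain ⟨C, hC⟩ := h₁.bd1 h₁
  obtain ⟨C', hC'⟩ := h₀.bd1 h₀
  exact ⟨_, (hC.sub hC').const_mul _⟩

theorem ic_mp : MeasurePreserving
    (fun ω : (Ω × (ι₁ → ℝ)) × (ι₀ → ℝ) => (ω.1.1, (Sum.elim ω.1.2 ω.2 : ι₁ ⊕ ι₀ → ℝ)))
    ((P.prod (gp ι₁)).prod (gp ι₀)) (P.prod (gp (ι₁ ⊕ ι₀))) := by
  have h1 := measurePreserving_sumPiEquivProdPi_symm (X := fun _ : ι₁ ⊕ ι₀ => ℝ)
    (fun _ => gaussianReal 0 1)
  have h2 := ((MeasurePreserving.id P).prod h1).comp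
    (measurePreserving_prodAssoc P (gp ι₁) (gp ι₀))
  convert h2 using 1
  funext ω
  refine Prod.ext rfl (funext fun c => ?_)
  rcases c with c | c <;> rfl

theorem ic_lin_core (h : Good P H) (h₁ : Feat A₁) (h₀ : Feat A₀) {V : ℝ}
    (hV₁ : ∀ ω σ, A₁ ω σ ⬝ᵥ A₁ ω σ ≤ V) (hV₀ : ∀ ω σ, A₀ ω σ ⬝ᵥ A₀ ω σ ≤ V) {c e : ℝ}
    (hc : ∀ A : Ω → S → ι₁ ⊕ ι₀ → ℝ, Feat A → (∀ ω σ, A ω σ ⬝ᵥ A ω σ ≤ V) →
      |-(1 / 2) * A2 (P.prod (gp (ι₁ ⊕ ι₀))) μ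
        (fun ω σ => H ω.1 σ + A ω.1 σ ⬝ᵥ ω.2 - A ω.1 σ ⬝ᵥ A ω.1 σ / 2)
        (fun ω σ σ' => A₁ ω.1 σ ⬝ᵥ A₁ ω.1 σ' - A₀ ω.1 σ ⬝ᵥ A₀ ω.1 σ') - c| ≤ e) :
    |FE (P.prod (gp ι₁)) μ (fun ω σ => H ω.1 σ + A₁ ω.1 σ ⬝ᵥ ω.2 - A₁ ω.1 σ ⬝ᵥ A₁ ω.1 σ / 2) -
      FE (P.prod (gp ι₀)) μ (fun ω σ => H ω.1 σ + A₀ ω.1 σ ⬝ᵥ ω.2 - A₀ ω.1 σ ⬝ᵥ A₀ ω.1 σ / 2)
      - c| ≤ e := by
  obtain ⟨C₀, hC₀⟩ := h₀.bd1 h₀
  obtain ⟨Cκ, hκ⟩ := ic_kappa h₁ h₀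
  obtain ⟨C, hC⟩ := ic_bd h₁ h₀
  have hH : Good P fun ω σ => H ω σ + -(1 / 2) * (A₀ ω σ ⬝ᵥ A₀ ω σ) :=
    h.add (hC₀.const_mul _).good
  have key := ic_two (μ := μ) (ic_lin hH) h₁ h₀ hκ (fun ω σ y => by ring) (c := c) (e := e) ?_
  · convert key using 5
    · funext ω σ
      ring
    · funext ω σ
      ring
  intro θ
  obtain ⟨A, hA⟩ : ∃ A : Ω → S → ι₁ ⊕ ι₀ → ℝ,
      A = fun ω σ => Sum.elim (sin θ • A₁ ω σ) (cos θ • A₀ ω σ) := ⟨_, rfl⟩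
  have hAf : Feat A := by
    have f1 := h₁.bd_smul (Bd1.const (sin θ))
    have f0 := h₀.bd_smul (Bd1.const (cos θ))
    obtain ⟨C1, b1⟩ := f1.bdd
    obtain ⟨C0, b0⟩ := f0.bdd
    subst hA
    refine ⟨fun c => ?_, max C1 C0, fun ω σ c => ?_⟩
    · rcases c with c | c
      exacts [f1.meas c, f0.meas c]
    · rcases c with c | c
      exacts [(b1 ω σ c).trans (le_max_left _ _), (b0 ω σ c).trans (le_max_right _ _)]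
  have hAA : ∀ ω σ, A ω σ ⬝ᵥ A ω σ =
      sin θ ^ 2 * (A₁ ω σ ⬝ᵥ A₁ ω σ) + cos θ ^ 2 * (A₀ ω σ ⬝ᵥ A₀ ω σ) := fun ω σ => by
    simp only [hA, sumElim_dotProduct_sumElim, smul_dotProduct, dotProduct_smul, smul_eq_mul]
    ring
  have hAV : ∀ ω σ, A ω σ ⬝ᵥ A ω σ ≤ V := fun ω σ => by
    rw [hAA]
    have e : V = sin θ ^ 2 * V + cos θ ^ 2 * V := by
      linear_combination (-V) * sin_sq_add_cos_sq θ
    linarith [mul_le_mul_of_nonneg_left (hV₁ ω σ) (sq_nonneg (sin θ)),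
      mul_le_mul_of_nonneg_left (hV₀ ω σ) (sq_nonneg (cos θ))]
  obtain ⟨CA, hCA⟩ := hAf.bd1 hAf
  have hG : Good (P.prod (gp (ι₁ ⊕ ι₀)))
      (fun ω σ => H ω.1 σ + A ω.1 σ ⬝ᵥ ω.2 - A ω.1 σ ⬝ᵥ A ω.1 σ / 2) :=
    ((h.fst _).add hAf.good).sub (by
      simpa only [div_eq_inv_mul] using ((hCA.const_mul 2⁻¹).good.fst (P := P) _))
  have h1 := A2_comp (μ := μ) hG (hC.comp measurable_fst measurable_id).good2 ic_mp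
    (MeasurePreserving.id μ)
  have h2 := hc A hAf hAV
  simp only [id] at h1
  rw [← h1] at h2
  convert h2 using 5
  · funext ω σ
    simp only [iH, iY, hAA]
    simp only [hA, sumElim_dotProduct_sumElim, smul_dotProduct, smul_eq_mul]
    linear_combination (A₀ ω.1.1 σ ⬝ᵥ A₀ ω.1.1 σ / 2) * sin_sq_add_cos_sq θ
  · funext ω σ σ'
    simp

theorem interp_nonlin (h : Good P H) {G G' G'' : Ω → S → ℝ → ℝ} {K : ℝ} (hG : C2F P G G' G'' K)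
    (hb : ∀ ω σ y, |G ω σ y| ≤ K) (h₁ : Feat A₁) (h₀ : Feat A₀)
    (hself : ∀ ω σ, A₁ ω σ ⬝ᵥ A₁ ω σ = A₀ ω σ ⬝ᵥ A₀ ω σ) :
    |FE (P.prod (gp ι₁)) μ (fun ω σ => H ω.1 σ + G ω.1 σ (A₁ ω.1 σ ⬝ᵥ ω.2)) -
      FE (P.prod (gp ι₀)) μ (fun ω σ => H ω.1 σ + G ω.1 σ (A₀ ω.1 σ ⬝ᵥ ω.2))| ≤
      K ^ 2 * exp (4 * K) / 2 *
        A2 P μ H (fun ω σ σ' => |A₁ ω σ ⬝ᵥ A₁ ω σ' - A₀ ω σ ⬝ᵥ A₀ ω σ'|) := by
  have hF : C2F P (fun ω σ y => H ω σ + G ω σ y) G' G'' K :=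
    ⟨(h.meas.comp (measurable_fst.prodMk measurable_snd.fst)).add hG.m0, hG.m1, hG.m2,
      fun ω σ y => (hG.d1 ω σ y).const_add _, hG.d2, hG.b1, hG.b2, h.add hG.g0⟩
  obtain ⟨C, hC⟩ := ic_bd h₁ h₀
  have key := ic_two (μ := μ) hF h₁ h₀ (Bd1.const 0) (fun ω σ y => by rw [hself]; ring) (c := 0)
    (e := K ^ 2 * exp (4 * K) / 2 *
      A2 P μ H (fun ω σ σ' => |A₁ ω σ ⬝ᵥ A₁ ω σ' - A₀ ω σ ⬝ᵥ A₀ ω σ'|)) ?_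
  · simpa only [add_zero, sub_zero] using key
  intro θ
  have hg := iH_good hF h₁ h₀ (Bd1.const 0) θ
  have hb1 := (hF.bd1 (e := fun ω : (Ω × (ι₁ → ℝ)) × (ι₀ → ℝ) => ω.1.1) measurable_fst.fst
    (ic_meas_iY h₁ h₀ θ)).1
  have hC' := hC.comp (e := fun ω : (Ω × (ι₁ → ℝ)) × (ι₀ → ℝ) => ω.1.1) measurable_fst.fst
    measurable_id
  have hΦ := (hb1.fst2.mul hb1.snd2).mul hC'
  have h1 := abs_A2_le (μ := μ) hg hΦ.good2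
  have h2 := A2_mono (μ := μ) hg hΦ.good2.abs (hC'.abs.const_mul (K ^ 2)).good2
    fun ω σ σ' => by
      rw [abs_mul, sq]
      exact mul_le_mul_of_nonneg_right (gb_mul (hb1.bdd ω σ) (hb1.bdd ω σ')) (abs_nonneg _)
  rw [A2_const_mul] at h2
  have hD : Bd1 (fun (ω : (Ω × (ι₁ → ℝ)) × (ι₀ → ℝ)) σ => G ω.1.1 σ (iY A₁ A₀ θ ω σ)) K :=
    ⟨hG.m0.comp (measurable_fst.fst.fst.prodMk (measurable_snd.prodMk (ic_meas_iY h₁ h₀ θ))),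
      fun ω σ => hb _ _ _⟩
  have h3 := A2_tilt_le (μ := μ) ((h.fst (gp ι₁)).fst (gp ι₀)) hD hC'.abs.good2
    fun _ _ _ => abs_nonneg _
  have h4 := A2_fst' (μ := μ) (P' := gp ι₀) (h.fst (gp ι₁))
    (hC.comp measurable_fst measurable_id).abs.good2
  have h5 := A2_fst' (μ := μ) (P' := gp ι₁) h hC.abs.good2
  have h6 : iH (fun ω σ y => H ω σ + G ω σ y) (fun _ _ => 0) A₁ A₀ θ =
      fun ω σ => H ω.1.1 σ + G ω.1.1 σ (iY A₁ A₀ θ ω σ) := by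
    funext ω σ
    simp [iH]
  simp only [id] at h1 h2 h3 h4
  rw [h4, h5, ← h6] at h3
  have h7 := (h1.trans h2).trans (mul_le_mul_of_nonneg_left h3 (sq_nonneg K))
  rw [sub_zero, abs_mul, abs_neg, abs_of_pos (by norm_num : (0 : ℝ) < 1 / 2)]
  linarith

theorem interp_sup (h : Good P H) (h₁ : Feat A₁) (h₀ : Feat A₀) {τ : ℝ}
    (hτ : ∀ ω σ σ', |A₁ ω σ ⬝ᵥ A₁ ω σ' - A₀ ω σ ⬝ᵥ A₀ ω σ'| ≤ τ) :
    |FE (P.prod (gp ι₁)) μ (fun ω σ => H ω.1 σ + A₁ ω.1 σ ⬝ᵥ ω.2) -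
      FE (P.prod (gp ι₀)) μ (fun ω σ => H ω.1 σ + A₀ ω.1 σ ⬝ᵥ ω.2)| ≤ τ := by
  obtain ⟨Cκ, hκ⟩ := ic_kappa h₁ h₀
  obtain ⟨C, hC⟩ := ic_bd h₁ h₀
  have key := ic_two (μ := μ) (ic_lin h) h₁ h₀ hκ (fun ω σ y => by ring) (c := 0) (e := τ / 2) ?_
  · have hg : Good (P.prod (gp ι₁)) fun ω σ => H ω.1 σ + A₁ ω.1 σ ⬝ᵥ ω.2 := (h.fst _).add h₁.good
    have h1 := abs_FE_sub_le (μ := μ) hg (hg.add (hκ.good.fst _)) (d := τ / 2) fun ω σ => by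
      rw [add_sub_cancel_left, abs_mul, abs_neg, abs_of_pos (by norm_num : (0 : ℝ) < 1 / 2)]
      linarith [hτ ω.1 σ σ]
    rw [abs_le] at key h1 ⊢
    constructor <;> linarith [key.1, key.2, h1.1, h1.2]
  intro θ
  have hC' : Bd2 (fun (ω : (Ω × (ι₁ → ℝ)) × (ι₀ → ℝ)) σ σ' => (1 : ℝ) * 1 *
      (A₁ ω.1.1 σ ⬝ᵥ A₁ ω.1.1 σ' - A₀ ω.1.1 σ ⬝ᵥ A₀ ω.1.1 σ')) τ :=
    ⟨((hC.comp measurable_fst.fst measurable_id).const_mul (1 * 1)).meas,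
      fun ω σ σ' => by simpa using hτ _ _ _⟩
  have h1 := abs_A2_le_bd (μ := μ) (iH_good (ic_lin h) h₁ h₀ hκ θ) hC'
  rw [sub_zero, abs_mul, abs_neg, abs_of_pos (by norm_num : (0 : ℝ) < 1 / 2)]
  linarith

theorem interp_lin (h : Good P H) (h₁ : Feat A₁) (h₀ : Feat A₀) {V : ℝ}
    (hV₁ : ∀ ω σ, A₁ ω σ ⬝ᵥ A₁ ω σ ≤ V) (hV₀ : ∀ ω σ, A₀ ω σ ⬝ᵥ A₀ ω σ ≤ V) :
    |FE (P.prod (gp ι₁)) μ (fun ω σ => H ω.1 σ + A₁ ω.1 σ ⬝ᵥ ω.2 - A₁ ω.1 σ ⬝ᵥ A₁ ω.1 σ / 2) -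
      FE (P.prod (gp ι₀)) μ (fun ω σ => H ω.1 σ + A₀ ω.1 σ ⬝ᵥ ω.2 - A₀ ω.1 σ ⬝ᵥ A₀ ω.1 σ / 2)| ≤
      exp (20 * V) *
        √(A2 P μ H fun ω σ σ' => (A₁ ω σ ⬝ᵥ A₁ ω σ' - A₀ ω σ ⬝ᵥ A₀ ω σ') ^ 2) := by
  obtain ⟨C, hC⟩ := ic_bd h₁ h₀
  obtain ⟨ω₀⟩ := nonempty_of_isProbabilityMeasure P
  obtain ⟨σ₀⟩ := nonempty_of_isProbabilityMeasure μ
  have hV : 0 ≤ V := (ic_dot_nonneg _).trans (hV₁ ω₀ σ₀)
  have key := ic_lin_core (μ := μ) h h₁ h₀ hV₁ hV₀ (c := 0) (e := exp (20 * V) *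
    √(A2 P μ H fun ω σ σ' => (A₁ ω σ ⬝ᵥ A₁ ω σ' - A₀ ω σ ⬝ᵥ A₀ ω σ') ^ 2)) ?_
  · rwa [sub_zero] at key
  intro A hA hAV
  obtain ⟨CA, hCA⟩ := hA.bd1 hA
  have hD : Bd1 (fun (ω : Ω × (ι₁ ⊕ ι₀ → ℝ)) σ => -(A ω.1 σ ⬝ᵥ A ω.1 σ / 2)) (V / 2) :=
    ⟨((hCA.comp measurable_fst measurable_id).meas.div_const 2).neg, fun ω σ => by
      rw [abs_neg, abs_div, abs_two]
      linarith [ic_abs_dot (hAV ω.1 σ) (hAV ω.1 σ)]⟩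
  have h1 := A2_gtilt_le (μ := μ) h hA hAV hD hC
  have h2 := abs_A2_le (μ := μ) (((h.fst _).add hA.good).add hD.good)
    (hC.comp (e := fun ω : Ω × (ι₁ ⊕ ι₀ → ℝ) => ω.1) measurable_fst measurable_id).good2
  simp only [id, ← sub_eq_add_neg] at h1 h2
  have h3 : exp (4 * (V / 2) + 16 * V) ≤ exp (20 * V) := exp_le_exp.2 (by linarith)
  have h4 := (h2.trans h1).trans (mul_le_mul_of_nonneg_right h3 (sqrt_nonneg _))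
  rw [sub_zero, abs_mul, abs_neg, abs_of_pos (by norm_num : (0 : ℝ) < 1 / 2)]
  linarith [abs_nonneg (A2 (P.prod (gp (ι₁ ⊕ ι₀))) μ
    (fun ω σ => H ω.1 σ + A ω.1 σ ⬝ᵥ ω.2 - A ω.1 σ ⬝ᵥ A ω.1 σ / 2)
    (fun ω σ σ' => A₁ ω.1 σ ⬝ᵥ A₁ ω.1 σ' - A₀ ω.1 σ ⬝ᵥ A₀ ω.1 σ'))]

theorem interp_small (h : Good P H) (h₁ : Feat A₁) {V u : ℝ} (hV : ∀ ω σ, A₁ ω σ ⬝ᵥ A₁ ω σ ≤ V)
    (hu : 0 ≤ u) (huV : u * V ≤ 1) :
    |FE (P.prod (gp ι₁)) μ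
        (fun ω σ => H ω.1 σ + √u * (A₁ ω.1 σ ⬝ᵥ ω.2) - u * (A₁ ω.1 σ ⬝ᵥ A₁ ω.1 σ) / 2) - FE P μ H
      + u / 2 * A2 P μ H (fun ω σ σ' => A₁ ω σ ⬝ᵥ A₁ ω σ')| ≤ 3 * (V * √V) * (u * √u) := by
  obtain ⟨ω₀⟩ := nonempty_of_isProbabilityMeasure P
  obtain ⟨σ₀⟩ := nonempty_of_isProbabilityMeasure μ
  have hV0 : 0 ≤ V := (ic_dot_nonneg _).trans (hV ω₀ σ₀)
  have f1 := h₁.bd_smul (Bd1.const √u)
  have f0 : Feat fun (_ : Ω) (_ : S) => (0 : Empty → ℝ) :=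
    ⟨fun c => c.elim, 0, fun _ _ c => c.elim⟩
  have e1 : ∀ a b : ι₁ → ℝ, (√u • a) ⬝ᵥ (√u • b) = u * (a ⬝ᵥ b) := fun a b => by
    rw [smul_dotProduct, dotProduct_smul, smul_eq_mul, smul_eq_mul, ← mul_assoc,
      mul_self_sqrt hu]
  obtain ⟨C, hC⟩ := h₁.bd2 h₁
  have hΦ : Bd2 (fun ω σ σ' => u * (A₁ ω σ ⬝ᵥ A₁ ω σ')) (u * V) :=
    ⟨(hC.const_mul u).meas, fun ω σ σ' => by
      rw [abs_mul, abs_of_nonneg hu]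
      exact mul_le_mul_of_nonneg_left (ic_abs_dot (hV ω σ) (hV ω σ')) hu⟩
  have key := ic_lin_core (μ := μ) h f1 f0 (V := u * V)
    (fun ω σ => by rw [e1]; exact mul_le_mul_of_nonneg_left (hV ω σ) hu)
    (fun ω σ => by simpa using mul_nonneg hu hV0)
    (c := -(u / 2 * A2 P μ H (fun ω σ σ' => A₁ ω σ ⬝ᵥ A₁ ω σ'))) (e := 3 * (V * √V) * (u * √u)) ?_
  · simp only [e1, smul_dotProduct, smul_eq_mul, zero_dotProduct, add_zero, zero_div, sub_zero,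
      sub_neg_eq_add] at key
    rwa [FE_fst h] at key
  intro A hA hAV
  have h1 := A2_comp_close (μ := μ) h hA hAV huV hΦ
  simp only [e1, zero_dotProduct, sub_zero]
  rw [A2_const_mul (P := P), sqrt_mul hu, abs_le] at h1
  rw [abs_le]
  constructor <;> nlinarith [h1.1, h1.2]

end P157
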