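import Vale.Agent.P157.R12
import Vale.Agent.P157.InterpCor

/-! P157 Grad: how the recursion depends on the path.
Plan (`grad_le`, `grad_ge`): for any `τ > 0` take the pure cascade with `L` large (`ac_pure`, `r12`)
and apply `interp_le` with `F u ω y = lw m u ω + F y`, `κ = -d/2`, `A_i = tfeat (wq s_i)`
(`tfeat_wq`, `tf_eq_dot`). At angle `θ` the field is `tf (sin θ • wq s₁) g₁ + tf (cos θ • wq s₀) g₀`
(`tf_smul`); write `(s₁ - s₀)(cj) = ∑ j, inc (s₁-s₀) j * ind j` (`eq_sum_ind`), use the two-replica part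
of `r12` with `X y = F (y.1+y.2)`, `E2_r2_add`, `gw_congr`, `pair_eq_sum_tail`; the endpoints are
handled by `AC.one` and `parisi_eq_Rec`. `psi0_mono`: `pair_sub_le` with the path `e1` (`e1_isPath`).
`tail_cont`: in the pure cascade with `w₁ = wq s`, `w₂ = √u 1_{j'}` compare `X = lc (y₁+y₂)` with
`X = lc y₁`; the Hamiltonians differ by `D` with `|D| ≤ √u |g|`; use `A2_tilt_close`, `A1_prod`,
`E (exp (a|g|) - 1) ≤ C a` for `a ≤ 1`, `|tanh (a+b) - tanh a| ≤ |b|`, and `r12` for both.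
`spin_expand`: `grad_le`/`grad_ge` along the segment `bump s (τ u) j` (`pair` with `u 1_{≥ j}` is
`u * tail`), and `tail_cont` (for the second statement note `bump s u j = bump (bump s v j) (u-v) j`).
-/

open MeasureTheory ProbabilityTheory Real
open scoped BigOperators Matrix

namespace P157


variable {k : ℕ} {m : ℕ → ℝ}

theorem gr_tail_congr {e e' : ℕ → ℝ} (h : ∀ i ≤ k, e i = e' i) (j : ℕ) :
    tail k m e j = tail k m e' j :=
  Finset.sum_congr rfl fun i hi => by rw [h i (Finset.mem_Icc.1 hi).2]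

theorem gr_tail_add (hk : IsPartition k m) {F φ : ℝ → ℝ} {C : ℝ} (hF : Env F C) (hφ : Measurable φ)
    {w₁ w₂ q : ℕ → ℝ} (h : ∀ j ≤ k, w₁ j ^ 2 + w₂ j ^ 2 = inc q j) (j : ℕ) :
    tail k m (E2 m (r2 w₁ w₂) (fun y => F (y.1 + y.2)) (fun y => φ (y.1 + y.2)) k) j =
      tail k m (e1 k m q F φ) j :=
  gr_tail_congr (fun i hi => by
    rw [E2_r2_add hk hF hφ hi]
    exact E2_congr hi fun l hl => ⟨rfl, by rw [h l hl]; rfl⟩) j

theorem gr_tail_fst (hk : IsPartition k m) {F φ : ℝ → ℝ} {C : ℝ} (hF : Env F C) (hφ : Measurable φ)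
    (q w : ℕ → ℝ) (j : ℕ) :
    tail k m (E2 m (r2 (wq q) w) (fun y => F y.1) (fun y => φ y.1) k) j =
      tail k m (e1 k m q F φ) j :=
  gr_tail_congr (fun i hi => by rw [E2_r2_fst hk hF hφ hi]; rfl) j

theorem gr_env_add {F : ℝ → ℝ} {C : ℝ} (hF : Env F C) :
    Env (fun y : ℝ × ℝ => F (y.1 + y.2)) (C * 2) :=
  hF.comp (q := fun y : ℝ × ℝ => y.1 + y.2) (measurable_fst.add measurable_snd) one_le_two
    fun y y' => by
    have h1 := norm_fst_le (y - y')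
    have h2 := norm_snd_le (y - y')
    have h3 := norm_add_le (y - y').1 (y - y').2
    rw [show y.1 + y.2 - (y'.1 + y'.2) = (y - y').1 + (y - y').2 by simp; ring]
    linarith

theorem gr_inc_lin (a b : ℝ) (s₀ s₁ : ℕ → ℝ) (j : ℕ) :
    inc (fun i => a * s₀ i + b * s₁ i) j = a * inc s₀ j + b * inc s₁ j := by
  cases j with
  | zero => rfl
  | succ j => simp only [inc]; ring

theorem gr_wq {s : ℕ → ℝ} (h : IsPath k s) {B : ℝ} (h1 : 1 ≤ B) (hB : s k ≤ B) {c : ℝ} (hc : |c| ≤ 1)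
    {j : ℕ} (hj : j ≤ k) : |c * wq s j| ≤ B := by
  have := abs_wq_le h (R := B) (by nlinarith) (by linarith) hj
  rw [abs_mul]
  nlinarith [abs_nonneg (wq s j), abs_nonneg c]

theorem grad_core (hk : IsPartition k m) {F : ℝ → ℝ} {K : ℝ} (hF : C2d F K) {s₀ s₁ : ℕ → ℝ}
    (h₀ : IsPath k s₀) (h₁ : IsPath k s₁) {d : ℝ}
    (hd : ∀ y, (deriv (deriv F) y + deriv F y ^ 2) * (s₁ k - s₀ k) = d) {τ : ℝ} (hτ : 0 < τ) :
    ∃ (x : ℝ) (a : ℝ → ℝ), |x - (parisi k m s₁ F - parisi k m s₀ F - d / 2)| ≤ τ ∧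
      (∀ θ, |a θ - -(1 / 2) * pair k m (e1 k m (fun i => (1 - sin θ ^ 2) * s₀ i + sin θ ^ 2 * s₁ i)
        F (deriv F)) (fun i => s₁ i - s₀ i)| ≤ τ) ∧
      (∀ c, (∀ θ, a θ ≤ c) → x ≤ c) ∧ ∀ c, (∀ θ, c ≤ a θ) → c ≤ x := by
  have hK : 0 ≤ K := (abs_nonneg _).trans (hF.b1 0)
  have p₀ := h₀.nonneg le_rfl
  have p₁ := h₁.nonneg le_rfl
  obtain ⟨B, hB⟩ : ∃ B, B = 1 + K * 2 + s₀ k + s₁ k := ⟨_, rfl⟩
  have hB1 : 1 ≤ B := by linarith
  obtain ⟨M, hM⟩ : ∃ M, M = ∑ j ∈ Finset.range (k + 1), |inc (fun i => s₁ i - s₀ i) j| := ⟨_, rfl⟩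
  have hM0 : 0 ≤ M := hM ▸ Finset.sum_nonneg fun _ _ => abs_nonneg _
  obtain ⟨τ', hτ', hr⟩ := r12 hk hB1 (τ := τ / (M + 1)) (by positivity)
  obtain ⟨L, hL⟩ := ac_pure hk (B + 2) (τ := min τ' (τ / 2)) (by positivity)
  obtain ⟨hL0, hAC⟩ := hL L le_rfl
  have := unif_prob hL0 k
  have hH := lw_good (L := L) (k := k) m
  have hE := hF.env
  have mF' : Measurable (deriv F) := measurable_deriv F
  have hC : C2F (PU L k m) (fun u σ y => lw m u σ + F y) (fun _ _ y => deriv F y)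
      (fun _ _ y => deriv (deriv F) y) K :=
    ⟨(hH.meas.comp (measurable_fst.prodMk measurable_snd.fst)).add (hE.meas.comp measurable_snd.snd),
      mF'.comp measurable_snd.snd, (measurable_deriv _).comp measurable_snd.snd,
      fun _ _ y => (hF.d1 y).hasDerivAt.const_add _, fun _ _ y => (hF.d2 y).hasDerivAt,
      fun _ _ => hF.b1, fun _ _ => hF.b2, hH.add (Good.const _)⟩
  have f := fun w => feat_tfeat (Ω := Nd L k → ℝ) (measurable_id (α := Leaf L k)) w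
  have hs : ∀ (ω : Nd L k → ℝ) (σ : Leaf L k) y, (deriv (deriv F) y + deriv F y ^ 2) *
      (tfeat (wq s₁) (id σ) ⬝ᵥ tfeat (wq s₁) (id σ) - tfeat (wq s₀) (id σ) ⬝ᵥ tfeat (wq s₀) (id σ))
        + 2 * (-(d / 2)) = 0 := fun ω σ y => by
    rw [tfeat_wq h₁, tfeat_wq h₀, cj_self, hd]; ring
  refine ⟨_, _, ?_, ?_,
    fun c hc => interp_le (μ := unif L k) hC (f _) (f _) (Bd1.const (-(d / 2))) hs fun θ _ => hc θ,
    fun c hc => interp_ge (μ := unif L k) hC (f _) (f _) (Bd1.const (-(d / 2))) hs fun θ _ => hc θ⟩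
  · have e := fun s (hs : IsPath k s) (hb : s k ≤ B) => hAC.one hk hH measurable_id (w := wq s)
      (fun j hj => by simpa using (gr_wq hs hB1 hb (c := 1) (by simp) hj).trans (by linarith))
      (hE.mono (by linarith))
    have e₁ := abs_le.1 (e s₁ h₁ (by linarith))
    have e₀ := abs_le.1 (e s₀ h₀ (by linarith))
    simp only [tf_eq_dot] at e₁ e₀
    rw [FE_add_const (hC.good (f _)), parisi_eq_Rec hk hE, parisi_eq_Rec hk hE, abs_le]
    have := min_le_right τ' (τ / 2)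
    change _ ≤ _ - Rec m (rq s₁) F _ _ _ ∧ _ - Rec m (rq s₁) F _ _ _ ≤ _ at e₁
    change _ ≤ _ - Rec m (rq s₀) F _ _ _ ∧ _ - Rec m (rq s₀) F _ _ _ ≤ _ at e₀
    constructor <;> linarith [e₁.1, e₁.2, e₀.1, e₀.2]
  · intro θ
    have hX := (gr_env_add hE).mono (show K * 2 ≤ B by linarith)
    have mφ : Measurable fun y : ℝ × ℝ => deriv F (y.1 + y.2) :=
      mF'.comp (measurable_fst.add measurable_snd)
    have r := (hr hH measurable_id (hAC.mono le_rfl (min_le_left _ _))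
      (w₁ := fun i => sin θ * wq s₁ i) (w₂ := fun i => cos θ * wq s₀ i)
      (fun j hj => ⟨gr_wq h₁ hB1 (by linarith) (abs_sin_le_one θ) hj,
        gr_wq h₀ hB1 (by linarith) (abs_cos_le_one θ) hj⟩) hX mφ
      fun y => (hF.b1 _).trans (by linarith)).2
    have g := (((hH.fst (gp (Nd L k))).fst (gp (Nd L k))).add
      (good_tf2 measurable_id hX (fun i => sin θ * wq s₁ i) (fun i => cos θ * wq s₀ i)))
    have b : Bd1 (fun (ω : ((Nd L k → ℝ) × (Nd L k → ℝ)) × (Nd L k → ℝ)) (σ : Leaf L k) =>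
        deriv F (tf (fun i => sin θ * wq s₁ i) ω.1.2 σ + tf (fun i => cos θ * wq s₀ i) ω.2 σ)) K :=
      ⟨mF'.comp ((measurable_tf measurable_id _ measurable_fst.snd).add
        (measurable_tf measurable_id _ measurable_snd)), fun _ _ => hF.b1 _⟩
    have b2 := fun j => ((b.fst2.mul b.snd2).mul (bd2_ind measurable_id j)).good2
      (P := ((PU L k m).prod (gp (Nd L k))).prod (gp (Nd L k)))
    have e1 : A2 (((PU L k m).prod (gp (Nd L k))).prod (gp (Nd L k))) (unif L k)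
        (iH (fun u σ y => lw m u σ + F y) (fun _ _ => -(d / 2)) (fun _ σ => tfeat (wq s₁) (id σ))
          (fun _ σ => tfeat (wq s₀) (id σ)) θ) (fun ω σ σ' =>
          deriv F (iY (fun _ σ => tfeat (wq s₁) (id σ)) (fun _ σ => tfeat (wq s₀) (id σ)) θ ω σ) *
          deriv F (iY (fun _ σ => tfeat (wq s₁) (id σ)) (fun _ σ => tfeat (wq s₀) (id σ)) θ ω σ') *
          (tfeat (wq s₁) (id σ) ⬝ᵥ tfeat (wq s₁) (id σ') -
            tfeat (wq s₀) (id σ) ⬝ᵥ tfeat (wq s₀) (id σ'))) = _ :=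
      Eq.trans (by
        congr 1
        · funext ω σ
          simp only [iH, iY, tf_smul, ← tf_eq_dot, id]
        · funext ω σ σ'
          simp only [iY, tf_smul, id, tfeat_wq h₁, tfeat_wq h₀, ← tf_eq_dot]
          rw [show s₁ (cj σ σ') - s₀ (cj σ σ') = _ from eq_sum_ind (fun i => s₁ i - s₀ i) σ σ',
            Finset.mul_sum]
          exact Finset.sum_congr rfl fun j _ => by ring)
        ((A2_add_const_H g (sin θ ^ 2 * -(d / 2))).trans (A2_sum g (Finset.range (k + 1))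
          fun j _ => (b2 j).const_mul (inc (fun i => s₁ i - s₀ i) j)))
    rw [e1, pair_eq_sum_tail, ← mul_sub, ← Finset.sum_sub_distrib, abs_mul]
    have h2 : M * (τ / (M + 1)) ≤ τ := by
      rw [← mul_div_assoc, div_le_iff₀ (by positivity)]; linarith
    refine (mul_le_of_le_one_left (abs_nonneg _) (by norm_num [abs_le])).trans
      ((Finset.abs_sum_le_sum_abs _ _).trans (le_trans ?_ h2))
    rw [hM, Finset.sum_mul]
    refine Finset.sum_le_sum fun j hj => ?_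
    rw [A2_const_mul, ← mul_sub, abs_mul, ← hM]
    refine mul_le_mul_of_nonneg_left ?_ (abs_nonneg _)
    rw [← gr_tail_add hk hE mF' (w₁ := fun i => sin θ * wq s₁ i) (w₂ := fun i => cos θ * wq s₀ i)
      fun j hj => by rw [gr_inc_lin, mul_pow, mul_pow, wq_sq h₁ hj, wq_sq h₀ hj, cos_sq']; ring]
    exact r j (Nat.lt_succ_iff.1 (Finset.mem_range.1 hj))

theorem gr_sin (θ : ℝ) : sin θ ^ 2 ∈ Set.Icc (0 : ℝ) 1 := ⟨sq_nonneg _, sin_sq_le_one θ⟩

theorem grad_le (hk : IsPartition k m) {F : ℝ → ℝ} {K : ℝ} (hF : C2d F K) {s₀ s₁ : ℕ → ℝ}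
    (h₀ : IsPath k s₀) (h₁ : IsPath k s₁) {d c : ℝ}
    (hd : ∀ y, (deriv (deriv F) y + deriv F y ^ 2) * (s₁ k - s₀ k) = d)
    (hc : ∀ t ∈ Set.Icc (0 : ℝ) 1, -(1 / 2) * pair k m
      (e1 k m (fun i => (1 - t) * s₀ i + t * s₁ i) F (deriv F)) (fun i => s₁ i - s₀ i) ≤ c) :
    parisi k m s₁ F - parisi k m s₀ F - d / 2 ≤ c := by
  refine le_of_forall_pos_le_add fun ε hε => ?_
  obtain ⟨x, a, h1, h2, h3, -⟩ := grad_core hk hF h₀ h₁ hd (half_pos hε)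
  have := h3 (c + ε / 2) fun θ => by linarith [(abs_le.1 (h2 θ)).2, hc _ (gr_sin θ)]
  linarith [(abs_le.1 h1).1]

theorem grad_ge (hk : IsPartition k m) {F : ℝ → ℝ} {K : ℝ} (hF : C2d F K) {s₀ s₁ : ℕ → ℝ}
    (h₀ : IsPath k s₀) (h₁ : IsPath k s₁) {d c : ℝ}
    (hd : ∀ y, (deriv (deriv F) y + deriv F y ^ 2) * (s₁ k - s₀ k) = d)
    (hc : ∀ t ∈ Set.Icc (0 : ℝ) 1, c ≤ -(1 / 2) * pair k m
      (e1 k m (fun i => (1 - t) * s₀ i + t * s₁ i) F (deriv F)) (fun i => s₁ i - s₀ i)) :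
    c ≤ parisi k m s₁ F - parisi k m s₀ F - d / 2 := by
  refine le_of_forall_pos_le_add fun ε hε => ?_
  obtain ⟨x, a, h1, h2, -, h3⟩ := grad_core hk hF h₀ h₁ hd (half_pos hε)
  have := h3 (c - ε / 2) fun θ => by linarith [(abs_le.1 (h2 θ)).1, hc _ (gr_sin θ)]
  linarith [(abs_le.1 h1).2]

theorem gr_pair_sub (p s s' : ℕ → ℝ) :
    pair k m p (fun i => s i - s' i) = pair k m p s - pair k m p s' := by
  simp only [pair, ← Finset.sum_sub_distrib]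
  exact Finset.sum_congr rfl fun _ _ => by ring

theorem psi0_mono (hk : IsPartition k m) {f : ℝ → ℝ} {K : ℝ} (hf : C2b f K) {p₀ p₁ : ℕ → ℝ}
    (h₀ : IsOv k p₀) (h₁ : IsOv k p₁) {η : ℝ} (hη : 0 ≤ η)
    (h : ∀ j ≤ k, tail k m p₀ j - η ≤ tail k m p₁ j) :
    parisi k m p₁ f ≤ parisi k m p₀ f + K ^ 2 * η / 2 := by
  have := grad_le hk hf.c2d h₀.1 h₁.1 (d := 0) (c := K ^ 2 * η / 2)
    (fun y => by rw [h₀.2, h₁.2]; ring) fun t _ => by
      obtain ⟨e1, e2⟩ := e1_isPath (q := fun i => (1 - t) * p₀ i + t * p₁ i) hk hf.c2d.env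
        (measurable_deriv f) hf.b1
      have e3 := pair_sub_le e1 h
      rw [gr_pair_sub, pair_comm k m _ p₁, pair_comm k m _ p₀]
      linarith [mul_le_mul_of_nonneg_left e2 hη]
  linarith

theorem spin_seg (hk : IsPartition k m) {s₀ s₁ : ℕ → ℝ} (h₀ : IsPath k s₀) (h₁ : IsPath k s₁) {c : ℝ}
    (hc : ∀ t ∈ Set.Icc (0 : ℝ) 1, -(1 / 2) * pair k m
      (phat k m (fun i => (1 - t) * s₀ i + t * s₁ i)) (fun i => s₁ i - s₀ i) ≤ c) :
    spinTerm k m s₁ - spinTerm k m s₀ ≤ c := by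
  obtain ⟨l1, l2, l3⟩ := lc_c2d
  have := grad_le hk l1 h₀ h₁ (c := c) (fun y => by rw [l3, one_mul]) (by rw [l2]; exact hc)
  change parisi k m s₁ lc - _ - (parisi k m s₀ lc - _) ≤ c
  linarith

theorem spin_seg_ge (hk : IsPartition k m) {s₀ s₁ : ℕ → ℝ} (h₀ : IsPath k s₀) (h₁ : IsPath k s₁)
    {c : ℝ} (hc : ∀ t ∈ Set.Icc (0 : ℝ) 1, c ≤ -(1 / 2) * pair k m
      (phat k m (fun i => (1 - t) * s₀ i + t * s₁ i)) (fun i => s₁ i - s₀ i)) :
    c ≤ spinTerm k m s₁ - spinTerm k m s₀ := by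
  obtain ⟨l1, l2, l3⟩ := lc_c2d
  have := grad_ge hk l1 h₀ h₁ (c := c) (fun y => by rw [l3, one_mul]) (by rw [l2]; exact hc)
  change c ≤ parisi k m s₁ lc - _ - (parisi k m s₀ lc - _)
  linarith

section
variable {Ω S : Type} [MeasurableSpace Ω] [MeasurableSpace S] {P : Measure Ω}
  [IsProbabilityMeasure P] {μ : Measure S} [IsProbabilityMeasure μ] {H : Ω → S → ℝ}

omit [IsProbabilityMeasure P] in
theorem gr_good_le {φ ψ : Ω → S → ℝ} (hm : Measurable fun p : Ω × S => φ p.1 p.2) (hψ : Good P ψ)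
    (h : ∀ ω σ, |φ ω σ| ≤ ψ ω σ) : Good P φ := by
  obtain ⟨B, iB, hB⟩ := hψ.bdd
  exact ⟨hm, B, iB, fun ω σ => (h ω σ).trans ((le_abs_self _).trans (hB ω σ))⟩

theorem gr_psi (h : Good P H) {ι : Type} [Fintype ι] {A : Ω → S → ι → ℝ} (hA : Feat A)
    (hV : ∀ ω σ, A ω σ ⬝ᵥ A ω σ ≤ 1) :
    Good (P.prod (gp ι)) (fun ω σ => exp (A ω.1 σ ⬝ᵥ ω.2) + exp (-(A ω.1 σ ⬝ᵥ ω.2))) ∧
    A1 (P.prod (gp ι)) μ (fun ω σ => H ω.1 σ)
      (fun ω σ => exp (A ω.1 σ ⬝ᵥ ω.2) + exp (-(A ω.1 σ ⬝ᵥ ω.2))) ≤ 2 * exp (1 / 2) := by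
  have hA' := hA.bd_smul (Bd1.const (-1))
  have g1 := hA.good_exp (P := P) (Bd1.const 0)
  have g2 := hA'.good_exp (P := P) (Bd1.const 0)
  have e1 := gtilt_exp_le (μ := μ) h hA (Bd1.const 0) (c := 1 / 2) fun ω σ => by linarith [hV ω σ]
  have e2 := gtilt_exp_le (μ := μ) h hA' (Bd1.const 0) (c := 1 / 2) fun ω σ => by
    simp only [neg_smul, one_smul, neg_dotProduct_neg]
    linarith [hV ω σ]
  simp only [neg_smul, one_smul, neg_dotProduct, add_zero] at g1 g2 e1 e2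
  refine ⟨g1.add g2, ?_⟩
  rw [A1_add (h.fst _) g1 g2]
  linarith

theorem gr_close (h : Good P H) {ψ D : Ω → S → ℝ} (hψ : Good P ψ)
    (mD : Measurable fun p : Ω × S => D p.1 p.2) (hD : ∀ ω σ, |D ω σ| ≤ ψ ω σ)
    (hE : ∀ ω σ, |exp (D ω σ) - 1| ≤ ψ ω σ) {Φ Ψ : Ω → S → S → ℝ} (hΦ : Bd2 Φ 1) (hΨ : Bd2 Ψ 1)
    (hd : ∀ ω σ σ', |Φ ω σ σ' - Ψ ω σ σ'| ≤ ψ ω σ + ψ ω σ') :
    |A2 P μ (fun ω σ => H ω σ + D ω σ) Φ - A2 P μ H Ψ| ≤ 6 * A1 P μ H ψ := by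
  have gE : Good P fun ω σ => exp (D ω σ) := gr_good_le mD.exp (hψ.add (Good.const 1)) fun ω σ => by
    rw [abs_exp]; linarith [(abs_le.1 (hE ω σ)).2]
  have t := A2_tilt_close (μ := μ) h (gr_good_le mD hψ hD) gE hΦ
  have t1 := A1_mono (μ := μ) h (gE.sub (Good.const 1)).abs hψ hE
  have t2 := (abs_A2_le (μ := μ) h (hΦ.sub hΨ).good2).trans
    (A2_mono h (hΦ.sub hΨ).good2.abs (hψ.fst2.add hψ.snd2) hd)
  rw [A2_sub h hΦ.good2 hΨ.good2, A2_add h hψ.fst2 hψ.snd2, A2_fst h, A2_snd h] at t2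
  linarith [abs_sub_le (A2 P μ (fun ω σ => H ω σ + D ω σ) Φ) (A2 P μ H Φ) (A2 P μ H Ψ)]

end

theorem gr_exp {a z D : ℝ} (ha : 0 ≤ a) (ha1 : a ≤ 1) (hD : |D| ≤ |a * z|) :
    |D| ≤ a * (exp z + exp (-z)) ∧ |exp D - 1| ≤ a * (exp z + exp (-z)) := by
  have h1 := convexOn_exp.2 (Set.mem_univ |z|) (Set.mem_univ 0) ha (sub_nonneg.2 ha1) (by ring)
  have h2 : exp |z| ≤ exp z + exp (-z) := by
    rcases abs_choice z with h | h <;> rw [h] <;> linarith [exp_pos z, exp_pos (-z)]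
  rw [abs_mul, abs_of_nonneg ha] at hD
  simp only [smul_eq_mul, mul_zero, add_zero, exp_zero, mul_one] at h1
  have h3 := mul_le_mul_of_nonneg_left h2 ha
  have h4 := add_one_le_exp (a * |z|)
  have h5 := add_one_le_exp D
  have h6 := exp_le_exp.2 (abs_le.1 hD).2
  refine ⟨by linarith, abs_le.2 ⟨by linarith [(abs_le.1 hD).1], by linarith⟩⟩

theorem gr_lip {F : ℝ → ℝ} (hF : Differentiable ℝ F) (hb : ∀ y, |deriv F y| ≤ 1) (y z : ℝ) :
    |F (y + z) - F y| ≤ |z| := by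
  simpa using Convex.norm_image_sub_le_of_norm_deriv_le (f := F) (C := 1) (fun x _ => hF x)
    (fun x _ => hb x) convex_univ (Set.mem_univ y) (Set.mem_univ (y + z))

theorem gr_fin {Ω : Type} [MeasurableSpace Ω] {P : Measure Ω} [IsProbabilityMeasure P] {L : ℕ}
    [IsProbabilityMeasure (unif L k)] {H Y : Ω → Leaf L k → ℝ} (h : Good P fun ω σ => H ω σ + lc (Y ω σ))
    (m0 : Measurable fun p : Ω × Leaf L k => Y p.1 p.2) {A : Ω → Leaf L k → Nd L k → ℝ} (hA : Feat A)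
    (hV : ∀ ω σ, A ω σ ⬝ᵥ A ω σ ≤ 1) {a : ℝ} (ha : 0 ≤ a) (ha1 : a ≤ 1) (j : ℕ) :
    |A2 (P.prod (gp (Nd L k))) (unif L k) (fun ω σ => H ω.1 σ + lc (Y ω.1 σ + a * (A ω.1 σ ⬝ᵥ ω.2)))
        (fun ω σ σ' => tanh (Y ω.1 σ + a * (A ω.1 σ ⬝ᵥ ω.2)) *
          tanh (Y ω.1 σ' + a * (A ω.1 σ' ⬝ᵥ ω.2)) * ind j σ σ') -
      A2 (P.prod (gp (Nd L k))) (unif L k) (fun ω σ => H ω.1 σ + lc (Y ω.1 σ))
        (fun ω σ σ' => tanh (Y ω.1 σ) * tanh (Y ω.1 σ') * ind j σ σ')| ≤ 12 * exp (1 / 2) * a := by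
  obtain ⟨l1, l2, -⟩ := lc_c2d
  have mt : Measurable tanh := l2 ▸ measurable_deriv lc
  have bt : ∀ y, |tanh y| ≤ 1 := l2 ▸ l1.b1
  have lt : ∀ y z, |tanh (y + z) - tanh y| ≤ |z| := l2 ▸ gr_lip l1.d2 l1.b2
  obtain ⟨gψ, eψ⟩ := gr_psi (μ := unif L k) h hA hV
  have m1 : Measurable fun p : (Ω × (Nd L k → ℝ)) × Leaf L k => Y p.1.1 p.2 :=
    m0.comp (measurable_fst.fst.prodMk measurable_snd)
  have m2 : Measurable fun p : (Ω × (Nd L k → ℝ)) × Leaf L k =>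
      Y p.1.1 p.2 + a * (A p.1.1 p.2 ⬝ᵥ p.1.2) := m1.add ((hA.good (P := P)).meas.const_mul a)
  have b1 : Bd1 (fun (ω : Ω × (Nd L k → ℝ)) σ => tanh (Y ω.1 σ)) 1 := ⟨mt.comp m1, fun _ _ => bt _⟩
  have b2 : Bd1 (fun (ω : Ω × (Nd L k → ℝ)) σ => tanh (Y ω.1 σ + a * (A ω.1 σ ⬝ᵥ ω.2))) 1 :=
    ⟨mt.comp m2, fun _ _ => bt _⟩
  have key := gr_close (μ := unif L k) (h.fst (gp (Nd L k))) (gψ.const_mul a)
    (D := fun ω σ => lc (Y ω.1 σ + a * (A ω.1 σ ⬝ᵥ ω.2)) - lc (Y ω.1 σ))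
    ((l1.env.meas.comp m2).sub (l1.env.meas.comp m1))
    (fun ω σ => (gr_exp ha ha1 (gr_lip l1.d1 l1.b1 _ _)).1)
    (fun ω σ => (gr_exp ha ha1 (gr_lip l1.d1 l1.b1 _ _)).2)
    (((b2.fst2.mul b2.snd2).mul (bd2_ind measurable_id j)).mono (by norm_num))
    (((b1.fst2.mul b1.snd2).mul (bd2_ind measurable_id j)).mono (by norm_num)) fun ω σ σ' => by
      have e := fun σ => (gr_exp ha ha1 (lt (Y ω.1 σ) (a * (A ω.1 σ ⬝ᵥ ω.2)))).1
      have e1 := gb_mul (gb_add (gb_mul (e σ) (bt (Y ω.1 σ' + a * (A ω.1 σ' ⬝ᵥ ω.2))))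
        (gb_mul (bt (Y ω.1 σ)) (e σ'))) (abs_ind_le j σ σ')
      convert e1 using 2
      · simp only [id]; ring
      · ring
  simp only [id, add_assoc, add_sub_cancel] at key
  rw [A1_const_mul] at key
  linarith [mul_le_mul_of_nonneg_left eψ ha]

theorem tail_cont : ∃ C : ℝ, 0 ≤ C ∧ ∀ {k : ℕ} {m s : ℕ → ℝ} (_ : IsPartition k m) (_ : IsPath k s)
    {u : ℝ} (_ : 0 ≤ u) (_ : u ≤ 1) {j j' : ℕ} (_ : j ≤ k) (_ : j' ≤ k),
    |tail k m (phat k m (bump s u j')) j - tail k m (phat k m s) j| ≤ C * √u := by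
  refine ⟨12 * exp (1 / 2), by positivity, fun {k m s} hk hs u hu hu1 j j' hj hj' => ?_⟩
  refine le_of_forall_pos_le_add fun ε hε => ?_
  obtain ⟨l1, l2, -⟩ := lc_c2d
  have p := hs.nonneg le_rfl
  have hB1 : 1 ≤ 2 + s k := by linarith
  have ha := sqrt_nonneg u
  have ha1 := sqrt_le_one.2 hu1
  obtain ⟨τ', hτ', hr⟩ := r12 hk hB1 (half_pos hε)
  obtain ⟨L, hL⟩ := ac_pure hk (2 + s k + 2) hτ'
  obtain ⟨hL0, hAC⟩ := hL L le_rfl
  have := unif_prob hL0 k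
  have hH := lw_good (L := L) (k := k) m
  have mt : Measurable tanh := l2 ▸ measurable_deriv lc
  have bt : ∀ y, |tanh y| ≤ 1 := l2 ▸ l1.b1
  obtain ⟨w, hw⟩ : ∃ w : ℕ → ℝ, ∀ i, w i = if i = j' then 1 else 0 := ⟨_, fun _ => rfl⟩
  have hw1 : ∀ i ≤ k, |wq s i| ≤ 2 + s k ∧ |√u * w i| ≤ 2 + s k := fun i hi =>
    ⟨by simpa using gr_wq hs hB1 (by linarith) (c := 1) (by simp) hi, by
      rw [hw]
      split_ifs
      · rw [mul_one, abs_of_nonneg ha]; linarith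
      · rw [mul_zero, abs_zero]; linarith⟩
  have r1 := (hr hH measurable_id hAC hw1 ((gr_env_add l1.env).mono (by linarith))
    (φ := fun y => tanh (y.1 + y.2)) (mt.comp (measurable_fst.add measurable_snd))
    fun y => (bt _).trans hB1).2 j hj
  have r2 := (hr hH measurable_id hAC hw1 ((l1.env.comp (q := Prod.fst) measurable_fst le_rfl
    fun y y' => (norm_fst_le (y - y')).trans_eq (one_mul _).symm).mono (by linarith))
    (φ := fun y => tanh y.1) (mt.comp measurable_fst) fun y => (bt _).trans hB1).2 j hj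
  clear hr
  rw [gr_tail_add hk l1.env mt (q := bump s u j') fun i hi => by
    rw [inc_bump, wq_sq hs hi, hw, mul_pow, sq_sqrt hu]; split_ifs <;> simp] at r1
  rw [gr_tail_fst hk l1.env mt] at r2
  have key := gr_fin ((hH.fst (gp (Nd L k))).add (good_tf1 measurable_id l1.env (wq s)))
    (measurable_tf measurable_id (wq s) measurable_snd) (feat_tfeat measurable_id w)
    (fun _ σ => by
      rw [tfeat_dot, Finset.sum_eq_single j' (fun i _ hi => by simp [hw, hi])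
        fun h => (h (Finset.mem_range.2 (Nat.lt_succ_of_le hj'))).elim, ind_self hj']
      simp [hw]) ha ha1 j
  simp only [id, tf_smul, ← tf_eq_dot] at key r1 r2
  rw [abs_le] at key r1 r2 ⊢
  rw [show ∀ q, phat k m q = e1 k m q lc tanh from fun _ => rfl,
    show ∀ q, phat k m q = e1 k m q lc tanh from fun _ => rfl]
  constructor <;> linarith [key.1, key.2, r1.1, r1.2, r2.1, r2.2]

theorem spin_expand : ∃ C : ℝ, 0 ≤ C ∧ ∀ {k : ℕ} {m s : ℕ → ℝ} (_ : IsPartition k m)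
    (_ : IsPath k s) {u : ℝ} (_ : 0 ≤ u) (_ : u ≤ 1) {j : ℕ} (_ : j ≤ k),
    |spinTerm k m (bump s u j) - spinTerm k m s + u / 2 * tail k m (phat k m s) j| ≤ C * (u * √u) ∧
    |spinTerm k m (bump s u j) - spinTerm k m s + u / 2 * tail k m (phat k m (bump s u j)) j|
      ≤ C * (u * √u) := by
  obtain ⟨C, hC, h⟩ := tail_cont
  refine ⟨C, hC, fun {k m s} hk hs u hu hu1 j hj => ?_⟩
  have e : ∀ t ∈ Set.Icc (0 : ℝ) 1, |-(1 / 2) * pair k m (phat k m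
      (fun i => (1 - t) * s i + t * bump s u j i)) (fun i => bump s u j i - s i)
      + u / 2 * tail k m (phat k m s) j| ≤ C * (u * √u) / 2 := fun t ht => by
    have e1 : (fun i => (1 - t) * s i + t * bump s u j i) = bump s (t * u) j := by
      funext i; simp only [bump]; split_ifs <;> ring
    have e2 := mul_le_of_le_one_left hu ht.2
    have e3 := (h hk hs (mul_nonneg ht.1 hu) (e2.trans hu1) hj hj).trans
      (mul_le_mul_of_nonneg_left (sqrt_le_sqrt e2) hC)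
    have e4 := gb_mul (abs_of_nonneg hu).le e3
    rw [e1, gr_pair_sub, pair_bump]
    rw [abs_le] at e4 ⊢
    constructor <;> linarith [e4.1, e4.2]
  have a1 := spin_seg hk hs (hs.bump hu j) (c := C * (u * √u) / 2 - u / 2 * tail k m (phat k m s) j)
    fun t ht => by linarith [(abs_le.1 (e t ht)).2]
  have a2 := spin_seg_ge hk hs (hs.bump hu j)
    (c := -(C * (u * √u) / 2) - u / 2 * tail k m (phat k m s) j)
    fun t ht => by linarith [(abs_le.1 (e t ht)).1]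
  have a3 := abs_le.1 (gb_mul (abs_of_nonneg hu).le (h hk hs hu hu1 hj hj))
  have a4 : 0 ≤ C * (u * √u) := by positivity
  exact ⟨abs_le.2 ⟨by linarith, by linarith⟩, abs_le.2 ⟨by linarith [a3.1], by linarith [a3.2]⟩⟩

end P157
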