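import Vale.Agent.P157.GComp
import Vale.Agent.P157.IBP0

/-! P157 IBP1: Gaussian integration by parts for one replica and a nonlinear Hamiltonian.
Plan: fix `ω`. For each coordinate `c` let `Ψ_c g = ∫ F'(σ, A σ · g) B σ c ∂(tilted)`, written as a
quotient `N(g)/Z(g)` with `Z g = ∫ exp (F σ (A σ · g)) ∂μ`. Differentiate in the coordinate `c` under
the integral (`hasDerivAt_integral_of_dominated_loc_of_deriv_le`; everything is bounded locally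
uniformly since `|F ω σ y| ≤ B ω + K |y|`), giving
`∂_c Ψ_c = ⟨(F'' + F'^2) A_c B_c⟩ - ⟨F' B_c⟩ ⟨F' A_c⟩`. Apply `gp_ibp`, sum over `c`, integrate in `ω`
(`integral_prod`).
-/

open MeasureTheory ProbabilityTheory Real
open scoped BigOperators Matrix

namespace P157

variable {Ω S : Type} [MeasurableSpace Ω] [MeasurableSpace S] {P : Measure Ω}
  [IsProbabilityMeasure P] {μ : Measure S} [IsProbabilityMeasure μ]

variable {F F' F'' : Ω → S → ℝ → ℝ} {K : ℝ} {ι : Type} [Fintype ι]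

theorem ibp1_lip {f f' : ℝ → ℝ} (hd : ∀ y, HasDerivAt f (f' y) y) {M : ℝ} (hb : ∀ y, |f' y| ≤ M)
    (x y : ℝ) : |f y| ≤ |f x| + M * |y - x| := by
  have h := Convex.norm_image_sub_le_of_norm_hasDerivWithin_le (s := Set.univ)
    (fun y _ => (hd y).hasDerivWithinAt) (fun y _ => hb y) convex_univ (Set.mem_univ x)
    (Set.mem_univ y)
  have := abs_sub_abs_le_abs_sub (f y) (f x)
  simp only [Real.norm_eq_abs] at h
  linarith

theorem ibp1_measdot {A : Ω → S → ι → ℝ} (hA : Feat A) :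
    Measurable fun p : (Ω × (ι → ℝ)) × S => A p.1.1 p.2 ⬝ᵥ p.1.2 := by
  unfold dotProduct
  exact Finset.measurable_sum _ fun c _ =>
    ((hA.meas c).comp (measurable_fst.fst.prodMk measurable_snd)).mul
      ((measurable_pi_apply c).comp measurable_fst.snd)

omit [IsProbabilityMeasure μ] in
theorem ibp1_num [IsFiniteMeasure μ] {h h' φ φ' : ℝ → S → ℝ} {M t₀ : ℝ}
    (mh : ∀ t, Measurable (h t)) (mh' : Measurable (h' t₀)) (mφ : ∀ t, Measurable (φ t))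
    (mφ' : Measurable (φ' t₀)) (dh : ∀ σ t, HasDerivAt (fun t => h t σ) (h' t σ) t)
    (dφ : ∀ σ t, HasDerivAt (fun t => φ t σ) (φ' t σ) t) (b0 : ∀ σ, |h t₀ σ| ≤ M)
    (b1 : ∀ t σ, |h' t σ| ≤ M) (b2 : ∀ t σ, |φ t σ| ≤ M) (b3 : ∀ t σ, |φ' t σ| ≤ M) :
    HasDerivAt (fun t => ∫ σ, exp (h t σ) * φ t σ ∂μ)
      (∫ σ, exp (h t₀ σ) * (φ' t₀ σ + φ t₀ σ * h' t₀ σ) ∂μ) t₀ := by
  have hb : ∀ σ, ∀ t ∈ Metric.ball t₀ 1, exp (h t σ) ≤ exp (M + M) := fun σ t ht => by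
    have hM : 0 ≤ M := (abs_nonneg _).trans (b0 σ)
    have h1 := ibp1_lip (dh σ) (fun t => b1 t σ) t₀ t
    have h2 : |t - t₀| ≤ 1 := (mem_ball_iff_norm.1 ht).le
    have h3 := mul_le_of_le_one_right hM h2
    exact exp_le_exp.2 (by linarith [le_abs_self (h t σ), b0 σ])
  refine (hasDerivAt_integral_of_dominated_loc_of_deriv_le (F := fun t σ => exp (h t σ) * φ t σ)
    (F' := fun t σ => exp (h t σ) * (φ' t σ + φ t σ * h' t σ))
    (bound := fun _ => exp (M + M) * (M + M * M)) (Metric.ball_mem_nhds t₀ one_pos)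
    (Filter.Eventually.of_forall fun t => ((mh t).exp.mul (mφ t)).aestronglyMeasurable) ?_
    ((mh t₀).exp.mul (mφ'.add ((mφ t₀).mul mh'))).aestronglyMeasurable
    (ae_of_all _ fun σ t ht => ?_) (integrable_const _) (ae_of_all _ fun σ t _ => ?_)).2
  · refine Integrable.of_bound ((mh t₀).exp.mul (mφ t₀)).aestronglyMeasurable (exp (M + M) * M)
      (ae_of_all _ fun σ => ?_)
    rw [norm_mul, Real.norm_eq_abs, Real.norm_eq_abs, abs_exp]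
    exact mul_le_mul (hb σ t₀ (Metric.mem_ball_self one_pos)) (b2 _ _) (abs_nonneg _)
      (exp_pos _).le
  · rw [norm_mul, Real.norm_eq_abs, Real.norm_eq_abs, abs_exp]
    refine mul_le_mul (hb σ t ht) ((abs_add_le _ _).trans (add_le_add (b3 _ _) ?_)) (abs_nonneg _)
      (exp_pos _).le
    rw [abs_mul]
    exact mul_le_mul (b2 _ _) (b1 _ _) (abs_nonneg _) ((abs_nonneg _).trans (b0 σ))
  · exact ((dh σ t).exp.mul (dφ σ t)).congr_deriv (by ring)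

omit [IsProbabilityMeasure μ] in
theorem ibp1_tilt (h φ : S → ℝ) :
    ∫ σ, φ σ ∂(μ.tilted h) = (∫ σ, exp (h σ) * φ σ ∂μ) / ∫ σ, exp (h σ) * 1 ∂μ := by
  rw [integral_tilted, ← integral_div]
  simp only [mul_one, smul_eq_mul, div_mul_eq_mul_div]

theorem ibp1_deriv {h h' φ φ' : ℝ → S → ℝ} {M t₀ : ℝ} (hM : 1 ≤ M)
    (mh : ∀ t, Measurable (h t)) (mh' : Measurable (h' t₀)) (mφ : ∀ t, Measurable (φ t))
    (mφ' : Measurable (φ' t₀)) (dh : ∀ σ t, HasDerivAt (fun t => h t σ) (h' t σ) t)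
    (dφ : ∀ σ t, HasDerivAt (fun t => φ t σ) (φ' t σ) t) (b0 : ∀ σ, |h t₀ σ| ≤ M)
    (b1 : ∀ t σ, |h' t σ| ≤ M) (b2 : ∀ t σ, |φ t σ| ≤ M) (b3 : ∀ t σ, |φ' t σ| ≤ M) :
    HasDerivAt (fun t => ∫ σ, φ t σ ∂(μ.tilted (h t)))
      (∫ σ, (φ' t₀ σ + φ t₀ σ * h' t₀ σ) ∂(μ.tilted (h t₀)) -
        (∫ σ, φ t₀ σ ∂(μ.tilted (h t₀))) * ∫ σ, h' t₀ σ ∂(μ.tilted (h t₀))) t₀ := by
  have d1 := ibp1_num (μ := μ) mh mh' mφ mφ' dh dφ b0 b1 b2 b3
  have d2 := ibp1_num (μ := μ) (φ := fun _ _ => 1) (φ' := fun _ _ => 0) mh mh'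
    (fun _ => measurable_const) measurable_const dh (fun _ t => hasDerivAt_const t 1) b0 b1
    (fun _ _ => by simpa using hM) fun _ _ => by simpa using zero_le_one.trans hM
  have hZ : 0 < ∫ σ, exp (h t₀ σ) * 1 ∂μ := by
    simp only [mul_one]
    refine integral_exp_pos (Integrable.of_bound (mh t₀).exp.aestronglyMeasurable (exp M)
      (ae_of_all _ fun σ => ?_))
    rw [Real.norm_eq_abs, abs_exp]
    exact exp_le_exp.2 ((le_abs_self _).trans (b0 σ))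
  simp only [ibp1_tilt]
  refine (d1.div d2 hZ.ne').congr_deriv ?_
  simp only [zero_add, one_mul]
  field_simp

theorem ibp1_upd [DecidableEq ι] (a g : ι → ℝ) (c : ι) (t : ℝ) :
    HasDerivAt (fun t => a ⬝ᵥ Function.update g c t) (a c) t := by
  have e : (fun t => a ⬝ᵥ Function.update g c t) = fun t => a ⬝ᵥ g + a c * (t - g c) := by
    funext t
    rw [← dotProduct_single, ← dotProduct_add]
    refine congrArg _ (funext fun i => ?_)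
    by_cases h : i = c
    · subst h
      simp
    · simp [h]
  rw [e]
  simpa using (((hasDerivAt_id t).sub_const (g c)).const_mul (a c)).const_add (a ⬝ᵥ g)

theorem C2F.good (hF : C2F P F F' F'' K) {A : Ω → S → ι → ℝ} (hA : Feat A) :
    Good (P.prod (gp ι)) (fun ω σ => F ω.1 σ (A ω.1 σ ⬝ᵥ ω.2)) := by
  obtain ⟨B, hB, hb⟩ := (hF.g0.fst (gp ι)).bdd
  obtain ⟨B', hB', hb'⟩ := (hA.good (P := P)).bdd
  refine ⟨hF.m0.comp (measurable_fst.fst.prodMk (measurable_snd.prodMk (ibp1_measdot hA))),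
    fun ω => B ω + K * B' ω, hB.add (hB'.const_mul K), fun ω σ => ?_⟩
  have h := ibp1_lip (hF.d1 ω.1 σ) (hF.b1 ω.1 σ) 0 (A ω.1 σ ⬝ᵥ ω.2)
  rw [sub_zero] at h
  exact h.trans (add_le_add (hb ω σ)
    (mul_le_mul_of_nonneg_left (hb' ω σ) ((abs_nonneg _).trans (hF.b1 ω.1 σ 0))))
theorem C2F.bd1 (hF : C2F P F F' F'' K) {Ω' : Type} [MeasurableSpace Ω'] {e : Ω' → Ω}
    (he : Measurable e) {y : Ω' → S → ℝ} (hy : Measurable fun p : Ω' × S => y p.1 p.2) :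
    Bd1 (fun ω σ => F' (e ω) σ (y ω σ)) K ∧ Bd1 (fun ω σ => F'' (e ω) σ (y ω σ)) K := by
  have m : Measurable fun p : Ω' × S => (e p.1, p.2, y p.1 p.2) :=
    (he.comp measurable_fst).prodMk (measurable_snd.prodMk hy)
  exact ⟨⟨hF.m1.comp m, fun ω σ => hF.b1 _ _ _⟩, ⟨hF.m2.comp m, fun ω σ => hF.b2 _ _ _⟩⟩

theorem ibp1_abs {Ω' : Type} [MeasurableSpace Ω'] {φ : Ω' → S → ℝ} {C : ℝ} (h : Bd1 φ C) (ω : Ω')
    (G : Measure S) [IsProbabilityMeasure G] : |∫ σ, φ ω σ ∂G| ≤ C := by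
  simpa using norm_integral_le_of_norm_le_const (μ := G) (f := φ ω) (C := C) (ae_of_all _ (h.bdd ω))

omit [Fintype ι] in
theorem ibp1_feat {A : Ω → S → ι → ℝ} (hA : Feat A) :
    ∃ C, ∀ c, Bd1 (fun (ω : Ω × (ι → ℝ)) σ => A ω.1 σ c) C := by
  obtain ⟨C, hC⟩ := hA.bdd
  exact ⟨C, fun c => ⟨(hA.meas c).comp (measurable_fst.fst.prodMk measurable_snd),
    fun ω σ => hC _ _ _⟩⟩

theorem ibp1_coord (c : ι) : Good (P.prod (gp ι)) fun ω (_ : S) => ω.2 c :=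
  ⟨(measurable_pi_apply c).comp measurable_fst.snd, fun ω => |ω.2 c|,
    (((measurePreserving_eval (fun _ : ι => gaussianReal 0 1) c).comp
      measurePreserving_snd).integrable_comp_of_integrable ibp0_id).abs, fun _ _ => le_rfl⟩

theorem ibp1_one (hF : C2F P F F' F'' K) {A B : Ω → S → ι → ℝ} (hA : Feat A) (hB : Feat B) (c : ι) :
    A1 (P.prod (gp ι)) μ (fun ω σ => F ω.1 σ (A ω.1 σ ⬝ᵥ ω.2))
        (fun ω σ => F' ω.1 σ (A ω.1 σ ⬝ᵥ ω.2) * B ω.1 σ c * ω.2 c) =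
      A1 (P.prod (gp ι)) μ (fun ω σ => F ω.1 σ (A ω.1 σ ⬝ᵥ ω.2))
        (fun ω σ => F'' ω.1 σ (A ω.1 σ ⬝ᵥ ω.2) * A ω.1 σ c * B ω.1 σ c +
          F' ω.1 σ (A ω.1 σ ⬝ᵥ ω.2) * B ω.1 σ c * (F' ω.1 σ (A ω.1 σ ⬝ᵥ ω.2) * A ω.1 σ c)) -
      A2 (P.prod (gp ι)) μ (fun ω σ => F ω.1 σ (A ω.1 σ ⬝ᵥ ω.2))
        (fun ω σ σ' => F' ω.1 σ (A ω.1 σ ⬝ᵥ ω.2) * B ω.1 σ c *
          (F' ω.1 σ' (A ω.1 σ' ⬝ᵥ ω.2) * A ω.1 σ' c)) := by
  classical
  have hH := hF.good hA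
  obtain ⟨f1, f2⟩ := hF.bd1 (Ω' := Ω × (ι → ℝ)) measurable_fst
    (y := fun ω σ => A ω.1 σ ⬝ᵥ ω.2) (ibp1_measdot hA)
  obtain ⟨CA, hCA⟩ := ibp1_feat hA
  obtain ⟨CB, hCB⟩ := ibp1_feat hB
  have p1 := f1.mul (hCB c)
  have p2 := f1.mul (hCA c)
  have p3 := (f2.mul (hCA c)).mul (hCB c)
  set H : Ω × (ι → ℝ) → S → ℝ := fun ω σ => F ω.1 σ (A ω.1 σ ⬝ᵥ ω.2) with hHd
  set φ : Ω × (ι → ℝ) → S → ℝ := fun ω σ => F' ω.1 σ (A ω.1 σ ⬝ᵥ ω.2) * B ω.1 σ c with hφ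
  set ψ : Ω × (ι → ℝ) → S → ℝ := fun ω σ => F' ω.1 σ (A ω.1 σ ⬝ᵥ ω.2) * A ω.1 σ c with hψ
  set χ : Ω × (ι → ℝ) → S → ℝ := fun ω σ => F'' ω.1 σ (A ω.1 σ ⬝ᵥ ω.2) * A ω.1 σ c * B ω.1 σ c
    with hχ
  have p4 := p3.add (p1.mul p2)
  have i1 := hH.integrable_A1 (μ := μ) (Good.bd_mul p1 (ibp1_coord c))
  have i2 := hH.integrable_A1 (μ := μ) p4.good
  have m1 := hH.measurable_A1 (μ := μ) p1.good
  have m2 := hH.measurable_A1 (μ := μ) p2.good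
  have m4 := hH.measurable_A1 (μ := μ) p4.good
  have a1 : ∀ ω, |∫ σ, φ ω σ ∂(μ.tilted (H ω))| ≤ K * CB := fun ω =>
    have := hH.isProb (μ := μ) ω
    ibp1_abs p1 ω _
  have a2 : ∀ ω, |∫ σ, ψ ω σ ∂(μ.tilted (H ω))| ≤ K * CA := fun ω =>
    have := hH.isProb (μ := μ) ω
    ibp1_abs p2 ω _
  have a4 : ∀ ω, |∫ σ, (χ ω σ + φ ω σ * ψ ω σ) ∂(μ.tilted (H ω))| ≤ _ := fun ω =>
    have := hH.isProb (μ := μ) ω
    ibp1_abs p4 ω _
  have a3 : ∀ ω, |(∫ σ, φ ω σ ∂(μ.tilted (H ω))) * ∫ σ, ψ ω σ ∂(μ.tilted (H ω))| ≤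
      K * CB * (K * CA) := fun ω => by
    rw [abs_mul]
    exact mul_le_mul (a1 ω) (a2 ω) (abs_nonneg _) ((abs_nonneg _).trans (a1 ω))
  have i3 : Integrable (fun ω => (∫ σ, φ ω σ ∂(μ.tilted (H ω))) * ∫ σ, ψ ω σ ∂(μ.tilted (H ω)))
      (P.prod (gp ι)) := Integrable.of_bound (m1.mul m2).aestronglyMeasurable _ (ae_of_all _ a3)
  have e2 := A2_mul (P := P.prod (gp ι)) (μ := μ) (H := H) (φ := φ) (ψ := ψ)
  show A1 _ μ H (fun ω σ => φ ω σ * ω.2 c) = A1 _ μ H (fun ω σ => χ ω σ + φ ω σ * ψ ω σ) -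
    A2 _ μ H (fun ω σ σ' => φ ω σ * ψ ω σ')
  rw [e2, A1, A1, ← integral_sub i2 i3, integral_prod _ i1]
  refine Eq.trans (integral_congr_ae (ae_of_all _ fun ω => ?_)) (integral_prod _ (i2.sub i3)).symm
  simp only [integral_mul_const]
  obtain ⟨B0, _, hB0⟩ := hH.bdd
  refine Eq.trans (integral_congr_ae (ae_of_all _ fun g => mul_comm _ _))
    (gp_ibp (Ψ := fun g => ∫ σ, φ (ω, g) σ ∂(μ.tilted (H (ω, g)))) c
      (m1.comp measurable_prodMk_left) ((m4.sub (m1.mul m2)).comp measurable_prodMk_left)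
      (fun g => ?_) (C := max (K * CB) (K * CA * CB + K * CB * (K * CA) + K * CB * (K * CA)))
      (fun g => (a1 _).trans (le_max_left _ _)) fun g => (abs_sub _ _).trans
        ((add_le_add (a4 _) (a3 _)).trans (le_max_right _ _)))
  have sec : ∀ {θ : Ω × (ι → ℝ) → S → ℝ}, (Measurable fun p : (Ω × (ι → ℝ)) × S => θ p.1 p.2) →
      ∀ x, Measurable (θ x) := fun h x => h.comp measurable_prodMk_left
  set M : ℝ := 1 + |B0 (ω, g)| + |K * CA| + |K * CB| + |K * CA * CB| with hM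
  have n0 := abs_nonneg (B0 (ω, g))
  have n1 := abs_nonneg (K * CA)
  have n2 := abs_nonneg (K * CB)
  have n3 := abs_nonneg (K * CA * CB)
  have key := ibp1_deriv (μ := μ) (h := fun t => H (ω, Function.update g c t))
    (h' := fun t => ψ (ω, Function.update g c t)) (φ := fun t => φ (ω, Function.update g c t))
    (φ' := fun t => χ (ω, Function.update g c t)) (M := M) (t₀ := g c) (by linarith)
    (fun t => sec hH.meas _) (sec p2.meas _) (fun t => sec p1.meas _) (sec p3.meas _)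
    (fun σ t => (hF.d1 ω σ _).comp t (ibp1_upd (A ω σ) g c t))
    (fun σ t => ((hF.d2 ω σ _).comp t (ibp1_upd (A ω σ) g c t)).mul_const (B ω σ c))
    (fun σ => by
      rw [Function.update_eq_self]
      linarith [hB0 (ω, g) σ, le_abs_self (B0 (ω, g))])
    (fun t σ => (p2.bdd _ σ).trans (by linarith [le_abs_self (K * CA)]))
    (fun t σ => (p1.bdd _ σ).trans (by linarith [le_abs_self (K * CB)]))
    (fun t σ => (p3.bdd _ σ).trans (by linarith [le_abs_self (K * CA * CB)]))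
  simpa only [Function.update_eq_self, Pi.sub_apply] using key

theorem ibp1 (hF : C2F P F F' F'' K) {A B : Ω → S → ι → ℝ} (hA : Feat A) (hB : Feat B) :
    A1 (P.prod (gp ι)) μ (fun ω σ => F ω.1 σ (A ω.1 σ ⬝ᵥ ω.2))
        (fun ω σ => F' ω.1 σ (A ω.1 σ ⬝ᵥ ω.2) * (B ω.1 σ ⬝ᵥ ω.2)) =
      A1 (P.prod (gp ι)) μ (fun ω σ => F ω.1 σ (A ω.1 σ ⬝ᵥ ω.2))
        (fun ω σ => (F'' ω.1 σ (A ω.1 σ ⬝ᵥ ω.2) + F' ω.1 σ (A ω.1 σ ⬝ᵥ ω.2) ^ 2) *
          (A ω.1 σ ⬝ᵥ B ω.1 σ)) -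
      A2 (P.prod (gp ι)) μ (fun ω σ => F ω.1 σ (A ω.1 σ ⬝ᵥ ω.2))
        (fun ω σ σ' => F' ω.1 σ (A ω.1 σ ⬝ᵥ ω.2) * F' ω.1 σ' (A ω.1 σ' ⬝ᵥ ω.2) *
          (A ω.1 σ' ⬝ᵥ B ω.1 σ)) := by
  have hH := hF.good hA
  obtain ⟨f1, f2⟩ := hF.bd1 (Ω' := Ω × (ι → ℝ)) measurable_fst
    (y := fun ω σ => A ω.1 σ ⬝ᵥ ω.2) (ibp1_measdot hA)
  obtain ⟨CA, hCA⟩ := ibp1_feat hA
  obtain ⟨CB, hCB⟩ := ibp1_feat hB
  have s1 := A1_sum (μ := μ) hH Finset.univ fun c _ =>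
    Good.bd_mul (f1.mul (hCB c)) (ibp1_coord c)
  have s2 := A1_sum (μ := μ) hH Finset.univ fun c _ =>
    (((f2.mul (hCA c)).mul (hCB c)).add ((f1.mul (hCB c)).mul (f1.mul (hCA c)))).good
  have s3 := A2_sum (μ := μ) hH Finset.univ fun c _ =>
    ((f1.mul (hCB c)).fst2.mul (f1.mul (hCA c)).snd2).good2
  have s4 := Finset.sum_congr rfl fun c (_ : c ∈ Finset.univ) => ibp1_one (μ := μ) hF hA hB c
  rw [Finset.sum_sub_distrib, ← s1, ← s2, ← s3] at s4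
  have e1 : ∀ (x : ℝ) (b g : ι → ℝ), ∑ c, x * b c * g c = x * (b ⬝ᵥ g) := fun x b g => by
    simp only [dotProduct, Finset.mul_sum, mul_assoc]
  have e2 : ∀ (x y : ℝ) (a b : ι → ℝ), ∑ c, (y * a c * b c + x * b c * (x * a c)) =
      (y + x ^ 2) * (a ⬝ᵥ b) := fun x y a b => by
    rw [dotProduct, Finset.mul_sum]
    exact Finset.sum_congr rfl fun c _ => by ring
  have e3 : ∀ (x y : ℝ) (a b : ι → ℝ), ∑ c, x * b c * (y * a c) = x * y * (a ⬝ᵥ b) :=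
    fun x y a b => by
      rw [dotProduct, Finset.mul_sum]
      exact Finset.sum_congr rfl fun c _ => by ring
  simp only [e2, e3] at s4
  simpa only [e1] using s4

end P157
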