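import Vale.Agent.P157.GAn
import Vale.Agent.P157.IBP1

/-! P157 IBPn: Gaussian integration by parts for `n+1` replicas and a linear Hamiltonian.
Plan: by `An_eq_A1` the left side is an `A1` on the configuration space `Fin (n+1) → S` for the
Hamiltonian `∑ l, H₀ (σ l) + (∑ l, Bf (σ l)) · g`; apply `ibp1` with `F ω σ y = ∑ l, H₀ ω (σ l) + y`
(`F' = 1`, `F'' = 0`), `A σ = ∑ l, Bf (σ l)`, `B σ = Φ σ • A₀ (σ 0)`. The `A2` term is
`∑ l, E⟨Φ(σ) Bf(σ' l) · A₀(σ 0)⟩`, and each summand equals the `An (n+2)` term (use `An_snoc`,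
`measurePreserving_eval` for the second replica block, and `pi_tilted`).
-/

open MeasureTheory ProbabilityTheory Real
open scoped BigOperators Matrix

namespace P157

variable {Ω S : Type} [MeasurableSpace Ω] [MeasurableSpace S] {P : Measure Ω}
  [IsProbabilityMeasure P] {μ : Measure S} [IsProbabilityMeasure μ]

theorem ibpn_bd {ι Ω' S' : Type} [Fintype ι] [MeasurableSpace Ω'] [MeasurableSpace S']
    {Bf A₀ : S → ι → ℝ} (hB : Feat fun (_ : Ω) σ => Bf σ) (hA : Feat fun (_ : Ω) σ => A₀ σ)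
    {e : Ω' → Ω} (he : Measurable e) {Φ : S' → ℝ} (hΦ : Measurable Φ) (hb : ∀ σ, |Φ σ| ≤ 1)
    {u v : S' → S} (hu : Measurable u) (hv : Measurable v) :
    ∃ C, Bd1 (fun (_ : Ω') σ => Φ σ * (Bf (u σ) ⬝ᵥ A₀ (v σ))) C := by
  obtain ⟨C, hC⟩ := (hB.comp he hu).bd1 (hA.comp he hv)
  exact ⟨_, Bd1.mul ⟨hΦ.comp measurable_snd, fun _ σ => hb σ⟩ hC⟩

theorem ibpn {ι : Type} [Fintype ι] {H₀ : Ω → S → ℝ} (h : Good P H₀) {Bf A₀ : S → ι → ℝ}
    (hB : Feat fun (_ : Ω) σ => Bf σ) (hA : Feat fun (_ : Ω) σ => A₀ σ) (n : ℕ)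
    {Φ : (Fin (n + 1) → S) → ℝ} (hΦ : Measurable Φ) (hb : ∀ σ, |Φ σ| ≤ 1) :
    An (P.prod (gp ι)) μ (fun ω σ => H₀ ω.1 σ + Bf σ ⬝ᵥ ω.2) (n + 1)
        (fun ω σ => Φ σ * (A₀ (σ 0) ⬝ᵥ ω.2)) =
      ∑ l : Fin (n + 1), An (P.prod (gp ι)) μ (fun ω σ => H₀ ω.1 σ + Bf σ ⬝ᵥ ω.2) (n + 1)
          (fun _ σ => Φ σ * (Bf (σ l) ⬝ᵥ A₀ (σ 0))) -
        ((n : ℝ) + 1) * An (P.prod (gp ι)) μ (fun ω σ => H₀ ω.1 σ + Bf σ ⬝ᵥ ω.2) (n + 2)
          (fun _ σ => Φ (Fin.init σ) * (Bf (σ (Fin.last (n + 1))) ⬝ᵥ A₀ (σ 0))) := by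
  have hH : Good (P.prod (gp ι)) fun ω σ => H₀ ω.1 σ + Bf σ ⬝ᵥ ω.2 := (h.fst _).add hB.good
  have hF : C2F P (fun ω (σ : Fin (n + 1) → S) y => ∑ l, H₀ ω (σ l) + y) (fun _ _ _ => 1)
      (fun _ _ _ => 0) 1 :=
    { m0 := ((h.sumRep (n + 1)).meas.comp (measurable_fst.prodMk measurable_snd.fst)).add
        measurable_snd.snd
      m1 := measurable_const
      m2 := measurable_const
      d1 := fun ω σ y => (hasDerivAt_id y).const_add _
      d2 := fun ω σ y => hasDerivAt_const y 1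
      b1 := fun _ _ _ => by simp
      b2 := fun _ _ _ => by simp
      g0 := by simpa only [add_zero] using h.sumRep (n + 1) }
  have hA' : Feat fun (_ : Ω) (σ : Fin (n + 1) → S) => ∑ l, Bf (σ l) := by
    obtain ⟨C, hC⟩ := hB.bdd
    refine ⟨fun c => ?_, (n + 1 : ℕ) * C, fun ω σ c => ?_⟩
    · simp only [Finset.sum_apply]
      exact Finset.measurable_sum _ fun l _ =>
        (hB.comp (q := fun σ : Fin (n + 1) → S => σ l) measurable_id (measurable_pi_apply l)).meas c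
    · rw [Finset.sum_apply]
      refine (Finset.abs_sum_le_sum_abs _ _).trans ((Finset.sum_le_sum fun l _ =>
        hC ω (σ l) c).trans (le_of_eq ?_))
      simp
  have hB' : Feat fun (_ : Ω) (σ : Fin (n + 1) → S) => Φ σ • A₀ (σ 0) :=
    (hA.comp measurable_id (measurable_pi_apply 0)).bd_smul
      ⟨hΦ.comp measurable_snd, fun _ σ => hb σ⟩
  have key := ibp1 (μ := Measure.pi fun _ : Fin (n + 1) => μ) hF hA' hB'
  have eH : (fun (ω : Ω × (ι → ℝ)) (σ : Fin (n + 1) → S) =>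
      ∑ l, H₀ ω.1 (σ l) + (∑ l, Bf (σ l)) ⬝ᵥ ω.2) =
      fun ω σ => ∑ l, (H₀ ω.1 (σ l) + Bf (σ l) ⬝ᵥ ω.2) := by
    funext ω σ
    rw [Finset.sum_add_distrib, sum_dotProduct]
  rw [eH] at key
  simp only [one_mul, zero_add, one_pow, smul_dotProduct, dotProduct_smul, smul_eq_mul,
    sum_dotProduct, Finset.mul_sum] at key
  rw [← An_sum hH Finset.univ fun l _ => (ibpn_bd hB hA measurable_fst hΦ hb
    (measurable_pi_apply l) (measurable_pi_apply 0)).choose_spec.good.goodn, An_eq_A1 hH,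
    An_eq_A1 hH, key, An_snoc hH (ibpn_bd hB hA measurable_fst
      (Φ := fun σ : Fin (n + 2) → S => Φ (Fin.init σ))
      (hΦ.comp (measurable_pi_lambda _ fun i => measurable_pi_apply _)) (fun σ => hb _)
      (measurable_pi_apply (Fin.last (n + 1))) (measurable_pi_apply 0)).choose_spec.good.goodn,
      ← An_const_mul]
  refine congrArg _ ?_
  unfold A2 An
  refine integral_congr_ae (ae_of_all _ fun ω => ?_)
  have := hH.isProb (μ := μ) ω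
  simp only [← pi_tilted hH]
  refine integral_congr_ae (ae_of_all _ fun σ => ?_)
  obtain ⟨C, hC⟩ := ibpn_bd (Ω' := Ω × (ι → ℝ)) hB hA measurable_fst
    (Φ := fun _ : S => Φ σ) measurable_const (fun _ => hb σ) measurable_id
    (measurable_const (a := σ 0))
  have i1 := (hC.good (P := P.prod (gp ι))).integrable_sec ω
    (μ.tilted fun σ => H₀ ω.1 σ + Bf σ ⬝ᵥ ω.2)
  have e0 : ∀ τ : S, (Fin.snoc (α := fun _ => S) σ τ : Fin (n + 2) → S) 0 = σ 0 := fun τ =>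
    Fin.snoc_castSucc (α := fun _ => S) τ σ 0
  simp only [Fin.init_snoc, Fin.snoc_last, e0]
  have e1 : ∀ l : Fin (n + 1), ∫ σ' : Fin (n + 1) → S, Φ σ * (Bf (σ' l) ⬝ᵥ A₀ (σ 0))
      ∂(Measure.pi fun _ => μ.tilted fun σ => H₀ ω.1 σ + Bf σ ⬝ᵥ ω.2) =
      ∫ τ, Φ σ * (Bf τ ⬝ᵥ A₀ (σ 0)) ∂(μ.tilted fun σ => H₀ ω.1 σ + Bf σ ⬝ᵥ ω.2) := fun l =>
    integral_comp_eval (μ := fun _ => μ.tilted fun σ => H₀ ω.1 σ + Bf σ ⬝ᵥ ω.2) (i := l)
      (f := fun τ => Φ σ * (Bf τ ⬝ᵥ A₀ (σ 0))) i1.aestronglyMeasurable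
  rw [integral_finsetSum _ fun l _ => integrable_comp_eval
    (μ := fun _ => μ.tilted fun σ => H₀ ω.1 σ + Bf σ ⬝ᵥ ω.2) (i := l)
    (f := fun τ => Φ σ * (Bf τ ⬝ᵥ A₀ (σ 0))) i1]
  simp only [e1, Finset.sum_const, Finset.card_univ, Fintype.card_fin, nsmul_eq_mul, Nat.cast_add,
    Nat.cast_one]

end P157
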