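import Vale.Agent.P157.GBasic
import Vale.Agent.P157.Stab
import Vale.Agent.P157.ROne

/-! P157 Tree: combinatorics of the finite tree.
Plan: inductions on the depth `k` (generalising the leaves and `j`); `Leaf L (n+1)` unfolds to
`Fin L × Leaf L n` and `Nd L (n+1)` to `Option (Fin L × Nd L n)` by `rfl`. For `tfeat_dot` use
`dep_anc` to see that `anc ω j = anc ω' j'` forces `j = j'`. `nd_split`: `Measure.pi_eq` on boxes
(for the inverse map) or `measurePreserving_piOptionEquivProd`-like lemmas plus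
`infinitePi_map_curry`/`Measure.infinitePi_eq_pi`.
-/

open MeasureTheory ProbabilityTheory Real
open scoped BigOperators Matrix

namespace P157


variable {L k : ℕ}

theorem dep_anc (ω : Leaf L k) {j : ℕ} (hj : j ≤ k) : dep (anc ω j) = j := by
  induction k generalizing j with
  | zero => obtain rfl : j = 0 := by omega
            rfl
  | succ n ih =>
    cases j with
    | zero => rfl
    | succ j => exact congrArg (· + 1) (ih ω.2 (by omega))
theorem dep_le (x : Nd L k) : dep x ≤ k := by
  induction k with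
  | zero => exact le_rfl
  | succ n ih =>
    rcases x with _ | x
    · exact Nat.zero_le _
    · exact Nat.succ_le_succ (ih x.2)
theorem tree_cj_succ {n : ℕ} (ω ω' : Leaf L (n + 1)) :
    cj ω ω' = if ω.1 = ω'.1 then cj ω.2 ω'.2 + 1 else 0 := rfl
theorem anc_eq_iff (ω ω' : Leaf L k) {j : ℕ} (hj : j ≤ k) : anc ω j = anc ω' j ↔ j ≤ cj ω ω' := by
  induction k generalizing j with
  | zero =>
    obtain rfl : j = 0 := by omega
    exact ⟨fun _ => Nat.zero_le _, fun _ => rfl⟩
  | succ n ih =>
    cases j with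
    | zero => exact ⟨fun _ => Nat.zero_le _, fun _ => rfl⟩
    | succ j =>
      have h1 : anc ω (j + 1) = anc ω' (j + 1) ↔ ω.1 = ω'.1 ∧ anc ω.2 j = anc ω'.2 j :=
        Option.some_inj.trans Prod.mk_inj
      rw [h1, ih ω.2 ω'.2 (by omega), tree_cj_succ]
      split_ifs with h
      · simp [h]
      · simp [h]
theorem cj_le (ω ω' : Leaf L k) : cj ω ω' ≤ k := by
  induction k with
  | zero => exact le_rfl
  | succ n ih =>
    rw [tree_cj_succ]
    have := ih ω.2 ω'.2
    split_ifs <;> omega
theorem cj_self (ω : Leaf L k) : cj ω ω = k := by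
  induction k with
  | zero => rfl
  | succ n ih => rw [tree_cj_succ, if_pos rfl, ih]
theorem cj_comm (ω ω' : Leaf L k) : cj ω ω' = cj ω' ω := by
  induction k with
  | zero => rfl
  | succ n ih =>
    rw [tree_cj_succ, tree_cj_succ, ih ω.2 ω'.2]
    exact if_congr eq_comm rfl rfl
theorem cj_ultra (a b c : Leaf L k) : min (cj a c) (cj b c) ≤ cj a b := by
  have h1 := cj_le a c
  have h0 : min (cj a c) (cj b c) ≤ k := (min_le_left _ _).trans h1
  rw [← anc_eq_iff a b h0]
  exact ((anc_eq_iff a c h0).2 (min_le_left _ _)).trans ((anc_eq_iff b c h0).2 (min_le_right _ _)).symm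
theorem card_leaf (L k : ℕ) : Fintype.card (Leaf L k) = L ^ k := by
  induction k with
  | zero => rfl
  | succ n ih =>
    have : Fintype.card (Leaf L (n + 1)) = Fintype.card (Fin L) * Fintype.card (Leaf L n) :=
      Fintype.card_prod (Fin L) (Leaf L n)
    rw [this, ih, Fintype.card_fin, pow_succ']
theorem unif_prob (hL : 0 < L) (k : ℕ) : IsProbabilityMeasure (unif L k) := by
  refine ⟨?_⟩
  have h1 : ((L : ENNReal) ^ k) ≠ 0 := pow_ne_zero _ (by exact_mod_cast hL.ne')
  have h2 : ((L : ENNReal) ^ k) ≠ ⊤ := ENNReal.pow_ne_top (ENNReal.natCast_ne_top L)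
  rw [unif, Measure.smul_apply, Measure.count_univ, ENat.card_eq_coe_fintype_card, card_leaf,
    smul_eq_mul]
  simpa using ENNReal.inv_mul_cancel h1 h2
theorem integral_unif (hL : 0 < L) (F : Leaf L k → ℝ) :
    ∫ ω, F ω ∂(unif L k) = ((L : ℝ) ^ k)⁻¹ * ∑ ω, F ω := by
  rw [unif, integral_smul_measure, integral_count, smul_eq_mul]
  simp

theorem tf_eq_dot (w : ℕ → ℝ) (g : Nd L k → ℝ) (ω : Leaf L k) : tf w g ω = tfeat w ω ⬝ᵥ g := by
  simp only [tf, tfeat, dotProduct, Finset.sum_mul]
  rw [Finset.sum_comm]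
  refine Finset.sum_congr rfl fun j _ => ?_
  simp
theorem tfeat_dot (w w' : ℕ → ℝ) (ω ω' : Leaf L k) :
    tfeat w ω ⬝ᵥ tfeat w' ω' = ∑ j ∈ Finset.range (k + 1), w j * w' j * ind j ω ω' := by
  rw [← tf_eq_dot, tf]
  refine Finset.sum_congr rfl fun j hj => ?_
  have hj' : j ≤ k := Nat.lt_succ_iff.1 (Finset.mem_range.1 hj)
  rw [mul_assoc, tfeat, Finset.sum_eq_single j]
  · rw [ind]
    simp only [anc_eq_iff ω ω' hj']
    split_ifs <;> simp
  · intro i hi hij
    have hi' : i ≤ k := Nat.lt_succ_iff.1 (Finset.mem_range.1 hi)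
    refine if_neg fun h => hij ?_
    rw [← dep_anc ω hj', h, dep_anc ω' hi']
  · intro h; exact absurd hj h
theorem eq_sum_ind (q : ℕ → ℝ) (ω ω' : Leaf L k) :
    q (cj ω ω') = ∑ j ∈ Finset.range (k + 1), inc q j * ind j ω ω' := by
  rw [← sum_inc q]
  simp only [ind, mul_ite, mul_one, mul_zero]
  rw [← Finset.sum_filter]
  refine Finset.sum_congr ?_ fun _ _ => rfl
  ext j
  have := cj_le ω ω'
  simp only [Finset.mem_range, Finset.mem_filter]
  omega
theorem tfeat_wq {q : ℕ → ℝ} (hq : IsPath k q) (ω ω' : Leaf L k) :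
    tfeat (wq q) ω ⬝ᵥ tfeat (wq q) ω' = q (cj ω ω') := by
  rw [tfeat_dot, eq_sum_ind q]
  refine Finset.sum_congr rfl fun j hj => ?_
  rw [← sq, wq_sq hq (Nat.lt_succ_iff.1 (Finset.mem_range.1 hj))]
theorem tf_single (j : ℕ) (hj : j ≤ k) (c : ℝ) (g : Nd L k → ℝ) (ω : Leaf L k) :
    tf (fun i => if i = j then c else 0) g ω = c * g (anc ω j) := by
  rw [tf, Finset.sum_eq_single j]
  · rw [if_pos rfl]
  · intro i _ hij; rw [if_neg hij, zero_mul]
  · intro h; exact absurd (Finset.mem_range.2 (Nat.lt_succ_of_le hj)) h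
theorem tf_smul (c : ℝ) (w : ℕ → ℝ) (g : Nd L k → ℝ) (ω : Leaf L k) :
    tf (fun i => c * w i) g ω = c * tf w g ω := by
  simp only [tf, Finset.mul_sum, mul_assoc]
theorem ind_self {j : ℕ} (hj : j ≤ k) (ω : Leaf L k) : ind j ω ω = 1 := by
  rw [ind, cj_self, if_pos hj]
theorem abs_ind_le (j : ℕ) (ω ω' : Leaf L k) : |ind j ω ω'| ≤ 1 := by
  rw [ind]
  split_ifs <;> simp

theorem tree_meas_eval {E : Type} [MeasurableSpace E] (j : ℕ) :
    Measurable fun p : (Nd L k → E) × Leaf L k => p.1 (anc p.2 j) :=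
  measurable_from_prod_countable_left fun ω => measurable_pi_apply (anc ω j)

section
variable {Ω S : Type} [MeasurableSpace Ω] [MeasurableSpace S] {lf : S → Leaf L k}
theorem feat_tfeat (hlf : Measurable lf) (w : ℕ → ℝ) :
    Feat (fun (_ : Ω) σ => tfeat w (lf σ)) := by
  refine ⟨fun c => ?_, ∑ j ∈ Finset.range (k + 1), |w j|, fun _ σ c => ?_⟩
  · exact (measurable_of_countable fun ω : Leaf L k => tfeat w ω c).comp (hlf.comp measurable_snd)
  · refine (Finset.abs_sum_le_sum_abs _ _).trans (Finset.sum_le_sum fun j _ => ?_)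
    split_ifs <;> simp
theorem measurable_tf (hlf : Measurable lf) (w : ℕ → ℝ) {e : Ω → Nd L k → ℝ} (he : Measurable e) :
    Measurable fun p : Ω × S => tf w (e p.1) (lf p.2) := by
  exact Finset.measurable_sum _ fun j _ =>
    ((tree_meas_eval j).comp (he.prodMap hlf)).const_mul (w j)
theorem bd2_leaf (hlf : Measurable lf) (F : Leaf L k → Leaf L k → ℝ) {C : ℝ}
    (hF : ∀ ω ω', |F ω ω'| ≤ C) : Bd2 (fun (_ : Ω) σ σ' => F (lf σ) (lf σ')) C := by
  refine ⟨?_, fun _ σ σ' => hF _ _⟩
  exact (measurable_of_countable fun p : Leaf L k × Leaf L k => F p.1 p.2).comp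
    ((hlf.prodMap hlf).comp measurable_snd)
theorem bd2_ind (hlf : Measurable lf) (j : ℕ) :
    Bd2 (fun (_ : Ω) σ σ' => ind j (lf σ) (lf σ')) 1 := bd2_leaf hlf _ (abs_ind_le j)
end

theorem lw_good (m : ℕ → ℝ) : Good (PU L k m) (lw (L := L) (k := k) m) := by
  have h2 : ∀ x : Nd L k, Integrable (fun u : Nd L k → ℝ => u x) (PU L k m) := fun x =>
    integrable_eval (stab_integrable _)
  refine ⟨Finset.measurable_sum _ fun j _ => (tree_meas_eval j).div_const _,
    fun u => ∑ j ∈ Finset.Icc 1 k, (∑ x, |u x|) / |m (j + 1)|,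
    integrable_finsetSum _ fun j _ => (integrable_finsetSum _ fun x _ => (h2 x).abs).div_const _,
    fun u ω => ?_⟩
  refine (Finset.abs_sum_le_sum_abs _ _).trans (Finset.sum_le_sum fun j _ => ?_)
  rw [abs_div]
  exact div_le_div_of_nonneg_right
    (Finset.single_le_sum (f := fun x => |u x|) (fun _ _ => abs_nonneg _) (Finset.mem_univ _))
    (abs_nonneg _)

/-- splitting of functions on `Option (A × B)` -/
def treeSplit (A B E : Type) [MeasurableSpace E] : E × (A → B → E) ≃ᵐ (Option (A × B) → E) where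
  toFun p x := x.elim p.1 fun y => p.2 y.1 y.2
  invFun g := (g none, fun i x => g (some (i, x)))
  left_inv _ := rfl
  right_inv g := funext fun x => by cases x <;> rfl
  measurable_toFun := measurable_pi_lambda _ fun x => by
    cases x with
    | none => exact measurable_fst
    | some y => exact (measurable_pi_apply y.2).comp ((measurable_pi_apply y.1).comp measurable_snd)
  measurable_invFun := (measurable_pi_apply none).prodMk
    (measurable_pi_lambda _ fun i => measurable_pi_lambda _ fun x => measurable_pi_apply _)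

theorem treeSplit_mp {A B E : Type} [Fintype A] [Fintype B] [MeasurableSpace E]
    (ν : Option (A × B) → Measure E) [∀ x, IsProbabilityMeasure (ν x)] :
    MeasurePreserving (treeSplit A B E)
      ((ν none).prod (Measure.pi fun i : A => Measure.pi fun x : B => ν (some (i, x))))
      (Measure.pi ν) := by
  refine ⟨(treeSplit A B E).measurable, (Measure.pi_eq fun s _ => ?_).symm⟩
  have h1 : treeSplit A B E ⁻¹' Set.pi Set.univ s =
      s none ×ˢ Set.pi Set.univ fun i : A => Set.pi Set.univ fun x : B => s (some (i, x)) := by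
    ext p
    simp only [Set.mem_preimage, Set.mem_pi, Set.mem_univ, forall_true_left, Set.mem_prod]
    refine ⟨fun h => ⟨h none, fun i x => h (some (i, x))⟩, fun h x => ?_⟩
    cases x with
    | none => exact h.1
    | some y => exact h.2 y.1 y.2
  rw [MeasurableEquiv.map_apply, h1, Measure.prod_prod, Measure.pi_pi, Fintype.prod_option,
    Fintype.prod_prod_type]
  simp only [Measure.pi_pi]

/-- marks on the tree of depth `n+1` = root mark and `L` independent subtrees -/
theorem nd_split {E : Type} [MeasurableSpace E] {n : ℕ} (ν : Nd L (n + 1) → Measure E)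
    [∀ x, IsProbabilityMeasure (ν x)] :
    MeasurePreserving
      (fun g : Nd L (n + 1) → E => (g none, fun (i : Fin L) (x : Nd L n) => g (some (i, x))))
      (Measure.pi ν)
      ((ν none).prod (Measure.pi fun i : Fin L => Measure.pi fun x : Nd L n => ν (some (i, x)))) := by
  exact (@treeSplit_mp (Fin L) (Nd L n) E _ _ _ ν ‹_›).symm

end P157
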