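import Vale.Agent.P157.SyncLim
import Vale.Agent.P157.GAn
import Vale.Agent.P157.Tree

/-! P157 SyncMod: synchronisation for Gibbs measures.
Plan. Let `G ω = μ.tilted (H ω)`; `ω ↦ Measure.infinitePi (fun _ : ℕ => G ω)` is measurable
(`Measurable.measure_of_isPiSystem_of_isProbabilityMeasure` on cylinders, or avoid this by realising
the replicas through a kernel / `Kernel.traj`-free argument: for measurable boxes the measure is a
finite product of `G ω (t i)`). Put `Λ = (P.bind …).map arr` with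
`arr σ i j = (⟨ov (sp (σ i)) (sp (σ j)), _⟩, ⟨cj (lf (σ i)) (lf (σ j)), _⟩)`. `Exch`: reindexing an
`infinitePi` of identical factors along an injection preserves it (`Measure.eq_infinitePi`). Every
`arr σ` lies in `ArrC k` (Gram matrix; `cj_comm`, `cj_self`, `cj_ultra`). For `Φ` with `DepOn n`,
`∫ Φ ∂Λ = An (n+1) (Φ ∘ arr ∘ extension)`, which turns `GGa` into `ArrGG` (`An_pair`, `An_reindex`).
Apply `sync_arr` and replace `p` by `top1 k p`: the cost is at most `Λ{J = k} ≤ δ`.
-/

open MeasureTheory ProbabilityTheory Real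
open scoped BigOperators Matrix

namespace P157


theorem abs_ov_le {S : Type} [MeasurableSpace S] {N : ℕ} {sp : S → Fin N → ℝ} (h : IsSp sp)
    (σ σ' : S) : |ov (sp σ) (sp σ')| ≤ 1 := by
  rcases Nat.eq_zero_or_pos N with rfl | hN
  · simp [ov]
  have hN' : (0 : ℝ) < N := Nat.cast_pos.2 hN
  have h1 := h.norm σ
  have h2 := h.norm σ'
  simp only [dotProduct] at h1 h2
  rw [ov, abs_div, abs_of_pos hN', div_le_one hN', dotProduct, abs_le]
  have a1 : 0 ≤ ∑ i, (sp σ i + sp σ' i) ^ 2 := Finset.sum_nonneg fun _ _ => sq_nonneg _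
  have a2 : 0 ≤ ∑ i, (sp σ i - sp σ' i) ^ 2 := Finset.sum_nonneg fun _ _ => sq_nonneg _
  have e1 : ∑ i, (sp σ i + sp σ' i) ^ 2 = ∑ i, sp σ i * sp σ i + ∑ i, sp σ' i * sp σ' i
      + 2 * ∑ i, sp σ i * sp σ' i := by
    rw [Finset.mul_sum, ← Finset.sum_add_distrib, ← Finset.sum_add_distrib]
    exact Finset.sum_congr rfl fun i _ => by ring
  have e2 : ∑ i, (sp σ i - sp σ' i) ^ 2 = ∑ i, sp σ i * sp σ i + ∑ i, sp σ' i * sp σ' i
      - 2 * ∑ i, sp σ i * sp σ' i := by
    rw [Finset.mul_sum, ← Finset.sum_add_distrib, ← Finset.sum_sub_distrib]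
    exact Finset.sum_congr rfl fun i _ => by ring
  constructor <;> linarith

theorem ov_self {S : Type} [MeasurableSpace S] {N : ℕ} {sp : S → Fin N → ℝ} (h : IsSp sp)
    (hN : 0 < N) (σ : S) : ov (sp σ) (sp σ) = 1 := by
  rw [ov, h.norm, div_self (Nat.cast_pos.2 hN).ne']

theorem measurable_ov {S : Type} [MeasurableSpace S] {N : ℕ} {sp : S → Fin N → ℝ} (h : IsSp sp) :
    Measurable fun p : S × S => ov (sp p.1) (sp p.2) := by
  have := h.meas
  simp only [ov, dotProduct]
  fun_prop

theorem bd2_ov {Ω S : Type} [MeasurableSpace Ω] [MeasurableSpace S] {N : ℕ} {sp : S → Fin N → ℝ}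
    (h : IsSp sp) : Bd2 (fun (_ : Ω) σ σ' => ov (sp σ) (sp σ')) 1 :=
  ⟨(measurable_ov h).comp measurable_snd, fun _ σ σ' => abs_ov_le h σ σ'⟩

section Rep
variable {Ω S : Type} [MeasurableSpace Ω] [MeasurableSpace S] {P : Measure Ω}
  [IsProbabilityMeasure P] {μ : Measure S} [IsProbabilityMeasure μ] {H : Ω → S → ℝ}

theorem Good.measurable_tilted (h : Good P H) : Measurable fun ω => μ.tilted (H ω) := by
  refine Measure.measurable_of_measurable_coe _ fun s hs => ?_
  have hb : Bd1 (fun (_ : Ω) (σ : S) => s.indicator (1 : S → ℝ) σ) 1 :=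
    ⟨(measurable_one.indicator hs).comp measurable_snd, fun _ σ => by
      by_cases g : σ ∈ s <;> simp [g]⟩
  have h1 := (h.measurable_A1 (μ := μ) hb.good).ennreal_ofReal
  have e : ∀ ω, ENNReal.ofReal (∫ σ, s.indicator (1 : S → ℝ) σ ∂(μ.tilted (H ω))) =
      μ.tilted (H ω) s := fun ω => by
    have := h.isProb (μ := μ) ω
    rw [integral_indicator_one hs, ofReal_measureReal]
  simpa only [e] using h1

theorem Good.exists_rep (h : Good P H) : ∃ Q : Measure (ℕ → S), IsProbabilityMeasure Q ∧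
    (∀ e : ℕ → ℕ, Function.Injective e → Q.map (fun σ i => σ (e i)) = Q) ∧
    ∀ (n : ℕ) (F : (Fin n → S) → ℝ) (C : ℝ), Measurable F → (∀ σ, |F σ| ≤ C) →
      ∫ σ, F (fun i => σ i) ∂Q = An P μ H n (fun _ σ => F σ) := by
  have : ∀ ω, IsProbabilityMeasure (μ.tilted (H ω)) := h.isProb
  have hm : Measurable fun ω => Measure.infinitePi fun _ : ℕ => μ.tilted (H ω) := by
    refine Measurable.measure_of_isPiSystem_of_isProbabilityMeasure
      generateFrom_squareCylinders.symm
      (isPiSystem_squareCylinders (fun _ => MeasurableSpace.isPiSystem_measurableSet)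
        (fun _ => MeasurableSet.univ)) ?_
    rintro _ ⟨s, t, ht, rfl⟩
    have ht' : ∀ i, MeasurableSet (t i) := fun i => ht i (Set.mem_univ i)
    simp only [Measure.infinitePi_pi _ fun i _ => ht' i]
    exact Finset.measurable_prod _ fun i _ =>
      (Measure.measurable_coe (ht' i)).comp h.measurable_tilted
  let κ : Kernel Ω (ℕ → S) := ⟨_, hm⟩
  have hκ : ∀ ω, κ ω = Measure.infinitePi fun _ : ℕ => μ.tilted (H ω) := fun _ => rfl
  have : IsMarkovKernel κ := ⟨fun ω => by rw [hκ]; infer_instance⟩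
  refine ⟨P.bind κ, inferInstance, fun e he => ?_, fun n F C hF hC => ?_⟩
  · have me : Measurable fun (σ : ℕ → S) i => σ (e i) := by fun_prop
    ext s hs
    rw [Measure.map_apply me hs, Measure.bind_apply (me hs) κ.aemeasurable,
      Measure.bind_apply hs κ.aemeasurable]
    refine lintegral_congr fun ω => ?_
    rw [← Measure.map_apply me hs, hκ, Measure.map_infinitePi_infinitePi_of_inj he]
  · have me : Measurable fun (σ : ℕ → S) (i : Fin n) => σ i := by fun_prop
    have mF : Measurable fun σ : ℕ → S => F (fun i => σ i) := hF.comp me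
    have mF' : Measurable fun p : Ω × (ℕ → S) => F (fun i => p.2 i) := mF.comp measurable_snd
    rw [← Measure.snd_compProd, Measure.snd, integral_map measurable_snd.aemeasurable
      mF.aestronglyMeasurable, Measure.integral_compProd (Integrable.of_bound
        mF'.aestronglyMeasurable C (Filter.Eventually.of_forall fun p => hC _))]
    refine integral_congr_ae (Filter.Eventually.of_forall fun ω => ?_)
    have mp : MeasurePreserving (fun (σ : ℕ → S) (i : Fin n) => σ i) (κ ω)
        (Measure.pi fun _ => μ.tilted (H ω)) := ⟨me, by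
      rw [hκ, Measure.map_infinitePi_infinitePi_of_inj Fin.val_injective,
        Measure.infinitePi_eq_pi]⟩
    exact gan_comp mp hF

theorem sm_sum (f : ℕ → ℝ) (n : ℕ) : ∑ j ∈ Finset.Icc 1 n, f j = ∑ l : Fin n, f (l + 1) := by
  rw [Fin.sum_univ_eq_sum_range (fun l => f (l + 1))]
  induction n with
  | zero => simp
  | succ k ih => rw [Finset.sum_Icc_succ_top (by omega), ih, Finset.sum_range_succ]

/-- overlap arrays of a Gibbs measure -/
theorem Good.exists_arr (h : Good P H) {k : ℕ} {ent : S → S → KK k}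
    (hent : Measurable fun p : S × S => ent p.1 p.2) :
    ∃ Λ : Measure (ℕ → ℕ → KK k), IsProbabilityMeasure Λ ∧ Exch Λ ∧
      (∀ E : Set (ℕ → ℕ → KK k), MeasurableSet E →
        (∀ σ : ℕ → S, (fun i j => ent (σ i) (σ j)) ∈ E) → ∀ᵐ A ∂Λ, A ∈ E) ∧
      (∀ (g : KK k → ℝ) (C : ℝ), Measurable g → (∀ x, |g x| ≤ C) →
        ∫ A, g (A 0 1) ∂Λ = A2 P μ H fun _ σ σ' => g (ent σ σ')) ∧
      ∀ (n a j : ℕ) (ε : ℝ), GGa P μ H (fun σ σ' => psiK a j (ent σ σ')) n ε → ArrGG Λ n a j ε := by
  obtain ⟨Q, hQ, hex, hint⟩ := h.exists_rep (μ := μ)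
  have me : ∀ {X : Type} [MeasurableSpace X] {f g : X → S}, Measurable f → Measurable g →
      Measurable fun x => ent (f x) (g x) := fun hf hg => hent.comp (hf.prodMk hg)
  have marr : Measurable fun (σ : ℕ → S) i j => ent (σ i) (σ j) :=
    measurable_pi_lambda _ fun i => measurable_pi_lambda _ fun j =>
      me (measurable_pi_apply i) (measurable_pi_apply j)
  have hpair : ∀ (g : KK k → ℝ) (C : ℝ), Measurable g → (∀ x, |g x| ≤ C) →
      ∫ A, g (A 0 1) ∂(Q.map fun (σ : ℕ → S) i j => ent (σ i) (σ j)) =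
        A2 P μ H fun _ σ σ' => g (ent σ σ') := fun g C hg hC => by
    have hg' : Measurable fun A : ℕ → ℕ → KK k => g (A 0 1) := hg.comp (by fun_prop)
    rw [integral_map marr.aemeasurable hg'.aestronglyMeasurable]
    have b2 : Bd2 (fun (_ : Ω) σ σ' => g (ent σ σ')) C :=
      ⟨hg.comp (hent.comp measurable_snd), fun _ _ _ => hC _⟩
    exact (hint 2 (fun σ => g (ent (σ 0) (σ 1))) C
      (hg.comp (me (measurable_pi_apply 0) (measurable_pi_apply 1))) fun _ => hC _).trans
      (An_pair h b2.good2 (by decide))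
  refine ⟨Q.map fun (σ : ℕ → S) i j => ent (σ i) (σ j),
    Measure.isProbabilityMeasure_map marr.aemeasurable, fun e he => ?_, fun E hE hσ => ?_, hpair,
    fun n a j ε hG Φ hΦ hd hb => ?_⟩
  · have m1 : Measurable fun (σ : ℕ → S) i => σ (e i) := by fun_prop
    rw [Measure.map_map (measurable_rx e) marr]
    conv_rhs => rw [← hex e he, Measure.map_map marr m1]
    rfl
  · exact (ae_map_iff marr.aemeasurable hE).2 (Filter.Eventually.of_forall hσ)
  · have mψ : Measurable (psiK (k := k) a j) :=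
      ((show Measurable fun x : KK k => (x.1 : ℝ) by fun_prop).pow_const a).mul
        ((measurable_of_countable fun i : Fin (k + 1) =>
          if j ≤ (i : ℕ) then (1 : ℝ) else 0).comp measurable_snd)
    have bψ : ∀ x : KK k, |psiK a j x| ≤ 1 := fun x => by
      rw [psiK, abs_mul, abs_pow]
      refine mul_le_one₀ (pow_le_one₀ (abs_nonneg _) (abs_le.2 x.1.2)) (abs_nonneg _) ?_
      split_ifs <;> simp
    let ex : ℕ → Fin (n + 1) := fun i => ⟨min i n, Nat.lt_succ_of_le (min_le_right _ _)⟩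
    let Φ' : (Fin (n + 1) → S) → ℝ := fun τ => Φ fun i j => ent (τ (ex i)) (τ (ex j))
    have mΦ : Measurable Φ := hΦ.measurable
    have mΦ' : Measurable Φ' := mΦ.comp (measurable_pi_lambda _ fun i =>
      measurable_pi_lambda _ fun j => me (measurable_pi_apply _) (measurable_pi_apply _))
    have eΦ : ∀ σ : ℕ → S, Φ (fun i j => ent (σ i) (σ j)) = Φ' fun i => σ i := fun σ =>
      hd _ _ fun i hi j hj => by simp only [ex, min_eq_left hi, min_eq_left hj]
    have bm : ∀ (x : ℝ) (y : KK k), |x| ≤ 1 → |x * psiK a j y| ≤ 1 := fun x y hx => by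
      rw [abs_mul]
      exact mul_le_one₀ hx (abs_nonneg _) (bψ y)
    have im : ∀ l : ℕ, ∫ A, Φ A * psiK a j (A 0 l) ∂(Q.map fun (σ : ℕ → S) i j => ent (σ i) (σ j)) =
        ∫ σ, Φ' (fun i => σ i) * psiK a j (ent (σ 0) (σ l)) ∂Q := fun l => by
      have hg' : Measurable fun A : ℕ → ℕ → KK k => Φ A * psiK a j (A 0 l) :=
        mΦ.mul (mψ.comp (by fun_prop))
      rw [integral_map marr.aemeasurable hg'.aestronglyMeasurable]
      simp only [eΦ]
    have t1 := hint (n + 2) (fun σ => Φ' (Fin.init σ) * psiK a j (ent (σ 0) (σ (Fin.last (n + 1))))) 1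
      ((mΦ'.comp (measurable_pi_lambda _ fun i => measurable_pi_apply _)).mul
        (mψ.comp (me (measurable_pi_apply _) (measurable_pi_apply _)))) fun σ => bm _ _ (hb _)
    have t2 := hint (n + 1) Φ' 1 mΦ' fun σ => hb _
    have t4 : ∀ l : Fin n, ∫ σ, Φ' (fun i => σ i) * psiK a j (ent (σ 0) (σ (l + 1))) ∂Q =
        An P μ H (n + 1) fun _ σ => Φ' σ * psiK a j (ent (σ 0) (σ l.succ)) := fun l =>
      hint (n + 1) (fun σ => Φ' σ * psiK a j (ent (σ 0) (σ l.succ))) 1
        (mΦ'.mul (mψ.comp (me (measurable_pi_apply _) (measurable_pi_apply _))))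
        fun σ => bm _ _ (hb _)
    have key := hG Φ' mΦ' fun σ => hb _
    rw [hpair _ 1 mψ bψ, integral_map marr.aemeasurable mΦ.aestronglyMeasurable, sm_sum]
    simp only [im, eΦ, t2, t4]
    rw [← t1] at key
    exact key

end Rep

theorem measurableSet_arrC (k : ℕ) : MeasurableSet (ArrC k) := by
  refine IsClosed.measurableSet ?_
  have c1 : ∀ i j, Continuous fun A : ℕ → ℕ → KK k => ((A i j).1 : ℝ) := fun i j => by fun_prop
  have c2 : ∀ i j, Continuous fun A : ℕ → ℕ → KK k => (A i j).2 := fun i j => by fun_prop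
  simp only [ArrC, PSD, Set.ofPred_and, Set.ofPred_forall]
  refine (IsClosed.inter ?_ ?_).inter (IsClosed.inter ?_ (IsClosed.inter ?_ ?_))
  · exact isClosed_iInter fun i => isClosed_iInter fun j => isClosed_eq (c1 i j) (c1 j i)
  · exact isClosed_iInter fun n => isClosed_iInter fun c => isClosed_le continuous_const
      (continuous_finsetSum _ fun i _ => continuous_finsetSum _ fun j _ =>
        continuous_const.mul (c1 i j))
  · exact isClosed_iInter fun i => isClosed_iInter fun j => isClosed_eq (c2 i j) (c2 j i)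
  · exact isClosed_iInter fun i => isClosed_eq (c2 i i) continuous_const
  · exact isClosed_iInter fun a => isClosed_iInter fun b => isClosed_iInter fun c =>
      isClosed_le ((c2 a c).min (c2 b c)) (c2 a b)

theorem psd_ov {N : ℕ} (x : ℕ → Fin N → ℝ) : PSD fun i j => ov (x i) (x j) := by
  refine ⟨fun i j => by simp only [ov, dotProduct_comm], fun n c => ?_⟩
  have e : ∑ i ∈ Finset.range n, ∑ j ∈ Finset.range n, c i * c j * ov (x i) (x j) =
      (∑ t, (∑ i ∈ Finset.range n, c i * x i t) ^ 2) / N := by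
    simp only [sq, Finset.sum_mul_sum]
    simp only [ov, dotProduct, Finset.sum_div, Finset.mul_sum]
    rw [Finset.sum_comm (s := Finset.univ)]
    refine Finset.sum_congr rfl fun i _ => ?_
    rw [Finset.sum_comm (s := Finset.univ)]
    exact Finset.sum_congr rfl fun j _ => Finset.sum_congr rfl fun t _ => by ring
  rw [e]
  positivity

theorem sync_model (k : ℕ) {ε : ℝ} (hε : 0 < ε) : ∃ (n₀ : ℕ) (ε' : ℝ), 0 < ε' ∧
    ∀ {Ω S : Type} [MeasurableSpace Ω] [MeasurableSpace S] {P : Measure Ω} [IsProbabilityMeasure P]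
      {μ : Measure S} [IsProbabilityMeasure μ] {H : Ω → S → ℝ} (_ : Good P H) {L N : ℕ}
      {sp : S → Fin N → ℝ} (_ : IsSp sp) {lf : S → Leaf L k} (_ : Measurable lf)
      (_ : ∀ n ≤ n₀, ∀ a ≤ n₀, ∀ j ≤ k,
        GGa P μ H (fun σ σ' => ov (sp σ) (sp σ') ^ a * ind j (lf σ) (lf σ')) n ε')
      (δ : ℝ) (_ : ∀ j ≤ k, A2 P μ H (fun _ σ σ' => if cj (lf σ) (lf σ') = j then 1 else 0) ≤ δ),
      ∃ p, IsOv k p ∧ Sync k P μ H sp lf p (2 * δ + ε) := by
  obtain ⟨n₀, ε', hε', main⟩ := sync_arr k hε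
  refine ⟨n₀, ε', hε', ?_⟩
  intro Ω S _ _ P _ μ _ H h L N sp hsp lf hlf hGG δ hδ
  let cf : Leaf L k × Leaf L k → Fin (k + 1) := fun q => ⟨cj q.1 q.2, Nat.lt_succ_of_le (cj_le _ _)⟩
  let ent : S → S → KK k := fun σ σ' =>
    (⟨ov (sp σ) (sp σ'), abs_le.1 (abs_ov_le hsp σ σ')⟩, cf (lf σ, lf σ'))
  have hent : Measurable fun p : S × S => ent p.1 p.2 :=
    (measurable_ov hsp).subtype_mk.prodMk ((measurable_of_finite cf).comp
      ((hlf.comp measurable_fst).prodMk (hlf.comp measurable_snd)))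
  obtain ⟨Λ, hΛ, hE, hae, hpair, hG⟩ := h.exists_arr (μ := μ) hent
  have m2 : ∀ F : ℕ → ℝ, Measurable fun x : KK k => F x.2 := fun F =>
    (measurable_of_countable fun i : Fin (k + 1) => F i).comp measurable_snd
  obtain ⟨p, hp, hpk, hint⟩ := main Λ hE (hae _ (measurableSet_arrC k) fun σ =>
    ⟨psd_ov fun i => sp (σ i), fun i j => Fin.ext (cj_comm _ _), fun i => Fin.ext (cj_self _),
      fun a b c => by
        have := cj_ultra (lf (σ a)) (lf (σ b)) (lf (σ c))
        rw [min_le_iff] at this ⊢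
        exact this⟩)
    (fun n hn a ha j hj => hG n a j ε' (hGG n hn a ha j hj)) δ (fun j => by
      have h1 := hpair (fun x => if (x.2 : ℕ) = j then 1 else 0) 1
        (m2 fun i => if i = j then 1 else 0) fun x => by split_ifs <;> simp
      have hs : MeasurableSet {A : ℕ → ℕ → KK k | (A 0 1).2 = j} :=
        (show Measurable fun A : ℕ → ℕ → KK k => (A 0 1).2 by fun_prop) (measurableSet_singleton j)
      rw [← integral_indicator_one hs]
      refine le_trans (le_of_eq (Eq.trans ?_ h1)) (hδ j (Nat.lt_succ_iff.1 j.2))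
      refine integral_congr_ae (Filter.Eventually.of_forall fun A => ?_)
      simp only [Set.indicator_apply, Set.mem_ofPred_eq, Pi.one_apply, Fin.ext_iff])
  have hmono : ∀ j ≤ k, ∀ i ≤ j, p i ≤ p j := fun j hj i hi => by
    induction j, hi using Nat.le_induction with
    | base => exact le_rfl
    | succ j g ih => exact (ih (by omega)).trans (hp.2 j (by omega))
  have h01 : ∀ j ≤ k, 0 ≤ p j ∧ p j ≤ 1 := fun j hj =>
    ⟨hp.1.trans (hmono j hj 0 (Nat.zero_le _)), (hmono k le_rfl j hj).trans hpk⟩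
  refine ⟨top1 k p, ⟨⟨?_, fun j hj => ?_⟩, if_pos rfl⟩, ?_⟩
  · unfold top1
    split_ifs
    exacts [zero_le_one, hp.1]
  · unfold top1
    rw [if_neg hj.ne]
    split_ifs
    exacts [(h01 j hj.le).2, hp.2 j hj]
  · have b0 : Bd2 (fun (_ : Ω) σ σ' => ov (sp σ) (sp σ')) 1 := bd2_ov hsp
    have b1 : Bd2 (fun (_ : Ω) σ σ' => p (cj (lf σ) (lf σ'))) 1 :=
      bd2_leaf hlf (fun a b => p (cj a b)) fun a b =>
        abs_le.2 ⟨by linarith [(h01 _ (cj_le a b)).1], (h01 _ (cj_le a b)).2⟩
    have b2 : Bd2 (fun (_ : Ω) σ σ' => top1 k p (cj (lf σ) (lf σ'))) 1 :=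
      bd2_leaf hlf (fun a b => top1 k p (cj a b)) fun a b => by
        unfold top1
        split_ifs
        · simp
        · exact abs_le.2 ⟨by linarith [(h01 _ (cj_le a b)).1], (h01 _ (cj_le a b)).2⟩
    have b3 : Bd2 (fun (_ : Ω) σ σ' => if cj (lf σ) (lf σ') = k then (1 : ℝ) else 0) 1 :=
      bd2_leaf hlf (fun a b => if cj a b = k then (1 : ℝ) else 0) fun a b => by
        split_ifs <;> simp
    have e1 := hpair (fun x => |(x.1 : ℝ) - p x.2|) 2
      ((show Measurable fun x : KK k => (x.1 : ℝ) by fun_prop).sub (m2 p)).abs fun x => by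
        have a1 := x.1.2
        have a2 := h01 x.2 (Nat.lt_succ_iff.1 x.2.2)
        rw [abs_abs, abs_le]
        constructor <;> linarith [a1.1, a1.2]
    rw [e1] at hint
    have e2 := A2_add (μ := μ) h (b0.sub b1).abs.good2 b3.good2
    have e3 := A2_mono (μ := μ) h (b0.sub b2).abs.good2
      ((b0.sub b1).abs.good2.add b3.good2) fun _ σ σ' => by
        unfold top1
        split_ifs with g
        · rw [g]
          have := abs_sub_le (ov (sp σ) (sp σ')) (p k) 1
          have a2 := h01 k le_rfl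
          rw [abs_of_nonpos (sub_nonpos.2 a2.2)] at this
          linarith [a2.1]
        · rw [add_zero]
    have e4 := hδ k le_rfl
    have e5 : A2 P μ H (fun _ σ σ' => |ov (sp σ) (sp σ') - p (cj (lf σ) (lf σ'))|) ≤ δ + ε := hint
    unfold Sync
    linarith

end P157
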