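import Vale.Agent.P157.IBPn
import Vale.Agent.P157.GIneq

/-! P157 TouchGG: second differences of the free energy give concentration of `h`, and concentration
gives the Ghirlanda-Guerra identities.
Plan (`conc_of_touch`): for fixed `ω`, `lZ(H+h) + lZ(H-h) - 2 lZ H = log ∫∫ cosh (h σ - h σ')
≥ ∫∫ log cosh (hσ - hσ') ≥ ∫∫ |hσ - hσ'| - log 2` (Jensen `integral_le_lZ` on the product measure,
`log cosh x ≥ |x| - log 2`), so `E⟨|h - ⟨h⟩|⟩ ≤ 4 + log 2 ≤ 5`. With `a = lZ(H+uh) - lZ H - u⟨h⟩ ≥ 0`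
and `b` likewise for `-u`, `E a ≤ E (a+b) ≤ 4u²`, hence `u E|⟨h⟩ - E⟨h⟩| ≤ 2v + 2 E a`.
(`gg_of_conc`): `|An (Φ h(σ 0)) - An Φ · A1 h| ≤ An |h(σ 0) - A1 h| = A1 |h - A1 h|` (`An_eval`);
expand both sides with `ibpn` (the term `l = 0` gives `b An Φ`; `A1_field` is the case `n = 0`,
`Φ = 1`, with `An_eval`, `An_pair`).
-/

open MeasureTheory ProbabilityTheory Real
open scoped BigOperators Matrix

namespace P157

variable {Ω S : Type} [MeasurableSpace Ω] [MeasurableSpace S] {P : Measure Ω}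
  [IsProbabilityMeasure P] {μ : Measure S} [IsProbabilityMeasure μ]

theorem tg_pt (G : Measure S) [IsProbabilityMeasure G] {g : S → ℝ} (hg : Measurable g) {C : ℝ}
    (hC : ∀ σ, |g σ| ≤ C) :
    ∫ σ, |g σ - ∫ τ, g τ ∂G| ∂G ≤ lZ G g + lZ G (fun σ => -g σ) + 1 := by
  have hi : ∀ {f : S → ℝ} {D : ℝ}, Measurable f → (∀ σ, |f σ| ≤ D) →
      Integrable (fun σ => exp (f σ)) G := fun {f D} hf hD =>
    Integrable.of_bound hf.exp.aestronglyMeasurable (exp D) (ae_of_all _ fun σ => by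
      rw [Real.norm_of_nonneg (exp_pos _).le]
      exact exp_le_exp.2 ((le_abs_self _).trans (hD σ)))
  have hC' : ∀ σ, |-g σ| ≤ C := fun σ => by rw [abs_neg]; exact hC σ
  have j1 := integral_le_lZ G hg hC
  have j2 := integral_le_lZ G hg.fun_neg hC'
  rw [integral_neg] at j2
  set m := ∫ τ, g τ ∂G
  have hm : ∀ σ, |(|g σ - m|)| ≤ C + |m| := fun σ => by
    rw [abs_abs]; exact gb_sub (hC σ) le_rfl
  have j3 := integral_le_lZ G (hg.sub_const m).abs hm
  have i1 := hi hg hC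
  have i2 := hi hg.fun_neg hC'
  have p1 := integral_exp_pos i1
  have p2 := integral_exp_pos i2
  unfold lZ at *
  have e1 := (le_log_iff_exp_le p1).1 j1
  have e2 := (le_log_iff_exp_le p2).1 j2
  have k : ∫ σ, exp |g σ - m| ∂G ≤ 2 * ((∫ σ, exp (g σ) ∂G) * ∫ σ, exp (-g σ) ∂G) := by
    calc _ ≤ ∫ σ, (exp (g σ) * exp (-m) + exp (-g σ) * exp m) ∂G := by
          refine integral_mono (hi (hg.sub_const m).abs hm)
            ((i1.mul_const _).add (i2.mul_const _)) fun σ => ?_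
          simp only [← exp_add]
          rcases abs_cases (g σ - m) with h | h <;> rw [h.1]
          · exact le_add_of_le_of_nonneg (le_of_eq (by ring_nf)) (exp_pos _).le
          · exact le_add_of_nonneg_of_le (exp_pos _).le (le_of_eq (by ring_nf))
      _ = (∫ σ, exp (g σ) ∂G) * exp (-m) + (∫ σ, exp (-g σ) ∂G) * exp m := by
          rw [integral_add (i1.mul_const _) (i2.mul_const _), integral_mul_const,
            integral_mul_const]
      _ ≤ _ := by nlinarith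
  have k2 := log_le_log (integral_exp_pos (hi (hg.sub_const m).abs hm)) k
  rw [log_mul two_ne_zero (mul_pos p1 p2).ne', log_mul p1.ne' p2.ne'] at k2
  linarith [log_two_lt_d9]

theorem conc_of_touch {H h : Ω → S → ℝ} (hH : Good P H) (hh : Good P h) {u v : ℝ} (hu : 0 < u)
    (h1 : FE P μ (fun ω σ => H ω σ + h ω σ) + FE P μ (fun ω σ => H ω σ - h ω σ) - 2 * FE P μ H ≤ 4)
    (h2 : FE P μ (fun ω σ => H ω σ + u * h ω σ) + FE P μ (fun ω σ => H ω σ - u * h ω σ)
      - 2 * FE P μ H ≤ 4 * u ^ 2)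
    (hv : Fluct P μ H ≤ v) (hv' : Fluct P μ (fun ω σ => H ω σ + u * h ω σ) ≤ v) :
    A1 P μ H (fun ω σ => |h ω σ - A1 P μ H h|) ≤ 5 + 2 * v / u + 8 * u := by
  have g1 := hH.add hh
  have g2 := hH.sub hh
  have g3 := hH.add (hh.const_mul u)
  have j := FE_jensen (μ := μ) hH (hh.const_mul (-u))
  have j' := FE_jensen (μ := μ) hH (hh.const_mul u)
  rw [A1_const_mul] at j j'
  simp only [neg_mul, ← sub_eq_add_neg] at j
  have i0 := hH.integrable_lZ (μ := μ)
  have i1 := g1.integrable_lZ (μ := μ)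
  have i2 := g2.integrable_lZ (μ := μ)
  have i3 := g3.integrable_lZ (μ := μ)
  have iM := (hH.integrable_A1 (μ := μ) hh).const_mul u
  set F3 := FE P μ (fun ω σ => H ω σ + u * h ω σ) with hF3
  set F0 := FE P μ H with hF0
  set m := A1 P μ H h with hm
  have k1 := ((i1.add i2).sub (i0.const_mul 2)).add (integrable_const 1)
  have k2 := (i3.sub (integrable_const F3)).abs
  have k3 := (i0.sub (integrable_const F0)).abs
  have k4 := (i3.sub i0).sub iM
  have k5 := ((k2.add k3).add k4).add (integrable_const (F3 - F0 - u * m))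
  refine (integral_mono_of_nonneg (ae_of_all _ fun ω => integral_nonneg fun σ => abs_nonneg _)
    (k1.add (k5.const_mul u⁻¹)) (ae_of_all _ fun ω => ?_)).trans ?_
  · obtain ⟨B, -, hB⟩ := hh.bdd
    have := hH.isProb (μ := μ) ω
    have hm' : Measurable (h ω) := hh.meas.comp measurable_prodMk_left
    have a1 := tg_pt (μ.tilted (H ω)) hm' (hB ω)
    have a2 := lZ_add (μ := μ) hH ω hm' (hB ω)
    have a3 := lZ_add (μ := μ) hH ω hm'.fun_neg (C := B ω) fun σ => by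
      rw [abs_neg]; exact hB ω σ
    have hb : ∀ σ, |u * h ω σ| ≤ |u| * B ω := fun σ => gb_mul le_rfl (hB ω σ)
    have a4 := lZ_add (μ := μ) hH ω (hm'.const_mul u) hb
    have a5 := integral_le_lZ (μ.tilted (H ω)) (hm'.const_mul u) hb
    rw [integral_const_mul] at a5
    simp only [← sub_eq_add_neg] at a3
    simp only [Pi.add_apply, Pi.sub_apply]
    set M := ∫ σ, h ω σ ∂μ.tilted (H ω)
    have is := hh.integrable_sec ω (μ.tilted (H ω))
    have is' := (is.sub (integrable_const M)).abs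
    have a6 : ∫ σ, |h ω σ - m| ∂μ.tilted (H ω) ≤ ∫ σ, |h ω σ - M| ∂μ.tilted (H ω) + |M - m| := by
      refine (integral_mono (is.sub (integrable_const m)).abs
        (is'.add (integrable_const |M - m|)) fun σ => abs_sub_le _ _ _).trans (le_of_eq ?_)
      simp only [Pi.add_apply, Pi.sub_apply] at is' ⊢
      rw [integral_add is' (integrable_const _), integral_const, probReal_univ, one_smul]
    refine a6.trans (add_le_add (by linarith) ?_)
    rw [le_inv_mul_iff₀ hu, ← abs_of_pos hu, ← abs_mul, abs_of_pos hu, abs_le]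
    constructor <;>
      linarith [le_abs_self (lZ μ (H ω) - F0), neg_abs_le (lZ μ (H ω) - F0),
        le_abs_self (lZ μ (fun σ => H ω σ + u * h ω σ) - F3),
        neg_abs_le (lZ μ (fun σ => H ω σ + u * h ω σ) - F3)]
  · rw [integral_add' k1 (k5.const_mul u⁻¹), integral_const_mul,
      integral_add' ((k2.add k3).add k4) (integrable_const _), integral_add' (k2.add k3) k4,
      integral_add' k2 k3, integral_sub' (i3.sub i0) iM, integral_sub' i3 i0,
      integral_add' ((i1.add i2).sub (i0.const_mul 2)) (integrable_const 1),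
      integral_sub' (i1.add i2) (i0.const_mul 2), integral_add' i1 i2]
    simp only [integral_const_mul, integral_const, probReal_univ, one_smul, Pi.sub_apply]
    change FE P μ (fun ω σ => H ω σ + h ω σ) + FE P μ (fun ω σ => H ω σ - h ω σ) - 2 * F0 + 1 +
      u⁻¹ * (Fluct P μ (fun ω σ => H ω σ + u * h ω σ) + Fluct P μ H + (F3 - F0 - u * m) +
        (F3 - F0 - u * m)) ≤ _
    rw [add_assoc 5]
    refine add_le_add (by linarith) ?_
    rw [inv_mul_le_iff₀ hu, mul_add, mul_div_cancel₀ _ hu.ne']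
    linarith

variable {ι : Type} [Fintype ι] {H₀ : Ω → S → ℝ} {Bf A₀ : S → ι → ℝ} {b : ℝ}

theorem A1_field (h : Good P H₀) (hB : Feat fun (_ : Ω) σ => Bf σ) (hA : Feat fun (_ : Ω) σ => A₀ σ)
    (hcov : ∀ σ σ', Bf σ' ⬝ᵥ A₀ σ = b * (A₀ σ ⬝ᵥ A₀ σ')) (hone : ∀ σ, A₀ σ ⬝ᵥ A₀ σ = 1) :
    A1 (P.prod (gp ι)) μ (fun ω σ => H₀ ω.1 σ + Bf σ ⬝ᵥ ω.2) (fun ω σ => A₀ σ ⬝ᵥ ω.2) =
      b * (1 - A2 (P.prod (gp ι)) μ (fun ω σ => H₀ ω.1 σ + Bf σ ⬝ᵥ ω.2)
        (fun _ σ σ' => A₀ σ ⬝ᵥ A₀ σ')) := by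
  have hH := (h.fst (gp ι)).add (hB.good (P := P))
  obtain ⟨C, hC⟩ := (hA.comp (measurable_fst (β := ι → ℝ)) measurable_id).bd2
    (hA.comp measurable_fst measurable_id)
  simp only [id] at hC
  have k := ibpn (μ := μ) h hB hA 0 (Φ := fun _ => 1) measurable_const fun _ => by simp
  simp only [one_mul, hcov, Fin.sum_univ_succ, Finset.univ_eq_empty, Finset.sum_empty, hone,
    An_const_mul] at k
  rw [An_eval hH hA.good, An_eval hH (Good.const 1) 0, A1_const hH,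
    An_pair hH hC.good2 (by decide)] at k
  rw [k]
  ring

theorem gg_of_conc (h : Good P H₀) (hB : Feat fun (_ : Ω) σ => Bf σ)
    (hA : Feat fun (_ : Ω) σ => A₀ σ) (hb : 0 < b)
    (hcov : ∀ σ σ', Bf σ' ⬝ᵥ A₀ σ = b * (A₀ σ ⬝ᵥ A₀ σ')) (hone : ∀ σ, A₀ σ ⬝ᵥ A₀ σ = 1) {e : ℝ}
    (he : A1 (P.prod (gp ι)) μ (fun ω σ => H₀ ω.1 σ + Bf σ ⬝ᵥ ω.2)
      (fun ω σ => |A₀ σ ⬝ᵥ ω.2 - A1 (P.prod (gp ι)) μ (fun ω σ => H₀ ω.1 σ + Bf σ ⬝ᵥ ω.2)
        (fun ω σ => A₀ σ ⬝ᵥ ω.2)|) ≤ e) (n : ℕ) :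
    GGa (P.prod (gp ι)) μ (fun ω σ => H₀ ω.1 σ + Bf σ ⬝ᵥ ω.2) (fun σ σ' => A₀ σ ⬝ᵥ A₀ σ') n
      (e / b) := by
  intro Φ hΦ hb1
  have hH := (h.fst (gp ι)).add (hB.good (P := P))
  have k := ibpn (μ := μ) h hB hA n hΦ hb1
  have k0 := A1_field (μ := μ) h hB hA hcov hone
  set m := A1 (P.prod (gp ι)) μ (fun ω σ => H₀ ω.1 σ + Bf σ ⬝ᵥ ω.2) fun ω σ => A₀ σ ⬝ᵥ ω.2
  simp only [hcov, Fin.sum_univ_succ, hone, mul_left_comm _ b, An_const_mul, mul_one,
    ← Finset.mul_sum] at k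
  have b1 : Bd1 (fun (_ : Ω × (ι → ℝ)) σ => Φ σ) 1 := ⟨hΦ.comp measurable_snd, fun _ => hb1⟩
  have g0 := (hA.good (P := P)).sub (Good.const m)
  have g1 := (hA.good (P := P)).comp (MeasurePreserving.id _)
    (measurable_pi_apply (X := fun _ : Fin (n + 1) => S) 0)
  have g2 := g0.comp (MeasurePreserving.id _)
    (measurable_pi_apply (X := fun _ : Fin (n + 1) => S) 0)
  simp only [id] at g1 g2
  have a1 := abs_An_le (μ := μ) hH (Good.bd_mul b1 g2).goodn
  have a2 := An_mono (μ := μ) hH (Good.bd_mul b1 g2).abs.goodn g2.abs.goodn fun ω σ => by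
    rw [abs_mul]
    exact mul_le_of_le_one_left (abs_nonneg _) (hb1 σ)
  rw [An_eval hH g0.abs] at a2
  have a3 := a1.trans (a2.trans he)
  simp only [mul_sub, mul_comm _ m] at a3
  rw [An_sub hH (Good.bd_mul b1 g1).goodn (b1.good.const_mul m).goodn, An_const_mul, k, k0] at a3
  rw [le_div_iff₀ hb, ← abs_of_pos hb, ← abs_mul, ← abs_neg]
  refine le_trans (le_of_eq (congrArg _ ?_)) a3
  ring

end P157
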