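import Vale.Agent.P157.ACcor
import Vale.Agent.P157.InterpCor
import Vale.Agent.P157.TouchGG
import Vale.Agent.P157.SyncMod

/-! P157 SBasic: elementary properties of the enriched system.
Plan. `feat_dot`: `Fintype.sum_prod_type`, `Fintype.sum_sigma`, `anc_eq_iff`, and
`∑ I, (∏ l, x (I l)) (∏ l, x' (I l)) = (x ⬝ᵥ x')^d` (`Finset.prod_univ_sum`/`Fintype.sum_pow`).
`SW_sub_le`: `interp_sup` with base disorder `PU.prod PG`. `SW_zero`: `FE_fst`, `FE_indep`.
`SA1_field`: `A1_field`. `SW_jensen`: `FE_jensen`, `feat_update`. `SW_bump`, `SSync_bump`: with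
`r c = (c.2.1 = t)` and `e (ω, g') = (ω.1, mix ω.2 g')` (`gp_mix`), `SH b' (e (ω,g')) = SH b ω + √u A · g'`
where `A = feat (Pi.single t 1)`; then `interp_small`, `A2_gtilt_le` (`D = 0`), `φ² ≤ 2 |φ|`.
Use `haveI := unif_prob hL k`.
-/

open MeasureTheory ProbabilityTheory Real
open scoped BigOperators Matrix

namespace P157

variable {S₀ : Type} [MeasurableSpace S₀] {N L k n₀ M : ℕ} {μ : Measure S₀}
  [IsProbabilityMeasure μ] {sp : S₀ → Fin N → ℝ} {f : ℝ → ℝ} {K : ℝ} {m : ℕ → ℝ} {b : TT n₀ k → ℝ}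

instance SP_prob : IsProbabilityMeasure (SP L k n₀ N M m) := by unfold SP; infer_instance

theorem lev_le (t : TT n₀ k) : lev t ≤ k := by
  cases t with
  | inl x => exact Fin.is_le x.2
  | inr j => exact Fin.is_le j
theorem feat_dot (hN : 0 < N) (b b' : TT n₀ k → ℝ) (x x' : Fin N → ℝ) (ω ω' : Leaf L k) :
    feat b x ω ⬝ᵥ feat b' x' ω' = ∑ t, b t * b' t * ker t x x' ω ω' := by
  have hN' : (0 : ℝ) < N := by exact_mod_cast hN
  unfold dotProduct
  rw [Fintype.sum_prod_type_right, Fintype.sum_sigma]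
  refine Finset.sum_congr rfl fun t _ => ?_
  simp only [feat, ite_mul, zero_mul, Finset.sum_ite_eq', Finset.mem_univ, if_true]
  unfold ker ind
  by_cases hc : lev t ≤ cj ω ω'
  · simp only [(anc_eq_iff ω ω' (lev_le t)).2 hc, hc, if_true, mul_one]
    unfold ov dotProduct
    rw [div_pow, Fintype.sum_pow, Finset.sum_div, Finset.mul_sum]
    refine Finset.sum_congr rfl fun I _ => ?_
    have e : (N : ℝ) ^ deg t = √(N : ℝ) ^ deg t * √(N : ℝ) ^ deg t := by
      rw [← mul_pow, mul_self_sqrt hN'.le]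
    rw [Finset.prod_mul_distrib, e, ← div_mul_div_comm]
    ring
  · simp only [mt (anc_eq_iff ω ω' (lev_le t)).1 hc, hc, if_false, mul_zero, Finset.sum_const_zero]
theorem feat_update (t : TT n₀ k) (y : ℝ) (x : Fin N → ℝ) (ω : Leaf L k) :
    feat (Function.update b t y) x ω = feat b x ω + (y - b t) • feat (Pi.single t 1) x ω := by
  funext c
  simp only [feat, Pi.add_apply, Pi.smul_apply, smul_eq_mul]
  split_ifs with h1
  · by_cases h2 : c.2.1 = t
    · rw [← h2, Function.update_self, Pi.single_eq_same]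
      ring
    · rw [Function.update_of_ne h2, Pi.single_eq_of_ne h2]
      ring
  · ring
theorem sb_coord {S : Type} [MeasurableSpace S] {sp : S → Fin N → ℝ} (h : IsSp sp) (σ : S)
    (i : Fin N) : |sp σ i| ≤ √(N : ℝ) := by
  refine Real.abs_le_sqrt ?_
  rw [← h.norm σ, sq]
  exact Finset.single_le_sum (f := fun i => sp σ i * sp σ i) (fun _ _ => mul_self_nonneg _)
    (Finset.mem_univ i)
theorem sb_fst {S' : Type} [MeasurableSpace S'] (h : IsSp sp) :
    IsSp (fun c : S₀ × S' => sp c.1) := ⟨h.meas.comp measurable_fst, fun c => h.norm c.1⟩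
theorem feat_feat {Ω : Type} [MeasurableSpace Ω] (h : IsSp sp) (b : TT n₀ k → ℝ) :
    Feat (fun (_ : Ω) (c : S₀ × Leaf L k) => feat b (sp c.1) c.2) := by
  refine ⟨fun c => ?_, ∑ t, |b t|, fun _ σ c => ?_⟩
  · unfold feat
    refine Measurable.ite (measurable_snd.snd
      (MeasurableSet.of_discrete (s := {l : Leaf L k | c.1 = anc l (lev c.2.1)}))) ?_ measurable_const
    exact ((Finset.measurable_prod _ fun l _ =>
      (measurable_pi_apply (c.2.2 l)).comp (h.meas.comp measurable_snd.fst)).div_const _).const_mul _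
  · have h1 : |b c.2.1| ≤ ∑ t, |b t| :=
      Finset.single_le_sum (f := fun t => |b t|) (fun _ _ => abs_nonneg _) (Finset.mem_univ _)
    unfold feat
    split_ifs
    · rw [abs_mul]
      refine (mul_le_of_le_one_right (abs_nonneg _) ?_).trans h1
      rw [abs_div, abs_of_nonneg (pow_nonneg (sqrt_nonneg _) _)]
      refine div_le_one_of_le₀ ?_ (pow_nonneg (sqrt_nonneg _) _)
      rw [Finset.abs_prod]
      refine (Finset.prod_le_prod (fun _ _ => abs_nonneg _) fun l _ => sb_coord h σ.1 _).trans ?_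
      rw [Finset.prod_const, Finset.card_univ, Fintype.card_fin]
    · rw [abs_zero]
      exact (abs_nonneg _).trans h1
theorem bd2_ker {Ω : Type} [MeasurableSpace Ω] (h : IsSp sp) (t : TT n₀ k) :
    Bd2 (fun (_ : Ω) (c c' : S₀ × Leaf L k) => ker t (sp c.1) (sp c'.1) c.2 c'.2) 1 := by
  have h1 := bd2_ov (Ω := Ω) (sb_fst (S' := Leaf L k) h)
  have h2 : Bd2 (fun (_ : Ω) (c c' : S₀ × Leaf L k) => ov (sp c.1) (sp c'.1) ^ deg t) 1 :=
    ⟨h1.meas.pow_const _, fun ω c c' => by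
      rw [abs_pow]
      exact pow_le_one₀ (abs_nonneg _) (h1.bdd ω c c')⟩
  exact (h2.mul (bd2_ind measurable_snd (lev t))).mono (one_mul 1).le
theorem ker_self (h : IsSp sp) (hN : 0 < N) (t : TT n₀ k) (σ : S₀) (ω : Leaf L k) :
    ker t (sp σ) (sp σ) ω ω = 1 := by
  unfold ker
  rw [ov_self h hN, one_pow, ind_self (lev_le t), one_mul]
theorem feat_self (h : IsSp sp) (hN : 0 < N) (σ : S₀) (ω : Leaf L k) :
    feat b (sp σ) ω ⬝ᵥ feat b (sp σ) ω = ∑ t, b t ^ 2 := by
  rw [feat_dot hN]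
  exact Finset.sum_congr rfl fun t _ => by rw [ker_self h hN, mul_one, sq]
theorem IsSp.fst {S' : Type} [MeasurableSpace S'] (h : IsSp sp) :
    IsSp (fun c : S₀ × S' => sp c.1) := sb_fst h
theorem measurable_fld {Ω : Type} [MeasurableSpace Ω] (h : IsSp sp) {e : Ω → Fin N → ℝ}
    (he : Measurable e) : Measurable fun p : Ω × S₀ => fld (e p.1) (sp p.2) := by
  unfold fld dotProduct
  exact (Finset.measurable_sum _ fun i _ => ((measurable_pi_apply i).comp (he.comp measurable_fst)).mul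
    ((measurable_pi_apply i).comp (h.meas.comp measurable_snd))).div_const _
/-- the pattern field is a Gaussian field with features `x / √N` -/
theorem fld_eq_dot (g x : Fin N → ℝ) : fld g x = ((√(N : ℝ))⁻¹ • x) ⬝ᵥ g := by
  unfold fld
  rw [smul_dotProduct, dotProduct_comm, smul_eq_mul, div_eq_inv_mul]
theorem fld_cov (x x' : Fin N → ℝ) : ((√(N : ℝ))⁻¹ • x) ⬝ᵥ ((√(N : ℝ))⁻¹ • x') = ov x x' := by
  unfold ov
  rw [smul_dotProduct, dotProduct_smul, smul_eq_mul, smul_eq_mul, ← mul_assoc, ← mul_inv,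
    mul_self_sqrt (Nat.cast_nonneg N), div_eq_inv_mul]
theorem feat_sp {Ω : Type} [MeasurableSpace Ω] (h : IsSp sp) :
    Feat (fun (_ : Ω) σ => (√(N : ℝ))⁻¹ • sp σ) := by
  refine ⟨fun c => ((measurable_pi_apply c).comp (h.meas.comp measurable_snd)).const_mul _, 1,
    fun _ σ c => ?_⟩
  rw [Pi.smul_apply, smul_eq_mul, ← div_eq_inv_mul, abs_div, abs_of_nonneg (sqrt_nonneg _)]
  exact div_le_one_of_le₀ (sb_coord h σ c) (sqrt_nonneg _)
theorem pat_bd (h : IsSp sp) (hf : Measurable f) (hK : ∀ y, |f y| ≤ K) :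
    Bd1 (fun (G : Fin M → Fin N → ℝ) σ => pat f G (sp σ)) (M * K) := by
  refine ⟨Finset.measurable_sum _ fun a _ =>
    hf.comp (measurable_fld h (e := fun G : Fin M → Fin N → ℝ => G a) (measurable_pi_apply a)),
    fun G σ => ?_⟩
  refine (Finset.abs_sum_le_sum_abs _ _).trans ((Finset.sum_le_sum fun a _ => hK _).trans ?_)
  rw [Finset.sum_const, Finset.card_univ, Fintype.card_fin, nsmul_eq_mul]
theorem SH0_good (h : IsSp sp) (hf : Measurable f) (hK : ∀ y, |f y| ≤ K) :
    Good ((PU L k m).prod (PG N M))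
      (fun ω (c : S₀ × Leaf L k) => lw m ω.1 c.2 + pat f ω.2 (sp c.1)) :=
  ((lw_good m).comp measurePreserving_fst measurable_snd).add
    (((pat_bd h hf hK).good (P := PG N M)).comp measurePreserving_snd measurable_fst)
theorem SH_good (h : IsSp sp) (hf : Measurable f) (hK : ∀ y, |f y| ≤ K) :
    Good (SP L k n₀ N M m) (SH (M := M) f m sp b) :=
  ((SH0_good h hf hK).fst _).add (feat_feat h b).good
theorem sb_single (hN : 0 < N) (b : TT n₀ k → ℝ) (t : TT n₀ k) (x x' : Fin N → ℝ) (ω ω' : Leaf L k) :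
    feat b x ω ⬝ᵥ feat (Pi.single t 1) x' ω' = b t * ker t x x' ω ω' := by
  rw [feat_dot hN, Finset.sum_eq_single t, Pi.single_eq_same, mul_one]
  · intro s _ hs
    rw [Pi.single_eq_of_ne hs, mul_zero, zero_mul]
  · intro ht
    exact absurd (Finset.mem_univ t) ht
theorem sb_single2 (hN : 0 < N) (t : TT n₀ k) (x x' : Fin N → ℝ) (ω ω' : Leaf L k) :
    feat (Pi.single t 1) x ω ⬝ᵥ feat (Pi.single t 1) x' ω' = ker t x x' ω ω' := by
  rw [sb_single hN, Pi.single_eq_same, one_mul]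
theorem sb_ker_comm (t : TT n₀ k) (x x' : Fin N → ℝ) (ω ω' : Leaf L k) :
    ker t x x' ω ω' = ker t x' x ω' ω := by
  unfold ker ov ind
  rw [dotProduct_comm, cj_comm]

theorem SW_sub_le (h : IsSp sp) (hN : 0 < N) (hL : 0 < L) (hf : Measurable f) (hK : ∀ y, |f y| ≤ K)
    (b b' : TT n₀ k → ℝ) :
    |SW L k n₀ M f m μ sp b - SW L k n₀ M f m μ sp b'| ≤ ∑ t, |b t ^ 2 - b' t ^ 2| := by
  have := unif_prob hL k
  refine interp_sup (SH0_good h hf hK) (feat_feat h b) (feat_feat h b') fun ω c c' => ?_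
  rw [feat_dot hN, feat_dot hN, ← Finset.sum_sub_distrib]
  refine (Finset.abs_sum_le_sum_abs _ _).trans (Finset.sum_le_sum fun t _ => ?_)
  rw [← sub_mul, abs_mul, sq, sq]
  exact mul_le_of_le_one_right (abs_nonneg _) ((bd2_ker h t).bdd ω c c')
theorem SW_continuous (h : IsSp sp) (hN : 0 < N) (hL : 0 < L) (hf : Measurable f)
    (hK : ∀ y, |f y| ≤ K) : Continuous (SW L k n₀ M f m μ sp) := by
  refine continuous_iff_continuousAt.2 fun b₀ => tendsto_iff_norm_sub_tendsto_zero.2 ?_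
  have h1 : Continuous fun b : TT n₀ k → ℝ => ∑ t, |b t ^ 2 - b₀ t ^ 2| := by fun_prop
  have h2 := h1.tendsto b₀
  simp only [sub_self, abs_zero, Finset.sum_const_zero] at h2
  exact squeeze_zero (fun _ => norm_nonneg _) (fun b => SW_sub_le h hN hL hf hK b b₀) h2
theorem SW_zero (h : IsSp sp) (hL : 0 < L) (hf : Measurable f) (hK : ∀ y, |f y| ≤ K) :
    SW L k n₀ M f m μ sp 0 = cL L k m + EZ μ sp f M := by
  have := unif_prob hL k
  have e : SH (L := L) (k := k) (n₀ := n₀) (M := M) f m sp 0 =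
      fun ω c => lw m ω.1.1 c.2 + pat f ω.1.2 (sp c.1) := by
    funext ω c
    have e1 : feat (0 : TT n₀ k → ℝ) (sp c.1) c.2 = 0 := by
      funext i
      simp [feat]
    unfold SH
    rw [e1, zero_dotProduct, add_zero]
  unfold SW
  rw [e]
  exact (FE_fst (SH0_good h hf hK)).trans (FE_indep (lw_good m) (pat_bd h hf hK).good)
theorem SA1_field (h : IsSp sp) (hN : 0 < N) (hL : 0 < L) (hf : Measurable f) (hK : ∀ y, |f y| ≤ K)
    (t : TT n₀ k) :
    SA1 L k n₀ M f m μ sp b (fun ω c => feat (Pi.single t 1) (sp c.1) c.2 ⬝ᵥ ω.2) =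
      b t * (1 - SA2 L k n₀ M f m μ sp b fun _ c c' => ker t (sp c.1) (sp c'.1) c.2 c'.2) := by
  have := unif_prob hL k
  have h1 := A1_field (μ := μ.prod (unif L k)) (b := b t) (SH0_good (M := M) (m := m) h hf hK)
    (feat_feat h b) (feat_feat h (Pi.single t 1))
    (fun c c' => by rw [sb_single hN, sb_single2 hN, sb_ker_comm])
    (fun c => by rw [sb_single2 hN, ker_self h hN])
  simp only [sb_single2 hN] at h1
  exact h1
theorem SW_jensen (h : IsSp sp) (hN : 0 < N) (hL : 0 < L) (hf : Measurable f) (hK : ∀ y, |f y| ≤ K)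
    (t : TT n₀ k) (y : ℝ) :
    SW L k n₀ M f m μ sp b + (y - b t) * (b t *
        (1 - SA2 L k n₀ M f m μ sp b fun _ c c' => ker t (sp c.1) (sp c'.1) c.2 c'.2)) ≤
      SW L k n₀ M f m μ sp (Function.update b t y) := by
  have := unif_prob hL k
  have h1 := FE_jensen (μ := μ.prod (unif L k)) (SH_good (M := M) (m := m) (b := b) h hf hK)
    ((feat_feat h (Pi.single t 1)).good.const_mul (y - b t))
  have e : SH (L := L) (M := M) f m sp (Function.update b t y) = fun ω c =>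
      SH f m sp b ω c + (y - b t) * (feat (Pi.single t 1) (sp c.1) c.2 ⬝ᵥ ω.2) := by
    funext ω c
    unfold SH
    rw [feat_update, add_dotProduct, smul_dotProduct, smul_eq_mul, ← add_assoc]
  rw [A1_const_mul] at h1
  rw [← SA1_field h hN hL hf hK]
  unfold SW
  rw [e]
  exact h1
/-- resample the Gaussian coordinates of the term `t` -/
def sbMix (t : TT n₀ k) (p : SO L k n₀ N M × (II L k n₀ N → ℝ)) : SO L k n₀ N M :=
  (p.1.1, fun c => if c.2.1 = t then p.2 c else p.1.2 c)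
theorem sbMix_mp (t : TT n₀ k) : MeasurePreserving (sbMix t)
    ((SP L k n₀ N M m).prod (gp (II L k n₀ N))) (SP L k n₀ N M m) :=
  ((MeasurePreserving.id _).prod (gp_mix fun c : II L k n₀ N => c.2.1 = t)).comp
    (measurePreserving_prodAssoc _ _ _)
theorem sb_mix {t : TT n₀ k} (hb : b t = 0) (y : ℝ) (p : SO L k n₀ N M × (II L k n₀ N → ℝ))
    (x : S₀ × Leaf L k) : SH f m sp (Function.update b t y) (sbMix t p) x =
      SH f m sp b p.1 x + y * (feat (Pi.single t 1) (sp x.1) x.2 ⬝ᵥ p.2) := by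
  unfold SH
  rw [add_assoc _ (_ ⬝ᵥ _)]
  congr 1
  rw [feat_update, hb, sub_zero]
  unfold dotProduct
  rw [Finset.mul_sum, ← Finset.sum_add_distrib]
  refine Finset.sum_congr rfl fun c _ => ?_
  change (feat b (sp x.1) x.2 c + y * feat (Pi.single t 1) (sp x.1) x.2 c) *
    (if c.2.1 = t then p.2 c else p.1.2 c) = _
  split_ifs with hc
  · have e : feat b (sp x.1) x.2 c = 0 := by
      unfold feat
      rw [(congrArg b hc).trans hb, zero_mul, ite_self]
    rw [e]
    ring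
  · have e : feat (Pi.single t 1) (sp x.1) x.2 c = 0 := by
      unfold feat
      rw [Pi.single_eq_of_ne hc, zero_mul, ite_self]
    rw [e]
    ring
theorem SW_bump (h : IsSp sp) (hN : 0 < N) (hL : 0 < L) (hf : Measurable f) (hK : ∀ y, |f y| ≤ K)
    {t : TT n₀ k} (hb : b t = 0) {u : ℝ} (hu : 0 ≤ u) (hu1 : u ≤ 1) :
    |SW L k n₀ M f m μ sp (Function.update b t √u) - u / 2 - SW L k n₀ M f m μ sp b
      + u / 2 * SA2 L k n₀ M f m μ sp b (fun _ c c' => ker t (sp c.1) (sp c'.1) c.2 c'.2)|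
      ≤ 3 * (u * √u) := by
  have := unif_prob hL k
  have hg := SH_good (L := L) (M := M) (m := m) (b := b) h hf hK
  have hA := feat_feat (L := L) (Ω := SO L k n₀ N M) h (Pi.single t 1)
  have h1 := interp_small (μ := μ.prod (unif L k)) hg hA (V := 1)
    (fun _ c => by rw [sb_single2 hN, ker_self h hN]) hu (by linarith)
  have h2 := FE_comp (μ := μ.prod (unif L k))
    (SH_good (L := L) (M := M) (m := m) (b := Function.update b t √u) h hf hK) (sbMix_mp t)
    (MeasurePreserving.id _)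
  simp only [id, sb_mix hb] at h2
  have h3 := FE_add_const (μ := μ.prod (unif L k)) ((hg.fst _).add (hA.good.const_mul √u)) (-(u / 2))
  simp only [sb_single2 hN, ker_self h hN, mul_one, sqrt_one] at h1
  simp only [← sub_eq_add_neg] at h3
  rw [h3, h2] at h1
  exact h1
theorem bd2_sync {Ω S : Type} [MeasurableSpace Ω] [MeasurableSpace S] {sp : S → Fin N → ℝ}
    (h : IsSp sp) {lf : S → Leaf L k} (hlf : Measurable lf) {p : ℕ → ℝ} (hp : IsOv k p) :
    Bd2 (fun (_ : Ω) σ σ' => ov (sp σ) (sp σ') - p (cj (lf σ) (lf σ'))) 2 := by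
  refine ((bd2_ov h).sub (bd2_leaf hlf (fun ω ω' => p (cj ω ω')) (C := 1) fun ω ω' => ?_)).mono
    one_add_one_eq_two.le
  rw [abs_of_nonneg (hp.1.nonneg (cj_le ω ω')), ← hp.2]
  exact hp.1.mono_le (cj_le ω ω') le_rfl
theorem SSync_bump (h : IsSp sp) (hN : 0 < N) (hL : 0 < L) (hf : Measurable f)
    (hK : ∀ y, |f y| ≤ K) {t : TT n₀ k} (hb : b t = 0) {u : ℝ} (hu : 0 ≤ u) (hu1 : u ≤ 1)
    {p : ℕ → ℝ} (hp : IsOv k p) {η : ℝ} (hs : SSync L k n₀ M f m μ sp b p η) :
    SSync L k n₀ M f m μ sp (Function.update b t √u) p (exp 16 * √(2 * η)) := by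
  have := unif_prob hL k
  have hg := SH_good (L := L) (M := M) (m := m) (b := b) h hf hK
  have hA := (feat_feat (L := L) (Ω := SO L k n₀ N M) h (Pi.single t 1)).bd_smul (Bd1.const √u)
  have hΦ := bd2_sync (Ω := SO L k n₀ N M) (sb_fst (S' := Leaf L k) h) measurable_snd hp
  have h1 := A2_gtilt_le (μ := μ.prod (unif L k)) hg hA (V := 1) (fun _ c => by
    rw [smul_dotProduct, dotProduct_smul, sb_single2 hN, ker_self h hN, smul_eq_mul, smul_eq_mul,
      mul_one, mul_self_sqrt hu]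
    exact hu1) (Bd1.const 0) hΦ
  have h2 := A2_comp (μ := μ.prod (unif L k))
    (SH_good (L := L) (M := M) (m := m) (b := Function.update b t √u) h hf hK) hΦ.abs.good2
    (sbMix_mp t) (MeasurePreserving.id _)
  simp only [id, sb_mix hb] at h2
  simp only [smul_dotProduct, smul_eq_mul, add_zero, abs_zero, mul_zero, zero_add, mul_one] at h1
  have h3 := A2_mono (μ := μ.prod (unif L k)) hg hΦ.sq.good2 (hΦ.abs.good2.const_mul 2)
    fun ω c c' => by
      rw [← sq_abs, sq]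
      exact mul_le_mul_of_nonneg_right (hΦ.bdd ω c c') (abs_nonneg _)
  rw [A2_const_mul] at h3
  have h4 := h3.trans (mul_le_mul_of_nonneg_left hs zero_le_two)
  rw [h2] at h1
  exact h1.trans (mul_le_mul_of_nonneg_left (sqrt_le_sqrt h4) (exp_pos _).le)
/-- tail sums of the overlap under synchronisation -/
theorem Sync.tail_close {Ω S : Type} [MeasurableSpace Ω] [MeasurableSpace S] {P : Measure Ω}
    [IsProbabilityMeasure P] {μ : Measure S} [IsProbabilityMeasure μ] {H : Ω → S → ℝ}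
    (hk : IsPartition k m) (hH : Good P H) {sp : S → Fin N → ℝ} (h : IsSp sp)
    {lf : S → Leaf L k} (hlf : Measurable lf) {p : ℕ → ℝ} (hp : IsOv k p) {η τ : ℝ}
    (hs : Sync k P μ H sp lf p η)
    (hi : ∀ j ≤ k, |A2 P μ H (fun _ σ σ' => ind j (lf σ) (lf σ')) - (1 - m j)| ≤ τ) {j : ℕ}
    (hj : j ≤ k) :
    |A2 P μ H (fun _ σ σ' => ov (sp σ) (sp σ') * ind j (lf σ) (lf σ')) - tail k m p j| ≤ η + τ := by
  have h1 := A2_path hk hH hlf hi hp.1 hj
  rw [hp.2, mul_one] at h1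
  have hΦ := bd2_sync (Ω := Ω) h hlf hp
  have hI := bd2_ind (Ω := Ω) hlf j
  have h2 := A2_sub (μ := μ) hH ((bd2_ov h).mul hI).good2 (hΦ.mul hI).good2
  have e : (fun (_ : Ω) σ σ' => ov (sp σ) (sp σ') * ind j (lf σ) (lf σ') -
      (ov (sp σ) (sp σ') - p (cj (lf σ) (lf σ'))) * ind j (lf σ) (lf σ')) =
      fun _ σ σ' => p (cj (lf σ) (lf σ')) * ind j (lf σ) (lf σ') := by
    funext _ σ σ'
    ring
  rw [e] at h2
  have h3 := (abs_A2_le (μ := μ) hH (hΦ.mul hI).good2).trans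
    (A2_mono hH (hΦ.mul hI).abs.good2 hΦ.abs.good2 fun ω σ σ' => by
      rw [abs_mul]
      exact mul_le_of_le_one_right (abs_nonneg _) (abs_ind_le _ _ _))
  have h4 := abs_le.1 (h3.trans hs)
  rw [h2, abs_le] at h1
  rw [abs_le]
  constructor <;> linarith [h1.1, h1.2, h4.1, h4.2]

end P157
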