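import Vale.Agent.P157.IMax
import Vale.Agent.P157.Refine
import Vale.Agent.P157.SBasic

/-! P157 IInit: the Ising family, its initial condition, and refinement.
Plan. `isingSp N x = x` for `isingMeasure`-a.e. `x` (`Measure.ae_pi`/`measure_pi` on the box `{±1}^N`).
`log ∫ exp (y · isingSp σ) = ∑ i, lc (y i)` (`integral_fintype_prod_eq_prod`), so `Rec_pi` gives
`RecN β = N * parisi k m s lc` with `s j = ∑_{i ≤ j} β i²` (`gw_congr`, `Rec_congr`, `parisi_eq_Rec`), and
`∑ β² (tail - 1)/2 = pair p s/2 - s k/2` (`pair_eq_sum_tail`). `ising_refine`: `exists_crit`, then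
`exists_refine` with `x = (p', r')` and `Q` = (`p'`, `r'` paths, `p' k' < 1`, `p' = phat r'`, `energy` and
`spinTerm r' + pair p' r'/2` unchanged), preserved by `dup` (`energy_ins`, `parisi_ins`, `e1_ins`,
`pair_ins`, `dup_last`); conclude with `spin_max`, `isingEntropy_eq`.
-/

open MeasureTheory ProbabilityTheory Real
open scoped BigOperators Matrix

namespace P157


theorem ii_eq (N : ℕ) : isingMeasure N = Measure.pi fun _ => rad := rfl

theorem ii_rad_prob : IsProbabilityMeasure rad := by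
  constructor
  simp only [rad, Measure.smul_apply, Measure.add_apply, measure_univ, smul_eq_mul, mul_one]
  exact ENNReal.inv_two_add_inv_two

theorem ii_rad_ae : ∀ᵐ x ∂rad, x = 1 ∨ x = -1 := by
  unfold rad
  rw [ae_add_measure_iff]
  exact ⟨Measure.ae_smul_measure (by simp [ae_dirac_eq]) _,
    Measure.ae_smul_measure (by simp [ae_dirac_eq]) _⟩

theorem ii_rad_int (g : ℝ → ℝ) : ∫ x, g x ∂rad = (g 1 + g (-1)) / 2 := by
  unfold rad
  rw [integral_add_measure ((integrable_dirac (by simp)).smul_measure (by simp))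
    ((integrable_dirac (by simp)).smul_measure (by simp)), integral_smul_measure,
    integral_smul_measure, integral_dirac, integral_dirac]
  simp only [ENNReal.toReal_inv, ENNReal.toReal_ofNat, smul_eq_mul]
  ring

instance isingMeasure_prob (N : ℕ) : IsProbabilityMeasure (isingMeasure N) := by
  have := ii_rad_prob
  rw [ii_eq]
  infer_instance
instance rad_prob : IsProbabilityMeasure rad :=
  ii_rad_prob
theorem isingSp_ae (N : ℕ) : ∀ᵐ x ∂(isingMeasure N), isingSp N x = x := by
  rw [ii_eq]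
  have h : ∀ i : Fin N, ∀ᵐ x ∂(Measure.pi fun _ : Fin N => rad), x i = 1 ∨ x i = -1 := fun i =>
    (measurePreserving_eval (fun _ : Fin N => rad) i).quasiMeasurePreserving.ae ii_rad_ae
  filter_upwards [ae_all_iff.2 h] with x hx
  funext i
  rcases hx i with h | h
  · simp [isingSp, h]
  · simp [isingSp, h]
theorem ising_fam : Fam isingMeasure isingSp := by
  refine ⟨fun N => inferInstance, fun N => ⟨?_, fun σ => ?_⟩⟩
  · refine measurable_pi_lambda _ fun i => ?_
    exact Measurable.ite (measurableSet_le measurable_const (measurable_pi_apply i))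
      measurable_const measurable_const
  · have : ∀ i, isingSp N σ i * isingSp N σ i = 1 := fun i => by
      unfold isingSp
      split_ifs <;> norm_num
    simp [dotProduct, this]
theorem meanPressure_ising (α : ℝ) (f : ℝ → ℝ) (N : ℕ) :
    meanPressure isingMeasure α f N = EZ (isingMeasure N) (isingSp N) f ⌊α * N⌋₊ / N := by
  unfold meanPressure EZ FE lZ pressure
  rw [integral_const_mul, div_eq_inv_mul]
  congr 1
  refine integral_congr_ae (ae_of_all _ fun g => ?_)
  refine congrArg log (integral_congr_ae ?_)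
  filter_upwards [isingSp_ae N] with x hx
  rw [hx]
  rfl

theorem ii_log (N : ℕ) (y : Fin N → ℝ) :
    log (∫ σ, exp (y ⬝ᵥ isingSp N σ) ∂isingMeasure N) = ∑ l, lc (y l) := by
  have e1 : ∫ σ, exp (y ⬝ᵥ isingSp N σ) ∂isingMeasure N =
      ∫ σ, ∏ l, exp (y l * σ l) ∂isingMeasure N := by
    refine integral_congr_ae ?_
    filter_upwards [isingSp_ae N] with x hx
    rw [hx, dotProduct, exp_sum]
  rw [e1, ii_eq, integral_fintype_prod_eq_prod (fun l (x : ℝ) => exp (y l * x))]
  have e2 : ∀ l, ∫ x, exp (y l * x) ∂rad = cosh (y l) := fun l => by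
    rw [ii_rad_int, cosh_eq]
    simp
  simp only [e2]
  rw [Real.log_prod fun l _ => (cosh_pos _).ne']
  rfl

theorem ising_init {k : ℕ} {m p : ℕ → ℝ} (hk : IsPartition k m) {S : ℝ}
    (hS : ∀ s, IsPath k s → spinTerm k m s + pair k m p s / 2 ≤ S) :
    InitB isingMeasure isingSp k m p S := by
  intro η hη
  filter_upwards [Filter.eventually_ge_atTop 1] with N hN β
  have hN' : (N : ℝ) ≠ 0 := by positivity
  let s : ℕ → ℝ := fun j => ∑ i ∈ Finset.range (j + 1), β i ^ 2
  have hinc : ∀ j, inc s j = β j ^ 2 := fun j => by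
    cases j with
    | zero => simp [inc, s]
    | succ j => simp [inc, s, Finset.sum_range_succ _ (j + 1)]
  have hs : IsPath k s := ⟨Finset.sum_nonneg fun _ _ => sq_nonneg _, fun j _ => by
    simp only [s]
    rw [Finset.sum_range_succ _ (j + 1)]
    exact le_add_of_nonneg_right (sq_nonneg _)⟩
  have hrq : rq s = fun j => gw (β j) := funext fun j => by
    refine gw_congr ?_
    rw [hinc, sq_sqrt (sq_nonneg _)]
  have hL : Lv m (fun j => gw (β j)) (k + 1) 0 := fun i h1 h2 =>
    hk.lv (ρ := fun j => gw (β j)) (fun j => expM_gw _) i h1 (by omega)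
  have h1 : RecN k m (isingMeasure N) (isingSp N) β = N * parisi k m s lc := by
    unfold RecN
    rw [funext (ii_log N), Rec_pi lc_c2d.1.env β hL, parisi_eq_Rec hk lc_c2d.1.env, hrq]
    simp
  have h2 := hS s hs
  rw [pair_eq_sum_tail] at h2
  simp only [hinc] at h2
  have h3 : ∑ j ∈ Finset.range (k + 1), β j ^ 2 * (tail k m p j - 1) / 2 =
      (∑ j ∈ Finset.range (k + 1), β j ^ 2 * tail k m p j) / 2 - s k / 2 := by
    simp only [s, Finset.sum_div, ← Finset.sum_sub_distrib]
    exact Finset.sum_congr rfl fun j _ => by ring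
  have h4 : spinTerm k m s = parisi k m s lc - s k / 2 := rfl
  have h5 : 0 ≤ η * (1 + ∑ j ∈ Finset.range (k + 1), β j ^ 2) :=
    mul_nonneg hη.le (add_nonneg zero_le_one (Finset.sum_nonneg fun _ _ => sq_nonneg _))
  rw [h1, h3, mul_div_cancel_left₀ _ hN']
  linarith

theorem ising_refine {k : ℕ} {m p : ℕ → ℝ} (hk : IsPartition k m) (hp : IsPath k p) (hp1 : p k < 1)
    {f : ℝ → ℝ} (hf : Measurable f) {K : ℝ} (hK : ∀ y, |f y| ≤ K) {δ : ℝ} (hδ : 0 < δ) :
    ∃ k' m' p', 1 ≤ k' ∧ IsPartition k' m' ∧ Mesh k' m' δ ∧ IsPath k' p' ∧ p' k' ≤ 1 ∧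
      energy f k' m' p' = energy f k m p ∧
      InitB isingMeasure isingSp k' m' p' (isingEntropy k m p) := by
  obtain ⟨r, hr, hpr⟩ := exists_crit hk hp hp1
  obtain ⟨l1, l2, -⟩ := lc_c2d
  have mt : Measurable tanh := l2 ▸ measurable_deriv lc
  have bt : ∀ y, |tanh y| ≤ 1 := l2 ▸ l1.b1
  obtain ⟨k', m', x, h1, h2, h3, h4, h5, h6, h7, h8, h9⟩ := exists_refine
    (fun k' m' (x : (ℕ → ℝ) × (ℕ → ℝ)) => IsPath k' x.1 ∧ IsPath k' x.2 ∧ x.1 k' < 1 ∧
      (∀ j ≤ k', x.1 j = phat k' m' x.2 j) ∧ energy f k' m' x.1 = energy f k m p ∧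
      spinTerm k' m' x.2 + pair k' m' x.1 x.2 / 2 = spinTerm k m r + pair k m p r / 2)
    (fun k' m' x i c hk' hi h1 h2 ⟨q1, q2, q3, q4, q5, q6⟩ => by
      refine ⟨(dup i x.1, dup i x.2), q1.dup hi, q2.dup hi, ?_, fun j hj => ?_, ?_, ?_⟩
      · show dup i x.1 (k' + 1) < 1
        rw [dup_last hi]
        exact q3
      · show dup i x.1 j = e1 (k' + 1) (ins i c m') (dup i x.2) lc tanh j
        rw [e1_ins hk' hi h1 h2 l1.env mt bt hj]
        unfold dup
        split_ifs with h
        · exact q4 j (by omega)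
        · exact q4 (j - 1) (by omega)
      · show energy f (k' + 1) (ins i c m') (dup i x.1) = _
        rw [energy_ins hk' hi h1 h2 hf hK, q5]
      · show parisi (k' + 1) (ins i c m') (dup i x.2) lc - dup i x.2 (k' + 1) / 2 +
          pair (k' + 1) (ins i c m') (dup i x.1) (dup i x.2) / 2 = _
        rw [parisi_ins hk' hi h1 h2 l1.env, dup_last hi, pair_ins hi, ← q6]
        rfl)
    (x := (p, r)) hk ⟨hp, hr, hp1, hpr, rfl, rfl⟩ hδ
  refine ⟨k', m', x.1, h1, h2, h3, h4, h6.le, h8, ising_init h2 fun s hs => ?_⟩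
  rw [(isingEntropy_eq hk hr hpr).2, ← h9]
  exact spin_max h2 h5 hs h7

end P157
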