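import Vale.Agent.P157.RMap

/-! P157 IKer: monotonicity properties of tilted Gaussian kernels (TP2 arguments).
Plan. Chebyshev: for a probability measure `ν` and functions `a, b` of `x` that are both nondecreasing
in `|x|`, `∫ a ∫ b ≤ ∫ a b` (integrate `(a x - a x')(b x - b x') ≥ 0`). `Kt_le_even`: the kernel for `X'`
is the kernel for `X` tilted by `X' - X`, apply Chebyshev with `b = exp (X' - X)` as functions of
`x = y + η`. For `w ≠ 0` (the case `w = 0` is `gw_zero`) change variables `x = y + η`: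
`Kt w X φ y = ∫ φ x e^{X x} e^{xy/w²} ∂(gw w) / ∫ e^{X x} e^{xy/w²} ∂(gw w)` (Cameron-Martin, via the
density `gaussianPDFReal`), and symmetrise `x ↦ -x`: for even `φ` replace `e^{xy/w²}` by
`cosh (xy/w²)`, for odd `u` the numerator is `∫ u x tanh (xy/w²) cosh (xy/w²) e^{X x}`, i.e.
`Kt w X u y = Kt w X (u · tanh (· y/w²)) y` with `u · tanh(· y/w²)` even increasing for `y ≥ 0` and
pointwise nondecreasing in `y`. For `0 ≤ y ≤ y'` the ratio `cosh (x y'/w²)/cosh (x y/w²)` is `EI` in `x`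
(`2 cosh A cosh B = cosh (A+B) + cosh (A-B)`), so Chebyshev gives monotonicity in `y`.
`hasDerivAt_Tm`: differentiate under the integral (`hasDerivAt_integral_of_dominated_loc_of_deriv_le`).
-/

open MeasureTheory ProbabilityTheory Real
open scoped BigOperators Matrix

namespace P157


variable {w C C' b : ℝ} {X X' φ u u' : ℝ → ℝ}

/-- numerator of the tilted kernel -/
noncomputable def ikN (w : ℝ) (X φ : ℝ → ℝ) (y : ℝ) : ℝ :=
  ∫ η, exp (X (y + η)) * φ (y + η) ∂gw w

theorem iker_eq (w : ℝ) (X φ : ℝ → ℝ) (y : ℝ) :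
    Kt w X φ y = ikN w X φ y / ikN w X (fun _ => 1) y := by
  simp only [Kt, ikN, integral_tilted, smul_eq_mul, mul_one, div_mul_eq_mul_div, integral_div]

theorem iker_int (hX : Env X C) (hφ : Measurable φ) (hb : ∀ y, |φ y| ≤ b) (y : ℝ) :
    Integrable (fun η => exp (X (y + η)) * φ (y + η)) (gw w) := by
  have h := hX.integrable_exp (expM_gw w) 1 y
  simp only [one_mul] at h
  exact h.mul_bdd (hφ.comp (measurable_const_add y)).aestronglyMeasurable
    (Filter.Eventually.of_forall fun η => hb _)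

theorem iker_int1 (hX : Env X C) (y : ℝ) :
    Integrable (fun η => exp (X (y + η)) * 1) (gw w) :=
  iker_int (φ := fun _ => 1) (b := 1) hX measurable_const (fun _ => by simp) y

theorem iker_pos (hX : Env X C) (y : ℝ) : 0 < ikN w X (fun _ => 1) y := by
  have h := iker_int1 (w := w) hX y
  simp only [ikN, mul_one] at h ⊢
  exact integral_exp_pos h

theorem iker_cheb {μ : Measure ℝ} {p a c : ℝ → ℝ} (hp : ∀ x, 0 ≤ p x)
    (h : ∀ x x', 0 ≤ (a x - a x') * (c x - c x')) (h1 : Integrable p μ)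
    (h2 : Integrable (fun x => p x * a x) μ) (h3 : Integrable (fun x => p x * c x) μ)
    (h4 : Integrable (fun x => p x * c x * a x) μ) :
    (∫ x, p x * a x ∂μ) * ∫ x, p x * c x ∂μ ≤ (∫ x, p x * c x * a x ∂μ) * ∫ x, p x ∂μ := by
  have key : ∀ α β γ δ : ℝ, ∫ x, (α * (p x * c x * a x) + β * p x) - (γ * (p x * a x) +
      δ * (p x * c x)) ∂μ = (α * ∫ x, p x * c x * a x ∂μ + β * ∫ x, p x ∂μ) -
        (γ * ∫ x, p x * a x ∂μ + δ * ∫ x, p x * c x ∂μ) := by
    intro α β γ δ
    rw [integral_sub (by fun_prop) (by fun_prop), integral_add (by fun_prop) (by fun_prop),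
      integral_add (by fun_prop) (by fun_prop)]
    simp only [integral_const_mul]
  have k1 : ∀ x', 0 ≤ (1 * ∫ x, p x * c x * a x ∂μ + (a x' * c x') * ∫ x, p x ∂μ) -
      (c x' * ∫ x, p x * a x ∂μ + a x' * ∫ x, p x * c x ∂μ) := fun x' => by
    rw [← key]
    exact integral_nonneg fun x => (mul_nonneg (hp x) (h x x')).trans_eq (by ring)
  have k2 := key (∫ x, p x ∂μ) (∫ x, p x * c x * a x ∂μ) (∫ x, p x * c x ∂μ) (∫ x, p x * a x ∂μ)
  have k3 : 0 ≤ ∫ x, ((∫ x, p x ∂μ) * (p x * c x * a x) + (∫ x, p x * c x * a x ∂μ) * p x) -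
      ((∫ x, p x * c x ∂μ) * (p x * a x) + (∫ x, p x * a x ∂μ) * (p x * c x)) ∂μ :=
    integral_nonneg fun x => (mul_nonneg (hp x) (k1 x)).trans_eq (by ring)
  linarith

theorem EI.abs (h : EI φ) (x : ℝ) : φ |x| = φ x := by
  rcases abs_choice x with e | e <;> rw [e]
  exact h.1 x

theorem EI.le (h : EI φ) {x x' : ℝ} (hx : |x| ≤ |x'|) : φ x ≤ φ x' := by
  rw [← h.abs x, ← h.abs x']
  exact h.2 (abs_nonneg x) (abs_nonneg x') hx

instance iker_neg (w : ℝ) : (gw w).IsNegInvariant :=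
  ⟨by rw [Measure.neg_def, gw_eq]; exact gaussianReal_map_neg.trans (by rw [neg_zero])⟩

theorem iker_odd {g : ℝ → ℝ} (h : ∀ x, g (-x) = -g x) : ∫ x, g x ∂gw w = 0 := by
  have h1 := integral_neg_eq_self g (gw w)
  simp only [h, integral_neg] at h1
  linarith

theorem iker_negN (he : ∀ y, X (-y) = X y) (φ : ℝ → ℝ) (y : ℝ) :
    ikN w X φ (-y) = ikN w X (fun x => φ (-x)) y := by
  rw [ikN, ← integral_neg_eq_self]
  simp only [← neg_add, he, ikN]

theorem iker_zero (X φ : ℝ → ℝ) (y : ℝ) : Kt 0 X φ y = φ y := by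
  rw [iker_eq, ikN, ikN, gw_zero, integral_dirac, integral_dirac, add_zero, mul_one,
    mul_div_cancel_left₀ _ (exp_pos _).ne']

theorem iker_cm (hw : w ≠ 0) (X φ : ℝ → ℝ) (y : ℝ) : ikN w X φ y =
    exp (-y ^ 2 / (2 * w ^ 2)) * ikN w (fun x => X x + x * (y / w ^ 2)) φ 0 := by
  have h1 : (w ^ 2).toNNReal ≠ 0 := by simpa using hw
  rw [ikN, ikN, gw_eq, integral_gaussianReal_eq_integral_smul h1,
    integral_gaussianReal_eq_integral_smul h1, ← integral_const_mul,
    ← integral_add_left_eq_self (fun x => exp (-y ^ 2 / (2 * w ^ 2)) * _) y]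
  refine integral_congr_ae (Filter.Eventually.of_forall fun x => ?_)
  have e : -(x - 0) ^ 2 / (2 * w ^ 2) = -y ^ 2 / (2 * w ^ 2) + -(y + x - 0) ^ 2 / (2 * w ^ 2) +
      (y + x) * (y / w ^ 2) := by
    field_simp
    ring
  simp only [gaussianPDFReal, coe_toNNReal _ (sq_nonneg w), smul_eq_mul, zero_add, e, exp_add]
  ring

theorem iker_dlc (y : ℝ) : HasDerivAt lc (tanh y) y := by
  rw [tanh_eq_sinh_div_cosh]
  exact (hasDerivAt_cosh y).log (cosh_pos y).ne'

theorem iker_tanh : Measurable tanh := by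
  rw [funext tanh_eq_sinh_div_cosh]
  fun_prop

theorem iker_lc (t : ℝ) : Env (fun x => lc (x * t)) |t| := by
  refine Env.of_lip (by unfold lc; fun_prop) (abs_nonneg t) fun y y' => ?_
  have h := Convex.norm_image_sub_le_of_norm_hasDerivWithin_le (f := lc) (C := 1)
    (fun x _ => (iker_dlc x).hasDerivWithinAt) (fun x _ => (abs_tanh_lt_one x).le) convex_univ
    (Set.mem_univ (y' * t)) (Set.mem_univ (y * t))
  rwa [one_mul, ← sub_mul, norm_mul, mul_comm ‖_‖] at h

theorem iker_lin (t : ℝ) : Env (fun x : ℝ => x * t) |t| :=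
  Env.of_lip (by fun_prop) (abs_nonneg t) fun y y' => by
    rw [← sub_mul, abs_mul, mul_comm, norm_eq_abs]

theorem iker_ev (hX : Env X C) (he : ∀ y, X (-y) = X y) (hφ : Measurable φ) (hb : ∀ y, |φ y| ≤ b)
    (hE : ∀ y, φ (-y) = φ y) (t : ℝ) :
    ikN w (fun x => X x + x * t) φ 0 = ikN w (fun x => X x + lc (x * t)) φ 0 := by
  rw [← sub_eq_zero, ikN, ikN, ← integral_sub (iker_int (hX.add (iker_lin t)) hφ hb 0)
    (iker_int (hX.add (iker_lc t)) hφ hb 0)]
  refine iker_odd fun x => ?_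
  simp only [zero_add, he, hE, exp_add, lc, exp_log (cosh_pos _), neg_mul, cosh_neg]
  rw [cosh_eq]
  ring

theorem iker_cosh (hw : w ≠ 0) (hX : Env X C) (he : ∀ y, X (-y) = X y) (hφ : Measurable φ)
    (hb : ∀ y, |φ y| ≤ b) (hE : ∀ y, φ (-y) = φ y) (y : ℝ) :
    Kt w X φ y = Kt w (fun x => X x + lc (x * (y / w ^ 2))) φ 0 := by
  rw [iker_eq, iker_eq, iker_cm hw X φ, iker_cm hw X, mul_div_mul_left _ _ (exp_pos _).ne',
    iker_ev hX he hφ hb hE, iker_ev (b := 1) hX he measurable_const (by simp) fun _ => rfl]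

theorem iker_bd (hb : ∀ y, |u y| ≤ b) (t x : ℝ) : |u x * tanh (x * t)| ≤ b := by
  rw [abs_mul]
  exact (mul_le_of_le_one_right (abs_nonneg _) (abs_tanh_lt_one _).le).trans (hb x)

theorem iker_me (hu : Measurable u) (t : ℝ) : Measurable fun x => u x * tanh (x * t) :=
  hu.mul (iker_tanh.comp (measurable_mul_const t))

theorem iker_od (hw : w ≠ 0) (hX : Env X C) (he : ∀ y, X (-y) = X y) (hu : Measurable u)
    (hb : ∀ y, |u y| ≤ b) (hO : ∀ y, u (-y) = -u y) (y : ℝ) :
    Kt w X u y = Kt w X (fun x => u x * tanh (x * (y / w ^ 2))) y := by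
  rw [iker_eq, iker_eq, iker_cm hw X u, iker_cm hw X fun x => u x * _]
  congr 2
  rw [← sub_eq_zero, ikN, ikN, ← integral_sub (iker_int (hX.add (iker_lin _)) hu hb 0)
    (iker_int (hX.add (iker_lin _)) (iker_me hu _) (iker_bd hb _) 0)]
  refine iker_odd fun x => ?_
  have h1 := cosh_pos (x * (y / w ^ 2))
  simp only [zero_add, he, hO, exp_add, neg_mul, tanh_neg]
  rw [← cosh_sub_sinh, ← cosh_add_sinh (x * _), tanh_eq_sinh_div_cosh]
  field_simp
  ring

theorem iker_tmono {a c : ℝ} (h : a ≤ c) : tanh a ≤ tanh c := by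
  rw [tanh_eq_sinh_div_cosh, tanh_eq_sinh_div_cosh, div_le_div_iff₀ (cosh_pos _) (cosh_pos _)]
  have h1 := sinh_nonneg_iff.mpr (sub_nonneg.mpr h)
  rw [sinh_sub] at h1
  linarith

theorem iker_tnn {a : ℝ} (h : 0 ≤ a) : 0 ≤ tanh a := tanh_zero.symm.trans_le (iker_tmono h)

theorem OI.nonneg (hO : OI u) {x : ℝ} (hx : 0 ≤ x) : 0 ≤ u x := by
  have h1 := hO.1 0
  have h2 := hO.2 (Set.mem_Ici.mpr le_rfl) hx hx
  rw [neg_zero] at h1
  linarith

theorem OI.tanh_EI (hO : OI u) {t : ℝ} (ht : 0 ≤ t) : EI fun x => u x * tanh (x * t) :=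
  ⟨fun y => by simp only [hO.1, neg_mul, tanh_neg, mul_neg, neg_neg], fun x hx x' hx' h =>
    mul_le_mul (hO.2 hx hx' h) (iker_tmono (mul_le_mul_of_nonneg_right h ht))
      (iker_tnn (mul_nonneg hx ht)) (hO.nonneg hx')⟩

theorem iker_lcEI {t t' : ℝ} (ht : 0 ≤ t) (h : t ≤ t') : EI fun x => lc (x * t') - lc (x * t) := by
  refine ⟨fun y => by simp only [lc, neg_mul, cosh_neg], fun x hx x' hx' hxx => ?_⟩
  rw [Set.mem_Ici] at hx hx'
  have h1 : cosh (x * t' + x' * t) ≤ cosh (x' * t' + x * t) := by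
    rw [cosh_le_cosh, abs_of_nonneg (by nlinarith), abs_of_nonneg (by nlinarith)]
    nlinarith
  have h2 : cosh (x * t' - x' * t) ≤ cosh (x' * t' - x * t) :=
    cosh_le_cosh.mpr ((abs_le.mpr ⟨by nlinarith, by nlinarith⟩).trans (le_abs_self _))
  rw [cosh_add, cosh_add] at h1
  rw [cosh_sub, cosh_sub] at h2
  simp only [lc]
  rw [sub_le_sub_iff, ← log_mul (cosh_pos _).ne' (cosh_pos _).ne',
    ← log_mul (cosh_pos _).ne' (cosh_pos _).ne']
  exact log_le_log (mul_pos (cosh_pos _) (cosh_pos _)) (by linarith)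

theorem Kt_mono (hX : Env X C) (hφ : Measurable φ) (hb : ∀ y, |φ y| ≤ b) {ψ : ℝ → ℝ}
    (hψ : Measurable ψ) (hb' : ∀ y, |ψ y| ≤ b) (h : ∀ y, φ y ≤ ψ y) (y : ℝ) :
    Kt w X φ y ≤ Kt w X ψ y := by
  rw [iker_eq, iker_eq]
  exact div_le_div_of_nonneg_right (integral_mono (iker_int hX hφ hb y) (iker_int hX hψ hb' y)
    fun η => mul_le_mul_of_nonneg_left (h _) (exp_pos _).le) (iker_pos hX y).le
theorem Kt_le_even (hX : Env X C) (hX' : Env X' C') (hd : EI fun y => X' y - X y)
    (hφ : Measurable φ) (hb : ∀ y, |φ y| ≤ b) (hE : EI φ) (y : ℝ) :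
    Kt w X φ y ≤ Kt w X' φ y := by
  have e : ∀ x, exp (X x) * exp (X' x - X x) = exp (X' x) := fun x => by rw [← exp_add, add_sub_cancel]
  have h := iker_cheb (μ := gw w) (p := fun η => exp (X (y + η))) (a := fun η => φ (y + η))
    (c := fun η => exp (X' (y + η) - X (y + η))) (fun _ => (exp_pos _).le) (fun x x' => by
      rcases le_total |y + x| |y + x'| with h | h
      · exact mul_nonneg_of_nonpos_of_nonpos (sub_nonpos.mpr (hE.le h))
          (sub_nonpos.mpr (exp_le_exp.mpr (hd.le h)))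
      · exact mul_nonneg (sub_nonneg.mpr (hE.le h)) (sub_nonneg.mpr (exp_le_exp.mpr (hd.le h))))
    (by simpa using iker_int1 hX y) (iker_int hX hφ hb y) (by simpa [e] using iker_int1 hX' y)
    (by simpa only [e] using iker_int hX' hφ hb y)
  rw [iker_eq, iker_eq, div_le_div_iff₀ (iker_pos hX y) (iker_pos hX' y)]
  simpa only [e, ikN, mul_one] using h
theorem Kt_EI (hX : Env X C) (he : ∀ y, X (-y) = X y) (hφ : Measurable φ) (hb : ∀ y, |φ y| ≤ b)
    (hE : EI φ) : EI (Kt w X φ) := by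
  refine ⟨fun y => by simp only [iker_eq, iker_negN he, hE.1], fun y hy y' _ h => ?_⟩
  rcases eq_or_ne w 0 with rfl | hw
  · simpa only [iker_zero] using hE.2 hy (hy.trans h) h
  · rw [iker_cosh hw hX he hφ hb hE.1, iker_cosh hw hX he hφ hb hE.1]
    refine Kt_le_even (hX.add (iker_lc _)) (hX.add (iker_lc _)) ?_ hφ hb hE 0
    simpa only [add_sub_add_left_eq_sub] using
      iker_lcEI (div_nonneg hy (sq_nonneg w)) (div_le_div_of_nonneg_right h (sq_nonneg w))
theorem Kt_OI (hX : Env X C) (he : ∀ y, X (-y) = X y) (hu : Measurable u) (hb : ∀ y, |u y| ≤ b)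
    (hO : OI u) : OI (Kt w X u) := by
  refine ⟨fun y => by
    rw [iker_eq, iker_eq, iker_negN he, iker_negN he]
    simp only [hO.1, ikN, mul_neg, integral_neg, neg_div],
    fun y hy y' hy' h => ?_⟩
  rcases eq_or_ne w 0 with rfl | hw
  · simpa only [iker_zero] using hO.2 hy hy' h
  have ht := div_nonneg hy (sq_nonneg w)
  have ht' := div_le_div_of_nonneg_right h (sq_nonneg w)
  rw [iker_od hw hX he hu hb hO.1 y, iker_od hw hX he hu hb hO.1 y']
  refine ((Kt_EI hX he (iker_me hu _) (iker_bd hb _) (hO.tanh_EI ht)).2 hy hy' h).trans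
    (Kt_mono hX (iker_me hu _) (iker_bd hb _) (iker_me hu _) (iker_bd hb _) (fun x => ?_) y')
  rw [← (hO.tanh_EI ht).abs x, ← (hO.tanh_EI (ht.trans ht')).abs x]
  exact mul_le_mul_of_nonneg_left (iker_tmono (mul_le_mul_of_nonneg_left ht' (abs_nonneg x)))
    (hO.nonneg (abs_nonneg x))
theorem Kt_le_odd (hX : Env X C) (hX' : Env X' C') (he : ∀ y, X (-y) = X y)
    (hd : EI fun y => X' y - X y) (hu : Measurable u) (hb : ∀ y, |u y| ≤ b) (hO : OI u)
    (hu' : Measurable u') (hb' : ∀ y, |u' y| ≤ b) (hO' : OI u') (hle : ∀ y, 0 ≤ y → u y ≤ u' y)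
    {y : ℝ} (hy : 0 ≤ y) : Kt w X u y ≤ Kt w X' u' y := by
  rcases eq_or_ne w 0 with rfl | hw
  · simpa only [iker_zero] using hle y hy
  have he' : ∀ y, X' (-y) = X' y := fun y => by
    have := hd.1 y
    simp only [he] at this
    linarith
  have ht := div_nonneg hy (sq_nonneg w)
  rw [iker_od hw hX he hu hb hO.1 y, iker_od hw hX' he' hu' hb' hO'.1 y]
  refine (Kt_le_even hX hX' hd (iker_me hu _) (iker_bd hb _) (hO.tanh_EI ht) y).trans
    (Kt_mono hX' (iker_me hu _) (iker_bd hb _) (iker_me hu' _) (iker_bd hb' _) (fun x => ?_) y)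
  rw [← (hO.tanh_EI ht).abs x, ← (hO'.tanh_EI ht).abs x]
  exact mul_le_mul_of_nonneg_right (hle _ (abs_nonneg x)) (iker_tnn (mul_nonneg (abs_nonneg x) ht))
theorem Tm_even (he : ∀ y, X (-y) = X y) (hX : Measurable X) (a y : ℝ) :
    Tm a (gw w) X (-y) = Tm a (gw w) X y := by
  unfold Tm
  rw [← integral_neg_eq_self (fun η => X (-y + η)),
    ← integral_neg_eq_self (fun η => exp (a * X (-y + η)))]
  simp only [← neg_add, he]
theorem hasDerivAt_Tm (hX : Env X C) (hd : ∀ y, HasDerivAt X (u y) y) (hu : Measurable u)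
    (hb : ∀ y, |u y| ≤ b) (a y : ℝ) :
    HasDerivAt (Tm a (gw w) X) (Kt w (fun x => a * X x) u y) y := by
  have hm := hX.meas
  have hsh : ∀ η x, HasDerivAt (fun x => X (x + η)) (u (x + η)) x := fun η x =>
    (hd (x + η)).comp_add_const x η
  rcases eq_or_ne a 0 with rfl | ha
  · have h := (hasDerivAt_integral_of_dominated_loc_of_deriv_le (μ := gw w) (x₀ := y)
      (F := fun x η => X (x + η)) (F' := fun x η => u (x + η)) (bound := fun _ => b)
      Filter.univ_mem
      (Filter.Eventually.of_forall fun x => Measurable.aestronglyMeasurable (by fun_prop))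
      (hX.integrable (expM_gw w) y) (Measurable.aestronglyMeasurable (by fun_prop))
      (Filter.Eventually.of_forall fun η x _ => hb _)
      (integrable_const b) (Filter.Eventually.of_forall fun η x _ => hsh η x)).2
    rw [show Tm 0 (gw w) X = _ from funext fun x => if_pos rfl]
    simpa [iker_eq, ikN] using h
  · have h := (hasDerivAt_integral_of_dominated_loc_of_deriv_le (μ := gw w) (x₀ := y)
      (F := fun x η => exp (a * X (x + η))) (F' := fun x η => exp (a * X (x + η)) * (a * u (x + η)))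
      (bound := fun η => exp (a * X (y + η)) * (exp (|a| * (C * 2)) * (|a| * b)))
      (Metric.ball_mem_nhds y one_pos)
      (Filter.Eventually.of_forall fun x => Measurable.aestronglyMeasurable (by fun_prop))
      (hX.integrable_exp (expM_gw w) a y) (Measurable.aestronglyMeasurable (by fun_prop))
      (Filter.Eventually.of_forall fun η x hx => by
        have h1 := hX.lip (x + η) (y + η)
        rw [add_sub_add_right_eq_sub] at h1
        have h2 : |X (x + η) - X (y + η)| ≤ C * 2 := h1.trans (mul_le_mul_of_nonneg_left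
          (by linarith [mem_ball_iff_norm.mp hx]) hX.nonneg)
        have h3 := (le_abs_self _).trans ((abs_mul a _).trans_le
          (mul_le_mul_of_nonneg_left h2 (abs_nonneg a)))
        rw [norm_mul, norm_of_nonneg (exp_pos _).le, ← mul_assoc, ← exp_add, norm_eq_abs, abs_mul]
        exact mul_le_mul (exp_le_exp.mpr (by linarith))
          (mul_le_mul_of_nonneg_left (hb _) (abs_nonneg a)) (by positivity) (exp_pos _).le)
      ((hX.integrable_exp (expM_gw w) a y).mul_const _)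
      (Filter.Eventually.of_forall fun η x _ => ((hsh η x).const_mul a).exp)).2
    rw [show Tm a (gw w) X = _ from funext fun x => if_neg ha]
    simpa only [iker_eq, ikN, mul_one, mul_left_comm _ a, integral_const_mul, mul_div_assoc,
      mul_inv_cancel_left₀ ha] using
      (h.log (integral_exp_pos (hX.integrable_exp (expM_gw w) a y)).ne').const_mul a⁻¹
theorem OI.sq_EI (hO : OI u) : EI fun y => u y ^ 2 := by
  exact ⟨fun y => by simp only [hO.1, neg_sq], fun x hx x' hx' h =>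
    pow_le_pow_left₀ (hO.nonneg hx) (hO.2 hx hx' h) 2⟩
/-- `log cosh` and `tanh` are invariant under a level with exponent `1` -/
theorem Tm_one_lc (w y : ℝ) : Tm 1 (gw w) lc y = lc y + w ^ 2 / 2 := by
  have h1 : ∀ t : ℝ, ∫ η, exp (t * η) ∂gw w = exp (w ^ 2 * t ^ 2 / 2) := fun t => by
    have := congrFun (mgf_id_gaussianReal (μ := 0) (v := (w ^ 2).toNNReal)) t
    rwa [zero_mul, zero_add, coe_toNNReal _ (sq_nonneg w), ← gw_eq] at this
  have h2 : ∀ t : ℝ, Integrable (fun η => exp (t * η)) (gw w) := fun t => by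
    rw [gw_eq]
    exact integrable_exp_mul_gaussianReal t
  have h3 : ∀ η, exp (1 * lc (y + η)) =
      exp y / 2 * exp (1 * η) + exp (-y) / 2 * exp (-1 * η) := fun η => by
    rw [one_mul, lc, exp_log (cosh_pos _), cosh_eq, neg_add, exp_add, exp_add, one_mul, neg_one_mul]
    ring
  rw [Tm, if_neg one_ne_zero, inv_one, one_mul, funext h3,
    integral_add ((h2 1).const_mul _) ((h2 (-1)).const_mul _), integral_const_mul,
    integral_const_mul, h1, h1, neg_one_sq, one_pow, mul_one, ← add_mul, ← add_div, ← cosh_eq,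
    log_mul (cosh_pos y).ne' (exp_pos _).ne', log_exp, lc]
theorem Kt_lc_tanh (w y : ℝ) : Kt w lc tanh y = tanh y := by
  have h1 : Env lc |1| := by simpa only [mul_one] using iker_lc 1
  have h2 := hasDerivAt_Tm (w := w) h1 iker_dlc iker_tanh (fun y => (abs_tanh_lt_one y).le) 1 y
  rw [funext (Tm_one_lc w)] at h2
  simpa only [one_mul] using h2.unique ((iker_dlc y).add_const _)

end P157
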