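import Vale.Agent.P157.IMono
import Vale.Agent.P157.Grad

/-! P157 IMax: a critical point of `s ↦ spinTerm s + ⟨p,s⟩/2` is its maximum; existence of the critical
point.
Plan (`spin_max`). Let `d = s - r`, `s^θ i = max (min (s i) (r i + θ)) (r i - θ)` (a path for `θ ≥ 0`;
`s^0 = r`, `s^θ = s` for `θ ≥ max |d|`). If no `|d i|` lies strictly between `θ` and `θ'`, the segment from
`s^θ` to `s^θ'` consists of the `s^{θ''}`, and for `d j ≥ θ'` (resp. `d j ≤ -θ'`) `phat_mono` gives
`phat r j ≤ phat s^{θ''} j` (resp. `≥`, apply it with the roles exchanged), so `spin_seg` shows that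
`J = spinTerm + pair p ·/2` does not increase; induct on the number of `j ≤ k` with `|d j| > θ`.
(`exists_crit`). `|spinTerm s - spinTerm s'| ≤ ∑ |s i - s' i|` (`spin_seg`, `0 ≤ phat ≤ 1`) gives
continuity on the cone in `Fin (k+1) → ℝ`; coercivity: `lc y ≤ |y|`,
`Tm a (gw w) |·| y ≤ |y| + log 2/a + a w²/2` for `a > 0`, `E|√s₀ g| ≤ √s₀`, hence
`J s ≤ C + √(s k) - (1 - m k)(1 - p k) s k/2`. At a maximiser `r`, `spin_expand` gives
`tail p j ≤ tail (phat r) j` for all `j`, with equality when `inc r j > 0` (compare with the path `r'`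
with `bump r' u j = r`). Put `g j = tail (phat r) j - tail p j ≥ 0`,
`g (k+1) = 0`. Step 1: `p j ≤ phat r j` for all `j ≤ k` (downward induction on `j`: if `j = k` or
`inc r (j+1) > 0` then `g (j+1) = 0 ≤ g j` and `tail_succ` give it; otherwise
`phat r j = phat r (j+1) ≥ p (j+1) ≥ p j` by `phat_succ_eq`). Step 2: if `inc r a > 0` then `g a = 0` is a sum
of nonnegative terms, so `phat r j = p j` for `j ≥ a`; if `inc r a = 0` for all `a ≤ j` then
`phat r j = phat r 0 = 0` (`phat_zero`) and `0 ≤ p j ≤ phat r j`.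
-/

open MeasureTheory ProbabilityTheory Real
open scoped BigOperators Matrix

namespace P157


variable {k : ℕ} {m p r s : ℕ → ℝ}

private noncomputable def imJ (k : ℕ) (m p s : ℕ → ℝ) : ℝ := spinTerm k m s + pair k m p s / 2

private theorem imJ_congr {s' : ℕ → ℝ} (h : ∀ i ≤ k, s i = s' i) : imJ k m p s = imJ k m p s' := by
  rw [imJ, imJ, spinTerm, spinTerm, parisi_congr _ h, h k le_rfl, pair, pair,
    Finset.sum_congr rfl fun i hi => by rw [h i (Finset.mem_range_succ_iff.1 hi)]]

private theorem im_seg (hk : IsPartition k m) (hr : IsPath k r) (hp : ∀ j ≤ k, p j = phat k m r j)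
    {a b : ℕ → ℝ} (ha : IsPath k a) (hb : IsPath k b) {θ θ' : ℝ} (h0 : 0 ≤ θ) (h1 : θ ≤ θ')
    (h2 : ∀ i ≤ k, |a i - r i| ≤ θ) (h3 : ∀ i ≤ k, |b i - r i| ≤ θ')
    (h4 : ∀ j ≤ k, a j = b j ∨ (a j = r j + θ ∧ b j = r j + θ') ∨
      (a j = r j - θ ∧ b j = r j - θ')) : imJ k m p b ≤ imJ k m p a := by
  have := spin_seg hk ha hb (c := -(1 / 2) * pair k m p fun i => b i - a i) fun t ⟨t0, t1⟩ => by
    have t2 := sub_nonneg.2 t1
    have hx : IsPath k fun i => (1 - t) * a i + t * b i :=
      ⟨add_nonneg (mul_nonneg t2 ha.1) (mul_nonneg t0 hb.1), fun j hj => by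
        have := ha.2 j hj
        have := hb.2 j hj
        dsimp only
        gcongr⟩
    have hc : 0 ≤ (1 - t) * θ + t * θ' := add_nonneg (mul_nonneg t2 h0) (mul_nonneg t0 (h0.trans h1))
    refine mul_le_mul_of_nonpos_left (Finset.sum_le_sum fun j hj => ?_) (by norm_num)
    rw [Finset.mem_range_succ_iff] at hj
    refine mul_le_mul_of_nonneg_left ?_ (sub_pos.2 (hk.2.2 j hj)).le
    dsimp only
    rw [hp j hj]
    rcases h4 j hj with h | h | h
    · rw [h, sub_self, mul_zero, mul_zero]
    · refine mul_le_mul_of_nonneg_right (phat_mono hk hr hx hc hj (fun i hi => ?_) ?_)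
        (by linarith [h.1, h.2])
      · nlinarith [abs_le.1 (h2 i hi), abs_le.1 (h3 i hi)]
      · rw [h.1, h.2]
        ring
    · refine mul_le_mul_of_nonpos_right (phat_mono hk hx hr hc hj (fun i hi => ?_) ?_)
        (by linarith [h.1, h.2])
      · nlinarith [abs_le.1 (h2 i hi), abs_le.1 (h3 i hi)]
      · rw [h.1, h.2]
        ring
  rw [gr_pair_sub] at this
  rw [imJ, imJ]
  linarith

theorem spin_max (hk : IsPartition k m) (hr : IsPath k r) (hs : IsPath k s)
    (hp : ∀ j ≤ k, p j = phat k m r j) :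
    spinTerm k m s + pair k m p s / 2 ≤ spinTerm k m r + pair k m p r / 2 := by
  have hc : ∀ θ : ℝ, 0 ≤ θ → IsPath k fun i => max (min (s i) (r i + θ)) (r i - θ) := fun θ h =>
    ⟨le_max_of_le_left (le_min hs.1 (add_nonneg hr.1 h)), fun j hj => by
      have := hs.2 j hj
      have := hr.2 j hj
      dsimp only
      gcongr⟩
  have hb : ∀ θ : ℝ, 0 ≤ θ → ∀ i, |max (min (s i) (r i + θ)) (r i - θ) - r i| ≤ θ := fun θ h i =>
    abs_le.2 ⟨by linarith [le_max_right (min (s i) (r i + θ)) (r i - θ)], sub_le_iff_le_add'.2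
      (max_le (min_le_right _ _) (by linarith))⟩
  have he : ∀ {θ : ℝ} {i}, |s i - r i| ≤ θ → max (min (s i) (r i + θ)) (r i - θ) = s i := by
    intro θ i h
    rw [abs_le] at h
    rw [min_eq_left (by linarith), max_eq_left (by linarith)]
  have key : ∀ n, ∀ θ : ℝ, 0 ≤ θ →
      ((Finset.range (k + 1)).filter fun i => θ < |s i - r i|).card = n →
      imJ k m p s ≤ imJ k m p fun i => max (min (s i) (r i + θ)) (r i - θ) := by
    intro n
    induction n using Nat.strong_induction_on with
    | _ n ih =>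
      intro θ h0 hn
      rcases ((Finset.range (k + 1)).filter fun i => θ < |s i - r i|).eq_empty_or_nonempty with
        h | h
      · refine (imJ_congr fun i hi => (he ?_).symm).le
        exact not_lt.1 (Finset.filter_eq_empty_iff.1 h (Finset.mem_range_succ_iff.2 hi))
      · obtain ⟨a, ha, hmin⟩ := Finset.exists_min_image _ (fun i => |s i - r i|) h
        have h1 := (Finset.mem_filter.1 ha).2
        have h2 := h0.trans h1.le
        have h6 := Finset.card_lt_card (s := (Finset.range (k + 1)).filter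
          fun i => |s a - r a| < |s i - r i|) ⟨Finset.monotone_filter_right _ fun i _ => h1.trans,
            fun hs => lt_irrefl _ (Finset.mem_filter.1 (hs ha)).2⟩
        refine (ih _ (hn ▸ h6) _ h2 rfl).trans
          (im_seg hk hr hp (hc _ h0) (hc _ h2) h0 h1.le (fun i _ => hb _ h0 i)
            (fun i _ => hb _ h2 i) fun j hj => ?_)
        rcases le_or_gt |s j - r j| θ with h3 | h3
        · exact Or.inl (by rw [he h3, he (h3.trans h1.le)])
        · have h4 := hmin j (Finset.mem_filter.2 ⟨Finset.mem_range_succ_iff.2 hj, h3⟩)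
          generalize |s a - r a| = θ' at *
          rcases le_abs.1 h4 with h5 | h5
          · refine Or.inr (Or.inl ⟨?_, ?_⟩) <;>
              rw [min_eq_right (by linarith), max_eq_left (by linarith)]
          · refine Or.inr (Or.inr ⟨?_, ?_⟩) <;>
              rw [min_eq_left (by linarith), max_eq_right (by linarith)]
  refine (key _ 0 le_rfl rfl).trans (imJ_congr fun i _ => ?_).le
  rw [add_zero, sub_zero, max_eq_right (min_le_right _ _)]

private theorem im_lip (hk : IsPartition k m) (hr : IsPath k r) (hs : IsPath k s) :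
    spinTerm k m s - spinTerm k m r ≤ ∑ i ∈ Finset.range (k + 1), |s i - r i| := by
  refine spin_seg hk hr hs fun t _ => ?_
  rw [pair, Finset.mul_sum]
  refine Finset.sum_le_sum fun i hi => ?_
  rw [Finset.mem_range_succ_iff] at hi
  obtain ⟨h1, h2⟩ := phat_isPath (s := fun i => (1 - t) * r i + t * s i) hk
  have h3 := h1.nonneg hi
  have h4 := (h1.mono_le hi le_rfl).trans h2.le
  have h5 := (hk.2.2 i hi).le
  have h6 := hk.mono_le (Nat.zero_le i) (by omega)
  have h7 := hk.mono_le (Nat.succ_le_succ hi) le_rfl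
  rw [hk.1] at h6
  rw [hk.2.1] at h7
  have h8 : (m (i + 1) - m i) * phat k m (fun i => (1 - t) * r i + t * s i) i ≤ 1 :=
    mul_le_one₀ (by linarith) h3 h4
  nlinarith [mul_nonneg (sub_nonneg.2 h5) h3, neg_abs_le (s i - r i), abs_nonneg (s i - r i)]

private theorem im_env : Env (fun y : ℝ => |y|) 1 :=
  .of_lip continuous_abs.measurable zero_le_one fun y y' =>
    (abs_abs_sub_abs_le_abs_sub y y').trans_eq (one_mul _).symm

private theorem im_Tm {a c : ℝ} (ha : 0 ≤ a) (hc : 0 < c) (h : a ≤ c) (w y : ℝ) :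
    Tm a (gw w) (fun y => |y|) y ≤ |y| + (log 2 / c + c * w ^ 2 / 2) := by
  refine (Tm_mono_exp im_env (expM_gw w) ha h y).trans ?_
  have h0 := im_env.integral_exp_pos (expM_gw w) c y
  have hi : ∀ t : ℝ, Integrable (fun η => exp (t * η)) (gw w) := fun t =>
    gw_eq w ▸ integrable_exp_mul_gaussianReal t
  have hm : ∀ t : ℝ, ∫ η, exp (t * η) ∂(gw w) = exp (t ^ 2 * w ^ 2 / 2) := fun t => by
    have := congrFun (mgf_fun_id_gaussianReal (μ := 0) (v := (w ^ 2).toNNReal)) t
    rw [mgf, Real.coe_toNNReal _ (sq_nonneg w), zero_mul, zero_add, mul_comm] at this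
    rwa [gw_eq]
  have h1 : ∫ η, exp (c * |y + η|) ∂(gw w) ≤ exp (log 2 + c * |y| + c ^ 2 * w ^ 2 / 2) := by
    refine (integral_mono (im_env.integrable_exp (expM_gw w) c y)
      (((hi c).add (hi (-c))).const_mul (exp (c * |y|))) fun η => ?_).trans_eq ?_
    · simp only [Pi.add_apply, mul_add, ← exp_add]
      have h2 := mul_le_mul_of_nonneg_left (abs_add_le y η) hc.le
      rcases abs_cases η with h3 | h3 <;> rw [h3.1] at h2
      · exact le_add_of_le_of_nonneg (exp_le_exp.2 (by linarith)) (exp_pos _).le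
      · exact le_add_of_nonneg_of_le (exp_pos _).le (exp_le_exp.2 (by linarith))
    · simp only [Pi.add_apply]
      rw [integral_const_mul, integral_add (hi c) (hi (-c)), hm, hm, neg_sq, exp_add, exp_add,
        exp_log two_pos]
      ring
  rw [Tm, if_neg hc.ne', inv_mul_le_iff₀ hc]
  refine ((log_le_iff_le_exp h0).2 h1).trans_eq ?_
  field_simp
  ring

private theorem im_Rec {ε : ℝ} (hε : 0 < ε) (n : ℕ) : ∀ j, Lv m (rq s) n j → ∀ y,
    Rec m (rq s) (fun y => |y|) n j y ≤ |y| + ∑ i ∈ Finset.range n,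
      (log 2 / ε + (m (j + i) + ε) * √(inc s (j + i)) ^ 2 / 2) := by
  induction n with
  | zero => exact fun j _ y => by simp [Rec]
  | succ n ih =>
    intro j hL y
    obtain ⟨h1, -, h2⟩ := hL j le_rfl (by omega)
    have h3 := Tm_le_add (im_env.recur hL.tail) im_env h2 h1 (y := y) (y' := y)
      fun η => ih _ hL.tail (y + η)
    have h4 := im_Tm h1 (by linarith : 0 < m j + ε) (by linarith) √(inc s j) y
    have h5 : log 2 / (m j + ε) ≤ log 2 / ε :=
      div_le_div_of_nonneg_left (log_nonneg one_le_two) hε (by linarith)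
    rw [Finset.sum_range_succ']
    simp only [add_assoc j, add_comm 1, add_zero] at h3 ⊢
    change Tm _ _ _ _ ≤ _
    change Tm _ (rq s j) _ _ ≤ _ at h4
    linarith

private theorem im_coer (hk : IsPartition k m) (hp : IsPath k p) (hp1 : p k < 1) :
    ∃ C ε : ℝ, 0 < ε ∧ ∀ s, IsPath k s → imJ k m p s ≤ C - ε * s k := by
  have h0 : 0 < 1 - m k := sub_pos.2 (hk.2.1 ▸ hk.2.2 k le_rfl)
  have h1 := sub_pos.2 hp1
  have hε : 0 < (1 - m k) * (1 - p k) / 2 := by positivity
  refine ⟨∑ _ ∈ Finset.range (k + 1), log 2 / ((1 - m k) * (1 - p k) / 2), _, half_pos hε,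
    fun s hs => ?_⟩
  have hL : Lv m (rq s) (k + 1) 0 := (hk.lv (expM_rq s)).mono le_rfl (by omega)
  have h2 := (Rec_mono lc_c2d.1.env im_env hL (fun y => ?_) 0).trans (im_Rec hε _ _ hL 0)
  · rw [← parisi_eq_Rec hk lc_c2d.1.env, abs_zero, zero_add] at h2
    rw [imJ, pair_eq_sum_tail, spinTerm, ← sum_inc s k, Finset.sum_div, Finset.sum_div,
      Finset.mul_sum, ← Finset.sum_sub_distrib]
    refine (add_le_add_left (sub_le_sub_right h2 _) _).trans ?_
    rw [← Finset.sum_sub_distrib, ← Finset.sum_add_distrib]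
    refine Finset.sum_le_sum fun i hi => ?_
    rw [Finset.mem_range_succ_iff] at hi
    have h3 := hs.inc_nonneg hi
    have h4 : tail k m p i ≤ p k * (1 - m i) := by
      rw [← tail_one hk hi, tail, tail, Finset.mul_sum]
      refine Finset.sum_le_sum fun l hl => ?_
      rw [Finset.mem_Icc] at hl
      nlinarith [hk.2.2 l hl.2, hp.mono_le hl.2 le_rfl]
    rw [zero_add, sq_sqrt h3]
    nlinarith [mul_le_mul_of_nonneg_left h4 h3,
      mul_nonneg h3 (mul_nonneg (sub_nonneg.2 (hk.mono_le hi (by omega))) h1.le)]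
  · rw [lc, log_le_iff_le_exp (cosh_pos y), cosh_eq]
    linarith [exp_le_exp.2 (le_abs_self y), exp_le_exp.2 (neg_le_abs y)]

private theorem im_max (hk : IsPartition k m) (hp : IsPath k p) (hp1 : p k < 1) :
    ∃ r, IsPath k r ∧ ∀ s, IsPath k s → imJ k m p s ≤ imJ k m p r := by
  obtain ⟨C, ε, hε, h⟩ := im_coer hk hp hp1
  obtain ⟨R, hR, hR'⟩ : ∃ R : ℝ, 0 ≤ R ∧ C - ε * R ≤ imJ k m p 0 :=
    ⟨|C - imJ k m p 0| / ε, by positivity, by
      rw [mul_div_cancel₀ _ hε.ne']
      linarith [le_abs_self (C - imJ k m p 0)]⟩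
  have h0 : IsPath k 0 := ⟨le_rfl, fun _ _ => le_rfl⟩
  have hcl : IsClosed {s : ℕ → ℝ | IsPath k s} := by
    simp only [IsPath, Set.ofPred_and, Set.ofPred_forall]
    exact (isClosed_le continuous_const (continuous_apply 0)).inter (isClosed_iInter fun j =>
      isClosed_iInter fun _ => isClosed_le (continuous_apply _) (continuous_apply _))
  have hc : ContinuousOn (imJ k m p) {s | IsPath k s} := by
    refine ContinuousOn.add (fun r hr => ?_) (Continuous.continuousOn (by unfold pair; fun_prop))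
    refine tendsto_iff_dist_tendsto_zero.2 (squeeze_zero' (.of_forall fun _ => dist_nonneg)
      (g := fun s => ∑ i ∈ Finset.range (k + 1), |s i - r i|)
      (eventually_mem_nhdsWithin.mono fun s hs => abs_sub_le_iff.2 ⟨im_lip hk hr hs, ?_⟩)
      (tendsto_nhdsWithin_of_tendsto_nhds (Continuous.tendsto' (by fun_prop) _ _ (by simp))))
    simpa only [abs_sub_comm] using im_lip hk hs hr
  have hz : (0 : ℕ → ℝ) ∈ Set.Icc (0 : ℕ → ℝ) (fun _ => R) ∩ {s | IsPath k s} :=
    ⟨⟨le_rfl, fun _ => hR⟩, h0⟩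
  obtain ⟨r, hr, hm⟩ := (isCompact_Icc.inter_right hcl).exists_isMaxOn ⟨0, hz⟩
    (hc.mono Set.inter_subset_right)
  refine ⟨r, hr.2, fun s hs => ?_⟩
  rcases le_total (s k) R with h1 | h1
  · refine (imJ_congr (s' := fun i => s (min i k)) fun i hi => by rw [min_eq_left hi]).trans_le
      (hm ⟨⟨fun i => hs.nonneg (min_le_right _ _), fun i =>
        (hs.mono_le (min_le_right _ _) le_rfl).trans h1⟩, hs.nonneg (min_le_right _ _),
        fun j _ => hs.mono_le (min_le_min_right _ j.le_succ) (min_le_right _ _)⟩)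
  · exact (h s hs).trans (le_trans (by nlinarith) (hR'.trans (hm hz)))

private theorem im_lim {x C δ : ℝ} (hδ : 0 < δ)
    (h : ∀ u, 0 < u → u ≤ δ → u ≤ 1 → u / 2 * x ≤ C * (u * √u)) : x ≤ 0 := by
  have ht : Filter.Tendsto (fun u : ℝ => 2 * C * √u) (nhdsWithin 0 (Set.Ioi 0)) (nhds 0) :=
    tendsto_nhdsWithin_of_tendsto_nhds (Continuous.tendsto' (by fun_prop) _ _ (by simp))
  refine ge_of_tendsto ht (Filter.mem_of_superset (Ioc_mem_nhdsGT (lt_min hδ one_pos))
    fun u hu => le_of_mul_le_mul_left ?_ (half_pos hu.1))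
  linarith [h u hu.1 (hu.2.trans (min_le_left _ _)) (hu.2.trans (min_le_right _ _))]

theorem exists_crit (hk : IsPartition k m) (hp : IsPath k p) (hp1 : p k < 1) :
    ∃ r, IsPath k r ∧ ∀ j ≤ k, p j = phat k m r j := by
  obtain ⟨r, hr, hm⟩ := im_max hk hp hp1
  obtain ⟨C, -, hC⟩ := spin_expand
  have h1 : ∀ j ≤ k + 1, tail k m p j ≤ tail k m (phat k m r) j := fun j hj => by
    rcases hj.eq_or_lt with rfl | hj
    · simp [tail]
    refine sub_nonpos.1 (im_lim (C := C) one_pos fun u h0 _ h1 => ?_)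
    have a1 := hm _ (hr.bump h0.le j)
    have a2 := abs_le.1 (hC hk hr h0.le h1 (Nat.lt_succ_iff.1 hj)).1
    rw [imJ, imJ, pair_bump] at a1
    linarith [a2.1]
  have h2 : ∀ j ≤ k + 1, j = k + 1 ∨ 0 < inc r j → tail k m (phat k m r) j ≤ tail k m p j := by
    intro j hj h
    rcases hj.eq_or_lt with rfl | hj
    · simp [tail]
    refine sub_nonpos.1 (im_lim (C := C) (h.resolve_left hj.ne) fun u h0 h3 h1 => ?_)
    have a0 : ∀ i ≤ k, 0 ≤ inc (bump r (-u) j) i := fun i hi => by
      have := hr.inc_nonneg hi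
      rw [inc_bump]
      split_ifs with e
      · rw [e]
        linarith
      · rwa [add_zero]
    have a3 : IsPath k (bump r (-u) j) :=
      ⟨a0 0 k.zero_le, fun i hi => sub_nonneg.1 (a0 (i + 1) hi)⟩
    have a4 : bump (bump r (-u) j) u j = r := funext fun i => by
      simp only [bump]
      split_ifs <;> ring
    have a1 := hm _ a3
    have a2 := abs_le.1 (hC hk a3 h0.le h1 (Nat.lt_succ_iff.1 hj)).2
    rw [imJ, imJ, pair_bump] at a1
    rw [a4] at a2
    linarith [a2.2]
  have h0 : ∀ j < k, ¬0 < inc r (j + 1) → phat k m r (j + 1) = phat k m r j := fun j hj h =>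
    phat_succ_eq hk hj (le_antisymm (sub_nonpos.1 (not_lt.1 h)) (hr.2 j hj))
  have h3 : ∀ d j, j + d = k → p j ≤ phat k m r j := fun d => by
    have a : ∀ j ≤ k, j = k ∨ 0 < inc r (j + 1) → p j ≤ phat k m r j := fun j hj h => by
      have a1 := h1 j (by omega)
      have a2 := h2 (j + 1) (by omega) (h.imp_left fun e => by rw [e])
      rw [tail_succ hj, tail_succ hj] at a1
      exact le_of_mul_le_mul_left (by linarith) (sub_pos.2 (hk.2.2 j hj))
    induction d with
    | zero => exact fun j hj => a j (by omega) (Or.inl hj)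
    | succ d ih =>
      intro j hj
      by_cases h : 0 < inc r (j + 1)
      · exact a j (by omega) (Or.inr h)
      · exact h0 j (by omega) h ▸ (hp.2 j (by omega)).trans (ih _ (by omega))
  have h4 : ∀ j ≤ k, p j ≤ phat k m r j := fun j hj => h3 (k - j) j (by omega)
  have h5 : ∀ j ≤ k, tail k m (phat k m r) j ≤ tail k m p j ∨ phat k m r j = 0 := fun j => by
    induction j with
    | zero =>
      intro _
      rcases hr.1.eq_or_lt with h | h
      · exact Or.inr (phat_zero hk h.symm)
      · exact Or.inl (h2 0 (by omega) (Or.inr h))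
    | succ j ih =>
      intro hj
      by_cases h : 0 < inc r (j + 1)
      · exact Or.inl (h2 _ (by omega) (Or.inr h))
      · refine (ih (by omega)).imp (fun a => ?_) fun a => (h0 j hj h).trans a
        rw [tail_succ (by omega), tail_succ (by omega) p] at a
        linarith [mul_le_mul_of_nonneg_left (h4 j (by omega)) (sub_pos.2 (hk.2.2 j (by omega))).le]
  refine ⟨r, hr, fun j hj => le_antisymm (h4 j hj) ?_⟩
  rcases h5 j hj with a | a
  · rw [tail_succ hj, tail_succ hj p] at a
    exact le_of_mul_le_mul_left (by linarith [h1 (j + 1) (by omega)]) (sub_pos.2 (hk.2.2 j hj))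
  · exact a ▸ hp.nonneg hj

theorem isingEntropy_eq (hk : IsPartition k m) (hr : IsPath k r) (hp : ∀ j ≤ k, p j = phat k m r j) :
    IsGreatest (isingEntropySet k m p) (spinTerm k m r + pair k m p r / 2) ∧
      isingEntropy k m p = spinTerm k m r + pair k m p r / 2 := by
  have h : IsGreatest (isingEntropySet k m p) (spinTerm k m r + pair k m p r / 2) :=
    ⟨⟨r, hr, rfl⟩, fun _ ⟨_, hs, e⟩ => e ▸ spin_max hk hr hs hp⟩
  exact ⟨h, h.csSup_eq⟩

theorem bddAbove_isingEntropySet (hk : IsPartition k m) (hp : IsPath k p) (hp1 : p k < 1) :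
    BddAbove (isingEntropySet k m p) := by
  obtain ⟨r, hr, h⟩ := exists_crit hk hp hp1
  exact (isingEntropy_eq hk hr h).1.bddAbove

theorem isingEntropy_nonneg (hk : IsPartition k m) (hp : IsPath k p) (hp1 : p k < 1) :
    0 ≤ isingEntropy k m p := by
  refine le_trans ?_ (le_csSup (bddAbove_isingEntropySet hk hp hp1)
    ⟨0, ⟨le_rfl, fun _ _ => le_rfl⟩, rfl⟩)
  have hL : Lv m (rq 0) (k + 1) 0 := (hk.lv (expM_rq 0)).mono le_rfl (by omega)
  have := Rec_mono (Env.of_bdd measurable_const (b := 0) fun _ => abs_zero.le) lc_c2d.1.env hL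
    (fun y => log_nonneg (one_le_cosh y)) 0
  rw [Rec_const hL, ← parisi_eq_Rec hk lc_c2d.1.env] at this
  simp only [spinTerm, pair, Pi.zero_apply, mul_zero, Finset.sum_const_zero, zero_div, add_zero,
    sub_zero]
  exact this

end P157
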