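import Vale.Agent.P157.IKer
import Vale.Agent.P157.ROne

/-! P157 IMono: monotonicity of the overlap path of one Ising spin.
Plan. Call `(X, u)` admissible if `Env X 1`, `X` even, `HasDerivAt X (u y) y`, `u` measurable, `|u| ≤ 1`,
`OI u`; write `(X,u) ≤ (X',u')` if `u ≤ u'` on `[0,∞)` (then `X` and `X' - X` are `EI` by
`monotoneOn_of_deriv_nonneg`). One level with exponents `0 ≤ a ≤ a'` and the same `gw w` maps
`(X,u) ≤ (X',u')` to `(Tm a X, Kt (aX) u) ≤ (Tm a' X', Kt (a'X') u')` (`a'X' - aX = (a'-a)X' + a(X'-X)` is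
`EI`; IKer), and maps `EI` functions `Φ ≤ Φ'` to `EI` functions `Kt (aX) Φ ≤ Kt (a'X') Φ'`.
Note `Tl m (rq s) X φ (n+1) j = Kt √(inc s j) (m j * Rec n (j+1)) (Tl n (j+1))` by `rfl`.
`phat_lower`: lowering `s i` by `d` (`i ≠ j`): split the levels with `Tm_semigroup`/`Kt_semigroup` as
`(m i, inc s i - d), (a, d), (m (i+1), inc s (i+1))` with `a = m i` for `s` and `a = m (i+1)` for the new
path (for `i = k` the last factor is absent and `a = 1` acts trivially by `Tm_one_lc`, `Kt_lc_tanh`,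
`Rec_add_const`, `Tl_add_const_X`); propagate the comparison through the outer levels (`Rec_split`,
`Tl_split`, induction), squaring after level `j+1` (`OI.sq_EI`). `phat_shift`: split the root level as
`(0, c), (0, s 0)`; an `EI` function is minimal at `0`. `phat_mono`: shift by `c`, then lower the
coordinates `0, 1, ..., k` in this order (each intermediate path is monotone).
-/

open MeasureTheory ProbabilityTheory Real
open scoped BigOperators Matrix

namespace P157


/-- function, derivative, observable -/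
abbrev ImSt : Type := (ℝ → ℝ) × (ℝ → ℝ) × (ℝ → ℝ)

noncomputable def imLv (a w : ℝ) (S : ImSt) : ImSt :=
  (Tm a (gw w) S.1, Kt w (fun y => a * S.1 y) S.2.1, Kt w (fun y => a * S.1 y) S.2.2)

noncomputable def imRun (m s : ℕ → ℝ) (n j : ℕ) (S : ImSt) : ImSt :=
  (Rec m (rq s) S.1 n j, Tl m (rq s) S.1 S.2.1 n j, Tl m (rq s) S.1 S.2.2 n j)

def imSq (S : ImSt) : ImSt := (S.1, S.2.1, fun y => S.2.1 y ^ 2)

noncomputable def imS0 : ImSt := (lc, tanh, fun _ => 0)

structure ImAd (S : ImSt) : Prop where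
  env : Env S.1 1
  ev : ∀ y, S.1 (-y) = S.1 y
  der : ∀ y, HasDerivAt S.1 (S.2.1 y) y
  mu : Measurable S.2.1
  bu : ∀ y, |S.2.1 y| ≤ 1
  oi : OI S.2.1
  mf : Measurable S.2.2
  bf : ∀ y, |S.2.2 y| ≤ 1
  ei : EI S.2.2

def ImLe (S S' : ImSt) : Prop := (∀ y, 0 ≤ y → S.2.1 y ≤ S'.2.1 y) ∧ ∀ y, S.2.2 y ≤ S'.2.2 y

theorem ImLe.refl (S : ImSt) : ImLe S S := ⟨fun _ _ => le_rfl, fun _ => le_rfl⟩
theorem ImLe.trans {S S' S'' : ImSt} (h : ImLe S S') (h' : ImLe S' S'') : ImLe S S'' :=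
  ⟨fun y hy => (h.1 y hy).trans (h'.1 y hy), fun y => (h.2 y).trans (h'.2 y)⟩

section kernel
variable {w C b a a' : ℝ} {X φ : ℝ → ℝ} {S S' : ImSt}

theorem im_Kt (w : ℝ) (X φ : ℝ → ℝ) : Kt w X φ = Tl (fun _ => 1) (fun _ => gw w) X φ 1 0 := by
  funext y
  simp only [Kt, Tl, Rec, one_mul]
theorem im_lv1 (w : ℝ) : Lv (fun _ => 1) (fun _ => gw w) 1 0 :=
  fun _ _ _ => ⟨zero_le_one, le_rfl, expM_gw w⟩
theorem im_meas (hX : Env X C) (hφ : Measurable φ) : Measurable (Kt w X φ) :=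
  im_Kt w X φ ▸ Tl_meas hX (im_lv1 w) hφ
theorem im_abs (hX : Env X C) (hb : ∀ y, |φ y| ≤ b) (y : ℝ) : |Kt w X φ y| ≤ b :=
  im_Kt w X φ ▸ abs_Tl_le hX (im_lv1 w) hb y
theorem im_const (hX : Env X C) (c y : ℝ) : Kt w X (fun _ => c) y = c :=
  im_Kt w X _ ▸ Tl_const hX (im_lv1 w) c y
theorem OI.im_zero (h : OI φ) : φ 0 = 0 := by
  have := h.1 0
  rw [neg_zero] at this
  linarith
theorem OI.im_nonneg (h : OI φ) {y : ℝ} (hy : 0 ≤ y) : 0 ≤ φ y :=
  h.im_zero ▸ h.2 (Set.mem_Ici.2 le_rfl) hy hy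
theorem EI.im_abs (h : EI φ) (y : ℝ) : φ |y| = φ y := by
  rcases abs_choice y with e | e <;> rw [e]
  exact h.1 y

theorem ImAd.lv (h : ImAd S) (ha : 0 ≤ a) (w : ℝ) : ImAd (imLv a w S) := by
  have hE := h.env.const_mul a
  have he : ∀ y, a * S.1 (-y) = a * S.1 y := fun y => by rw [h.ev]
  refine ⟨?_, ?_, ?_, ?_, ?_, ?_, ?_, ?_, ?_⟩ <;> dsimp only [imLv]
  exacts [h.env.tm (expM_gw w) ha, Tm_even h.ev h.env.meas a, hasDerivAt_Tm h.env h.der h.mu h.bu a,
    im_meas hE h.mu, im_abs hE h.bu, Kt_OI hE he h.mu h.bu h.oi, im_meas hE h.mf, im_abs hE h.bf,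
    Kt_EI hE he h.mf h.bf h.ei]

theorem im_EI (h : ImAd S) (h' : ImAd S') (hle : ImLe S S') (ha : 0 ≤ a) (haa : a ≤ a') :
    EI fun y => a' * S'.1 y - a * S.1 y := by
  have hd : ∀ y, HasDerivAt (fun y => a' * S'.1 y - a * S.1 y) (a' * S'.2.1 y - a * S.2.1 y) y :=
    fun y => HasDerivAt.fun_sub (HasDerivAt.const_mul a' (h'.der y)) (HasDerivAt.const_mul a (h.der y))
  refine ⟨fun y => by simp only [h.ev, h'.ev], monotoneOn_of_deriv_nonneg (convex_Ici 0)
    (fun y _ => (hd y).continuousAt.continuousWithinAt)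
    (fun y _ => (hd y).differentiableAt.differentiableWithinAt) fun y hy => ?_⟩
  have hy' : 0 ≤ y := interior_subset hy
  rw [(hd y).deriv, sub_nonneg]
  exact mul_le_mul haa (hle.1 y hy') (h.oi.im_nonneg hy') (ha.trans haa)

theorem ImLe.lv (h : ImAd S) (h' : ImAd S') (hle : ImLe S S') (ha : 0 ≤ a) (haa : a ≤ a') (w : ℝ) :
    ImLe (imLv a w S) (imLv a' w S') := by
  have hE := h.env.const_mul a
  have hE' := h'.env.const_mul a'
  have hd := im_EI h h' hle ha haa
  exact ⟨fun y hy => Kt_le_odd hE hE' (fun y => by rw [h.ev]) hd h.mu h.bu h.oi h'.mu h'.bu h'.oi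
    hle.1 hy, fun y => (Kt_le_even hE hE' hd h.mf h.bf h.ei y).trans
      (Kt_mono hE' h.mf h.bf h'.mf h'.bf hle.2 y)⟩

theorem ImAd.sq (h : ImAd S) : ImAd (imSq S) :=
  ⟨h.env, h.ev, h.der, h.mu, h.bu, h.oi, h.mu.pow_const 2,
    fun y => (abs_sq_le_of_bdd h.bu y).trans_eq (one_pow 2), h.oi.sq_EI⟩

theorem ImLe.sq (h : ImAd S) (h' : ImAd S') (hle : ImLe S S') : ImLe (imSq S) (imSq S') := by
  refine ⟨hle.1, fun y => ?_⟩
  have := pow_le_pow_left₀ (h.oi.im_nonneg (abs_nonneg y)) (hle.1 _ (abs_nonneg y)) 2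
  exact (h.oi.sq_EI.im_abs y).symm.trans_le (this.trans_eq (h'.oi.sq_EI.im_abs y))

theorem im_tanh : Measurable tanh := lc_c2d.2.1 ▸ measurable_deriv lc

theorem imAd0 : ImAd imS0 := by
  obtain ⟨h1, h2, h3⟩ := lc_c2d
  have h4 := h1.d2
  rw [h2] at h3 h4
  refine ⟨h1.env, fun y => by simp [imS0, lc],
    fun y => (h1.d1 y).hasDerivAt.congr_deriv (congrFun h2 y), im_tanh,
    fun y => (abs_tanh_lt_one y).le,
    ⟨tanh_neg, (monotone_of_deriv_nonneg h4 fun y => ?_).monotoneOn _⟩,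
    measurable_const, fun _ => by simp [imS0], fun _ => rfl, fun _ _ _ _ _ => le_rfl⟩
  linarith [h3 y, tanh_sq_lt_one y]

theorem imLv_add (h : ImAd S) (ha : 0 ≤ a) {α β : ℝ} (hα : 0 ≤ α) (hβ : 0 ≤ β) :
    imLv a √(α + β) S = imLv a √α (imLv a √β S) := by
  rw [imLv, Tm_semigroup h.env ha hα hβ, Kt_semigroup h.env h.mu h.bu ha hα hβ,
    Kt_semigroup h.env h.mf h.bf ha hα hβ]
  rfl

theorem imLv_zero (a : ℝ) (S : ImSt) : imLv a 0 S = S := by
  have h1 : ∀ X φ : ℝ → ℝ, Kt 0 X φ = φ := fun X φ => by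
    funext y
    rw [Kt, gw_zero]
    simp [integral_tilted]
  have h2 : Tm a (gw 0) S.1 = S.1 := by
    funext y
    rw [gw_zero, Tm]
    split_ifs with h0
    · simp
    · simp [h0]
  rw [imLv, h1, h1, h2]

theorem im_two (h : ImAd S) (ha : 0 ≤ a) (haa : a ≤ a') {α β d : ℝ} (hα : 0 ≤ α) (hβ : 0 ≤ β)
    (hd : 0 ≤ d) :
    ImLe (imLv a √(α + d) (imLv a' √β S)) (imLv a √α (imLv a' √(d + β) S)) := by
  have h1 := h.lv (ha.trans haa) √β
  rw [imLv_add h1 ha hα hd, imLv_add h (ha.trans haa) hd hβ]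
  exact ImLe.lv (h1.lv ha _) (h1.lv (ha.trans haa) _) (ImLe.lv h1 h1 (.refl _) ha haa _) ha le_rfl _

theorem im_top (ha : 0 ≤ a) (ha1 : a ≤ 1) {α d : ℝ} (hα : 0 ≤ α) (hd : 0 ≤ d) :
    ImLe (imLv a √(α + d) imS0) (imLv a √α imS0) := by
  rw [imLv_add imAd0 ha hα hd]
  refine ImLe.lv (imAd0.lv ha _) imAd0 ((ImLe.lv imAd0 imAd0 (.refl _) ha ha1 _).trans
    ⟨fun y _ => ?_, fun y => ?_⟩) ha le_rfl _
  · simp only [imLv, imS0, one_mul]
    exact (Kt_lc_tanh _ y).le
  · exact (im_const (imAd0.env.const_mul 1) 0 y).le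
end kernel

variable {k : ℕ} {m s s' : ℕ → ℝ}

theorem imRun_succ (n j : ℕ) (S : ImSt) :
    imRun m s (n + 1) j S = imLv (m j) √(inc s j) (imRun m s n (j + 1) S) := rfl
theorem imRun_add (n₁ n₂ j : ℕ) (S : ImSt) :
    imRun m s (n₁ + n₂) j S = imRun m s n₁ j (imRun m s n₂ (j + n₁) S) := by
  rw [imRun, Rec_split, Tl_split, Tl_split]
  rfl
theorem imRun_congr {n j : ℕ} (h : ∀ l, j ≤ l → l < j + n → inc s l = inc s' l) (S : ImSt) :
    imRun m s n j S = imRun m s' n j S := by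
  have h1 : ∀ i < n, m (j + i) = m (j + i) ∧ rq s (j + i) = rq s' (j + i) := fun i hi =>
    ⟨rfl, by rw [rq, rq, h _ (by omega) (by omega)]⟩
  rw [imRun, Rec_congr h1, Tl_congr h1, Tl_congr h1]
  rfl
theorem im_m (hk : IsPartition k m) {l : ℕ} (hl : l ≤ k + 1) : 0 ≤ m l :=
  hk.1 ▸ hk.mono_le (Nat.zero_le l) hl
theorem ImAd.run {S : ImSt} (h : ImAd S) (hk : IsPartition k m) (s : ℕ → ℝ) {n j : ℕ}
    (hn : j + n ≤ k + 1) : ImAd (imRun m s n j S) := by
  induction n generalizing j with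
  | zero => exact h
  | succ n ih => exact imRun_succ n j S ▸ (ih (by omega)).lv (im_m hk (by omega)) _
theorem ImLe.run {S S' : ImSt} (h : ImAd S) (h' : ImAd S') (hle : ImLe S S') (hk : IsPartition k m)
    (s : ℕ → ℝ) {n j : ℕ} (hn : j + n ≤ k + 1) : ImLe (imRun m s n j S) (imRun m s n j S') := by
  induction n generalizing j with
  | zero => exact hle
  | succ n ih =>
    rw [imRun_succ, imRun_succ]
    exact ImLe.lv (h.run hk s (by omega)) (h'.run hk s (by omega)) (ih (by omega))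
      (im_m hk (by omega)) le_rfl _
theorem phat_run (j : ℕ) :
    phat k m s j = (imRun m s (j + 1) 0 (imSq (imRun m s (k - j) (j + 1) imS0))).2.2 0 := rfl

theorem im_inc {i l : ℕ} (heq : ∀ l ≤ k, l ≠ i → s' l = s l) (hl : l ≤ k) (h1 : l ≠ i)
    (h2 : l ≠ i + 1) : inc s l = inc s' l := by
  cases l with
  | zero => exact (heq 0 hl h1).symm
  | succ l => simp only [inc, heq _ hl h1, heq l (by omega) (by omega)]
theorem im_inc' {i : ℕ} (heq : ∀ l ≤ k, l ≠ i → s' l = s l) (hi : i ≤ k) :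
    inc s i = inc s' i + (s i - s' i) := by
  cases i with
  | zero => simp [inc]
  | succ l => simp [inc, heq l (by omega) (by omega)]

/-- a block of levels that contains `i` and `i + 1` -/
theorem im_block (hk : IsPartition k m) (hs : IsPath k s) (hs' : IsPath k s') {i : ℕ}
    (hle : s' i ≤ s i) (heq : ∀ l ≤ k, l ≠ i → s' l = s l) {S : ImSt} (h : ImAd S) {l e n : ℕ}
    (he : l + e = i) (hn : i + (n + 2) ≤ k + 1) :
    ImLe (imRun m s (e + (n + 2)) l S) (imRun m s' (e + (n + 2)) l S) := by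
  rw [imRun_add e, imRun_add e, he, imRun_congr (s := s) (s' := s') (n := e)
    fun l _ _ => im_inc heq (by omega) (by omega) (by omega)]
  refine ImLe.run (h.run hk _ hn) (h.run hk _ hn) ?_ hk _ (by omega)
  have e2 : inc s' (i + 1) = (s i - s' i) + inc s (i + 1) := by
    simp [inc, heq (i + 1) (by omega) (by omega)]
  rw [imRun_succ, imRun_succ, imRun_succ, imRun_succ, imRun_congr (s := s) (s' := s') (n := n)
    fun l _ _ => im_inc heq (by omega) (by omega) (by omega), im_inc' heq (by omega), e2]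
  exact im_two (h.run hk _ (by omega)) (im_m hk (by omega)) (hk.2.2 i (by omega)).le
    (hs'.inc_nonneg (by omega)) (hs.inc_nonneg (by omega)) (sub_nonneg.2 hle)

/-- the top block, `i = k` -/
theorem im_block' (hk : IsPartition k m) (hs' : IsPath k s') (hle : s' k ≤ s k)
    (heq : ∀ l ≤ k, l ≠ k → s' l = s l) {l e : ℕ} (he : l + e = k) :
    ImLe (imRun m s (e + 1) l imS0) (imRun m s' (e + 1) l imS0) := by
  rw [imRun_add, imRun_add, he, imRun_congr (s := s) (s' := s') (n := e)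
    fun l _ _ => im_inc heq (by omega) (by omega) (by omega)]
  refine ImLe.run (imAd0.run hk _ le_rfl) (imAd0.run hk _ le_rfl) ?_ hk _ (by omega)
  rw [imRun_succ, imRun_succ, im_inc' heq le_rfl]
  exact im_top (im_m hk (by omega)) (hk.2.1 ▸ (hk.2.2 k le_rfl).le) (hs'.inc_nonneg le_rfl)
    (sub_nonneg.2 hle)

theorem phat_congr (h : ∀ i ≤ k, s i = s' i) {j : ℕ} (hj : j ≤ k) :
    phat k m s j = phat k m s' j := e1_congr _ _ h hj
theorem phat_isPath (hk : IsPartition k m) : IsPath k (phat k m s) ∧ phat k m s k < 1 := by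
  refine ⟨(e1_isPath hk imAd0.env im_tanh imAd0.bu).1, ?_⟩
  rw [phat, e1, E2_last]
  exact Tl_lt imAd0.env ((hk.lv (expM_rq s)).mono le_rfl (by omega)) imAd0.sq.mf imAd0.sq.bf
    tanh_sq_lt_one 0
theorem phat_lower (hk : IsPartition k m) (hs : IsPath k s) (hs' : IsPath k s') {i j : ℕ}
    (hi : i ≤ k) (hj : j ≤ k) (hij : i ≠ j) (hle : s' i ≤ s i) (heq : ∀ l ≤ k, l ≠ i → s' l = s l) :
    phat k m s j ≤ phat k m s' j := by
  rw [phat_run, phat_run]
  have a1 : ∀ s, ImAd (imRun m s (k - j) (j + 1) imS0) := fun s => imAd0.run hk s (by omega)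
  rcases lt_or_gt_of_ne hij with h | h
  · rw [imRun_congr (s := s) (s' := s') (n := k - j)
      fun l _ _ => im_inc heq (by omega) (by omega) (by omega)]
    have := im_block hk hs hs' hle heq (a1 s').sq (l := 0) (e := i) (n := j - i - 1) (zero_add i)
      (by omega)
    rw [show i + (j - i - 1 + 2) = j + 1 by omega] at this
    exact this.2 0
  · rw [imRun_congr (s := s) (s' := s') (n := j + 1)
      fun l _ _ => im_inc heq (by omega) (by omega) (by omega)]
    refine (ImLe.run (a1 s).sq (a1 s').sq (ImLe.sq (a1 s) (a1 s') ?_) hk _ (by omega)).2 0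
    rcases hi.eq_or_lt with rfl | h1
    · have := im_block' hk hs' hle heq (l := j + 1) (e := i - j - 1) (by omega)
      rwa [show i - j - 1 + 1 = i - j by omega] at this
    · have := im_block hk hs hs' hle heq imAd0 (l := j + 1) (e := i - j - 1) (n := k - i - 1)
        (by omega) (by omega)
      rwa [show i - j - 1 + (k - i - 1 + 2) = k - j by omega] at this
theorem phat_shift (hk : IsPartition k m) (hs : IsPath k s) {c : ℝ} (hc : 0 ≤ c) {j : ℕ}
    (hj : j ≤ k) : phat k m s j ≤ phat k m (fun i => s i + c) j := by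
  have h1 : ∀ l, 1 ≤ l → inc (fun i => s i + c) l = inc s l := fun l hl => by
    obtain ⟨l, rfl⟩ : ∃ l', l = l' + 1 := ⟨l - 1, by omega⟩
    simp [inc]
  have a1 := ((imAd0.run hk s (n := k - j) (j := j + 1) (by omega)).sq.run hk s (n := j) (j := 0 + 1)
    (by omega))
  rw [phat_run, phat_run, imRun_succ, imRun_succ,
    imRun_congr (s := fun i => s i + c) (s' := s) (n := j) fun l _ _ => h1 l (by omega),
    imRun_congr (s := fun i => s i + c) (s' := s) (n := k - j) fun l _ _ => h1 l (by omega),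
    show inc (fun i => s i + c) 0 = c + inc s 0 from add_comm _ _,
    imLv_add a1 hk.1.ge hc (hs.inc_nonneg (Nat.zero_le k))]
  have a2 := a1.lv hk.1.ge √(inc s 0)
  have hE := a2.env.const_mul (m 0)
  refine (im_const (w := √c) hE _ 0).symm.trans_le
    (Kt_mono hE measurable_const (fun _ => a2.bf 0) a2.mf a2.bf (fun y => ?_) 0)
  exact (a2.ei.2 (Set.mem_Ici.2 le_rfl) (abs_nonneg y) (abs_nonneg y)).trans_eq (a2.ei.im_abs y)
theorem phat_mono (hk : IsPartition k m) (hs : IsPath k s) (hs' : IsPath k s') {c : ℝ} (hc : 0 ≤ c)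
    {j : ℕ} (hj : j ≤ k) (hle : ∀ i ≤ k, s' i ≤ s i + c) (heq : s' j = s j + c) :
    phat k m s j ≤ phat k m s' j := by
  have hp : ∀ n, IsPath k fun l => if l < n then s' l else s l + c := fun n => by
    refine ⟨?_, fun l hl => ?_⟩
    · have := hs.1
      have := hs'.1
      simp only
      split_ifs <;> linarith
    · have := hs.2 l hl
      have := hs'.2 l hl
      have := hle l hl.le
      simp only
      split_ifs with h1 h2 h2
      · linarith
      · linarith
      · omega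
      · linarith
  have key : ∀ n ≤ k + 1, phat k m s j ≤ phat k m (fun l => if l < n then s' l else s l + c) j := by
    intro n hn
    induction n with
    | zero => simpa using phat_shift hk hs hc hj
    | succ n ih =>
      refine (ih (by omega)).trans ?_
      have e : ∀ l, l ≠ n → (if l < n + 1 then s' l else s l + c) =
          if l < n then s' l else s l + c := fun l hl => if_congr (by omega) rfl rfl
      by_cases h : n = j
      · refine (phat_congr (fun l _ => ?_) hj).le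
        by_cases hl : l = n
        · simp [hl, h, heq]
        · exact (e l hl).symm
      · exact phat_lower hk (hp n) (hp (n + 1)) (by omega) hj h
          (by simpa using hle n (by omega)) fun l _ hl => e l hl
  exact (key _ le_rfl).trans_eq (phat_congr (fun l hl => if_pos (by omega)) hj)
/-- `phat` is constant where the path is constant, and vanishes where the path vanishes -/
theorem phat_succ_eq (hk : IsPartition k m) {j : ℕ} (hj : j < k) (h : s (j + 1) = s j) :
    phat k m s (j + 1) = phat k m s j := by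
  have e : inc s (j + 1) = 0 := sub_eq_zero.2 h
  rw [phat_run, phat_run, imRun_add (j + 1) 1, show k - j = k - (j + 1) + 1 by omega, zero_add,
    imRun_succ 0, imRun_succ (k - (j + 1)), e, sqrt_zero, imLv_zero, imLv_zero]
  rfl
theorem phat_zero (hk : IsPartition k m) (h : s 0 = 0) : phat k m s 0 = 0 := by
  rw [phat_run, imRun_succ, show inc s 0 = 0 from h, sqrt_zero, imLv_zero]
  exact (pow_eq_zero_iff two_ne_zero).2 (imAd0.run hk s (n := k - 0) (j := 0 + 1) (by omega)).oi.im_zero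

end P157
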