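import Vale.Agent.P157.SBasic
import Vale.Agent.P157.SPat

/-! P157 PCav1: adding patterns to a synchronised system (values).
Plan. `pc1`: `interp_nonlin` with `G ω σ y = f y`, `A₁ = sp σ / √N` (`fld_eq_dot`, `fld_cov`, `feat_sp`,
`ov_self`), `A₀ = tfeat (wq p) (lf σ)` (`tfeat_wq`, `cj_self`, `p k = 1`), then `AC.one`
(`abs_wq_le` with `R = 1`, `C2d.env`) and `parisi_eq_Rec`. `vt`: two applications of `interp_nonlin`.
First the last factor, with base `P.prod (gp (Fin N))`, base Hamiltonian `H + f(S₁)` (a tilt bounded by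
`K`: `A2_tilt_le`, `A2_fst'`) and `G ω σ y = f y + c σ φ₁(S₁) φ₂ y` (constant `K + K²`); then swap the two
Gaussian factors (`FE_comp`) and treat the first pattern with base Hamiltonian `H + f(z₂)`.
-/

open MeasureTheory ProbabilityTheory Real
open scoped BigOperators Matrix

namespace P157

variable {Ω S : Type} [MeasurableSpace Ω] [MeasurableSpace S] {P : Measure Ω}
  [IsProbabilityMeasure P] {μ : Measure S} [IsProbabilityMeasure μ]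

theorem C2b.meas0 {f : ℝ → ℝ} {K : ℝ} (hf : C2b f K) : Measurable f :=
  hf.d1.continuous.measurable

theorem C2b.meas1 {f : ℝ → ℝ} {K : ℝ} (hf : C2b f K) : Measurable (deriv f) :=
  hf.d2.continuous.measurable

theorem pc_abs {x y z K A : ℝ} (hx : |x| ≤ K) (hy : |y| ≤ A) (hz : |z| ≤ K) :
    |x + y * z| ≤ K + A * K :=
  gb_add hx (gb_mul hy hz)

/-- the nonlinearity `f y + a φ y` -/
theorem pc_c2f {f φ : ℝ → ℝ} {K A : ℝ} (hf : C2b f K) (hφ : C2b φ K) {a : Ω → S → ℝ}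
    (ha : Bd1 a A) :
    C2F P (fun ω σ y => f y + a ω σ * φ y) (fun ω σ y => deriv f y + a ω σ * deriv φ y)
      (fun ω σ y => deriv (deriv f) y + a ω σ * deriv (deriv φ) y) (K + A * K) := by
  have hm : Measurable fun p : Ω × S × ℝ => a p.1 p.2.1 :=
    ha.meas.comp (measurable_fst.prodMk (measurable_fst.comp measurable_snd))
  have h3 : Measurable fun p : Ω × S × ℝ => p.2.2 := measurable_snd.comp measurable_snd
  refine ⟨(hf.meas0.comp h3).add (hm.mul (hφ.meas0.comp h3)),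
    (hf.meas1.comp h3).add (hm.mul (hφ.meas1.comp h3)),
    ((measurable_deriv _).comp h3).add (hm.mul ((measurable_deriv _).comp h3)),
    fun ω σ y => (hf.d1 y).hasDerivAt.add ((hφ.d1 y).hasDerivAt.const_mul _),
    fun ω σ y => (hf.d2 y).hasDerivAt.add ((hφ.d2 y).hasDerivAt.const_mul _),
    fun ω σ y => pc_abs (hf.b1 y) (ha.bdd ω σ) (hφ.b1 y),
    fun ω σ y => pc_abs (hf.b2 y) (ha.bdd ω σ) (hφ.b2 y), ?_⟩
  exact Bd1.good (C := K + A * K) ⟨measurable_const.add (ha.meas.mul measurable_const),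
    fun ω σ => pc_abs (hf.b0 0) (ha.bdd ω σ) (hφ.b0 0)⟩

/-- replace the pattern field by the tree field in the last factor -/
theorem pc_step {k : ℕ} {H : Ω → S → ℝ} (hH : Good P H) {L N : ℕ}
    (hN : 0 < N) {sp : S → Fin N → ℝ} (hsp : IsSp sp) {lf : S → Leaf L k} (hlf : Measurable lf)
    {p : ℕ → ℝ} (hp : IsOv k p) {G G' G'' : Ω → S → ℝ → ℝ} {K : ℝ} (hG : C2F P G G' G'' K)
    (hb : ∀ ω σ y, |G ω σ y| ≤ K) {η : ℝ} (hs : Sync k P μ H sp lf p η) :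
    |FE (P.prod (gp (Fin N))) μ (fun ω σ => H ω.1 σ + G ω.1 σ (fld ω.2 (sp σ))) -
      FE (P.prod (gp (Nd L k))) μ (fun ω σ => H ω.1 σ + G ω.1 σ (tf (wq p) ω.2 (lf σ)))| ≤
      K ^ 2 * exp (4 * K) / 2 * η := by
  have h := interp_nonlin (μ := μ) hH hG hb (feat_sp (Ω := Ω) hsp) (feat_tfeat hlf (wq p))
    (fun ω σ => by rw [fld_cov, tfeat_wq hp.1, ov_self hsp hN, cj_self, hp.2])
  simp only [fld_cov, tfeat_wq hp.1] at h
  simp only [← fld_eq_dot, ← tf_eq_dot] at h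
  exact h.trans (mul_le_mul_of_nonneg_left hs (by positivity))

/-- synchronisation survives a bounded tilt on an extra factor -/
theorem pc_sync {k : ℕ} {H : Ω → S → ℝ} (hH : Good P H) {L N : ℕ}
    {sp : S → Fin N → ℝ} (hsp : IsSp sp) {lf : S → Leaf L k} (hlf : Measurable lf)
    {p : ℕ → ℝ} (hp : IsOv k p) {η : ℝ} (hs : Sync k P μ H sp lf p η) {Ω' : Type}
    [MeasurableSpace Ω'] (P' : Measure Ω') [IsProbabilityMeasure P'] {D : Ω × Ω' → S → ℝ} {K : ℝ}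
    (hD : Bd1 D K) :
    Sync k (P.prod P') μ (fun ω σ => H ω.1 σ + D ω σ) sp lf p (exp (4 * K) * η) := by
  have h2 := fun (Ω : Type) [MeasurableSpace Ω] => (bd2_sync (Ω := Ω) hsp hlf hp).abs
  have h3 := A2_tilt_le (μ := μ) (hH.fst P') hD (h2 _).good2 fun _ _ _ => abs_nonneg _
  rw [A2_fst' hH (h2 _).good2] at h3
  exact h3.trans (mul_le_mul_of_nonneg_left hs (exp_pos _).le)

theorem pc_sync_nonneg {k : ℕ} {H : Ω → S → ℝ} {L N : ℕ} {sp : S → Fin N → ℝ}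
    {lf : S → Leaf L k} {p : ℕ → ℝ} {η : ℝ} (hs : Sync k P μ H sp lf p η) : 0 ≤ η :=
  (A2_nonneg fun _ _ _ => abs_nonneg _).trans hs

theorem pc_bd_fld {N : ℕ} {sp : S → Fin N → ℝ} (hsp : IsSp sp) {φ : ℝ → ℝ} (hφ : Measurable φ)
    {K : ℝ} (hK : ∀ y, |φ y| ≤ K) {e : Ω → Fin N → ℝ} (he : Measurable e) :
    Bd1 (fun ω σ => φ (fld (e ω) (sp σ))) K :=
  ⟨hφ.comp (measurable_fld hsp he), fun _ _ => hK _⟩

theorem pc_bd_tf {L k : ℕ} {lf : S → Leaf L k} (hlf : Measurable lf) (w : ℕ → ℝ) {φ : ℝ → ℝ}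
    (hφ : Measurable φ) {K : ℝ} (hK : ∀ y, |φ y| ≤ K) {e : Ω → Nd L k → ℝ} (he : Measurable e) :
    Bd1 (fun ω σ => φ (tf w (e ω) (lf σ))) K :=
  ⟨hφ.comp (measurable_tf hlf w he), fun _ _ => hK _⟩

theorem pc_bd_c {c : S → ℝ} (hc : Measurable c) (hc1 : ∀ σ, |c σ| ≤ 1) :
    Bd1 (fun (_ : Ω) σ => c σ) 1 :=
  ⟨hc.comp measurable_snd, fun _ σ => hc1 σ⟩

theorem pc1 {k : ℕ} {m : ℕ → ℝ} (hk : IsPartition k m) {H : Ω → S → ℝ} (hH : Good P H) {L N : ℕ}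
    (hN : 0 < N) {sp : S → Fin N → ℝ} (hsp : IsSp sp) {lf : S → Leaf L k} (hlf : Measurable lf)
    {p : ℕ → ℝ} (hp : IsOv k p) {f : ℝ → ℝ} {K : ℝ} (hf : C2b f K) (hK : 1 ≤ K) {η τ : ℝ}
    (hs : Sync k P μ H sp lf p η) (hA : AC k m P μ H lf K τ) :
    |FE (P.prod (gp (Fin N))) μ (fun ω σ => H ω.1 σ + f (fld ω.2 (sp σ))) - FE P μ H
      - parisi k m p f| ≤ K ^ 2 * exp (4 * K) / 2 * η + τ := by
  have hG : C2F P (fun _ (_ : S) y => f y) (fun _ _ y => deriv f y)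
      (fun _ _ y => deriv (deriv f) y) K := by
    have h := pc_c2f (P := P) hf hf (Bd1.const (Ω := Ω) (S := S) 0)
    simpa using h
  have h1 := pc_step (μ := μ) hH hN hsp hlf hp hG (fun _ _ y => hf.b0 y) hs
  have h2 := hA.one hk hH hlf (w := wq p)
    (fun j hj => (abs_wq_le hp.1 (R := 1) (by rw [hp.2]; norm_num) zero_le_one hj).trans hK)
    hf.c2d.env
  rw [parisi_eq_Rec hk hf.c2d.env]
  have h3 : (fun j => gw (wq p j)) = rq p := rfl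
  rw [h3] at h2
  rw [abs_le] at h1 h2 ⊢
  constructor <;> linarith [h1.1, h1.2, h2.1, h2.2]

theorem vt {K : ℝ} (hK : 1 ≤ K) : ∃ C : ℝ, 0 ≤ C ∧ ∀ {k : ℕ} {Ω S : Type} [MeasurableSpace Ω] [MeasurableSpace S] {P : Measure Ω}
      [IsProbabilityMeasure P] {μ : Measure S} [IsProbabilityMeasure μ] {H : Ω → S → ℝ}
      (_ : Good P H) {L N : ℕ} (_ : 0 < N) {sp : S → Fin N → ℝ} (_ : IsSp sp) {lf : S → Leaf L k}
      (_ : Measurable lf) {p : ℕ → ℝ} (_ : IsOv k p)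
      {η : ℝ} (_ : Sync k P μ H sp lf p η) {f φ₁ φ₂ : ℝ → ℝ} (_ : C2b f K) (_ : C2b φ₁ K)
      (_ : C2b φ₂ K) {c : S → ℝ} (_ : Measurable c) (_ : ∀ σ, |c σ| ≤ 1),
      |FE ((P.prod (gp (Fin N))).prod (gp (Fin N))) μ (fun ω σ => H ω.1.1 σ
          + f (fld ω.1.2 (sp σ)) + f (fld ω.2 (sp σ))
          + c σ * (φ₁ (fld ω.1.2 (sp σ)) * φ₂ (fld ω.2 (sp σ)))) -
        FE ((P.prod (gp (Nd L k))).prod (gp (Nd L k))) μ (fun ω σ => H ω.1.1 σ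
          + f (tf (wq p) ω.1.2 (lf σ)) + f (tf (wq p) ω.2 (lf σ))
          + c σ * (φ₁ (tf (wq p) ω.1.2 (lf σ)) * φ₂ (tf (wq p) ω.2 (lf σ))))| ≤ C * η := by
  refine ⟨2 * ((K + 1 * K * K) ^ 2 * exp (4 * (K + 1 * K * K)) / 2 * exp (4 * K)),
    by positivity, ?_⟩
  intro k Ω S _ _ P _ μ _ H hH L N hN sp hsp lf hlf p hp η hs f φ₁ φ₂ hf h₁ h₂ c hc hc1
  -- first step
  have b1 : Bd1 (fun (ω : Ω × (Fin N → ℝ)) σ => f (fld ω.2 (sp σ))) K :=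
    pc_bd_fld hsp hf.meas0 hf.b0 measurable_snd
  have a1 : Bd1 (fun (ω : Ω × (Fin N → ℝ)) σ => c σ * φ₁ (fld ω.2 (sp σ))) (1 * K) :=
    (pc_bd_c hc hc1).mul (pc_bd_fld hsp h₁.meas0 h₁.b0 measurable_snd)
  have s1 := pc_step (μ := μ) ((hH.fst (gp (Fin N))).add b1.good) hN hsp hlf hp
    (pc_c2f hf h₂ a1) (fun ω σ y => pc_abs (hf.b0 y) (a1.bdd ω σ) (h₂.b0 y))
    (pc_sync hH hsp hlf hp hs _ b1)
  -- second step
  have b2 : Bd1 (fun (ω : Ω × (Nd L k → ℝ)) σ => f (tf (wq p) ω.2 (lf σ))) K :=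
    pc_bd_tf hlf _ hf.meas0 hf.b0 measurable_snd
  have a2 : Bd1 (fun (ω : Ω × (Nd L k → ℝ)) σ => c σ * φ₂ (tf (wq p) ω.2 (lf σ))) (1 * K) :=
    (pc_bd_c hc hc1).mul (pc_bd_tf hlf _ h₂.meas0 h₂.b0 measurable_snd)
  have s2 := pc_step (μ := μ) ((hH.fst (gp (Nd L k))).add b2.good) hN hsp hlf hp
    (pc_c2f hf h₁ a2) (fun ω σ y => pc_abs (hf.b0 y) (a2.bdd ω σ) (h₁.b0 y))
    (pc_sync hH hsp hlf hp hs _ b2)
  -- rotations
  have g1 : Good ((P.prod (gp (Nd L k))).prod (gp (Fin N))) (fun ω σ =>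
      H ω.1.1 σ + f (tf (wq p) ω.1.2 (lf σ)) +
        (f (fld ω.2 (sp σ)) + c σ * φ₂ (tf (wq p) ω.1.2 (lf σ)) * φ₁ (fld ω.2 (sp σ)))) :=
    (((hH.fst _).add b2.good).fst _).add
      ((pc_bd_fld hsp hf.meas0 hf.b0 measurable_snd).add
        ((a2.comp measurable_fst measurable_id).mul
          (pc_bd_fld hsp h₁.meas0 h₁.b0 measurable_snd))).good
  have r1 := FE_comp (μ := μ) g1 (sp_rot P (gp (Fin N)) (gp (Nd L k))) (MeasurePreserving.id μ)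
  have g2 : Good ((P.prod (gp (Nd L k))).prod (gp (Nd L k))) (fun ω σ =>
      H ω.1.1 σ + f (tf (wq p) ω.1.2 (lf σ)) +
        (f (tf (wq p) ω.2 (lf σ)) +
          c σ * φ₂ (tf (wq p) ω.1.2 (lf σ)) * φ₁ (tf (wq p) ω.2 (lf σ)))) :=
    (((hH.fst _).add b2.good).fst _).add
      ((pc_bd_tf hlf _ hf.meas0 hf.b0 measurable_snd).add
        ((a2.comp measurable_fst measurable_id).mul
          (pc_bd_tf hlf _ h₁.meas0 h₁.b0 measurable_snd))).good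
  have r2 := FE_comp (μ := μ) g2 (sp_rot P (gp (Nd L k)) (gp (Nd L k))) (MeasurePreserving.id μ)
  simp only [id] at r1 r2
  have e1 : (fun (ω : (Ω × (Fin N → ℝ)) × (Fin N → ℝ)) σ => H ω.1.1 σ
      + f (fld ω.1.2 (sp σ)) + f (fld ω.2 (sp σ))
      + c σ * (φ₁ (fld ω.1.2 (sp σ)) * φ₂ (fld ω.2 (sp σ)))) = fun ω σ =>
      H ω.1.1 σ + f (fld ω.1.2 (sp σ)) +
        (f (fld ω.2 (sp σ)) + c σ * φ₁ (fld ω.1.2 (sp σ)) * φ₂ (fld ω.2 (sp σ))) := by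
    funext ω σ; ring
  have e2 : (fun (ω : (Ω × (Nd L k → ℝ)) × (Nd L k → ℝ)) σ => H ω.1.1 σ
      + f (tf (wq p) ω.1.2 (lf σ)) + f (tf (wq p) ω.2 (lf σ))
      + c σ * (φ₁ (tf (wq p) ω.1.2 (lf σ)) * φ₂ (tf (wq p) ω.2 (lf σ)))) = fun ω σ =>
      H ω.1.1 σ + f (tf (wq p) ω.2 (lf σ)) +
        (f (tf (wq p) ω.1.2 (lf σ)) +
          c σ * φ₂ (tf (wq p) ω.2 (lf σ)) * φ₁ (tf (wq p) ω.1.2 (lf σ))) := by
    funext ω σ; ring
  have e3 : (fun (ω : (Ω × (Fin N → ℝ)) × (Nd L k → ℝ)) σ =>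
      H ω.1.1 σ + f (tf (wq p) ω.2 (lf σ)) +
        (f (fld ω.1.2 (sp σ)) + c σ * φ₂ (tf (wq p) ω.2 (lf σ)) * φ₁ (fld ω.1.2 (sp σ)))) =
      fun ω σ => H ω.1.1 σ + f (fld ω.1.2 (sp σ)) +
        (f (tf (wq p) ω.2 (lf σ)) + c σ * φ₁ (fld ω.1.2 (sp σ)) * φ₂ (tf (wq p) ω.2 (lf σ))) := by
    funext ω σ; ring
  rw [e3] at r1
  rw [e1, e2, r2]
  rw [← r1] at s2
  rw [abs_le] at s1 s2 ⊢
  constructor <;> linarith [s1.1, s1.2, s2.1, s2.2]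

end P157
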