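import Vale.Agent.P157.SC
import Vale.Agent.P157.PCav1
import Vale.Agent.P157.R12

/-! P157 Incr: increments of the free energy and the self-consistency equations.
Plan. Let `W^B b = SW (μ.prod ν) (spx sp ε) (M+2) b`. `SWx … 0 0 = W^B` (`extra = 0`, `FE_fst`).
Value: `spin_cavity` with `s' = 0`, `x = 0` (`SSync_pred` twice). Pattern: `SW_succ`, `pc1`.
Second equation: `FE_jensen` gives `SWx … 0 x - W^B ≥ x A1 ξ² ≥ x - |x| t`. First equation: with
`s' = bump 0 u j`, `extra = √u (ξ tfeat 1_j)·g - u ξ²/2`, so `interp_small` (`V = B²`) gives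
`SWx - W^B = -(u/2) A2 (ξ ξ' ind j) ± 3 B³ u √u`, and `r + bump 0 u j = bump r u j`. It remains to see
`A2^B (ov' ind j) ≈ tail p j`: let `b' = update b (inr j) √u'` with `u'` small; `SW_bump` for both
systems, `spin_cavity` (`s' = 0`, `x = 0`) for `b` and `b'` (`SSync_bump`; same `r`, `κ`) give
`|A2^B (ov' ind j) - A2 (ov ind j)| ≤ 12 √u' + 4 τ₁/u'`; then `Sync.tail_close`, `ac_ind`. Choose `u'` with
`u · 12 √u' ≤ τ/4`, then `τ₁`.
-/

open MeasureTheory ProbabilityTheory Real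
open scoped BigOperators Matrix

namespace P157


theorem Facts.mono {νξ : Measure ℝ} {k : ℕ} {m p r : ℕ → ℝ} {B u x₀ t τ τ' : ℝ}
    (h : Facts νξ k m p r B u x₀ t τ) (hτ : τ ≤ τ') : Facts νξ k m p r B u x₀ t τ' := by
  exact ⟨fun j hj => (h.1 j hj).trans (by linarith), fun x hx => le_trans (by linarith) (h.2 x hx)⟩

section aux
variable {S₀ : Type} [MeasurableSpace S₀] {N L k n₀ M : ℕ} {μ : Measure S₀}
  [IsProbabilityMeasure μ] {sp : S₀ → Fin N → ℝ} {f : ℝ → ℝ} {K : ℝ} {m : ℕ → ℝ} {b : TT n₀ k → ℝ}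
  {B τ₀ : ℝ} {νξ : Measure ℝ} {ν : Measure (ℝ × ℝ)} {ε ξ : ℝ × ℝ → ℝ}

theorem incr_path (k : ℕ) : IsPath k fun _ => (0 : ℝ) := ⟨le_rfl, fun _ _ => le_rfl⟩

theorem incr_inc (i : ℕ) : inc (fun _ => (0 : ℝ)) i = 0 := by
  cases i <;> simp [inc]

theorem incr_bd {Ω : Type} [MeasurableSpace Ω] (hd : SpinData B τ₀ νξ ν ε ξ) :
    Bd1 (fun (_ : Ω) (c : (S₀ × (ℝ × ℝ)) × Leaf L k) => ξ c.1.2) B :=
  ⟨hd.mξ.comp measurable_snd.fst.snd, fun _ _ => hd.bξ _⟩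

theorem incr_good (hd : SpinData B τ₀ νξ ν ε ξ) (x : ℝ) : Good (SP L k n₀ (N + 1) M m)
    (fun _ (c : (S₀ × (ℝ × ℝ)) × Leaf L k) => x * ξ c.1.2 ^ 2) := by
  simp only [sq]
  exact (((incr_bd hd).mul (incr_bd hd)).const_mul x).good

theorem incr_zero (hd : SpinData B τ₀ νξ ν ε ξ) (hx : IsSp (spx sp ε)) (hL : 0 < L)
    (hf : NiceK f K) (x : ℝ) : SWx L k n₀ M f m μ sp b ν ε ξ (fun _ => 0) x =
      FE (SP L k n₀ (N + 1) M m) ((μ.prod ν).prod (unif L k))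
        (fun ω c => SH f m (spx sp ε) b ω c + x * ξ c.1.2 ^ 2) := by
  have := unif_prob hL k
  have := hd.prob
  rw [← FE_fst (P' := gp (Nd L k)) ((SH_good hx hf.meas hf.c0.b0).add (incr_good hd x))]
  unfold SWx
  congr 1
  funext ω c
  simp [extra, tf, wq, incr_inc]

theorem incr_zero' (hd : SpinData B τ₀ νξ ν ε ξ) (hx : IsSp (spx sp ε)) (hL : 0 < L)
    (hf : NiceK f K) : SWx L k n₀ M f m μ sp b ν ε ξ (fun _ => 0) 0 =
      SW L k n₀ M f m (μ.prod ν) (spx sp ε) b := by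
  rw [incr_zero hd hx hL hf]
  simp only [zero_mul, add_zero]
  rfl

theorem incr_jensen (hd : SpinData B τ₀ νξ ν ε ξ) (hx : IsSp (spx sp ε)) (hL : 0 < L)
    (hf : NiceK f K) (x : ℝ) : SW L k n₀ M f m (μ.prod ν) (spx sp ε) b +
      x * SA1 L k n₀ M f m (μ.prod ν) (spx sp ε) b (fun _ c => ξ c.1.2 ^ 2) ≤
      SWx L k n₀ M f m μ sp b ν ε ξ (fun _ => 0) x := by
  have := unif_prob hL k
  have := hd.prob
  rw [incr_zero hd hx hL hf]
  unfold SW SA1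
  rw [← A1_const_mul]
  exact FE_jensen (SH_good hx hf.meas hf.c0.b0) (incr_good hd x)

theorem incr_dot {j : ℕ} (hj : j ≤ k) (a a' : ℝ) (ω ω' : Leaf L k) :
    (a • tfeat (fun i => if i = j then 1 else 0) ω) ⬝ᵥ
      (a' • tfeat (fun i => if i = j then 1 else 0) ω') = a * a' * ind j ω ω' := by
  rw [smul_dotProduct, dotProduct_smul, tfeat_dot, Finset.sum_eq_single j]
  · simp [mul_assoc]
  · intro i _ hi
    simp [hi]
  · intro h
    exact absurd (Finset.mem_range.2 (Nat.lt_succ_of_le hj)) h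

theorem incr_small (hd : SpinData B τ₀ νξ ν ε ξ) (hx : IsSp (spx sp ε)) (hL : 0 < L)
    (hf : NiceK f K) (hB : 1 ≤ B) {u : ℝ} (hu : 0 < u) (huB : u * B ^ 2 ≤ 1) {j : ℕ} (hj : j ≤ k) :
    |SWx L k n₀ M f m μ sp b ν ε ξ (bump (fun _ => 0) u j) 0 -
      SW L k n₀ M f m (μ.prod ν) (spx sp ε) b + u / 2 * SA2 L k n₀ M f m (μ.prod ν) (spx sp ε) b
        (fun _ c c' => ξ c.1.2 * ξ c'.1.2 * ind j c.2 c'.2)| ≤ 3 * B ^ 3 * (u * √u) := by
  have := unif_prob hL k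
  have := hd.prob
  have hA := (feat_tfeat (Ω := SO L k n₀ (N + 1) M) (S := (S₀ × (ℝ × ℝ)) × Leaf L k)
    measurable_snd (fun i => if i = j then 1 else 0)).bd_smul (incr_bd hd)
  have key := interp_small (μ := (μ.prod ν).prod (unif L k))
    (SH_good (M := M) (m := m) (b := b) hx hf.meas hf.c0.b0) hA (V := B ^ 2) (fun _ c => by
      rw [incr_dot hj, ind_self hj, mul_one, ← sq]
      exact sq_le_sq' (abs_le.1 (hd.bξ _)).1 (abs_le.1 (hd.bξ _)).2) hu.le huB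
  simp only [incr_dot hj, ind_self hj] at key
  rw [sqrt_sq (by linarith), ← pow_succ] at key
  have hw : wq (bump (fun _ => 0) u j) = fun i => √u * if i = j then 1 else 0 := by
    funext i
    unfold wq
    rw [inc_bump, incr_inc]
    split_ifs <;> simp
  unfold SWx SW SA2
  convert key using 5
  funext ω c
  unfold extra
  rw [hw, tf_smul, tf_eq_dot, smul_dotProduct, smul_eq_mul]
  simp only [bump, if_pos hj]
  ring

theorem incr_upd (t₀ : TT n₀ k) (y : ℝ) :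
    ∑ t, Function.update b t₀ y t ^ 2 * deg t ≤ ∑ t, b t ^ 2 * deg t + y ^ 2 * deg t₀ := by
  have e : y ^ 2 * deg t₀ = ∑ t : TT n₀ k, if t = t₀ then y ^ 2 * (deg t₀ : ℝ) else 0 := by simp
  rw [e, ← Finset.sum_add_distrib]
  refine Finset.sum_le_sum fun t _ => ?_
  by_cases ht : t = t₀
  · subst ht
    rw [Function.update_self, if_pos rfl]
    have : 0 ≤ b t ^ 2 * deg t := by positivity
    linarith
  · rw [Function.update_of_ne ht, if_neg ht, add_zero]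

theorem incr_eta {E η₁ c τ : ℝ} (hE : 0 < E) (h1 : 0 < η₁) (hc : 0 < c) (hτ : 0 < τ) :
    ∃ η : ℝ, 0 < η ∧ E * (E * η) ≤ η₁ ∧ exp 16 * √(2 * (E * (E * η))) ≤ η₁ ∧ c * η ≤ τ / 2 ∧
      η ≤ τ / 4 := by
  have he : 0 < exp 16 := exp_pos _
  refine ⟨min (min (η₁ / (E * E)) ((η₁ / exp 16) ^ 2 / (2 * (E * E)))) (min (τ / 2 / c) (τ / 4)),
    by positivity, ?_, ?_, ?_, ?_⟩
  · rw [← mul_assoc, mul_comm, ← le_div_iff₀ (by positivity)]
    exact le_trans (min_le_left _ _) (min_le_left _ _)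
  · rw [mul_comm, ← le_div_iff₀ he]
    refine sqrt_le_iff.2 ⟨by positivity, ?_⟩
    rw [← mul_assoc E, ← mul_assoc, mul_comm, ← le_div_iff₀ (by positivity)]
    exact le_trans (min_le_left _ _) (min_le_right _ _)
  · rw [mul_comm, ← le_div_iff₀ hc]
    exact le_trans (min_le_right _ _) (min_le_left _ _)
  · exact le_trans (min_le_right _ _) (min_le_right _ _)

theorem incr_num {v τ a a' : ℝ} (hv : 0 < v) (h : v ^ 2 / 2 * |a - a'| ≤ 6 * v ^ 3 + τ * v ^ 2 / 4) :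
    |a - a'| ≤ 12 * v + τ / 2 := by
  have h2 : 0 < v ^ 2 / 2 := by positivity
  refine le_of_mul_le_mul_left ?_ h2
  linarith

theorem incr_fin {u t τ v T X Y Z : ℝ} (hu : 0 < u) (hu1 : u ≤ 1) (hτ : 0 < τ) (hv : v ≤ τ / 24)
    (h1 : |X - Y| ≤ t) (h2 : |Y - Z| ≤ 12 * v + τ / 2) (h3 : |Z - T| ≤ τ / 2) :
    |u / 2 * T - u / 2 * X| ≤ u * t + 3 * τ / 4 := by
  have h4 : |T - X| ≤ t + 3 * τ / 2 := by
    rw [abs_le] at *
    constructor <;> linarith [h1.1, h1.2, h2.1, h2.2, h3.1, h3.2]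
  have ht : 0 ≤ t := (abs_nonneg _).trans h1
  rw [← mul_sub, abs_mul, abs_of_pos (by linarith)]
  nlinarith [mul_le_mul_of_nonneg_left h4 hu.le, mul_nonneg hu.le ht]

end aux

theorem incr {f : ℝ → ℝ} {K : ℝ} (hf : NiceK f K) (α₁ : ℝ) {B u x₀ τ : ℝ} (hB : 1 ≤ B) (hu : 0 < u)
    (huB : u * B ^ 2 ≤ 1) (hx : 0 < x₀) (hx1 : x₀ ≤ 1) (hτ : 0 < τ) :
    ∃ η B' τ₀ lam : ℝ, 0 < η ∧ 0 < τ₀ ∧ 0 < lam ∧ ∀ {k : ℕ} {m : ℕ → ℝ} (_ : IsPartition k m),
      ∃ (τ' : ℝ) (N₀ : ℕ), 0 < τ' ∧ ∀ N ≥ N₀, ∀ {S₀ : Type} [MeasurableSpace S₀] {L n₀ M : ℕ} {μ : Measure S₀} [IsProbabilityMeasure μ]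
      {sp : S₀ → Fin N → ℝ} (_ : IsSp sp) (_ : 0 < L) {b : TT n₀ k → ℝ}
      (_ : ((M + 2 : ℕ) : ℝ) ≤ α₁ * N) (_ : ∀ j, b (.inr j) = 0)
      (_ : ∑ t, b t ^ 2 * deg t ≤ lam * N) {p : ℕ → ℝ} (_ : IsOv k p)
      (_ : SSync L k n₀ (M + 2) f m μ sp b p η)
      (_ : ∀ (M' : ℕ) (b' : TT n₀ k → ℝ), (∀ t, |b' t| ≤ |b t| + 1) →
        SAC L k n₀ M' f m μ sp b' B' τ')
      {νξ : Measure ℝ} {ν : Measure (ℝ × ℝ)} {ε ξ : ℝ × ℝ → ℝ} (_ : SpinData B τ₀ νξ ν ε ξ) {t : ℝ}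
      (_ : ∀ j ≤ k, |SA2 L k n₀ (M + 2) f m (μ.prod ν) (spx sp ε) b
            (fun _ c c' => ξ c.1.2 * ξ c'.1.2 * ind j c.2 c'.2)
          - SA2 L k n₀ (M + 2) f m (μ.prod ν) (spx sp ε) b
            (fun _ c c' => ov (spx sp ε c.1) (spx sp ε c'.1) * ind j c.2 c'.2)| ≤ t)
      (_ : |SA1 L k n₀ (M + 2) f m (μ.prod ν) (spx sp ε) b (fun _ c => ξ c.1.2 ^ 2) - 1| ≤ t),
      Facts νξ k m p (rr f N (M + 2) k m p) B u x₀ t τ ∧
      psiNu νξ k m (rr f N (M + 2) k m p) (pair k m (rr f N (M + 2) k m p) p) - τ ≤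
        SW L k n₀ (M + 2) f m (μ.prod ν) (spx sp ε) b - SW L k n₀ (M + 2) f m μ sp b ∧
      parisi k m p f - τ ≤ SW L k n₀ (M + 3) f m μ sp b - SW L k n₀ (M + 2) f m μ sp b := by
  have hK := hf.one_le
  have hu1 : u ≤ 1 := by nlinarith [mul_le_mul_of_nonneg_left (one_le_pow₀ hB (n := 2)) hu.le]
  set v : ℝ := min 1 (τ / 24) with hv
  have hv0 : 0 < v := lt_min one_pos (by positivity)
  have hv1 : v ≤ 1 := min_le_left _ _
  have hv2 : v ≤ τ / 24 := min_le_right _ _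
  have hv3 : v ^ 2 ≤ 1 := pow_le_one₀ hv0.le hv1
  have hτ₁ : τ * v ^ 2 / 8 ≤ τ / 8 := by nlinarith
  obtain ⟨η₁, B₁, τ₀, lam₁, hη₁, hτ₀, hlam, hsc⟩ := spin_cavity hf α₁ hB (τ := τ * v ^ 2 / 8)
    (by positivity)
  obtain ⟨η, hη, e1, e2, e3, e4⟩ := incr_eta (E := exp (4 * K)) (c := K ^ 2 * exp (4 * K) / 2)
    (exp_pos _) hη₁ (by positivity) hτ
  refine ⟨η, max B₁ (max 3 K), τ₀, lam₁ / 2, hη, hτ₀, by positivity, fun {k m} hk => ?_⟩
  obtain ⟨τ₁, N₁, hτ₁', hsc⟩ := hsc hk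
  obtain ⟨τ₂, hτ₂, hind⟩ := ac_ind hk (τ := τ / 4) (by positivity)
  refine ⟨min τ₁ (min τ₂ (τ / 2)), max N₁ ⌈2 / lam₁⌉₊, by positivity, fun N hN => ?_⟩
  obtain ⟨hN0, hB2, hsc⟩ := hsc N (le_trans (le_max_left _ _) hN)
  have hNl : 1 ≤ lam₁ / 2 * N := by
    have : 2 / lam₁ ≤ N := Nat.ceil_le.1 (le_trans (le_max_right _ _) hN)
    rw [div_le_iff₀ hlam] at this
    linarith
  intro S₀ _ L n₀ M μ _ sp h hL b hM hb0 hb p hp hs hA νξ ν ε ξ hd t ht1 ht2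
  have := unif_prob hL k
  have := hd.prob
  have hx := hd.isSp h hN0 hB2
  have hm := hf.meas
  have h0 := hf.c0.b0
  have hsM := SSync_pred h hL hm h0 hp (SSync_pred h hL hm h0 hp hs)
  have hA1 : ∀ (M' : ℕ) (b' : TT n₀ k → ℝ), (∀ t, |b' t| ≤ |b t| + 1) →
      SAC L k n₀ M' f m μ sp b' B₁ τ₁ := fun M' b' hb' =>
    AC.mono (hA M' b' hb') (le_max_left _ _) (min_le_left _ _)
  have hbb : ∀ t, |b t| ≤ |b t| + 1 := fun t => by linarith
  have hsc1 := fun (s' : ℕ → ℝ) (hs' : IsPath k s') (hs1 : s' k ≤ 1) (x : ℝ) (hx : |x| ≤ 1) =>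
    hsc h hL hM (by linarith) hp (le_trans hsM e1) (hA1 M b hbb) (hA1 (M + 2) b hbb) hd hs' hs1 hx
  have V := hsc1 _ (incr_path k) zero_le_one 0 (by simp)
  rw [incr_zero' hd hx hL hf] at V
  simp only [add_zero, mul_zero] at V
  have hH := SH_good (L := L) (M := M + 2) (m := m) (b := b) h hm h0
  refine ⟨⟨fun j hj => ?_, fun x hxx => ?_⟩, by linarith [(abs_le.1 V).1], ?_⟩
  · have a1 := hsc1 _ ((incr_path k).bump hu.le j) (by simp [bump, hj, hu1]) 0 (by simp)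
    have e : (fun i => rr f N (M + 2) k m p i + bump (fun _ => 0) u j i) =
        bump (rr f N (M + 2) k m p) u j := by
      funext i
      unfold bump
      split_ifs <;> simp
    rw [e] at a1
    simp only [add_zero, mul_zero] at a1
    have a2 := incr_small (M := M + 2) (m := m) (b := b) (μ := μ) hd hx hL hf hB hu huB hj
    set t₀ : TT n₀ k := .inr ⟨j, Nat.lt_succ_of_le hj⟩ with ht₀
    have hbt : b t₀ = 0 := hb0 _
    have hb' : ∀ t, |Function.update b t₀ √(v ^ 2) t| ≤ |b t| + 1 := fun t => by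
      by_cases ht : t = t₀
      · subst ht
        rw [Function.update_self, sqrt_sq hv0.le, abs_of_pos hv0]
        linarith [abs_nonneg (b t₀)]
      · rw [Function.update_of_ne ht]; linarith
    have V' := hsc h hL hM (b := Function.update b t₀ √(v ^ 2)) (by
        refine (incr_upd t₀ _).trans ?_
        have : deg t₀ = 1 := rfl
        rw [this, sqrt_sq hv0.le]
        push_cast
        linarith) hp
      (le_trans (SSync_bump h hN0 hL hm h0 hbt (sq_nonneg v) hv3 hp hsM) e2)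
      (hA1 M _ hb') (hA1 (M + 2) _ hb') hd (incr_path k) zero_le_one (x := 0) (by simp)
    rw [incr_zero' hd hx hL hf] at V'
    simp only [add_zero, mul_zero] at V'
    have c1 := SW_bump (M := M + 2) (m := m) (μ := μ) h hN0 hL hm h0 hbt (sq_nonneg v) hv3
    have c2 := SW_bump (M := M + 2) (m := m) (μ := μ.prod ν) hx (Nat.succ_pos N) hL hm h0 hbt
      (sq_nonneg v) hv3
    have k1 : ∀ {N' : ℕ} (y y' : Fin N' → ℝ) (ω ω' : Leaf L k),
        ker t₀ y y' ω ω' = ov y y' * ind j ω ω' := fun y y' ω ω' => by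
      simp [ht₀, ker, deg, lev]
    simp only [k1] at c1 c2
    generalize Function.update b t₀ √(v ^ 2) = b' at V' c1 c2
    rw [sqrt_sq hv0.le] at c1 c2
    have c3 := Sync.tail_close hk hH h.fst measurable_snd hp hs
      (hind (μ := μ.prod (unif L k)) hH measurable_snd (AC.mono (hA _ b hbb)
        (le_trans (le_max_left _ _) (le_max_right _ _))
        (le_trans (min_le_right _ _) (min_le_left _ _)))) hj
    have c4 := incr_num (τ := τ) hv0
      (a := SA2 L k n₀ (M + 2) f m (μ.prod ν) (spx sp ε) b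
        fun _ c c' => ov (spx sp ε c.1) (spx sp ε c'.1) * ind j c.2 c'.2)
      (a' := SA2 L k n₀ (M + 2) f m μ sp b
        fun _ c c' => ov (sp c.1) (sp c'.1) * ind j c.2 c'.2) (by
        rw [← abs_of_pos (by positivity : 0 < v ^ 2 / 2), ← abs_mul, abs_le]
        rw [abs_le] at V V' c1 c2
        constructor <;> linarith [V.1, V.2, V'.1, V'.2, c1.1, c1.2, c2.1, c2.2])
    have c5 := incr_fin hu hu1 hτ hv2 (ht1 j hj) c4 (T := tail k m p j)
      (le_trans c3 (by linarith))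
    have c6 : 0 ≤ B ^ 3 * (u * √u) := by positivity
    rw [abs_le] at V a1 a2 c5 ⊢
    constructor <;> linarith [V.1, V.2, a1.1, a1.2, a2.1, a2.2, c5.1, c5.2]
  · have a1 := hsc1 _ (incr_path k) zero_le_one x (by rw [hxx]; exact hx1)
    simp only [add_zero] at a1
    have a2 := incr_jensen (n₀ := n₀) (M := M + 2) (m := m) (b := b) (μ := μ) hd hx hL hf x
    have a3 : |x * (SA1 L k n₀ (M + 2) f m (μ.prod ν) (spx sp ε) b
        (fun _ c => ξ c.1.2 ^ 2) - 1)| ≤ x₀ * t := by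
      rw [abs_mul, hxx]
      exact mul_le_mul_of_nonneg_left ht2 (by linarith)
    linarith [(abs_le.1 V).1, (abs_le.1 a1).2, (abs_le.1 a3).1]
  · have a1 := pc1 hk hH hN0 h.fst measurable_snd hp hf.c0 hK hs (AC.mono (hA _ b hbb)
      (le_trans (le_max_right _ _) (le_max_right _ _))
      (le_trans (min_le_right _ _) (min_le_right _ _)))
    rw [SW_succ h hL hm h0]
    unfold SW
    linarith [(abs_le.1 a1).1]

end P157
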