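import Vale.Agent.P157.IBP1
import Vale.Agent.P157.GIneq

/-! P157 Interp: Gaussian interpolation.
Plan: `φ θ = FE _ μ (iH F κ A₁ A₀ θ)`. (1) `HasDerivAt φ (A1 (∂_θ iH)) θ`: differentiate `lZ` in `θ`
for fixed disorder (dominated, bounded configurations) and then under the disorder integral (the
derivative is bounded by `K (|A₁·g₁| + |A₀·g₀|) + 2 Cκ`, integrable). Alternative without
derivatives under the outer integral: `FE_jensen` from both sides shows that `φ` is Lipschitz with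
one-sided difference quotients converging (continuity of `θ ↦ A1`). (2) `∂_θ iH =
F'·(cos θ A₁·g₁ - sin θ A₀·g₀) + 2 sin θ cos θ κ`; apply `ibp1` twice (for `g₀` directly with the
base disorder `Ω × (ι₁ → ℝ)` and `F̃ y = F (sin θ A₁·g₁ + y) + sin² θ κ`, features `cos θ • A₀`; for
`g₁` after swapping the two factors with `A1_comp`/`A2_comp`), the self terms cancel by `hself`:
`φ' θ = 2 sin θ cos θ * (-(1/2) A2 …)`. (3) `θ ↦ φ θ - c sin² θ` is antitone on `[0, π/2]`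
(`antitoneOn_of_deriv_nonpos`); identify the endpoints with `FE_fst`/`FE_comp`.
-/

open MeasureTheory ProbabilityTheory Real
open scoped BigOperators Matrix

namespace P157

variable {Ω S : Type} [MeasurableSpace Ω] [MeasurableSpace S] {P : Measure Ω}
  [IsProbabilityMeasure P] {μ : Measure S} [IsProbabilityMeasure μ]

variable {F F' F'' : Ω → S → ℝ → ℝ} {K Cκ : ℝ} {ι₁ ι₀ : Type} [Fintype ι₁] [Fintype ι₀]
  {A₁ : Ω → S → ι₁ → ℝ} {A₀ : Ω → S → ι₀ → ℝ} {κ : Ω → S → ℝ}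

theorem interp_lZ_deriv {H H' : ℝ → S → ℝ} (hm : ∀ θ, Measurable (H θ))
    (hm' : ∀ θ, Measurable (H' θ)) {B B₀ θ₀ : ℝ} (h0 : ∀ σ, |H θ₀ σ| ≤ B₀)
    (hb : ∀ θ σ, |H' θ σ| ≤ B) (hd : ∀ θ σ, HasDerivAt (fun θ => H θ σ) (H' θ σ) θ) :
    HasDerivAt (fun θ => lZ μ (H θ)) (∫ σ, H' θ₀ σ ∂(μ.tilted (H θ₀))) θ₀ := by
  have hint : Integrable (fun σ => exp (H θ₀ σ)) μ :=
    Integrable.of_bound (hm θ₀).exp.aestronglyMeasurable (exp B₀) (.of_forall fun σ => by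
      rw [Real.norm_eq_abs, abs_exp]; exact exp_le_exp.2 (abs_le.1 (h0 σ)).2)
  have h1 := (hasDerivAt_integral_of_dominated_loc_of_deriv_le (μ := μ)
    (F := fun θ σ => exp (H θ σ)) (F' := fun θ σ => exp (H θ σ) * H' θ σ)
    (bound := fun _ => exp (B₀ + B) * B) (Metric.ball_mem_nhds θ₀ one_pos)
    (.of_forall fun θ => (hm θ).exp.aestronglyMeasurable) hint
    ((hm θ₀).exp.mul (hm' θ₀)).aestronglyMeasurable (.of_forall fun σ θ hθ => by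
      have e1 := convex_univ.norm_image_sub_le_of_norm_hasDerivWithin_le
        (f := fun θ => H θ σ) (f' := fun θ => H' θ σ) (C := B)
        (fun x _ => (hd x σ).hasDerivWithinAt) (fun x _ => hb x σ) (Set.mem_univ θ₀)
        (Set.mem_univ θ)
      have hB : 0 ≤ B := (abs_nonneg _).trans (hb θ σ)
      have e2 : B * ‖θ - θ₀‖ ≤ B := mul_le_of_le_one_right hB (mem_ball_iff_norm.1 hθ).le
      have e3 := (abs_le.1 (e1.trans e2)).2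
      rw [Real.norm_eq_abs, abs_mul, abs_exp]
      exact mul_le_mul (exp_le_exp.2 (by linarith [(abs_le.1 (h0 σ)).2])) (hb θ σ) (abs_nonneg _)
        (exp_pos _).le)
    (integrable_const _) (.of_forall fun σ θ _ => (hd θ σ).exp)).2
  have hZ : 0 < ∫ σ, exp (H θ₀ σ) ∂μ := integral_exp_pos hint
  have h2 := h1.log hZ.ne'
  refine h2.congr_deriv ?_
  rw [integral_tilted, ← integral_div]
  exact integral_congr_ae (.of_forall fun σ => by simp only [smul_eq_mul]; ring)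

theorem interp_FE_deriv {H H' : ℝ → Ω → S → ℝ} (hg : ∀ θ, Good P (H θ))
    (hg' : ∀ θ, Good P (H' θ)) {B : Ω → ℝ} (hB : Integrable B P)
    (hb : ∀ θ ω σ, |H' θ ω σ| ≤ B ω)
    (hd : ∀ θ ω σ, HasDerivAt (fun θ => H θ ω σ) (H' θ ω σ) θ) (θ₀ : ℝ) :
    HasDerivAt (fun θ => FE P μ (H θ)) (A1 P μ (H θ₀) (H' θ₀)) θ₀ := by
  refine (hasDerivAt_integral_of_dominated_loc_of_deriv_le (μ := P)
    (F := fun θ ω => lZ μ (H θ ω)) (F' := fun θ ω => ∫ σ, H' θ ω σ ∂(μ.tilted (H θ ω)))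
    (bound := B) Filter.univ_mem
    (.of_forall fun θ => (hg θ).measurable_lZ.aestronglyMeasurable) (hg θ₀).integrable_lZ
    ((hg θ₀).measurable_A1 (hg' θ₀)).aestronglyMeasurable (.of_forall fun ω θ _ => ?_) hB
    (.of_forall fun ω θ _ => ?_)).2
  · have := (hg θ).isProb (μ := μ) ω
    simpa using norm_integral_le_of_norm_le_const (μ := μ.tilted (H θ ω)) (f := H' θ ω)
      (C := B ω) (.of_forall fun σ => hb θ ω σ)
  · obtain ⟨B₀, -, h0⟩ := (hg θ).bdd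
    exact interp_lZ_deriv (fun θ => (hg θ).meas.comp measurable_prodMk_left)
      (fun θ => (hg' θ).meas.comp measurable_prodMk_left) (h0 ω) (fun θ => hb θ ω)
      fun θ => hd θ ω

/-- merge the two Gaussian vectors -/
def interpE (ω : (Ω × (ι₁ → ℝ)) × (ι₀ → ℝ)) : Ω × (ι₁ ⊕ ι₀ → ℝ) := (ω.1.1, Sum.elim ω.1.2 ω.2)

theorem interpE_mp : MeasurePreserving (interpE (Ω := Ω) (ι₁ := ι₁) (ι₀ := ι₀))
    ((P.prod (gp ι₁)).prod (gp ι₀)) (P.prod (gp (ι₁ ⊕ ι₀))) := by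
  have h1 := measurePreserving_sumPiEquivProdPi_symm (fun _ : ι₁ ⊕ ι₀ => gaussianReal 0 1)
  have h2 := ((MeasurePreserving.id P).prod h1).comp
    (measurePreserving_prodAssoc P (gp ι₁) (gp ι₀))
  convert h2 using 1
  funext ω
  refine Prod.ext rfl (funext fun c => ?_)
  cases c <;> rfl

/-- merged features -/
def interpA (A₁ : Ω → S → ι₁ → ℝ) (A₀ : Ω → S → ι₀ → ℝ) (a b : ℝ) (ω : Ω) (σ : S) :
    ι₁ ⊕ ι₀ → ℝ := Sum.elim (a • A₁ ω σ) (b • A₀ ω σ)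

omit [Fintype ι₁] [Fintype ι₀] in
theorem interpA_feat (h₁ : Feat A₁) (h₀ : Feat A₀) (a b : ℝ) : Feat (interpA A₁ A₀ a b) := by
  have e₁ := h₁.bd_smul (Bd1.const a)
  have e₀ := h₀.bd_smul (Bd1.const b)
  obtain ⟨C₁, b₁⟩ := e₁.bdd
  obtain ⟨C₀, b₀⟩ := e₀.bdd
  refine ⟨fun c => ?_, max C₁ C₀, fun ω σ c => ?_⟩
  · cases c with
    | inl c => exact e₁.meas c
    | inr c => exact e₀.meas c
  · cases c with
    | inl c => exact (b₁ ω σ c).trans (le_max_left _ _)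
    | inr c => exact (b₀ ω σ c).trans (le_max_right _ _)

omit [MeasurableSpace Ω] [MeasurableSpace S] in
theorem interpA_dot (a b : ℝ) (ω : Ω) (σ : S) (g₁ : ι₁ → ℝ) (g₀ : ι₀ → ℝ) :
    interpA A₁ A₀ a b ω σ ⬝ᵥ Sum.elim g₁ g₀ = a * (A₁ ω σ ⬝ᵥ g₁) + b * (A₀ ω σ ⬝ᵥ g₀) := by
  rw [interpA, sumElim_dotProduct_sumElim, smul_dotProduct, smul_dotProduct, smul_eq_mul,
    smul_eq_mul]

omit [MeasurableSpace Ω] [MeasurableSpace S] in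
theorem interpA_cov (θ : ℝ) (ω : Ω) (σ σ' : S) :
    interpA A₁ A₀ (sin θ) (cos θ) ω σ' ⬝ᵥ interpA A₁ A₀ (cos θ) (-sin θ) ω σ =
      sin θ * cos θ * (A₁ ω σ ⬝ᵥ A₁ ω σ' - A₀ ω σ ⬝ᵥ A₀ ω σ') := by
  rw [show interpA A₁ A₀ (cos θ) (-sin θ) ω σ = Sum.elim _ _ from rfl, interpA_dot,
    dotProduct_smul, dotProduct_smul, dotProduct_comm (A₁ ω σ'), dotProduct_comm (A₀ ω σ'),
    smul_eq_mul, smul_eq_mul]
  ring

theorem interp_C2F (hF : C2F P F F' F'' K) (hκ : Bd1 κ Cκ) (c : ℝ) :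
    C2F P (fun ω σ y => F ω σ y + c * κ ω σ) F' F'' K :=
  ⟨hF.m0.add ((hκ.meas.comp (measurable_fst.prodMk measurable_snd.fst)).const_mul c), hF.m1, hF.m2,
    fun ω σ y => (hF.d1 ω σ y).add_const _, hF.d2, hF.b1, hF.b2,
    hF.g0.add (hκ.good.const_mul c)⟩

omit [MeasurableSpace Ω] [MeasurableSpace S] in
theorem interp_iY (θ : ℝ) (ω : (Ω × (ι₁ → ℝ)) × (ι₀ → ℝ)) (σ : S) :
    iY A₁ A₀ θ ω σ = interpA A₁ A₀ (sin θ) (cos θ) (interpE ω).1 σ ⬝ᵥ (interpE ω).2 :=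
  (interpA_dot _ _ _ _ _ _).symm

theorem iH_good (hF : C2F P F F' F'' K) (h₁ : Feat A₁) (h₀ : Feat A₀) (hκ : Bd1 κ Cκ) (θ : ℝ) :
    Good ((P.prod (gp ι₁)).prod (gp ι₀)) (iH F κ A₁ A₀ θ) := by
  have := ((interp_C2F hF hκ (sin θ ^ 2)).good (interpA_feat h₁ h₀ (sin θ) (cos θ))).comp
    interpE_mp measurable_id
  convert this using 3 with ω σ
  rw [iH, interp_iY]; rfl

theorem interp_deriv (hF : C2F P F F' F'' K) (h₁ : Feat A₁) (h₀ : Feat A₀) (hκ : Bd1 κ Cκ)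
    (hself : ∀ ω σ y, (F'' ω σ y + F' ω σ y ^ 2) * (A₁ ω σ ⬝ᵥ A₁ ω σ - A₀ ω σ ⬝ᵥ A₀ ω σ)
      + 2 * κ ω σ = 0) (θ : ℝ) :
    HasDerivAt (fun θ => FE ((P.prod (gp ι₁)).prod (gp ι₀)) μ (iH F κ A₁ A₀ θ))
      (2 * sin θ * cos θ * (-(1 / 2) * A2 ((P.prod (gp ι₁)).prod (gp ι₀)) μ (iH F κ A₁ A₀ θ)
        (fun ω σ σ' => F' ω.1.1 σ (iY A₁ A₀ θ ω σ) * F' ω.1.1 σ' (iY A₁ A₀ θ ω σ') *
          (A₁ ω.1.1 σ ⬝ᵥ A₁ ω.1.1 σ' - A₀ ω.1.1 σ ⬝ᵥ A₀ ω.1.1 σ')))) θ := by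
  have hA := fun θ => interpA_feat h₁ h₀ (sin θ) (cos θ)
  have hB := fun θ => interpA_feat h₁ h₀ (cos θ) (-sin θ)
  have hy : ∀ θ, Measurable fun p : (Ω × (ι₁ ⊕ ι₀ → ℝ)) × S =>
      interpA A₁ A₀ (sin θ) (cos θ) p.1.1 p.2 ⬝ᵥ p.1.2 := fun θ => ((hA θ).good (P := P)).meas
  have b12 := fun θ => hF.bd1 measurable_fst
    (y := fun (ω : Ω × (ι₁ ⊕ ι₀ → ℝ)) σ => interpA A₁ A₀ (sin θ) (cos θ) ω.1 σ ⬝ᵥ ω.2) (hy θ)
  have b1 := fun θ => (b12 θ).1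
  have b2 := fun θ => (b12 θ).2
  have bκ : Bd1 (fun (ω : Ω × (ι₁ ⊕ ι₀ → ℝ)) σ => κ ω.1 σ) Cκ :=
    hκ.comp measurable_fst measurable_id
  have gH := fun θ => (interp_C2F hF hκ (sin θ ^ 2)).good (hA θ)
  have g1 := fun θ => Good.bd_mul (b1 θ) ((hB θ).good (P := P))
  have g2 := fun θ => (bκ.good (P := P.prod (gp (ι₁ ⊕ ι₀)))).const_mul (2 * sin θ * cos θ)
  obtain ⟨B₁, i₁, c₁⟩ := ((interpA_feat h₁ h₀ 1 0).good (P := P)).bdd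
  obtain ⟨B₀, i₀, c₀⟩ := ((interpA_feat h₁ h₀ 0 1).good (P := P)).bdd
  have split : ∀ (a b : ℝ) (ω : Ω × (ι₁ ⊕ ι₀ → ℝ)) (σ : S), interpA A₁ A₀ a b ω.1 σ ⬝ᵥ ω.2 =
      a * (interpA A₁ A₀ 1 0 ω.1 σ ⬝ᵥ ω.2) + b * (interpA A₁ A₀ 0 1 ω.1 σ ⬝ᵥ ω.2) := by
    intro a b ω σ
    rw [← Sum.elim_comp_inl_inr ω.2]
    simp only [interpA_dot]
    ring
  have key := interp_FE_deriv (μ := μ) gH (fun θ => (g1 θ).add (g2 θ))
    (B := fun ω => K * (B₁ ω + B₀ ω) + 2 * Cκ) (((i₁.add i₀).const_mul K).add (integrable_const _))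
    (fun θ ω σ => by
      have s1 := abs_sin_le_one θ
      have s2 := abs_cos_le_one θ
      have e1 : |interpA A₁ A₀ (cos θ) (-sin θ) ω.1 σ ⬝ᵥ ω.2| ≤ B₁ ω + B₀ ω := by
        rw [split]
        refine (abs_add_le _ _).trans (add_le_add ?_ ?_)
        · rw [abs_mul]; exact (mul_le_of_le_one_left (abs_nonneg _) s2).trans (c₁ ω σ)
        · rw [abs_mul, abs_neg]; exact (mul_le_of_le_one_left (abs_nonneg _) s1).trans (c₀ ω σ)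
      have e2 := hF.b1 ω.1 σ (interpA A₁ A₀ (sin θ) (cos θ) ω.1 σ ⬝ᵥ ω.2)
      refine (abs_add_le _ _).trans (add_le_add ?_ ?_)
      · rw [abs_mul]; exact mul_le_mul e2 e1 (abs_nonneg _) ((abs_nonneg _).trans e2)
      · rw [abs_mul, abs_mul, abs_mul, abs_two]
        exact mul_le_mul (by nlinarith [abs_nonneg (sin θ), abs_nonneg (cos θ)]) (hκ.bdd _ _)
          (abs_nonneg _) zero_le_two)
    (fun θ ω σ => by
      have d1 : HasDerivAt (fun θ => interpA A₁ A₀ (sin θ) (cos θ) ω.1 σ ⬝ᵥ ω.2)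
          (interpA A₁ A₀ (cos θ) (-sin θ) ω.1 σ ⬝ᵥ ω.2) θ := by
        rw [split, funext fun θ => split (sin θ) (cos θ) ω σ]
        exact ((hasDerivAt_sin θ).mul_const _).add ((hasDerivAt_cos θ).mul_const _)
      have d2 := ((hF.d1 ω.1 σ _).comp θ d1).add (((hasDerivAt_sin θ).pow 2).mul_const (κ ω.1 σ))
      refine d2.congr_deriv ?_
      simp) θ
  obtain ⟨C, hC⟩ := (hA θ).bd1 (hB θ)
  obtain ⟨C₁, hC₁⟩ := h₁.bd2 h₁
  obtain ⟨C₀, hC₀⟩ := h₀.bd2 h₀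
  have g3 : Good2 (P.prod (gp (ι₁ ⊕ ι₀))) _ := (((b1 θ).fst2.mul (b1 θ).snd2).mul
    ((hC₁.sub hC₀).comp (measurable_fst (β := ι₁ ⊕ ι₀ → ℝ)) measurable_id)).good2
  have e1 := A2_comp (μ := μ) (gH θ) g3 interpE_mp (MeasurePreserving.id μ)
  have e3 : ∀ θ, iH F κ A₁ A₀ θ = fun ω σ => F (interpE ω).1 (id σ)
      (interpA A₁ A₀ (sin θ) (cos θ) (interpE ω).1 (id σ) ⬝ᵥ (interpE ω).2) +
      sin θ ^ 2 * κ (interpE ω).1 (id σ) := fun θ => by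
    funext ω σ
    rw [iH, interp_iY]; rfl
  have e2 := fun θ => (congrArg (FE ((P.prod (gp ι₁)).prod (gp ι₀)) μ) (e3 θ)).trans
    (FE_comp (gH θ) interpE_mp (MeasurePreserving.id μ))
  rw [funext e2, e3]
  simp only [interp_iY]
  refine key.congr_deriv ?_
  rw [A1_add (gH θ) (g1 θ) (g2 θ), ibp1 (interp_C2F hF hκ (sin θ ^ 2)) (hA θ) (hB θ)]
  have e4 := A1_add (μ := μ) (gH θ) ((((b2 θ).add ((b1 θ).mul (b1 θ))).mul
    (hC.comp (measurable_fst (β := ι₁ ⊕ ι₀ → ℝ)) measurable_id)).good) (g2 θ)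
  have e6 := (e4.symm.trans (congrArg _ (funext fun ω => funext fun σ => show _ = (0 : ℝ) by
    simp only [interpA_cov, id]
    linear_combination (sin θ * cos θ) * hself ω.1 σ
      (interpA A₁ A₀ (sin θ) (cos θ) ω.1 σ ⬝ᵥ ω.2)))).trans (A1_const (μ := μ) (gH θ) 0)
  simp only [interpA_cov, id, ← pow_two] at e1 e6 ⊢
  simp only [mul_left_comm _ (sin θ * cos θ), A2_const_mul] at e6 ⊢
  erw [e1]
  linarith

theorem interp_ends (hF : C2F P F F' F'' K) (h₁ : Feat A₁) (h₀ : Feat A₀) (hκ : Bd1 κ Cκ) :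
    FE ((P.prod (gp ι₁)).prod (gp ι₀)) μ (iH F κ A₁ A₀ (π / 2)) =
      FE (P.prod (gp ι₁)) μ (fun ω σ => F ω.1 σ (A₁ ω.1 σ ⬝ᵥ ω.2) + κ ω.1 σ) ∧
    FE ((P.prod (gp ι₁)).prod (gp ι₀)) μ (iH F κ A₁ A₀ 0) =
      FE (P.prod (gp ι₀)) μ (fun ω σ => F ω.1 σ (A₀ ω.1 σ ⬝ᵥ ω.2)) := by
  constructor
  · rw [← FE_fst (P' := gp ι₀) ((hF.good h₁).add (hκ.good.fst _))]
    congr 1
    funext ω σ
    simp [iH, iY]
  · rw [← FE_comp (hF.good h₀) ((measurePreserving_fst (μ := P) (ν := gp ι₁)).prod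
      (MeasurePreserving.id (gp ι₀))) (MeasurePreserving.id μ)]
    congr 1
    funext ω σ
    simp [iH, iY]

theorem interp_mono {φ a : ℝ → ℝ} (h : ∀ θ, HasDerivAt φ (2 * sin θ * cos θ * a θ) θ) {c : ℝ}
    (hc : ∀ θ ∈ Set.Icc 0 (π / 2), a θ ≤ c) : φ (π / 2) - φ 0 ≤ c := by
  have d : ∀ θ, HasDerivAt (fun θ => φ θ - c * sin θ ^ 2) (2 * sin θ * cos θ * (a θ - c)) θ :=
    fun θ => by
      refine ((h θ).sub (((hasDerivAt_sin θ).pow 2).const_mul c)).congr_deriv ?_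
      simp; ring
  have := antitoneOn_of_deriv_nonpos (convex_Icc 0 (π / 2))
    (fun θ _ => (d θ).continuousAt.continuousWithinAt)
    (fun θ _ => (d θ).differentiableAt.differentiableWithinAt) (fun θ hθ => by
      have hθ' := interior_subset hθ
      rw [(d θ).deriv]
      have s1 := sin_nonneg_of_nonneg_of_le_pi hθ'.1 (by linarith [hθ'.2, pi_pos])
      have s2 := cos_nonneg_of_mem_Icc ⟨by linarith [hθ'.1, pi_pos], hθ'.2⟩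
      exact mul_nonpos_of_nonneg_of_nonpos (by positivity) (sub_nonpos.2 (hc θ hθ')))
    (Set.left_mem_Icc.2 (by positivity)) (Set.right_mem_Icc.2 (by positivity)) (by positivity)
  simp only [sin_pi_div_two, sin_zero] at this
  linarith


theorem interp_le (hF : C2F P F F' F'' K) (h₁ : Feat A₁) (h₀ : Feat A₀) (hκ : Bd1 κ Cκ)
    (hself : ∀ ω σ y, (F'' ω σ y + F' ω σ y ^ 2) * (A₁ ω σ ⬝ᵥ A₁ ω σ - A₀ ω σ ⬝ᵥ A₀ ω σ)
      + 2 * κ ω σ = 0) {c : ℝ}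
    (hc : ∀ θ ∈ Set.Icc 0 (π / 2), -(1 / 2) * A2 ((P.prod (gp ι₁)).prod (gp ι₀)) μ (iH F κ A₁ A₀ θ)
        (fun ω σ σ' => F' ω.1.1 σ (iY A₁ A₀ θ ω σ) * F' ω.1.1 σ' (iY A₁ A₀ θ ω σ') *
          (A₁ ω.1.1 σ ⬝ᵥ A₁ ω.1.1 σ' - A₀ ω.1.1 σ ⬝ᵥ A₀ ω.1.1 σ')) ≤ c) :
    FE (P.prod (gp ι₁)) μ (fun ω σ => F ω.1 σ (A₁ ω.1 σ ⬝ᵥ ω.2) + κ ω.1 σ) -
      FE (P.prod (gp ι₀)) μ (fun ω σ => F ω.1 σ (A₀ ω.1 σ ⬝ᵥ ω.2)) ≤ c := by
  obtain ⟨e1, e2⟩ := interp_ends (μ := μ) hF h₁ h₀ hκ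
  rw [← e1, ← e2]
  exact interp_mono (interp_deriv hF h₁ h₀ hκ hself) hc

theorem interp_ge (hF : C2F P F F' F'' K) (h₁ : Feat A₁) (h₀ : Feat A₀) (hκ : Bd1 κ Cκ)
    (hself : ∀ ω σ y, (F'' ω σ y + F' ω σ y ^ 2) * (A₁ ω σ ⬝ᵥ A₁ ω σ - A₀ ω σ ⬝ᵥ A₀ ω σ)
      + 2 * κ ω σ = 0) {c : ℝ}
    (hc : ∀ θ ∈ Set.Icc 0 (π / 2), c ≤ -(1 / 2) * A2 ((P.prod (gp ι₁)).prod (gp ι₀)) μ
        (iH F κ A₁ A₀ θ)
        (fun ω σ σ' => F' ω.1.1 σ (iY A₁ A₀ θ ω σ) * F' ω.1.1 σ' (iY A₁ A₀ θ ω σ') *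
          (A₁ ω.1.1 σ ⬝ᵥ A₁ ω.1.1 σ' - A₀ ω.1.1 σ ⬝ᵥ A₀ ω.1.1 σ'))) :
    c ≤ FE (P.prod (gp ι₁)) μ (fun ω σ => F ω.1 σ (A₁ ω.1 σ ⬝ᵥ ω.2) + κ ω.1 σ) -
      FE (P.prod (gp ι₀)) μ (fun ω σ => F ω.1 σ (A₀ ω.1 σ ⬝ᵥ ω.2)) := by
  obtain ⟨e1, e2⟩ := interp_ends (μ := μ) hF h₁ h₀ hκ
  rw [← e1, ← e2]
  have := interp_mono (c := -c) (fun θ => by
    have := (interp_deriv (μ := μ) hF h₁ h₀ hκ hself θ).neg
    rw [← mul_neg] at this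
    exact this) fun θ hθ => neg_le_neg (hc θ hθ)
  simp only [Pi.neg_apply] at this
  linarith

end P157
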