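import Vale.Agent.P157.RBasic

/-! P157 RTilt: the tilted conditional expectations `Tl` and the two-replica quantities `E2`.
Plan: inductions on `n` generalising `j`; the tilted measure is a probability measure
(`isProbabilityMeasure_tilted`, `Env.integrable_exp`, `Env.recur`); measurability by `integral_tilted`.
`Rec_tangent`: one step is Jensen's inequality `∫ a D ∂tilted ≤ log ∫ exp (a D) ∂tilted` combined with
`Tm_mono`. `E2_mono`: with `n = k - (i+1)`, `Tl … (n+1) (i+1) y ^ 2 ≤ ∫ (Tl … n (i+2))^2` (Jensen /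
variance nonneg) and `Tl_split` with `n₁ = i+1`, `n₂ = 1`. `Tl_le_avg`: prove by induction on `n` (generalising `j`, `a`, `y`):
for `0 ≤ a ≤ 1` with `a ≤ m j` when `0 < n`,
`exp (a * Rec n j y) * Tl n j y ≤ exp ((2 - a) K) * Avg n j y` (`Avg = Rec (fun _ => 0) ρ φ`); in the step
`exp (a R) ≤ exp ((m j - a) K) * exp (m j R)`, `exp (m j R) * Tl (n+1) j y = ∫ exp (m j Rec n (j+1)) Tl n (j+1)`
(`exp_Tm`, `integral_tilted`), and use the hypothesis with `a = m j`. Take `a = 0` at the end.
-/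

open MeasureTheory ProbabilityTheory Real
open scoped BigOperators Matrix

namespace P157

variable {Y : Type} [NormedAddCommGroup Y] [MeasurableSpace Y] [BorelSpace Y]
  [SecondCountableTopology Y]

variable {m : ℕ → ℝ} {ρ : ℕ → Measure Y} {X φ ψ : Y → ℝ} {C b b' : ℝ} {n j : ℕ}

theorem exp_Tm {ν : Measure Y} (h : Env X C) (hν : ExpM ν) (a : ℝ) (y : Y) :
    exp (a * Tm a ν X y) = ∫ η, exp (a * X (y + η)) ∂ν := by
  have := hν.prob
  unfold Tm
  split_ifs with h0
  · simp [h0]
  · rw [← mul_assoc, mul_inv_cancel₀ h0, one_mul, exp_log (h.integral_exp_pos hν a y)]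

theorem Env.tilted_prob {ν : Measure Y} (h : Env X C) (hν : ExpM ν) (a : ℝ) (y : Y) :
    IsProbabilityMeasure (ν.tilted fun η => a * X (y + η)) := by
  have := hν.prob
  exact isProbabilityMeasure_tilted (h.integrable_exp hν a y)

theorem Tl_prob (h : Env X C) (hL : Lv m ρ (n + 1) j) (y : Y) :
    IsProbabilityMeasure ((ρ j).tilted fun η => m j * Rec m ρ X n (j + 1) (y + η)) :=
  (h.recur hL.tail).tilted_prob (hL j le_rfl (by omega)).2.2 _ y

theorem integrable_shift_bdd {τ : Measure Y} [IsFiniteMeasure τ] (hφ : Measurable φ)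
    (hb : ∀ y, |φ y| ≤ b) (y : Y) : Integrable (fun η => φ (y + η)) τ :=
  (integrable_const b).mono' (hφ.comp (measurable_const_add y)).aestronglyMeasurable
    (ae_of_all _ fun _ => hb _)

theorem Tl_meas (h : Env X C) (hL : Lv m ρ n j) (hφ : Measurable φ) :
    Measurable (Tl m ρ X φ n j) := by
  induction n generalizing j with
  | zero => exact hφ
  | succ n ih =>
    have := (hL j le_rfl (by omega)).2.2.prob
    have h1 : Measurable fun p : Y × Y => exp (m j * Rec m ρ X n (j + 1) (p.1 + p.2)) :=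
      (((h.recur hL.tail).meas.comp measurable_add).const_mul _).exp
    have h2 : Measurable fun y => ∫ η, exp (m j * Rec m ρ X n (j + 1) (y + η)) ∂(ρ j) :=
      (h1.stronglyMeasurable.integral_prod_right' (ν := ρ j)).measurable
    have h3 : Measurable fun p : Y × Y => (exp (m j * Rec m ρ X n (j + 1) (p.1 + p.2)) /
        ∫ η, exp (m j * Rec m ρ X n (j + 1) (p.1 + η)) ∂(ρ j)) •
          Tl m ρ X φ n (j + 1) (p.1 + p.2) :=
      (h1.div (h2.comp measurable_fst)).smul ((ih hL.tail).comp measurable_add)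
    simp only [Tl, integral_tilted]
    exact (h3.stronglyMeasurable.integral_prod_right' (ν := ρ j)).measurable

theorem abs_Tl_le (h : Env X C) (hL : Lv m ρ n j) (hb : ∀ y, |φ y| ≤ b) (y : Y) :
    |Tl m ρ X φ n j y| ≤ b := by
  induction n generalizing j y with
  | zero => exact hb y
  | succ n ih =>
    have := Tl_prob h hL y
    have h1 := norm_integral_le_of_norm_le_const
      (μ := (ρ j).tilted fun η => m j * Rec m ρ X n (j + 1) (y + η))
      (f := fun η => Tl m ρ X φ n (j + 1) (y + η)) (C := b)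
      (ae_of_all _ fun η => ih hL.tail _)
    rwa [probReal_univ, mul_one] at h1

theorem Tl_const (h : Env X C) (hL : Lv m ρ n j) (c : ℝ) (y : Y) :
    Tl m ρ X (fun _ => c) n j y = c := by
  induction n generalizing j y with
  | zero => rfl
  | succ n ih =>
    have := Tl_prob h hL y
    simp only [Tl, ih hL.tail]
    simp

theorem Tl_const_mul (c : ℝ) (y : Y) :
    Tl m ρ X (fun y => c * φ y) n j y = c * Tl m ρ X φ n j y := by
  induction n generalizing j y with
  | zero => rfl
  | succ n ih =>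
    simp only [Tl, ih]
    rw [integral_const_mul]

theorem Tl_int {τ : Measure Y} [IsFiniteMeasure τ] (h : Env X C) (hL : Lv m ρ n j)
    (hφ : Measurable φ) (hb : ∀ y, |φ y| ≤ b) (y : Y) :
    Integrable (fun η => Tl m ρ X φ n j (y + η)) τ :=
  integrable_shift_bdd (Tl_meas h hL hφ) (abs_Tl_le h hL hb) y

theorem Tl_add (h : Env X C) (hL : Lv m ρ n j) (hφ : Measurable φ) (hb : ∀ y, |φ y| ≤ b)
    (hψ : Measurable ψ) (hb' : ∀ y, |ψ y| ≤ b') (y : Y) :
    Tl m ρ X (fun y => φ y + ψ y) n j y = Tl m ρ X φ n j y + Tl m ρ X ψ n j y := by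
  induction n generalizing j y with
  | zero => rfl
  | succ n ih =>
    have := Tl_prob h hL y
    simp only [Tl, ih hL.tail]
    rw [integral_add (Tl_int h hL.tail hφ hb y) (Tl_int h hL.tail hψ hb' y)]

theorem Tl_mono (h : Env X C) (hL : Lv m ρ n j) (hφ : Measurable φ) (hb : ∀ y, |φ y| ≤ b)
    (hψ : Measurable ψ) (hb' : ∀ y, |ψ y| ≤ b') (hle : ∀ y, φ y ≤ ψ y) (y : Y) :
    Tl m ρ X φ n j y ≤ Tl m ρ X ψ n j y := by
  induction n generalizing j y with
  | zero => exact hle y
  | succ n ih =>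
    have := Tl_prob h hL y
    exact integral_mono (Tl_int h hL.tail hφ hb y) (Tl_int h hL.tail hψ hb' y)
      fun η => ih hL.tail _

/-- strict bound: a function `< c` everywhere has tilted means `< c` -/
theorem Tl_lt (h : Env X C) (hL : Lv m ρ n j) (hφ : Measurable φ) (hb : ∀ y, |φ y| ≤ b) {c : ℝ}
    (hc : ∀ y, φ y < c) (y : Y) : Tl m ρ X φ n j y < c := by
  induction n generalizing j y with
  | zero => exact hc y
  | succ n ih =>
    have := Tl_prob h hL y
    have hi := Tl_int (τ := (ρ j).tilted fun η => m j * Rec m ρ X n (j + 1) (y + η))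
      h hL.tail hφ hb y
    have h1 : 0 < ∫ η, (c - Tl m ρ X φ n (j + 1) (y + η))
        ∂((ρ j).tilted fun η => m j * Rec m ρ X n (j + 1) (y + η)) := by
      rw [integral_pos_iff_support_of_nonneg (fun η => (sub_pos.2 (ih hL.tail _)).le)
        ((integrable_const c).sub hi)]
      have : (Function.support fun η => c - Tl m ρ X φ n (j + 1) (y + η)) = Set.univ :=
        Set.eq_univ_of_forall fun η => (sub_pos.2 (ih hL.tail _)).ne'
      rw [this, measure_univ]
      exact one_pos
    rw [integral_sub (integrable_const c) hi, integral_const, probReal_univ, one_smul] at h1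
    exact sub_pos.1 h1

theorem Tl_split (n₁ n₂ j : ℕ) : Tl m ρ X φ (n₁ + n₂) j =
    Tl m ρ (Rec m ρ X n₂ (j + n₁)) (Tl m ρ X φ n₂ (j + n₁)) n₁ j := by
  induction n₁ generalizing j with
  | zero => simp only [Nat.zero_add, Nat.add_zero, Tl]
  | succ n ih =>
    rw [Nat.add_right_comm]
    simp only [Tl]
    rw [ih, Rec_split, Nat.add_right_comm j 1 n, Nat.add_assoc j n 1]

theorem Tl_congr {m' : ℕ → ℝ} {ρ' : ℕ → Measure Y} {j' : ℕ}
    (h : ∀ i < n, m (j + i) = m' (j' + i) ∧ ρ (j + i) = ρ' (j' + i)) :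
    Tl m ρ X φ n j = Tl m' ρ' X φ n j' := by
  induction n generalizing j j' with
  | zero => rfl
  | succ n ih =>
    have h0 := h 0 (by omega)
    simp only [Nat.add_zero] at h0
    have h1 : ∀ i < n, m (j + 1 + i) = m' (j' + 1 + i) ∧ ρ (j + 1 + i) = ρ' (j' + 1 + i) := by
      intro i hi
      have := h (i + 1) (by omega)
      rwa [← Nat.add_assoc, ← Nat.add_assoc, Nat.add_right_comm j, Nat.add_right_comm j'] at this
    simp only [Tl]
    rw [h0.1, h0.2, ih h1, Rec_congr h1]

theorem tilted_add_const' {α : Type*} [MeasurableSpace α] (ν : Measure α) (g : α → ℝ) (c : ℝ) :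
    (ν.tilted fun x => g x + c) = ν.tilted g := by
  unfold Measure.tilted
  simp only [exp_add, integral_mul_const, mul_div_mul_right _ _ (exp_pos c).ne']

theorem Tl_add_const_X (h : Env X C) (hL : Lv m ρ n j) (c : ℝ) :
    Tl m ρ (fun y => X y + c) φ n j = Tl m ρ X φ n j := by
  induction n generalizing j with
  | zero => rfl
  | succ n ih =>
    funext y
    simp only [Tl, ih hL.tail, Rec_add_const h hL.tail, mul_add, tilted_add_const']

theorem sq_integral_le_of_bdd {τ : Measure Y} [IsProbabilityMeasure τ] (hφ : Measurable φ)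
    (hb : ∀ y, |φ y| ≤ b) (y : Y) : (∫ η, φ (y + η) ∂τ) ^ 2 ≤ ∫ η, φ (y + η) ^ 2 ∂τ := by
  set c := ∫ η, φ (y + η) ∂τ with hc
  have h1 := integrable_shift_bdd (τ := τ) hφ hb y
  have h2 : Integrable (fun η => φ (y + η) ^ 2) τ :=
    integrable_shift_bdd (φ := fun y => φ y ^ 2) (b := b ^ 2) (hφ.pow_const 2) (fun z => by
      rw [abs_pow]; exact pow_le_pow_left₀ (abs_nonneg _) (hb z) 2) y
  have h3 : ∫ η, (2 * c * φ (y + η) - c ^ 2) ∂τ ≤ ∫ η, φ (y + η) ^ 2 ∂τ :=
    integral_mono ((h1.const_mul _).sub (integrable_const _)) h2 fun η => by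
      simp only
      nlinarith [sq_nonneg (φ (y + η) - c)]
  rw [integral_sub (h1.const_mul _) (integrable_const _), integral_const_mul, integral_const,
    probReal_univ, one_smul, ← hc] at h3
  nlinarith

theorem abs_sq_le_of_bdd (hb : ∀ y, |φ y| ≤ b) (y : Y) : |φ y ^ 2| ≤ b ^ 2 := by
  rw [abs_pow]; exact pow_le_pow_left₀ (abs_nonneg _) (hb y) 2

theorem sq_Tl_le (h : Env X C) (hL : Lv m ρ n j) (hφ : Measurable φ) (hb : ∀ y, |φ y| ≤ b)
    (y : Y) : Tl m ρ X φ n j y ^ 2 ≤ Tl m ρ X (fun y => φ y ^ 2) n j y := by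
  induction n generalizing j y with
  | zero => exact le_rfl
  | succ n ih =>
    have := Tl_prob h hL y
    refine (sq_integral_le_of_bdd (Tl_meas h hL.tail hφ) (abs_Tl_le h hL.tail hb) y).trans ?_
    exact integral_mono (integrable_shift_bdd (φ := fun y => Tl m ρ X φ n (j + 1) y ^ 2)
      ((Tl_meas h hL.tail hφ).pow_const 2) (abs_sq_le_of_bdd (abs_Tl_le h hL.tail hb)) y)
      (Tl_int h hL.tail (hφ.pow_const 2) (abs_sq_le_of_bdd hb) y) fun η => ih hL.tail _

theorem Tm_tangent {ν : Measure Y} (h : Env X C) (hν : ExpM ν) {a : ℝ} (ha : 0 ≤ a)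
    (hφ : Measurable φ) (hb : ∀ y, |φ y| ≤ b) (y : Y) :
    Tm a ν X y + ∫ η, φ (y + η) ∂(ν.tilted fun η => a * X (y + η))
      ≤ Tm a ν (fun y => X y + φ y) y := by
  have := hν.prob
  have := h.tilted_prob hν a y
  unfold Tm
  split_ifs with h0
  · subst h0
    simp only [zero_mul, tilted_const]
    rw [integral_add (h.integrable hν y) (integrable_shift_bdd hφ hb y)]
  · have hpos : 0 < a := lt_of_le_of_ne ha (Ne.symm h0)
    set τ := ν.tilted fun η => a * X (y + η) with hτ
    set c := ∫ η, φ (y + η) ∂τ with hc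
    have h1 := integrable_shift_bdd (τ := τ) hφ hb y
    have h2 : Integrable (fun η => exp (a * φ (y + η))) τ :=
      integrable_shift_bdd (φ := fun y => exp (a * φ y)) (b := exp (a * b))
        (hφ.const_mul a).exp (fun z => by
          rw [abs_of_pos (exp_pos _)]
          exact exp_le_exp.2 (mul_le_mul_of_nonneg_left ((le_abs_self _).trans (hb z)) ha)) y
    have h3 : ∫ η, exp (a * c) * (a * φ (y + η) + (1 - a * c)) ∂τ
        ≤ ∫ η, exp (a * φ (y + η)) ∂τ := by
      refine integral_mono (((h1.const_mul _).add (integrable_const _)).const_mul _) h2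
        fun η => ?_
      have e1 := add_one_le_exp (a * φ (y + η) - a * c)
      have e2 : exp (a * φ (y + η)) = exp (a * c) * exp (a * φ (y + η) - a * c) := by
        rw [← exp_add]; congr 1; ring
      simp only
      rw [e2]
      exact mul_le_mul_of_nonneg_left (by linarith) (exp_pos _).le
    rw [integral_const_mul, integral_add (h1.const_mul _) (integrable_const _), integral_const_mul,
      integral_const, probReal_univ, one_smul, ← hc, hτ,
      integral_exp_tilted (fun η => a * X (y + η)) (fun η => a * φ (y + η))] at h3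
    have hZ := h.integral_exp_pos hν a y
    have e3 : exp (a * c) * (a * c + (1 - a * c)) = exp (a * c) := by ring
    rw [e3, le_div_iff₀ hZ] at h3
    have h4 := log_le_log (mul_pos (exp_pos _) hZ) h3
    rw [log_mul (exp_pos _).ne' hZ.ne', log_exp] at h4
    have h5 := mul_le_mul_of_nonneg_left h4 (inv_pos.2 hpos).le
    rw [mul_add, ← mul_assoc, inv_mul_cancel₀ h0, one_mul] at h5
    simp only [Pi.add_apply] at h5
    simp only [mul_add]
    linarith

theorem Rec_tangent (h : Env X C) (hL : Lv m ρ n j) (hφ : Measurable φ) (hb : ∀ y, |φ y| ≤ b)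
    (y : Y) : Rec m ρ X n j y + Tl m ρ X φ n j y ≤ Rec m ρ (fun y => X y + φ y) n j y := by
  induction n generalizing j y with
  | zero => exact le_rfl
  | succ n ih =>
    have hj := hL j le_rfl (by omega)
    have h1 := Tm_tangent (h.recur hL.tail) hj.2.2 hj.1 (Tl_meas h hL.tail hφ)
      (abs_Tl_le h hL.tail hb) y
    refine h1.trans (Tm_mono ((h.recur hL.tail).add
      (Env.of_bdd (Tl_meas h hL.tail hφ) (abs_Tl_le h hL.tail hb)))
      ((h.add (Env.of_bdd hφ hb)).recur hL.tail) hj.2.2 hj.1 (fun z => ih hL.tail z) y)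


variable {k i : ℕ}

theorem Tl_nonneg (h0 : ∀ y, 0 ≤ φ y) (y : Y) : 0 ≤ Tl m ρ X φ n j y := by
  induction n generalizing j y with
  | zero => exact h0 y
  | succ n ih => exact integral_nonneg fun η => ih _

theorem E2_nonneg : 0 ≤ E2 m ρ X φ k i := by
  exact Tl_nonneg (fun _ => sq_nonneg _) _

theorem E2_le (h : Env X C) (hL : Lv m ρ (k + 1) 0) (hb : ∀ y, |φ y| ≤ b) (hi : i ≤ k) :
    E2 m ρ X φ k i ≤ b ^ 2 := by
  have hL1 : Lv m ρ (k - i) (i + 1) := hL.mono (by omega) (by omega)
  have hL2 : Lv m ρ (i + 1) 0 := hL.mono le_rfl (by omega)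
  exact (le_abs_self _).trans
    (abs_Tl_le (h.recur hL1) hL2 (abs_sq_le_of_bdd (abs_Tl_le h hL1 hb)) 0)

theorem E2_mono (h : Env X C) (hL : Lv m ρ (k + 1) 0) (hφ : Measurable φ) (hb : ∀ y, |φ y| ≤ b)
    (hi : i < k) : E2 m ρ X φ k i ≤ E2 m ρ X φ k (i + 1) := by
  obtain ⟨n, rfl⟩ : ∃ n, k = i + 1 + n := ⟨k - (i + 1), by omega⟩
  have e1 : i + 1 + n - i = n + 1 := by omega
  have e2 : i + 1 + n - (i + 1) = n := by omega
  have hL1 : Lv m ρ n (i + 1 + 1) := hL.mono (by omega) (by omega)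
  have hL2 : Lv m ρ (i + 1) 0 := hL.mono le_rfl (by omega)
  have hL3 : Lv m ρ 1 (i + 1) := hL.mono (by omega) (by omega)
  have hL4 : Lv m ρ (n + 1) (i + 1) := hL.mono (by omega) (by omega)
  unfold E2
  rw [e1, e2, Tl_split (i + 1) 1 0, Nat.zero_add]
  have m1 := Tl_meas h hL1 hφ
  have b1 := abs_Tl_le h hL1 hb
  exact Tl_mono (h.recur hL4) hL2 ((Tl_meas h hL4 hφ).pow_const 2)
    (abs_sq_le_of_bdd (abs_Tl_le h hL4 hb))
    (Tl_meas (h.recur hL1) hL3 (m1.pow_const 2))
    (abs_Tl_le (h.recur hL1) hL3 (abs_sq_le_of_bdd b1))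
    (fun y => sq_Tl_le (h.recur hL1) hL3 m1 b1 y) 0

theorem E2_last : E2 m ρ X φ k k = Tl m ρ X (fun y => φ y ^ 2) (k + 1) 0 0 := by
  unfold E2
  rw [Nat.sub_self]
  rfl

theorem E2_one (h : Env X C) (hL : Lv m ρ (k + 1) 0) (hi : i ≤ k) :
    E2 m ρ X (fun _ => 1) k i = 1 := by
  have hL1 : Lv m ρ (k - i) (i + 1) := hL.mono (by omega) (by omega)
  have hL2 : Lv m ρ (i + 1) 0 := hL.mono le_rfl (by omega)
  unfold E2
  simp only [Tl_const h hL1, one_pow]
  exact Tl_const (h.recur hL1) hL2 1 0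

theorem E2_add_const_X (h : Env X C) (hL : Lv m ρ (k + 1) 0) (hi : i ≤ k) (c : ℝ) :
    E2 m ρ (fun y => X y + c) φ k i = E2 m ρ X φ k i := by
  have hL1 : Lv m ρ (k - i) (i + 1) := hL.mono (by omega) (by omega)
  have hL2 : Lv m ρ (i + 1) 0 := hL.mono le_rfl (by omega)
  have e : Rec m ρ (fun y => X y + c) (k - i) (i + 1) = fun y => Rec m ρ X (k - i) (i + 1) y + c :=
    funext fun y => Rec_add_const h hL1 c y
  unfold E2
  rw [e, Tl_add_const_X h hL1, Tl_add_const_X (h.recur hL1) hL2]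

theorem E2_congr {m' : ℕ → ℝ} {ρ' : ℕ → Measure Y} (hi : i ≤ k)
    (h : ∀ l ≤ k, m l = m' l ∧ ρ l = ρ' l) : E2 m ρ X φ k i = E2 m' ρ' X φ k i := by
  have h1 : ∀ l < k - i, m (i + 1 + l) = m' (i + 1 + l) ∧ ρ (i + 1 + l) = ρ' (i + 1 + l) :=
    fun l hl => h _ (by omega)
  have h2 : ∀ l < i + 1, m (0 + l) = m' (0 + l) ∧ ρ (0 + l) = ρ' (0 + l) :=
    fun l hl => h _ (by omega)
  unfold E2
  rw [Rec_congr h1, Tl_congr h1, Tl_congr h2]


/-- the total tilt of a bounded terminal function is bounded uniformly in the number of levels -/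
theorem Tl_le_avg (hX : Measurable X) {K : ℝ} (hK : ∀ y, |X y| ≤ K) (hL : Lv m ρ n j)
    (hm : ∀ i, j ≤ i → i + 1 < j + n → m i ≤ m (i + 1)) (hφ : Measurable φ) (h0 : ∀ y, 0 ≤ φ y)
    (hb : ∀ y, |φ y| ≤ b) (y : Y) :
    Tl m ρ X φ n j y ≤ exp (2 * K) * Rec (fun _ => 0) ρ φ n j y := by
  have h : Env X (2 * K) := Env.of_bdd hX hK
  have hK0 : 0 ≤ K := (abs_nonneg _).trans (hK y)
  have key : ∀ (n j : ℕ) (a : ℝ) (y : Y), Lv m ρ n j →
      (∀ i, j ≤ i → i + 1 < j + n → m i ≤ m (i + 1)) → 0 ≤ a → a ≤ 1 → (0 < n → a ≤ m j) →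
      exp (a * Rec m ρ X n j y) * Tl m ρ X φ n j y
        ≤ exp ((2 - a) * K) * Rec (fun _ => 0) ρ φ n j y := by
    intro n
    induction n with
    | zero =>
      intro j a y _ _ ha0 ha1 _
      refine mul_le_mul_of_nonneg_right (exp_le_exp.2 ?_) (h0 y)
      have h1 := mul_le_mul_of_nonneg_left ((le_abs_self _).trans (hK y)) ha0
      have h2 := mul_le_mul_of_nonneg_right ha1 hK0
      simp only [Rec]
      linarith
    | succ n ih =>
      intro j a y hL hm ha0 ha1 ham
      have hj := hL j le_rfl (by omega)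
      have := hj.2.2.prob
      have hL0 : Lv (fun _ => 0) ρ n (j + 1) := fun i h1 h2 =>
        ⟨le_rfl, zero_le_one, (hL i (by omega) (by omega)).2.2⟩
      have hR := abs_le.1 (abs_Rec_le hX hL hK y)
      have hZ := (h.recur hL.tail).integral_exp_pos hj.2.2 (m j) y
      have e1 : exp (m j * Rec m ρ X (n + 1) j y) * Tl m ρ X φ (n + 1) j y
          = ∫ η, exp (m j * Rec m ρ X n (j + 1) (y + η)) * Tl m ρ X φ n (j + 1) (y + η) ∂(ρ j) := by
        simp only [Rec, Tl]
        rw [exp_Tm (h.recur hL.tail) hj.2.2, integral_tilted, ← integral_const_mul]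
        refine integral_congr_ae (ae_of_all _ fun η => ?_)
        simp only [smul_eq_mul]
        field_simp
      have e2 : ∫ η, exp (m j * Rec m ρ X n (j + 1) (y + η)) * Tl m ρ X φ n (j + 1) (y + η) ∂(ρ j)
          ≤ ∫ η, exp ((2 - m j) * K) * Rec (fun _ => 0) ρ φ n (j + 1) (y + η) ∂(ρ j) := by
        refine integral_mono ?_
          ((((Env.of_bdd hφ hb).recur hL0).integrable hj.2.2 y).const_mul _) fun η => ?_
        · exact ((h.recur hL.tail).integrable_exp hj.2.2 (m j) y).mul_bdd (c := b)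
            ((Tl_meas h hL.tail hφ).comp (measurable_const_add y)).aestronglyMeasurable
            (ae_of_all _ fun η => abs_Tl_le h hL.tail hb _)
        · exact ih (j + 1) (m j) _ hL.tail (fun i h1 h2 => hm i (by omega) (by omega)) hj.1 hj.2.1
            fun hn => hm j le_rfl (by omega)
      have e3 : Rec (fun _ => 0) ρ φ (n + 1) j y
          = ∫ η, Rec (fun _ => 0) ρ φ n (j + 1) (y + η) ∂(ρ j) := by
        simp only [Rec, Tm, if_true]
      rw [integral_const_mul, ← e3, ← e1] at e2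
      have ham' := ham (Nat.succ_pos n)
      have e4 : exp (a * Rec m ρ X (n + 1) j y)
          ≤ exp ((m j - a) * K) * exp (m j * Rec m ρ X (n + 1) j y) := by
        rw [← exp_add]
        refine exp_le_exp.2 ?_
        nlinarith [mul_le_mul_of_nonneg_left hR.1 (sub_nonneg.2 ham')]
      calc _ ≤ exp ((m j - a) * K) * exp (m j * Rec m ρ X (n + 1) j y) * Tl m ρ X φ (n + 1) j y :=
            mul_le_mul_of_nonneg_right e4 (Tl_nonneg h0 y)
        _ ≤ exp ((m j - a) * K) * (exp ((2 - m j) * K) * Rec (fun _ => 0) ρ φ (n + 1) j y) := by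
            rw [mul_assoc]
            exact mul_le_mul_of_nonneg_left e2 (exp_pos _).le
        _ = _ := by
            rw [← mul_assoc, ← exp_add]
            congr 2
            ring
  have := key n j 0 y hL hm le_rfl zero_le_one fun hn => (hL j le_rfl (by omega)).1
  simpa using this


end P157
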