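import Vale.Agent.P157.Nest
import Vale.Agent.P157.RTilt

/-! P157 Inv: law of large numbers for the nested averages.
Plan. `nest` is convex and monotone in `a`, commutes with adding constants and is `1`-Lipschitz in
sup norm. Prove by induction on `n` (level offset `j ≥ 1`, starting point `y`; here the root mark is
not used) that `E nest m n j (ω ↦ X (y + ∑_{l=1..n} w (j+l-1) (g (anc ω l))))` lies in
`[Rec n j y - (∑ 1/m) Mo/√L, Rec n j y]`. Upper bound: Jensen (`E log ≤ log E`) after bounding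
`E exp (m j · nest (inner))`: strengthen the induction hypothesis to
`E exp (a · nest n j) ≤ exp (a · Rec n j y)` for `0 < a ≤ m j` (concavity of `t ↦ t^{a/m j}`); the bound
on `E nest` then follows from `exp (a E nest) ≤ E exp (a nest)`. Lower bound: condition on the marks
of the first level; by convexity of log-sum-exp (Jensen: `E F(D) ≥ F(E D)`, e.g. via
`F(D) ≥ F(d) + ∑ π_i (D_i - d_i)`) replace the inner `nest` by its mean, then by `Rec - err`; finally for
i.i.d. `Y_i = exp (a (A (y+η_i) - A y))`, `M = L⁻¹ ∑ Y_i`, `μ = E Y`: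
`log (M/μ) ≥ 1 - μ/M`, `E (μ - M)/M ≤ √(Var M) √(E M⁻²)`, `M⁻² ≤ L⁻¹ ∑ Y_i⁻²`, `Var M ≤ E Y²/L`.
The root level (`m 0 = 0`) is a plain integral (`nd_split`). `inv_FE`: `FE_prod_symm` and `FE_lw`.
-/

open MeasureTheory ProbabilityTheory Real
open scoped BigOperators Matrix

namespace P157

/-- normalised log-sum-exp -/
noncomputable def lse {L : ℕ} (a : ℝ) (d : Fin L → ℝ) : ℝ :=
  a⁻¹ * log ((L : ℝ)⁻¹ * ∑ i, exp (a * d i))

section lse
variable {L : ℕ} {a : ℝ}

theorem inv_sum_pos (hL : 0 < L) (f : Fin L → ℝ) : 0 < ∑ i, exp (f i) := by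
  have : Nonempty (Fin L) := ⟨⟨0, hL⟩⟩
  exact Finset.sum_pos (fun i _ => exp_pos _) Finset.univ_nonempty

theorem inv_avg_pos (hL : 0 < L) (f : Fin L → ℝ) : 0 < (L : ℝ)⁻¹ * ∑ i, exp (f i) :=
  mul_pos (inv_pos.2 (Nat.cast_pos.2 hL)) (inv_sum_pos hL f)

theorem exp_lse (hL : 0 < L) (ha : 0 < a) (d : Fin L → ℝ) :
    exp (a * lse a d) = (L : ℝ)⁻¹ * ∑ i, exp (a * d i) := by
  unfold lse
  rw [← mul_assoc, mul_inv_cancel₀ ha.ne', one_mul, exp_log (inv_avg_pos hL _)]

theorem lse_le (hL : 0 < L) (ha : 0 < a) {d d' : Fin L → ℝ} {c : ℝ} (h : ∀ i, d i ≤ d' i + c) :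
    lse a d ≤ lse a d' + c := by
  have h1 : exp (a * lse a d) ≤ exp (a * (lse a d' + c)) := by
    rw [mul_add, exp_add, exp_lse hL ha, exp_lse hL ha, mul_assoc, Finset.sum_mul]
    refine mul_le_mul_of_nonneg_left (Finset.sum_le_sum fun i _ => ?_) (by positivity)
    rw [← exp_add, ← mul_add]
    exact exp_le_exp.2 (mul_le_mul_of_nonneg_left (h i) ha.le)
  exact le_of_mul_le_mul_left (exp_le_exp.1 h1) ha

theorem lse_abs (hL : 0 < L) (ha : 0 < a) {d d' : Fin L → ℝ} {c : ℝ} (h : ∀ i, |d i - d' i| ≤ c) :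
    |lse a d - lse a d'| ≤ c := by
  have h1 := lse_le hL ha (d := d) (d' := d') (c := c) fun i => by linarith [(abs_le.1 (h i)).2]
  have h2 := lse_le hL ha (d := d') (d' := d) (c := c) fun i => by linarith [(abs_le.1 (h i)).1]
  rw [abs_le]; constructor <;> linarith

theorem lse_zero (hL : 0 < L) : lse a (fun _ : Fin L => 0) = 0 := by
  have : (L : ℝ) ≠ 0 := (Nat.cast_pos.2 hL).ne'
  simp [lse, this]

theorem abs_lse_le (hL : 0 < L) (ha : 0 < a) (d : Fin L → ℝ) : |lse a d| ≤ ∑ i, |d i| := by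
  have h := lse_abs hL ha (d := d) (d' := fun _ => 0) (c := ∑ i, |d i|) fun i => by
    rw [sub_zero]
    exact Finset.single_le_sum (f := fun i => |d i|) (fun i _ => abs_nonneg _) (Finset.mem_univ i)
  rwa [lse_zero hL, sub_zero] at h

theorem lse_tangent (hL : 0 < L) (ha : 0 < a) (d : Fin L → ℝ) :
    ∃ q : Fin L → ℝ, (∀ i, 0 ≤ q i) ∧ ∑ i, q i = 1 ∧
      ∀ D : Fin L → ℝ, lse a d + ∑ i, q i * (D i - d i) ≤ lse a D := by
  obtain ⟨S, hS⟩ : ∃ S : ℝ, S = ∑ i, exp (a * d i) := ⟨_, rfl⟩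
  have hSp : 0 < S := hS ▸ inv_sum_pos hL _
  have hq : ∑ i, exp (a * d i) / S = 1 := by rw [← Finset.sum_div, ← hS, div_self hSp.ne']
  refine ⟨fun i => exp (a * d i) / S, fun i => by positivity, hq, fun D => ?_⟩
  obtain ⟨t, ht⟩ : ∃ t : ℝ, t = ∑ i, exp (a * d i) / S * (D i - d i) := ⟨_, rfl⟩
  rw [← ht]
  have h1 : exp (a * (lse a d + t)) ≤ exp (a * lse a D) := by
    rw [mul_add, exp_add, exp_lse hL ha, exp_lse hL ha, mul_assoc]
    refine mul_le_mul_of_nonneg_left ?_ (by positivity)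
    have h2 : ∀ i, exp (a * d i) * exp (a * t) * (1 + (a * (D i - d i) - a * t)) ≤
        exp (a * D i) := fun i => by
      have e : exp (a * D i) = exp (a * d i) * exp (a * t) * exp (a * (D i - d i) - a * t) := by
        rw [← exp_add, ← exp_add]; congr 1; ring
      rw [e]
      refine mul_le_mul_of_nonneg_left ?_ (by positivity)
      linarith [add_one_le_exp (a * (D i - d i) - a * t)]
    refine le_trans (le_of_eq ?_) (Finset.sum_le_sum fun i _ => h2 i)
    have h3 : ∀ i, exp (a * d i) * exp (a * t) * (1 + (a * (D i - d i) - a * t)) =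
        exp (a * t) * (1 - a * t) * exp (a * d i) +
          exp (a * t) * a * S * (exp (a * d i) / S * (D i - d i)) := fun i => by
      field_simp; ring
    simp_rw [h3]
    rw [Finset.sum_add_distrib, ← Finset.mul_sum, ← Finset.mul_sum, ← ht, ← hS]
    ring
  exact le_of_mul_le_mul_left (exp_le_exp.1 h1) ha

theorem measurable_lse {Z : Type} [MeasurableSpace Z] {D : Z → Fin L → ℝ}
    (hD : ∀ i, Measurable fun z => D z i) : Measurable fun z => lse a (D z) := by
  unfold lse
  exact ((Finset.measurable_sum _ fun i _ => ((hD i).const_mul a).exp).const_mul _).log.const_mul _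

theorem inv_sq_avg (hL : 0 < L) {x : Fin L → ℝ} (hx : ∀ i, 0 < x i) {M : ℝ}
    (hM : M = (L : ℝ)⁻¹ * ∑ i, x i) : (M⁻¹) ^ 2 ≤ (L : ℝ)⁻¹ * ∑ i, ((x i)⁻¹) ^ 2 := by
  have : Nonempty (Fin L) := ⟨⟨0, hL⟩⟩
  have hLp : (0 : ℝ) < L := Nat.cast_pos.2 hL
  have hMp : 0 < M := by
    rw [hM]; exact mul_pos (inv_pos.2 hLp) (Finset.sum_pos (fun i _ => hx i) Finset.univ_nonempty)
  have h1 : ∀ i, 3 * (M⁻¹) ^ 2 - 2 * (M⁻¹) ^ 3 * x i ≤ ((x i)⁻¹) ^ 2 := fun i => by
    have hxi := hx i
    have e : ((x i)⁻¹) ^ 2 - (3 * (M⁻¹) ^ 2 - 2 * (M⁻¹) ^ 3 * x i) =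
        (M - x i) ^ 2 * (M + 2 * x i) / (x i ^ 2 * M ^ 3) := by
      field_simp; ring
    have : 0 ≤ (M - x i) ^ 2 * (M + 2 * x i) / (x i ^ 2 * M ^ 3) := by positivity
    linarith
  have h2 := Finset.sum_le_sum fun i (_ : i ∈ Finset.univ) => h1 i
  rw [Finset.sum_sub_distrib, ← Finset.mul_sum, ← Finset.mul_sum] at h2
  have h3 : ∑ i, x i = L * M := by rw [hM]; field_simp
  simp only [Finset.sum_const, Finset.card_univ, Fintype.card_fin, nsmul_eq_mul] at h2
  rw [h3] at h2
  have h4 : 3 * ((L : ℝ) * M⁻¹ ^ 2) - 2 * M⁻¹ ^ 3 * (L * M) = L * M⁻¹ ^ 2 := by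
    field_simp; ring
  rw [h4] at h2
  rw [le_inv_mul_iff₀ hLp]
  exact h2

end lse

section lln
variable {E : Type} [MeasurableSpace E] {L : ℕ}

theorem inv_int_eval (ν : Measure E) [IsProbabilityMeasure ν] {f : E → ℝ} (hf : Integrable f ν)
    (i : Fin L) : Integrable (fun G : Fin L → E => f (G i)) (Measure.pi fun _ => ν) :=
  integrable_comp_eval (μ := fun _ : Fin L => ν) (i := i) hf

theorem inv_avg_int (ν : Measure E) [IsProbabilityMeasure ν] {f : E → ℝ} (hf : Integrable f ν) :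
    Integrable (fun G : Fin L → E => (L : ℝ)⁻¹ * ∑ i, f (G i)) (Measure.pi fun _ => ν) :=
  (integrable_finsetSum _ fun i _ => inv_int_eval ν hf i).const_mul _

theorem inv_avg_eq (hL : 0 < L) (ν : Measure E) [IsProbabilityMeasure ν] {f : E → ℝ}
    (hf : Integrable f ν) :
    ∫ G : Fin L → E, (L : ℝ)⁻¹ * ∑ i, f (G i) ∂(Measure.pi fun _ => ν) = ∫ e, f e ∂ν := by
  have hLp : (0 : ℝ) < L := Nat.cast_pos.2 hL
  rw [integral_const_mul, integral_finsetSum _ fun i _ => inv_int_eval ν hf i]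
  simp_rw [integral_comp_eval (μ := fun _ : Fin L => ν) hf.aestronglyMeasurable]
  simp only [Finset.sum_const, Finset.card_univ, Fintype.card_fin, nsmul_eq_mul]
  rw [← mul_assoc, inv_mul_cancel₀ hLp.ne', one_mul]

theorem inv_lse_int (hL : 0 < L) {a : ℝ} (ha : 0 < a) (ν : Measure E) [IsProbabilityMeasure ν]
    {f : E → ℝ} (hm : Measurable f) (hf : Integrable f ν) :
    Integrable (fun G : Fin L → E => lse a fun i => f (G i)) (Measure.pi fun _ => ν) :=
  (integrable_finsetSum _ fun i _ => inv_int_eval ν hf.abs i).mono'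
    (measurable_lse fun i => hm.comp (measurable_pi_apply i)).aestronglyMeasurable
    (ae_of_all _ fun _ => abs_lse_le hL ha _)

theorem inv_lln (hL : 0 < L) (ν : Measure E) [IsProbabilityMeasure ν] {Z B : E → ℝ}
    (hZ : Measurable Z) (hB : Integrable B ν) (hZB : ∀ e, exp (2 * |Z e|) ≤ B e) {Mo : ℝ}
    (hMo : ∫ e, B e ∂ν ≤ Mo) :
    log (∫ e, exp (Z e) ∂ν) - Mo / √L ≤
      ∫ G : Fin L → E, lse 1 (fun i => Z (G i)) ∂(Measure.pi fun _ => ν) := by
  have hLp : (0 : ℝ) < L := Nat.cast_pos.2 hL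
  have hc : 0 < √(L : ℝ) := Real.sqrt_pos.2 hLp
  have hcc : √(L : ℝ) * √(L : ℝ) = L := Real.mul_self_sqrt hLp.le
  have b1 : ∀ e, exp (Z e) ^ 2 ≤ B e := fun e => by
    rw [← Real.exp_nat_mul]
    refine le_trans (exp_le_exp.2 ?_) (hZB e)
    push_cast; linarith [le_abs_self (Z e)]
  have b2 : ∀ e, (exp (Z e))⁻¹ ^ 2 ≤ B e := fun e => by
    rw [← exp_neg, ← Real.exp_nat_mul]
    refine le_trans (exp_le_exp.2 ?_) (hZB e)
    push_cast; linarith [neg_abs_le (Z e)]
  have b3 : ∀ e, |Z e| ≤ B e := fun e => by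
    linarith [hZB e, add_one_le_exp (2 * |Z e|), abs_nonneg (Z e)]
  have iZ : Integrable Z ν := hB.mono' hZ.aestronglyMeasurable (ae_of_all _ b3)
  have i1 : Integrable (fun e => exp (Z e) ^ 2) ν :=
    hB.mono' (hZ.exp.pow_const 2).aestronglyMeasurable
      (ae_of_all _ fun e => by rw [Real.norm_eq_abs, abs_of_nonneg (by positivity)]; exact b1 e)
  have i2 : Integrable (fun e => (exp (Z e))⁻¹ ^ 2) ν :=
    hB.mono' (hZ.exp.inv.pow_const 2).aestronglyMeasurable
      (ae_of_all _ fun e => by rw [Real.norm_eq_abs, abs_of_nonneg (by positivity)]; exact b2 e)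
  have hY2 : MemLp (fun e => exp (Z e)) 2 ν :=
    (memLp_two_iff_integrable_sq hZ.exp.aestronglyMeasurable).2 i1
  have iY : Integrable (fun e => exp (Z e)) ν := hY2.integrable (by simp)
  obtain ⟨u, hu⟩ : ∃ u : ℝ, u = ∫ e, exp (Z e) ∂ν := ⟨_, rfl⟩
  have hup : 0 < u := hu ▸ integral_exp_pos iY
  obtain ⟨M, hM⟩ : ∃ M : (Fin L → E) → ℝ, M = fun G => (L : ℝ)⁻¹ * ∑ i, exp (Z (G i)) := ⟨_, rfl⟩
  have hMp : ∀ G, 0 < M G := fun G => by rw [hM]; exact inv_avg_pos hL _
  have hS2 : MemLp (fun G : Fin L → E => ∑ i, exp (Z (G i))) 2 (Measure.pi fun _ => ν) :=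
    memLp_finsetSum _ fun i _ => hY2.comp_measurePreserving (measurePreserving_eval (fun _ => ν) i)
  have hM2 : MemLp M 2 (Measure.pi fun _ => ν) := by rw [hM]; exact hS2.const_mul _
  have hEM : ∫ G, M G ∂(Measure.pi fun _ => ν) = u := by
    rw [hM, hu]; exact inv_avg_eq hL ν iY
  have hMo1 : Var[fun e => exp (Z e); ν] ≤ Mo :=
    (variance_le_expectation_sq hZ.exp.aestronglyMeasurable).trans
      ((integral_mono i1 hB b1).trans hMo)
  have hVar : ∫ G, (M G - u) ^ 2 ∂(Measure.pi fun _ => ν) ≤ Mo / L := by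
    rw [← hEM, ← variance_eq_integral hM2.aemeasurable, hM, variance_const_mul]
    have h1 := variance_sum_pi (μ := fun _ : Fin L => ν) (X := fun _ e => exp (Z e)) fun _ => hY2
    have h2 : (∑ i : Fin L, fun G : Fin L → E => exp (Z (G i))) = fun G => ∑ i, exp (Z (G i)) := by
      funext G; simp
    rw [h2] at h1
    rw [h1]
    simp only [Finset.sum_const, Finset.card_univ, Fintype.card_fin, nsmul_eq_mul]
    calc (L : ℝ)⁻¹ ^ 2 * (L * Var[fun e => exp (Z e); ν]) ≤ (L : ℝ)⁻¹ ^ 2 * (L * Mo) := by gcongr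
      _ = Mo / L := by field_simp
  have iV : Integrable (fun G => (M G - u) ^ 2) (Measure.pi fun _ : Fin L => ν) :=
    (hM2.sub (memLp_const u)).integrable_sq
  have iW : Integrable (fun G : Fin L → E => (L : ℝ)⁻¹ * ∑ i, (exp (Z (G i)))⁻¹ ^ 2)
      (Measure.pi fun _ => ν) := inv_avg_int ν i2
  have hW : ∫ G : Fin L → E, (L : ℝ)⁻¹ * ∑ i, (exp (Z (G i)))⁻¹ ^ 2 ∂(Measure.pi fun _ => ν)
      ≤ Mo := by
    rw [inv_avg_eq hL ν i2]
    exact (integral_mono i2 hB b2).trans hMo
  have iL : Integrable (fun G : Fin L → E => lse 1 (fun i => Z (G i))) (Measure.pi fun _ => ν) :=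
    inv_lse_int hL one_pos ν hZ iZ
  have hpt : ∀ G : Fin L → E, log u - (√L / 2 * (M G - u) ^ 2 +
      (2 * √L)⁻¹ * ((L : ℝ)⁻¹ * ∑ i, (exp (Z (G i)))⁻¹ ^ 2)) ≤ lse 1 (fun i => Z (G i)) := fun G => by
    have e1 : lse 1 (fun i => Z (G i)) = log (M G) := by simp [lse, hM]
    have h1 := inv_sq_avg hL (x := fun i => exp (Z (G i))) (fun i => exp_pos _) (M := M G)
      (by rw [hM])
    have h2 : log u - log (M G) ≤ u / M G - 1 := by
      rw [← log_div hup.ne' (hMp G).ne']
      exact log_le_sub_one_of_pos (div_pos hup (hMp G))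
    have h3 : u / M G - 1 = (u - M G) * (M G)⁻¹ := by have := hMp G; field_simp
    have h4 : (u - M G) * (M G)⁻¹ ≤ √L / 2 * (M G - u) ^ 2 + (2 * √L)⁻¹ * (M G)⁻¹ ^ 2 := by
      have e : √L / 2 * (M G - u) ^ 2 + (2 * √L)⁻¹ * (M G)⁻¹ ^ 2 - (u - M G) * (M G)⁻¹ =
          (√L * (u - M G) - (M G)⁻¹) ^ 2 / (2 * √L) := by
        field_simp; ring
      have : 0 ≤ (√L * (u - M G) - (M G)⁻¹) ^ 2 / (2 * √L) := by positivity
      linarith
    have h5 := mul_le_mul_of_nonneg_left h1 (show 0 ≤ (2 * √(L : ℝ))⁻¹ by positivity)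
    rw [e1]; linarith
  have iVW : Integrable (fun G : Fin L → E => √L / 2 * (M G - u) ^ 2 +
      (2 * √L)⁻¹ * ((L : ℝ)⁻¹ * ∑ i, (exp (Z (G i)))⁻¹ ^ 2)) (Measure.pi fun _ => ν) :=
    (iV.const_mul _).add (iW.const_mul _)
  have h6 : ∫ G : Fin L → E, (log u - (√L / 2 * (M G - u) ^ 2 +
      (2 * √L)⁻¹ * ((L : ℝ)⁻¹ * ∑ i, (exp (Z (G i)))⁻¹ ^ 2))) ∂(Measure.pi fun _ => ν) ≤ _ :=
    integral_mono ((integrable_const (log u)).sub iVW) iL hpt
  rw [integral_sub (integrable_const _) iVW,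
    integral_add (iV.const_mul _) (iW.const_mul _), integral_const_mul, integral_const_mul] at h6
  simp only [integral_const, probReal_univ, smul_eq_mul, one_mul] at h6
  have h7 := mul_le_mul_of_nonneg_left hVar (show 0 ≤ √(L : ℝ) / 2 by positivity)
  have h8 := mul_le_mul_of_nonneg_left hW (show 0 ≤ (2 * √(L : ℝ))⁻¹ by positivity)
  have h9 : √(L : ℝ) / 2 * (Mo / L) + (2 * √(L : ℝ))⁻¹ * Mo = Mo / √L := by
    conv_lhs => rw [show Mo / (L : ℝ) = Mo / (√(L : ℝ) * √(L : ℝ)) by rw [hcc]]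
    field_simp; ring
  rw [← hu]
  linarith

end lln

section fam
variable {Y : Type} [NormedAddCommGroup Y] [MeasurableSpace Y] [BorelSpace Y]
  [SecondCountableTopology Y]
variable {E T : Type} [MeasurableSpace E] [MeasurableSpace T] {L : ℕ}

/-- a random functional `Φ y` approximating `A y` -/
structure InvF (τ : Measure T) (Φ : Y → T → ℝ) (A : Y → ℝ) (b err C : ℝ) : Prop where
  meas : Measurable fun p : Y × T => Φ p.1 p.2
  lip : ∀ y y' t, |Φ y t - Φ y' t| ≤ C * (1 + ‖y - y'‖)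
  int : ∀ y, Integrable (Φ y) τ
  iexp : ∀ y, Integrable (fun t => exp (b * Φ y t)) τ
  up : ∀ y, ∫ t, exp (b * Φ y t) ∂τ ≤ exp (b * A y)
  lo : ∀ y, A y - err ≤ ∫ t, Φ y t ∂τ
  env : Env A C

variable {τ : Measure T} [IsProbabilityMeasure τ] {Φ : Y → T → ℝ} {A : Y → ℝ} {a b err C : ℝ}
  {ν : Measure E} [IsProbabilityMeasure ν] {w : E → Y}

theorem inv_exp_interp (ha : 0 < a) (hab : a ≤ b) (x z : ℝ) :
    exp (a * x) ≤ exp (a * z) * (1 - a / b) + exp (a * z) * (a / b) * exp (-(b * z)) * exp (b * x) := by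
  have hb : 0 < b := ha.trans_le hab
  have h1 : a / b ≤ 1 := (div_le_one hb).2 hab
  have h2 := convexOn_exp.2 (Set.mem_univ 0) (Set.mem_univ (b * (x - z)))
    (show 0 ≤ 1 - a / b by linarith) (show 0 ≤ a / b by positivity) (by ring)
  simp only [smul_eq_mul, mul_zero, zero_add, exp_zero, mul_one] at h2
  have e1 : a / b * (b * (x - z)) = a * x - a * z := by field_simp
  have e2 : exp (b * (x - z)) = exp (-(b * z)) * exp (b * x) := by
    rw [← exp_add]; congr 1; ring
  rw [e1, e2, exp_sub, div_le_iff₀ (exp_pos _)] at h2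
  linarith

omit [BorelSpace Y] [SecondCountableTopology Y] in
theorem InvF.lower (h : InvF τ Φ A b err C) (ha : 0 < a) (hab : a ≤ b) : InvF τ Φ A a err C := by
  have hb : 0 < b := ha.trans_le hab
  have hm : ∀ y, Measurable fun t => exp (a * Φ y t) := fun y =>
    ((h.meas.comp (measurable_prodMk_left (x := y))).const_mul a).exp
  have hi : ∀ y, Integrable (fun t => exp (a * A y) * (1 - a / b) +
      exp (a * A y) * (a / b) * exp (-(b * A y)) * exp (b * Φ y t)) τ := fun y =>
    (integrable_const _).add ((h.iexp y).const_mul _)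
  have hi' : ∀ y, Integrable (fun t => exp (a * Φ y t)) τ := fun y =>
    (hi y).mono' (hm y).aestronglyMeasurable (ae_of_all _ fun t => by
      rw [Real.norm_eq_abs, abs_of_pos (exp_pos _)]; exact inv_exp_interp ha hab _ _)
  refine ⟨h.meas, h.lip, h.int, hi', fun y => ?_, h.lo, h.env⟩
  refine (integral_mono (hi' y) (hi y) fun t => inv_exp_interp ha hab _ _).trans ?_
  rw [integral_add (integrable_const _) ((h.iexp y).const_mul _), integral_const,
    integral_const_mul]
  simp only [probReal_univ, smul_eq_mul, one_mul]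
  have h1 := mul_le_mul_of_nonneg_left (h.up y)
    (show 0 ≤ exp (a * A y) * (a / b) * exp (-(b * A y)) by positivity)
  have e : exp (a * A y) * (a / b) * exp (-(b * A y)) * exp (b * A y) = exp (a * A y) * (a / b) := by
    rw [mul_assoc, ← exp_add, neg_add_cancel, exp_zero, mul_one]
  linarith

omit [BorelSpace Y] [SecondCountableTopology Y] in
theorem InvF.up' (h : InvF τ Φ A b err C) (hb : 0 < b) (y : Y) : ∫ t, Φ y t ∂τ ≤ A y := by
  have hi : Integrable (fun t => (A y - b⁻¹) + b⁻¹ * exp (-(b * A y)) * exp (b * Φ y t)) τ :=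
    (integrable_const _).add ((h.iexp y).const_mul _)
  refine (integral_mono (h.int y) hi fun t => ?_).trans ?_
  · have h1 := add_one_le_exp (b * Φ y t - b * A y)
    have e : exp (b * Φ y t - b * A y) = exp (-(b * A y)) * exp (b * Φ y t) := by
      rw [← exp_add]; congr 1; ring
    rw [e] at h1
    have h2 := mul_le_mul_of_nonneg_left h1 (inv_pos.2 hb).le
    have e2 : b⁻¹ * (b * Φ y t - b * A y + 1) = Φ y t - A y + b⁻¹ := by field_simp
    rw [e2] at h2
    simp only
    linarith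
  · rw [integral_add (integrable_const _) ((h.iexp y).const_mul _), integral_const_mul]
    simp only [integral_const, probReal_univ, smul_eq_mul, one_mul]
    have h1 := mul_le_mul_of_nonneg_left (h.up y) (show 0 ≤ b⁻¹ * exp (-(b * A y)) by positivity)
    have e : b⁻¹ * exp (-(b * A y)) * exp (b * A y) = b⁻¹ := by
      rw [mul_assoc, ← exp_add, neg_add_cancel, exp_zero, mul_one]
    linarith

omit [BorelSpace Y] [SecondCountableTopology Y] [IsProbabilityMeasure ν] in
theorem inv_int_exp (hw : Measurable w) (hρ : ExpM (ν.map w)) (c : ℝ) :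
    Integrable (fun e => exp (c * (1 + ‖w e‖))) ν := by
  have h1 : Integrable (fun e => exp (c * ‖w e‖)) ν :=
    (hρ.int c).comp_measurable hw
  refine (h1.const_mul (exp c)).congr (ae_of_all _ fun e => ?_)
  simp only
  rw [← exp_add]; congr 1; ring

omit [SecondCountableTopology Y] [IsProbabilityMeasure ν] in
theorem inv_int_norm (hw : Measurable w) (hρ : ExpM (ν.map w)) :
    Integrable (fun e => 1 + ‖w e‖) ν :=
  (inv_int_exp hw hρ 1).mono' (hw.norm.const_add 1).aestronglyMeasurable (ae_of_all _ fun e => by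
    rw [Real.norm_eq_abs, abs_of_pos (by positivity), one_mul]
    linarith [add_one_le_exp (1 + ‖w e‖)])

omit [SecondCountableTopology Y] [IsProbabilityMeasure τ] in
theorem InvF.mprod (h : InvF τ Φ A b err C) (hw : Measurable w) (y : Y) :
    Measurable fun p : E × T => Φ (y + w p.1) p.2 :=
  h.meas.comp (((hw.comp measurable_fst).const_add y).prodMk measurable_snd)

omit [BorelSpace Y] [SecondCountableTopology Y] [IsProbabilityMeasure τ] in
theorem InvF.shift (h : InvF τ Φ A b err C) (y η : Y) (t : T) :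
    |Φ (y + η) t - Φ y t| ≤ C * (1 + ‖η‖) := by
  simpa using h.lip (y + η) y t

omit [SecondCountableTopology Y] in
theorem InvF.iprod (h : InvF τ Φ A b err C) (hw : Measurable w) (hρ : ExpM (ν.map w)) (y : Y) :
    Integrable (fun p : E × T => Φ (y + w p.1) p.2) (ν.prod τ) := by
  refine (((h.int y).abs.comp_snd ν).add
    (((inv_int_norm hw hρ).const_mul C).comp_fst τ)).mono' (h.mprod hw y).aestronglyMeasurable
    (ae_of_all _ fun p => ?_)
  have h1 := h.shift y (w p.1) p.2
  have h2 := abs_sub_abs_le_abs_sub (Φ (y + w p.1) p.2) (Φ y p.2)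
  simp only [Real.norm_eq_abs, Pi.add_apply]
  linarith

omit [SecondCountableTopology Y] [IsProbabilityMeasure ν] in
theorem InvF.eprod (h : InvF τ Φ A b err C) (hb : 0 < b) (hw : Measurable w)
    (hρ : ExpM (ν.map w)) (y : Y) :
    Integrable (fun p : E × T => exp (b * Φ (y + w p.1) p.2)) (ν.prod τ) := by
  refine ((inv_int_exp hw hρ (b * C)).mul_prod (h.iexp y)).mono'
    ((h.mprod hw y).const_mul b).exp.aestronglyMeasurable (ae_of_all _ fun p => ?_)
  rw [Real.norm_eq_abs, abs_of_pos (exp_pos _), ← exp_add]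
  refine exp_le_exp.2 ?_
  have h1 := mul_le_mul_of_nonneg_left (le_of_abs_le (h.shift y (w p.1) p.2)) hb.le
  nlinarith

theorem InvF.eprod_le (h : InvF τ Φ A b err C) (hb : 0 < b) (hw : Measurable w)
    (hρ : ExpM (ν.map w)) (y : Y) :
    ∫ p : E × T, exp (b * Φ (y + w p.1) p.2) ∂(ν.prod τ) ≤ exp (b * Tm b (ν.map w) A y) := by
  have hi := h.env.integrable_exp hρ b y
  rw [exp_Tm h.env hρ, integral_map hw.aemeasurable hi.aestronglyMeasurable,
    integral_prod _ (h.eprod hb hw hρ y)]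
  exact integral_mono (h.eprod hb hw hρ y).integral_prod_left (hi.comp_measurable hw)
    fun e => h.up (y + w e)

theorem InvF.root (h : InvF τ Φ A b err C) (hb : 0 < b) (hw : Measurable w)
    (hρ : ExpM (ν.map w)) (y : Y) :
    Tm 0 (ν.map w) A y - err ≤ ∫ p : E × T, Φ (y + w p.1) p.2 ∂(ν.prod τ) ∧
      ∫ p : E × T, Φ (y + w p.1) p.2 ∂(ν.prod τ) ≤ Tm 0 (ν.map w) A y := by
  have hi := h.env.integrable hρ y
  have hi' : Integrable (fun e => A (y + w e)) ν := hi.comp_measurable hw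
  have e : Tm 0 (ν.map w) A y = ∫ e, A (y + w e) ∂ν := by
    unfold Tm
    rw [if_pos rfl, integral_map hw.aemeasurable hi.aestronglyMeasurable]
  have hp := h.iprod hw hρ y
  rw [e, integral_prod _ hp]
  constructor
  · have h1 : ∫ e, (A (y + w e) - err) ∂ν ≤ _ :=
      integral_mono (hi'.sub (integrable_const err)) hp.integral_prod_left fun e => h.lo (y + w e)
    rw [integral_sub hi' (integrable_const _)] at h1
    simpa using h1
  · exact integral_mono hp.integral_prod_left hi' fun e => h.up' hb (y + w e)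

theorem inv_lln' (hL : 0 < L) (hA : Env A C) (ha : 0 < a) (ha1 : a ≤ 1) (hw : Measurable w)
    (hρ : ExpM (ν.map w)) {Mo : ℝ} (hMo : ∫ e, exp (2 * C * (1 + ‖w e‖)) ∂ν ≤ Mo) (y : Y) :
    Tm a (ν.map w) A y - a⁻¹ * Mo / √L ≤
      ∫ G : Fin L → E, lse a (fun i => A (y + w (G i))) ∂(Measure.pi fun _ => ν) := by
  have hC := hA.nonneg
  have hm : Measurable fun e => A (y + w e) := hA.meas.comp (hw.const_add y)
  have hi : Integrable (fun e => A (y + w e)) ν := (hA.integrable hρ y).comp_measurable hw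
  have hZ : Measurable fun e => a * (A (y + w e) - A y) := (hm.sub_const _).const_mul a
  have iZ : Integrable (fun e => a * (A (y + w e) - A y)) ν :=
    (hi.sub (integrable_const _)).const_mul a
  have h1 := inv_lln hL ν hZ (inv_int_exp hw hρ (2 * C)) (fun e => by
    refine exp_le_exp.2 ?_
    have h2 : |A (y + w e) - A y| ≤ C * (1 + ‖w e‖) := by simpa using hA.lip (y + w e) y
    rw [abs_mul, abs_of_pos ha]
    have h3 := abs_nonneg (A (y + w e) - A y)
    nlinarith) hMo
  have e1 : ∀ G : Fin L → E, lse a (fun i => A (y + w (G i))) =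
      A y + a⁻¹ * lse 1 (fun i => a * (A (y + w (G i)) - A y)) := fun G => by
    have h2 : exp (a * lse a (fun i => A (y + w (G i)))) =
        exp (a * A y + 1 * lse 1 (fun i => a * (A (y + w (G i)) - A y))) := by
      rw [exp_add, exp_lse hL ha, exp_lse hL one_pos, mul_left_comm, Finset.mul_sum (a := exp _)]
      congr 1
      refine Finset.sum_congr rfl fun i _ => ?_
      rw [← exp_add]; congr 1; ring
    have h3 := exp_injective h2
    field_simp
    linarith
  have e2 : log (∫ e, exp (a * (A (y + w e) - A y)) ∂ν) = a * Tm a (ν.map w) A y - a * A y := by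
    have hi2 := hA.integrable_exp hρ a y
    have h2 := exp_Tm hA hρ a y
    rw [integral_map hw.aemeasurable hi2.aestronglyMeasurable] at h2
    rw [← log_exp (a * Tm a (ν.map w) A y - a * A y), exp_sub, h2, ← integral_div]
    congr 2; funext e
    rw [← exp_sub]; congr 1; ring
  simp_rw [e1]
  rw [integral_add (integrable_const _) ((inv_lse_int hL one_pos ν hZ iZ).const_mul _),
    integral_const_mul]
  simp only [integral_const, probReal_univ, smul_eq_mul, one_mul]
  rw [e2] at h1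
  have h4 := mul_le_mul_of_nonneg_left h1 (inv_pos.2 ha).le
  have e3 : a⁻¹ * (a * Tm a (ν.map w) A y - a * A y - Mo / √L) =
      Tm a (ν.map w) A y - A y - a⁻¹ * Mo / √L := by field_simp
  linarith

theorem InvF.cond (h : InvF τ Φ A b err C) (hL : 0 < L) (ha : 0 < a) (hw : Measurable w)
    (hρ : ExpM (ν.map w)) (y : Y) :
    ∫ G : Fin L → E, lse a (fun i => A (y + w (G i))) ∂(Measure.pi fun _ => ν) - err ≤
      ∫ G : Fin L → E × T, lse a (fun i => Φ (y + w (G i).1) (G i).2)
        ∂(Measure.pi fun _ => ν.prod τ) := by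
  have hmp := (measurePreserving_arrowProdEquivProdArrow E T (Fin L) (fun _ => ν) (fun _ => τ)).symm
  have hi := inv_lse_int hL ha (ν.prod τ) (h.mprod hw y) (h.iprod hw hρ y)
  have hi2 : Integrable (fun p : (Fin L → E) × (Fin L → T) =>
      lse a (fun i => Φ (y + w (p.1 i)) (p.2 i)))
      ((Measure.pi fun _ => ν).prod (Measure.pi fun _ => τ)) :=
    (hmp.integrable_comp_emb (MeasurableEquiv.measurableEmbedding _)).2 hi
  have e1 : ∫ G : Fin L → E × T, lse a (fun i => Φ (y + w (G i).1) (G i).2)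
        ∂(Measure.pi fun _ => ν.prod τ) = ∫ p : (Fin L → E) × (Fin L → T),
      lse a (fun i => Φ (y + w (p.1 i)) (p.2 i))
        ∂((Measure.pi fun _ => ν).prod (Measure.pi fun _ => τ)) :=
    (hmp.integral_comp' _).symm
  have hm : Measurable fun e => A (y + w e) := h.env.meas.comp (hw.const_add y)
  have hiA : Integrable (fun e => A (y + w e)) ν := (h.env.integrable hρ y).comp_measurable hw
  have hi3 := inv_lse_int hL ha ν hm hiA
  rw [e1, integral_prod _ hi2]
  have h1 : ∫ G : Fin L → E, (lse a (fun i => A (y + w (G i))) - err) ∂(Measure.pi fun _ => ν) ≤ _ :=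
    integral_mono_ae (hi3.sub (integrable_const err)) hi2.integral_prod_left (by
      filter_upwards [hi2.prod_right_ae] with G hG
      obtain ⟨q, hq0, hq1, hq⟩ := lse_tangent hL ha (fun i => A (y + w (G i)))
      have hj : ∀ i, Integrable (fun t : Fin L → T => q i * (Φ (y + w (G i)) (t i) - A (y + w (G i))))
          (Measure.pi fun _ => τ) := fun i =>
        ((inv_int_eval τ (h.int (y + w (G i))) i).sub (integrable_const _)).const_mul _
      have h2 : ∫ t : Fin L → T, (lse a (fun i => A (y + w (G i))) +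
          ∑ i, q i * (Φ (y + w (G i)) (t i) - A (y + w (G i)))) ∂(Measure.pi fun _ => τ) ≤ _ :=
        integral_mono ((integrable_const _).add (integrable_finsetSum _ fun i _ => hj i)) hG
          fun t => hq _
      rw [integral_add (integrable_const _) (integrable_finsetSum _ fun i _ => hj i),
        integral_finsetSum _ fun i _ => hj i] at h2
      have h3 : ∀ i, q i * (-err) ≤ ∫ t : Fin L → T,
          q i * (Φ (y + w (G i)) (t i) - A (y + w (G i))) ∂(Measure.pi fun _ => τ) := fun i => by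
        rw [integral_const_mul, integral_sub (inv_int_eval τ (h.int (y + w (G i))) i)
          (integrable_const _), integral_comp_eval (μ := fun _ : Fin L => τ)
          (h.int (y + w (G i))).aestronglyMeasurable]
        refine mul_le_mul_of_nonneg_left ?_ (hq0 i)
        have := h.lo (y + w (G i))
        simp only [integral_const, probReal_univ, smul_eq_mul, one_mul]
        linarith
      have h4 := Finset.sum_le_sum fun i (_ : i ∈ Finset.univ) => h3 i
      rw [← Finset.sum_mul, hq1] at h4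
      simp only [integral_const, probReal_univ, smul_eq_mul, one_mul] at h2 h4
      linarith)
  rw [integral_sub hi3 (integrable_const _)] at h1
  simpa using h1

omit [IsProbabilityMeasure τ] in
theorem InvF.mstep (h : InvF τ Φ A b err C) (hw : Measurable w) (i : Fin L) :
    Measurable fun p : Y × (Fin L → E × T) => Φ (p.1 + w (p.2 i).1) (p.2 i).2 := by
  have h1 : Measurable fun p : Y × (Fin L → E × T) => p.2 i :=
    (measurable_pi_apply i).comp measurable_snd
  have h2 : Measurable fun p : Y × (Fin L → E × T) => p.1 + w (p.2 i).1 :=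
    measurable_fst.add (hw.comp h1.fst)
  have h3 : Measurable fun p : Y × (Fin L → E × T) => (p.1 + w (p.2 i).1, (p.2 i).2) :=
    h2.prodMk h1.snd
  have h4 := h.meas.comp h3
  simpa only [Function.comp_def] using h4

theorem InvF.step (h : InvF τ Φ A b err C) (hL : 0 < L) (ha : 0 < a) (hab : a ≤ b) (ha1 : a ≤ 1)
    (hw : Measurable w) (hρ : ExpM (ν.map w)) {Mo : ℝ}
    (hMo : ∫ e, exp (2 * C * (1 + ‖w e‖)) ∂ν ≤ Mo) :
    InvF (Measure.pi fun _ : Fin L => ν.prod τ)
      (fun y G => lse a fun i => Φ (y + w (G i).1) (G i).2) (Tm a (ν.map w) A) a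
      (err + a⁻¹ * Mo / √L) C := by
  have h' := h.lower ha hab
  refine ⟨?_, fun y y' G => ?_, fun y => ?_, fun y => ?_, fun y => ?_, fun y => ?_,
    h.env.tm hρ ha.le⟩
  · exact measurable_lse (D := fun (p : Y × (Fin L → E × T)) i => Φ (p.1 + w (p.2 i).1) (p.2 i).2)
      fun i => h.mstep hw i
  · refine lse_abs hL ha fun i => ?_
    simpa using h.lip (y + w (G i).1) (y' + w (G i).1) (G i).2
  · have h1 := inv_lse_int hL ha (ν.prod τ) (h.mprod hw y) (h.iprod hw hρ y)
    exact h1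
  · simp_rw [exp_lse hL ha]
    have h1 := inv_avg_int (L := L) (ν.prod τ) (h'.eprod ha hw hρ y)
    exact h1
  · simp_rw [exp_lse hL ha]
    rw [inv_avg_eq hL (ν.prod τ) (h'.eprod ha hw hρ y)]
    exact h'.eprod_le ha hw hρ y
  · have h1 := h.cond hL ha hw hρ y
    have h2 := inv_lln' hL h.env ha ha1 hw hρ hMo y
    linarith

omit [BorelSpace Y] [SecondCountableTopology Y] in
theorem InvF.base (hA : Env A C) (b : ℝ) : InvF τ (fun y _ => A y) A b 0 C :=
  ⟨hA.meas.comp measurable_fst, fun y y' _ => hA.lip y y', fun _ => integrable_const _,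
    fun _ => integrable_const _, fun _ => by simp, fun _ => by simp, hA⟩

end fam

section tree
variable {Y : Type} [NormedAddCommGroup Y] [MeasurableSpace Y] [BorelSpace Y]
  [SecondCountableTopology Y]
variable {E : Type} [MeasurableSpace E] {L k : ℕ} {m : ℕ → ℝ}

omit [MeasurableSpace Y] [BorelSpace Y] [SecondCountableTopology Y] [MeasurableSpace E] in
theorem st_succ {n : ℕ} (w : ℕ → E → Y) (j : ℕ) (g : Nd L (n + 1) → E) (i : Fin L) (ω : Leaf L n) :
    st (k := n + 1) (fun l => w (j + l)) g (i, ω) =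
      w j (g none) + st (k := n) (fun l => w (j + 1 + l)) (fun x => g (some (i, x))) ω := by
  unfold st
  rw [Finset.sum_range_succ', add_comm]
  congr 1
  refine Finset.sum_congr rfl fun l _ => ?_
  have e : j + 1 + l = j + (l + 1) := by omega
  show w (j + (l + 1)) _ = w (j + 1 + l) _
  rw [e]
  rfl

theorem inv_mp_zero (ν : Measure E) [IsProbabilityMeasure ν] :
    MeasurePreserving (fun g : Nd L 0 → E => (g (), ())) (Measure.pi fun _ => ν)
      (ν.prod (Measure.dirac ())) := by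
  have h1 := measurePreserving_eval (fun _ : Nd L 0 => ν) ()
  have h2 : MeasurePreserving (fun e : E => (e, ())) ν (ν.prod (Measure.dirac ())) :=
    ⟨measurable_prodMk_right, (Measure.prod_dirac ()).symm⟩
  exact h2.comp h1

theorem inv_tree (hk : IsPartition k m) (hL : 0 < L) (ν : Measure E) [IsProbabilityMeasure ν]
    {w : ℕ → E → Y} (hw : ∀ j, Measurable (w j)) (hρ : ∀ j, ExpM (ν.map (w j))) {X : Y → ℝ} {C : ℝ}
    (hX : Env X C) {Mo : ℝ} (hMo : ∀ j ≤ k, ∫ η, exp (2 * C * (1 + ‖w j η‖)) ∂ν ≤ Mo) :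
    ∀ n j, j + n ≤ k → ∃ (T : Type) (_ : MeasurableSpace T) (τ : Measure T)
      (_ : IsProbabilityMeasure τ) (sp : (Nd L n → E) → E × T) (Φ : Y → T → ℝ),
      MeasurePreserving sp (Measure.pi fun _ => ν) (ν.prod τ) ∧
      InvF τ Φ (Rec m (fun j => ν.map (w j)) X n (j + 1)) (m (j + 1))
        ((∑ l ∈ Finset.Icc (j + 1) (j + n), (m l)⁻¹) * Mo / √L) C ∧
      ∀ y g, nest m n (j + 1) (fun ω => X (y + st (fun l => w (j + l)) g ω)) =
        Φ (y + w j (sp g).1) (sp g).2 := by
  intro n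
  induction n with
  | zero =>
    intro j _
    refine ⟨Unit, inferInstance, Measure.dirac (), inferInstance, fun g => (g (), ()),
      fun y _ => X y, inv_mp_zero ν, ?_, fun y g => ?_⟩
    · have : (∑ l ∈ Finset.Icc (j + 1) (j + 0), (m l)⁻¹) * Mo / √L = 0 := by simp
      rw [this]
      exact InvF.base hX _
    · simp [nest, st, anc]
  | succ n ih =>
    intro j hj
    obtain ⟨T, mT, τ, hτ, sp, Φ, hsp, hF, he⟩ := ih (j + 1) (by omega)
    have ha : 0 < m (j + 1) := hk.pos (by omega) (by omega)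
    have hab : m (j + 1) ≤ m (j + 1 + 1) := hk.mono_le (by omega) (by omega)
    have ha1 : m (j + 1) ≤ 1 := hk.2.1 ▸ hk.mono_le (by omega) le_rfl
    have hs := hF.step hL ha hab ha1 (hw (j + 1)) (hρ (j + 1)) (hMo (j + 1) (by omega))
    have hmp := (MeasurePreserving.id ν).prod
      (measurePreserving_pi (fun _ : Fin L => Measure.pi fun _ : Nd L n => ν)
        (fun _ => ν.prod τ) (f := fun _ => sp) fun _ => hsp)
    refine ⟨Fin L → E × T, inferInstance, Measure.pi fun _ => ν.prod τ, inferInstance,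
      fun g => (g none, fun i => sp fun x => g (some (i, x))),
      fun y G => lse (m (j + 1)) fun i => Φ (y + w (j + 1) (G i).1) (G i).2,
      hmp.comp (nd_split fun _ => ν), ?_, fun y g => ?_⟩
    · have e : (∑ l ∈ Finset.Icc (j + 1) (j + (n + 1)), (m l)⁻¹) * Mo / √L =
          (∑ l ∈ Finset.Icc (j + 1 + 1) (j + 1 + n), (m l)⁻¹) * Mo / √L +
            (m (j + 1))⁻¹ * Mo / √L := by
        rw [show j + (n + 1) = j + 1 + n by omega,
          ← Finset.insert_Icc_add_one_left_eq_Icc (show j + 1 ≤ j + 1 + n by omega),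
          Finset.sum_insert (by simp)]
        ring
      rw [e]
      exact hs
    · have e : ∀ i : Fin L, nest m n (j + 1 + 1)
          (fun ω => X (y + st (k := n + 1) (fun l => w (j + l)) g (i, ω))) =
          Φ (y + w j (g none) + w (j + 1) (sp fun x => g (some (i, x))).1)
            (sp fun x => g (some (i, x))).2 := fun i => by
        rw [← he]
        simp_rw [st_succ, add_assoc]
      simp only [nest, lse]
      simp_rw [e]

end tree

variable {Y : Type} [NormedAddCommGroup Y] [MeasurableSpace Y] [BorelSpace Y]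
  [SecondCountableTopology Y]

variable {E : Type} [MeasurableSpace E] {L k : ℕ} {m : ℕ → ℝ}

theorem nest_lln (hk : IsPartition k m) (hL : 0 < L) (ν : Measure E) [IsProbabilityMeasure ν]
    {w : ℕ → E → Y} (hw : ∀ j, Measurable (w j)) (hρ : ∀ j, ExpM (ν.map (w j))) {X : Y → ℝ} {C : ℝ}
    (hX : Env X C) {Mo : ℝ} (hMo : ∀ j ≤ k, ∫ η, exp (2 * C * (1 + ‖w j η‖)) ∂ν ≤ Mo) :
    Integrable (fun g : Nd L k → E => nest m k 1 fun ω => X (st w g ω)) (Measure.pi fun _ => ν) ∧
    Rec m (fun j => ν.map (w j)) X (k + 1) 0 0 - (∑ j ∈ Finset.Icc 1 k, (m j)⁻¹) * Mo / √L ≤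
      ∫ g : Nd L k → E, nest m k 1 (fun ω => X (st w g ω)) ∂(Measure.pi fun _ => ν) ∧
    ∫ g : Nd L k → E, nest m k 1 (fun ω => X (st w g ω)) ∂(Measure.pi fun _ => ν) ≤
      Rec m (fun j => ν.map (w j)) X (k + 1) 0 0 := by
  obtain ⟨T, mT, τ, hτ, sp, Φ, hsp, hF, he⟩ := inv_tree hk hL ν hw hρ hX hMo k 0 (by omega)
  simp only [zero_add] at hF he
  have e : (fun g : Nd L k → E => nest m k 1 fun ω => X (st w g ω)) =
      (fun p : E × T => Φ (0 + w 0 p.1) p.2) ∘ sp := by
    funext g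
    have := he 0 g
    simp only [zero_add] at this
    simp only [Function.comp_apply, zero_add]
    exact this
  have hi := hF.iprod (hw 0) (hρ 0) 0
  have hr := hF.root (hk.pos le_rfl (by omega)) (hw 0) (hρ 0) 0
  have e2 : Rec m (fun j => ν.map (w j)) X (k + 1) 0 0 =
      Tm 0 (ν.map (w 0)) (Rec m (fun j => ν.map (w j)) X k 1) 0 := by
    simp only [Rec, hk.1, zero_add]
  have e3 : ∫ g : Nd L k → E, nest m k 1 (fun ω => X (st w g ω)) ∂(Measure.pi fun _ => ν) =
      ∫ p : E × T, Φ (0 + w 0 p.1) p.2 ∂(ν.prod τ) := by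
    rw [e, ← hsp.map_eq, integral_map hsp.measurable.aemeasurable
      (hF.mprod (hw 0) 0).aestronglyMeasurable]
    rfl
  rw [e2, e3, e]
  exact ⟨hsp.integrable_comp_of_integrable hi, hr⟩

theorem st_good (ν : Measure E) [IsProbabilityMeasure ν] {w : ℕ → E → Y}
    (hw : ∀ j, Measurable (w j)) (hρ : ∀ j, ExpM (ν.map (w j))) {X : Y → ℝ} {C : ℝ} (hX : Env X C) :
    Good (Measure.pi fun _ : Nd L k => ν) (fun g (ω : Leaf L k) => X (st w g ω)) := by
  refine ⟨measurable_from_prod_countable_left fun ω => hX.meas.comp ?_,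
    fun g => |X 0| + C * (1 + ∑ j ∈ Finset.range (k + 1), ∑ x, (1 + ‖w j (g x)‖)), ?_,
    fun g ω => ?_⟩
  · unfold st
    exact Finset.measurable_sum _ fun j _ =>
      (hw j).comp (measurable_pi_apply (X := fun _ : Nd L k => E) (anc ω j))
  · refine (integrable_const _).add (((integrable_const _).add
      (integrable_finsetSum _ fun j _ => integrable_finsetSum _ fun x _ => ?_)).const_mul C)
    exact integrable_comp_eval (μ := fun _ : Nd L k => ν) (i := x) (inv_int_norm (hw j) (hρ j))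
  · have h1 := hX.lip (st w g ω) 0
    have h2 := abs_sub_abs_le_abs_sub (X (st w g ω)) (X 0)
    have h3 : ‖st w g ω - 0‖ ≤ ∑ j ∈ Finset.range (k + 1), ∑ x, (1 + ‖w j (g x)‖) := by
      rw [sub_zero]
      unfold st
      refine (norm_sum_le _ _).trans (Finset.sum_le_sum fun j _ => ?_)
      refine le_trans (le_add_of_nonneg_left zero_le_one) ?_
      exact Finset.single_le_sum (f := fun x => 1 + ‖w j (g x)‖) (fun x _ => by positivity)
        (Finset.mem_univ _)
    have h4 := mul_le_mul_of_nonneg_left (add_le_add_left h3 1) hX.nonneg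
    simp only
    linarith

theorem inv_FE (hk : IsPartition k m) (hL : 0 < L) (ν : Measure E) [IsProbabilityMeasure ν]
    {w : ℕ → E → Y} (hw : ∀ j, Measurable (w j)) (hρ : ∀ j, ExpM (ν.map (w j))) {X : Y → ℝ} {C : ℝ}
    (hX : Env X C) {Mo : ℝ} (hMo : ∀ j ≤ k, ∫ η, exp (2 * C * (1 + ‖w j η‖)) ∂ν ≤ Mo) :
    Rec m (fun j => ν.map (w j)) X (k + 1) 0 0 - (∑ j ∈ Finset.Icc 1 k, (m j)⁻¹) * Mo / √L ≤
      FE ((PU L k m).prod (Measure.pi fun _ : Nd L k => ν)) (unif L k)
        (fun ω l => lw m ω.1 l + X (st w ω.2 l)) - cL L k m ∧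
    FE ((PU L k m).prod (Measure.pi fun _ : Nd L k => ν)) (unif L k)
        (fun ω l => lw m ω.1 l + X (st w ω.2 l)) - cL L k m ≤
      Rec m (fun j => ν.map (w j)) X (k + 1) 0 0 := by
  have := unif_prob hL k
  obtain ⟨h1, h2, h3⟩ := nest_lln hk hL ν hw hρ hX hMo
  have hg : Good ((PU L k m).prod (Measure.pi fun _ : Nd L k => ν))
      (fun ω l => lw m ω.1 l + X (st w ω.2 l)) :=
    ((lw_good m).fst _).add ((st_good ν hw hρ hX).snd _)
  have e : FE ((PU L k m).prod (Measure.pi fun _ : Nd L k => ν)) (unif L k)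
      (fun ω l => lw m ω.1 l + X (st w ω.2 l)) = cL L k m +
      ∫ g : Nd L k → E, nest m k 1 (fun ω => X (st w g ω)) ∂(Measure.pi fun _ => ν) := by
    rw [(FE_prod_symm hg).1]
    simp_rw [FE_lw hk hL]
    rw [integral_add (integrable_const _) h1]
    simp
  rw [e]
  constructor <;> linarith

end P157
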