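import Vale.Agent.P157.GExp

/-! P157 Lind: Lindeberg replacement, one Gaussian at a time.
Plan: first `M = 1` (`lind_one`): for fixed `ω`, `G = μ.tilted (H ω)` and `z`, `lZ_expand` with
`b (1+|z|)²`; integrate in `z` and swap (`integral_integral_swap`): the first and second order terms
for `D` and `D'` differ by at most `e + (e + e)/2`; `∫ (1+|z|)^6 dγ < ∞`. `FE_add_eq` on the product
space. Then induction on `M` with `measurePreserving_piFinSuccAbove` (or hybrid sums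
`∑ a, if a < i then D' a else D a`), applying `lind_one` with the base disorder `Ω × (Fin M → ℝ)`.
-/

open MeasureTheory ProbabilityTheory Real
open scoped BigOperators Matrix

namespace P157


section Aux
variable {Ω S : Type} [MeasurableSpace Ω] [MeasurableSpace S] {P : Measure Ω}
  [IsProbabilityMeasure P] {μ : Measure S} [IsProbabilityMeasure μ] {H : Ω → S → ℝ}

theorem lind_mom (n : ℕ) : Integrable (fun z : ℝ => (1 + |z|) ^ n) (gaussianReal 0 1) := by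
  have h0 : MemLp id n (gaussianReal 0 1) := memLp_id_gaussianReal' n (ENNReal.natCast_ne_top n)
  have h1 : MemLp (fun _ : ℝ => (1 : ℝ)) n (gaussianReal 0 1) := memLp_const 1
  have h := (h1.add h0.norm).integrable_norm_pow'
  refine h.congr (.of_forall fun z => ?_)
  have : 0 ≤ 1 + |z| := by positivity
  simp only [Pi.add_apply, id, Real.norm_eq_abs, abs_of_nonneg this]

theorem lind_expand (h : Good P H) {D : Ω → S → ℝ} (hm : Measurable fun p : Ω × S => D p.1 p.2)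
    {B : Ω → ℝ} (hB : ∀ ω σ, |D ω σ| ≤ B ω) (h1 : Integrable B P)
    (h2 : Integrable (fun ω => B ω ^ 2) P) (h3 : Integrable (fun ω => B ω ^ 3) P) :
    |FE P μ (fun ω σ => H ω σ + D ω σ) - FE P μ H - A1 P μ H D
      - (A1 P μ H (fun ω σ => D ω σ * D ω σ) - A2 P μ H (fun ω σ σ' => D ω σ * D ω σ')) / 2|
      ≤ 100 * ∫ ω, B ω ^ 3 ∂P := by
  have hD : Good P D := ⟨hm, B, h1, hB⟩
  have hD2 : Good P fun ω σ => D ω σ * D ω σ := ⟨hm.mul hm, _, h2, fun ω σ => by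
    rw [abs_mul, sq]
    exact mul_self_le_mul_self (abs_nonneg _) (hB ω σ)⟩
  have hs : ∀ ω, Measurable (D ω) := fun ω => hm.comp measurable_prodMk_left
  have i0 : Integrable (fun ω => lZ (μ.tilted (H ω)) (D ω)) P := by
    refine (((h.add hD).integrable_lZ (μ := μ)).sub (h.integrable_lZ (μ := μ))).congr
      (.of_forall fun ω => ?_)
    simp only [Pi.sub_apply]
    rw [lZ_add h ω (hs ω) (hB ω), add_sub_cancel_left]
  have i1 := h.integrable_A1 (μ := μ) hD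
  have i2 := h.integrable_A1 (μ := μ) hD2
  have i3 : Integrable (fun ω => (∫ σ, D ω σ ∂(μ.tilted (H ω))) *
      ∫ σ, D ω σ ∂(μ.tilted (H ω))) P := by
    refine h2.mono' ((h.measurable_A1 hD).mul (h.measurable_A1 hD)).aestronglyMeasurable
      (.of_forall fun ω => ?_)
    have := h.isProb (μ := μ) ω
    have k := norm_integral_le_of_norm_le_const (μ := μ.tilted (H ω)) (f := D ω) (C := B ω)
      (.of_forall (hB ω))
    rw [probReal_univ, mul_one] at k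
    rw [norm_mul, sq]
    exact mul_self_le_mul_self (norm_nonneg _) k
  rw [FE_add_eq h hD, A2_mul, A1, A1, ← integral_sub i2 i3, ← integral_div, ← integral_sub i0 i1,
    ← integral_sub (i0.sub' i1) ((i2.sub' i3).div_const 2), ← integral_const_mul]
  rw [← Real.norm_eq_abs]
  refine norm_integral_le_of_norm_le (h3.const_mul _) (.of_forall fun ω => ?_)
  have := h.isProb (μ := μ) ω
  simpa only [sq, Real.norm_eq_abs] using lZ_expand (μ.tilted (H ω)) (hs ω) (hB ω)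

theorem lind_A1 (h : Good P H) {ψ ψ' : Ω × ℝ → S → ℝ} (hψ : Good (P.prod (gaussianReal 0 1)) ψ)
    (hψ' : Good (P.prod (gaussianReal 0 1)) ψ') {e : ℝ}
    (he : ∀ ω σ, |∫ z, (ψ (ω, z) σ - ψ' (ω, z) σ) ∂(gaussianReal 0 1)| ≤ e) :
    |A1 (P.prod (gaussianReal 0 1)) μ (fun ω σ => H ω.1 σ) ψ -
      A1 (P.prod (gaussianReal 0 1)) μ (fun ω σ => H ω.1 σ) ψ'| ≤ e := by
  rw [← A1_sub (h.fst _) hψ hψ', A1_prod h (hψ.sub hψ')]
  refine abs_A1_le_bd h ⟨?_, he⟩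
  exact (StronglyMeasurable.integral_prod_right' (f := fun p : (Ω × S) × ℝ =>
    ψ (p.1.1, p.2) p.1.2 - ψ' (p.1.1, p.2) p.1.2) ((hψ.sub hψ').meas.comp
      (f := fun p : (Ω × S) × ℝ => ((p.1.1, p.2), p.1.2)) (by fun_prop)).stronglyMeasurable).measurable

theorem lind_A2 (h : Good P H) {ψ ψ' : Ω × ℝ → S → S → ℝ}
    (hψ : Good2 (P.prod (gaussianReal 0 1)) ψ) (hψ' : Good2 (P.prod (gaussianReal 0 1)) ψ') {e : ℝ}
    (he : ∀ ω σ σ', |∫ z, (ψ (ω, z) σ σ' - ψ' (ω, z) σ σ') ∂(gaussianReal 0 1)| ≤ e) :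
    |A2 (P.prod (gaussianReal 0 1)) μ (fun ω σ => H ω.1 σ) ψ -
      A2 (P.prod (gaussianReal 0 1)) μ (fun ω σ => H ω.1 σ) ψ'| ≤ e := by
  rw [← A2_sub (h.fst _) hψ hψ', A2_prod h (hψ.sub hψ')]
  refine abs_A2_le_bd h ⟨?_, he⟩
  exact (StronglyMeasurable.integral_prod_right' (f := fun p : (Ω × S × S) × ℝ =>
    ψ (p.1.1, p.2) p.1.2.1 p.1.2.2 - ψ' (p.1.1, p.2) p.1.2.1 p.1.2.2) ((hψ.sub hψ').meas.comp
      (f := fun p : (Ω × S × S) × ℝ => ((p.1.1, p.2), p.1.2)) (by fun_prop)).stronglyMeasurable).measurable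

variable {D : Ω → S → ℝ → ℝ} {b : ℝ}

omit [IsProbabilityMeasure P] in
theorem lind_meas (hm : Measurable fun p : Ω × S × ℝ => D p.1 p.2.1 p.2.2) :
    Measurable fun p : (Ω × ℝ) × S => D p.1.1 p.2 p.1.2 :=
  hm.comp (f := fun p : (Ω × ℝ) × S => (p.1.1, p.2, p.1.2)) (by fun_prop)

theorem lind_pow (b : ℝ) (n : ℕ) :
    Integrable (fun ω : Ω × ℝ => (b * (1 + |ω.2|) ^ 2) ^ n) (P.prod (gaussianReal 0 1)) := by
  simp only [mul_pow, ← pow_mul]
  exact ((lind_mom _).const_mul _).comp_snd P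

theorem lind_good (hm : Measurable fun p : Ω × S × ℝ => D p.1 p.2.1 p.2.2)
    (hb : ∀ ω σ z, |D ω σ z| ≤ b * (1 + |z|) ^ 2) :
    Good (P.prod (gaussianReal 0 1)) fun ω σ => D ω.1 σ ω.2 :=
  ⟨lind_meas hm, _, by simpa only [pow_one] using lind_pow b 1, fun ω σ => hb _ _ _⟩

omit [MeasurableSpace Ω] [MeasurableSpace S] in
theorem lind_mul_le (hb : ∀ ω σ z, |D ω σ z| ≤ b * (1 + |z|) ^ 2) (ω : Ω) (σ σ' : S) (z : ℝ) :
    |D ω σ z * D ω σ' z| ≤ (b * (1 + |z|) ^ 2) ^ 2 := by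
  rw [abs_mul, sq (b * _)]
  exact mul_le_mul (hb _ _ _) (hb _ _ _) (abs_nonneg _) ((abs_nonneg _).trans (hb ω σ z))

theorem lind_good2 (hm : Measurable fun p : Ω × S × ℝ => D p.1 p.2.1 p.2.2)
    (hb : ∀ ω σ z, |D ω σ z| ≤ b * (1 + |z|) ^ 2) :
    Good (P.prod (gaussianReal 0 1)) (fun ω σ => D ω.1 σ ω.2 * D ω.1 σ ω.2) ∧
      Good2 (P.prod (gaussianReal 0 1)) fun ω σ σ' => D ω.1 σ ω.2 * D ω.1 σ' ω.2 :=
  ⟨⟨(lind_meas hm).mul (lind_meas hm), _, lind_pow b 2, fun ω σ => lind_mul_le hb _ _ _ _⟩,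
    (hm.comp (f := fun p : (Ω × ℝ) × S × S => (p.1.1, p.2.1, p.1.2)) (by fun_prop)).mul
      (hm.comp (f := fun p : (Ω × ℝ) × S × S => (p.1.1, p.2.2, p.1.2)) (by fun_prop)),
    _, lind_pow b 2, fun ω σ σ' => lind_mul_le hb _ _ _ _⟩

theorem lind_int (hm : Measurable fun p : Ω × S × ℝ => D p.1 p.2.1 p.2.2)
    (hb : ∀ ω σ z, |D ω σ z| ≤ b * (1 + |z|) ^ 2) (ω : Ω) (σ σ' : S) :
    Integrable (fun z => D ω σ z) (gaussianReal 0 1) ∧
      Integrable (fun z => D ω σ z * D ω σ' z) (gaussianReal 0 1) := by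
  have k : ∀ σ, Measurable fun z => D ω σ z := fun σ =>
    hm.comp (f := fun z : ℝ => (ω, σ, z)) (by fun_prop)
  refine ⟨((lind_mom 2).const_mul b).mono' (k σ).aestronglyMeasurable (.of_forall (hb ω σ)),
    ((lind_mom (2 * 2)).const_mul (b ^ 2)).mono' ((k σ).mul (k σ')).aestronglyMeasurable
      (.of_forall fun z => ?_)⟩
  rw [pow_mul, ← mul_pow]
  exact lind_mul_le hb ω σ σ' z

theorem lind_exp (h : Good P H) (hm : Measurable fun p : Ω × S × ℝ => D p.1 p.2.1 p.2.2)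
    (hb : ∀ ω σ z, |D ω σ z| ≤ b * (1 + |z|) ^ 2) :
    |FE (P.prod (gaussianReal 0 1)) μ (fun ω σ => H ω.1 σ + D ω.1 σ ω.2)
      - FE (P.prod (gaussianReal 0 1)) μ (fun ω σ => H ω.1 σ)
      - A1 (P.prod (gaussianReal 0 1)) μ (fun ω σ => H ω.1 σ) (fun ω σ => D ω.1 σ ω.2)
      - (A1 (P.prod (gaussianReal 0 1)) μ (fun ω σ => H ω.1 σ)
          (fun ω σ => D ω.1 σ ω.2 * D ω.1 σ ω.2) -
        A2 (P.prod (gaussianReal 0 1)) μ (fun ω σ => H ω.1 σ)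
          (fun ω σ σ' => D ω.1 σ ω.2 * D ω.1 σ' ω.2)) / 2|
      ≤ 100 * ((∫ z, (1 + |z|) ^ 6 ∂(gaussianReal 0 1)) * b ^ 3) := by
  refine (lind_expand (h.fst _) (lind_meas hm) (B := fun ω => b * (1 + |ω.2|) ^ 2)
    (fun ω σ => hb _ _ _) (by simpa only [pow_one] using lind_pow b 1) (lind_pow b 2)
    (lind_pow b 3)).trans_eq ?_
  simp only [mul_pow, ← pow_mul]
  rw [integral_const_mul, integral_fun_snd (fun z : ℝ => (1 + |z|) ^ (2 * 3)), probReal_univ,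
    one_smul, mul_comm (b ^ 3)]

theorem lind_good_sum (h : Good P H) {M : ℕ} {D : Fin M → Ω → S → ℝ → ℝ}
    (hm : ∀ a, Measurable fun p : Ω × S × ℝ => D a p.1 p.2.1 p.2.2)
    (hb : ∀ a ω σ z, |D a ω σ z| ≤ b * (1 + |z|) ^ 2) :
    Good (P.prod (gp (Fin M))) fun ω σ => H ω.1 σ + ∑ a, D a ω.1 σ (ω.2 a) :=
  (h.fst _).add (Good.sum _ fun a _ => (lind_good (hm a) (hb a)).comp
    ((MeasurePreserving.id P).prod (measurePreserving_eval (fun _ => gaussianReal 0 1) a))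
      measurable_id)

theorem lind_mp (M : ℕ) : MeasurePreserving
    (fun p : Ω × (Fin (M + 1) → ℝ) => ((p.1, p.2 0), fun j : Fin M => p.2 j.succ))
      (P.prod (gp (Fin (M + 1)))) ((P.prod (gaussianReal 0 1)).prod (gp (Fin M))) :=
  (measurePreserving_prodAssoc P _ _).symm.comp ((MeasurePreserving.id P).prod
    (measurePreserving_piFinSuccAbove (fun _ => gaussianReal 0 1) 0))

theorem lind_mp' (M : ℕ) : MeasurePreserving
    (fun p : Ω × (Fin (M + 1) → ℝ) => ((p.1, fun j : Fin M => p.2 j.succ), p.2 0))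
      (P.prod (gp (Fin (M + 1)))) ((P.prod (gp (Fin M))).prod (gaussianReal 0 1)) :=
  (measurePreserving_prodAssoc P _ _).symm.comp ((MeasurePreserving.id P).prod
    (Measure.measurePreserving_swap.comp
      (measurePreserving_piFinSuccAbove (fun _ => gaussianReal 0 1) 0)))

theorem lind_split (h : Good P H) {M : ℕ} {D : Fin (M + 1) → Ω → S → ℝ → ℝ}
    (hm : ∀ a, Measurable fun p : Ω × S × ℝ => D a p.1 p.2.1 p.2.2)
    (hb : ∀ a ω σ z, |D a ω σ z| ≤ b * (1 + |z|) ^ 2) :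
    FE (P.prod (gp (Fin (M + 1)))) μ (fun ω σ => H ω.1 σ + ∑ a, D a ω.1 σ (ω.2 a)) =
      FE ((P.prod (gaussianReal 0 1)).prod (gp (Fin M))) μ (fun ω σ =>
        H ω.1.1 σ + D 0 ω.1.1 σ ω.1.2 + ∑ a : Fin M, D a.succ ω.1.1 σ (ω.2 a)) ∧
    FE (P.prod (gp (Fin (M + 1)))) μ (fun ω σ => H ω.1 σ + ∑ a, D a ω.1 σ (ω.2 a)) =
      FE ((P.prod (gp (Fin M))).prod (gaussianReal 0 1)) μ (fun ω σ =>
        H ω.1.1 σ + ∑ a : Fin M, D a.succ ω.1.1 σ (ω.1.2 a) + D 0 ω.1.1 σ ω.2) := by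
  constructor
  · rw [← FE_comp (lind_good_sum ((h.fst _).add (lind_good (hm 0) (hb 0)))
      (D := fun a ω => D a.succ ω.1) (fun a => (hm a.succ).comp
        (f := fun p : (Ω × ℝ) × S × ℝ => (p.1.1, p.2)) (by fun_prop)) fun a ω => hb _ _)
      (lind_mp M) (MeasurePreserving.id μ)]
    simp only [Fin.sum_univ_succ, add_assoc, id]
  · rw [← FE_comp (((lind_good_sum h (fun a => hm a.succ) fun a => hb a.succ).fst _).add
      (lind_good (D := fun ω : Ω × (Fin M → ℝ) => D 0 ω.1) ((hm 0).comp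
        (f := fun p : (Ω × (Fin M → ℝ)) × S × ℝ => (p.1.1, p.2)) (by fun_prop)) fun ω => hb _ _))
      (lind_mp' M) (MeasurePreserving.id μ)]
    simp only [Fin.sum_univ_succ, add_assoc, id, add_comm (D 0 _ _ _)]

end Aux

theorem lind_one : ∃ C : ℝ, 0 ≤ C ∧ ∀ {Ω S : Type} [MeasurableSpace Ω] [MeasurableSpace S]
    {P : Measure Ω} [IsProbabilityMeasure P] {μ : Measure S} [IsProbabilityMeasure μ]
    {H : Ω → S → ℝ} (_ : Good P H) {D D' : Ω → S → ℝ → ℝ}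
    (_ : Measurable fun p : Ω × S × ℝ => D p.1 p.2.1 p.2.2)
    (_ : Measurable fun p : Ω × S × ℝ => D' p.1 p.2.1 p.2.2) {b e : ℝ}
    (_ : ∀ ω σ z, |D ω σ z| ≤ b * (1 + |z|) ^ 2 ∧ |D' ω σ z| ≤ b * (1 + |z|) ^ 2)
    (_ : ∀ ω σ, |∫ z, D ω σ z ∂(gaussianReal 0 1) - ∫ z, D' ω σ z ∂(gaussianReal 0 1)| ≤ e)
    (_ : ∀ ω σ σ', |∫ z, D ω σ z * D ω σ' z ∂(gaussianReal 0 1)
      - ∫ z, D' ω σ z * D' ω σ' z ∂(gaussianReal 0 1)| ≤ e),
    |FE (P.prod (gaussianReal 0 1)) μ (fun ω σ => H ω.1 σ + D ω.1 σ ω.2) -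
      FE (P.prod (gaussianReal 0 1)) μ (fun ω σ => H ω.1 σ + D' ω.1 σ ω.2)| ≤ 2 * e + C * b ^ 3 := by
  refine ⟨200 * ∫ z, (1 + |z|) ^ 6 ∂(gaussianReal 0 1),
    mul_nonneg (by norm_num) (integral_nonneg fun z => by positivity), ?_⟩
  intro Ω S _ _ P _ μ _ H h D D' hm hm' b e hb h1 h2
  have hb1 := fun ω σ z => (hb ω σ z).1
  have hb2 := fun ω σ z => (hb ω σ z).2
  have e1 := abs_le.1 (lind_exp (μ := μ) h hm hb1)
  have e2 := abs_le.1 (lind_exp (μ := μ) h hm' hb2)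
  have e3 := abs_le.1 (lind_A1 (μ := μ) h (lind_good hm hb1) (lind_good hm' hb2) fun ω σ => by
    rw [integral_sub (lind_int hm hb1 ω σ σ).1 (lind_int hm' hb2 ω σ σ).1]
    exact h1 ω σ)
  have e4 := abs_le.1 (lind_A1 (μ := μ) h (lind_good2 hm hb1).1 (lind_good2 hm' hb2).1
    fun ω σ => by
      rw [integral_sub (lind_int hm hb1 ω σ σ).2 (lind_int hm' hb2 ω σ σ).2]
      exact h2 ω σ σ)
  have e5 := abs_le.1 (lind_A2 (μ := μ) h (lind_good2 hm hb1).2 (lind_good2 hm' hb2).2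
    fun ω σ σ' => by
      rw [integral_sub (lind_int hm hb1 ω σ σ').2 (lind_int hm' hb2 ω σ σ').2]
      exact h2 ω σ σ')
  rw [abs_le]
  constructor <;> linarith [e1.1, e1.2, e2.1, e2.2, e3.1, e3.2, e4.1, e4.2, e5.1, e5.2]

theorem lindeberg : ∃ C : ℝ, 0 ≤ C ∧ ∀ {Ω S : Type} [MeasurableSpace Ω] [MeasurableSpace S]
    {P : Measure Ω} [IsProbabilityMeasure P] {μ : Measure S} [IsProbabilityMeasure μ]
    {H : Ω → S → ℝ} (_ : Good P H) {M : ℕ} {D D' : Fin M → Ω → S → ℝ → ℝ}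
    (_ : ∀ a, Measurable fun p : Ω × S × ℝ => D a p.1 p.2.1 p.2.2)
    (_ : ∀ a, Measurable fun p : Ω × S × ℝ => D' a p.1 p.2.1 p.2.2) {b e : ℝ}
    (_ : ∀ a ω σ z, |D a ω σ z| ≤ b * (1 + |z|) ^ 2 ∧ |D' a ω σ z| ≤ b * (1 + |z|) ^ 2)
    (_ : ∀ a ω σ, |∫ z, D a ω σ z ∂(gaussianReal 0 1) - ∫ z, D' a ω σ z ∂(gaussianReal 0 1)| ≤ e)
    (_ : ∀ a ω σ σ', |∫ z, D a ω σ z * D a ω σ' z ∂(gaussianReal 0 1)
      - ∫ z, D' a ω σ z * D' a ω σ' z ∂(gaussianReal 0 1)| ≤ e),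
    |FE (P.prod (gp (Fin M))) μ (fun ω σ => H ω.1 σ + ∑ a, D a ω.1 σ (ω.2 a)) -
      FE (P.prod (gp (Fin M))) μ (fun ω σ => H ω.1 σ + ∑ a, D' a ω.1 σ (ω.2 a))|
      ≤ M * (2 * e + C * b ^ 3) := by
  obtain ⟨C, hC, hL⟩ := lind_one
  refine ⟨C, hC, ?_⟩
  intro Ω S _ _ P _ μ _ H h M
  induction M generalizing Ω with
  | zero => intros; simp
  | succ M ih =>
    intro D D' hm hm' b e hb h1 h2
    have hb1 := fun a ω σ z => (hb a ω σ z).1
    have hb2 := fun a ω σ z => (hb a ω σ z).2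
    have k := lind_split (μ := μ) h (D := fun a => if a = 0 then D' a else D a) (b := b)
      (fun a => by split_ifs; exacts [hm' a, hm a]) fun a => by split_ifs; exacts [hb2 a, hb1 a]
    simp only [Fin.succ_ne_zero, if_true, if_false] at k
    have e1 := hL (μ := μ) (lind_good_sum h (fun a => hm a.succ) fun a => hb1 a.succ)
      (D := fun ω => D 0 ω.1) (D' := fun ω => D' 0 ω.1)
      ((hm 0).comp (f := fun p : (Ω × (Fin M → ℝ)) × S × ℝ => (p.1.1, p.2)) (by fun_prop))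
      ((hm' 0).comp (f := fun p : (Ω × (Fin M → ℝ)) × S × ℝ => (p.1.1, p.2)) (by fun_prop))
      (fun ω => hb 0 ω.1) (fun ω => h1 0 ω.1) fun ω => h2 0 ω.1
    have e2 := ih ((h.fst _).add (lind_good (hm' 0) (hb2 0)))
      (D := fun a ω => D a.succ ω.1) (D' := fun a ω => D' a.succ ω.1)
      (fun a => (hm a.succ).comp (f := fun p : (Ω × ℝ) × S × ℝ => (p.1.1, p.2)) (by fun_prop))
      (fun a => (hm' a.succ).comp (f := fun p : (Ω × ℝ) × S × ℝ => (p.1.1, p.2)) (by fun_prop))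
      (fun a ω => hb a.succ ω.1) (fun a ω => h1 a.succ ω.1) fun a ω => h2 a.succ ω.1
    rw [(lind_split h hm hb1).2, (lind_split h hm' hb2).1]
    rw [← k.2, k.1] at e1
    refine (abs_sub_le _ _ _).trans ((add_le_add e1 e2).trans_eq ?_)
    push_cast
    ring

end P157
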