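import Vale.Agent.P157.Tree
import Vale.Agent.P157.GComp

/-! P157 Nest: the nested-logit identity for the stable cascade.
Plan. Generalise to a subtree with level offset: for `j ≥ 1`, a tree of depth `n` whose root sits at
level `j` (`j + n = k`... in the induction keep `j + n ≤ k` free by using the exponents `m (j + ·)` and
the hypothesis that `m` is strictly increasing and positive on `[1, j+n+1]`, `m (j+n+1) = 1`), marks
`u x ~ stab (m (j + dep x) / m (j + dep x + 1))` (root included), and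
`Y = ∑_ω exp (∑_{l ≤ n} u (anc ω l) / m (j+l+1) + a ω)`. Claim: for `l ≥ 0`,
`E exp (-l Y) = exp (-(l A)^{m j})` with `A = exp (a ())` for `n = 0` and
`A = (∑_i A_i^{m (j+1)})^{1/m (j+1)}`, i.e. `log A = nest m n (j+1) a + ∑ (log L)/m`. Induction with
`nd_split`, `integral_prod`, `integral_fintype_prod_eq_prod` and `IsStab.lap`:
`E exp (-l e^{u/m'} Z) = E exp (-(l A)^{m'} e^u) = exp (-(l A)^{m j})`. At the top (root at level `0`
carries no weight) `E exp (-l ∑_ω exp (lw + a)) = exp (-(l A)^{m 1})`, so by `ext_of_lap` the law of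
`log ∑_ω exp (lw + a) - log A` is `stab (m 1)` for every `a` (for `k ≥ 1`; `k = 0` is trivial). Both
statements follow (`c₀ = 2 ∫ |u| ∂stab (m 1)`; compare with `a = 0` to eliminate the constants).
-/

open MeasureTheory ProbabilityTheory Real
open scoped BigOperators Matrix

namespace P157


variable {L k : ℕ} {m : ℕ → ℝ}

theorem nest_shift (m : ℕ → ℝ) : ∀ (n j : ℕ) (a : Leaf L n → ℝ),
    nest (fun i => m (i + 1)) n j a = nest m n (j + 1) a
  | 0, _, _ => rfl
  | n + 1, j, a => by simp only [nest, nest_shift m n]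

theorem nest_zero (hL : 0 < L) (m : ℕ → ℝ) : ∀ (n j : ℕ), nest (L := L) m n j (fun _ => 0) = 0
  | 0, _ => rfl
  | n + 1, j => by
    have : (L : ℝ) ≠ 0 := Nat.cast_ne_zero.2 hL.ne'
    simp [nest, nest_zero hL m n, this]

/-- partition sum of a tree whose root carries a weight -/
noncomputable def nW (m : ℕ → ℝ) {n : ℕ} (u : Nd L n → ℝ) (a : Leaf L n → ℝ) : ℝ :=
  ∑ ω, exp (∑ l ∈ Finset.range (n + 1), u (anc ω l) / m (l + 1) + a ω)

theorem measurable_nW (m : ℕ → ℝ) {n : ℕ} (a : Leaf L n → ℝ) :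
    Measurable fun u : Nd L n → ℝ => nW m u a := by
  unfold nW
  fun_prop

theorem nW_nonneg (m : ℕ → ℝ) {n : ℕ} (u : Nd L n → ℝ) (a : Leaf L n → ℝ) : 0 ≤ nW m u a :=
  Finset.sum_nonneg fun _ _ => (exp_pos _).le

theorem nW_forest (m : ℕ → ℝ) {n : ℕ} (u : Nd L (n + 1) → ℝ) (a : Leaf L (n + 1) → ℝ) :
    ∑ ω, exp (∑ l ∈ Finset.range (n + 1), u (anc ω (l + 1)) / m (l + 1 + 1) + a ω) =
      ∑ i : Fin L, nW (fun i => m (i + 1)) (fun x => u (some (i, x))) (fun ω => a (i, ω)) :=
  Fintype.sum_prod_type (α₁ := Fin L) (α₂ := Leaf L n) _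

theorem nW_succ (m : ℕ → ℝ) {n : ℕ} (u : Nd L (n + 1) → ℝ) (a : Leaf L (n + 1) → ℝ) :
    nW m u a = exp (u none / m 1) *
      ∑ i : Fin L, nW (fun i => m (i + 1)) (fun x => u (some (i, x))) (fun ω => a (i, ω)) := by
  rw [← nW_forest, Finset.mul_sum, nW]
  refine Finset.sum_congr rfl fun ω _ => ?_
  rw [Finset.sum_range_succ', ← exp_add]
  congr 1
  change _ + u none / m 1 + _ = _
  ring

theorem sum_Icc_one (f : ℕ → ℝ) (k : ℕ) :
    ∑ j ∈ Finset.Icc 1 k, f j = ∑ l ∈ Finset.range k, f (l + 1) := by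
  induction k with
  | zero => simp
  | succ k ih => rw [Finset.sum_Icc_succ_top (by omega), ih, Finset.sum_range_succ]

theorem lap_forest (hL : 0 < L) {n : ℕ} (h1 : 0 < m 1) {c : ℝ}
    (ih : ∀ (a : Leaf L n → ℝ) (l : ℝ), 0 ≤ l →
      ∫ u, exp (-(l * nW (fun i => m (i + 1)) u a)) ∂(PU L n fun i => m (i + 1)) =
        exp (-(l ^ m 1 * exp (m 1 * (nest (fun i => m (i + 1)) n 1 a + c)))))
    (a : Leaf L (n + 1) → ℝ) {l : ℝ} (hl : 0 ≤ l) :
    ∫ g : Fin L → Nd L n → ℝ, exp (-(l * ∑ i, nW (fun i => m (i + 1)) (g i) fun ω => a (i, ω)))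
      ∂(Measure.pi fun _ => PU L n fun i => m (i + 1)) =
      exp (-(l ^ m 1 * exp (m 1 * (nest m (n + 1) 1 a + (log L / m 1 + c))))) := by
  have hL' : (0 : ℝ) < L := Nat.cast_pos.2 hL
  simp only [Finset.mul_sum, ← Finset.sum_neg_distrib, exp_sum]
  rw [integral_fintype_prod_eq_prod (fun (i : Fin L) (u : Nd L n → ℝ) =>
    exp (-(l * nW (fun i => m (i + 1)) u fun ω => a (i, ω))))]
  simp only [ih _ l hl, nest_shift]
  rw [← exp_sum, Finset.sum_neg_distrib, ← Finset.mul_sum]
  congr 3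
  haveI : Nonempty (Fin L) := ⟨⟨0, hL⟩⟩
  have hS : 0 < ∑ i : Fin L, exp (m 1 * nest m n (1 + 1) fun ω => a (i, ω)) :=
    Finset.sum_pos (fun _ _ => exp_pos _) Finset.univ_nonempty
  have e : m 1 * (nest m (n + 1) 1 a + (log L / m 1 + c)) =
      log (∑ i : Fin L, exp (m 1 * nest m n (1 + 1) fun ω => a (i, ω))) + m 1 * c := by
    simp only [nest]
    rw [log_mul (inv_ne_zero hL'.ne') hS.ne', log_inv]
    field_simp
    ring
  rw [e, exp_add, exp_log hS, Finset.sum_mul]
  exact Finset.sum_congr rfl fun i _ => by rw [mul_add, exp_add]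

theorem measurable_forest (m : ℕ → ℝ) {n : ℕ} (a : Fin L → Leaf L n → ℝ) :
    Measurable fun g : Fin L → Nd L n → ℝ => ∑ i, nW m (g i) (a i) := by
  refine Finset.measurable_sum _ fun i _ => ?_
  exact (measurable_nW m (a i)).comp (measurable_pi_apply i)

theorem integrable_exp_neg {X : Type} [MeasurableSpace X] (ν : Measure X) [IsProbabilityMeasure ν]
    {f : X → ℝ} (hf : Measurable f) (h0 : ∀ x, 0 ≤ f x) : Integrable (fun x => exp (-f x)) ν :=
  Integrable.of_bound hf.neg.exp.aestronglyMeasurable 1 (Filter.Eventually.of_forall fun x => by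
    rw [Real.norm_eq_abs, abs_of_pos (exp_pos _)]
    exact exp_le_one_iff.2 (neg_nonpos.2 (h0 x)))

theorem int_mp {X Y : Type} [MeasurableSpace X] [MeasurableSpace Y] {ν : Measure X} {ν' : Measure Y}
    {e : X → Y} (he : MeasurePreserving e ν ν') {f : Y → ℝ} (hf : Measurable f) :
    ∫ x, exp (-f (e x)) ∂ν = ∫ y, exp (-f y) ∂ν' := by
  rw [← he.map_eq, integral_map he.measurable.aemeasurable (by fun_prop)]

theorem lap_tree (hL : 0 < L) : ∀ (n : ℕ) (m : ℕ → ℝ), 0 < m 0 → (∀ j ≤ n, m j < m (j + 1)) →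
    m (n + 1) = 1 → ∃ c : ℝ, ∀ (a : Leaf L n → ℝ) (l : ℝ), 0 ≤ l →
      ∫ u, exp (-(l * nW m u a)) ∂(PU L n m) =
        exp (-(l ^ m 0 * exp (m 0 * (nest m n 1 a + c))))
  | 0, m, h0, hm, h1 => by
    refine ⟨0, fun a l hl => ?_⟩
    have hs := isStab_stab h0 (h1 ▸ hm 0 le_rfl)
    have e : ∀ u : Nd L 0 → ℝ, nW m u a = exp (a ()) * exp (u ()) := fun u => by
      have : nW m u a = exp (∑ l ∈ Finset.range 1, u () / m (l + 1) + a ()) :=
        Finset.sum_eq_single_of_mem (s := Finset.univ) (() : Leaf L 0) (Finset.mem_univ _)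
          fun b _ hb => absurd rfl hb
      rw [this, Finset.sum_range_one, h1, div_one, exp_add, mul_comm]
    have hp : MeasurePreserving (fun u : Nd L 0 → ℝ => u ()) (PU L 0 m) (stab (m 0)) := by
      have := measurePreserving_eval (fun x : Nd L 0 => stab (m (dep x) / m (dep x + 1))) ()
      have h2 : stab (m 0) = stab (m 0 / m (0 + 1)) := by rw [h1, div_one]
      rw [h2]
      exact this
    have := hs.lap (l * exp (a ())) (by positivity)
    rw [← hp.map_eq, integral_map hp.measurable.aemeasurable (by fun_prop)] at this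
    simp only [e, ← mul_assoc]
    rw [this, mul_rpow hl (exp_pos _).le, ← exp_mul, add_zero, mul_comm (m 0)]
    rfl
  | n + 1, m, h0, hm, h1 => by
    have hm1 : m 0 < m 1 := hm 0 (by omega)
    have h1' : 0 < m 1 := h0.trans hm1
    obtain ⟨c, hc⟩ := lap_tree hL n (fun i => m (i + 1)) h1' (fun j hj => hm (j + 1) (by omega)) h1
    refine ⟨log L / m 1 + c, fun a l hl => ?_⟩
    have hs := isStab_stab (div_pos h0 h1') ((div_lt_one h1').2 hm1)
    have hp : MeasurePreserving
        (fun g : Nd L (n + 1) → ℝ => (g none, fun (i : Fin L) (x : Nd L n) => g (some (i, x))))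
        (PU L (n + 1) m) ((stab (m 0 / m 1)).prod
          (Measure.pi fun _ : Fin L => PU L n fun i => m (i + 1))) :=
      nd_split fun x : Nd L (n + 1) => stab (m (dep x) / m (dep x + 1))
    have hmeas : Measurable fun p : ℝ × (Fin L → Nd L n → ℝ) => l * exp (p.1 / m 1) *
        ∑ i, nW (fun i => m (i + 1)) (p.2 i) fun ω => a (i, ω) :=
      (by fun_prop : Measurable fun p : ℝ × (Fin L → Nd L n → ℝ) => l * exp (p.1 / m 1)).mul
        ((measurable_forest (fun i => m (i + 1)) (fun i ω => a (i, ω))).comp measurable_snd)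
    simp only [nW_succ, ← mul_assoc]
    refine (int_mp hp hmeas).trans ?_
    rw [integral_prod _ (integrable_exp_neg _ hmeas fun p =>
      mul_nonneg (by positivity) (Finset.sum_nonneg fun _ _ => nW_nonneg _ _ _))]
    have e : ∀ v : ℝ, ∫ g : Fin L → Nd L n → ℝ, exp (-(l * exp (v / m 1) *
        ∑ i, nW (fun i => m (i + 1)) (g i) fun ω => a (i, ω)))
        ∂(Measure.pi fun _ => PU L n fun i => m (i + 1)) =
        exp (-(l ^ m 1 * exp (m 1 * (nest m (n + 1) 1 a + (log L / m 1 + c))) * exp v)) := by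
      intro v
      rw [lap_forest hL h1' hc a (by positivity), mul_rpow hl (exp_pos _).le, ← exp_mul,
        div_mul_cancel₀ _ h1'.ne', mul_right_comm]
    simp only [e]
    rw [hs.lap _ (by positivity), mul_rpow (by positivity) (exp_pos _).le, ← rpow_mul hl, ← exp_mul,
      mul_div_cancel₀ _ h1'.ne']
    congr 4
    field_simp

theorem lZ_unif (hL : 0 < L) (h : Leaf L k → ℝ) :
    lZ (unif L k) h = log (∑ ω, exp (h ω)) - k * log L ∧ 0 < ∑ ω, exp (h ω) := by
  have hL' : (0 : ℝ) < L := Nat.cast_pos.2 hL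
  haveI : Nonempty (Leaf L k) := Fintype.card_pos_iff.1 (by rw [card_leaf]; positivity)
  have hS : 0 < ∑ ω, exp (h ω) := Finset.sum_pos (fun _ _ => exp_pos _) Finset.univ_nonempty
  refine ⟨?_, hS⟩
  rw [lZ, integral_unif hL, log_mul (by positivity) hS.ne', log_inv, log_pow]
  ring

theorem measurable_lZ_lw (hL : 0 < L) (m : ℕ → ℝ) (a : Leaf L k → ℝ) :
    Measurable fun u : Nd L k → ℝ => lZ (unif L k) fun ω => lw m u ω + a ω := by
  simp only [(lZ_unif hL _).1, lw]
  fun_prop

theorem law_lw (hk : IsPartition k m) : ∃ ν : Measure ℝ, IsProbabilityMeasure ν ∧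
    Integrable (fun v : ℝ => v) ν ∧ ∀ L, 0 < L → ∃ c : ℝ, ∀ a : Leaf L k → ℝ,
      (PU L k m).map (fun u => lZ (unif L k) (fun ω => lw m u ω + a ω) - (nest m k 1 a + c)) = ν := by
  cases k with
  | zero =>
    refine ⟨Measure.dirac 0, inferInstance, integrable_dirac (by simp), fun L hL => ⟨0, fun a => ?_⟩⟩
    have e : ∀ u : Nd L 0 → ℝ,
        lZ (unif L 0) (fun ω => lw m u ω + a ω) - (nest m 0 1 a + 0) = 0 := fun u => by
      have : ∑ ω : Leaf L 0, exp (lw m u ω + a ω) = exp (lw m u () + a ()) :=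
        Finset.sum_eq_single_of_mem (s := Finset.univ) (() : Leaf L 0) (Finset.mem_univ _)
          fun b _ hb => absurd rfl hb
      rw [(lZ_unif hL _).1, this, log_exp]
      simp [lw, nest]
    simp only [e]
    rw [Measure.map_const, measure_univ, one_smul]
  | succ n =>
    obtain ⟨h0, h1, hm⟩ := hk
    have h1' : 0 < m 1 := h0 ▸ hm 0 (by omega)
    have hlt : ∀ j, 1 ≤ j → j ≤ n + 1 → m 1 < m (j + 1) := fun j g1 g2 => by
      induction j, g1 using Nat.le_induction with
      | base => exact hm 1 g2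
      | succ j g ih => exact (ih (by omega)).trans (hm (j + 1) g2)
    have hs := isStab_stab h1' (h1 ▸ hlt (n + 1) (by omega) le_rfl)
    refine ⟨stab (m 1), inferInstance, hs.int, fun L hL => ?_⟩
    obtain ⟨c, hc⟩ := lap_tree hL n (fun i => m (i + 1)) h1' (fun j hj => hm (j + 1) (by omega)) h1
    refine ⟨log L / m 1 + c - (n + 1 : ℕ) * log L, fun a => ?_⟩
    have hM := (measurable_lZ_lw hL m a).sub_const
      (nest m (n + 1) 1 a + (log L / m 1 + c - (n + 1 : ℕ) * log L))
    haveI := Measure.isProbabilityMeasure_map (μ := PU L (n + 1) m) hM.aemeasurable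
    refine ext_of_lap fun l hl => ?_
    rw [integral_map hM.aemeasurable (by fun_prop), hs.lap l hl]
    obtain ⟨C, hC⟩ : ∃ C, C = nest m (n + 1) 1 a + (log L / m 1 + c) := ⟨_, rfl⟩
    have e : ∀ u : Nd L (n + 1) → ℝ, l * exp (lZ (unif L (n + 1)) (fun ω => lw m u ω + a ω) -
        (nest m (n + 1) 1 a + (log L / m 1 + c - (n + 1 : ℕ) * log L))) = l * exp (-C) *
        ∑ i : Fin L, nW (fun i => m (i + 1)) (fun x => u (some (i, x))) (fun ω => a (i, ω)) := by
      intro u
      obtain ⟨g1, g2⟩ := lZ_unif hL (fun ω => lw m u ω + a ω)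
      rw [g1, ← nW_forest, mul_assoc]
      simp only [lw, sum_Icc_one] at g2 ⊢
      rw [← exp_log g2, ← exp_add, log_exp, hC]
      congr 2
      ring
    have hp : MeasurePreserving
        (fun (g : Nd L (n + 1) → ℝ) (i : Fin L) (x : Nd L n) => g (some (i, x)))
        (PU L (n + 1) m) (Measure.pi fun _ : Fin L => PU L n fun i => m (i + 1)) :=
      measurePreserving_snd.comp
        (nd_split fun x : Nd L (n + 1) => stab (m (dep x) / m (dep x + 1)))
    have hmeas : Measurable fun g : Fin L → Nd L n → ℝ => l * exp (-C) *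
        ∑ i, nW (fun i => m (i + 1)) (g i) fun ω => a (i, ω) :=
      (measurable_forest (fun i => m (i + 1)) (fun i ω => a (i, ω))).const_mul _
    simp only [e]
    refine (int_mp hp hmeas).trans ?_
    rw [lap_forest hL h1' hc a (by positivity), ← hC,
      mul_rpow hl (exp_pos _).le, ← exp_mul, mul_assoc, ← exp_add]
    rw [show -C * m 1 + m 1 * C = 0 by ring, exp_zero, mul_one]

theorem FE_of_law (hL : 0 < L) {ν : Measure ℝ} (hi : Integrable (fun v : ℝ => v) ν)
    (a : Leaf L k → ℝ) {C : ℝ}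
    (h : (PU L k m).map (fun u => lZ (unif L k) (fun ω => lw m u ω + a ω) - C) = ν) :
    FE (PU L k m) (unif L k) (fun u ω => lw m u ω + a ω) = ∫ v, v ∂ν + C := by
  have hM := (measurable_lZ_lw hL m a).sub_const C
  subst h
  rw [integral_map hM.aemeasurable (by fun_prop)]
  have h2 := (integrable_map_measure (by fun_prop) hM.aemeasurable).1 hi
  have h3 := integral_add h2 (integrable_const C)
  simp only [Function.comp_def, sub_add_cancel, integral_const, probReal_univ, one_smul] at h3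
  exact h3

theorem FE_lw (hk : IsPartition k m) (hL : 0 < L) (a : Leaf L k → ℝ) :
    FE (PU L k m) (unif L k) (fun u ω => lw m u ω + a ω) = cL L k m + nest m k 1 a := by
  obtain ⟨ν, -, hi, h⟩ := law_lw hk
  obtain ⟨c, hc⟩ := h L hL
  have h0 := FE_of_law hL hi _ (hc fun _ => 0)
  simp only [add_zero, nest_zero hL, zero_add] at h0
  rw [FE_of_law hL hi _ (hc a), cL, h0]
  ring

theorem Fluct_lw (hk : IsPartition k m) : ∃ c₀ : ℝ, ∀ L, 0 < L → ∀ a : Leaf L k → ℝ,
    Fluct (PU L k m) (unif L k) (fun u ω => lw m u ω + a ω) ≤ c₀ := by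
  obtain ⟨ν, -, hi, h⟩ := law_lw hk
  refine ⟨∫ v, |v - ∫ v, v ∂ν| ∂ν, fun L hL a => ?_⟩
  obtain ⟨c, hc⟩ := h L hL
  have hM := (measurable_lZ_lw hL m a).sub_const (nest m k 1 a + c)
  rw [Fluct, FE_of_law hL hi _ (hc a)]
  generalize ∫ v, v ∂ν = μ₀
  rw [← hc a, integral_map hM.aemeasurable (by fun_prop)]
  refine le_of_eq (integral_congr_ae (Filter.Eventually.of_forall fun u => ?_))
  simp only
  congr 1
  ring

end P157
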