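import Vale.Agent.P157.PCav1
import Vale.Agent.P157.R12

/-! P157 PCav2: adding two patterns to a synchronised system (averages).
Plan. Write `H₂` (actual fields) and `H₂'` (tree fields) and `φ = φ₁ φ₂` (`|φ| ≤ K²`). Step 1 (errors
uniform in `k`): `A1 H₂ φ ≈ A1 H₂' φ` by `FE_expand1` on both sides and `vt` with `c = x` and `c = 0`
(error `2Cη/x + 202 x K⁴`); the same for `φ²` (`φ_i²` is `C2b` with constant `4K²`, apply `vt` with the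
constant `4K²`). For two replicas add the factor `gp (Nd L k)` and `D = x ς(g (anc (lf σ) j)) φ`,
`ς y = if 0 ≤ y then 1 else -1`: for each fixed `g` apply `vt` with `c σ = x ς(..)` and integrate
(`FE_prod_symm`); `FE_expand`, `A1_prod`, `A2_prod` and `∫ ς(g a) ς(g b) = 1_{a=b}`, `∫ ς = 0` (see
R12.lean for these lemmas, or reprove them) give `x²/2 (A1 φ² - A2 (φ φ' ind j)) + O(x³ K⁶)` on both
sides. Choose `x`, then `η`. Step 2: `r12` for the tree side with `X y = f y.1 + f y.2`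
(`Env.prod`, `B = 2K²`), `Tl_prod`, `E2_prod` (note `r2 (wq p) (wq p) j = (rq p j).prod (rq p j)`).
-/

open MeasureTheory ProbabilityTheory Real
open scoped BigOperators Matrix

namespace P157

theorem pc2_mono {f : ℝ → ℝ} {K K' : ℝ} (hf : C2b f K) (h : K ≤ K') : C2b f K' :=
  ⟨hf.d1, hf.d2, fun y => (hf.b0 y).trans h, fun y => (hf.b1 y).trans h,
    fun y => (hf.b2 y).trans h⟩

theorem pc2_sq {φ : ℝ → ℝ} {K : ℝ} (h : C2b φ K) : C2b (fun y => φ y ^ 2) (4 * K ^ 2) := by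
  have e1 : deriv (fun y => φ y ^ 2) = fun y => 2 * (φ y * deriv φ y) := by
    funext y
    rw [((h.d1 y).hasDerivAt.fun_pow 2).deriv]
    simp [mul_assoc]
  have e2 : deriv (fun y => 2 * (φ y * deriv φ y)) =
      fun y => 2 * (deriv φ y * deriv φ y + φ y * deriv (deriv φ) y) := by
    funext y
    exact (((h.d1 y).hasDerivAt.mul (h.d2 y).hasDerivAt).const_mul 2).deriv
  have hK : 0 ≤ K * K := mul_self_nonneg K
  refine ⟨h.d1.pow 2, ?_, fun y => ?_, fun y => ?_, fun y => ?_⟩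
  · rw [e1]; exact (h.d1.mul h.d2).const_mul 2
  · have := gb_mul (h.b0 y) (h.b0 y)
    rw [pow_two]; nlinarith
  · rw [e1, abs_mul, abs_two]
    have := gb_mul (h.b0 y) (h.b1 y)
    nlinarith
  · rw [e1, e2, abs_mul, abs_two]
    have := gb_add (gb_mul (h.b1 y) (h.b1 y)) (gb_mul (h.b0 y) (h.b2 y))
    nlinarith

section
variable {Ω₁ Ω₂ S : Type} [MeasurableSpace Ω₁] [MeasurableSpace Ω₂] [MeasurableSpace S]
  {P₁ : Measure Ω₁} {P₂ : Measure Ω₂} [IsProbabilityMeasure P₁] [IsProbabilityMeasure P₂]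
  {μ : Measure S} [IsProbabilityMeasure μ] {H₁ h₁ : Ω₁ → S → ℝ} {H₂ h₂ : Ω₂ → S → ℝ} {e x : ℝ}

/-- the free energies of two systems agree after all deterministic tilts -/
def PcCmp (P₁ : Measure Ω₁) (P₂ : Measure Ω₂) (μ : Measure S) (H₁ h₁ : Ω₁ → S → ℝ)
    (H₂ h₂ : Ω₂ → S → ℝ) (e : ℝ) : Prop :=
  ∀ c : S → ℝ, Measurable c → (∀ σ, |c σ| ≤ 1) →
    |FE P₁ μ (fun ω σ => H₁ ω σ + c σ * h₁ ω σ) - FE P₂ μ (fun ω σ => H₂ ω σ + c σ * h₂ ω σ)| ≤ e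

omit [IsProbabilityMeasure P₁] [IsProbabilityMeasure P₂] [IsProbabilityMeasure μ] in
theorem PcCmp.zero (hc : PcCmp P₁ P₂ μ H₁ h₁ H₂ h₂ e) : |FE P₁ μ H₁ - FE P₂ μ H₂| ≤ e := by
  have h := hc (fun _ => 0) measurable_const (fun _ => by simp)
  simpa using h

omit [IsProbabilityMeasure P₁] [IsProbabilityMeasure P₂] [IsProbabilityMeasure μ] in
theorem PcCmp.scale (hc : PcCmp P₁ P₂ μ H₁ h₁ H₂ h₂ e) {a : ℝ} (ha : |a| ≤ 1) :
    PcCmp P₁ P₂ μ H₁ (fun ω σ => a * h₁ ω σ) H₂ (fun ω σ => a * h₂ ω σ) e := by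
  intro c hm hb
  have h := hc (fun σ => c σ * a) (hm.mul_const a) fun σ => by
    simpa using gb_mul (hb σ) ha
  simpa only [mul_assoc] using h

theorem pc2_one (g₁ : Good P₁ H₁) (g₂ : Good P₂ H₂) (b₁ : Bd1 h₁ 1) (b₂ : Bd1 h₂ 1)
    (hx0 : 0 < x) (hx : x ≤ 1) (hc : PcCmp P₁ P₂ μ H₁ h₁ H₂ h₂ e) :
    x * |A1 P₁ μ H₁ h₁ - A1 P₂ μ H₂ h₂| ≤ 2 * e + 202 * x ^ 2 := by
  have h0 := hc.zero
  have h1 := hc (fun _ => x) measurable_const fun _ => by rwa [abs_of_pos hx0]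
  have h2 := FE_expand1 (μ := μ) g₁ (b₁.const_mul x)
  have h3 := FE_expand1 (μ := μ) g₂ (b₂.const_mul x)
  rw [A1_const_mul, mul_one, abs_of_pos hx0] at h2 h3
  rw [← abs_of_pos hx0, ← abs_mul, abs_of_pos hx0]
  rw [abs_le] at h0 h1 h2 h3 ⊢
  constructor <;> linarith [h0.1, h0.2, h1.1, h1.2, h2.1, h2.2, h3.1, h3.2]

theorem pc2_two (g₁ : Good P₁ H₁) (g₂ : Good P₂ H₂) (b₁ : Bd1 h₁ 1) (b₂ : Bd1 h₂ 1)
    (hx0 : 0 < x) (hx : x ≤ 1) (hc : PcCmp P₁ P₂ μ H₁ h₁ H₂ h₂ e) {L k : ℕ} {lf : S → Leaf L k}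
    (hlf : Measurable lf) {j : ℕ} (hj : j ≤ k) :
    x ^ 2 * |(A1 P₁ μ H₁ (fun ω σ => h₁ ω σ ^ 2)
        - A2 P₁ μ H₁ (fun ω σ σ' => h₁ ω σ * h₁ ω σ' * ind j (lf σ) (lf σ'))) -
      (A1 P₂ μ H₂ (fun ω σ => h₂ ω σ ^ 2)
        - A2 P₂ μ H₂ (fun ω σ σ' => h₂ ω σ * h₂ ω σ' * ind j (lf σ) (lf σ')))|
      ≤ 4 * e + 400 * x ^ 3 := by
  have h0 := hc.zero
  have h2 := r12_fin (μ := μ) g₁ b₁ hlf hx0 hj
  have h3 := r12_fin (μ := μ) g₂ b₂ hlf hx0 hj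
  have hb : ∀ (Ω : Type) [MeasurableSpace Ω], Bd1 (fun (ω : Ω × (Nd L k → ℝ)) σ =>
      rsg (tf (fun l => if l = j then 1 else 0) ω.2 (lf σ))) 1 := fun Ω _ =>
    ⟨rsg_meas.comp (measurable_tf hlf _ measurable_snd), fun _ _ => (rsg_abs _).le⟩
  obtain ⟨p1, i1⟩ := FE_prod_symm (μ := μ) ((g₁.fst (gp (Nd L k))).add
    (((b₁.comp (e := fun ω : Ω₁ × (Nd L k → ℝ) => ω.1) measurable_fst
    measurable_id).mul (hb Ω₁)).const_mul x).good)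
  obtain ⟨p2, i2⟩ := FE_prod_symm (μ := μ) ((g₂.fst (gp (Nd L k))).add
    (((b₂.comp (e := fun ω : Ω₂ × (Nd L k → ℝ) => ω.1) measurable_fst
    measurable_id).mul (hb Ω₂)).const_mul x).good)
  simp only [id] at p1 i1 p2 i2
  have h1 : |FE (P₁.prod (gp (Nd L k))) μ (fun ω σ => H₁ ω.1 σ +
        x * (h₁ ω.1 σ * rsg (tf (fun l => if l = j then 1 else 0) ω.2 (lf σ)))) -
      FE (P₂.prod (gp (Nd L k))) μ (fun ω σ => H₂ ω.1 σ +
        x * (h₂ ω.1 σ * rsg (tf (fun l => if l = j then 1 else 0) ω.2 (lf σ))))| ≤ e := by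
    rw [p1, p2, ← integral_sub i1 i2]
    refine gb_int fun g => ?_
    have h4 := hc (fun σ => x * rsg (tf (fun l => if l = j then 1 else 0) g (lf σ)))
      ((rsg_meas.comp ((measurable_tf (Ω := Unit) hlf _ (e := fun _ => g) measurable_const).comp
        (measurable_prodMk_left (x := ())))).const_mul x) fun σ => by
          rw [abs_mul, rsg_abs, mul_one, abs_of_pos hx0]; exact hx
    have e1 : ∀ a b : ℝ, x * b * a = x * (a * b) := fun a b => by ring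
    simpa only [e1] using h4
  rw [← abs_of_nonneg (sq_nonneg x), ← abs_mul]
  rw [abs_le] at h0 h1 h2 h3 ⊢
  constructor <;> linarith [h0.1, h0.2, h1.1, h1.2, h2.1, h2.2, h3.1, h3.2]

/-- both averages are close -/
theorem pc2_both (g₁ : Good P₁ H₁) (g₂ : Good P₂ H₂) {D : ℝ} (hD : 1 ≤ D) (b₁ : Bd1 h₁ D)
    (b₂ : Bd1 h₂ D) (hx0 : 0 < x) (hx : x ≤ 1) (hc : PcCmp P₁ P₂ μ H₁ h₁ H₂ h₂ e)
    (hc2 : PcCmp P₁ P₂ μ H₁ (fun ω σ => h₁ ω σ ^ 2) H₂ (fun ω σ => h₂ ω σ ^ 2) e)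
    {L k : ℕ} {lf : S → Leaf L k} (hlf : Measurable lf) :
    x ^ 2 * |A1 P₁ μ H₁ h₁ - A1 P₂ μ H₂ h₂| ≤ D ^ 2 * (6 * e + 602 * x ^ 3) ∧
    ∀ j ≤ k, x ^ 2 * |A2 P₁ μ H₁ (fun ω σ σ' => h₁ ω σ * h₁ ω σ' * ind j (lf σ) (lf σ')) -
      A2 P₂ μ H₂ (fun ω σ σ' => h₂ ω σ * h₂ ω σ' * ind j (lf σ) (lf σ'))| ≤
      D ^ 2 * (6 * e + 602 * x ^ 3) := by
  have hD0 : 0 < D := by linarith
  have he : 0 ≤ e := (abs_nonneg _).trans hc.zero
  have ha : |D⁻¹| ≤ 1 := by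
    rw [abs_of_pos (inv_pos.2 hD0)]; exact inv_le_one_of_one_le₀ hD
  have hDD : |D⁻¹| * D ≤ 1 := by rw [abs_of_pos (inv_pos.2 hD0), inv_mul_cancel₀ hD0.ne']
  have c₁ := (b₁.const_mul D⁻¹).mono hDD
  have c₂ := (b₂.const_mul D⁻¹).mono hDD
  have k1 := pc2_one g₁ g₂ c₁ c₂ hx0 hx (hc.scale ha)
  have ha2 : |D⁻¹ ^ 2| ≤ 1 := by rw [abs_pow]; exact pow_le_one₀ (abs_nonneg _) ha
  have q₁ : Bd1 (fun ω σ => D⁻¹ ^ 2 * h₁ ω σ ^ 2) 1 := by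
    have := c₁.mul c₁
    rw [one_mul] at this
    convert this using 3
    ring
  have q₂ : Bd1 (fun ω σ => D⁻¹ ^ 2 * h₂ ω σ ^ 2) 1 := by
    have := c₂.mul c₂
    rw [one_mul] at this
    convert this using 3
    ring
  have k2 := pc2_one g₁ g₂ q₁ q₂ hx0 hx (hc2.scale ha2)
  rw [A1_const_mul, A1_const_mul, ← mul_sub, abs_mul] at k1 k2
  rw [abs_of_pos (inv_pos.2 hD0)] at k1
  rw [abs_of_nonneg (sq_nonneg _)] at k2
  have hx3 : 0 ≤ x ^ 3 := by positivity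
  have hxe : x * e ≤ e := mul_le_of_le_one_left he hx
  refine ⟨?_, fun j hj => ?_⟩
  · have h1 := mul_le_mul_of_nonneg_left k1 (mul_pos hx0 hD0).le
    have h2 : x * D * (x * (D⁻¹ * |A1 P₁ μ H₁ h₁ - A1 P₂ μ H₂ h₂|)) =
        x ^ 2 * |A1 P₁ μ H₁ h₁ - A1 P₂ μ H₂ h₂| := by field_simp
    rw [h2] at h1
    refine h1.trans ?_
    have h3 : x * D * (2 * e + 202 * x ^ 2) = D * (2 * (x * e) + 202 * x ^ 3) := by ring
    rw [h3]
    exact mul_le_mul (le_self_pow₀ hD two_ne_zero) (by linarith) (by positivity) (by positivity)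
  · have k3 := pc2_two g₁ g₂ c₁ c₂ hx0 hx (hc.scale ha) hlf hj
    have e1 : ∀ a b s : ℝ, D⁻¹ * a * (D⁻¹ * b) * s = D⁻¹ ^ 2 * (a * b * s) := fun a b s => by ring
    simp only [e1, mul_pow, A1_const_mul, A2_const_mul] at k3
    rw [← mul_sub, ← mul_sub, ← mul_sub, abs_mul, abs_of_nonneg (sq_nonneg _)] at k3
    have k4 := mul_le_mul_of_nonneg_left k2 hx0.le
    set u := A1 P₁ μ H₁ (fun ω σ => h₁ ω σ ^ 2)
    set u' := A1 P₂ μ H₂ (fun ω σ => h₂ ω σ ^ 2)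
    set v := A2 P₁ μ H₁ (fun ω σ σ' => h₁ ω σ * h₁ ω σ' * ind j (lf σ) (lf σ'))
    set v' := A2 P₂ μ H₂ (fun ω σ σ' => h₂ ω σ * h₂ ω σ' * ind j (lf σ) (lf σ'))
    have k5 : |v - v'| ≤ |u - u'| + |u - v - (u' - v')| := by
      have : v - v' = (u - u') - (u - v - (u' - v')) := by ring
      rw [this]; exact abs_sub _ _
    have k6 : x ^ 2 * (D⁻¹ ^ 2 * |v - v'|) ≤ 6 * e + 602 * x ^ 3 := by
      have := mul_le_mul_of_nonneg_left k5 (mul_nonneg (sq_nonneg x) (sq_nonneg D⁻¹))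
      nlinarith
    have k7 := mul_le_mul_of_nonneg_left k6 (sq_nonneg D)
    have h2 : D ^ 2 * (x ^ 2 * (D⁻¹ ^ 2 * |v - v'|)) = x ^ 2 * |v - v'| := by field_simp
    rwa [h2] at k7

end

theorem pc2 {K : ℝ} (hK : 1 ≤ K) {τ : ℝ} (hτ : 0 < τ) : ∃ η B : ℝ, 0 < η ∧ ∀ {k : ℕ} {m : ℕ → ℝ}
    (_ : IsPartition k m), ∃ τ' : ℝ, 0 < τ' ∧ ∀ {Ω S : Type} [MeasurableSpace Ω] [MeasurableSpace S] {P : Measure Ω}
      [IsProbabilityMeasure P] {μ : Measure S} [IsProbabilityMeasure μ] {H : Ω → S → ℝ}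
      (_ : Good P H) {L N : ℕ} (_ : 0 < N) {sp : S → Fin N → ℝ} (_ : IsSp sp) {lf : S → Leaf L k}
      (_ : Measurable lf) {p : ℕ → ℝ} (_ : IsOv k p)
      (_ : Sync k P μ H sp lf p η) (_ : AC k m P μ H lf B τ') {f φ₁ φ₂ : ℝ → ℝ} (_ : C2b f K)
      (_ : C2b φ₁ K) (_ : C2b φ₂ K),
      |A1 ((P.prod (gp (Fin N))).prod (gp (Fin N))) μ
          (fun ω σ => H ω.1.1 σ + f (fld ω.1.2 (sp σ)) + f (fld ω.2 (sp σ)))
          (fun ω σ => φ₁ (fld ω.1.2 (sp σ)) * φ₂ (fld ω.2 (sp σ)))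
        - t1 k m p f φ₁ * t1 k m p f φ₂| ≤ τ ∧
      ∀ j ≤ k, |A2 ((P.prod (gp (Fin N))).prod (gp (Fin N))) μ
          (fun ω σ => H ω.1.1 σ + f (fld ω.1.2 (sp σ)) + f (fld ω.2 (sp σ)))
          (fun ω σ σ' => φ₁ (fld ω.1.2 (sp σ)) * φ₂ (fld ω.2 (sp σ)) *
            (φ₁ (fld ω.1.2 (sp σ')) * φ₂ (fld ω.2 (sp σ'))) * ind j (lf σ) (lf σ'))
        - tail k m (fun i => e1 k m p f φ₁ i * e1 k m p f φ₂ i) j| ≤ τ := by
  have hK2 : K ≤ K ^ 2 := le_self_pow₀ hK two_ne_zero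
  have hK4 : K ≤ 4 * K ^ 2 := by linarith
  obtain ⟨C, hC, hv⟩ := vt (hK.trans hK4)
  obtain ⟨x, hx0, hx, hx2⟩ : ∃ x : ℝ, 0 < x ∧ x ≤ 1 ∧ (K * K) ^ 2 * 602 * x ≤ τ / 4 := by
    refine ⟨min 1 (τ / 4 / ((K * K) ^ 2 * 602)), lt_min one_pos (by positivity),
      min_le_left _ _, ?_⟩
    rw [mul_comm, ← le_div_iff₀ (by positivity)]
    exact min_le_right _ _
  refine ⟨x ^ 2 * τ / (24 * (K * K) ^ 2 * (C + 1)), 2 * K ^ 2 + 2, by positivity, ?_⟩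
  intro k m hk
  obtain ⟨τ', hτ', hr⟩ := r12 hk (B := 2 * K ^ 2) (by linarith) (half_pos hτ)
  refine ⟨τ', hτ', ?_⟩
  intro Ω S _ _ P _ μ _ H hH L N hN sp hsp lf hlf p hp hs hA f φ₁ φ₂ hf h₁ h₂
  have m12 : Measurable fun ω : (Ω × (Fin N → ℝ)) × (Fin N → ℝ) => ω.1.2 :=
    measurable_snd.comp measurable_fst
  have m12' : Measurable fun ω : (Ω × (Nd L k → ℝ)) × (Nd L k → ℝ) => ω.1.2 :=
    measurable_snd.comp measurable_fst
  have g₁ : Good ((P.prod (gp (Fin N))).prod (gp (Fin N)))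
      (fun ω σ => H ω.1.1 σ + f (fld ω.1.2 (sp σ)) + f (fld ω.2 (sp σ))) :=
    (((hH.fst _).fst _).add (pc_bd_fld hsp hf.meas0 hf.b0 m12).good).add
      (pc_bd_fld hsp hf.meas0 hf.b0 measurable_snd).good
  have g₂ : Good ((P.prod (gp (Nd L k))).prod (gp (Nd L k)))
      (fun ω σ => H ω.1.1 σ + f (tf (wq p) ω.1.2 (lf σ)) + f (tf (wq p) ω.2 (lf σ))) :=
    (((hH.fst _).fst _).add (pc_bd_tf hlf _ hf.meas0 hf.b0 m12').good).add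
      (pc_bd_tf hlf _ hf.meas0 hf.b0 measurable_snd).good
  have b₁ := (pc_bd_fld hsp h₁.meas0 h₁.b0 m12).mul (pc_bd_fld hsp h₂.meas0 h₂.b0 measurable_snd)
  have b₂ := (pc_bd_tf hlf (wq p) h₁.meas0 h₁.b0 m12').mul
    (pc_bd_tf hlf (wq p) h₂.meas0 h₂.b0 measurable_snd)
  have hb := pc2_both (μ := μ) g₁ g₂ (by nlinarith) b₁ b₂ hx0 hx
    (e := C * (x ^ 2 * τ / (24 * (K * K) ^ 2 * (C + 1))))
    (fun c hc hc1 => hv hH hN hsp hlf hp hs (pc2_mono hf hK4) (pc2_mono h₁ hK4) (pc2_mono h₂ hK4) hc hc1)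
    (fun c hc hc1 => by
      simpa only [mul_pow] using hv hH hN hsp hlf hp hs (pc2_mono hf hK4) (pc2_sq h₁) (pc2_sq h₂) hc hc1) hlf
  have key : ∀ d : ℝ, x ^ 2 * d ≤ (K * K) ^ 2 *
      (6 * (C * (x ^ 2 * τ / (24 * (K * K) ^ 2 * (C + 1)))) + 602 * x ^ 3) → d ≤ τ / 2 := by
    intro d hd
    refine le_of_mul_le_mul_left (a := x ^ 2) ?_ (by positivity)
    have e1 : (K * K) ^ 2 * (6 * (C * (x ^ 2 * τ / (24 * (K * K) ^ 2 * (C + 1))))) =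
        x ^ 2 * τ / 4 * (C / (C + 1)) := by
      field_simp
      ring
    have e2 : x ^ 2 * τ / 4 * (C / (C + 1)) ≤ x ^ 2 * τ / 4 :=
      mul_le_of_le_one_right (by positivity) (div_le_one_of_le₀ (by linarith) (by linarith))
    have e3 := mul_le_mul_of_nonneg_left hx2 (sq_nonneg x)
    nlinarith
  have hw : ∀ j ≤ k, |wq p j| ≤ 2 * K ^ 2 := fun j hj =>
    (abs_wq_le hp.1 (R := 1) (by rw [hp.2]; norm_num) zero_le_one hj).trans (by linarith)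
  have hX := hf.c2d.env.prod hf.c2d.env
  have hL := (hk.lv (expM_rq p)).mono (n' := k + 1) le_rfl (by omega)
  obtain ⟨r1, r2'⟩ := hr hH hlf hA (w₁ := wq p) (w₂ := wq p) (fun j hj => ⟨hw j hj, hw j hj⟩)
    (hX.mono (by linarith)) (φ := fun y => φ₁ y.1 * φ₂ y.2)
    ((h₁.meas0.comp measurable_fst).mul (h₂.meas0.comp measurable_snd))
    (fun y => (gb_mul (h₁.b0 _) (h₂.b0 _)).trans (by nlinarith))
  have t0 : Tl m (r2 (wq p) (wq p)) (fun y => f y.1 + f y.2) (fun y => φ₁ y.1 * φ₂ y.2)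
      (k + 1) 0 0 = t1 k m p f φ₁ * t1 k m p f φ₂ :=
    Tl_prod (φ := φ₁) (φ' := φ₂) hf.c2d.env hf.c2d.env hL hL 0
  have t2 : ∀ j, tail k m (E2 m (r2 (wq p) (wq p)) (fun y => f y.1 + f y.2)
      (fun y => φ₁ y.1 * φ₂ y.2) k) j =
      tail k m (fun i => e1 k m p f φ₁ i * e1 k m p f φ₂ i) j := fun j =>
    Finset.sum_congr rfl fun i hi => congrArg _
      (E2_prod (φ := φ₁) (φ' := φ₂) hf.c2d.env hf.c2d.env hL hL (Finset.mem_Icc.1 hi).2)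
  simp only [← add_assoc, t0, t2] at r1 r2'
  refine ⟨?_, fun j hj => ?_⟩
  · have k1 := key _ hb.1
    rw [abs_le] at k1 r1 ⊢
    constructor <;> linarith [k1.1, k1.2, r1.1, r1.2]
  · have k1 := key _ (hb.2 j hj)
    have k2 := r2' j hj
    rw [abs_le] at k1 k2 ⊢
    constructor <;> linarith [k1.1, k1.2, k2.1, k2.2]

end P157
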