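import Vale.Agent.P157.Core

/-! P157 RBasic: elementary properties of `Tm` and `Rec`.
Plan: `Env X C` gives `|X (y+η)| ≤ |X y| + C (1 + ‖η‖)`, so `X (y+·)` and `exp (m X (y+·))` are
integrable for `ExpM ρ`, and `∫ exp > 0`. `Tm_mono`/`Tm_add_const` are then direct; `Env.tm` follows
from them: `φ (y+η) ≤ φ (y'+η) + C (1 + ‖y-y'‖)`. Measurability of `Tm` via
`StronglyMeasurable.integral_prod_right'`. Everything for `Rec` is an induction on `n`
generalising `j`.
-/

open MeasureTheory ProbabilityTheory Real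
open scoped BigOperators Matrix

namespace P157

variable {Y : Type} [NormedAddCommGroup Y] [MeasurableSpace Y] [BorelSpace Y]
  [SecondCountableTopology Y]

variable {m : ℕ → ℝ} {ρ : ℕ → Measure Y} {X X' φ : Y → ℝ} {C C' : ℝ} {n j : ℕ}

theorem Env.nonneg (h : Env X C) : 0 ≤ C := by
  have := h.lip 0 0
  simpa using this

theorem Env.mono (h : Env X C) (hC : C ≤ C') : Env X C' := by
  refine ⟨h.meas, fun y y' => (h.lip y y').trans ?_⟩
  exact mul_le_mul_of_nonneg_right hC (by positivity)

theorem Env.add (h : Env X C) (h' : Env X' C') : Env (fun y => X y + X' y) (C + C') := by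
  refine ⟨h.meas.add h'.meas, fun y y' => ?_⟩
  have h1 := abs_le.1 (h.lip y y')
  have h2 := abs_le.1 (h'.lip y y')
  rw [abs_le]
  constructor <;> linarith [h1.1, h1.2, h2.1, h2.2]

theorem Env.const_mul (h : Env X C) (c : ℝ) : Env (fun y => c * X y) (|c| * C) := by
  refine ⟨h.meas.const_mul c, fun y y' => ?_⟩
  rw [← mul_sub, abs_mul, mul_assoc]
  exact mul_le_mul_of_nonneg_left (h.lip y y') (abs_nonneg c)

theorem Env.add_const (h : Env X C) (c : ℝ) : Env (fun y => X y + c) C := by
  refine ⟨h.meas.add_const c, fun y y' => ?_⟩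
  rw [add_sub_add_right_eq_sub]
  exact h.lip y y'

theorem Env.of_bdd (hm : Measurable φ) {b : ℝ} (hb : ∀ y, |φ y| ≤ b) : Env φ (2 * b) := by
  refine ⟨hm, fun y y' => ?_⟩
  have h1 := abs_le.1 (hb y)
  have h2 := abs_le.1 (hb y')
  have h3 : 0 ≤ b := (abs_nonneg _).trans (hb y)
  have h4 : 0 ≤ b * ‖y - y'‖ := by positivity
  rw [abs_le]
  constructor <;> nlinarith [h1.1, h1.2, h2.1, h2.2]

theorem Env.of_lip (hm : Measurable X) (hC : 0 ≤ C) (h : ∀ y y', |X y - X y'| ≤ C * ‖y - y'‖) :
    Env X C := by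
  refine ⟨hm, fun y y' => (h y y').trans ?_⟩
  exact mul_le_mul_of_nonneg_left (by linarith) hC

theorem Env.comp {Y' : Type} [NormedAddCommGroup Y'] [MeasurableSpace Y'] (h : Env X C)
    {q : Y' → Y} (hq : Measurable q) {c : ℝ} (hc : 1 ≤ c) (hl : ∀ y y', ‖q y - q y'‖ ≤ c * ‖y - y'‖) :
    Env (fun y => X (q y)) (C * c) := by
  refine ⟨h.meas.comp hq, fun y y' => (h.lip _ _).trans ?_⟩
  rw [mul_assoc]
  refine mul_le_mul_of_nonneg_left ?_ h.nonneg
  have := hl y y'
  linarith

theorem Env.abs_le_shift (h : Env X C) (y η : Y) : |X (y + η)| ≤ |X y| + C + C * ‖η‖ := by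
  have h1 := h.lip (y + η) y
  rw [add_sub_cancel_left] at h1
  have h2 := abs_sub_abs_le_abs_sub (X (y + η)) (X y)
  linarith

theorem ExpM.integrable_norm {ν : Measure Y} (hν : ExpM ν) : Integrable (fun η => ‖η‖) ν := by
  refine (hν.int 1).mono' measurable_norm.aestronglyMeasurable (ae_of_all _ fun η => ?_)
  rw [norm_norm, one_mul]
  linarith [add_one_le_exp ‖η‖]

theorem Env.integrable (h : Env X C) {ν : Measure Y} (hν : ExpM ν) (y : Y) :
    Integrable (fun η => X (y + η)) ν := by
  have := hν.prob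
  refine ((integrable_const (|X y| + C)).add (hν.integrable_norm.const_mul C)).mono'
    (h.meas.comp (measurable_const_add y)).aestronglyMeasurable (ae_of_all _ fun η => ?_)
  exact h.abs_le_shift y η

theorem Env.integrable_exp (h : Env X C) {ν : Measure Y} (hν : ExpM ν) (c : ℝ) (y : Y) :
    Integrable (fun η => exp (c * X (y + η))) ν := by
  refine ((hν.int (|c| * C)).const_mul (exp (|c| * (|X y| + C)))).mono'
    ((h.meas.comp (measurable_const_add y)).const_mul c).exp.aestronglyMeasurable
    (ae_of_all _ fun η => ?_)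
  rw [Real.norm_of_nonneg (exp_pos _).le, ← exp_add]
  refine exp_le_exp.2 ((le_abs_self _).trans ?_)
  rw [abs_mul]
  have := mul_le_mul_of_nonneg_left (h.abs_le_shift y η) (abs_nonneg c)
  linarith


theorem Lv.mono {n' j' : ℕ} (h : Lv m ρ n j) (h1 : j ≤ j') (h2 : j' + n' ≤ j + n) :
    Lv m ρ n' j' := by
  intro i hi hi'
  exact h i (by omega) (by omega)

theorem Lv.tail (h : Lv m ρ (n + 1) j) : Lv m ρ n (j + 1) := by
  exact h.mono (by omega) (by omega)

theorem IsPartition.mono_le {k : ℕ} (h : IsPartition k m) {i i' : ℕ} (hi : i ≤ i') (hi' : i' ≤ k + 1) :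
    m i ≤ m i' := by
  induction i', hi using Nat.le_induction with
  | base => exact le_rfl
  | succ l hl ih => exact (ih (by omega)).trans (h.2.2 l (by omega)).le

theorem IsPartition.pos {k : ℕ} (h : IsPartition k m) {i : ℕ} (hi : 1 ≤ i) (hi' : i ≤ k + 1) :
    0 < m i := by
  have h1 := h.2.2 0 (Nat.zero_le k)
  rw [h.1] at h1
  exact h1.trans_le (h.mono_le hi hi')

theorem IsPartition.lv {k : ℕ} (h : IsPartition k m) (hρ : ∀ i, ExpM (ρ i)) :
    Lv m ρ (k + 2) 0 := by
  intro i _ hi
  refine ⟨?_, ?_, hρ i⟩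
  · rw [← h.1]; exact h.mono_le (Nat.zero_le i) (by omega)
  · rw [← h.2.1]; exact h.mono_le (by omega) le_rfl


theorem Env.integral_exp_pos {ν : Measure Y} (h : Env X C) (hν : ExpM ν) (c : ℝ) (y : Y) :
    0 < ∫ η, exp (c * X (y + η)) ∂ν := by
  have := hν.prob
  exact MeasureTheory.integral_exp_pos (h.integrable_exp hν c y)

theorem Tm_le_add {ν : Measure Y} (h : Env X C) (h' : Env X' C') (hν : ExpM ν) {a : ℝ}
    (ha : 0 ≤ a) {y y' : Y} {d : ℝ} (hle : ∀ η, X (y + η) ≤ X' (y' + η) + d) :
    Tm a ν X y ≤ Tm a ν X' y' + d := by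
  have := hν.prob
  unfold Tm
  split_ifs with h0
  · have := integral_mono (h.integrable hν y) ((h'.integrable hν y').add (integrable_const d)) hle
    rwa [integral_add' (h'.integrable hν y') (integrable_const d), integral_const, probReal_univ,
      one_smul] at this
  · have hpos : 0 < a := lt_of_le_of_ne ha (Ne.symm h0)
    have h1 : ∫ η, exp (a * X (y + η)) ∂ν ≤ ∫ η, exp (a * d) * exp (a * X' (y' + η)) ∂ν := by
      refine integral_mono (h.integrable_exp hν a y) ((h'.integrable_exp hν a y').const_mul _)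
        fun η => ?_
      simp only [← exp_add]
      refine exp_le_exp.2 ?_
      have := mul_le_mul_of_nonneg_left (hle η) ha
      linarith
    rw [integral_const_mul] at h1
    have h2 := log_le_log (h.integral_exp_pos hν a y) h1
    rw [log_mul (exp_pos _).ne' (h'.integral_exp_pos hν a y').ne', log_exp] at h2
    have h3 := mul_le_mul_of_nonneg_left h2 (inv_pos.2 hpos).le
    rw [mul_add, ← mul_assoc, inv_mul_cancel₀ h0, one_mul] at h3
    linarith

theorem measurable_Tm {ν : Measure Y} (hX : Measurable X) [SFinite ν] (a : ℝ) :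
    Measurable (Tm a ν X) := by
  have h1 : Measurable fun p : Y × Y => X (p.1 + p.2) := hX.comp measurable_add
  unfold Tm
  split_ifs with h0
  · exact (h1.stronglyMeasurable.integral_prod_right' (ν := ν)).measurable
  · exact ((((h1.const_mul a).exp.stronglyMeasurable.integral_prod_right'
      (ν := ν)).measurable).log).const_mul _

theorem Env.tm {ν : Measure Y} (h : Env X C) (hν : ExpM ν) {a : ℝ} (ha : 0 ≤ a) :
    Env (Tm a ν X) C := by
  have := hν.prob
  refine ⟨measurable_Tm h.meas a, fun y y' => ?_⟩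
  have key : ∀ z z' : Y, Tm a ν X z ≤ Tm a ν X z' + C * (1 + ‖z - z'‖) := fun z z' =>
    Tm_le_add h h hν ha fun η => by
      have := (abs_le.1 (h.lip (z + η) (z' + η))).2
      rw [add_sub_add_right_eq_sub] at this
      linarith
  have h1 := key y y'
  have h2 := key y' y
  rw [norm_sub_rev] at h2
  rw [abs_le]
  constructor <;> linarith

theorem Tm_mono {ν : Measure Y} (h : Env X C) (h' : Env X' C') (hν : ExpM ν) {a : ℝ} (ha : 0 ≤ a)
    (hle : ∀ y, X y ≤ X' y) (y : Y) : Tm a ν X y ≤ Tm a ν X' y := by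
  have := Tm_le_add h h' hν ha (y := y) (y' := y) (d := 0) fun η => by simpa using hle _
  simpa using this

theorem Tm_add_const {ν : Measure Y} (h : Env X C) (hν : ExpM ν) (a c : ℝ) (y : Y) :
    Tm a ν (fun y => X y + c) y = Tm a ν X y + c := by
  have := hν.prob
  unfold Tm
  split_ifs with h0
  · rw [integral_add (h.integrable hν y) (integrable_const c), integral_const, probReal_univ,
      one_smul]
  · simp only [mul_add, exp_add]
    rw [integral_mul_const, log_mul (h.integral_exp_pos hν a y).ne' (exp_pos _).ne', log_exp,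
      mul_add, ← mul_assoc, inv_mul_cancel₀ h0, one_mul]

theorem Tm_dirac (hX : Measurable X) (a : ℝ) : Tm a (Measure.dirac (0 : Y)) X = X := by
  funext y
  have h1 : Measurable fun η => X (y + η) := hX.comp (measurable_const_add y)
  unfold Tm
  split_ifs with h0
  · rw [integral_dirac' _ _ h1.stronglyMeasurable, add_zero]
  · rw [integral_dirac' _ _ (h1.const_mul a).exp.stronglyMeasurable, add_zero, log_exp,
      ← mul_assoc, inv_mul_cancel₀ h0, one_mul]

/-- `Tm` is monotone in the exponent (Jensen) -/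
theorem Tm_mono_exp {ν : Measure Y} (h : Env X C) (hν : ExpM ν) {a a' : ℝ} (ha : 0 ≤ a)
    (haa : a ≤ a') (y : Y) : Tm a ν X y ≤ Tm a' ν X y := by
  have := hν.prob
  rcases haa.eq_or_lt with rfl | hlt
  · exact le_rfl
  have ha' : 0 < a' := ha.trans_lt hlt
  set c := Tm a' ν X y with hc
  have hZ := h.integral_exp_pos hν a' y
  have hc' : exp (a' * c) = ∫ η, exp (a' * X (y + η)) ∂ν := by
    rw [hc, Tm, if_neg ha'.ne', ← mul_assoc, mul_inv_cancel₀ ha'.ne', one_mul, exp_log hZ]
  have hI : ∫ η, exp (a' * X (y + η)) * exp (-(a' * c)) ∂ν = 1 := by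
    rw [integral_mul_const, ← hc', ← exp_add, add_neg_cancel, exp_zero]
  have hi : Integrable (fun η => exp (a' * X (y + η)) * exp (-(a' * c))) ν :=
    (h.integrable_exp hν a' y).mul_const _
  unfold Tm
  split_ifs with h0
  · have h1 : ∫ η, X (y + η) ∂ν
        ≤ ∫ η, (a'⁻¹ * (exp (a' * X (y + η)) * exp (-(a' * c))) + (c - a'⁻¹)) ∂ν := by
      refine integral_mono (h.integrable hν y) ((hi.const_mul _).add (integrable_const _))
        fun η => ?_
      have h2 := add_one_le_exp (a' * X (y + η) + -(a' * c))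
      rw [exp_add] at h2
      have h3 := mul_le_mul_of_nonneg_left h2 (inv_pos.2 ha').le
      have h4 : a'⁻¹ * (a' * X (y + η) + -(a' * c) + 1) = X (y + η) - c + a'⁻¹ := by
        field_simp
        ring
      simp only
      linarith
    rw [integral_add (hi.const_mul _) (integrable_const _), integral_const_mul, hI, integral_const,
      probReal_univ, one_smul] at h1
    linarith
  · have hpos : 0 < a := lt_of_le_of_ne ha (Ne.symm h0)
    have ht0 : 0 ≤ a / a' := by positivity
    have ht1 : 0 ≤ 1 - a / a' := by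
      rw [sub_nonneg, div_le_one ha']; exact hlt.le
    have h1 : ∫ η, exp (a * X (y + η)) ∂ν ≤ ∫ η, exp (a * c) *
        (a / a' * (exp (a' * X (y + η)) * exp (-(a' * c))) + (1 - a / a')) ∂ν := by
      refine integral_mono (h.integrable_exp hν a y)
        (((hi.const_mul _).add (integrable_const _)).const_mul _) fun η => ?_
      have h2 := convexOn_exp.2 (Set.mem_univ (a' * X (y + η) + -(a' * c))) (Set.mem_univ 0)
        ht0 ht1 (by ring)
      simp only [smul_eq_mul, mul_zero, add_zero, exp_zero, mul_one] at h2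
      rw [exp_add] at h2
      have h3 : a * X (y + η) = a * c + a / a' * (a' * X (y + η) + -(a' * c)) := by
        field_simp
        ring
      simp only
      rw [h3, exp_add]
      exact mul_le_mul_of_nonneg_left h2 (exp_pos _).le
    rw [integral_const_mul, integral_add (hi.const_mul _) (integrable_const _), integral_const_mul,
      hI, integral_const, probReal_univ, one_smul] at h1
    have h2 : exp (a * c) * (a / a' * 1 + (1 - a / a')) = exp (a * c) := by ring
    rw [h2] at h1
    have h3 := log_le_log (h.integral_exp_pos hν a y) h1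
    rw [log_exp] at h3
    have h4 := mul_le_mul_of_nonneg_left h3 (inv_pos.2 hpos).le
    rwa [← mul_assoc, inv_mul_cancel₀ h0, one_mul] at h4


theorem Env.recur (h : Env X C) (hL : Lv m ρ n j) : Env (Rec m ρ X n j) C := by
  induction n generalizing j with
  | zero => exact h
  | succ n ih =>
    have hj := hL j le_rfl (by omega)
    exact (ih hL.tail).tm hj.2.2 hj.1

theorem Rec_mono (h : Env X C) (h' : Env X' C') (hL : Lv m ρ n j) (hle : ∀ y, X y ≤ X' y) (y : Y) :
    Rec m ρ X n j y ≤ Rec m ρ X' n j y := by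
  induction n generalizing j y with
  | zero => exact hle y
  | succ n ih =>
    have hj := hL j le_rfl (by omega)
    exact Tm_mono (h.recur hL.tail) (h'.recur hL.tail) hj.2.2 hj.1 (fun z => ih hL.tail z) y

theorem Rec_add_const (h : Env X C) (hL : Lv m ρ n j) (c : ℝ) (y : Y) :
    Rec m ρ (fun y => X y + c) n j y = Rec m ρ X n j y + c := by
  induction n generalizing j y with
  | zero => rfl
  | succ n ih =>
    have hj := hL j le_rfl (by omega)
    have e : Rec m ρ (fun y => X y + c) n (j + 1) = fun y => Rec m ρ X n (j + 1) y + c :=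
      funext fun z => ih hL.tail z
    simp only [Rec]
    rw [e, Tm_add_const (h.recur hL.tail) hj.2.2]

theorem Rec_const (hL : Lv m ρ n j) (c : ℝ) (y : Y) : Rec m ρ (fun _ => c) n j y = c := by
  induction n generalizing j y with
  | zero => rfl
  | succ n ih =>
    have hj := hL j le_rfl (by omega)
    have := hj.2.2.prob
    have e : Rec m ρ (fun _ => c) n (j + 1) = fun _ => c := funext fun z => ih hL.tail z
    simp only [Rec]
    rw [e, Tm]
    split_ifs with h0
    · simp
    · rw [integral_const, probReal_univ, one_smul, log_exp, ← mul_assoc, inv_mul_cancel₀ h0,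
        one_mul]

theorem abs_Rec_sub_le (h : Env X C) (h' : Env X' C') (hL : Lv m ρ n j) {d : ℝ}
    (hd : ∀ y, |X y - X' y| ≤ d) (y : Y) : |Rec m ρ X n j y - Rec m ρ X' n j y| ≤ d := by
  have h1 := Rec_mono h (h'.add_const d) hL (fun z => by linarith [(abs_le.1 (hd z)).2]) y
  have h2 := Rec_mono h' (h.add_const d) hL (fun z => by linarith [(abs_le.1 (hd z)).1]) y
  rw [Rec_add_const h' hL] at h1
  rw [Rec_add_const h hL] at h2
  rw [abs_le]
  constructor <;> linarith

theorem abs_Rec_le (hX : Measurable X) (hL : Lv m ρ n j) {d : ℝ} (hd : ∀ y, |X y| ≤ d) (y : Y) :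
    |Rec m ρ X n j y| ≤ d := by
  have h0 : Env (fun _ : Y => (0 : ℝ)) (2 * 0) := Env.of_bdd measurable_const fun _ => by simp
  have := abs_Rec_sub_le (Env.of_bdd hX hd) h0 hL (d := d) (fun z => by simpa using hd z) y
  rwa [Rec_const hL, sub_zero] at this

theorem Rec_split (n₁ n₂ j : ℕ) :
    Rec m ρ X (n₁ + n₂) j = Rec m ρ (Rec m ρ X n₂ (j + n₁)) n₁ j := by
  induction n₁ generalizing j with
  | zero => simp only [Nat.zero_add, Nat.add_zero, Rec]
  | succ n ih =>
    rw [Nat.add_right_comm]
    simp only [Rec]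
    rw [ih, Nat.add_right_comm j 1 n, Nat.add_assoc j n 1]

theorem Rec_congr {m' : ℕ → ℝ} {ρ' : ℕ → Measure Y} {j' : ℕ}
    (h : ∀ i < n, m (j + i) = m' (j' + i) ∧ ρ (j + i) = ρ' (j' + i)) :
    Rec m ρ X n j = Rec m' ρ' X n j' := by
  induction n generalizing j j' with
  | zero => rfl
  | succ n ih =>
    have h0 := h 0 (by omega)
    simp only [Nat.add_zero] at h0
    simp only [Rec]
    rw [h0.1, h0.2, ih (j := j + 1) (j' := j' + 1) fun i hi => ?_]
    have := h (i + 1) (by omega)
    rwa [← Nat.add_assoc, ← Nat.add_assoc, Nat.add_right_comm j, Nat.add_right_comm j'] at this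


theorem expM_dirac : ExpM (Measure.dirac (0 : Y)) := by
  refine ⟨inferInstance, fun c => ?_⟩
  exact integrable_dirac' (measurable_norm.const_mul c).exp.stronglyMeasurable (by simp)

theorem integrable_exp_abs_gauss (c : ℝ) :
    Integrable (fun z : ℝ => exp (c * |z|)) (gaussianReal 0 1) :=
  integrable_exp_mul_abs (X := fun z : ℝ => z) (integrable_exp_mul_gaussianReal c)
    (integrable_exp_mul_gaussianReal (-c))

theorem expM_gw (w : ℝ) : ExpM (gw w) := by
  have hm : Measurable fun z : ℝ => w * z := measurable_const_mul w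
  refine ⟨Measure.isProbabilityMeasure_map hm.aemeasurable, fun c => ?_⟩
  unfold gw
  rw [integrable_map_measure (measurable_norm.const_mul c).exp.aestronglyMeasurable
    hm.aemeasurable]
  refine (integrable_exp_abs_gauss (c * |w|)).congr (ae_of_all _ fun z => ?_)
  simp only [Function.comp, Real.norm_eq_abs, abs_mul, mul_assoc]

instance gw_prob (w : ℝ) : IsProbabilityMeasure (gw w) := (expM_gw w).prob
theorem gw_zero : gw 0 = Measure.dirac 0 := by
  simp [gw]

theorem gw_eq (w : ℝ) : gw w = gaussianReal 0 (w ^ 2).toNNReal := by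
  unfold gw
  rw [gaussianReal_map_const_mul, mul_zero, mul_one]
  congr 1
  ext
  simp [Real.coe_toNNReal _ (sq_nonneg w)]

theorem gw_congr {w w' : ℝ} (h : w ^ 2 = w' ^ 2) : gw w = gw w' := by
  rw [gw_eq, gw_eq, h]

theorem ExpM.prod {Y' : Type} [NormedAddCommGroup Y'] [MeasurableSpace Y'] [BorelSpace Y']
    [SecondCountableTopology Y'] {ν : Measure Y} {ν' : Measure Y'} (h : ExpM ν) (h' : ExpM ν') :
    ExpM (ν.prod ν') := by
  have := h.prob
  have := h'.prob
  refine ⟨inferInstance, fun c => ?_⟩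
  refine ((h.int |c|).mul_prod (h'.int |c|)).mono'
    (measurable_norm.const_mul c).exp.aestronglyMeasurable (ae_of_all _ fun η => ?_)
  rw [Real.norm_of_nonneg (exp_pos _).le, ← exp_add, ← mul_add]
  refine exp_le_exp.2 ((mul_le_mul_of_nonneg_right (le_abs_self c) (norm_nonneg _)).trans ?_)
  refine mul_le_mul_of_nonneg_left ?_ (abs_nonneg c)
  rw [Prod.norm_def]
  exact max_le (le_add_of_nonneg_right (norm_nonneg _)) (le_add_of_nonneg_left (norm_nonneg _))

theorem expM_r2 (w₁ w₂ : ℕ → ℝ) (j : ℕ) : ExpM (r2 w₁ w₂ j) := by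
  exact (expM_gw _).prod (expM_gw _)

theorem expM_r3 (w₁ w₂ w₃ : ℕ → ℝ) (j : ℕ) : ExpM (r3 w₁ w₂ w₃ j) := by
  exact (expM_r2 _ _ _).prod (expM_gw _)

theorem expM_rq (q : ℕ → ℝ) (j : ℕ) : ExpM (rq q j) := expM_gw _
/-- coordinatewise scaled standard Gaussian vector -/
theorem expM_gp_mul {ι : Type} [Fintype ι] (w : ι → ℝ) :
    ExpM ((gp ι).map fun g => w * g) := by
  have hm : Measurable fun g : ι → ℝ => w * g := measurable_const_mul w
  refine ⟨Measure.isProbabilityMeasure_map hm.aemeasurable, fun c => ?_⟩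
  rw [integrable_map_measure (measurable_norm.const_mul c).exp.aestronglyMeasurable
    hm.aemeasurable]
  have h1 := Integrable.fintype_prod (μ := fun _ : ι => gaussianReal 0 1)
    (f := fun i z => exp (|c| * |w i| * |z|)) fun i => integrable_exp_abs_gauss _
  refine h1.mono' ((measurable_norm.const_mul c).exp.comp hm).aestronglyMeasurable
    (ae_of_all _ fun g => ?_)
  rw [Function.comp, Real.norm_of_nonneg (exp_pos _).le, ← exp_sum]
  refine exp_le_exp.2 ((mul_le_mul_of_nonneg_right (le_abs_self c) (norm_nonneg _)).trans ?_)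
  simp only [mul_assoc, ← Finset.mul_sum]
  refine mul_le_mul_of_nonneg_left ?_ (abs_nonneg c)
  refine (pi_norm_le_iff_of_nonneg (Finset.sum_nonneg fun i _ => by positivity)).2 fun i => ?_
  rw [Pi.mul_apply, Real.norm_eq_abs, abs_mul]
  exact Finset.single_le_sum (f := fun i => |w i| * |g i|) (fun i _ => by positivity)
    (Finset.mem_univ i)

theorem expM_gp_smul {ι : Type} [Fintype ι] (w : ℝ) : ExpM ((gp ι).map fun g => w • g) := by
  exact expM_gp_mul (fun _ => w)


end P157
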