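import Vale.Agent.P157.SC1
import Vale.Agent.P157.QSync

/-! P157 SC3: from the linearised cavity field to the tree field.
Plan. `∑ a, DD2 = A₁·z - A₁·A₁/2 + ε² T/2` with `A₁ ω c a = ε c/√(N+1) * f'(fld (G a) (sp c))`,
`A₁ c · A₁ c' = ε ε' QQ`, `|A₁|² ≤ B² α₁ K²`. All base averages lift from `S₀ × Leaf` to
`(S₀ × (ℝ×ℝ)) × Leaf` by `A1_comp`/`A2_comp`/`AC.comp` along `c ↦ (c.1.1, c.2)`.
(a) Replace `ε² T/2` by `ε² κ/2` (`abs_FE_sub_le_A1`, then `A1_gtilt_le` twice: once for `z`, once for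
`extra` via `extra_eq`; use `φ⁴ ≤ C φ²` or apply the lemma to `φ²`), and then by `ξ² κ/2`
(`abs_FE_sub_le`, `|ε² - ξ²| ≤ 2 B τ₀`). (b) `interp_lin` with base Hamiltonian
`SH + extra + ξ² κ/2` from `A₁` to `A₀ = ξ • tfeat (wq r)`;
`|ε ε' Q - ξ ξ' r_J| ≤ B² |Q - r_J| + 2 B τ₀ R`, and `A2_gtilt_le` transfers `A2 (Q - r_J)²` through
`extra`. (c) integrate out `ℝ × ℝ` (`FE_comp` with the reordering `((σ,z),l) ↦ ((σ,l),z)`, `FE_intout`,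
`integral_map` with `SpinData.law`): the Hamiltonian becomes `SH + G (tf (wq s') g₁ + tf (wq r) g₂)` with
`G y = log ∫ exp (t y - t² (r k + s' k - κ - 2x)/2) ∂νξ`, `B`-Lipschitz; finish with `AC.two`, `Rec_r2_add`,
`gw_congr`, `inc_add`, `wq_sq`, `parisi_eq_Rec`.
-/

open MeasureTheory ProbabilityTheory Real
open scoped BigOperators Matrix

namespace P157

section Abs
variable {Ω S : Type} [MeasurableSpace Ω] [MeasurableSpace S] {P : Measure Ω}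
  [IsProbabilityMeasure P] {μ : Measure S} [IsProbabilityMeasure μ]
  {H : Ω → S → ℝ} {ι ι₁ ι₀ : Type} [Fintype ι] [Fintype ι₁] [Fintype ι₀] {E : Ω → S → ι → ℝ}
  {A₁ : Ω → S → ι₁ → ℝ} {A₀ : Ω → S → ι₀ → ℝ} {V d C u : ℝ}

theorem sc3_four {a C : ℝ} (h : |a| ≤ C) : (a ^ 2) ^ 2 ≤ C ^ 2 * a ^ 2 := by
  have h1 : a ^ 2 ≤ C ^ 2 := by
    rw [← sq_abs]
    exact pow_le_pow_left₀ (abs_nonneg _) h 2
  rw [sq (a ^ 2)]
  exact mul_le_mul_of_nonneg_right h1 (sq_nonneg _)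

theorem sc3_bdsq {φ : Ω → S → ℝ} (h : Bd1 φ C) : Bd1 (fun ω σ => φ ω σ ^ 2) (C ^ 2) := by
  simpa only [sq] using h.mul h

theorem sc3_tr1 (h : Good P H) (hE : Feat E) (hV : ∀ ω σ, E ω σ ⬝ᵥ E ω σ ≤ V)
    {D : Ω × (ι → ℝ) → S → ℝ} (hD : Bd1 D d) {φ : Ω → S → ℝ} (hφ : Bd1 φ C)
    (hu : A1 P μ H (fun ω σ => φ ω σ ^ 2) ≤ u) :
    A1 (P.prod (gp ι)) μ (fun ω σ => H ω.1 σ + E ω.1 σ ⬝ᵥ ω.2 + D ω σ)
      (fun ω σ => φ ω.1 σ ^ 2) ≤ exp (4 * d + 16 * V) * √(C ^ 2 * u) := by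
  have h1 := A1_gtilt_le (μ := μ) h hE hV hD (sc3_bdsq hφ)
  have h2 := A1_mono (μ := μ) h (sc3_bdsq (sc3_bdsq hφ)).good
    ((sc3_bdsq hφ).good.const_mul (C ^ 2)) fun ω σ => sc3_four (hφ.bdd ω σ)
  rw [A1_const_mul] at h2
  simp only [abs_sq] at h1
  exact h1.trans (mul_le_mul_of_nonneg_left (sqrt_le_sqrt
    (h2.trans (mul_le_mul_of_nonneg_left hu (sq_nonneg _)))) (exp_pos _).le)

theorem sc3_tr2 (h : Good P H) (hE : Feat E) (hV : ∀ ω σ, E ω σ ⬝ᵥ E ω σ ≤ V)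
    {D : Ω × (ι → ℝ) → S → ℝ} (hD : Bd1 D d) {Φ : Ω → S → S → ℝ} (hΦ : Bd2 Φ C)
    (hu : A2 P μ H (fun ω σ σ' => Φ ω σ σ' ^ 2) ≤ u) :
    A2 (P.prod (gp ι)) μ (fun ω σ => H ω.1 σ + E ω.1 σ ⬝ᵥ ω.2 + D ω σ)
      (fun ω σ σ' => Φ ω.1 σ σ' ^ 2) ≤ exp (4 * d + 16 * V) * √(C ^ 2 * u) := by
  have h1 := A2_gtilt_le (μ := μ) h hE hV hD hΦ.sq
  have h2 := A2_mono (μ := μ) h hΦ.sq.sq.good2
    (hΦ.sq.good2.const_mul (C ^ 2)) fun ω σ σ' => sc3_four (hΦ.bdd ω σ σ')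
  rw [A2_const_mul] at h2
  simp only [abs_sq] at h1
  exact h1.trans (mul_le_mul_of_nonneg_left (sqrt_le_sqrt
    (h2.trans (mul_le_mul_of_nonneg_left hu (sq_nonneg _)))) (exp_pos _).le)

theorem sc3_half (hA : Feat A₁) (hV : ∀ ω σ, A₁ ω σ ⬝ᵥ A₁ ω σ ≤ V) :
    Bd1 (fun ω σ => -(A₁ ω σ ⬝ᵥ A₁ ω σ / 2)) V := by
  obtain ⟨C, hC⟩ := hA.bd1 hA
  refine ⟨(hC.meas.div_const 2).neg, fun ω σ => ?_⟩
  have h1 := ic_dot_nonneg (A₁ ω σ)
  have h2 := hV ω σ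
  rw [abs_le]
  constructor <;> linarith

theorem sc3_abs (h : Good P H) (hE : Feat E) (h₁ : Feat A₁) (h₀ : Feat A₀)
    (hV : ∀ ω σ, E ω σ ⬝ᵥ E ω σ ≤ V) (hV₁ : ∀ ω σ, A₁ ω σ ⬝ᵥ A₁ ω σ ≤ V)
    (hV₀ : ∀ ω σ, A₀ ω σ ⬝ᵥ A₀ ω σ ≤ V) {D δ : Ω → S → ℝ} (hD : Bd1 D (2 * V)) (hδ : Bd1 δ V)
    (hV0 : 0 ≤ V) (hu : A1 P μ H (fun ω σ => δ ω σ ^ 2) ≤ u)
    (hu' : A2 P μ H (fun ω σ σ' => (A₁ ω σ ⬝ᵥ A₁ ω σ' - A₀ ω σ ⬝ᵥ A₀ ω σ') ^ 2) ≤ u) :
    |FE ((P.prod (gp ι)).prod (gp ι₁)) μ (fun ω σ => H ω.1.1 σ + E ω.1.1 σ ⬝ᵥ ω.1.2 + D ω.1.1 σ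
        + A₁ ω.1.1 σ ⬝ᵥ ω.2 - A₁ ω.1.1 σ ⬝ᵥ A₁ ω.1.1 σ / 2 + δ ω.1.1 σ) -
      FE ((P.prod (gp ι)).prod (gp ι₀)) μ (fun ω σ => H ω.1.1 σ + E ω.1.1 σ ⬝ᵥ ω.1.2 + D ω.1.1 σ
        + A₀ ω.1.1 σ ⬝ᵥ ω.2 - A₀ ω.1.1 σ ⬝ᵥ A₀ ω.1.1 σ / 2)| ≤
      2 * (exp (22 * V) * √(exp (24 * V) * √((2 * V) ^ 2 * u))) := by
  have hD' : Bd1 (fun (ω : Ω × (ι → ℝ)) σ => D ω.1 σ) (2 * V) :=
    hD.comp measurable_fst measurable_id
  have hδ' : Bd1 (fun (ω : Ω × (ι → ℝ)) σ => δ ω.1 σ) V := hδ.comp measurable_fst measurable_id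
  have hg : Good (P.prod (gp ι)) (fun ω σ => H ω.1 σ + E ω.1 σ ⬝ᵥ ω.2 + D ω.1 σ) :=
    ((h.fst _).add hE.good).add hD'.good
  have h₁' : Feat (fun (ω : Ω × (ι → ℝ)) σ => A₁ ω.1 σ) := h₁.comp measurable_fst measurable_id
  have h₀' : Feat (fun (ω : Ω × (ι → ℝ)) σ => A₀ ω.1 σ) := h₀.comp measurable_fst measurable_id
  obtain ⟨C, hC⟩ := ic_bd h₁ h₀
  have hΦ : Bd2 (fun ω σ σ' => A₁ ω σ ⬝ᵥ A₁ ω σ' - A₀ ω σ ⬝ᵥ A₀ ω σ') (2 * V) :=
    ⟨hC.meas, fun ω σ σ' => (gb_sub (ic_abs_dot (hV₁ ω σ) (hV₁ ω σ'))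
      (ic_abs_dot (hV₀ ω σ) (hV₀ ω σ'))).trans (two_mul V).ge⟩
  have e24 : 4 * (2 * V) + 16 * V = 24 * V := by ring
  have t1 := sc3_tr1 h hE hV hD' (hδ.mono (by linarith : V ≤ 2 * V)) hu
  have t2 := sc3_tr2 h hE hV hD' hΦ hu'
  rw [e24] at t1 t2
  have i2 := (interp_lin (μ := μ) hg h₁' h₀' (fun ω σ => hV₁ ω.1 σ) fun ω σ => hV₀ ω.1 σ).trans
    (mul_le_mul_of_nonneg_left (sqrt_le_sqrt t2) (exp_pos _).le)
  have hh : Bd1 (fun (ω : (Ω × (ι → ℝ)) × (ι₁ → ℝ)) σ => -(A₁ ω.1.1 σ ⬝ᵥ A₁ ω.1.1 σ / 2)) V :=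
    (sc3_half h₁ hV₁).comp (measurable_fst.comp measurable_fst) measurable_id
  have i0 := (A1_gtilt_le (μ := μ) hg h₁' (fun ω σ => hV₁ ω.1 σ) hh hδ').trans
    (mul_le_mul_of_nonneg_left (sqrt_le_sqrt t1) (exp_pos _).le)
  have i1 := (abs_FE_sub_le_A1 (μ := μ) (((hg.fst (gp ι₁)).add h₁'.good).add hh.good)
    (hδ'.comp measurable_fst measurable_id)).trans (mul_le_mul_of_nonneg_left i0 (exp_pos _).le)
  simp only [← sub_eq_add_neg, id] at i1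
  rw [← mul_assoc, ← exp_add, show 2 * V + (4 * V + 16 * V) = 22 * V by ring] at i1
  have i3 := i2.trans (mul_le_mul_of_nonneg_right
    (exp_le_exp.2 (by linarith : 20 * V ≤ 22 * V)) (sqrt_nonneg _))
  have := (abs_sub_le _ _ _).trans (add_le_add i1 i3)
  linarith

end Abs

theorem sc3_small (c₁ c₂ W : ℝ) {τ : ℝ} (hτ : 0 < τ) :
    ∃ t : ℝ, 0 < t ∧ t ≤ 1 ∧ c₁ * √(c₂ * √(W * t)) + t ≤ τ := by
  have hc : Continuous fun t : ℝ => c₁ * √(c₂ * √(W * t)) + t := by fun_prop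
  have h1 : ∀ᶠ t in nhds (0 : ℝ), c₁ * √(c₂ * √(W * t)) + t < τ :=
    hc.continuousAt.eventually_lt continuousAt_const (by simpa using hτ)
  have h2 : ∀ᶠ t in nhds (0 : ℝ), t < 1 := eventually_lt_nhds one_pos
  obtain ⟨t, ⟨h3, h4⟩, h5⟩ := (((h1.and h2).filter_mono
    (nhdsWithin_le_nhds (s := Set.Ioi 0))).and self_mem_nhdsWithin).exists
  exact ⟨t, h5, h4.le, h3.le⟩

section Lift
variable {Ω S S' : Type} [MeasurableSpace Ω] [MeasurableSpace S] [MeasurableSpace S']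
  {P : Measure Ω} [IsProbabilityMeasure P] {μ : Measure S} [IsProbabilityMeasure μ]
  {μ' : Measure S'} [IsProbabilityMeasure μ'] {H : Ω → S → ℝ} {q : S' → S} {C C' a c η : ℝ}

theorem sc3_lift1 (h : Good P H) (hq : MeasurePreserving q μ' μ) {φ : Ω → S → ℝ} (hφ : Bd1 φ C)
    {ψ : Ω → S' → ℝ} (hψ : Bd1 ψ C') (ha : 0 ≤ a)
    (hle : ∀ ω σ, ψ ω σ ^ 2 ≤ a * φ ω (q σ) ^ 2 + c)
    (hu : A1 P μ H (fun ω σ => φ ω σ ^ 2) ≤ η) :
    A1 P μ' (fun ω σ => H ω (q σ)) (fun ω σ => ψ ω σ ^ 2) ≤ a * η + c := by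
  have h' := h.comp (MeasurePreserving.id P) hq.measurable
  have h1 := A1_comp h (sc3_bdsq hφ).good (MeasurePreserving.id P) hq
  have h2 := ((sc3_bdsq hφ).good.comp (MeasurePreserving.id P) hq.measurable).const_mul a
  have h3 := A1_mono (μ := μ') h' (sc3_bdsq hψ).good (h2.add (Good.const c)) hle
  rw [A1_add h' h2 (Good.const c), A1_const h', A1_const_mul, h1] at h3
  exact h3.trans (add_le_add (mul_le_mul_of_nonneg_left hu ha) le_rfl)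

theorem sc3_lift2 (h : Good P H) (hq : MeasurePreserving q μ' μ) {φ : Ω → S → S → ℝ}
    (hφ : Bd2 φ C) {ψ : Ω → S' → S' → ℝ} (hψ : Bd2 ψ C') (ha : 0 ≤ a)
    (hle : ∀ ω σ σ', ψ ω σ σ' ^ 2 ≤ a * φ ω (q σ) (q σ') ^ 2 + c)
    (hu : A2 P μ H (fun ω σ σ' => φ ω σ σ' ^ 2) ≤ η) :
    A2 P μ' (fun ω σ => H ω (q σ)) (fun ω σ σ' => ψ ω σ σ' ^ 2) ≤ a * η + c := by
  have h' := h.comp (MeasurePreserving.id P) hq.measurable
  have h1 := A2_comp h hφ.sq.good2 (MeasurePreserving.id P) hq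
  have h2 := (hφ.sq.good2.comp (MeasurePreserving.id P) hq.measurable).const_mul a
  have hc := (Good.const (P := P) (S := S') c).fst2
  have h3 := A2_mono (μ := μ') h' hψ.sq.good2 (h2.add hc) hle
  rw [A2_add h' h2 hc, A2_const h', A2_const_mul, h1] at h3
  exact h3.trans (add_le_add (mul_le_mul_of_nonneg_left hu ha) le_rfl)

end Lift

variable {S₀ : Type} [MeasurableSpace S₀] {N L k n₀ M : ℕ} {μ : Measure S₀}
  [IsProbabilityMeasure μ] {sp : S₀ → Fin N → ℝ} {f : ℝ → ℝ} {K : ℝ} {m : ℕ → ℝ} {b : TT n₀ k → ℝ}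
variable {B τ₀ : ℝ} {νξ : Measure ℝ} {ν : Measure (ℝ × ℝ)} {ε ξ : ℝ × ℝ → ℝ} {s' : ℕ → ℝ} {x : ℝ}

theorem sc3_law (hd : SpinData B τ₀ νξ ν ε ξ) (c y : ℝ) :
    ∫ t, exp (t * y - t ^ 2 * c / 2) ∂νξ = ∫ z, exp (ξ z * y - ξ z ^ 2 * c / 2) ∂ν := by
  rw [← hd.law, integral_map hd.mξ.aemeasurable (Measurable.aestronglyMeasurable (by fun_prop))]

theorem psiNu_env (hd : SpinData B τ₀ νξ ν ε ξ) (c : ℝ) :
    Env (fun y => log (∫ t, exp (t * y - t ^ 2 * c / 2) ∂νξ)) B := by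
  have := hd.prob
  have hm := hd.mξ
  have hB : 0 ≤ B := (abs_nonneg _).trans (hd.bξ 0)
  simp only [sc3_law hd]
  have hi : ∀ y, Integrable (fun z => exp (ξ z * y - ξ z ^ 2 * c / 2)) ν := fun y =>
    gc_exp (by fun_prop) (C := B * |y| + B ^ 2 * |c| / 2) fun z => by
      refine gb_sub (gb_mul (hd.bξ z) le_rfl) ?_
      rw [abs_div, abs_two]
      refine div_le_div_of_nonneg_right (gb_mul ?_ le_rfl) zero_le_two
      rw [abs_pow]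
      exact pow_le_pow_left₀ (abs_nonneg _) (hd.bξ z) 2
  have hle : ∀ y y', log (∫ z, exp (ξ z * y - ξ z ^ 2 * c / 2) ∂ν) ≤
      log (∫ z, exp (ξ z * y' - ξ z ^ 2 * c / 2) ∂ν) + B * ‖y - y'‖ := fun y y' => by
    have h1 := integral_mono (hi y) ((hi y').mul_const (exp (B * ‖y - y'‖))) fun z => by
      have h2 := (abs_le.1 (gb_mul (hd.bξ z) (le_refl |y - y'|))).2
      rw [← exp_add, Real.norm_eq_abs]
      exact exp_le_exp.2 (by linarith)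
    rw [integral_mul_const] at h1
    have h3 := log_le_log (integral_exp_pos (hi y)) h1
    rwa [log_mul (integral_exp_pos (hi y')).ne' (exp_pos _).ne', log_exp] at h3
  refine Env.of_lip (Measurable.log ?_) hB fun y y' => ?_
  · exact (StronglyMeasurable.integral_prod_right' (f := fun p : ℝ × (ℝ × ℝ) =>
      exp (ξ p.2 * p.1 - ξ p.2 ^ 2 * c / 2)) (Measurable.stronglyMeasurable (by fun_prop))).measurable
  · have h1 := hle y y'
    have h2 := hle y' y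
    rw [norm_sub_rev] at h2
    rw [abs_le]
    constructor <;> linarith

theorem sc3_reord {α β γ : Type} [MeasurableSpace α] [MeasurableSpace β] [MeasurableSpace γ]
    (a : Measure α) (b : Measure β) (c : Measure γ) [IsProbabilityMeasure a]
    [IsProbabilityMeasure b] [IsProbabilityMeasure c] :
    MeasurePreserving (fun y : (α × β) × γ => ((y.1.1, y.2), y.1.2)) ((a.prod b).prod c)
      ((a.prod c).prod b) :=
  ((measurePreserving_prodAssoc a c b).symm _).comp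
    (((MeasurePreserving.id a).prod Measure.measurePreserving_swap).comp
      (measurePreserving_prodAssoc a b c))

theorem sc3_drop {α β γ : Type} [MeasurableSpace α] [MeasurableSpace β] [MeasurableSpace γ]
    (a : Measure α) (b : Measure β) (c : Measure γ) [IsProbabilityMeasure a]
    [IsProbabilityMeasure b] [IsProbabilityMeasure c] :
    MeasurePreserving (fun y : (α × β) × γ => (y.1.1, y.2)) ((a.prod b).prod c) (a.prod c) :=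
  measurePreserving_fst.prod (MeasurePreserving.id c)

theorem sc3_env2 {G : ℝ → ℝ} {C : ℝ} (h : Env G C) : Env (fun y : ℝ × ℝ => G (y.1 + y.2)) (C * 2) :=
  h.comp (q := fun y : ℝ × ℝ => y.1 + y.2) (measurable_fst.add measurable_snd) one_le_two
    fun y y' => by
    have h1 := norm_fst_le (y - y')
    have h2 := norm_snd_le (y - y')
    have h3 := norm_add_le (y - y').1 (y - y').2
    have e : y.1 + y.2 - (y'.1 + y'.2) = (y - y').1 + (y - y').2 := by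
      simp only [Prod.fst_sub, Prod.snd_sub]
      ring
    rw [e]
    linarith

theorem sc3_c (hk : IsPartition k m) (h : IsSp sp) (hL : 0 < L) (hf : NiceK f K)
    (hd : SpinData B τ₀ νξ ν ε ξ) {B' η : ℝ} (hA : SAC L k n₀ M f m μ sp b B' η) {r : ℕ → ℝ}
    (hr : IsPath k r) (hs : IsPath k s') (hw : ∀ j ≤ k, |wq s' j| ≤ B' ∧ |wq r j| ≤ B')
    (hB : B * 2 ≤ B') (κ : ℝ) :
    |FE (((SP L k n₀ N M m).prod (gp (Nd L k))).prod (gp (Nd L k))) ((μ.prod ν).prod (unif L k))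
        (fun ω c => SH f m sp b ω.1.1 (c.1.1, c.2) +
          (ξ c.1.2 * (tf (wq s') ω.1.2 c.2 + tf (wq r) ω.2 c.2)
            - ξ c.1.2 ^ 2 * (r k + s' k - κ) / 2))
      - SW L k n₀ M f m μ sp b - psiNu νξ k m (fun i => r i + s' i) κ| ≤ η := by
  have := unif_prob hL k
  have := hd.prob
  have hg := SH_good (L := L) (M := M) (m := m) (b := b) h hf.meas hf.c0.b0
  have hG := psiNu_env hd (r k + s' k - κ)
  have h1 := AC.two hA hk hg measurable_snd hw ((sc3_env2 hG).mono hB)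
  have e1 : Rec m (r2 (wq s') (wq r)) (fun y : ℝ × ℝ =>
      log (∫ t, exp (t * (y.1 + y.2) - t ^ 2 * (r k + s' k - κ) / 2) ∂νξ)) (k + 1) 0 0 =
      psiNu νξ k m (fun i => r i + s' i) κ := by
    refine (Rec_r2_add hk hG).trans (Eq.trans ?_ (parisi_eq_Rec hk hG).symm)
    refine congrFun (Rec_congr fun i hi => ⟨rfl, ?_⟩) 0
    have hi' : i ≤ k := Nat.lt_succ_iff.1 hi
    rw [zero_add, wq_sq hs hi', wq_sq hr hi', rq, inc_add, add_comm]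
  rw [e1] at h1
  have hξ : Bd1 (fun (_ : (SO L k n₀ N M × (Nd L k → ℝ)) × (Nd L k → ℝ))
      (c : (S₀ × (ℝ × ℝ)) × Leaf L k) => ξ c.1.2) B :=
    ⟨hd.mξ.comp (measurable_snd.comp (measurable_fst.comp measurable_snd)), fun _ c => hd.bξ _⟩
  have hΘ : Good (((SP L k n₀ N M m).prod (gp (Nd L k))).prod (gp (Nd L k)))
      (fun ω (c : (S₀ × (ℝ × ℝ)) × Leaf L k) => ξ c.1.2 * (tf (wq s') ω.1.2 c.2 + tf (wq r) ω.2 c.2)
        - ξ c.1.2 ^ 2 * (r k + s' k - κ) / 2) := by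
    refine (Good.bd_mul hξ (((good_tf0 measurable_snd _).fst _).add (good_tf0 measurable_snd _))).sub ?_
    have h2 := ((sc3_bdsq hξ).good (P := ((SP L k n₀ N M m).prod (gp (Nd L k))).prod
      (gp (Nd L k)))).const_mul ((r k + s' k - κ) / 2)
    refine cast (congrArg _ ?_) h2
    funext ω c
    ring
  have hq := sc3_reord μ (unif L k) ν
  have hH := (((hg.fst (gp (Nd L k))).fst (gp (Nd L k))).comp (MeasurePreserving.id _)
    (sc3_drop μ ν (unif L k)).measurable).add hΘ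
  have h2 := FE_comp hH (MeasurePreserving.id _) hq
  have h3 := (FE_intout (μ := μ.prod (unif L k)) (μ' := ν) ((hg.fst (gp (Nd L k))).fst (gp (Nd L k)))
    (hΘ.comp (MeasurePreserving.id _) hq.measurable)).1
  simp only [id] at h2 h3
  simp only [sc3_law hd] at h1
  rw [← h2, h3]
  exact h1

theorem sc3_dot (e e' : ℝ) (u v : Fin M → ℝ) :
    (fun a => e / √((N : ℝ) + 1) * u a) ⬝ᵥ (fun a => e' / √((N : ℝ) + 1) * v a) =
      e * e' * ((∑ a, u a * v a) / ((N : ℝ) + 1)) := by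
  have h : √((N : ℝ) + 1) * √((N : ℝ) + 1) = (N : ℝ) + 1 := mul_self_sqrt (by positivity)
  unfold dotProduct
  rw [Finset.sum_div, Finset.mul_sum]
  refine Finset.sum_congr rfl fun a _ => ?_
  rw [mul_mul_mul_comm, div_mul_div_comm, h]
  ring

theorem sc3_DD2 (e : ℝ) (S z : Fin M → ℝ) :
    ∑ a, DD2 f (e / √((N : ℝ) + 1)) (S a) (z a) =
      (fun a => e / √((N : ℝ) + 1) * deriv f (S a)) ⬝ᵥ z
        - (fun a => e / √((N : ℝ) + 1) * deriv f (S a)) ⬝ᵥ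
          (fun a => e / √((N : ℝ) + 1) * deriv f (S a)) / 2
        + e ^ 2 * ((∑ a, theta f (S a)) / ((N : ℝ) + 1)) / 2 := by
  have h : (e / √((N : ℝ) + 1)) ^ 2 = e ^ 2 / ((N : ℝ) + 1) := by
    rw [div_pow, sq_sqrt (by positivity)]
  unfold dotProduct DD2
  rw [Finset.sum_div, Finset.sum_div, Finset.mul_sum, Finset.sum_div, ← Finset.sum_sub_distrib,
    ← Finset.sum_add_distrib]
  refine Finset.sum_congr rfl fun a _ => ?_
  rw [mul_mul_mul_comm, ← sq, ← sq, h]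
  ring

theorem sc3_prod {B τ₀ e e' x x' : ℝ} (he' : |e'| ≤ B) (hx : |x| ≤ B) (h : |e - x| ≤ τ₀)
    (h' : |e' - x'| ≤ τ₀) : |e * e' - x * x'| ≤ 2 * B * τ₀ := by
  have h1 := gb_add (gb_mul h he') (gb_mul hx h')
  rw [show (e - x) * e' + x * (e' - x') = e * e' - x * x' by ring] at h1
  linarith

theorem sc3_sq {B τ₀ R e e' x x' Q r : ℝ} (he : |e| ≤ B) (he' : |e'| ≤ B) (hx : |x| ≤ B)
    (h : |e - x| ≤ τ₀) (h' : |e' - x'| ≤ τ₀) (hr : |r| ≤ R) :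
    (e * e' * Q - x * x' * r) ^ 2 ≤ 2 * B ^ 4 * (Q - r) ^ 2 + 8 * (B * τ₀ * R) ^ 2 := by
  have h1 := pow_le_pow_left₀ (abs_nonneg _) (gb_mul (sc3_prod he' hx h h') hr) 2
  have h2 := mul_le_mul_of_nonneg_right (pow_le_pow_left₀ (abs_nonneg _) (gb_mul he he') 2)
    (sq_nonneg (Q - r))
  rw [sq_abs] at h1 h2
  have e1 : e * e' * Q - x * x' * r = e * e' * (Q - r) + (e * e' - x * x') * r := by ring
  rw [e1]
  nlinarith [sq_nonneg (e * e' * (Q - r) - (e * e' - x * x') * r)]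

theorem sc3_sqle {a B : ℝ} (h : |a| ≤ B) : a ^ 2 ≤ B ^ 2 := by
  rw [← sq_abs]
  exact pow_le_pow_left₀ (abs_nonneg _) h 2

theorem sc3_tdot {q : ℕ → ℝ} (hq : IsPath k q) (a a' : ℝ) (l l' : Leaf L k) :
    (a • tfeat (wq q) l) ⬝ᵥ (a' • tfeat (wq q) l') = a * a' * q (cj l l') := by
  rw [smul_dotProduct, dotProduct_smul, tfeat_wq hq, smul_eq_mul, smul_eq_mul, mul_assoc]

theorem sc3_feat (h : IsSp sp) (hf : NiceK f K) (hd : SpinData B τ₀ νξ ν ε ξ) :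
    Feat (fun (ω : SO L k n₀ N M) (c : (S₀ × (ℝ × ℝ)) × Leaf L k) (a : Fin M) =>
      ε c.1.2 / √((N : ℝ) + 1) * deriv f (fld (ω.1.2 a) (sp c.1.1))) := by
  refine ⟨fun a => ?_, B / √((N : ℝ) + 1) * K, fun ω c a => gb_mul ?_ (hf.c0.b1 _)⟩
  · have h1 := measurable_fld (Ω := SO L k n₀ N M) h (e := fun ω => ω.1.2 a) (by fun_prop)
    exact ((hd.mε.comp (measurable_snd.comp (measurable_fst.comp measurable_snd))).div_const _).mul
      ((measurable_deriv f).comp (h1.comp (measurable_fst.prodMk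
        (measurable_fst.comp (measurable_fst.comp measurable_snd)))))
  · rw [abs_div, abs_of_nonneg (sqrt_nonneg _)]
    exact div_le_div_of_nonneg_right (hd.bε _) (sqrt_nonneg _)

theorem sc3_ab (h : IsSp sp) (hL : 0 < L) (hf : NiceK f K) (hd : SpinData B τ₀ νξ ν ε ξ)
    {a R η V : ℝ} (hM : M / ((N : ℝ) + 1) ≤ a) {r : ℕ → ℝ} (hr : IsPath k r) (hrR : r k ≤ R)
    {κ : ℝ} (hκ : |κ| ≤ R) (hs : IsPath k s') (hs1 : s' k ≤ 1) (hx : |x| ≤ 1)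
    (hV : V = B ^ 2 * (a * K ^ 2 + R + 1))
    (hQ : SA2 L k n₀ M f m μ sp b (fun ω c c' =>
        (QQ f ω.1.2 (sp c.1) (sp c'.1) - r (cj c.2 c'.2)) ^ 2) ≤ η)
    (hT : SA1 L k n₀ M f m μ sp b (fun ω c => (TQ f ω.1.2 (sp c.1) - κ) ^ 2) ≤ η) :
    |SX (DD2 f) L k n₀ M f m μ sp b ν ε ξ s' x -
      FE (((SP L k n₀ N M m).prod (gp (Nd L k))).prod (gp (Nd L k))) ((μ.prod ν).prod (unif L k))
        (fun ω c => SH f m sp b ω.1.1 (c.1.1, c.2) +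
          (ξ c.1.2 * (tf (wq s') ω.1.2 c.2 + tf (wq r) ω.2 c.2)
            - ξ c.1.2 ^ 2 * (r k + s' k - (κ + 2 * x)) / 2))| ≤
      2 * (exp (22 * V) * √(exp (24 * V) *
        √((2 * V) ^ 2 * (2 * B ^ 4 * η + 8 * (B * τ₀ * R) ^ 2)))) := by
  have := unif_prob hL k
  have := hd.prob
  have hg := SH_good (L := L) (M := M) (m := m) (b := b) h hf.meas hf.c0.b0
  have hq := sc3_drop μ ν (unif L k)
  have hK := hf.one_le
  have hR : 0 ≤ R := (abs_nonneg _).trans hκ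
  have hB : 0 ≤ B := (abs_nonneg _).trans (hd.bξ 0)
  have ha : 0 ≤ a := le_trans (by positivity) hM
  have hB2 := sq_nonneg B
  have haK : 0 ≤ B ^ 2 * (a * K ^ 2) := by positivity
  have hBR : 0 ≤ B ^ 2 * R := by positivity
  have hV' : V = B ^ 2 * (a * K ^ 2) + B ^ 2 * R + B ^ 2 := by rw [hV]; ring
  have hξ : Bd1 (fun (_ : SO L k n₀ N M) (c : (S₀ × (ℝ × ℝ)) × Leaf L k) => ξ c.1.2) B :=
    ⟨hd.mξ.comp (measurable_snd.comp (measurable_fst.comp measurable_snd)), fun _ c => hd.bξ _⟩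
  have hε : Bd1 (fun (_ : SO L k n₀ N M) (c : (S₀ × (ℝ × ℝ)) × Leaf L k) => ε c.1.2) B :=
    ⟨hd.mε.comp (measurable_snd.comp (measurable_fst.comp measurable_snd)), fun _ c => hd.bε _⟩
  have hE := (feat_tfeat (Ω := SO L k n₀ N M) measurable_snd (wq s')).bd_smul hξ
  have h₀ := (feat_tfeat (Ω := SO L k n₀ N M) measurable_snd (wq r)).bd_smul hξ
  have h₁ := sc3_feat (L := L) (k := k) (n₀ := n₀) (M := M) h hf hd
  have hr0 : ∀ l l' : Leaf L k, |r (cj l l')| ≤ R := fun l l' => by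
    rw [abs_of_nonneg (hr.nonneg (cj_le l l'))]
    exact (hr.mono_le (cj_le l l') le_rfl).trans hrR
  have hQb := (bd2_QQ (L := L) (k := k) (n₀ := n₀) (M := M) h hf).mono
    (mul_le_mul_of_nonneg_right hM (sq_nonneg K))
  have hTb := (bd1_TQ (L := L) (k := k) (n₀ := n₀) (M := M) h hf).mono
    ((mul_le_mul_of_nonneg_right hM (zero_le_one.trans hK)).trans
      (mul_le_mul_of_nonneg_left (by nlinarith : K ≤ K ^ 2) ha))
  have hD : Bd1 (fun (_ : SO L k n₀ N M) (c : (S₀ × (ℝ × ℝ)) × Leaf L k) =>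
      (κ / 2 + x - s' k / 2) * ξ c.1.2 ^ 2) (2 * V) := by
    refine ((sc3_bdsq hξ).const_mul _).mono ?_
    have h1 : |κ / 2 + x - s' k / 2| ≤ R + 2 := by
      have := hs.nonneg le_rfl
      have := abs_le.1 hκ
      have := abs_le.1 hx
      rw [abs_le]
      constructor <;> linarith
    have := mul_le_mul_of_nonneg_right h1 hB2
    linarith
  have hδ : Bd1 (fun (ω : SO L k n₀ N M) (c : (S₀ × (ℝ × ℝ)) × Leaf L k) =>
      2⁻¹ * (ε c.1.2 * ε c.1.2 * TQ f ω.1.2 (sp c.1.1) - ξ c.1.2 * ξ c.1.2 * κ)) V := by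
    refine ((((hε.mul hε).mul (hTb.comp measurable_id hq.measurable)).sub
      ((hξ.mul hξ).mul (Bd1.const κ))).const_mul 2⁻¹).mono ?_
    have := mul_le_mul_of_nonneg_left hκ hB2
    rw [abs_of_nonneg (by norm_num), ← sq]
    linarith
  obtain ⟨C, hC⟩ := ic_bd h₁ h₀
  have hB4 : 0 ≤ 2 * B ^ 4 := by positivity
  have u1 := sc3_lift1 hg hq (hTb.sub (Bd1.const κ)) hδ hB4 (c := 8 * (B * τ₀ * R) ^ 2)
    (fun ω c => by
      have h1 := sc3_sq (Q := TQ f ω.1.2 (sp c.1.1)) (hd.bε c.1.2) (hd.bε c.1.2) (hd.bξ c.1.2)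
        (hd.close _) (hd.close _) hκ
      refine le_trans ?_ h1
      rw [mul_pow]
      exact mul_le_of_le_one_left (sq_nonneg _) (by norm_num)) hT
  have u2 := sc3_lift2 hg hq (hQb.sub (bd2_leaf measurable_snd (fun l l' => r (cj l l')) hr0)) hC hB4
    (c := 8 * (B * τ₀ * R) ^ 2) (fun ω c c' => by
      rw [sc3_dot, sc3_tdot hr]
      exact sc3_sq (hd.bε _) (hd.bε _) (hd.bξ _) (hd.close _) (hd.close _) (hr0 _ _)) hQ
  have key := sc3_abs (μ := (μ.prod ν).prod (unif L k))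
    (hg.comp (MeasurePreserving.id _) hq.measurable) hE h₁ h₀ (V := V)
    (fun ω c => by
      rw [sc3_tdot hs, cj_self, ← sq]
      have := mul_le_mul (sc3_sqle (hd.bξ c.1.2)) hs1 (hs.nonneg le_rfl) hB2
      linarith)
    (fun ω c => by
      rw [sc3_dot, ← sq]
      have := mul_le_mul (sc3_sqle (hd.bε c.1.2))
        (hQb.bdd ω (c.1.1, c.2) (c.1.1, c.2)) (abs_nonneg _) hB2
      have h2 := mul_le_mul_of_nonneg_left (le_abs_self (QQ f ω.1.2 (sp c.1.1) (sp c.1.1)))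
        (sq_nonneg (ε c.1.2))
      exact h2.trans (by linarith))
    (fun ω c => by
      rw [sc3_tdot hr, cj_self, ← sq]
      have := mul_le_mul (sc3_sqle (hd.bξ c.1.2)) hrR (hr.nonneg le_rfl) hB2
      linarith) hD hδ (by linarith) u1 u2
  refine le_trans (le_of_eq ?_) key
  unfold SX
  refine congrArg _ (congrArg₂ _ (congrArg _ ?_) (congrArg _ ?_))
  · funext ω c
    rw [sc3_DD2, extra, smul_dotProduct, ← tf_eq_dot, TQ, smul_eq_mul, id]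
    ring
  · funext ω c
    rw [sc3_tdot hr, cj_self, smul_dotProduct, smul_dotProduct, ← tf_eq_dot, ← tf_eq_dot,
      smul_eq_mul, smul_eq_mul, id]
    ring

theorem sc3 {f : ℝ → ℝ} {K : ℝ} (hf : NiceK f K) (α₁ R : ℝ) {B : ℝ} (hB : 1 ≤ B) {τ : ℝ}
    (hτ : 0 < τ) : ∃ η B' τ₀ : ℝ, 0 < η ∧ 0 < τ₀ ∧ ∀ {k : ℕ} {m : ℕ → ℝ} (_ : IsPartition k m)
      {N : ℕ} (_ : 0 < N) {S₀ : Type} [MeasurableSpace S₀] {L n₀ M : ℕ} {μ : Measure S₀} [IsProbabilityMeasure μ]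
      {sp : S₀ → Fin N → ℝ} (_ : IsSp sp) (_ : 0 < L) {b : TT n₀ k → ℝ}
      (_ : (M : ℝ) ≤ α₁ * N) {r : ℕ → ℝ} (_ : IsPath k r) (_ : r k ≤ R) {κ : ℝ} (_ : |κ| ≤ R)
      (_ : SA2 L k n₀ M f m μ sp b (fun ω c c' =>
        (QQ f ω.1.2 (sp c.1) (sp c'.1) - r (cj c.2 c'.2)) ^ 2) ≤ η)
      (_ : SA1 L k n₀ M f m μ sp b (fun ω c => (TQ f ω.1.2 (sp c.1) - κ) ^ 2) ≤ η)
      (_ : SAC L k n₀ M f m μ sp b B' η) {νξ : Measure ℝ} {ν : Measure (ℝ × ℝ)}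
      {ε ξ : ℝ × ℝ → ℝ} (_ : SpinData B τ₀ νξ ν ε ξ) {s' : ℕ → ℝ} (_ : IsPath k s') (_ : s' k ≤ 1)
      {x : ℝ} (_ : |x| ≤ 1),
      |SX (DD2 f) L k n₀ M f m μ sp b ν ε ξ s' x - SW L k n₀ M f m μ sp b
        - psiNu νξ k m (fun i => r i + s' i) (κ + 2 * x)| ≤ τ := by
  obtain ⟨V, hV⟩ : ∃ V, V = B ^ 2 * (|α₁| * K ^ 2 + R + 1) := ⟨_, rfl⟩
  obtain ⟨t, ht0, ht1, ht⟩ := sc3_small (2 * exp (22 * V)) (exp (24 * V))
    ((2 * V) ^ 2 * (2 * B ^ 4 + 8 * (B * R) ^ 2)) hτ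
  refine ⟨t, B * 2 + R, t, ht0, ht0, ?_⟩
  intro k m hk N hN S₀ _ L n₀ M μ _ sp h hL b hM r hr hrR κ hκ hQ hT hA νξ ν ε ξ hd s' hs hs1 x hx
  have hR : 0 ≤ R := (abs_nonneg _).trans hκ
  have hM' : M / ((N : ℝ) + 1) ≤ |α₁| := by
    rw [div_le_iff₀ (by positivity)]
    have h1 := mul_le_mul_of_nonneg_right (le_abs_self α₁) (Nat.cast_nonneg (α := ℝ) N)
    have h2 := abs_nonneg α₁
    linarith
  have h1 := sc3_ab h hL hf hd hM' hr hrR hκ hs hs1 hx hV hQ hT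
  have h2 := sc3_c hk h hL hf hd hA hr hs (fun j hj =>
    ⟨abs_wq_le hs (by nlinarith) (by linarith) hj, abs_wq_le hr (by nlinarith) (by linarith) hj⟩)
    (by linarith) (κ + 2 * x)
  have h3 : (2 * V) ^ 2 * (2 * B ^ 4 * t + 8 * (B * t * R) ^ 2) ≤
      (2 * V) ^ 2 * (2 * B ^ 4 + 8 * (B * R) ^ 2) * t := by
    rw [mul_assoc ((2 * V) ^ 2) _ t]
    refine mul_le_mul_of_nonneg_left ?_ (sq_nonneg (2 * V))
    have h4 := mul_le_mul_of_nonneg_left (by nlinarith : t ^ 2 ≤ t) (sq_nonneg (B * R))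
    nlinarith
  have h4 := mul_le_mul_of_nonneg_left (sqrt_le_sqrt (mul_le_mul_of_nonneg_left
    (sqrt_le_sqrt h3) (exp_pos (24 * V)).le)) (exp_pos (22 * V)).le
  rw [abs_le] at h1 h2 ⊢
  constructor <;> linarith [h1.1, h1.2, h2.1, h2.2]

end P157
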