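import Vale.Agent.P157.QSync

/-! P157 TConc: concentration of `T = (N+1)⁻¹ ∑ θ(S_a)` at `⟨r, p⟩`.
Plan. By `pc2` (one-replica part, transported with `exists_e2`): `A1 θ(S_a) ≈ t`, `A1 θ(S_a) θ(S_a') ≈ t²`
for `a ≠ a'`, with `t = t1 k m p f θ` (`Tl_const` for `φ₂ = 1`), so `A1 (T - ρ t)²` is small and
`A1 T ≈ ρ t`. By `exists_e1` and `ibp1` (`F ω c y = SH ω c + f y`, `A = B = sp/√N`),
`A1 θ(S_a) = A2 (f'(S_a) f'(S_a') ov)`, hence `A1 T = A2 (Q ov)`. Finally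
`|Q ov - r_J p_J| ≤ |Q - r_J| + r k |ov - p_J|` (`qsync`, `A2_cs`, `SSync_succ` twice) and `A2_path` with
`j = 0` for the path `r p` gives `A2 (r_J p_J) ≈ pair r p`. Conclude with
`(T - κ)² ≤ 2 (T - ρ t)² + 2 (ρ t - κ)²`.
-/

open MeasureTheory ProbabilityTheory Real
open scoped BigOperators Matrix

namespace P157

theorem tc_var {Ω S : Type} [MeasurableSpace Ω] [MeasurableSpace S] {P : Measure Ω}
    [IsProbabilityMeasure P] {μ : Measure S} [IsProbabilityMeasure μ] {H : Ω → S → ℝ} (h : Good P H)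
    {n : ℕ} {θ : Fin n → Ω → S → ℝ} {K t s : ℝ} (hθ : ∀ a, Bd1 (θ a) K) (ht : |t| ≤ K) (hs : 0 ≤ s)
    (h1 : ∀ a, |A1 P μ H (θ a) - t| ≤ s)
    (h2 : ∀ a a', a ≠ a' → |A1 P μ H (fun ω σ => θ a ω σ * θ a' ω σ) - t * t| ≤ s) :
    A1 P μ H (fun ω σ => (∑ a, (θ a ω σ - t)) ^ 2) ≤ n * (n * ((1 + 2 * K) * s) + 4 * K ^ 2) := by
  have hK : 0 ≤ K := (abs_nonneg _).trans ht
  have b := fun a => ((hθ a).sub (Bd1.const t)).mono (show K + |t| ≤ 2 * K by linarith)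
  have g := fun a a' => ((b a).mul (b a')).good (P := P)
  simp only [sq (∑ _ : Fin n, _), Finset.sum_mul_sum]
  rw [A1_sum h _ fun a _ => Good.sum _ fun a' _ => g a a']
  refine (Finset.sum_le_card_nsmul _ _ (n * ((1 + 2 * K) * s) + 4 * K ^ 2)
    fun a _ => ?_).trans_eq (by simp only [Finset.card_univ, Fintype.card_fin, nsmul_eq_mul])
  rw [A1_sum h _ fun a' _ => g a a']
  refine (Finset.sum_le_sum (g := fun a' => (1 + 2 * K) * s + if a = a' then 4 * K ^ 2 else 0)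
    fun a' _ => ?_).trans_eq (by simp [Finset.sum_add_distrib])
  split_ifs with e
  · have := (abs_le.1 (abs_A1_le_bd (μ := μ) h ((b a).mul (b a')))).2
    nlinarith [mul_nonneg hK hs]
  · have e1 : (fun ω σ => (θ a ω σ - t) * (θ a' ω σ - t)) = fun ω σ =>
        θ a ω σ * θ a' ω σ - t * θ a ω σ - t * θ a' ω σ + t * t := by funext ω σ; ring
    have g1 := ((hθ a).mul (hθ a')).good (P := P)
    have g2 := fun a => ((hθ a).good (P := P)).const_mul t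
    rw [e1, A1_add h ((g1.sub (g2 a)).sub (g2 a')) (Good.const _), A1_sub h (g1.sub (g2 a)) (g2 a'),
      A1_sub h g1 (g2 a), A1_const_mul, A1_const_mul, A1_const h]
    linarith [(abs_le.1 (h2 a a' e)).2, (abs_le.1 (gb_mul ht (h1 a))).1,
      (abs_le.1 (gb_mul ht (h1 a'))).1]

theorem tc_num {K A s w n t κ r x y : ℝ} (hK : 1 ≤ K) (hs0 : 0 < s) (hs1 : s ≤ 1) (hw0 : 0 < w)
    (hw : w ≤ s) (hn : 0 ≤ n) (hρ : w * n ≤ A) (r1 : 0 ≤ r) (r2 : r ≤ A * K ^ 2)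
    (e1 : |w * x - κ| ≤ s + r * s + s ^ 2 * r) (v3 : |x - n * t| ≤ n * s)
    (v2 : y ≤ n * (n * ((1 + 2 * K) * s) + 4 * K ^ 2)) :
    2 * w ^ 2 * y + 2 * (w * n * t - κ) ^ 2 ≤
      s * (2 * (A * (A * (1 + 2 * K) + 4 * K ^ 2)) + 2 * (A + 1 + 2 * (A * K ^ 2)) ^ 2) := by
  have hA : 0 ≤ A := le_trans (by positivity) hρ
  have w1 := abs_le.1 (gb_mul (abs_of_pos hw0).le v3)
  have w2 : w * (n * s) ≤ A * s := by rw [← mul_assoc]; gcongr
  have w3 : r * s ≤ A * K ^ 2 * s := by gcongr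
  have w0 : s ^ 2 ≤ s := by nlinarith
  have w4 : s ^ 2 * r ≤ s * (A * K ^ 2) := by gcongr
  have w5 : |w * n * t - κ| ≤ s * (A + 1 + 2 * (A * K ^ 2)) := by
    rw [abs_le] at e1 ⊢
    constructor <;> linarith [e1.1, e1.2, w1.1, w1.2]
  have w6 : (w * n * t - κ) ^ 2 ≤ s * (A + 1 + 2 * (A * K ^ 2)) ^ 2 := by
    refine (abs_le.1 (abs_sq_le_of_bdd (φ := fun _ : ℝ => _) (fun _ => w5) 0)).2.trans ?_
    rw [mul_pow]
    gcongr
  have w7 : w ^ 2 * (n * (n * ((1 + 2 * K) * s) + 4 * K ^ 2)) ≤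
      A * (A * ((1 + 2 * K) * s) + s * (4 * K ^ 2)) := by
    rw [show w ^ 2 * (n * (n * ((1 + 2 * K) * s) + 4 * K ^ 2)) =
      w * n * (w * n * ((1 + 2 * K) * s) + w * (4 * K ^ 2)) by ring]
    gcongr
  linarith [mul_le_mul_of_nonneg_left v2 (sq_nonneg w)]

theorem tc_sq (w T n t κ : ℝ) :
    (w * T - κ) ^ 2 ≤ 2 * w ^ 2 * (T - n * t) ^ 2 + 2 * (w * n * t - κ) ^ 2 := by
  nlinarith [sq_nonneg (w * T - 2 * (w * n * t) + κ)]

variable {S₀ : Type} [MeasurableSpace S₀] {N L k n₀ M : ℕ} {μ : Measure S₀}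
  [IsProbabilityMeasure μ] {sp : S₀ → Fin N → ℝ} {f : ℝ → ℝ} {K : ℝ} {m : ℕ → ℝ} {b : TT n₀ k → ℝ}

theorem tc_one {K : ℝ} (hK : 1 ≤ K) : C2b (fun _ => (1 : ℝ)) K :=
  ⟨differentiable_const _, by simp, fun _ => by simpa, fun _ => by simp; linarith,
    fun _ => by simp; linarith⟩

theorem tc_bd (h : IsSp sp) {φ : ℝ → ℝ} (hφ : C2b φ K) (a : Fin M) :
    Bd1 (fun (ω : SO L k n₀ N M) (c : S₀ × Leaf L k) => φ (fld (ω.1.2 a) (sp c.1))) K :=
  ⟨hφ.d1.continuous.measurable.comp (measurable_fld (e := fun ω : SO L k n₀ N M => ω.1.2 a)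
    h.fst ((measurable_pi_apply a).comp measurable_fst.snd)), fun _ _ => hφ.b0 _⟩

theorem tc_trans (h : IsSp sp) (hL : 0 < L) (hf : NiceK f K) {φ₁ φ₂ : ℝ → ℝ} (h₁ : C2b φ₁ K)
    (h₂ : C2b φ₂ K) {a a' : Fin (M + 2)} (haa : a ≠ a') :
    A1 (((SP L k n₀ N M m).prod (gp (Fin N))).prod (gp (Fin N))) (μ.prod (unif L k))
      (fun ω c => SH f m sp b ω.1.1 c + f (fld ω.1.2 (sp c.1)) + f (fld ω.2 (sp c.1)))
      (fun ω c => φ₁ (fld ω.1.2 (sp c.1)) * φ₂ (fld ω.2 (sp c.1))) =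
    SA1 L k n₀ (M + 2) f m μ sp b
      (fun ω c => φ₁ (fld (ω.1.2 a) (sp c.1)) * φ₂ (fld (ω.1.2 a') (sp c.1))) := by
  have := unif_prob hL k
  obtain ⟨e, he, h1, h2⟩ := exists_e2 (f := f) (m := m) (sp := sp) (b := b) (L := L) haa
  have := A1_comp (SH_good (b := b) h hf.c0.d1.continuous.measurable hf.c0.b0)
    ((tc_bd h h₁ a).mul (tc_bd h h₂ a')).good he (MeasurePreserving.id (μ.prod (unif L k)))
  simpa only [SA1, id, h2, (h1 _).1, (h1 _).2] using this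

theorem tc_ibp (h : IsSp sp) (hN : 0 < N) (hL : 0 < L) (hf : NiceK f K) (a : Fin (M + 1)) :
    SA1 L k n₀ (M + 1) f m μ sp b (fun ω c => theta f (fld (ω.1.2 a) (sp c.1))) =
    SA2 L k n₀ (M + 1) f m μ sp b (fun ω c c' => deriv f (fld (ω.1.2 a) (sp c.1)) *
      deriv f (fld (ω.1.2 a) (sp c'.1)) * ov (sp c.1) (sp c'.1)) := by
  have := unif_prob hL k
  have mf := hf.c0.d1.continuous.measurable
  obtain ⟨e, he, h1, h2⟩ := exists_e1 (f := f) (m := m) (sp := sp) (b := b) (L := L) a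
  have g := SH_good (M := M + 1) (L := L) (m := m) (b := b) h mf hf.c0.b0
  have g0 := SH_good (M := M) (L := L) (m := m) (b := b) h mf hf.c0.b0
  have e1 := A1_comp g (tc_bd h hf.ct a).good he (MeasurePreserving.id (μ.prod (unif L k)))
  have e2 := A2_comp g (((tc_bd h hf.c1 a).fst2.mul (tc_bd h hf.c1 a).snd2).mul
    (bd2_ov h.fst)).good2 he (MeasurePreserving.id (μ.prod (unif L k)))
  have hC : C2F (SP L k n₀ N M m) (fun ω c y => SH f m sp b ω c + f y) (fun _ _ y => deriv f y)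
      (fun _ _ y => deriv (deriv f) y) K :=
    ⟨(g0.meas.comp (measurable_fst.prodMk measurable_snd.fst)).add (mf.comp measurable_snd.snd),
      (measurable_deriv _).comp measurable_snd.snd, (measurable_deriv _).comp measurable_snd.snd,
      fun _ _ y => (hf.c0.d1 y).hasDerivAt.const_add _, fun _ _ y => (hf.c0.d2 y).hasDerivAt,
      fun _ _ => hf.c0.b1, fun _ _ => hf.c0.b2, g0.add (Good.const _)⟩
  have hA := feat_sp (Ω := SO L k n₀ N M) (h.fst (S' := Leaf L k))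
  have e3 := ibp1 (μ := μ.prod (unif L k)) hC hA hA
  have g1 := hC.good hA
  obtain ⟨b1, b2⟩ := hC.bd1 (y := fun ω c => ((√(N : ℝ))⁻¹ • sp c.1) ⬝ᵥ ω.2) measurable_fst
    (ibp1_measdot hA)
  have e4 := A1_sub (μ := μ.prod (unif L k)) g1 (b2.add (b1.mul b1)).good (Good.bd_mul b1 hA.good)
  simp only [id, h1, h2] at e1 e2
  simp only [fld_cov, ov_self h hN, mul_one] at e3
  simp only [← fld_eq_dot, ← sq] at e3 e4
  unfold SA1 SA2
  rw [← e1, ← e2]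
  simp only [theta, mul_comm (fld _ _)]
  rw [e4, e3, sub_sub_cancel]
  simp only [ov, dotProduct_comm]

theorem tc_TQ (h : IsSp sp) (hN : 0 < N) (hL : 0 < L) (hf : NiceK f K) :
    SA1 L k n₀ (M + 1) f m μ sp b (fun ω c => TQ f ω.1.2 (sp c.1)) =
    SA2 L k n₀ (M + 1) f m μ sp b
      (fun ω c c' => QQ f ω.1.2 (sp c.1) (sp c'.1) * ov (sp c.1) (sp c'.1)) := by
  have := unif_prob hL k
  have g := SH_good (M := M + 1) (L := L) (m := m) (b := b) h hf.c0.d1.continuous.measurable hf.c0.b0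
  have e := fun a => tc_ibp (M := M) (μ := μ) (m := m) (b := b) h hN hL hf a
  unfold SA1 SA2 at *
  simp only [TQ, QQ, div_eq_inv_mul, mul_assoc, Finset.sum_mul]
  rw [A1_const_mul, A2_const_mul, A1_sum g _ fun a _ => (tc_bd h hf.ct a).good,
    A2_sum g _ fun a _ => ((tc_bd h hf.c1 a).fst2.mul ((tc_bd h hf.c1 a).snd2.mul
      (bd2_ov h.fst))).good2]
  simp only [e, mul_assoc]

theorem tc_pair (hk : IsPartition k m) (h : IsSp sp) (hL : 0 < L) (hf : NiceK f K) {p r : ℕ → ℝ}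
    (hp : IsOv k p) (hr : IsPath k r) {η s : ℝ} (hs : 0 ≤ s) (hS : SSync L k n₀ M f m μ sp b p η)
    (h1 : ∀ j ≤ k, |SA2 L k n₀ M f m μ sp b (fun _ c c' => ind j c.2 c'.2) - (1 - m j)| ≤ s ^ 2)
    (h2 : SA2 L k n₀ M f m μ sp b (fun ω c c' =>
        (QQ f ω.1.2 (sp c.1) (sp c'.1) - r (cj c.2 c'.2)) ^ 2) ≤ s ^ 2) :
    |SA2 L k n₀ M f m μ sp b (fun ω c c' => QQ f ω.1.2 (sp c.1) (sp c'.1) * ov (sp c.1) (sp c'.1))
      - pair k m r p| ≤ s + r k * η + s ^ 2 * r k := by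
  have := unif_prob hL k
  have g := SH_good (M := M) (L := L) (m := m) (b := b) h hf.c0.d1.continuous.measurable hf.c0.b0
  have hq : IsPath k fun i => r i * p i := ⟨mul_nonneg hr.1 hp.1.1, fun j hj =>
    mul_le_mul (hr.2 j hj) (hp.1.2 j hj) (hp.1.nonneg hj.le) (hr.nonneg hj)⟩
  have e1 := A2_path hk g measurable_snd h1 hq (Nat.zero_le k)
  have rb : ∀ ω ω' : Leaf L k, |r (cj ω ω')| ≤ r k := fun ω ω' =>
    (abs_of_nonneg (hr.nonneg (cj_le _ _))).trans_le (hr.mono_le (cj_le _ _) le_rfl)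
  have bR := bd2_leaf (Ω := SO L k n₀ N M) (measurable_snd (α := S₀)) (fun ω ω' => r (cj ω ω')) rb
  have bQ := bd2_QQ (L := L) (k := k) (n₀ := n₀) (M := M) h hf
  have bS := bd2_sync (Ω := SO L k n₀ N M) (h.fst (S' := Leaf L k)) measurable_snd hp
  have bO := bd2_ov (Ω := SO L k n₀ N M) (h.fst (S' := Leaf L k))
  have bP := bR.mul (bO.sub bS)
  have e2 := (A2_cs (μ := μ.prod (unif L k)) g (bQ.sub bR)).trans
    ((sqrt_le_sqrt h2).trans_eq (sqrt_sq hs))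
  have e3 := (abs_A2_le (μ := μ.prod (unif L k)) g ((bQ.mul bO).sub bP).good2).trans
    (A2_mono g ((bQ.mul bO).sub bP).good2.abs
      ((bQ.sub bR).abs.add (bS.abs.const_mul (r k))).good2 fun ω c c' => by
      have := gb_add (gb_mul (le_refl |QQ f ω.1.2 (sp c.1) (sp c'.1) - r (cj c.2 c'.2)|)
        (abs_ov_le h c.1 c'.1)) (gb_mul (rb c.2 c'.2)
          (le_refl |ov (sp c.1) (sp c'.1) - p (cj c.2 c'.2)|))
      convert this using 2 <;> ring)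
  rw [A2_sub g (bQ.mul bO).good2 bP.good2, A2_add g (bQ.sub bR).abs.good2
    (bS.abs.const_mul (r k)).good2, A2_const_mul] at e3
  have e4 : tail k m (fun i => r i * p i) 0 = pair k m r p := by
    rw [tail, pair, Finset.range_eq_Ico, Finset.Ico_add_one_right_eq_Icc]
  simp only [ind, Nat.zero_le, if_true, mul_one, hp.2, e4] at e1
  simp only [sub_sub_cancel] at e3
  have e5 := mul_le_mul_of_nonneg_left hS (hr.nonneg le_rfl)
  unfold SSync Sync at hS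
  unfold SA2
  rw [abs_le] at e1 e3 ⊢
  constructor <;> linarith [e1.1, e1.2, e3.1, e3.2]

theorem tconc {f : ℝ → ℝ} {K : ℝ} (hf : NiceK f K) (α₁ : ℝ) {τ : ℝ} (hτ : 0 < τ) :
    ∃ η B : ℝ, 0 < η ∧ ∀ {k : ℕ} {m : ℕ → ℝ} (_ : IsPartition k m), ∃ (τ' : ℝ) (N₀ : ℕ), 0 < τ' ∧
      ∀ N ≥ N₀, ∀ {S₀ : Type} [MeasurableSpace S₀] {L n₀ M : ℕ} {μ : Measure S₀} [IsProbabilityMeasure μ]
      {sp : S₀ → Fin N → ℝ} (_ : IsSp sp) (_ : 0 < L) {b : TT n₀ k → ℝ}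
      (_ : ((M + 2 : ℕ) : ℝ) ≤ α₁ * N) {p : ℕ → ℝ} (_ : IsOv k p)
      (_ : SSync L k n₀ M f m μ sp b p η) (_ : SAC L k n₀ M f m μ sp b B τ'),
      SA1 L k n₀ (M + 2) f m μ sp b (fun ω c =>
        (TQ f ω.1.2 (sp c.1) - pair k m (rr f N (M + 2) k m p) p) ^ 2) ≤ τ := by
  have hK := hf.one_le
  have mf := hf.c0.d1.continuous.measurable
  obtain ⟨A, hA⟩ : ∃ A, A = |α₁| := ⟨_, rfl⟩
  have hA0 : 0 ≤ A := hA ▸ abs_nonneg _
  obtain ⟨E, hE⟩ : ∃ E, E = 2 * (A * (A * (1 + 2 * K) + 4 * K ^ 2)) + 2 * (A + 1 + 2 * (A * K ^ 2)) ^ 2 :=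
    ⟨_, rfl⟩
  have hE0 : 0 < E := by rw [hE]; positivity
  obtain ⟨s, hs0, hs1, hsE⟩ : ∃ s : ℝ, 0 < s ∧ s ≤ 1 ∧ s * E ≤ τ :=
    ⟨min 1 (τ / E), by positivity, min_le_left _ _, (le_div_iff₀ hE0).1 (min_le_right _ _)⟩
  obtain ⟨η₁, B₁, hη₁, H₁⟩ := pc2 hK hs0
  obtain ⟨η₂, B₂, hη₂, H₂⟩ := qsync hf α₁ (τ := s ^ 2) (by positivity)
  refine ⟨min (min η₁ η₂) (s / (exp (4 * K) * exp (4 * K))), max B₁ B₂, by positivity,
    fun {k m} hk => ?_⟩
  obtain ⟨τ₁, hτ₁, H₁⟩ := H₁ hk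
  obtain ⟨τ₂, N₂, hτ₂, H₂⟩ := H₂ hk
  refine ⟨min τ₁ τ₂, max N₂ (⌈s⁻¹⌉₊ + 1), by positivity, fun N hN S₀ _ L n₀ M μ _ sp h hL b hM p hp
    hS hAC => ?_⟩
  have := unif_prob hL k
  have hN0 : 0 < N := by omega
  have hN1 : ((N : ℝ) + 1)⁻¹ ≤ s := by
    refine inv_le_of_inv_le₀ hs0 ((Nat.le_ceil _).trans ?_)
    exact_mod_cast (by omega : ⌈s⁻¹⌉₊ ≤ N + 1)
  obtain ⟨q1, q2⟩ := H₂ N (le_of_max_le_left hN) h hL hM hp
    (le_trans hS ((min_le_left _ _).trans (min_le_right _ _)))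
    (AC.mono hAC (le_max_right _ _) (min_le_right _ _))
  have p1 := fun {φ₁ φ₂ : ℝ → ℝ} (h₁ : C2b φ₁ K) (h₂ : C2b φ₂ K) =>
    (H₁ (SH_good h mf hf.c0.b0) hN0 h.fst measurable_snd hp
      (le_trans hS ((min_le_left _ _).trans (min_le_left _ _)))
      (AC.mono hAC (le_max_left _ _) (min_le_left _ _)) hf.c0 h₁ h₂).1
  clear H₁ H₂
  obtain ⟨r1, r2⟩ := rr_isPath (M := M + 2) (N := N) hk hf p hM
  have s2 := SSync_succ h hL mf hf.c0.b0 hp (SSync_succ h hL mf hf.c0.b0 hp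
    (le_trans hS (min_le_right _ _)))
  rw [show exp (4 * K) * (exp (4 * K) * (s / (exp (4 * K) * exp (4 * K)))) = s by field_simp] at s2
  have e1 := tc_pair hk h hL hf hp r1 hs0.le s2 q1 q2
  rw [← tc_TQ h hN0 hL hf] at e1
  have hLv := (hk.lv (expM_rq p)).mono (n' := k + 1) le_rfl (by omega)
  have ht : |t1 k m p f (theta f)| ≤ K := abs_Tl_le hf.c0.c2d.env hLv hf.ct.b0 0
  have u1 : t1 k m p f (fun _ => 1) = 1 := Tl_const hf.c0.c2d.env hLv 1 0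
  have g := SH_good (M := M + 2) (L := L) (m := m) (b := b) h mf hf.c0.b0
  have v1 : ∀ a : Fin (M + 2), |SA1 L k n₀ (M + 2) f m μ sp b
      (fun ω c => theta f (fld (ω.1.2 a) (sp c.1))) - t1 k m p f (theta f)| ≤ s := fun a => by
    obtain ⟨a', ha'⟩ := exists_ne a
    have := p1 hf.ct (tc_one hK)
    rw [tc_trans h hL hf hf.ct (tc_one hK) ha'.symm, u1] at this
    simpa only [mul_one] using this
  have v2 := tc_var (μ := μ.prod (unif L k)) g (fun a => tc_bd h hf.ct a) ht hs0.le v1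
    fun a a' haa => by
      have := p1 hf.ct hf.ct
      rwa [tc_trans h hL hf hf.ct hf.ct haa] at this
  have v3 : |∑ a : Fin (M + 2), (SA1 L k n₀ (M + 2) f m μ sp b
      (fun ω c => theta f (fld (ω.1.2 a) (sp c.1))) - t1 k m p f (theta f))| ≤ (M + 2 : ℕ) * s :=
    (Finset.abs_sum_le_sum_abs _ _).trans ((Finset.sum_le_card_nsmul _ _ s fun a _ => v1 a).trans_eq
      (by simp only [Finset.card_univ, Fintype.card_fin, nsmul_eq_mul]))
  have v4 : SA1 L k n₀ (M + 2) f m μ sp b (fun ω c => TQ f ω.1.2 (sp c.1)) = ((N : ℝ) + 1)⁻¹ *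
      ∑ a : Fin (M + 2), SA1 L k n₀ (M + 2) f m μ sp b
        (fun ω c => theta f (fld (ω.1.2 a) (sp c.1))) := by
    unfold SA1
    simp only [TQ, div_eq_inv_mul]
    rw [A1_const_mul, A1_sum g _ fun a _ => (tc_bd h hf.ct a).good]
  generalize t1 k m p f (theta f) = t at *
  generalize pair k m (rr f N (M + 2) k m p) p = κ at *
  obtain ⟨w, hw⟩ : ∃ w, w = ((N : ℝ) + 1)⁻¹ := ⟨_, rfl⟩
  have hw0 : 0 < w := by rw [hw]; positivity
  have hρ : w * (M + 2 : ℕ) ≤ A := by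
    rw [hw, inv_mul_le_iff₀ (by positivity), hA]
    nlinarith [le_abs_self α₁, abs_nonneg α₁, (Nat.cast_nonneg N : (0 : ℝ) ≤ N)]
  have bψ : Good (SP L k n₀ N (M + 2) m) fun ω (c : S₀ × Leaf L k) =>
      (∑ a, (theta f (fld (ω.1.2 a) (sp c.1)) - t)) ^ 2 := by
    simp only [sq (∑ _ : Fin (M + 2), _), Finset.sum_mul_sum]
    exact Good.sum _ fun a _ => Good.sum _ fun a' _ =>
      (((tc_bd h hf.ct a).sub (Bd1.const t)).mul ((tc_bd h hf.ct a').sub (Bd1.const t))).good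
  have bT := (bd1_TQ (L := L) (k := k) (n₀ := n₀) (M := M + 2) h hf).sub (Bd1.const κ)
  refine (A1_mono g (by simpa only [sq] using (bT.mul bT).good) ((bψ.const_mul (2 * w ^ 2)).add
    (Good.const (2 * (w * (M + 2 : ℕ) * t - κ) ^ 2))) fun ω c => ?_).trans ?_
  · simp only [TQ, div_eq_inv_mul, ← hw, Finset.sum_sub_distrib, Finset.sum_const, Finset.card_univ,
      Fintype.card_fin, nsmul_eq_mul]
    exact tc_sq _ _ _ _ _
  rw [A1_add g (bψ.const_mul _) (Good.const _), A1_const_mul, A1_const g]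
  rw [Finset.sum_sub_distrib, Finset.sum_const, Finset.card_univ, Fintype.card_fin,
    nsmul_eq_mul] at v3
  rw [v4, ← hw] at e1
  exact (tc_num hK hs0 hs1 hw0 (hw ▸ hN1) (Nat.cast_nonneg _) hρ (r1.nonneg le_rfl) (hA ▸ r2) e1 v3
    v2).trans (hE ▸ hsE)

end P157
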