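import Vale.Agent.P157.SC2
import Vale.Agent.P157.SC3
import Vale.Agent.P157.TConc

/-! P157 SC: the spin cavity theorem.
Plan: combine `sc1`, `sc2`, `sc3` (with `R = |α₁| K²`, `rr_isPath`, `pair_bounds`), `qsync`, `tconc`;
`AC.mono` to unify the constants; `λ₀ = τ/(8 B²)`; `N₀` large so that `B² ≤ N+1`, `B/√(N+1) ≤ 1/2` and
`α₁ N C (B/√(N+1))³ ≤ τ/4`.
-/

open MeasureTheory ProbabilityTheory Real
open scoped BigOperators Matrix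

namespace P157


theorem sc_num {a C B τ n M : ℝ} (hC : 0 ≤ C) (hB : 1 ≤ B) (hτ : 0 < τ) (hn : 0 ≤ n)
    (hM : M ≤ a * n) (h : (2 * B + 4 * |a| * C * B ^ 3 / τ) ^ 2 ≤ n) :
    B ^ 2 ≤ n + 1 ∧ B / √(n + 1) ≤ 1 / 2 ∧ M * (C * (B / √(n + 1)) ^ 3) ≤ τ / 4 := by
  have h0 : 0 ≤ 4 * |a| * C * B ^ 3 / τ := by positivity
  have h1 : 2 * B + 4 * |a| * C * B ^ 3 / τ ≤ √(n + 1) :=
    le_sqrt_of_sq_le (by linarith)
  have hs : 0 < √(n + 1) := by linarith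
  have hsq : √(n + 1) ^ 2 = n + 1 := sq_sqrt (by linarith)
  refine ⟨by nlinarith, by rw [div_le_iff₀ hs]; linarith, ?_⟩
  have h2 : M ≤ |a| * √(n + 1) ^ 2 := by
    rw [hsq]
    nlinarith [le_abs_self a, abs_nonneg a]
  have h3 : 4 * |a| * C * B ^ 3 ≤ √(n + 1) * τ := by
    rw [← div_le_iff₀ hτ]; linarith
  calc M * (C * (B / √(n + 1)) ^ 3) ≤ |a| * √(n + 1) ^ 2 * (C * (B / √(n + 1)) ^ 3) :=
        mul_le_mul_of_nonneg_right h2 (by positivity)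
    _ = 4 * |a| * C * B ^ 3 / (4 * √(n + 1)) := by field_simp
    _ ≤ τ / 4 := by
        rw [div_le_iff₀ (by positivity)]; linarith

theorem spin_cavity {f : ℝ → ℝ} {K : ℝ} (hf : NiceK f K) (α₁ : ℝ) {B : ℝ} (hB : 1 ≤ B) {τ : ℝ}
    (hτ : 0 < τ) : ∃ η B' τ₀ lam : ℝ, 0 < η ∧ 0 < τ₀ ∧ 0 < lam ∧ ∀ {k : ℕ} {m : ℕ → ℝ}
      (_ : IsPartition k m), ∃ (τ' : ℝ) (N₀ : ℕ), 0 < τ' ∧ ∀ N ≥ N₀, 0 < N ∧ B ^ 2 ≤ N + 1 ∧
      ∀ {S₀ : Type} [MeasurableSpace S₀] {L n₀ M : ℕ} {μ : Measure S₀} [IsProbabilityMeasure μ]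
      {sp : S₀ → Fin N → ℝ} (_ : IsSp sp) (_ : 0 < L) {b : TT n₀ k → ℝ}
      (_ : ((M + 2 : ℕ) : ℝ) ≤ α₁ * N) (_ : ∑ t, b t ^ 2 * deg t ≤ lam * N) {p : ℕ → ℝ}
      (_ : IsOv k p) (_ : SSync L k n₀ M f m μ sp b p η) (_ : SAC L k n₀ M f m μ sp b B' τ')
      (_ : SAC L k n₀ (M + 2) f m μ sp b B' τ') {νξ : Measure ℝ} {ν : Measure (ℝ × ℝ)}
      {ε ξ : ℝ × ℝ → ℝ} (_ : SpinData B τ₀ νξ ν ε ξ) {s' : ℕ → ℝ} (_ : IsPath k s') (_ : s' k ≤ 1)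
      {x : ℝ} (_ : |x| ≤ 1),
      |SWx L k n₀ (M + 2) f m μ sp b ν ε ξ s' x - SW L k n₀ (M + 2) f m μ sp b
        - psiNu νξ k m (fun i => rr f N (M + 2) k m p i + s' i)
          (pair k m (rr f N (M + 2) k m p) p + 2 * x)| ≤ τ := by
  obtain ⟨C, hC, h2⟩ := sc2 hf
  obtain ⟨η₃, B₃, τ₀, hη₃, hτ₀, h3⟩ := sc3 hf α₁ (|α₁| * K ^ 2) hB (half_pos hτ)
  obtain ⟨ηq, Bq, hηq, hq⟩ := qsync hf α₁ hη₃
  obtain ⟨ηt, Bt, hηt, ht⟩ := tconc hf α₁ hη₃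
  refine ⟨min ηq ηt, max B₃ (max Bq Bt), τ₀, τ / (8 * B ^ 2), lt_min hηq hηt, hτ₀, by positivity,
    fun {k m} hk => ?_⟩
  obtain ⟨τq, Nq, hτq, hq⟩ := hq hk
  obtain ⟨τt, Nt, hτt, ht⟩ := ht hk
  refine ⟨min η₃ (min τq τt), max (max Nq Nt)
    (⌈(2 * B + 4 * |α₁| * C * B ^ 3 / τ) ^ 2⌉₊ + 1), lt_min hη₃ (lt_min hτq hτt), fun N hN => ?_⟩
  have hN1 : ⌈(2 * B + 4 * |α₁| * C * B ^ 3 / τ) ^ 2⌉₊ + 1 ≤ N := le_trans (le_max_right _ _) hN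
  have hN0 : 0 < N := by omega
  have hN2 : (2 * B + 4 * |α₁| * C * B ^ 3 / τ) ^ 2 ≤ N := Nat.ceil_le.1 (by omega)
  have hNq : Nq ≤ N := le_trans (le_trans (le_max_left _ _) (le_max_left _ _)) hN
  have hNt : Nt ≤ N := le_trans (le_trans (le_max_right _ _) (le_max_left _ _)) hN
  have hB2 := (sc_num hC hB hτ (Nat.cast_nonneg N) le_rfl hN2).1
  refine ⟨hN0, hB2, ?_⟩
  intro S₀ _ L n₀ M μ _ sp h hL b hM hb p hp hs hA hA2 νξ ν ε ξ hd s' hs' hs1 x hx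
  have := unif_prob hL k
  obtain ⟨-, n2, n3⟩ := sc_num hC hB hτ (Nat.cast_nonneg N) hM hN2
  obtain ⟨r1, r2⟩ := rr_isPath hk hf p hM
  obtain ⟨p1, p2, p3⟩ := pair_bounds hk hp.1 hp.2.le r1
  have a1 := sc1 (L := L) (M := M + 2) (μ := μ) (m := m) (b := b) (s' := s') (x := x) hd h hN0 hL hf hB2
  have a2 := h2 (M := M + 2) (μ := μ) (m := m) (b := b) (s' := s') (x := x) hd h hL n2
  have a3 := h3 hk hN0 h hL hM r1 r2 (κ := pair k m (rr f N (M + 2) k m p) p)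
    (by rw [abs_of_nonneg p1]; linarith)
    (hq N hNq h hL hM hp (le_trans hs (min_le_left _ _))
      (AC.mono hA (le_trans (le_max_left _ _) (le_max_right _ _))
        (le_trans (min_le_right _ _) (min_le_left _ _)))).2
    (ht N hNt h hL hM hp (le_trans hs (min_le_right _ _))
      (AC.mono hA (le_trans (le_max_right _ _) (le_max_right _ _))
        (le_trans (min_le_right _ _) (min_le_right _ _))))
    (AC.mono hA2 (le_max_left _ _) (min_le_left _ _)) hd hs' hs1 hx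
  have a4 : (∑ t, b t ^ 2 * deg t) * (2 * B ^ 2 / ((N : ℝ) + 1)) ≤ τ / 4 := by
    calc _ ≤ τ / (8 * B ^ 2) * (N + 1) * (2 * B ^ 2 / ((N : ℝ) + 1)) := by
          refine mul_le_mul_of_nonneg_right (hb.trans ?_) (by positivity)
          exact mul_le_mul_of_nonneg_left (by linarith) (by positivity)
      _ = τ / 4 := by field_simp; norm_num
  rw [abs_le] at a1 a2 a3 ⊢
  constructor <;> linarith [a1.1, a1.2, a2.1, a2.2, a3.1, a3.2]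

end P157
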