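import Vale.Agent.P157.SC1
import Vale.Agent.P157.Lind

/-! P157 SC2: Lindeberg step of the spin cavity.
Plan: `lindeberg` with base disorder `SO × (Nd → ℝ)`, base Hamiltonian `SH + extra` (`SH_good.comp`,
`extra_good`), `D a ω c z = DD1 f (ε c.1.2/√(N+1)) (fld (G a) (sp c.1.1)) z`, and `nice_lind` with
`a₀ = B/√(N+1)`.
-/

open MeasureTheory ProbabilityTheory Real
open scoped BigOperators Matrix

namespace P157


theorem sc2_meas {S₀ : Type} [MeasurableSpace S₀] {N L k n₀ M : ℕ} {sp : S₀ → Fin N → ℝ}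
    (h : IsSp sp) {ε : ℝ × ℝ → ℝ} (hε : Measurable ε) {D : ℝ → ℝ → ℝ → ℝ}
    (hD : Measurable fun p : ℝ × ℝ × ℝ => D p.1 p.2.1 p.2.2) (a : Fin M) :
    Measurable fun p : (SO L k n₀ N M × (Nd L k → ℝ)) × ((S₀ × (ℝ × ℝ)) × Leaf L k) × ℝ =>
      D (ε p.2.1.1.2 / √((N : ℝ) + 1)) (fld (p.1.1.1.2 a) (sp p.2.1.1.1)) p.2.2 := by
  have h1 : Measurable fun p : (SO L k n₀ N M × (Nd L k → ℝ)) × ((S₀ × (ℝ × ℝ)) × Leaf L k) × ℝ =>
      ε p.2.1.1.2 / √((N : ℝ) + 1) := (hε.comp measurable_snd.fst.fst.snd).div_const _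
  have h2 : Measurable fun p : (SO L k n₀ N M × (Nd L k → ℝ)) × ((S₀ × (ℝ × ℝ)) × Leaf L k) × ℝ =>
      (p.1.1.1.2 a, p.2.1.1.1) :=
    ((measurable_pi_apply a).comp measurable_fst.fst.fst.snd).prodMk measurable_snd.fst.fst.fst
  have h3 := (measurable_fld (Ω := Fin N → ℝ) h measurable_id).comp h2
  have h4 := hD.comp (h1.prodMk (h3.prodMk measurable_snd.snd))
  simpa only [Function.comp_def, id] using h4

theorem sc2 {f : ℝ → ℝ} {K : ℝ} (hf : NiceK f K) : ∃ C : ℝ, 0 ≤ C ∧ ∀ {S₀ : Type}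
    [MeasurableSpace S₀] {N L k n₀ M : ℕ} {μ : Measure S₀} [IsProbabilityMeasure μ]
    {sp : S₀ → Fin N → ℝ} {m : ℕ → ℝ} {b : TT n₀ k → ℝ} {B τ₀ : ℝ} {νξ : Measure ℝ}
    {ν : Measure (ℝ × ℝ)} {ε ξ : ℝ × ℝ → ℝ} {s' : ℕ → ℝ} {x : ℝ} (_ : SpinData B τ₀ νξ ν ε ξ)
    (_ : IsSp sp) (_ : 0 < L) (_ : B / √((N : ℝ) + 1) ≤ 1 / 2),
    |SX (DD1 f) L k n₀ M f m μ sp b ν ε ξ s' x - SX (DD2 f) L k n₀ M f m μ sp b ν ε ξ s' x| ≤
      M * (C * (B / √((N : ℝ) + 1)) ^ 3) := by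
  obtain ⟨C₀, hC₀, hl⟩ := lindeberg
  obtain ⟨K', hK', hn⟩ := nice_lind hf.nice
  refine ⟨2 * K' + C₀ * K' ^ 3, by positivity, ?_⟩
  intro S₀ _ N L k n₀ M μ _ sp m b B τ₀ νξ ν ε ξ s' x hd h hL hB
  have := unif_prob hL k
  have := hd.prob
  have hH : Good ((SP L k n₀ N M m).prod (gp (Nd L k)))
      (fun ω (c : (S₀ × (ℝ × ℝ)) × Leaf L k) =>
        SH f m sp b ω.1 (c.1.1, c.2) + extra ξ s' x ω.2 c) :=
    ((SH_good h hf.meas hf.c0.b0).comp measurePreserving_fst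
      (measurable_fst.fst.prodMk measurable_snd)).add ((extra_good hd).snd _)
  have ha : ∀ z, |ε z / √((N : ℝ) + 1)| ≤ B / √((N : ℝ) + 1) := fun z => by
    rw [abs_div, abs_of_nonneg (sqrt_nonneg _)]
    exact div_le_div_of_nonneg_right (hd.bε z) (sqrt_nonneg _)
  have key := hl (μ := (μ.prod ν).prod (unif L k)) hH
    (D := fun a ω c z => DD1 f (ε c.1.2 / √((N : ℝ) + 1)) (fld (ω.1.1.2 a) (sp c.1.1)) z)
    (D' := fun a ω c z => DD2 f (ε c.1.2 / √((N : ℝ) + 1)) (fld (ω.1.1.2 a) (sp c.1.1)) z)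
    (sc2_meas h hd.mε (measurable_DD1 hf.nice)) (sc2_meas h hd.mε (measurable_DD2 hf.nice))
    (b := K' * (B / √((N : ℝ) + 1))) (e := K' * (B / √((N : ℝ) + 1)) ^ 3)
    (fun a ω c z => (hn _ _ _ _ 0 hB (ha _) (ha c.1.2)).1 z)
    (fun a ω c => (hn _ _ _ _ 0 hB (ha _) (ha c.1.2)).2.1)
    (fun a ω c c' => (hn _ _ _ _ _ hB (ha _) (ha _)).2.2)
  refine le_trans key (le_of_eq ?_)
  ring

end P157
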