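import Vale.Agent.P157.SBasic
import Vale.Agent.P157.Conc

/-! P157 SFluct: concentration for the enriched system.
Plan: `Fluct_prod_le` twice (`SO = (U × G) × g`; for the pair `(U × G)` with `g` fixed use it again).
Gaussian part: `Fluct_gauss`, `feat_self`. Patterns: `Fluct_bdd` with `E = Fin N → ℝ`. Weights: for fixed
`(G, g)`, `lZ (μ.prod unif) (lw u c.2 + X c) = lZ unif (lw u + a)` with `a ω = log ∫ exp (X (σ, ω)) ∂μ`
(`integral_prod_symm`), then `Fluct_lw`.
-/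

open MeasureTheory ProbabilityTheory Real
open scoped BigOperators Matrix

namespace P157


theorem sfl_lZ {S T : Type} [MeasurableSpace S] [MeasurableSpace T] (μ : Measure S)
    [IsProbabilityMeasure μ] (ν : Measure T) [IsProbabilityMeasure ν] {h : T → ℝ}
    (hh : Measurable h) {C : ℝ} (hC : ∀ t, |h t| ≤ C) {X : S × T → ℝ} (hX : Measurable X) {C' : ℝ}
    (hC' : ∀ c, |X c| ≤ C') :
    lZ (μ.prod ν) (fun c => h c.2 + X c) =
      lZ ν (fun t => h t + log (∫ σ, exp (X (σ, t)) ∂μ)) := by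
  have h1 : Integrable (fun c : S × T => exp (h c.2 + X c)) (μ.prod ν) :=
    gc_exp ((hh.comp measurable_snd).add hX) fun c => gb_add (hC c.2) (hC' c)
  unfold lZ
  rw [integral_prod_symm _ h1]
  refine congrArg log (integral_congr_ae (ae_of_all _ fun t => ?_))
  have h2 : Integrable (fun σ => exp (X (σ, t))) μ :=
    gc_exp (hX.comp measurable_prodMk_right) fun σ => hC' (σ, t)
  simp only [exp_add]
  rw [integral_const_mul, exp_log (integral_exp_pos h2)]

theorem sfl_bd {Ω S : Type} [MeasurableSpace Ω] [MeasurableSpace S] {X : S → ℝ}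
    (hX : Measurable X) {C : ℝ} (hC : ∀ c, |X c| ≤ C) : Bd1 (fun (_ : Ω) c => X c) C :=
  ⟨hX.comp measurable_snd, fun _ c => hC c⟩

theorem S_fluct {k : ℕ} {m : ℕ → ℝ} (hk : IsPartition k m) : ∃ c₀ : ℝ, ∀ {S₀ : Type}
    [MeasurableSpace S₀] {N L n₀ M : ℕ} {μ : Measure S₀} [IsProbabilityMeasure μ]
    {sp : S₀ → Fin N → ℝ} {f : ℝ → ℝ} {K : ℝ} (_ : IsSp sp) (_ : 0 < N) (_ : 0 < L)
    (_ : Measurable f) (_ : ∀ y, |f y| ≤ K) (b : TT n₀ k → ℝ),
    Fluct (SP L k n₀ N M m) (μ.prod (unif L k)) (SH f m sp b) ≤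
      c₀ + 2 * K * √M + 2 * √(∑ t, b t ^ 2) := by
  obtain ⟨c₀, hc₀⟩ := Fluct_lw hk
  refine ⟨c₀, fun {S₀} _ {N L n₀ M μ} _ {sp f K} h hN hL hf hK b => ?_⟩
  haveI := unif_prob hL k
  have hA := feat_feat (L := L) (Ω := Unit) h b
  obtain ⟨CA, hCA⟩ := hA.bdd
  have hAm : ∀ i, Measurable fun c : S₀ × Leaf L k => feat b (sp c.1) c.2 i := fun i =>
    (hA.meas i).comp (measurable_prodMk_left (x := ()))
  have hD : ∀ g : II L k n₀ N → ℝ, Measurable fun c : S₀ × Leaf L k => feat b (sp c.1) c.2 ⬝ᵥ g :=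
    fun g => conc_meas_dot' hAm g
  have hDb : ∀ (g : II L k n₀ N → ℝ) (c : S₀ × Leaf L k),
      |feat b (sp c.1) c.2 ⬝ᵥ g| ≤ CA * ∑ i, |g i| := fun g c =>
    conc_dot_le (A := fun c : S₀ × Leaf L k => feat b (sp c.1) c.2) (hCA ()) c g
  have hP := (pat_bd (M := M) h hf hK).comp measurable_id (measurable_fst (β := Leaf L k))
  have hW : Good (PU L k m) fun u (c : S₀ × Leaf L k) => lw m u c.2 :=
    (lw_good m).comp (MeasurePreserving.id _) measurable_snd
  obtain ⟨B, -, hB⟩ := (lw_good (L := L) (k := k) m).bdd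
  have h0 := SH0_good (L := L) (k := k) (M := M) (m := m) h hf hK
  refine Fluct_prod_le (SH_good h hf hK) (fun g => ?_) fun ω => ?_
  · have h1 := h0.add (sfl_bd (hD g) (hDb g)).good
    refine ⟨h1, Fluct_prod_le h1 (fun G => ?_) fun u => ?_⟩
    · have h2 : Measurable fun c : S₀ × Leaf L k => pat f G (sp c.1) + feat b (sp c.1) c.2 ⬝ᵥ g :=
        (hP.meas.comp (measurable_prodMk_left (x := G))).add (hD g)
      have h3 := fun c : S₀ × Leaf L k => gb_add (hP.bdd G c) (hDb g c)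
      simp only [add_assoc]
      refine ⟨hW.add (sfl_bd h2 h3).good, ?_⟩
      have h4 := fun u => sfl_lZ μ (unif L k) (gc_sec (lw_good m) u) (hB u) h2 h3
      simp only [Fluct, FE, h4]
      exact hc₀ L hL _
    · have h2 : Measurable fun c : S₀ × Leaf L k => lw m u c.2 + feat b (sp c.1) c.2 ⬝ᵥ g :=
        (gc_sec hW u).add (hD g)
      have h3 := fun c : S₀ × Leaf L k => gb_add (hB u c.2) (hDb g c)
      have h4 : ∀ (G : Fin M → Fin N → ℝ) (c : S₀ × Leaf L k),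
          lw m u c.2 + pat f G (sp c.1) + feat b (sp c.1) c.2 ⬝ᵥ g =
          lw m u c.2 + feat b (sp c.1) c.2 ⬝ᵥ g + pat f G (sp c.1) := fun _ _ => add_right_comm _ _ _
      simp only [h4]
      refine ⟨(sfl_bd h2 h3).good.add hP.good, ?_⟩
      exact Fluct_bdd (gp (Fin N)) h2 h3
        (X := fun (g : Fin N → ℝ) (c : S₀ × Leaf L k) => f (fld g (sp c.1)))
        ⟨hf.comp (measurable_fld h.fst measurable_id), fun _ _ => hK _⟩ M
  · obtain ⟨B', -, hB'⟩ := h0.bdd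
    refine ⟨(sfl_bd (gc_sec h0 ω) (hB' ω)).good.add ?_,
      Fluct_gauss (gc_sec h0 ω) (hB' ω) hA fun c => (feat_self h hN c.1 c.2).le⟩
    exact ⟨conc_meas_dot hAm, _, conc_int_sum.const_mul CA, hDb⟩

end P157
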