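import Vale.Agent.P157.ROne

/-! P157 SpQuad: the recursion for the (truncated) Gaussian spin.
Plan. One level: for `0 ≤ c`, `0 ≤ a`, `c a < b`, `∫ exp (c (y + √a z)²/(2b)) dγ =
(b/(b - ca))^{1/2} exp (c y²/(2(b - ca)))` (complete the square; `integral_gaussian`), and under the tilted
measure `y + √a z` is `N(y b/(b-ca), a b/(b-ca))`, so the tilted mean of `cosh (l x)` is
`exp (l² a b/(2(b-ca))) cosh (l y b/(b-ca))`. `levels_quad_le`: if `F` is `Env` and `F y ≤ y²/(2b) + c₀` then by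
downward induction `levels … (k-j) (j+1) y ≤ y²/(2 bq j) + const_j`. `levels_quad_ge`: if
`F y ≥ y²/(2b) + c₀ - η cosh y` then (Jensen under the Gaussian tilt) the lower bound
`y²/(2 bq j) + const_j - η A_j cosh (y b/bq j)` propagates, with total factor `exp (b² pG k/2)` at the root.
`psiNu_gB`: the terminal function is `y²/(2b) - (log b)/2 + log P(|x| ≤ B) - log γ[-B,B]` with
`x ~ N(y/b, 1/b)`, `b = 1 + r k - κ ∈ [1/2, R+3]`, and `-log P(|x| ≤ B) ≤ C e^{-B/8} cosh y`
(if `|y| ≤ B/4` then `P(|x| > B) ≤ P(|g| > B/(2√2)) ≤ C e^{-B/8}`; otherwise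
`-log P(|x| ≤ 1) ≤ C (1 + y²) ≤ C' e^{-B/8} cosh y`); `pG k ≤ 4 r k` since all `bq ≥ 1/2`.
-/

open MeasureTheory ProbabilityTheory Real
open scoped BigOperators Matrix

namespace P157


variable {k : ℕ} {m r : ℕ → ℝ} {b : ℝ}

theorem bq_last : bq k m r b k = b := by simp [bq]
theorem bq_succ {j : ℕ} (hj : j < k) :
    bq k m r b j = bq k m r b (j + 1) - m (j + 1) * (r (j + 1) - r j) := by
  rw [bq, bq, Finset.sum_eq_sum_Ico_succ_bot hj]
  ring
theorem bq_mono (hk : IsPartition k m) (hr : IsPath k r) {i j : ℕ} (hij : i ≤ j) (hj : j ≤ k) :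
    bq k m r b i ≤ bq k m r b j := by
  induction j, hij using Nat.le_induction with
  | base => exact le_rfl
  | succ j hij ih =>
    refine (ih (by omega)).trans ?_
    rw [bq_succ (show j < k by omega)]
    exact sub_le_self _ (mul_nonneg (hk.pos (by omega) (by omega)).le
      (sub_nonneg.2 (hr.2 j (by omega))))
theorem bq_zero (hk : IsPartition k m) :
    bq k m r b 0 = b - r k + pair k m r (fun _ => 1) := by
  rw [pair_comm, pair_eq_sum_tail, Finset.sum_congr rfl fun j hj => by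
    rw [tail_one hk (Nat.lt_succ_iff.1 (Finset.mem_range.1 hj)), mul_sub, mul_one],
    Finset.sum_sub_distrib, sum_inc, Finset.sum_range_succ', hk.1, bq, ← Finset.range_eq_Ico]
  simp only [inc, mul_comm]
  ring

theorem sq_gauss {p : ℝ} (hp : 0 < p) (β : ℝ) :
    Integrable (fun z => exp (β * z - (p - 1) * z ^ 2 / 2)) (gaussianReal 0 1) ∧
    ∫ z, exp (β * z - (p - 1) * z ^ 2 / 2) ∂gaussianReal 0 1 =
      exp (β ^ 2 / (2 * p) - log p / 2) := by
  have hv : (p⁻¹).toNNReal ≠ 0 := by simpa using hp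
  have e : ∀ z, gaussianPDFReal 0 1 z * exp (β * z - (p - 1) * z ^ 2 / 2) =
      exp (β ^ 2 / (2 * p) - log p / 2) * gaussianPDFReal (β / p) (p⁻¹).toNNReal z := by
    intro z
    have h1 : (√(2 * π * p⁻¹))⁻¹ = (√(2 * π * 1))⁻¹ * exp (log p / 2) := by
      rw [mul_one, sqrt_mul (by positivity), sqrt_inv, mul_inv, inv_inv, exp_half, exp_log hp]
    simp only [gaussianPDFReal, NNReal.coe_one, Real.coe_toNNReal _ (inv_pos.2 hp).le]
    rw [h1, mul_assoc, ← exp_add, mul_assoc (√(2 * π * 1))⁻¹, mul_left_comm (exp _), ← exp_add,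
      ← exp_add]
    congr 2
    field_simp
    ring
  constructor
  · rw [gaussianReal_of_var_ne_zero _ one_ne_zero, integrable_withDensity_iff_integrable_smul'
      (measurable_gaussianPDF _ _) (ae_of_all _ fun _ => gaussianPDF_lt_top)]
    simp only [toReal_gaussianPDF, smul_eq_mul, e]
    exact (integrable_gaussianPDFReal _ _).const_mul _
  · rw [integral_gaussianReal_eq_integral_smul one_ne_zero]
    simp only [smul_eq_mul, e]
    rw [integral_const_mul, integral_gaussianPDFReal_eq_one _ hv, mul_one]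

section one

variable {a b' c c₀ η l C : ℝ} {Φ : ℝ → ℝ}

theorem sq_lin (ha : 0 ≤ a) (hb : 0 < b) (hb' : 0 < b') (e : b' = b - c * a) (y s : ℝ) :
    Integrable (fun z => exp (c * (y + √a * z) ^ 2 / (2 * b) + s * (y + √a * z)))
      (gaussianReal 0 1) ∧
    ∫ z, exp (c * (y + √a * z) ^ 2 / (2 * b) + s * (y + √a * z)) ∂gaussianReal 0 1 =
      exp (c * y ^ 2 / (2 * b') + log (b / b') / 2) *
        (exp (s ^ 2 * a * b / (2 * b')) * exp (s * (b / b') * y)) := by
  obtain ⟨w, rfl, hw⟩ : ∃ w, a = w ^ 2 ∧ √a = w := ⟨_, (sq_sqrt ha).symm, rfl⟩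
  obtain ⟨h1, h2⟩ := sq_gauss (div_pos hb' hb) (c * y * w / b + s * w)
  have e1 : ∀ z, exp (c * (y + w * z) ^ 2 / (2 * b) + s * (y + w * z)) =
      exp (c * y ^ 2 / (2 * b) + s * y) *
        exp ((c * y * w / b + s * w) * z - (b' / b - 1) * z ^ 2 / 2) := by
    intro z
    rw [← exp_add, e]
    congr 1
    field_simp
    ring
  simp only [hw, e1]
  refine ⟨h1.const_mul _, ?_⟩
  rw [integral_const_mul, h2, ← exp_add, ← exp_add, ← exp_add, log_div hb'.ne' hb.ne',
    log_div hb.ne' hb'.ne']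
  congr 1
  obtain rfl : b = b' + c * w ^ 2 := by linarith
  field_simp
  ring

theorem sq_cosh (ha : 0 ≤ a) (hb : 0 < b) (hb' : 0 < b') (e : b' = b - c * a) (y l : ℝ) :
    Integrable (fun z => exp (c * (y + √a * z) ^ 2 / (2 * b)) * cosh (l * (y + √a * z)))
      (gaussianReal 0 1) ∧
    ∫ z, exp (c * (y + √a * z) ^ 2 / (2 * b)) * cosh (l * (y + √a * z)) ∂gaussianReal 0 1 =
      exp (c * y ^ 2 / (2 * b') + log (b / b') / 2) *
        (exp (l ^ 2 * a * b / (2 * b')) * cosh (l * (b / b') * y)) := by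
  obtain ⟨h1, h2⟩ := sq_lin ha hb hb' e y l
  obtain ⟨h3, h4⟩ := sq_lin ha hb hb' e y (-l)
  have e1 : ∀ x, exp (c * x ^ 2 / (2 * b)) * cosh (l * x) =
      (exp (c * x ^ 2 / (2 * b) + l * x) + exp (c * x ^ 2 / (2 * b) + -l * x)) / 2 := by
    intro x
    rw [cosh_eq, exp_add, exp_add, neg_mul]
    ring
  simp only [e1]
  refine ⟨(h1.add h3).div_const _, ?_⟩
  rw [integral_div, integral_add h1 h3, h2, h4, cosh_eq, neg_sq, neg_mul, neg_mul]
  ring

theorem sq_int (h : Env Φ C) (w y : ℝ) :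
    Integrable (fun z => Φ (y + w * z)) (gaussianReal 0 1) ∧
      ∀ c, Integrable (fun z => exp (c * Φ (y + w * z))) (gaussianReal 0 1) := by
  have h1 : Measurable fun η => Φ (y + η) := h.meas.comp (measurable_const_add y)
  exact ⟨(integrable_map_measure h1.aestronglyMeasurable
      (measurable_const_mul w).aemeasurable).1 (h.integrable (expM_gw w) y), fun c =>
    (integrable_map_measure (h1.const_mul c).exp.aestronglyMeasurable
      (measurable_const_mul w).aemeasurable).1 (h.integrable_exp (expM_gw w) c y)⟩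

theorem sq_step_le (h : Env Φ C) (hc : 0 < c) (ha : 0 ≤ a) (hb : 0 < b) (hb' : 0 < b')
    (e : b' = b - c * a) (hΦ : ∀ x, Φ x ≤ x ^ 2 / (2 * b) + c₀) (y : ℝ) :
    step c a Φ y ≤ y ^ 2 / (2 * b') + ((2 * c)⁻¹ * log (b / b') + c₀) := by
  obtain ⟨h1, h2⟩ := sq_cosh ha hb hb' e y 0
  simp only [zero_mul, cosh_zero, mul_one, zero_pow two_ne_zero, zero_div, exp_zero] at h1 h2
  have h3 := (sq_int h √a y).2 c
  rw [step, if_neg hc.ne', inv_mul_le_iff₀ hc, log_le_iff_le_exp (integral_exp_pos h3)]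
  refine (integral_mono h3 (h1.mul_const (exp (c * c₀))) fun z => ?_).trans_eq ?_
  · simp only [← exp_add]
    refine exp_le_exp.2 ((mul_le_mul_of_nonneg_left (hΦ _) hc.le).trans_eq ?_)
    ring
  · rw [integral_mul_const, h2, ← exp_add]
    congr 1
    field_simp
    ring

theorem sq_step_ge (h : Env Φ C) (hc : 0 < c) (ha : 0 ≤ a) (hb : 0 < b) (hb' : 0 < b')
    (e : b' = b - c * a) (hΦ : ∀ x, x ^ 2 / (2 * b) + c₀ - η * cosh (l * x) ≤ Φ x) (y : ℝ) :
    y ^ 2 / (2 * b') + ((2 * c)⁻¹ * log (b / b') + c₀) -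
      η * (exp (l ^ 2 * a * b / (2 * b')) * cosh (l * (b / b') * y)) ≤ step c a Φ y := by
  obtain ⟨h1, h2⟩ := sq_cosh ha hb hb' e y 0
  simp only [zero_mul, cosh_zero, mul_one, zero_pow two_ne_zero, zero_div, exp_zero] at h1 h2
  obtain ⟨h4, h5⟩ := sq_cosh ha hb hb' e y l
  have h3 := (sq_int h √a y).2 c
  generalize exp (l ^ 2 * a * b / (2 * b')) * cosh (l * (b / b') * y) = M at h5 ⊢
  rw [step, if_neg hc.ne', le_inv_mul_iff₀ hc, le_log_iff_exp_le (integral_exp_pos h3)]
  have h6 := (h1.mul_const (1 + c * η * M)).sub (h4.const_mul (c * η))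
  refine Eq.trans_le ?_ (integral_mono (h6.const_mul (exp (c * c₀ - c * η * M))) h3 fun z => ?_)
  · simp only [Pi.sub_apply]
    rw [integral_const_mul, integral_sub (h1.mul_const _) (h4.const_mul _), integral_mul_const,
      integral_const_mul, h2, h5, mul_add, mul_one, mul_left_comm (c * η), add_sub_cancel_right, ← exp_add]
    congr 1
    field_simp
    ring
  · simp only [Pi.sub_apply]
    generalize y + √a * z = x
    have h7 := add_one_le_exp (c * η * M - c * η * cosh (l * x))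
    refine le_trans (le_of_eq ?_) ((mul_le_mul_of_nonneg_left h7 (exp_pos
      (c * c₀ - c * η * M + c * x ^ 2 / (2 * b))).le).trans ?_)
    · rw [exp_add]
      ring
    · rw [← exp_add]
      refine exp_le_exp.2 (le_trans (le_of_eq ?_) (mul_le_mul_of_nonneg_left (hΦ x) hc.le))
      ring

theorem sq_root (a b : ℝ) (ha : 0 ≤ a) :
    Integrable (fun z => (0 + √a * z) ^ 2 / (2 * b) + c₀) (gaussianReal 0 1) ∧
      ∫ z, (0 + √a * z) ^ 2 / (2 * b) + c₀ ∂gaussianReal 0 1 = a / (2 * b) + c₀ := by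
  have h1 : Integrable (fun z : ℝ => z ^ 2) (gaussianReal 0 1) :=
    (memLp_id_gaussianReal 2).integrable_sq
  have h2 : ∫ z : ℝ, z ^ 2 ∂gaussianReal 0 1 = 1 := by
    have := variance_fun_id_gaussianReal (μ := 0) (v := 1)
    rw [variance_eq_integral measurable_id'.aemeasurable] at this
    simpa using this
  simp only [zero_add, mul_pow, sq_sqrt ha]
  have h3 := (h1.const_mul a).div_const (2 * b)
  refine ⟨h3.add (integrable_const _), ?_⟩
  rw [integral_add h3 (integrable_const _), integral_div, integral_const_mul, h2]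
  simp

end one

theorem sq_env (hk : IsPartition k m) {F : ℝ → ℝ} {C : ℝ} (hF : Env F C) {n j : ℕ}
    (h : j + n ≤ k + 2) : Env (levels m r F n j) C := by
  have hL := (hk.lv (expM_rq r)).mono (Nat.zero_le j) (n' := n) (by omega)
  rw [levels_eq_Rec hF hL]
  exact hF.recur hL

theorem parisi_quad_le (hk : IsPartition k m) (hr : IsPath k r) (hb : 0 < bq k m r b 0)
    {F : ℝ → ℝ} {C c₀ : ℝ} (hF : Env F C) (h : ∀ y, F y ≤ y ^ 2 / (2 * b) + c₀) :
    parisi k m r F ≤ quadV k m r b + c₀ := by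
  have p : ∀ j ≤ k, 0 < bq k m r b j := fun j hj => hb.trans_le (bq_mono hk hr j.zero_le hj)
  have key : ∀ n j, j + n = k → ∀ y, levels m r F n (j + 1) y ≤ y ^ 2 / (2 * bq k m r b j) +
      (∑ i ∈ Finset.Ico j k, (2 * m (i + 1))⁻¹ * log (bq k m r b (i + 1) / bq k m r b i) + c₀) := by
    intro n
    induction n with
    | zero =>
      rintro j rfl y
      simpa [bq_last, levels] using h y
    | succ n ih =>
      intro j hj y
      rw [Finset.sum_eq_sum_Ico_succ_bot (show j < k by omega), add_assoc]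
      exact sq_step_le (sq_env hk hF (by omega)) (hk.pos (by omega) (by omega))
        (hr.inc_nonneg (by omega)) (p _ (by omega)) (p _ (by omega)) (bq_succ (by omega))
        (ih (j + 1) (by omega)) y
  obtain ⟨h1, h2⟩ := sq_root (c₀ := ∑ i ∈ Finset.Ico 0 k,
    (2 * m (i + 1))⁻¹ * log (bq k m r b (i + 1) / bq k m r b i) + c₀) (r 0) (bq k m r b 0) hr.1
  rw [parisi, levels, step, if_pos hk.1, quadV, add_assoc, Finset.range_eq_Ico, ← h2]
  exact integral_mono (sq_int (sq_env hk hF (by omega)) _ _).1 h1 fun z => key k 0 (zero_add k) _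
theorem parisi_quad_ge (hk : IsPartition k m) (hr : IsPath k r) (hb : 0 < bq k m r b 0)
    {F : ℝ → ℝ} {C c₀ η : ℝ} (hF : Env F C) (hη : 0 ≤ η)
    (h : ∀ y, y ^ 2 / (2 * b) + c₀ - η * cosh y ≤ F y) :
    quadV k m r b + c₀ - η * exp (b ^ 2 * pG k m r b k / 2) ≤ parisi k m r F := by
  have _ := hη
  have p : ∀ j ≤ k, 0 < bq k m r b j := fun j hj => hb.trans_le (bq_mono hk hr j.zero_le hj)
  have pb : 0 < b := (p k le_rfl).trans_eq bq_last
  have key : ∀ n j, j + n = k → ∀ y, y ^ 2 / (2 * bq k m r b j) +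
      (∑ i ∈ Finset.Ico j k, (2 * m (i + 1))⁻¹ * log (bq k m r b (i + 1) / bq k m r b i) + c₀) -
      η * exp (b ^ 2 * (∑ i ∈ Finset.Ico j k,
        (r (i + 1) - r i) / (bq k m r b (i + 1) * bq k m r b i)) / 2) *
        cosh (b / bq k m r b j * y) ≤ levels m r F n (j + 1) y := by
    intro n
    induction n with
    | zero =>
      rintro j rfl y
      simpa [bq_last, pb.ne', levels] using h y
    | succ n ih =>
      intro j hj y
      have p0 := p j (by omega)
      have p1 := p (j + 1) (by omega)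
      refine Eq.trans_le ?_ (sq_step_ge (sq_env hk hF (by omega)) (hk.pos (by omega) (by omega))
        (hr.inc_nonneg (by omega)) p1 p0 (bq_succ (by omega)) (ih (j + 1) (by omega)) y)
      rw [Finset.sum_eq_sum_Ico_succ_bot (show j < k by omega),
        Finset.sum_eq_sum_Ico_succ_bot (show j < k by omega), add_assoc _ _ c₀,
        div_mul_div_cancel₀ p1.ne', ← mul_assoc (η * _), mul_assoc η (exp _) (exp _), ← exp_add,
        inc]
      congr 4
      field_simp
      ring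
  obtain ⟨h1, h2⟩ := sq_root (c₀ := ∑ i ∈ Finset.Ico 0 k,
    (2 * m (i + 1))⁻¹ * log (bq k m r b (i + 1) / bq k m r b i) + c₀) (r 0) (bq k m r b 0) hr.1
  obtain ⟨h3, h4⟩ := sq_cosh (c := 0) hr.1 one_pos one_pos (by ring) 0 (b / bq k m r b 0)
  simp only [zero_mul, zero_div, exp_zero, one_mul, div_one, log_one, add_zero, mul_zero,
    cosh_zero, mul_one] at h3 h4
  rw [parisi, levels, step, if_pos hk.1]
  refine Eq.trans_le ?_ (integral_mono (h1.sub (h3.const_mul _))
    (sq_int (sq_env hk hF (by omega)) _ _).1 fun z => key k 0 (zero_add k) _)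
  simp only [Pi.sub_apply]
  rw [integral_sub h1 (h3.const_mul _), h2, integral_const_mul, h4, quadV, pG, add_assoc,
    Finset.range_eq_Ico, mul_assoc η, ← exp_add]
  congr 3
  field_simp
  ring

theorem sq_Icc {B : ℝ} (hB : 0 < B) : gaussianReal 0 1 (Set.Icc (-B) B) ≠ 0 := fun h => by
  have := gaussianReal_absolutelyContinuous' 0 one_ne_zero h
  rw [Real.volume_Icc, ENNReal.ofReal_eq_zero] at this
  linarith

theorem gB_prob {B : ℝ} (hB : 0 < B) : IsProbabilityMeasure (gB B) :=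
  cond_isProbabilityMeasure (sq_Icc hB)

/-- the truncated Gaussian integral -/
noncomputable def sqJ (B b y : ℝ) : ℝ :=
  ∫ x in Set.Icc (-B) B, exp (y * x - (b - 1) * x ^ 2 / 2) ∂gaussianReal 0 1

section trunc

variable {B R : ℝ}

theorem sqJ_pos (hB : 0 < B) (hb : 0 < b) (y : ℝ) : 0 < sqJ B b y := by
  have : NeZero ((gaussianReal 0 1).restrict (Set.Icc (-B) B)) :=
    ⟨fun h => sq_Icc hB (Measure.restrict_eq_zero.1 h)⟩
  exact integral_exp_pos (sq_gauss hb y).1.integrableOn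

theorem sqJ_le (hB : 0 < B) (hb : 0 < b) (y : ℝ) :
    log (sqJ B b y) ≤ y ^ 2 / (2 * b) - log b / 2 := by
  rw [log_le_iff_le_exp (sqJ_pos hB hb y), ← (sq_gauss hb y).2]
  exact setIntegral_le_integral (sq_gauss hb y).1 (ae_of_all _ fun _ => (exp_pos _).le)

theorem sqJ_env (hB : 0 < B) (hb : 0 < b) : Env (fun y => log (sqJ B b y)) B := by
  have key : ∀ y y', log (sqJ B b y) ≤ log (sqJ B b y') + B * ‖y - y'‖ := by
    intro y y'
    rw [log_le_iff_le_exp (sqJ_pos hB hb y), exp_add, exp_log (sqJ_pos hB hb y'), sqJ, sqJ,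
      ← integral_mul_const]
    refine setIntegral_mono_on (sq_gauss hb y).1.integrableOn
      ((sq_gauss hb y').1.mul_const _).integrableOn measurableSet_Icc fun x hx => ?_
    rw [← exp_add, exp_le_exp]
    have h1 : |x * (y - y')| ≤ B * ‖y - y'‖ := by
      rw [abs_mul]
      exact mul_le_mul_of_nonneg_right (abs_le.2 hx) (abs_nonneg _)
    linarith [le_abs_self (x * (y - y'))]
  have h : ∀ y y', |log (sqJ B b y) - log (sqJ B b y')| ≤ B * ‖y - y'‖ := fun y y' => by
    have h1 := key y y'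
    have h2 := key y' y
    rw [norm_sub_rev] at h2
    exact abs_le.2 ⟨by linarith, by linarith⟩
  exact Env.of_lip (LipschitzWith.of_dist_le_mul (K := ⟨B, hB.le⟩) h).continuous.measurable
    hB.le h

theorem sqJ_tail (hb : 1 / 2 ≤ b) (y : ℝ) :
    exp (y ^ 2 / (2 * b) - log b / 2) * (1 - 4 * (exp (-B / 4) * cosh (y / 2))) ≤ sqJ B b y := by
  have h0 : 0 < b := by linarith
  obtain ⟨h1, h2⟩ := sq_gauss h0 y
  obtain ⟨h3, h4⟩ := sq_gauss h0 (y + 1 / 4)
  obtain ⟨h5, h6⟩ := sq_gauss h0 (y - 1 / 4)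
  rw [sqJ, ← integral_indicator measurableSet_Icc]
  refine le_trans ?_ (integral_mono (h1.sub ((h3.add h5).const_mul (exp (-B / 4))))
    (h1.indicator measurableSet_Icc) fun x => ?_)
  · simp only [Pi.sub_apply, Pi.add_apply]
    rw [integral_sub h1 ((h3.fun_add h5).const_mul _), integral_const_mul, integral_add h3 h5, h2, h4,
      h6, mul_sub, mul_one]
    refine sub_le_sub_left ?_ _
    have e1 : (y + 1 / 4) ^ 2 / (2 * b) - log b / 2 =
        y ^ 2 / (2 * b) - log b / 2 + 1 / (32 * b) + y / (4 * b) := by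
      field_simp
      ring
    have e2 : (y - 1 / 4) ^ 2 / (2 * b) - log b / 2 =
        y ^ 2 / (2 * b) - log b / 2 + 1 / (32 * b) + -(y / (4 * b)) := by
      field_simp
      ring
    have h7 : cosh (y / (4 * b)) ≤ cosh (y / 2) := by
      rw [cosh_le_cosh, abs_div, abs_div, abs_of_pos (by positivity : 0 < 4 * b), abs_two]
      exact div_le_div_of_nonneg_left (abs_nonneg _) two_pos (by linarith)
    have h8 : exp (1 / (32 * b)) ≤ 2 := by
      have h9 : 1 / (32 * b) ≤ 1 / 2 := one_div_le_one_div_of_le two_pos (by linarith)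
      refine (exp_le_exp.2 h9).trans ?_
      rw [exp_half]
      exact sqrt_le_iff.2 ⟨two_pos.le, by linarith [exp_one_lt_d9]⟩
    rw [e1, e2, exp_add _ (y / _), exp_add _ (-_), exp_add, ← mul_add]
    rw [cosh_eq] at h7
    calc _ = exp (y ^ 2 / (2 * b) - log b / 2) * (exp (-B / 4) * (exp (1 / (32 * b)) *
          (exp (y / (4 * b)) + exp (-(y / (4 * b)))))) := by ring
      _ ≤ exp (y ^ 2 / (2 * b) - log b / 2) * (exp (-B / 4) * (2 * (2 * cosh (y / 2)))) := by
          gcongr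
          linarith
      _ = _ := by ring
  · simp only [Pi.sub_apply, Pi.add_apply]
    by_cases hx : x ∈ Set.Icc (-B) B
    · rw [Set.indicator_of_mem hx]
      exact sub_le_self _ (by positivity)
    · rw [Set.indicator_of_notMem hx, sub_nonpos, mul_add, ← exp_add, ← exp_add]
      rcases not_and_or.1 hx with h | h
      · exact le_add_of_nonneg_of_le (exp_pos _).le (exp_le_exp.2 (by linarith [not_le.1 h]))
      · exact le_add_of_le_of_nonneg (exp_le_exp.2 (by linarith [not_le.1 h])) (exp_pos _).le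

theorem sqJ_one (hB : 1 ≤ B) (h0 : 0 < b) (hR : 0 ≤ R) (hb : b ≤ R + 3) (y : ℝ) :
    -|y| - (R + 2) / 2 + log ((gaussianReal 0 1).real (Set.Icc (-1) 1)) ≤ log (sqJ B b y) := by
  have hg : 0 < (gaussianReal 0 1).real (Set.Icc (-1) 1) :=
    ENNReal.toReal_pos (sq_Icc one_pos) (measure_ne_top _ _)
  rw [le_log_iff_exp_le (sqJ_pos (by linarith) h0 y), exp_add, exp_log hg]
  refine (setIntegral_ge_of_const_le_real measurableSet_Icc (measure_ne_top _ _) (fun x hx => ?_)
    (sq_gauss h0 y).1.integrableOn).trans (setIntegral_mono_set (sq_gauss h0 y).1.integrableOn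
      (ae_of_all _ fun _ => (exp_pos _).le) (Set.Icc_subset_Icc (by linarith) hB).eventuallyLE)
  have h1 : |x| ≤ 1 := abs_le.2 hx
  have h2 : |y * x| ≤ |y| := by
    rw [abs_mul]
    exact mul_le_of_le_one_right (abs_nonneg _) h1
  have h3 : x ^ 2 ≤ 1 := (sq_le_one_iff_abs_le_one x).2 h1
  refine exp_le_exp.2 ?_
  nlinarith [neg_abs_le (y * x), sq_nonneg x]

theorem sqJ_ge (hR : 0 ≤ R) : ∃ C : ℝ, 0 ≤ C ∧ ∀ B b y : ℝ, 1 ≤ B → 1 / 2 ≤ b → b ≤ R + 3 →
    y ^ 2 / (2 * b) - log b / 2 - C * exp (-B / 8) * cosh y ≤ log (sqJ B b y) := by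
  obtain ⟨g, hg⟩ : ∃ g, g = log ((gaussianReal 0 1).real (Set.Icc (-1) 1)) := ⟨_, rfl⟩
  have hg0 := abs_nonneg g
  refine ⟨128 * (4 + R + |g|), by positivity, fun B b y hB hb hb' => ?_⟩
  have h0 : 0 < b := by linarith
  have h1 : cosh (y / 2) ^ 2 ≤ cosh y := by
    have := cosh_two_mul (y / 2)
    rw [mul_div_cancel₀ _ two_ne_zero] at this
    linarith [sq_nonneg (sinh (y / 2))]
  have h2 : exp (-B / 4) ≤ exp (-B / 8) := exp_le_exp.2 (by linarith)
  have h3 := one_le_cosh (y / 2)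
  have h4 : exp (-B / 4) * cosh (y / 2) ^ 2 ≤ exp (-B / 8) * cosh y :=
    mul_le_mul h2 h1 (sq_nonneg _) (exp_pos _).le
  have h5 : 0 < exp (-B / 4) * cosh (y / 2) := by positivity
  rw [sq, ← mul_assoc] at h4
  rw [mul_assoc (128 * _)]
  have h6 := sqJ_tail (B := B) hb y
  generalize exp (-B / 4) * cosh (y / 2) = δ at h4 h5 h6
  generalize exp (-B / 8) * cosh y = t at h4 ⊢
  rcases le_total δ (1 / 8) with h | h
  · rw [le_log_iff_exp_le (sqJ_pos (by linarith) h0 y), sub_eq_add_neg, exp_add]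
    refine le_trans (mul_le_mul_of_nonneg_left ?_ (exp_pos _).le) h6
    have h7 : 8 * δ ≤ 128 * (4 + R + |g|) * t := by
      have h8 : δ ≤ t := (le_mul_of_one_le_right h5.le h3).trans h4
      exact mul_le_mul (by linarith) h8 h5.le (by positivity)
    refine (exp_le_exp.2 (neg_le_neg h7)).trans ?_
    rw [exp_neg, inv_le_iff_one_le_mul₀ (exp_pos _)]
    nlinarith [add_one_le_exp (8 * δ)]
  · have h7 : 1 + (y / 4) ^ 2 ≤ cosh (y / 2) := by
      have h8 := cosh_two_mul (y / 4)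
      have h9 : (y / 4) ^ 2 ≤ sinh (y / 4) ^ 2 := by
        rw [sq_le_sq, abs_sinh]
        exact self_le_sinh_iff.2 (abs_nonneg _)
      rw [show 2 * (y / 4) = y / 2 by ring] at h8
      nlinarith [one_le_cosh (y / 4)]
    have h8 : 1 + y ^ 2 ≤ 128 * t := by nlinarith [sq_nonneg y]
    have h9 := sqJ_one hB h0 hR hb' y
    have h10 : y ^ 2 / (2 * b) ≤ y ^ 2 := div_le_self (sq_nonneg y) (by linarith)
    have h11 : 1 - b⁻¹ ≤ log b := one_sub_inv_le_log_of_pos h0
    have h12 : b⁻¹ ≤ 2 := inv_le_of_inv_le₀ two_pos (by linarith)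
    have h13 : |y| ≤ 1 + y ^ 2 := by nlinarith [sq_abs y, sq_nonneg (|y| - 1)]
    have h14 : (4 + R + |g|) * (1 + y ^ 2) ≤ (4 + R + |g|) * (128 * t) := by gcongr
    rw [← hg] at h9
    nlinarith [neg_abs_le g, sq_nonneg y, mul_nonneg hR (sq_nonneg y), mul_nonneg hg0 (sq_nonneg y)]

end trunc

theorem sq_pG (hk : IsPartition k m) (hr : IsPath k r) (hb : 1 / 2 ≤ bq k m r b 0) :
    pG k m r b k ≤ 4 * r k := by
  have p : ∀ j ≤ k, 1 / 2 ≤ bq k m r b j := fun j hj => hb.trans (bq_mono hk hr j.zero_le hj)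
  have q : ∀ x u v : ℝ, 0 ≤ x → 1 / 2 ≤ u → 1 / 2 ≤ v → x / (u * v) ≤ 4 * x := by
    intro x u v hx hu hv
    have h1 : 1 / 2 * (1 / 2) ≤ u * v := mul_le_mul hu hv (by norm_num) (by linarith)
    rw [div_le_iff₀ (by linarith)]
    nlinarith
  rw [← sum_inc r k, Finset.sum_range_succ', mul_add, Finset.mul_sum, pG, add_comm, sq]
  refine add_le_add (Finset.sum_le_sum fun i hi => ?_) (q _ _ _ hr.1 hb hb)
  have := Finset.mem_range.1 hi
  exact q _ _ _ (sub_nonneg.2 (hr.2 i this)) (p _ this) (p _ this.le)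

theorem psiNu_gB (R : ℝ) : ∃ C : ℝ, 0 ≤ C ∧ ∀ {B : ℝ} (_ : 1 ≤ B) {k : ℕ} {m r : ℕ → ℝ} {κ : ℝ}
    (_ : IsPartition k m) (_ : IsPath k r) (_ : r k ≤ R) (_ : -2 ≤ κ)
    (_ : 1 / 2 ≤ bq k m r (1 + r k - κ) 0),
    |psiNu (gB B) k m r κ - psiG k m r κ| ≤ C * exp (-B / 8) := by
  obtain ⟨C, hC, h⟩ := sqJ_ge (abs_nonneg R)
  refine ⟨C * exp ((|R| + 3) ^ 2 * (4 * |R|) / 2), by positivity, ?_⟩
  intro B hB k m r κ hk hr hR hκ hb
  have hR' := hR.trans (le_abs_self R)
  have h0 : 0 < B := by linarith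
  have h1 : 1 / 2 ≤ 1 + r k - κ := (hb.trans (bq_mono hk hr k.zero_le le_rfl)).trans_eq bq_last
  have h2 : 0 < 1 + r k - κ := by linarith
  have e1 : sqJ B 1 0 = (gaussianReal 0 1).real (Set.Icc (-B) B) := by simp [sqJ]
  have e2 : (fun y => log (∫ x, exp (x * y - x ^ 2 * (r k - κ) / 2) ∂gB B)) =
      fun y => log (sqJ B (1 + r k - κ) y) + -log (sqJ B 1 0) := by
    funext y
    rw [gB, ProbabilityTheory.cond, integral_smul_measure, ENNReal.toReal_inv, ← measureReal_def,
      ← e1, smul_eq_mul, ← log_inv, add_comm, ← log_mul (inv_pos.2 (sqJ_pos h0 one_pos 0)).ne'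
        (sqJ_pos h0 h2 y).ne', sqJ, sqJ]
    congr 3
    funext x
    congr 1
    ring
  have hE := (sqJ_env h0 h2).add_const (-log (sqJ B 1 0))
  have h3 := h B 1 0 hB (by norm_num) (by linarith [abs_nonneg R])
  have h4 := sqJ_le h0 one_pos 0
  simp only [log_one, zero_pow two_ne_zero, zero_div, sub_zero, cosh_zero, mul_one,
    zero_sub] at h3 h4
  have h5 := parisi_quad_le hk hr (by linarith) hE
    (c₀ := -log (1 + r k - κ) / 2 + C * exp (-B / 8)) fun y => by linarith [sqJ_le h0 h2 y]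
  have h6 := parisi_quad_ge hk hr (by linarith) hE (c₀ := -log (1 + r k - κ) / 2)
    (η := C * exp (-B / 8)) (by positivity) fun y => by
      linarith [h B _ y hB h1 (by linarith)]
  have h7 : exp ((1 + r k - κ) ^ 2 * pG k m r (1 + r k - κ) k / 2) ≤
      exp ((|R| + 3) ^ 2 * (4 * |R|) / 2) := by
    refine exp_le_exp.2 (div_le_div_of_nonneg_right ?_ two_pos.le)
    refine (mul_le_mul_of_nonneg_left ((sq_pG hk hr hb).trans (by linarith : _ ≤ 4 * |R|))
      (sq_nonneg _)).trans (mul_le_mul_of_nonneg_right ?_ (by positivity))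
    exact pow_le_pow_left₀ h2.le (by linarith) 2
  have h8 : 1 ≤ exp ((|R| + 3) ^ 2 * (4 * |R|) / 2) := one_le_exp (by positivity)
  have h9 : 0 ≤ C * exp (-B / 8) := by positivity
  rw [psiNu, e2, psiG, mul_right_comm, abs_le]
  constructor <;> nlinarith

end P157
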