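import Vale.Agent.P157.SpMom
import Vale.Agent.P157.GCond
import Vale.Agent.P157.SC1
import Vale.Agent.P157.SpQuad

/-! P157 SpExt: adding a coordinate on the sphere.
Plan. Let `μ₁ = gp.prod ((chi N).prod γ)` on `(Fin N → ℝ) × (ℝ × ℝ)`,
`q (x,(ρ,z)) = Fin.snoc ((ρ/√N) • sphSp x) z` (measure preserving onto `gp (Fin (N+1))`: `polar_mp`,
`measurePreserving_piFinSuccAbove` at `Fin.last`), `ε⁰ (ρ,z) = √(N+1) z/√(ρ²+z²)`; for `ρ > 0`,
`sphSp (N+1) (q c) = spx (sphSp N) ε⁰ c` and its last coordinate is `ε⁰`. So by `SW_comp`, `SA1_comp`,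
`SA2_comp` the `(N+1)`-system is the system on `μ₁` with `spx (sphSp N) ε⁰` (`spx_isSp`). Let
`E = {|ρ² - N| ≤ η N} ×ˢ Icc (-B) B`, `ν = cond ((chi N).prod γ) E = (cond chi ..).prod (gB B)`,
`ε = E.indicator ε⁰`, `ξ = E.indicator snd`; on `E`, `|ε - ξ| ≤ 2 B (η + (B²+1)/N)`. The truncated
system is the one on `μ₁` conditioned on `E' = (univ ×ˢ E) ×ˢ univ` (a.e. equal Hamiltonians:
`FE_congr_ae` etc.), so `FE_cond`, `A1_cond`, `A2_cond` apply. With `ϱ² = ρ² + z² = q·q` and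
`z = ε⁰ ϱ/√(N+1)`: `E'ᶜ ⊆ {|ε⁰| > B/2} ∪ {|ϱ² - (N+1)| > η N/4}` for `N` large, so
`A1 1_{E'ᶜ} ≤ 48/B⁴ + o(1)` (`sph_moment4`, `sph_radial`, `chi_conc`). Use `SA2_coord`, `SA1_coord`
(`sph_perm`) in the full system, and `|ε⁰ ε⁰'| (1 - 1_E 1_E') ≤ (B ε⁰² 1_{Eᶜ} + ε⁰'²/B)/2 + sym`,
`ε⁰² 1_{Eᶜ} ≤ (ε⁰⁴/B² + B² 1_{Eᶜ})/2`, to get all errors `≤ C/B`. Choose `η ≤ 1/2` with
`8 B² · 2Bη ≤ min τ₀ 1`.
-/

open MeasureTheory ProbabilityTheory Real
open scoped BigOperators Matrix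

namespace P157

section abs
variable {Ω S : Type} [MeasurableSpace Ω] [MeasurableSpace S] {P : Measure Ω}
  [IsProbabilityMeasure P] {μ : Measure S} [IsProbabilityMeasure μ] {H : Ω → S → ℝ} {E : Set S}

theorem spe_bd {g : S → ℝ} (hg : Measurable g) {C : ℝ} (h : ∀ σ, |g σ| ≤ C) :
    Bd1 (fun (_ : Ω) σ => g σ) C := ⟨hg.comp measurable_snd, fun _ σ => h σ⟩

theorem spe_pow {g : S → ℝ} (hg : Measurable g) {C : ℝ} (h : ∀ σ, |g σ| ≤ C) (n : ℕ) :
    Bd1 (fun (_ : Ω) σ => g σ ^ n) (C ^ n) :=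
  spe_bd (hg.pow_const n) fun σ => by
    rw [abs_pow]; exact pow_le_pow_left₀ (abs_nonneg _) (h σ) n

theorem spe_ind (hE : MeasurableSet E) : Bd1 (fun (_ : Ω) σ => E.indicator (1 : S → ℝ) σ) 1 :=
  spe_bd (measurable_one.indicator hE) fun σ => by
    by_cases h : σ ∈ E <;> simp [h]

theorem spe_amgm {B : ℝ} (hB : 0 < B) (x y : ℝ) : |x * y| ≤ (B * x ^ 2 + B⁻¹ * y ^ 2) / 2 := by
  have h : B⁻¹ * (B * |x| - |y|) ^ 2 = B * x ^ 2 + B⁻¹ * y ^ 2 - 2 * (|x| * |y|) := by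
    rw [← sq_abs x, ← sq_abs y]; field_simp; ring
  have : 0 ≤ B⁻¹ * (B * |x| - |y|) ^ 2 := by positivity
  rw [abs_mul]
  linarith

theorem spe_abs (h : Good P H) (hE : MeasurableSet E) (h0 : μ E ≠ 0) {e ξ : S → ℝ}
    (me : Measurable e) (mξ : Measurable ξ) {A B : ℝ} (hB : 2 ≤ B) (be : ∀ σ, |e σ| ≤ A)
    (bξ : ∀ σ, |ξ σ| ≤ B) (hξ : ∀ σ ∉ E, ξ σ = 0) (hcl : ∀ σ ∈ E, |e σ - ξ σ| ≤ B⁻¹)
    (hβ : A1 P μ H (fun _ σ => Eᶜ.indicator 1 σ) ≤ 49 * B⁻¹ ^ 4)
    (h2 : A1 P μ H (fun _ σ => e σ ^ 2) = 1) (h4 : A1 P μ H (fun _ σ => e σ ^ 4) ≤ 3) :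
    |A1 P (ProbabilityTheory.cond μ E) H (fun _ σ => ξ σ ^ 2) - 1| ≤ 200 / B ∧
    ∀ R I : S → S → ℝ, Bd2 (fun (_ : Ω) => R) 1 → Bd2 (fun (_ : Ω) => I) 1 →
      A2 P μ H (fun _ σ σ' => e σ * e σ' * I σ σ') = A2 P μ H (fun _ σ σ' => R σ σ' * I σ σ') →
      |A2 P (ProbabilityTheory.cond μ E) H (fun _ σ σ' => ξ σ * ξ σ' * I σ σ') -
        A2 P (ProbabilityTheory.cond μ E) H (fun _ σ σ' => R σ σ' * I σ σ')| ≤ 200 / B := by
  have hB0 : 0 < B := by linarith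
  set u := B⁻¹ with hu
  have hu0 : 0 < u := inv_pos.2 hB0
  have huB : B * u = 1 := mul_inv_cancel₀ hB0.ne'
  have hu1 : u ≤ 1 / 2 := by nlinarith
  have hu2 : u ^ 2 ≤ u / 2 := by nlinarith
  have hu4 : u ^ 4 ≤ u / 8 := by nlinarith [sq_nonneg u, mul_le_mul hu2 hu2 (sq_nonneg u) (by linarith)]
  have hB2 : B ^ 2 * u ^ 4 = u ^ 2 := by
    rw [show B ^ 2 * u ^ 4 = (B * u) ^ 2 * u ^ 2 by ring, huB]; ring
  have hB1 : B * u ^ 2 = u := by
    rw [show B * u ^ 2 = (B * u) * u by ring, huB]; ring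
  rw [div_eq_mul_inv, ← hu]
  set β := A1 P μ H (fun _ σ => Eᶜ.indicator 1 σ) with hβd
  have hβ0 : 0 ≤ β := A1_nonneg fun _ σ => Set.indicator_nonneg (fun _ _ => zero_le_one) σ
  have hβ2 : B ^ 2 * β ≤ 49 * u ^ 2 := by nlinarith [sq_nonneg B]
  have bd : ∀ σ, |ξ σ - e σ| ≤ B + A := fun σ => gb_sub (bξ σ) (be σ)
  have gI := (spe_ind (Ω := Ω) hE.compl).good (P := P)
  have ge2 := (spe_pow (Ω := Ω) me be 2).good (P := P)
  have ge4 := (spe_pow (Ω := Ω) me be 4).good (P := P)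
  have gd2 := (spe_pow (Ω := Ω) (g := fun σ => ξ σ - e σ) (mξ.sub me) bd 2).good (P := P)
  have hd : A1 P μ H (fun _ σ => (ξ σ - e σ) ^ 2) ≤ 27 * u ^ 2 := by
    have h1 := A1_mono (μ := μ) h gd2 (((Good.const (u ^ 2)).add (ge4.const_mul (u ^ 2 / 2))).add
      (gI.const_mul (B ^ 2 / 2))) fun _ σ => by
        by_cases hσ : σ ∈ E
        · have := hcl σ hσ
          rw [abs_sub_comm, ← sq_le_sq₀ (abs_nonneg _) hu0.le, sq_abs] at this
          have h3 : 0 ≤ u ^ 2 / 2 * e σ ^ 4 := by positivity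
          simp only [Set.indicator_of_notMem (Set.notMem_compl_iff.2 hσ)]
          linarith
        · simp only [Set.indicator_of_mem (Set.mem_compl hσ), hξ σ hσ, Pi.one_apply]
          have e1 : (u * e σ ^ 2 - B) ^ 2 = u ^ 2 * e σ ^ 4 - 2 * (B * u) * e σ ^ 2 + B ^ 2 := by ring
          rw [huB] at e1
          nlinarith [sq_nonneg (u * e σ ^ 2 - B), sq_nonneg u]
    rw [A1_add h ((Good.const _).add (ge4.const_mul _)) (gI.const_mul _),
      A1_add h (Good.const _) (ge4.const_mul _), A1_const h, A1_const_mul, A1_const_mul] at h1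
    change _ ≤ _ + _ * β at h1
    nlinarith [sq_nonneg u]
  have gW := (gd2.const_mul ((1 + B) / 2)).add (ge2.const_mul (u / 2))
  have hW : A1 P μ H (fun _ σ => (1 + B) / 2 * (ξ σ - e σ) ^ 2 + u / 2 * e σ ^ 2) ≤ 21 * u := by
    rw [A1_add h (gd2.const_mul _) (ge2.const_mul _), A1_const_mul, A1_const_mul, h2]
    nlinarith
  have hp : ∀ σ σ', |ξ σ * ξ σ' - e σ * e σ'| ≤ ((1 + B) / 2 * (ξ σ - e σ) ^ 2 + u / 2 * e σ ^ 2) +
      ((1 + B) / 2 * (ξ σ' - e σ') ^ 2 + u / 2 * e σ' ^ 2) := by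
    intro σ σ'
    have e1 : ξ σ * ξ σ' - e σ * e σ' = (ξ σ - e σ) * (ξ σ' - e σ') + (ξ σ - e σ) * e σ' +
      (ξ σ' - e σ') * e σ := by ring
    have a1 := spe_amgm one_pos (ξ σ - e σ) (ξ σ' - e σ')
    have a2 := spe_amgm hB0 (ξ σ - e σ) (e σ')
    have a3 := spe_amgm hB0 (ξ σ' - e σ') (e σ)
    have := gb_add (gb_add a1 a2) a3
    rw [e1]
    rw [← hu, inv_one] at this
    linarith
  have bξ1 := spe_bd (Ω := Ω) mξ bξ
  have be1 := spe_bd (Ω := Ω) me be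
  refine ⟨?_, fun R I hR hI hRI => ?_⟩
  · have bξ2 := spe_pow (Ω := Ω) mξ bξ 2
    have h1 := A1_cond h hE h0 bξ2
    have e1 : (fun (_ : Ω) σ => E.indicator (fun σ => ξ σ ^ 2) σ) = fun _ σ => ξ σ ^ 2 := by
      funext _ σ
      by_cases hσ : σ ∈ E <;> simp [hσ, hξ σ]
    rw [e1] at h1
    have h3 := (abs_A1_le (μ := μ) h (bξ2.good.sub ge2)).trans
      (A1_mono h (bξ2.good.sub ge2).abs (gW.add gW) fun _ σ => by
        simpa only [sq] using hp σ σ)
    rw [A1_add h gW gW, A1_sub h bξ2.good ge2, h2] at h3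
    have := abs_sub_le (A1 P (ProbabilityTheory.cond μ E) H fun _ σ => ξ σ ^ 2)
      (A1 P μ H fun _ σ => ξ σ ^ 2) 1
    change _ ≤ _ * β at h1
    linarith
  · have b1 := (bξ1.fst2.mul bξ1.snd2).mul hI
    have b2 := (be1.fst2.mul be1.snd2).mul hI
    have b3 := hR.mul hI
    have bE := spe_ind (Ω := Ω) hE
    have b4 := (bE.fst2.mul bE.snd2).mul b3
    have h1 := A2_cond h hE h0 b1
    have h3 := A2_cond h hE h0 b3
    have e1 : (fun (_ : Ω) σ σ' => E.indicator (1 : S → ℝ) σ * E.indicator (1 : S → ℝ) σ' *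
        (ξ σ * ξ σ' * I σ σ')) = fun _ σ σ' => ξ σ * ξ σ' * I σ σ' := by
      funext _ σ σ'
      by_cases hσ : σ ∈ E <;> by_cases hσ' : σ' ∈ E <;> simp [hσ, hσ', hξ σ, hξ σ']
    rw [e1] at h1
    have h5 := (abs_A2_le (μ := μ) h (b1.good2.sub b2.good2)).trans
      (A2_mono h (b1.good2.sub b2.good2).abs (gW.fst2.add gW.snd2) fun ω σ σ' => by
        rw [← sub_mul]
        simpa only [mul_one] using gb_mul (hp σ σ') (hI.bdd ω σ σ'))
    rw [A2_add h gW.fst2 gW.snd2, A2_fst h, A2_snd h, A2_sub h b1.good2 b2.good2, hRI] at h5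
    have h6 := (abs_A2_le (μ := μ) h (b3.good2.sub b4.good2)).trans
      (A2_mono h (b3.good2.sub b4.good2).abs (gI.fst2.add gI.snd2) fun ω σ σ' => by
        have := b3.bdd ω σ σ'
        by_cases hσ : σ ∈ E <;> by_cases hσ' : σ' ∈ E <;> simp [hσ, hσ'] at this ⊢ <;> linarith)
    rw [A2_add h gI.fst2 gI.snd2, A2_fst h, A2_snd h, A2_sub h b3.good2 b4.good2] at h6
    change _ ≤ _ * β at h1 h3
    change _ ≤ β + β at h6
    rw [show 2 * (B * B * 1) * β = 2 * (B ^ 2 * β) by ring] at h1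
    rw [abs_le] at h1 h3 h5 h6 ⊢
    constructor <;> linarith [h1.1, h1.2, h3.1, h3.2, h5.1, h5.2, h6.1, h6.2]

end abs

/-- last coordinate after normalisation -/
noncomputable def speE (N : ℕ) (p : ℝ × ℝ) : ℝ := √((N : ℝ) + 1) * p.2 / √(p.1 ^ 2 + p.2 ^ 2)

/-- polar coordinates in the first `N` variables -/
noncomputable def speQ (N : ℕ) (c : (Fin N → ℝ) × (ℝ × ℝ)) : Fin (N + 1) → ℝ :=
  Fin.snoc (α := fun _ => ℝ) ((c.2.1 / √(N : ℝ)) • sphSp N c.1) c.2.2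

variable {N : ℕ}

theorem speE_meas : Measurable (speE N) := by unfold speE; fun_prop

theorem speE_sq (p : ℝ × ℝ) : speE N p ^ 2 * (p.1 ^ 2 + p.2 ^ 2) = (N + 1) * p.2 ^ 2 := by
  have h0 : 0 ≤ p.1 ^ 2 + p.2 ^ 2 := by positivity
  rw [speE, div_pow, mul_pow, sq_sqrt h0, sq_sqrt (by positivity)]
  rcases h0.eq_or_lt with h | h
  · have : p.2 ^ 2 = 0 := by nlinarith [sq_nonneg p.1, sq_nonneg p.2]
    rw [this]; simp
  · field_simp

theorem speE_le (p : ℝ × ℝ) : speE N p ^ 2 ≤ N + 1 := by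
  have h0 : 0 ≤ p.1 ^ 2 + p.2 ^ 2 := by positivity
  rcases h0.eq_or_lt with h | h
  · rw [speE, ← h]; simp; positivity
  · have := speE_sq (N := N) p
    refine le_of_mul_le_mul_right ?_ h
    have : (0 : ℝ) ≤ (N + 1) * p.1 ^ 2 := by positivity
    nlinarith

theorem speQ_mp (hN : 0 < N) : MeasurePreserving (speQ N)
    ((gp (Fin N)).prod ((chi N).prod (gaussianReal 0 1))) (gp (Fin (N + 1))) := by
  have h1 := (measurePreserving_prodAssoc (gp (Fin N)) (chi N) (gaussianReal 0 1)).symm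
  have h2 := (polar_mp hN).prod (MeasurePreserving.id (gaussianReal 0 1))
  have h3 := Measure.measurePreserving_swap (μ := gp (Fin N)) (ν := gaussianReal 0 1)
  have h4 := (measurePreserving_piFinSuccAbove (fun _ : Fin (N + 1) => gaussianReal 0 1)
    (Fin.last N)).symm
  convert h4.comp (h3.comp (h2.comp h1)) using 1
  funext c
  exact (Fin.insertNth_last' _ _).symm

theorem speQ_dot (hN : 0 < N) (c : (Fin N → ℝ) × (ℝ × ℝ)) :
    speQ N c ⬝ᵥ speQ N c = c.2.1 ^ 2 + c.2.2 ^ 2 := by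
  have h0 : (0 : ℝ) < N := by exact_mod_cast hN
  have h1 := (sphSp_isSp N).norm c.1
  have h2 : ((c.2.1 / √(N : ℝ)) • sphSp N c.1) ⬝ᵥ ((c.2.1 / √(N : ℝ)) • sphSp N c.1) =
      c.2.1 ^ 2 := by
    rw [smul_dotProduct, dotProduct_smul, h1, smul_eq_mul, smul_eq_mul, ← mul_assoc, ← sq, div_pow,
      sq_sqrt h0.le]
    field_simp
  rw [← h2, dotProduct, Fin.sum_univ_castSucc]
  simp [speQ, dotProduct, sq]

theorem speQ_sp (hN : 0 < N) {c : (Fin N → ℝ) × (ℝ × ℝ)} (hc : 0 < c.2.1) :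
    spx (sphSp N) (speE N) c = sphSp (N + 1) (speQ N c) := by
  have h0 : (0 : ℝ) < N := by exact_mod_cast hN
  have h1 : 0 < c.2.1 ^ 2 + c.2.2 ^ 2 := by positivity
  have h2 : speQ N c ≠ 0 := fun h => by
    have := speQ_dot hN c
    rw [h, zero_dotProduct] at this
    exact h1.ne this
  rw [sphSp, if_neg h2, speQ_dot hN]
  funext i
  induction i using Fin.lastCases with
  | last => simp [spx, ext, speQ, speE]; ring
  | cast i =>
    have h3 : √(((N : ℝ) + 1 - speE N c.2 ^ 2) / N) =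
        √((N : ℝ) + 1) / √(c.2.1 ^ 2 + c.2.2 ^ 2) * (c.2.1 / √(N : ℝ)) := by
      rw [sqrt_eq_iff_mul_self_eq_of_pos (by positivity), ← sq, mul_pow, div_pow, div_pow,
        sq_sqrt h1.le, sq_sqrt h0.le, sq_sqrt (by positivity),
        eq_div_of_mul_eq h1.ne' (speE_sq c.2)]
      field_simp
      ring
    simp [spx, ext, speQ, h3, mul_assoc]

theorem spe_cond {α β : Type} [MeasurableSpace α] [MeasurableSpace β] (μ : Measure α)
    (ν : Measure β) [IsProbabilityMeasure μ] [IsProbabilityMeasure ν] {s : Set α} {t : Set β}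
    (hs : μ s ≠ 0) : ProbabilityTheory.cond (μ.prod ν) (s ×ˢ t) =
      (ProbabilityTheory.cond μ s).prod (ProbabilityTheory.cond ν t) := by
  unfold ProbabilityTheory.cond
  rw [Measure.prod_prod, Measure.prod_smul_left, Measure.prod_smul_right, Measure.prod_restrict,
    smul_smul, ENNReal.mul_inv (Or.inl hs) (Or.inl (measure_ne_top _ _))]

theorem spe_cheb {B : ℝ} (hB : 0 < B) : (gaussianReal 0 1).real (Set.Icc (-B) B)ᶜ ≤ B⁻¹ ^ 2 := by
  have h := meas_ge_le_variance_div_sq (μ := gaussianReal 0 1) (X := id)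
    (memLp_id_gaussianReal 2) hB
  rw [variance_id_gaussianReal] at h
  simp only [id, integral_id_gaussianReal, sub_zero, NNReal.coe_one] at h
  refine ENNReal.toReal_le_of_le_ofReal (by positivity) ((measure_mono fun z hz => ?_).trans
    (h.trans_eq (by rw [inv_pow, one_div])))
  rw [Set.mem_compl_iff, Set.mem_Icc, ← abs_le, not_le] at hz
  exact hz.le

/-- the good event -/
def speS (N : ℕ) (η B : ℝ) : Set (ℝ × ℝ) := {r : ℝ | |r ^ 2 - N| ≤ η * N} ×ˢ Set.Icc (-B) B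

theorem speS_meas1 (η : ℝ) : MeasurableSet {r : ℝ | |r ^ 2 - N| ≤ η * N} :=
  measurableSet_le (by fun_prop) measurable_const

theorem speS_meas (η B : ℝ) : MeasurableSet (speS N η B) := (speS_meas1 η).prod measurableSet_Icc

theorem speS_close {η B : ℝ} (hη : η ≤ 1 / 2) (hN : 1 + B ^ 2 ≤ η * N / 2) {p : ℝ × ℝ}
    (hp : p ∈ speS N η B) : |speE N p - p.2| ≤ 4 * B * η := by
  obtain ⟨h1, h2⟩ := hp
  have h3 : |p.2| ≤ B := abs_le.2 h2
  have h1' := abs_le.1 (show |p.1 ^ 2 - N| ≤ η * N from h1)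
  have hN0 : (0 : ℝ) ≤ N := Nat.cast_nonneg N
  have h4 : p.2 ^ 2 ≤ B ^ 2 := by rw [← sq_abs]; exact pow_le_pow_left₀ (abs_nonneg _) h3 2
  have h5 : 0 < η * N := by nlinarith [sq_nonneg B]
  have hη0 : 0 < η := (pos_iff_pos_of_mul_pos h5).2 (hN0.lt_of_ne fun h => by simp [← h] at h5)
  have h6 : (N : ℝ) / 2 ≤ p.1 ^ 2 + p.2 ^ 2 := by nlinarith [sq_nonneg p.2]
  have h7 : (0 : ℝ) < N := (pos_iff_pos_of_mul_pos h5).1 hη0
  set r := √(p.1 ^ 2 + p.2 ^ 2) with hr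
  set s := √((N : ℝ) + 1) with hs
  have hr2 : r ^ 2 = p.1 ^ 2 + p.2 ^ 2 := sq_sqrt (by positivity)
  have hs2 : s ^ 2 = N + 1 := sq_sqrt (by positivity)
  have hr0 : 0 < r := sqrt_pos.2 (by linarith)
  have hs0 : 0 ≤ s := sqrt_nonneg _
  have h8 : |s - r| ≤ 4 * η * r := by
    refine le_of_mul_le_mul_right ?_ (add_pos_of_nonneg_of_pos hs0 hr0)
    rw [← abs_of_pos (add_pos_of_nonneg_of_pos hs0 hr0), ← abs_mul,
      abs_of_pos (add_pos_of_nonneg_of_pos hs0 hr0), show (s - r) * (s + r) = s ^ 2 - r ^ 2 by ring]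
    have h9 : 0 ≤ η * r * s := by positivity
    have h10 : η * (N / 2) ≤ η * r ^ 2 := mul_le_mul_of_nonneg_left (by linarith) hη0.le
    rw [abs_le]
    constructor <;> nlinarith [sq_nonneg p.2, sq_nonneg B]
  have e : speE N p - p.2 = p.2 * ((s - r) / r) := by
    rw [speE, ← hr, ← hs]; field_simp
  have h9 : |(s - r) / r| ≤ 4 * η := by rwa [abs_div, abs_of_pos hr0, div_le_iff₀ hr0]
  rw [e]
  exact (gb_mul h3 h9).trans_eq (by ring)

theorem speS_compl {η B : ℝ} (hη : η ≤ 1 / 2) (hB : 0 < B) (hN : 1 + B ^ 2 ≤ η * N / 2)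
    {p : ℝ × ℝ} (hp : p ∉ speS N η B) : 1 ≤ 16 * B⁻¹ ^ 4 * speE N p ^ 4 ∨
      η / 4 * ((N + 1 : ℕ) : ℝ) < |√(p.1 ^ 2 + p.2 ^ 2) ^ 2 - ((N + 1 : ℕ) : ℝ)| := by
  by_contra hc
  rw [not_or, not_le, not_lt, sq_sqrt (by positivity), abs_le] at hc
  push_cast at hc
  obtain ⟨h1, h2, h3⟩ := hc
  have hN0 : (0 : ℝ) ≤ N := Nat.cast_nonneg N
  have h4 : speE N p ^ 2 ≤ B ^ 2 / 4 := by
    have h5 : (4 * B⁻¹ ^ 2 * speE N p ^ 2) ^ 2 < 1 := by linarith
    have h6 := (sq_lt_one_iff₀ (by positivity)).1 h5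
    have h7 : B ^ 2 * (4 * B⁻¹ ^ 2 * speE N p ^ 2) = 4 * speE N p ^ 2 := by field_simp
    nlinarith [sq_nonneg B]
  have h5 : p.2 ^ 2 ≤ B ^ 2 := by
    have h6 := speE_sq (N := N) p
    have h7 : speE N p ^ 2 * (p.1 ^ 2 + p.2 ^ 2) ≤ B ^ 2 / 4 * (4 * (N + 1)) :=
      mul_le_mul h4 (by nlinarith) (by positivity) (by positivity)
    exact le_of_mul_le_mul_left (a := (N : ℝ) + 1) (by linarith) (by positivity)
  refine hp ⟨?_, abs_le.1 (abs_le_of_sq_le_sq' h5 hB.le |> abs_le.2)⟩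
  show |p.1 ^ 2 - N| ≤ η * N
  rw [abs_le]
  constructor <;> nlinarith [sq_nonneg p.2, sq_nonneg B]

theorem speS_real {η B : ℝ} (hN : 0 < N) (hη : 0 < η) (hB : 2 ≤ B)
    (h : 2 / (η ^ 2 * N) ≤ B⁻¹ ^ 2) :
    1 / 2 ≤ ((chi N).prod (gaussianReal 0 1)).real (speS N η B) ∧
      -(2 * B⁻¹) ≤ log (((chi N).prod (gaussianReal 0 1)).real (speS N η B)) := by
  have hB0 : 0 < B := by linarith
  have h1 := spe_cheb hB0
  have h2 : (chi N).real {r : ℝ | |r ^ 2 - N| ≤ η * N}ᶜ ≤ B⁻¹ ^ 2 := by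
    refine le_trans ?_ ((chi_conc hN hη).trans h)
    simp only [Set.compl_ofPred, not_le, le_refl]
  rw [probReal_compl_eq_one_sub measurableSet_Icc] at h1
  rw [probReal_compl_eq_one_sub (speS_meas1 η)] at h2
  have hu0 : 0 < B⁻¹ := inv_pos.2 hB0
  have hu1 : B⁻¹ ≤ 1 / 2 := by rw [one_div]; exact inv_anti₀ two_pos hB
  rw [speS, measureReal_prod_prod]
  set a := (chi N).real {r : ℝ | |r ^ 2 - N| ≤ η * N}
  set c := (gaussianReal 0 1).real (Set.Icc (-B) B)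
  set u := B⁻¹
  have h3 : (1 - u ^ 2) * (1 - u ^ 2) ≤ a * c :=
    mul_le_mul (by linarith) (by linarith) (by nlinarith) measureReal_nonneg
  have h4 : 1 - u ≤ a * c := by nlinarith [sq_nonneg (u ^ 2)]
  have h5 : 1 / 2 ≤ a * c := by linarith
  refine ⟨h5, le_trans ?_ (one_sub_inv_le_log_of_pos (by linarith))⟩
  have : (a * c)⁻¹ ≤ 1 + 2 * u := by
    rw [inv_le_comm₀ (by linarith) (by linarith), inv_eq_one_div, div_le_iff₀ (by linarith)]
    nlinarith
  linarith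

section full
variable {L k n₀ M : ℕ} {f : ℝ → ℝ} {K : ℝ} {m : ℕ → ℝ} {b : TT n₀ k → ℝ}

theorem spe_ae (hN : 0 < N) : ∀ᵐ c ∂((gp (Fin N)).prod ((chi N).prod (gaussianReal 0 1))),
    spx (sphSp N) (speE N) c = sphSp (N + 1) (speQ N c) := by
  have h := (Measure.quasiMeasurePreserving_fst.comp (Measure.quasiMeasurePreserving_snd
    (μ := gp (Fin N)) (ν := (chi N).prod (gaussianReal 0 1)))).ae (chi_pos hN)
  filter_upwards [h] with c hc using speQ_sp hN hc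

theorem spe_last (c : (Fin N → ℝ) × (ℝ × ℝ)) :
    spx (sphSp N) (speE N) c (Fin.last N) = speE N c.2 := by simp [spx, ext]

theorem spe_A1 (hN : 0 < N) (hL : 0 < L) (hf : Measurable f) (hK : ∀ y, |f y| ≤ K) (n : ℕ) :
    SA1 L k n₀ M f m ((gp (Fin N)).prod ((chi N).prod (gaussianReal 0 1))) (spx (sphSp N) (speE N))
      b (fun _ c => speE N c.1.2 ^ n) = SA1 L k n₀ M f m (gp (Fin (N + 1))) (sphSp (N + 1)) b
      (fun _ c => sphSp (N + 1) c.1 (Fin.last N) ^ n) := by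
  have := unif_prob hL k
  have h := sphSp_isSp (N + 1)
  rw [← SA1_comp h hL hf hK (speQ_mp hN) (spe_ae hN) (spe_pow
    (g := fun c : _ × Leaf L k => sphSp (N + 1) c.1 (Fin.last N)) ((measurable_pi_apply _).comp (h.meas.comp measurable_fst))
    (fun c : _ × Leaf L k => sb_coord h c.1 (Fin.last N)) n).good]
  refine A1_congr_ae (fun _ => Filter.EventuallyEq.rfl) fun _ => ?_
  filter_upwards [si_ae (k := k) hL (spe_ae hN)] with c hc
  rw [← spe_last, hc]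

theorem spe_A2 (hN : 0 < N) (hL : 0 < L) (hf : Measurable f) (hK : ∀ y, |f y| ≤ K) (j : ℕ) :
    SA2 L k n₀ M f m ((gp (Fin N)).prod ((chi N).prod (gaussianReal 0 1))) (spx (sphSp N) (speE N))
      b (fun _ c c' => speE N c.1.2 * speE N c'.1.2 * ind j c.2 c'.2) =
    SA2 L k n₀ M f m ((gp (Fin N)).prod ((chi N).prod (gaussianReal 0 1))) (spx (sphSp N) (speE N))
      b (fun _ c c' => ov (spx (sphSp N) (speE N) c.1) (spx (sphSp N) (speE N) c'.1) *
        ind j c.2 c'.2) := by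
  have := unif_prob hL k
  have h := sphSp_isSp (N + 1)
  have h1 := SA2_coord (L := L) (k := k) (n₀ := n₀) (M := M) (m := m) (b := b) h N.succ_pos hL hf hK
    (sph_perm N.succ_pos) (Fin.last N) j
  have b1 := spe_bd (Ω := SO L k n₀ (N + 1) M)
    (g := fun c : _ × Leaf L k => sphSp (N + 1) c.1 (Fin.last N))
    ((measurable_pi_apply _).comp (h.meas.comp measurable_fst))
    (fun c : _ × Leaf L k => sb_coord h c.1 (Fin.last N))
  rw [← SA2_comp h hL hf hK (speQ_mp hN) (spe_ae hN)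
      ((b1.fst2.mul b1.snd2).mul (bd2_ind measurable_snd j)).good2,
    ← SA2_comp h hL hf hK (speQ_mp hN) (spe_ae hN)
      ((bd2_ov h.fst).mul (bd2_ind measurable_snd j)).good2] at h1
  refine (A2_congr_ae (fun _ => Filter.EventuallyEq.rfl) (si_ae (k := k) hL (spe_ae hN))
    fun _ c hc c' hc' => ?_).trans (h1.trans (A2_congr_ae (fun _ => Filter.EventuallyEq.rfl)
      (si_ae (k := k) hL (spe_ae hN)) fun _ c hc c' hc' => ?_))
  · rw [← spe_last, ← spe_last, hc, hc']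
  · rw [hc, hc']

theorem spe_beta (hN : 0 < N) (hL : 0 < L) (hf : Measurable f) (hK : ∀ y, |f y| ≤ K) {η B : ℝ}
    (hη0 : 0 < η) (hη : η ≤ 1 / 2) (hB : 0 < B) (hN1 : 1 + B ^ 2 ≤ η * N / 2)
    (hN2 : 2 / ((η / 4) ^ 2 * ((N + 1 : ℕ) : ℝ)) ≤ B⁻¹ ^ 4) :
    SA1 L k n₀ M f m ((gp (Fin N)).prod ((chi N).prod (gaussianReal 0 1))) (spx (sphSp N) (speE N))
      b (fun _ c => ((Set.univ ×ˢ speS N η B) ×ˢ Set.univ)ᶜ.indicator 1 c) ≤ 49 * B⁻¹ ^ 4 := by
  have := unif_prob hL k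
  have h := sphSp_isSp (N + 1)
  have hH := SH_good (L := L) (M := M) (m := m) (b := b)
    (spx_isSp (sphSp_isSp N) hN speE_meas speE_le) hf hK
  set D := {r : ℝ | η / 4 * ((N + 1 : ℕ) : ℝ) < |r ^ 2 - ((N + 1 : ℕ) : ℝ)|} with hD
  have mD : MeasurableSet D := measurableSet_lt measurable_const (by fun_prop)
  have b0 : Bd1 (fun (_ : SO L k n₀ (N + 1) M) (c : (Fin (N + 1) → ℝ) × Leaf L k) =>
      D.indicator (1 : ℝ → ℝ) √(c.1 ⬝ᵥ c.1)) 1 :=
    (spe_ind (Ω := SO L k n₀ (N + 1) M) mD).comp measurable_id (by unfold dotProduct; fun_prop)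
  have h1 := (SA1_comp (m := m) (b := b) h hL hf hK (speQ_mp hN) (spe_ae hN) b0.good).trans
    (sph_radial N.succ_pos hL hf hK mD)
  have h2 := (spe_A1 (M := M) (m := m) (b := b) hN hL hf hK 4).trans_le
    (sph_moment4 N.succ_pos hL hf hK _)
  have h3 := (chi_conc N.succ_pos (η := η / 4) (by positivity)).trans hN2
  have g1 := (spe_pow (Ω := SO L k n₀ (N + 1) M)
    (g := fun c : ((Fin N → ℝ) × (ℝ × ℝ)) × Leaf L k => speE N c.1.2)
    (speE_meas.comp measurable_fst.snd) (fun c => abs_le_sqrt (speE_le c.1.2)) 4).good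
    (P := SP L k n₀ (N + 1) M m)
  have g2 := (b0.comp (Ω' := SO L k n₀ (N + 1) M) measurable_id
    (si_mp (k := k) hL (speQ_mp hN)).measurable).good (P := SP L k n₀ (N + 1) M m)
  have h4 := A1_mono (μ := ((gp (Fin N)).prod ((chi N).prod (gaussianReal 0 1))).prod (unif L k)) hH
    (spe_ind ((MeasurableSet.univ.prod (speS_meas η B)).prod MeasurableSet.univ).compl).good
    ((g1.const_mul (16 * B⁻¹ ^ 4)).add g2) fun _ c => by
      have p1 : 0 ≤ 16 * B⁻¹ ^ 4 * speE N c.1.2 ^ 4 := by positivity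
      have p2 : 0 ≤ D.indicator (1 : ℝ → ℝ) √(speQ N c.1 ⬝ᵥ speQ N c.1) :=
        Set.indicator_nonneg (fun _ _ => zero_le_one) _
      by_cases hc : c.1.2 ∈ speS N η B
      · rw [Set.indicator_of_notMem (by simpa using hc)]
        exact add_nonneg p1 p2
      rw [Set.indicator_of_mem (by simpa using hc), Pi.one_apply]
      rcases speS_compl hη hB hN1 hc with h5 | h5
      · exact h5.trans (le_add_of_nonneg_right p2)
      · rw [← speQ_dot hN] at h5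
        rw [Set.indicator_of_mem (show _ ∈ D from h5), Pi.one_apply]
        exact le_add_of_nonneg_left p1
  rw [A1_add hH (g1.const_mul _) g2, A1_const_mul] at h4
  unfold SA1 at h1 h2 ⊢
  rw [h1] at h4
  have : 0 ≤ B⁻¹ ^ 4 := by positivity
  nlinarith

end full

theorem sph_ext : ∃ C : ℝ, 0 ≤ C ∧ ∀ {f : ℝ → ℝ} (_ : Measurable f) {K : ℝ} (_ : ∀ y, |f y| ≤ K)
    {B : ℝ} (_ : 2 ≤ B), ExtH (fun N => gp (Fin N)) sphSp f (2 * B) (gB B) (C / B) := by
  refine ⟨200, by norm_num, fun {f} hf {K} hK {B} hB τ₀ hτ => ?_⟩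
  have hB0 : 0 < B := by linarith
  have hu0 : 0 < B⁻¹ := inv_pos.2 hB0
  have hu1 : B⁻¹ ≤ 1 / 2 := by rw [one_div]; exact inv_anti₀ two_pos hB
  obtain ⟨η, hη0, hη1, hη2⟩ : ∃ η : ℝ, 0 < η ∧ 4 * B * η ≤ B⁻¹ ∧ 4 * B * η ≤ τ₀ :=
    ⟨min B⁻¹ τ₀ / (4 * B), by positivity, by rw [mul_div_cancel₀ _ (by positivity)]; simp,
      by rw [mul_div_cancel₀ _ (by positivity)]; simp⟩
  have hη : η ≤ 1 / 2 := by nlinarith
  filter_upwards [tendsto_natCast_atTop_atTop.eventually_ge_atTop (2 * (1 + B ^ 2) / η),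
    tendsto_natCast_atTop_atTop.eventually_ge_atTop (32 * B ^ 4 / η ^ 2),
    Filter.eventually_gt_atTop 0] with N hN1 hN2 hN
  have hN0 : (0 : ℝ) < N := by exact_mod_cast hN
  rw [div_le_iff₀ hη0] at hN1
  rw [div_le_iff₀ (by positivity)] at hN2
  replace hN1 : 1 + B ^ 2 ≤ η * N / 2 := by linarith
  have hN3 : 2 / ((η / 4) ^ 2 * ((N + 1 : ℕ) : ℝ)) ≤ B⁻¹ ^ 4 := by
    rw [inv_pow, inv_eq_one_div, div_le_div_iff₀ (by positivity) (by positivity)]
    push_cast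
    nlinarith [sq_nonneg η]
  have hN4 : 2 / (η ^ 2 * N) ≤ B⁻¹ ^ 2 := by
    rw [inv_pow, inv_eq_one_div, div_le_div_iff₀ (by positivity) (by positivity)]
    have : 4 ≤ B ^ 2 := by nlinarith
    nlinarith
  obtain ⟨r1, r2⟩ := speS_real hN hη0 hB hN4
  have mS := speS_meas (N := N) η B
  have s0 : ((chi N).prod (gaussianReal 0 1)) (speS N η B) ≠ 0 := fun h => by
    rw [measureReal_def, h] at r1; norm_num at r1
  have s1 : chi N {r : ℝ | |r ^ 2 - N| ≤ η * N} ≠ 0 := by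
    rw [speS, Measure.prod_prod] at s0; exact left_ne_zero_of_mul s0
  have bξ : ∀ p, |(speS N η B).indicator Prod.snd p| ≤ B := fun p => by
    by_cases hp : p ∈ speS N η B
    · rw [Set.indicator_of_mem hp]; exact abs_le.2 hp.2
    · rw [Set.indicator_of_notMem hp, abs_zero]; exact hB0.le
  have cl : ∀ p, |(speS N η B).indicator (speE N) p - (speS N η B).indicator Prod.snd p| ≤
      4 * B * η := fun p => by
    by_cases hp : p ∈ speS N η B
    · rw [Set.indicator_of_mem hp, Set.indicator_of_mem hp]; exact speS_close hη hN1 hp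
    · rw [Set.indicator_of_notMem hp, Set.indicator_of_notMem hp, sub_zero, abs_zero]; positivity
  have pν := cond_isProbabilityMeasure s0
  refine ⟨ProbabilityTheory.cond ((chi N).prod (gaussianReal 0 1)) (speS N η B),
    (speS N η B).indicator (speE N), (speS N η B).indicator Prod.snd,
    ⟨pν, speE_meas.indicator mS, measurable_snd.indicator mS, fun p => ?_,
      fun p => (bξ p).trans (by linarith), fun p => (cl p).trans hη2, ?_⟩,
    fun L k n₀ M m b hL _ => ?_⟩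
  · have := gb_add (cl p) (bξ p)
    rw [sub_add_cancel] at this
    linarith
  · have := cond_isProbabilityMeasure s1
    have := gB_prob hB0
    rw [Measure.map_congr (g := Prod.snd)
      ((ae_cond_mem mS).mono fun p hp => Set.indicator_of_mem hp _), speS, spe_cond _ _ s1]
    exact (measurePreserving_snd (ν := gB B)).map_eq
  have := unif_prob hL k
  have hI := spx_isSp (sphSp_isSp N) hN speE_meas speE_le
  have hH := SH_good (L := L) (M := M) (m := m) (b := b) hI hf hK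
  set E : Set (((Fin N → ℝ) × (ℝ × ℝ)) × Leaf L k) := (Set.univ ×ˢ speS N η B) ×ˢ Set.univ with hE
  have mE : MeasurableSet E := (MeasurableSet.univ.prod mS).prod MeasurableSet.univ
  have iE : ∀ c, c ∈ E ↔ c.1.2 ∈ speS N η B := fun c => by simp [hE]
  have e0 : (((gp (Fin N)).prod ((chi N).prod (gaussianReal 0 1))).prod (unif L k)) E =
      ((chi N).prod (gaussianReal 0 1)) (speS N η B) := by
    rw [hE, Measure.prod_prod, Measure.prod_prod]; simp
  have e1 : ((gp (Fin N)).prod (ProbabilityTheory.cond ((chi N).prod (gaussianReal 0 1))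
      (speS N η B))).prod (unif L k) = ProbabilityTheory.cond
      (((gp (Fin N)).prod ((chi N).prod (gaussianReal 0 1))).prod (unif L k)) E := by
    rw [hE, spe_cond _ _ (by rw [Measure.prod_prod]; simpa using s0), spe_cond _ _ (by simp),
      cond_univ, cond_univ]
  have e2 : ∀ c ∈ E, spx (sphSp N) ((speS N η B).indicator (speE N)) c.1 =
      spx (sphSp N) (speE N) c.1 := fun c hc => by
    rw [spx, spx, Set.indicator_of_mem ((iE c).1 hc)]
  have s2 := e0.trans_ne s0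
  have pE := cond_isProbabilityMeasure s2
  have e3 : ∀ ω, SH (M := M) f m (spx (sphSp N) ((speS N η B).indicator (speE N))) b ω =ᵐ[
      ProbabilityTheory.cond (((gp (Fin N)).prod ((chi N).prod (gaussianReal 0 1))).prod (unif L k))
        E] SH f m (spx (sphSp N) (speE N)) b ω := fun ω =>
    (ae_cond_mem mE).mono fun c hc => by simp only [SH, e2 c hc]
  obtain ⟨k1, k2⟩ := spe_abs hH mE s2 (e := fun c => speE N c.1.2)
    (ξ := fun c => (speS N η B).indicator Prod.snd c.1.2) (speE_meas.comp measurable_fst.snd)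
    ((measurable_snd.indicator mS).comp measurable_fst.snd) hB
    (fun c => abs_le_sqrt (speE_le c.1.2)) (fun c => bξ _)
    (fun c hc => Set.indicator_of_notMem (mt (iE c).2 hc) _)
    (fun c hc => by
      have := (cl c.1.2).trans hη1
      rwa [Set.indicator_of_mem ((iE c).1 hc)] at this)
    (spe_beta hN hL hf hK hη0 hη hB0 hN1 hN3)
    ((spe_A1 hN hL hf hK 2).trans
      (SA1_coord (sphSp_isSp _) N.succ_pos hL hf hK (sph_perm N.succ_pos) _))
    ((spe_A1 hN hL hf hK 4).trans_le (sph_moment4 N.succ_pos hL hf hK _))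
  refine ⟨?_, fun j _ => ?_, ?_⟩
  · have h1 := FE_cond hH mE s2
    rw [measureReal_def, e0, ← measureReal_def] at h1
    rw [← SW_comp (sphSp_isSp _) hL hf hK (speQ_mp hN) (spe_ae hN)]
    unfold SW
    rw [e1, FE_congr_ae e3, div_eq_mul_inv]
    linarith
  · unfold SA2
    rw [e1, A2_congr_ae e3 (ae_cond_mem mE) fun _ _ _ _ _ => rfl,
      A2_congr_ae e3 (ae_cond_mem mE) (Φ' := fun _ c c' => ov (spx (sphSp N) (speE N) c.1)
        (spx (sphSp N) (speE N) c'.1) * ind j c.2 c'.2) fun _ c hc c' hc' => by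
          rw [e2 c hc, e2 c' hc']]
    exact k2 _ _ (bd2_ov hI.fst) (bd2_ind measurable_snd j) (spe_A2 hN hL hf hK j)
  · unfold SA1
    rw [e1, A1_congr_ae e3 fun _ => Filter.EventuallyEq.rfl]
    exact k1

end P157
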