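import Vale.Agent.P157.SpPolar
import Vale.Agent.P157.SInv

/-! P157 SpMom: symmetry facts for the spherical system.
Plan. An orthogonal matrix `O` acts by `T x = O *ᵥ x`, which preserves `gp` (`gp_isometry` or
`stdGaussian_map`) and satisfies `sphSp (O x) = O (sphSp x)` for `x ≠ 0` (`gp_ne_zero`). `sph_moment4`: let
`a = SA1 x_i⁴` and `b = SA1 x_i² x_j²` (`i ≠ j`), independent of the indices by permutation matrices;
the two orthogonal maps sending `x_i` to `(x_i ± x_j)/√2` give `2a = (2a + 6b)/2`, so `a = 3b`, and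
`n² = SA1 (∑ x²)² = n a + n (n-1) b` gives `a ≤ 3` (for `n = 1`, `a = 1`). `sph_radial`: by `polar_mp` and
`SA1_comp` work on `gp.prod chi` where the Hamiltonian only depends on the first factor, so the tilted
measure is a product (`integral_tilted`, `integral_prod`).
-/

open MeasureTheory ProbabilityTheory Real
open scoped BigOperators Matrix

namespace P157


variable {N L k n₀ M : ℕ} {f : ℝ → ℝ} {K : ℝ} {m : ℕ → ℝ} {b : TT n₀ k → ℝ}

theorem sph_orth (hN : 0 < N) {O : Matrix (Fin N) (Fin N) ℝ} (hO : Oᵀ * O = 1) :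
    MeasurePreserving (fun x => O *ᵥ x) (gp (Fin N)) (gp (Fin N)) ∧
      ∀ᵐ x ∂(gp (Fin N)), sphSp N (O *ᵥ x) = O *ᵥ sphSp N x := by
  constructor
  · obtain ⟨U, hU, hU'⟩ := gp_isometry (S := Fin N → ℝ) (fun x => x) (fun x => Oᵀ *ᵥ x)
      fun x x' => si_dot (by rw [Matrix.transpose_transpose]; exact mul_eq_one_comm.1 hO) x x'
    have h1 : U = fun x => O *ᵥ x := by
      funext g i
      have h2 := hU' (Pi.single i 1) g
      rw [Matrix.mulVec_transpose, ← Matrix.dotProduct_mulVec, single_one_dotProduct,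
        single_one_dotProduct] at h2
      exact h2.symm
    rwa [h1] at hU
  · filter_upwards [gp_ne_zero hN] with x hx
    have h1 : O *ᵥ x ≠ 0 := fun h => hx (dotProduct_self_eq_zero.1 (by
      rw [← si_dot hO, h, zero_dotProduct]))
    rw [sphSp, sphSp, if_neg hx, if_neg h1, si_dot hO, Matrix.mulVec_smul]

theorem sph_perm (hN : 0 < N) (e : Equiv.Perm (Fin N)) :
    ∃ T : (Fin N → ℝ) → Fin N → ℝ, MeasurePreserving T (gp (Fin N)) (gp (Fin N)) ∧
      ∀ᵐ x ∂(gp (Fin N)), sphSp N (T x) = sphSp N x ∘ e := by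
  obtain ⟨h1, h2⟩ := sph_orth hN (si_perm e)
  refine ⟨_, h1, ?_⟩
  filter_upwards [h2] with x hx
  rw [hx, Matrix.permMatrix_mulVec]

theorem spm_refl {u : Fin N → ℝ} (hu : u ⬝ᵥ u = 1) {i : Fin N} (hi : u i ≠ 1) :
    ∃ O : Matrix (Fin N) (Fin N) ℝ, Oᵀ * O = 1 ∧ ∀ x, (O *ᵥ x) i = u ⬝ᵥ x := by
  obtain ⟨v, hv⟩ : ∃ v : Fin N → ℝ, v = Pi.single i 1 - u := ⟨_, rfl⟩
  have h1 : v i = 1 - u i := by simp [hv]
  have h2 : v ⬝ᵥ v = 2 * v i := by
    rw [h1, hv]
    simp only [sub_dotProduct, dotProduct_sub, single_one_dotProduct, dotProduct_single_one, hu,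
      Pi.sub_apply, Pi.single_eq_same]
    ring
  have h3 : v i ≠ 0 := by rw [h1]; exact sub_ne_zero.2 hi.symm
  refine ⟨1 - (v i)⁻¹ • Matrix.vecMulVec v v, ?_, fun x => ?_⟩
  · rw [Matrix.transpose_sub, Matrix.transpose_one, Matrix.transpose_smul,
      Matrix.transpose_vecMulVec, Matrix.sub_mul, Matrix.mul_sub, Matrix.mul_sub, Matrix.one_mul,
      Matrix.one_mul, Matrix.mul_one, Matrix.smul_mul, Matrix.mul_smul,
      Matrix.vecMulVec_mul_vecMulVec, Matrix.vecMulVec_smul, h2, smul_smul, smul_smul]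
    have h4 : (v i)⁻¹ * (v i)⁻¹ * (2 * v i) = (v i)⁻¹ + (v i)⁻¹ := by field_simp; ring
    rw [h4, add_smul]
    abel
  · rw [Matrix.sub_mulVec, Matrix.one_mulVec, Matrix.smul_mulVec, Matrix.vecMulVec_mulVec]
    have h4 : v ⬝ᵥ x = x i - u ⬝ᵥ x := by rw [hv, sub_dotProduct, single_one_dotProduct]
    simp only [Pi.sub_apply, Pi.smul_apply, smul_eq_mul, MulOpposite.smul_eq_mul_unop,
      MulOpposite.unop_op, h4]
    field_simp
    ring

theorem spm_bd {x : Fin N → ℝ} (hx : x ⬝ᵥ x = N) (i j : Fin N) : |x i ^ 2 * x j ^ 2| ≤ N * N := by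
  rw [sq, sq]
  exact gb_mul (si_bd hx hx i) (si_bd hx hx j)

theorem spm_dir (hN : 0 < N) (hL : 0 < L) (hf : Measurable f) (hK : ∀ y, |f y| ≤ K) (i : Fin N)
    {u : Fin N → ℝ} (hu : u ⬝ᵥ u = 1) (hi : u i ≠ 1) :
    SA1 L k n₀ M f m (gp (Fin N)) (sphSp N) b (fun _ c => (u ⬝ᵥ sphSp N c.1) ^ 4) =
      SA1 L k n₀ M f m (gp (Fin N)) (sphSp N) b (fun _ c => sphSp N c.1 i ^ 4) := by
  obtain ⟨O, hO, hO'⟩ := spm_refl hu hi
  obtain ⟨h1, h2⟩ := sph_orth hN hO
  have h3 := SA1_inv (L := L) (M := M) (m := m) (b := b) (sphSp_isSp N) hN hL hf hK hO h1 h2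
    (φ := fun x => x i ^ 4) (by fun_prop) (C := N * N) fun x hx => by
      rw [show x i ^ 4 = x i ^ 2 * x i ^ 2 by ring]
      exact spm_bd hx i i
  simpa only [hO'] using h3

theorem sph_moment4 (hN : 0 < N) (hL : 0 < L) (hf : Measurable f) (hK : ∀ y, |f y| ≤ K) (i : Fin N) :
    SA1 L k n₀ M f m (gp (Fin N)) (sphSp N) b (fun _ c => sphSp N c.1 i ^ 4) ≤ 3 := by
  have := unif_prob hL k
  have h := sphSp_isSp N
  have hH := SH_good (L := L) (M := M) (m := m) (b := b) h hf hK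
  have hg : ∀ i j : Fin N, Good (SP L k n₀ N M m) fun (_ : SO L k n₀ N M)
      (c : (Fin N → ℝ) × Leaf L k) => sphSp N c.1 i ^ 2 * sphSp N c.1 j ^ 2 := fun i j => by
    have g : ∀ i, Measurable fun p : SO L k n₀ N M × (Fin N → ℝ) × Leaf L k => sphSp N p.2.1 i :=
      fun i => (measurable_pi_apply i).comp (h.meas.comp measurable_snd.fst)
    exact Bd1.good ⟨((g i).pow_const 2).mul ((g j).pow_const 2), fun _ c => spm_bd (h.norm _) i j⟩
  obtain ⟨A, hA⟩ : ∃ A : Fin N → Fin N → ℝ, ∀ i j, A i j = SA1 L k n₀ M f m (gp (Fin N)) (sphSp N) b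
    fun _ c => sphSp N c.1 i ^ 2 * sphSp N c.1 j ^ 2 := ⟨_, fun _ _ => rfl⟩
  have h0 : ∀ j, SA1 L k n₀ M f m (gp (Fin N)) (sphSp N) b (fun _ c => sphSp N c.1 j ^ 4) = A j j :=
    fun j => by simp only [hA, ← pow_add]
  have h1 : ∀ j, A i i ≤ 3 * A i j := fun j => by
    by_cases hj : j = i
    · have h2 : 0 ≤ A i i := by rw [hA]; exact A1_nonneg fun _ _ => by positivity
      rw [hj]
      linarith
    have h2 : A j j = A i i := by
      have h3 := spm_dir (k := k) (n₀ := n₀) (M := M) (m := m) (b := b) hN hL hf hK i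
        (u := Pi.single j 1) (by simp) (by simp [Ne.symm hj])
      simpa only [single_one_dotProduct, h0] using h3
    have h3 : ∀ s : ℝ, s ^ 2 = 1 → SA1 L k n₀ M f m (gp (Fin N)) (sphSp N) b
        (fun _ c => (3 / 5 * sphSp N c.1 i + s * (4 / 5) * sphSp N c.1 j) ^ 4) = A i i := fun s hs => by
      have h4 := spm_dir (k := k) (n₀ := n₀) (M := M) (m := m) (b := b) hN hL hf hK i
        (u := Pi.single i (3 / 5) + Pi.single j (s * (4 / 5))) (by
          simp only [add_dotProduct, single_dotProduct, Pi.add_apply, Pi.single_eq_same,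
            Pi.single_eq_of_ne hj, Pi.single_eq_of_ne' hj]
          linear_combination (16 / 25) * hs) (by
          simp only [Pi.add_apply, Pi.single_eq_same, Pi.single_eq_of_ne' hj]
          norm_num)
      simpa only [add_dotProduct, single_dotProduct, h0] using h4
    have h4 : ∀ s : ℝ, Good (SP L k n₀ N M m) fun (_ : SO L k n₀ N M) (c : (Fin N → ℝ) × Leaf L k) =>
        (3 / 5 * sphSp N c.1 i + s * (4 / 5) * sphSp N c.1 j) ^ 4 := fun s => by
      have g : ∀ i, Bd1 (fun (_ : SO L k n₀ N M) (c : (Fin N → ℝ) × Leaf L k) => sphSp N c.1 i)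
          √(N : ℝ) := fun i => ⟨(measurable_pi_apply i).comp (h.meas.comp measurable_snd.fst),
        fun _ c => abs_le_sqrt (by rw [sq]; exact si_sq (h.norm _) i)⟩
      have g1 := ((g i).const_mul (3 / 5)).add ((g j).const_mul (s * (4 / 5)))
      simpa only [show ∀ t : ℝ, t * t * (t * t) = t ^ 4 from fun t => by ring] using
        ((g1.mul g1).mul (g1.mul g1)).good
    have h5 := A1_add (μ := (gp (Fin N)).prod (unif L k)) hH (h4 1) (h4 (-1))
    have h6 := h3 1 (by norm_num)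
    have h7 := h3 (-1) (by norm_num)
    have h8 : (fun (_ : SO L k n₀ N M) (c : (Fin N → ℝ) × Leaf L k) =>
        (3 / 5 * sphSp N c.1 i + 1 * (4 / 5) * sphSp N c.1 j) ^ 4 +
        (3 / 5 * sphSp N c.1 i + -1 * (4 / 5) * sphSp N c.1 j) ^ 4) = fun _ c =>
        162 / 625 * (sphSp N c.1 i ^ 2 * sphSp N c.1 i ^ 2) +
        1728 / 625 * (sphSp N c.1 i ^ 2 * sphSp N c.1 j ^ 2) +
        512 / 625 * (sphSp N c.1 j ^ 2 * sphSp N c.1 j ^ 2) := by
      funext _ c
      ring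
    rw [h8, A1_add hH (((hg i i).const_mul _).add ((hg i j).const_mul _)) ((hg j j).const_mul _),
      A1_add hH ((hg i i).const_mul _) ((hg i j).const_mul _), A1_const_mul, A1_const_mul,
      A1_const_mul] at h5
    unfold SA1 at hA h6 h7
    rw [h6, h7, ← hA, ← hA, ← hA] at h5
    linarith
  have h2 := A1_sum (μ := (gp (Fin N)).prod (unif L k)) hH Finset.univ fun j _ => hg i j
  have h3 : (fun (_ : SO L k n₀ N M) (c : (Fin N → ℝ) × Leaf L k) =>
      ∑ j, sphSp N c.1 i ^ 2 * sphSp N c.1 j ^ 2) = fun _ c => N * sphSp N c.1 i ^ 2 := by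
    funext _ c
    rw [← Finset.mul_sum, mul_comm, ← h.norm c.1]
    simp only [dotProduct, sq]
  have h4 := SA1_coord (n₀ := n₀) (M := M) (m := m) (b := b) h hN hL hf hK (sph_perm hN) i
  have h5 := Finset.sum_le_sum fun j (_ : j ∈ Finset.univ) => h1 j
  unfold SA1 at hA h4
  rw [h3, A1_const_mul, h4] at h2
  simp only [← hA] at h2
  rw [← Finset.mul_sum, ← h2, Finset.sum_const, Finset.card_univ, Fintype.card_fin,
    nsmul_eq_mul] at h5
  have hN' : (0 : ℝ) < N := by exact_mod_cast hN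
  rw [h0]
  nlinarith

theorem spm_prod {Ω S S' : Type} [MeasurableSpace Ω] [MeasurableSpace S] [MeasurableSpace S']
    {P : Measure Ω} [IsProbabilityMeasure P] {μ : Measure S} [IsProbabilityMeasure μ]
    {μ' : Measure S'} [IsProbabilityMeasure μ'] {H : Ω → S → ℝ} (h : Good P H) (g : S' → ℝ) :
    A1 P (μ.prod μ') (fun ω x => H ω x.1) (fun _ x => g x.2) = ∫ y, g y ∂μ' := by
  have h1 : ∀ ω, ∫ x, g x.2 ∂((μ.prod μ').tilted fun x => H ω x.1) = ∫ y, g y ∂μ' := fun ω => by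
    rw [integral_tilted, integral_fun_fst fun x => exp (H ω x)]
    simp only [smul_eq_mul, probReal_univ, one_mul]
    rw [integral_prod_mul (fun x => exp (H ω x) / ∫ x, exp (H ω x) ∂μ) g, integral_div,
      div_self (integral_exp_pos (h.integrable_exp ω)).ne', one_mul]
  simp [A1, h1]

theorem sph_radial (hN : 0 < N) (hL : 0 < L) (hf : Measurable f) (hK : ∀ y, |f y| ≤ K)
    {D : Set ℝ} (hD : MeasurableSet D) :
    SA1 L k n₀ M f m (gp (Fin N)) (sphSp N) b (fun _ c => D.indicator 1 √(c.1 ⬝ᵥ c.1)) =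
      (chi N).real D := by
  have := unif_prob hL k
  have h := sphSp_isSp N
  have hH := SH_good (L := L) (M := M) (m := m) (b := b) h hf hK
  have hN' : (0 : ℝ) < √(N : ℝ) := by positivity
  have hq : MeasurePreserving (fun c : ((Fin N → ℝ) × Leaf L k) × ℝ =>
      ((c.2 / √(N : ℝ)) • sphSp N c.1.1, c.1.2)) (((gp (Fin N)).prod (unif L k)).prod (chi N))
      ((gp (Fin N)).prod (unif L k)) :=
    (si_mp (k := k) hL (polar_mp hN)).comp
      ((measurePreserving_prodAssoc (gp (Fin N)) (chi N) (unif L k)).symm.comp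
        (((MeasurePreserving.id _).prod Measure.measurePreserving_swap).comp
          (measurePreserving_prodAssoc (gp (Fin N)) (unif L k) (chi N))))
  have hφ : Bd1 (fun (_ : SO L k n₀ N M) (c : (Fin N → ℝ) × Leaf L k) =>
      D.indicator (1 : ℝ → ℝ) √(c.1 ⬝ᵥ c.1)) 1 := by
    refine ⟨(measurable_one.indicator hD).comp (Measurable.sqrt ?_), fun _ c => ?_⟩
    · unfold dotProduct
      fun_prop
    · by_cases hc : √(c.1 ⬝ᵥ c.1) ∈ D <;> simp [hc]
  have hr : ∀ᵐ c ∂(((gp (Fin N)).prod (unif L k)).prod (chi N)), 0 < c.2 :=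
    measurePreserving_snd.quasiMeasurePreserving.ae (chi_pos hN)
  have h1 : ∀ (x : Fin N → ℝ) (r : ℝ), 0 < r →
      √(((r / √(N : ℝ)) • sphSp N x) ⬝ᵥ ((r / √(N : ℝ)) • sphSp N x)) = r := fun x r hr => by
    rw [smul_dotProduct, dotProduct_smul, h.norm, smul_eq_mul, smul_eq_mul, ← mul_assoc,
      sqrt_mul (mul_self_nonneg _), sqrt_mul_self (by positivity), div_mul_cancel₀ _ hN'.ne']
  have h2 : ∀ (x : Fin N → ℝ) (r : ℝ), 0 < r →
      sphSp N ((r / √(N : ℝ)) • sphSp N x) = sphSp N x := fun x r hr => by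
    have h3 := h1 x r hr
    have h4 : (r / √(N : ℝ)) • sphSp N x ≠ 0 := fun h5 => by
      rw [h5, zero_dotProduct, sqrt_zero] at h3
      exact hr.ne h3
    rw [sphSp, if_neg h4, h3, smul_smul, div_mul_div_cancel₀ hr.ne', div_self hN'.ne', one_smul]
  unfold SA1
  rw [← A1_comp hH hφ.good (MeasurePreserving.id _) hq,
    A1_congr_ae (H' := fun ω c => SH f m (sphSp N) b ω c.1)
      (φ' := fun _ c => D.indicator (1 : ℝ → ℝ) c.2), spm_prod hH, integral_indicator_one hD]
  · intro ω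
    filter_upwards [hr] with c hc
    simp only [SH, h2 _ _ hc, id]
  · intro ω
    filter_upwards [hr] with c hc
    simp only [h1 _ _ hc]

end P157
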