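import Vale.Agent.P157.SBasic

/-! P157 SpPolar: the Gaussian representation of the sphere.
Plan. Transport `gp (Fin N)` to `E = EuclideanSpace ℝ (Fin N)` (`PiLp.volume_preserving_toLp`,
`WithLp.toLp`); it has the radial density `c exp (-‖x‖²/2)` with respect to `volume` (product of
`gaussianPDFReal`, `Measure.pi_eq` / `withDensity` of a product). By
`Measure.measurePreserving_homeomorphUnitSphereProd` the pair (direction, norm) has law
`toSphere.prod (volumeIoiPow.withDensity …)`, so direction and norm are independent and the direction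
is uniform. It is convenient to prove first, for measurable `F : (Fin N → ℝ) → ℝ≥0∞` and
`G : ℝ → ℝ≥0∞`, `∫⁻ F (sphSp x) G (√(x·x)) ∂gp = (∫⁻ F ∂sphereMeasure) (∫⁻ G ∂chi)`.
`chi_conc`: Chebyshev for `∑ x_i²` (variance `2N`).
-/

open MeasureTheory ProbabilityTheory Real
open scoped BigOperators Matrix

namespace P157


theorem spp_dot_meas (N : ℕ) : Measurable fun x : Fin N → ℝ => x ⬝ᵥ x := by
  unfold dotProduct; fun_prop

theorem spp_norm_meas (N : ℕ) : Measurable fun x : Fin N → ℝ => √(x ⬝ᵥ x) :=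
  (spp_dot_meas N).sqrt

theorem spp_dot_pos {N : ℕ} {x : Fin N → ℝ} (hx : x ≠ 0) : 0 < x ⬝ᵥ x :=
  lt_of_le_of_ne (ibp0_nonneg x) fun h => hx (dotProduct_self_eq_zero.1 h.symm)

theorem spp_meas (N : ℕ) : Measurable (sphSp N) := by
  unfold sphSp
  refine Measurable.ite (measurableSet_singleton (0 : Fin N → ℝ)) measurable_const ?_
  exact (measurable_const.div (spp_norm_meas N)).smul measurable_id

theorem sphSp_isSp (N : ℕ) : IsSp (sphSp N) := by
  refine ⟨spp_meas N, fun x => ?_⟩
  unfold sphSp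
  split_ifs with hx
  · simp [dotProduct]
  · have h := spp_dot_pos hx
    rw [smul_dotProduct, dotProduct_smul, smul_eq_mul, smul_eq_mul, ← mul_assoc, div_mul_div_comm,
      Real.mul_self_sqrt (Nat.cast_nonneg N), Real.mul_self_sqrt h.le]
    field_simp

theorem sph_fam : Fam (fun N => gp (Fin N)) sphSp := ⟨fun _ => inferInstance, sphSp_isSp⟩

instance chi_prob (N : ℕ) : IsProbabilityMeasure (chi N) :=
  Measure.isProbabilityMeasure_map (spp_norm_meas N).aemeasurable

theorem gp_ne_zero {N : ℕ} (hN : 0 < N) : ∀ᵐ x ∂(gp (Fin N)), x ≠ 0 := by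
  have hmp : MeasurePreserving (fun x : Fin N → ℝ => x ⟨0, hN⟩) (gp (Fin N)) (gaussianReal 0 1) :=
    measurePreserving_eval _ _
  have := nullSingletonClass_gaussianReal (μ := 0) (v := 1) one_ne_zero
  have h0 : ∀ᵐ t ∂(gaussianReal 0 1), t ≠ (0 : ℝ) := by
    rw [ae_iff]; simp
  filter_upwards [hmp.quasiMeasurePreserving.ae h0] with x hx h
  exact hx (by rw [h]; rfl)

theorem chi_pos {N : ℕ} (hN : 0 < N) : ∀ᵐ r ∂(chi N), 0 < r := by
  unfold chi
  rw [ae_map_iff (spp_norm_meas N).aemeasurable measurableSet_Ioi]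
  filter_upwards [gp_ne_zero hN] with x hx
  exact Real.sqrt_pos.2 (spp_dot_pos hx)

/-- radial density -/
noncomputable def sppW (N : ℕ) (t : ℝ) : ℝ := (√(2 * π))⁻¹ ^ N * exp (-t / 2)

theorem spp_prod (N : ℕ) (x : Fin N → ℝ) :
    sppW N (x ⬝ᵥ x) = ∏ a, gaussianPDFReal 0 1 (x a) := by
  simp only [gaussianPDFReal, NNReal.coe_one, mul_one, sub_zero, Finset.prod_mul_distrib,
    Finset.prod_const, Finset.card_univ, Fintype.card_fin, sppW]
  rw [← Real.exp_sum, ← Finset.sum_div, Finset.sum_neg_distrib]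
  simp only [dotProduct, sq]

theorem spp_gp_eq (N : ℕ) :
    gp (Fin N) = volume.withDensity fun x => ENNReal.ofReal (sppW N (x ⬝ᵥ x)) := by
  refine Measure.pi_eq fun s hs => ?_
  have hS : MeasurableSet (Set.pi Set.univ s) := MeasurableSet.univ_pi hs
  set f : Fin N → ℝ → ℝ := fun a => (s a).indicator (gaussianPDFReal 0 1) with hf
  have hfi : ∀ a, Integrable (f a) := fun a =>
    (integrable_gaussianPDFReal 0 _).indicator (hs a)
  have hf0 : ∀ a t, 0 ≤ f a t := fun a t =>
    Set.indicator_nonneg (fun u _ => gaussianPDFReal_nonneg _ _ u) t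
  have key : ∀ x : Fin N → ℝ,
      (Set.pi Set.univ s).indicator (fun x => ENNReal.ofReal (sppW N (x ⬝ᵥ x))) x =
      ENNReal.ofReal (∏ a, f a (x a)) := by
    intro x
    by_cases hx : x ∈ Set.pi Set.univ s
    · rw [Set.indicator_of_mem hx, spp_prod]
      congr 1
      exact Finset.prod_congr rfl fun a _ => (Set.indicator_of_mem (hx a trivial) _).symm
    · rw [Set.indicator_of_notMem hx]
      obtain ⟨a, ha⟩ : ∃ a, x a ∉ s a := by
        by_contra h
        exact hx fun a _ => by_contra fun h' => h ⟨a, h'⟩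
      rw [Finset.prod_eq_zero (Finset.mem_univ a) (Set.indicator_of_notMem ha _),
        ENNReal.ofReal_zero]
  rw [withDensity_apply _ hS, ← lintegral_indicator hS]
  simp_rw [key]
  have hI : Integrable (fun x : Fin N → ℝ => ∏ a, f a (x a)) volume := Integrable.fintype_prod hfi
  rw [← ofReal_integral_eq_lintegral_ofReal hI
    (Filter.Eventually.of_forall fun x => Finset.prod_nonneg fun a _ => hf0 a _),
    integral_fintype_prod_volume_eq_prod,
    ENNReal.ofReal_prod_of_nonneg fun a _ => integral_nonneg (hf0 a)]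
  refine Finset.prod_congr rfl fun a _ => ?_
  rw [gaussianReal_apply_eq_integral _ one_ne_zero, hf, integral_indicator (hs a)]

abbrev sppE (N : ℕ) : Type := EuclideanSpace ℝ (Fin N)

abbrev sppS (N : ℕ) : Type := Metric.sphere (0 : sppE N) 1

/-- polar coordinates -/
noncomputable def sppT (N : ℕ) (p : sppS N × Set.Ioi (0 : ℝ)) : Fin N → ℝ :=
  fun i => p.2.1 * p.1.1 i

theorem sppT_cont (N : ℕ) : Continuous (sppT N) := by
  unfold sppT; fun_prop

theorem spp_unit {N : ℕ} (u : sppS N) : ∑ i, u.1 i * u.1 i = 1 := by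
  have h : ‖u.1‖ = 1 := by simp
  have h2 := EuclideanSpace.real_norm_sq_eq u.1
  rw [h] at h2
  simpa [sq] using h2.symm

theorem sppT_dot {N : ℕ} (p : sppS N × Set.Ioi (0 : ℝ)) :
    sppT N p ⬝ᵥ sppT N p = p.2.1 ^ 2 := by
  have : ∀ i, sppT N p i * sppT N p i = p.2.1 ^ 2 * (p.1.1 i * p.1.1 i) := fun i => by
    unfold sppT; ring
  simp only [dotProduct, this]
  rw [← Finset.mul_sum, spp_unit, mul_one]

theorem spp_vol {N : ℕ} (hN : 0 < N) : (volume : Measure (Fin N → ℝ)) =
    ((volume : Measure (sppE N)).toSphere.prod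
      (Measure.volumeIoiPow (Module.finrank ℝ (sppE N) - 1))).map (sppT N) := by
  have : Nonempty (Fin N) := ⟨⟨0, hN⟩⟩
  have h1 := ((volume : Measure (sppE N)).measurePreserving_homeomorphUnitSphereProd).symm
    (homeomorphUnitSphereProd (sppE N)).toMeasurableEquiv
  have h2 : MeasurePreserving (Subtype.val : ({0}ᶜ : Set (sppE N)) → sppE N)
      ((volume : Measure (sppE N)).comap Subtype.val) volume := by
    refine ⟨measurable_subtype_coe, ?_⟩
    rw [map_comap_subtype_coe (measurableSet_singleton _).compl, restrict_compl_singleton]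
  have h3 := (PiLp.volume_preserving_ofLp (Fin N)).comp (h2.comp h1)
  rw [← h3.map_eq]
  rfl

theorem spp_map_wd {α β : Type} [MeasurableSpace α] [MeasurableSpace β] (μ : Measure α)
    {T : α → β} (hT : Measurable T) {g : β → ENNReal} (hg : Measurable g) :
    (μ.map T).withDensity g = (μ.withDensity fun a => g (T a)).map T := by
  ext s hs
  rw [withDensity_apply _ hs, Measure.map_apply hT hs, withDensity_apply _ (hT hs),
    setLIntegral_map hs hg hT]

theorem sppW_meas (N : ℕ) : Measurable (sppW N) := by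
  unfold sppW; fun_prop

/-- radial part of the Gaussian law (not normalised) -/
noncomputable def sppR (N : ℕ) : Measure (Set.Ioi (0 : ℝ)) :=
  (Measure.volumeIoiPow (Module.finrank ℝ (sppE N) - 1)).withDensity
    fun r => ENNReal.ofReal (sppW N (r.1 ^ 2))

instance sppR_sf (N : ℕ) : SFinite (sppR N) := by unfold sppR; infer_instance

theorem spp_gp_polar {N : ℕ} (hN : 0 < N) :
    gp (Fin N) = ((volume : Measure (sppE N)).toSphere.prod (sppR N)).map (sppT N) := by
  have hm : Measurable fun r : Set.Ioi (0 : ℝ) => ENNReal.ofReal (sppW N (r.1 ^ 2)) :=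
    ((sppW_meas N).comp (measurable_subtype_coe.pow_const 2)).ennreal_ofReal
  have hg : Measurable fun x : Fin N → ℝ => ENNReal.ofReal (sppW N (x ⬝ᵥ x)) :=
    ((sppW_meas N).comp (spp_dot_meas N)).ennreal_ofReal
  rw [spp_gp_eq, spp_vol hN, spp_map_wd _ (sppT_cont N).measurable hg, sppR,
    prod_withDensity_right hm]
  simp only [sppT_dot]

/-- the scaling of the unit sphere -/
noncomputable def sppA (N : ℕ) (u : sppS N) : Fin N → ℝ := fun i => √(N : ℝ) * u.1 i

theorem sppA_meas (N : ℕ) : Measurable (sppA N) := by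
  refine Continuous.measurable ?_
  unfold sppA; fun_prop

theorem spp_pair {N : ℕ} (p : sppS N × Set.Ioi (0 : ℝ)) :
    (sphSp N (sppT N p), √(sppT N p ⬝ᵥ sppT N p)) = (sppA N p.1, p.2.1) := by
  have hr : 0 < p.2.1 := p.2.2
  have h0 : sppT N p ≠ 0 := by
    intro h
    have h2 := sppT_dot p
    rw [h] at h2
    simp only [dotProduct_zero] at h2
    exact (pow_pos hr 2).ne h2
  rw [sphSp, if_neg h0, sppT_dot, Real.sqrt_sq hr.le]
  congr 1
  funext i
  simp only [Pi.smul_apply, smul_eq_mul, sppT, sppA]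
  field_simp

theorem spp_joint {N : ℕ} (hN : 0 < N) :
    (gp (Fin N)).map (fun x => (sphSp N x, √(x ⬝ᵥ x))) =
      (((volume : Measure (sppE N)).toSphere).map (sppA N)).prod ((sppR N).map Subtype.val) := by
  rw [Measure.map_prod_map _ _ (sppA_meas N) measurable_subtype_coe, spp_gp_polar hN,
    Measure.map_map ((spp_meas N).prodMk (spp_norm_meas N)) (sppT_cont N).measurable]
  congr 1
  funext p
  exact spp_pair p

theorem spp_fst {N : ℕ} (hN : 0 < N) : (gp (Fin N)).map (sphSp N) =
    ((sppR N).map Subtype.val) Set.univ • ((volume : Measure (sppE N)).toSphere).map (sppA N) := by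
  rw [← Measure.map_fst_prod, ← spp_joint hN,
    Measure.map_map measurable_fst ((spp_meas N).prodMk (spp_norm_meas N))]
  rfl

theorem spp_snd {N : ℕ} (hN : 0 < N) : chi N =
    (((volume : Measure (sppE N)).toSphere).map (sppA N)) Set.univ • (sppR N).map Subtype.val := by
  rw [← Measure.map_snd_prod, ← spp_joint hN,
    Measure.map_map measurable_snd ((spp_meas N).prodMk (spp_norm_meas N))]
  rfl

theorem spp_mass {N : ℕ} (hN : 0 < N) :
    (((volume : Measure (sppE N)).toSphere).map (sppA N)) Set.univ *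
      ((sppR N).map Subtype.val) Set.univ = 1 := by
  have h := measure_univ (μ := chi N)
  rwa [spp_snd hN, Measure.smul_apply, smul_eq_mul] at h

theorem map_sphSp {N : ℕ} (hN : 0 < N) : (gp (Fin N)).map (sphSp N) = sphereMeasure N := by
  have h := spp_mass hN
  rw [Measure.map_apply (sppA_meas N) MeasurableSet.univ, Set.preimage_univ] at h
  rw [mul_comm] at h
  rw [spp_fst hN, sphereMeasure, unitSphereMeasure, Measure.map_smul,
    ENNReal.eq_inv_of_mul_eq_one_left h]
  rfl

/-- direction and norm are independent -/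
theorem map_sphSp_norm {N : ℕ} (hN : 0 < N) :
    (gp (Fin N)).map (fun x => (sphSp N x, √(x ⬝ᵥ x))) =
      ((gp (Fin N)).map (sphSp N)).prod (chi N) := by
  rw [spp_joint hN, spp_fst hN, spp_snd hN, Measure.prod_smul_left, Measure.prod_smul_right,
    smul_smul, mul_comm, spp_mass hN, one_smul]

theorem polar_mp {N : ℕ} (hN : 0 < N) :
    MeasurePreserving (fun p : (Fin N → ℝ) × ℝ => (p.2 / √(N : ℝ)) • sphSp N p.1)
      ((gp (Fin N)).prod (chi N)) (gp (Fin N)) := by
  have hG : Measurable fun q : (Fin N → ℝ) × ℝ => (q.2 / √(N : ℝ)) • q.1 :=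
    (measurable_snd.div_const _).smul measurable_fst
  have h1 : MeasurePreserving (Prod.map (sphSp N) id) ((gp (Fin N)).prod (chi N))
      (((gp (Fin N)).map (sphSp N)).prod (chi N)) :=
    ((spp_meas N).measurePreserving _).prod (MeasurePreserving.id _)
  have h2 : MeasurePreserving (fun q : (Fin N → ℝ) × ℝ => (q.2 / √(N : ℝ)) • q.1)
      (((gp (Fin N)).map (sphSp N)).prod (chi N)) (gp (Fin N)) := by
    refine ⟨hG, ?_⟩
    rw [← map_sphSp_norm hN, Measure.map_map hG ((spp_meas N).prodMk (spp_norm_meas N))]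
    refine (Measure.map_congr ?_).trans Measure.map_id
    filter_upwards [gp_ne_zero hN] with x hx
    have ha := Real.sqrt_pos.2 (spp_dot_pos hx)
    have hb : 0 < √(N : ℝ) := Real.sqrt_pos.2 (by exact_mod_cast hN)
    simp only [Function.comp, sphSp, if_neg hx, smul_smul, id]
    rw [show √(x ⬝ᵥ x) / √(N : ℝ) * (√(N : ℝ) / √(x ⬝ᵥ x)) = 1 by field_simp, one_smul]
  exact h2.comp h1

theorem spp_int_pow (k : ℕ) : Integrable (fun x : ℝ => x ^ k) (gaussianReal 0 1) := by
  have h := (memLp_id_gaussianReal' (μ := 0) (v := 1) (k : ENNReal) (by simp)).integrable_norm_pow'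
  refine h.mono' (by fun_prop) (ae_of_all _ fun x => ?_)
  simp

theorem spp_mom (n : ℕ) : ∫ x, x ^ (n + 2) ∂(gaussianReal 0 1) =
    (n + 1) * ∫ x, x ^ n ∂(gaussianReal 0 1) := by
  have i1 := (spp_int_pow n).const_mul ((n : ℝ) + 1)
  have key := integral_eq_zero_of_hasDerivAt_of_integrable
    (f := fun x => x ^ (n + 1) * gaussianPDFReal 0 1 x)
    (f' := fun x => (((n : ℝ) + 1) * x ^ n - x ^ (n + 2)) * gaussianPDFReal 0 1 x)
    (fun x => ((hasDerivAt_pow (n + 1) x).mul (ibp0_pdf x)).congr_deriv (by simp; ring))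
    (ibp0_int (i1.sub (spp_int_pow (n + 2)))) (ibp0_int (spp_int_pow (n + 1)))
  rw [eq_comm, ← sub_eq_zero, ← integral_const_mul, ← integral_sub i1 (spp_int_pow (n + 2)),
    integral_gaussianReal_eq_integral_smul one_ne_zero]
  simpa only [smul_eq_mul, mul_comm] using key

theorem spp_two : ∫ x, x ^ 2 ∂(gaussianReal 0 1) = 1 := by
  simpa using spp_mom 0

theorem spp_four : ∫ x, x ^ 4 ∂(gaussianReal 0 1) = 3 := by
  have := spp_mom 2
  rw [spp_two] at this
  rw [this]; norm_num

theorem spp_memLp : MemLp (fun x : ℝ => x ^ 2) 2 (gaussianReal 0 1) := by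
  rw [memLp_two_iff_integrable_sq (by fun_prop)]
  refine (spp_int_pow 4).congr (ae_of_all _ fun x => ?_)
  simp only
  ring

theorem spp_var : Var[fun x : ℝ => x ^ 2; gaussianReal 0 1] = 2 := by
  rw [variance_eq_sub spp_memLp, spp_two]
  have : ∫ x, ((fun x : ℝ => x ^ 2) ^ 2) x ∂(gaussianReal 0 1) = 3 := by
    rw [← spp_four]
    refine integral_congr_ae (ae_of_all _ fun x => ?_)
    simp only [Pi.pow_apply]
    ring
  rw [this]; norm_num

theorem chi_conc {N : ℕ} (hN : 0 < N) {η : ℝ} (hη : 0 < η) :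
    (chi N).real {r | η * N < |r ^ 2 - N|} ≤ 2 / (η ^ 2 * N) := by
  have hN' : (0 : ℝ) < N := by exact_mod_cast hN
  set X : (Fin N → ℝ) → ℝ := ∑ i, fun ω => (fun x : ℝ => x ^ 2) (ω i) with hX
  have hXa : ∀ ω, X ω = ω ⬝ᵥ ω := fun ω => by
    simp only [hX, Finset.sum_apply, dotProduct, sq]
  have hmp : ∀ i, MeasurePreserving (fun x : Fin N → ℝ => x i) (gp (Fin N)) (gaussianReal 0 1) :=
    fun i => measurePreserving_eval _ _
  have hL : MemLp X 2 (gp (Fin N)) :=
    memLp_finsetSum' _ fun i _ => spp_memLp.comp_measurePreserving (hmp i)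
  have hV : Var[X; gp (Fin N)] = 2 * N := by
    rw [hX, variance_sum_pi (X := fun _ => fun x : ℝ => x ^ 2) fun _ => spp_memLp]
    simp [spp_var, mul_comm]
  have hE : ∫ ω, X ω ∂(gp (Fin N)) = N := by
    simp only [hX, Finset.sum_apply]
    rw [integral_finsetSum (f := fun i (ω : Fin N → ℝ) => ω i ^ 2) _ fun i _ =>
      (hmp i).integrable_comp_of_integrable (spp_int_pow 2)]
    have : ∀ i, ∫ ω : Fin N → ℝ, ω i ^ 2 ∂(gp (Fin N)) = 1 := fun i => by
      rw [← spp_two, ← (hmp i).map_eq, integral_map (hmp i).measurable.aemeasurable (by fun_prop)]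
    simp [this]
  have hc := meas_ge_le_variance_div_sq hL (mul_pos hη hN')
  rw [hV, hE] at hc
  have hs : MeasurableSet {r : ℝ | η * N < |r ^ 2 - N|} :=
    measurableSet_lt measurable_const (by fun_prop)
  rw [chi, measureReal_def, Measure.map_apply (spp_norm_meas N) hs]
  refine ENNReal.toReal_le_of_le_ofReal (by positivity) ((measure_mono fun x hx => ?_).trans
    (hc.trans (le_of_eq ?_)))
  · simp only [Set.mem_preimage, Set.mem_ofPred_eq, Real.sq_sqrt (ibp0_nonneg x)] at hx
    simp only [Set.mem_ofPred_eq, hXa]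
    exact hx.le
  · congr 1
    field_simp

theorem meanPressure_sphere (α : ℝ) {f : ℝ → ℝ} (hf : Measurable f) {N : ℕ} (hN : 0 < N) :
    meanPressure sphereMeasure α f N = EZ (gp (Fin N)) (sphSp N) f ⌊α * N⌋₊ / N := by
  unfold meanPressure EZ FE lZ pressure
  rw [integral_const_mul, div_eq_inv_mul]
  congr 1
  refine integral_congr_ae (ae_of_all _ fun g => ?_)
  simp only
  rw [← map_sphSp hN, integral_map (spp_meas N).aemeasurable]
  · rfl
  · refine Measurable.aestronglyMeasurable (Measurable.exp (Finset.measurable_sum _ fun a _ => ?_))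
    exact hf.comp ((Finset.measurable_sum _ fun i _ =>
      measurable_const.mul (measurable_pi_apply i)).div_const _)

end P157
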