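import Vale.Agent.P157.Comono
import Vale.Agent.P157.GGext

/-! P157 SyncLim: approximate synchronisation by compactness.
Plan. Argue by contradiction: for each `n` a counterexample `(Λ n, δ n)` with `n₀ = n`,
`ε' = 1/(n+1)`. `ProbabilityMeasure (ℕ → ℕ → KK k)` is compact (Prokhorov file) and metrizable, or use
an ultrafilter / cluster point `Λ∞` (`IsCompact.tendsto_subseq`). `Exch` passes to the limit
(reindexing is continuous: `ProbabilityMeasure.tendsto_map_of_tendsto_of_continuous` or test against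
bounded continuous functions and `ext_of_forall_integral_eq_of_IsFiniteMeasure`); `ArrC k` is closed
(portmanteau `limsup_measure_closed_le_of_tendsto`); `ArrGG … 0` holds in the limit. Take `p` from
`sync_exact` with `δ∞ = max_j Λ∞{J = j}`; `A ↦ |R - p J|` and `1_{J = j}` are continuous.
-/

open MeasureTheory ProbabilityTheory Real
open scoped BigOperators Matrix

namespace P157

open Filter Topology

section SyncLimAux
variable {k : ℕ}

instance slOpens : OpensMeasurableSpace (ℕ → ℕ → KK k) := inferInstance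
instance slBorel : BorelSpace (ℕ → ℕ → KK k) := inferInstance
instance slCompact : CompactSpace (ℕ → ℕ → KK k) := inferInstance
instance slSecond : SecondCountableTopology (ℕ → ℕ → KK k) := inferInstance
instance slT2 : T2Space (ℕ → ℕ → KK k) := inferInstance
instance slMetr : TopologicalSpace.PseudoMetrizableSpace (ℕ → ℕ → KK k) := inferInstance
instance slOuter : HasOuterApproxClosed (ℕ → ℕ → KK k) := inferInstance
instance slCompactP : CompactSpace (ProbabilityMeasure (ℕ → ℕ → KK k)) := inferInstance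
instance slMetrP : TopologicalSpace.MetrizableSpace (ProbabilityMeasure (ℕ → ℕ → KK k)) :=
  inferInstance

theorem sl_tendsto {μs : ℕ → ProbabilityMeasure (ℕ → ℕ → KK k)}
    {μ : ProbabilityMeasure (ℕ → ℕ → KK k)} (h : Tendsto μs atTop (𝓝 μ))
    {g : (ℕ → ℕ → KK k) → ℝ} (hg : Continuous g) :
    Tendsto (fun n => ∫ A, g A ∂(μs n : Measure (ℕ → ℕ → KK k))) atTop
      (𝓝 (∫ A, g A ∂(μ : Measure (ℕ → ℕ → KK k)))) :=
  ProbabilityMeasure.tendsto_iff_forall_integral_tendsto.1 h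
    (BoundedContinuousFunction.mkOfCompact ⟨g, hg⟩)

theorem sl_cont_entry (i j : ℕ) : Continuous fun A : ℕ → ℕ → KK k => A i j :=
  (continuous_apply j).comp (continuous_apply i)

theorem sl_cont_fst (i j : ℕ) : Continuous fun A : ℕ → ℕ → KK k => ((A i j).1 : ℝ) :=
  continuous_subtype_val.comp (continuous_fst.comp (sl_cont_entry i j))

theorem sl_cont_snd (i j : ℕ) : Continuous fun A : ℕ → ℕ → KK k => (A i j).2 :=
  continuous_snd.comp (sl_cont_entry i j)

theorem sl_cont_fun (g : Fin (k + 1) → ℝ) (i j : ℕ) :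
    Continuous fun A : ℕ → ℕ → KK k => g (A i j).2 :=
  (continuous_of_discreteTopology (f := g)).comp (sl_cont_snd i j)

theorem sl_cont_psi (a j i l : ℕ) : Continuous fun A : ℕ → ℕ → KK k => psiK a j (A i l) :=
  ((sl_cont_fst i l).pow a).mul
    (sl_cont_fun (fun x : Fin (k + 1) => if j ≤ (x : ℕ) then (1 : ℝ) else 0) i l)

theorem sl_closed : IsClosed (ArrC k) := by
  have e : ArrC k = ((⋂ i, ⋂ j, {A : ℕ → ℕ → KK k | ((A i j).1 : ℝ) = (A j i).1}) ∩
      (⋂ n : ℕ, ⋂ c : ℕ → ℝ, {A : ℕ → ℕ → KK k |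
        0 ≤ ∑ i ∈ Finset.range n, ∑ j ∈ Finset.range n, c i * c j * ((A i j).1 : ℝ)})) ∩
      ((⋂ i, ⋂ j, {A : ℕ → ℕ → KK k | (A i j).2 = (A j i).2}) ∩
      ((⋂ i, {A : ℕ → ℕ → KK k | (A i i).2 = Fin.last k}) ∩
      (⋂ a, ⋂ b, ⋂ c, {A : ℕ → ℕ → KK k | min (A a c).2 (A b c).2 ≤ (A a b).2}))) := by
    ext A
    simp only [ArrC, PSD, Set.mem_setOf_eq, Set.mem_inter_iff, Set.mem_iInter]
  rw [e]
  refine ((isClosed_iInter fun i => isClosed_iInter fun j =>
      isClosed_eq (sl_cont_fst i j) (sl_cont_fst j i)).inter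
    (isClosed_iInter fun n => isClosed_iInter fun c => isClosed_le continuous_const ?_)).inter
    ((isClosed_iInter fun i => isClosed_iInter fun j =>
      isClosed_eq (sl_cont_snd i j) (sl_cont_snd j i)).inter
    ((isClosed_iInter fun i => isClosed_eq (sl_cont_snd i i) continuous_const).inter
    (isClosed_iInter fun a => isClosed_iInter fun b => isClosed_iInter fun c =>
      isClosed_le ((sl_cont_snd a c).min (sl_cont_snd b c)) (sl_cont_snd a b))))
  exact continuous_finsetSum _ fun i _ => continuous_finsetSum _ fun j _ =>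
    continuous_const.mul (sl_cont_fst i j)

theorem sl_real (Λ : Measure (ℕ → ℕ → KK k)) (j : Fin (k + 1)) :
    Λ.real {A | (A 0 1).2 = j} = ∫ A, (if (A 0 1).2 = j then (1 : ℝ) else 0) ∂Λ := by
  have hm : MeasurableSet {A : ℕ → ℕ → KK k | (A 0 1).2 = j} :=
    (isClosed_eq (sl_cont_snd 0 1) continuous_const).measurableSet
  rw [← integral_indicator_one hm]
  refine integral_congr_ae (Eventually.of_forall fun A => ?_)
  simp only [Set.indicator_apply, Set.mem_setOf_eq, Pi.one_apply]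

theorem sl_exch {μs : ℕ → ProbabilityMeasure (ℕ → ℕ → KK k)}
    {μ : ProbabilityMeasure (ℕ → ℕ → KK k)} (h : Tendsto μs atTop (𝓝 μ))
    (hE : ∀ n, Exch (μs n : Measure (ℕ → ℕ → KK k))) : Exch (μ : Measure (ℕ → ℕ → KK k)) := by
  intro e he
  have hF : Continuous fun (A : ℕ → ℕ → KK k) i j => A (e i) (e j) :=
    continuous_pi fun i => continuous_pi fun j => sl_cont_entry _ _
  refine ext_of_forall_integral_eq_of_IsFiniteMeasure fun f => ?_
  rw [integral_map hF.measurable.aemeasurable f.continuous.aestronglyMeasurable]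
  have h1 := sl_tendsto h (f.continuous.comp hF)
  have h2 := sl_tendsto h f.continuous
  refine tendsto_nhds_unique h1 (h2.congr fun n => ?_)
  conv_lhs => rw [← hE n e he]
  rw [integral_map hF.measurable.aemeasurable f.continuous.aestronglyMeasurable]
  rfl

theorem sl_arrC {μs : ℕ → ProbabilityMeasure (ℕ → ℕ → KK k)}
    {μ : ProbabilityMeasure (ℕ → ℕ → KK k)} (h : Tendsto μs atTop (𝓝 μ))
    (hC : ∀ n, ∀ᵐ A ∂(μs n : Measure (ℕ → ℕ → KK k)), A ∈ ArrC k) :
    ∀ᵐ A ∂(μ : Measure (ℕ → ℕ → KK k)), A ∈ ArrC k := by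
  have h1 := ProbabilityMeasure.le_liminf_measure_open_of_tendsto h
    (sl_closed (k := k)).isOpen_compl
  have h2 : (fun n => (μs n : Measure (ℕ → ℕ → KK k)) (ArrC k)ᶜ) = fun _ => 0 :=
    funext fun n => hC n
  rw [h2, liminf_const] at h1
  exact le_antisymm h1 bot_le

theorem sl_gg {μs : ℕ → ProbabilityMeasure (ℕ → ℕ → KK k)}
    {μ : ProbabilityMeasure (ℕ → ℕ → KK k)} (h : Tendsto μs atTop (𝓝 μ)) {e : ℕ → ℝ}
    (he : Tendsto e atTop (𝓝 0)) {n a j : ℕ}
    (hG : ∀ᶠ i in atTop, ArrGG (μs i : Measure (ℕ → ℕ → KK k)) n a j (e i)) :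
    ArrGG (μ : Measure (ℕ → ℕ → KK k)) n a j 0 := by
  intro Φ hΦ hd hb
  refine le_of_tendsto_of_tendsto (b := atTop) ?_ he (hG.mono fun i hi => hi Φ hΦ hd hb)
  refine Tendsto.abs (Tendsto.sub (Tendsto.sub (Tendsto.const_mul _ ?_) (Tendsto.mul ?_ ?_)) ?_)
  · exact sl_tendsto h (hΦ.mul (sl_cont_psi a j 0 (n + 1)))
  · exact sl_tendsto h hΦ
  · exact sl_tendsto h (sl_cont_psi a j 0 1)
  · exact tendsto_finsetSum _ fun l _ => sl_tendsto h (hΦ.mul (sl_cont_psi a j 0 l))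

end SyncLimAux


theorem sync_arr (k : ℕ) {ε : ℝ} (hε : 0 < ε) : ∃ (n₀ : ℕ) (ε' : ℝ), 0 < ε' ∧
    ∀ (Λ : Measure (ℕ → ℕ → KK k)) [IsProbabilityMeasure Λ], Exch Λ → (∀ᵐ A ∂Λ, A ∈ ArrC k) →
      (∀ n ≤ n₀, ∀ a ≤ n₀, ∀ j ≤ k, ArrGG Λ n a j ε') →
      ∀ δ : ℝ, (∀ j : Fin (k + 1), Λ.real {A | (A 0 1).2 = j} ≤ δ) →
      ∃ p : ℕ → ℝ, IsPath k p ∧ p k ≤ 1 ∧ ∫ A, |((A 0 1).1 : ℝ) - p (A 0 1).2| ∂Λ ≤ δ + ε := by
  by_contra hcon
  push Not at hcon
  choose Λ hP hE hC hG δ hδ hp using fun n : ℕ => hcon n (1 / ((n : ℝ) + 1)) (by positivity)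
  let μs : ℕ → ProbabilityMeasure (ℕ → ℕ → KK k) := fun n => ⟨Λ n, hP n⟩
  obtain ⟨μ, -, φ, hφ, hlim⟩ := isCompact_univ.tendsto_subseq (x := μs) fun n => Set.mem_univ _
  have hE' : Exch (μ : Measure (ℕ → ℕ → KK k)) := sl_exch hlim fun n => hE (φ n)
  have hC' : ∀ᵐ A ∂(μ : Measure (ℕ → ℕ → KK k)), A ∈ ArrC k := sl_arrC hlim fun n => hC (φ n)
  have hG' : ∀ n a j, j ≤ k → ArrGG (μ : Measure (ℕ → ℕ → KK k)) n a j 0 := by
    intro n a j hj
    refine sl_gg hlim (e := fun i => 1 / ((φ i : ℝ) + 1))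
      (tendsto_one_div_add_atTop_nhds_zero_nat.comp hφ.tendsto_atTop) ?_
    filter_upwards [eventually_ge_atTop n, eventually_ge_atTop a] with i hn ha
    exact hG (φ i) n (hn.trans (hφ.id_le i)) a (ha.trans (hφ.id_le i)) j hj
  obtain ⟨p, hp1, hp2, hp3⟩ := sync_exact hE' (ggset_of_arrGG hG') hC'
  obtain ⟨j₀, -, hj₀⟩ := Finset.exists_max_image Finset.univ
    (fun j : Fin (k + 1) => (μ : Measure (ℕ → ℕ → KK k)).real {A | (A 0 1).2 = j})
    Finset.univ_nonempty
  have h1 := hp3 _ fun j => hj₀ j (Finset.mem_univ j)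
  have t1 := sl_tendsto hlim (g := fun A => |((A 0 1).1 : ℝ) - p (A 0 1).2|)
    (((sl_cont_fst 0 1).sub (sl_cont_fun (fun x : Fin (k + 1) => p x) 0 1)).abs)
  have t2 := sl_tendsto hlim
    (sl_cont_fun (fun x : Fin (k + 1) => if x = j₀ then (1 : ℝ) else 0) 0 1)
  have t3 := t1.sub t2
  rw [sl_real] at h1
  have h4 := t3.eventually (gt_mem_nhds (show _ < ε by linarith))
  obtain ⟨i, hi⟩ := h4.exists
  have h5 := hp (φ i) p hp1 hp2
  have h6 := hδ (φ i) j₀
  rw [sl_real] at h6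
  change ∫ A, |((A 0 1).1 : ℝ) - p (A 0 1).2| ∂Λ (φ i) -
    ∫ A, (if (A 0 1).2 = j₀ then (1 : ℝ) else 0) ∂Λ (φ i) < ε at hi
  linarith

end P157
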