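import Vale.Agent.P157.Dup

/-! P157 Ultra: positivity and ultrametricity from duplication.
Plan. Positivity: if `Λ {u (A 0 1) ≤ -η} ≠ 0`, iterate `dup_types` with one type and `c = -η`; an
array in the event with `n+1` replicas and `PSD` gives `0 ≤ (n+1) us - (n+1) n η`, false for large
`n`. Ultrametricity: if it fails, by symmetry (exchange `0` and `1`) and countable subadditivity
there are `a < b` with `Λ {u₀₁ < a, b < u₀₂ ≤ u₁₂} ≠ 0`; for any `η > 0` cover the bounded range of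
`u₁₂` by finitely many intervals `(c - η, c]`. Types: replica `0` has type 0, odd replicas type 1,
even replicas `≥ 2` type 2; `T 0 1 = Iio a`, `T 0 2 = Ioc b c`, `T 1 2 = Ioc (c-η) c`,
`T 1 1 = T 2 2 = T 0 0 = Iic c` (note `a < b < c`). Duplicate up to `2r+1` replicas; `PSD` with
coefficients `t` on replica `0`, `-1/r` on type 1, `1/r` on type 2 gives
`0 ≤ t² us + 2 t (b - a) + 2 ((us + |c|)/r + η)` for `t < 0`; `t = -(b-a)/us`, `η` small, `r` large is
a contradiction (`us > 0` WLOG; `|c| ≤ us + η`).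
-/

open MeasureTheory ProbabilityTheory Real
open scoped BigOperators Matrix

namespace P157

variable {K : Type} [MeasurableSpace K] {Λ : Measure (ℕ → ℕ → K)} [IsProbabilityMeasure Λ]

theorem PSD.fin {U : ℕ → ℕ → ℝ} (h : PSD U) {ι : Type} [Fintype ι] (e : ι → ℕ) (c : ι → ℝ) :
    0 ≤ ∑ a, ∑ b, c a * c b * U (e a) (e b) := by
  classical
  obtain ⟨N, hN⟩ : ∃ N, ∀ a, e a ∈ Finset.range N :=
    ⟨Finset.univ.sup e + 1, fun a => Finset.mem_range.2
      (Nat.lt_succ_of_le (Finset.le_sup (f := e) (Finset.mem_univ a)))⟩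
  have := h.2 N (fun i => ∑ a, if e a = i then c a else 0)
  refine this.trans_eq ?_
  have h1 : ∀ g : ℕ → ℝ, ∑ i ∈ Finset.range N, (∑ a, if e a = i then c a else 0) * g i =
      ∑ a, c a * g (e a) := fun g => by
    simp only [Finset.sum_mul]
    rw [Finset.sum_comm]
    refine Finset.sum_congr rfl fun a _ => ?_
    simp only [ite_mul, zero_mul]
    rw [Finset.sum_ite_eq, if_pos (hN a)]
  simp only [mul_assoc, ← Finset.mul_sum, h1]

theorem dup_iter (hE : Exch Λ) (hG : GGset Λ) {u : K → ℝ} (hu : Measurable u)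
    (hP : ∀ᵐ A ∂Λ, PSD fun i j => u (A i j)) {ι : Type} (T : ι → ι → Set ℝ)
    (hTs : ∀ a b, T a b = T b a) (hTm : ∀ a b, MeasurableSet (T a b)) {c : ℝ}
    (hTc : ∀ a b, T a b ⊆ Set.Iic c) (hT : ∀ a, T a a = Set.Iic c) (τ : ℕ → ι) {n : ℕ} (hn : 1 ≤ n)
    (hτ : ∀ m, n ≤ m → ∃ i ≤ m, τ (m + 1) = τ i)
    (h : Λ {A | ∀ i ≤ n, ∀ j ≤ n, i ≠ j → u (A i j) ∈ T (τ i) (τ j)} ≠ 0) (m : ℕ) (hm : n ≤ m) :
    ∃ A : ℕ → ℕ → K, (PSD fun i j => u (A i j)) ∧
      ∀ i ≤ m, ∀ j ≤ m, i ≠ j → u (A i j) ∈ T (τ i) (τ j) := by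
  have key : Λ {A | ∀ i ≤ m, ∀ j ≤ m, i ≠ j → u (A i j) ∈ T (τ i) (τ j)} ≠ 0 := by
    induction m, hm using Nat.le_induction with
    | base => exact h
    | succ m hm ih =>
      obtain ⟨i, hi, hτi⟩ := hτ m hm
      exact dup_types hE hG hu (hP.mono fun A hA => hA.1) T hTs hTm hTc τ (hn.trans hm) hi hτi
        (hT _) ih
  exact (Filter.Eventually.and_frequently hP (frequently_ae_iff.2 key)).exists

theorem sum_sq_le {r : ℕ} {U : Fin r → Fin r → ℝ} {c us : ℝ} (h1 : ∀ i, U i i ≤ us)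
    (h2 : ∀ i j, i ≠ j → U i j ≤ c) : ∑ i, ∑ j, U i j ≤ (r : ℝ) ^ 2 * c + r * (us - c) := by
  have : ∀ i j, U i j ≤ c + if i = j then us - c else 0 := fun i j => by
    split_ifs with h
    · subst h; linarith [h1 i]
    · linarith [h2 i j h]
  refine (Finset.sum_le_sum fun i _ => Finset.sum_le_sum fun j _ => this i j).trans_eq ?_
  simp only [Finset.sum_add_distrib, Finset.sum_ite_eq, Finset.mem_univ, if_true,
    Finset.sum_const, Finset.card_univ, Fintype.card_fin, nsmul_eq_mul]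
  ring

theorem arr_pos (hE : Exch Λ) (hG : GGset Λ) {u : K → ℝ} (hu : Measurable u) {us : ℝ}
    (hb : ∀ x, |u x| ≤ us) (hP : ∀ᵐ A ∂Λ, PSD fun i j => u (A i j)) :
    ∀ᵐ A ∂Λ, 0 ≤ u (A 0 1) := by
  have key : ∀ q : ℕ, ∀ᵐ A ∂Λ, ¬ u (A 0 1) ≤ -(1 / ((q : ℝ) + 1)) := by
    intro q
    set η : ℝ := 1 / ((q : ℝ) + 1) with hη
    have hη0 : 0 < η := by positivity
    by_contra hcon
    have h1 : Λ {A | ∀ i ≤ 1, ∀ j ≤ 1, i ≠ j → u (A i j) ∈ Set.Iic (-η)} ≠ 0 := by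
      intro h0
      apply hcon
      filter_upwards [hP, measure_eq_zero_iff_ae_notMem.1 h0] with A hA hn hle
      refine hn fun i hi j hj hij => ?_
      rcases (show (i = 0 ∧ j = 1) ∨ (i = 1 ∧ j = 0) by omega) with ⟨rfl, rfl⟩ | ⟨rfl, rfl⟩
      · exact hle
      · exact (hA.1 1 0).trans_le hle
    obtain ⟨m, hm⟩ := exists_nat_gt (us / η)
    obtain ⟨A, hA, hev⟩ := dup_iter hE hG hu hP (fun _ _ : Unit => Set.Iic (-η)) (fun _ _ => rfl)
      (fun _ _ => measurableSet_Iic) (fun _ _ => subset_rfl) (fun _ => rfl) (fun _ => ()) le_rfl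
      (fun m _ => ⟨0, Nat.zero_le _, rfl⟩) h1 (m + 1) (by omega)
    have h2 := hA.fin (fun i : Fin (m + 1) => (i : ℕ)) (fun _ => 1)
    simp only [one_mul] at h2
    have h3 := sum_sq_le (U := fun i j : Fin (m + 1) => u (A i j)) (c := -η) (us := us)
      (fun i => (le_abs_self _).trans (hb _))
      (fun i j hij => hev i (by omega) j (by omega) (fun h => hij (Fin.ext h)))
    rw [div_lt_iff₀ hη0] at hm
    push_cast at h3
    have h4 : (0 : ℝ) < (m : ℝ) + 1 := by positivity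
    nlinarith
  filter_upwards [ae_all_iff.2 key] with A hA
  by_contra hneg
  obtain ⟨q, hq⟩ := exists_nat_one_div_lt (show 0 < -u (A 0 1) by linarith)
  exact hA q (by linarith)

theorem ultra_alg {U : ℕ → ℕ → ℝ} (hP : PSD U) {us a b c η : ℝ} (hb : ∀ i j, |U i j| ≤ us)
    {r : ℕ} (hr : 1 ≤ r) (h01 : ∀ i < r, U 0 (2 * i + 1) ≤ a) (h02 : ∀ i < r, b ≤ U 0 (2 * i + 2))
    (h12 : ∀ i < r, ∀ j < r, c - η ≤ U (2 * i + 1) (2 * j + 2))
    (hc : ∀ i ≤ 2 * r, ∀ j ≤ 2 * r, i ≠ j → U i j ≤ c) {s : ℝ} (hs : 0 ≤ s) :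
    0 ≤ (r : ℝ) * (s ^ 2 * us - 2 * s * (b - a) + 2 * η) + 4 * us := by
  have hr0 : (0 : ℝ) < r := by exact_mod_cast hr
  have h := hP.fin (ι := Unit ⊕ Fin r ⊕ Fin r)
    (Sum.elim (fun _ => 0) (Sum.elim (fun i => 2 * i + 1) (fun i => 2 * i + 2)))
    (Sum.elim (fun _ => -(s * r)) (Sum.elim (fun _ => -1) (fun _ => 1)))
  simp only [Fintype.sum_sum_type, Sum.elim_inl, Sum.elim_inr, Finset.univ_unique,
    Finset.sum_singleton, Finset.sum_add_distrib, mul_neg, neg_mul, mul_one, one_mul, neg_neg,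
    Finset.sum_neg_distrib, ← Finset.mul_sum] at h
  have e1 : ∑ i : Fin r, U (2 * i + 1) 0 = ∑ i : Fin r, U 0 (2 * i + 1) :=
    Finset.sum_congr rfl fun i _ => hP.1 _ _
  have e2 : ∑ i : Fin r, U (2 * i + 2) 0 = ∑ i : Fin r, U 0 (2 * i + 2) :=
    Finset.sum_congr rfl fun i _ => hP.1 _ _
  have e3 : ∑ i : Fin r, ∑ j : Fin r, U (2 * i + 2) (2 * j + 1) =
      ∑ i : Fin r, ∑ j : Fin r, U (2 * i + 1) (2 * j + 2) := by
    rw [Finset.sum_comm]
    exact Finset.sum_congr rfl fun i _ => Finset.sum_congr rfl fun j _ => hP.1 _ _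
  rw [e1, e2, e3] at h
  have b1 : ∑ i : Fin r, U 0 (2 * i + 1) ≤ r * a := by
    refine (Finset.sum_le_sum fun (i : Fin r) _ => h01 i i.2).trans_eq ?_
    simp
  have b2 : r * b ≤ ∑ i : Fin r, U 0 (2 * i + 2) := by
    refine le_trans (le_of_eq ?_) (Finset.sum_le_sum fun i _ => h02 i i.2)
    simp
  have b3 : (r : ℝ) ^ 2 * (c - η) ≤ ∑ i : Fin r, ∑ j : Fin r, U (2 * i + 1) (2 * j + 2) := by
    refine le_trans (le_of_eq ?_)
      (Finset.sum_le_sum fun i _ => Finset.sum_le_sum fun j _ => h12 i i.2 j j.2)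
    simp only [Finset.sum_const, Finset.card_univ, Fintype.card_fin, nsmul_eq_mul]
    ring
  have b4 := sum_sq_le (U := fun i j : Fin r => U (2 * i + 1) (2 * j + 1)) (c := c) (us := us)
    (fun i => (le_abs_self _).trans (hb _ _))
    (fun i j hij => hc _ (by omega) _ (by omega) (fun h => hij (Fin.ext (by omega))))
  have b5 := sum_sq_le (U := fun i j : Fin r => U (2 * i + 2) (2 * j + 2)) (c := c) (us := us)
    (fun i => (le_abs_self _).trans (hb _ _))
    (fun i j hij => hc _ (by omega) _ (by omega) (fun h => hij (Fin.ext (by omega))))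
  have b6 : U 0 0 ≤ us := (le_abs_self _).trans (hb _ _)
  have b7 : -us ≤ c := (neg_le_of_abs_le (hb 0 1)).trans (hc 0 (by omega) 1 (by omega) (by omega))
  have hsr : 0 ≤ s * r := by positivity
  have c1 := mul_le_mul_of_nonneg_left b1 hsr
  have c2 := mul_le_mul_of_nonneg_left b2 hsr
  have c3 := mul_le_mul_of_nonneg_left b6 (mul_nonneg hsr hsr)
  have c4 := mul_le_mul_of_nonneg_left b7 hr0.le
  refine le_of_mul_le_mul_left ?_ hr0
  nlinarith

theorem ultra_null (hE : Exch Λ) (hG : GGset Λ) {u : K → ℝ} (hu : Measurable u) {us : ℝ}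
    (hb : ∀ x, |u x| ≤ us) (hP : ∀ᵐ A ∂Λ, PSD fun i j => u (A i j)) {a b : ℝ} (hab : a < b) :
    ∃ η > 0, ∀ c, ∀ᵐ A ∂Λ, ¬ (u (A 0 1) < a ∧ u (A 0 2) ∈ Set.Ioc b c ∧
      u (A 1 2) ∈ Set.Ioc (c - η) c) := by
  classical
  have hus : 0 ≤ us := by
    obtain ⟨A, -⟩ := hP.exists
    exact (abs_nonneg _).trans (hb (A 0 0))
  obtain ⟨s, hs0, hs1⟩ : ∃ s : ℝ, 0 < s ∧ s * (us + 1) = b - a :=
    ⟨(b - a) / (us + 1), div_pos (by linarith) (by linarith), div_mul_cancel₀ _ (by linarith)⟩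
  obtain ⟨η, hη⟩ : ∃ η : ℝ, η = s * (b - a) / 4 := ⟨_, rfl⟩
  have hη0 : 0 < η := hη ▸ div_pos (mul_pos hs0 (by linarith)) (by norm_num)
  have h2 : s ^ 2 * us - 2 * s * (b - a) + 2 * η ≤ -(2 * η) := by
    rw [hη, ← hs1]
    nlinarith [sq_nonneg s]
  refine ⟨η, hη0, fun c => ?_⟩
  rcases le_or_gt c b with hcb | hcb
  · exact Filter.Eventually.of_forall fun A h => absurd (h.2.1.1.trans_le h.2.1.2) (not_lt.2 hcb)
  by_contra hcon
  let T : ℕ → ℕ → Set ℝ := fun x y => if x = y then Set.Iic c else if x + y = 1 then Set.Iio a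
    else if x + y = 2 then Set.Ioc b c else Set.Ioc (c - η) c
  let τ : ℕ → ℕ := fun i => if i = 0 then 0 else if i % 2 = 1 then 1 else 2
  have hTs : ∀ x y, T x y = T y x := fun x y => by simp only [T, eq_comm (a := x), add_comm x]
  have hTc : ∀ x y, T x y ⊆ Set.Iic c := fun x y => by
    simp only [T]
    split_ifs
    · exact subset_rfl
    · exact fun z hz => (hz.trans (hab.trans hcb)).le
    · exact Set.Ioc_subset_Iic_self
    · exact Set.Ioc_subset_Iic_self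
  have hTm : ∀ x y, MeasurableSet (T x y) := fun x y => by
    simp only [T]
    split_ifs
    exacts [measurableSet_Iic, measurableSet_Iio, measurableSet_Ioc, measurableSet_Ioc]
  have t01 : T 0 1 = Set.Iio a := by simp [T]
  have t02 : T 0 2 = Set.Ioc b c := by simp [T]
  have t12 : T 1 2 = Set.Ioc (c - η) c := by simp [T]
  have s0 : τ 0 = 0 := rfl
  have s1 : ∀ i, τ (2 * i + 1) = 1 := fun i => by
    simp only [τ]; rw [if_neg (by omega), if_pos (by omega)]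
  have s2 : ∀ i, τ (2 * i + 2) = 2 := fun i => by
    simp only [τ]; rw [if_neg (by omega), if_neg (by omega)]
  have h1 : Λ {A | ∀ i ≤ 2, ∀ j ≤ 2, i ≠ j → u (A i j) ∈ T (τ i) (τ j)} ≠ 0 := by
    intro h0
    apply hcon
    filter_upwards [hP, measure_eq_zero_iff_ae_notMem.1 h0] with A hA hn hle
    have g : ∀ i j, i < j → j ≤ 2 → u (A i j) ∈ T (τ i) (τ j) := fun i j hij hj => by
      rcases (show (i = 0 ∧ j = 1) ∨ (i = 0 ∧ j = 2) ∨ (i = 1 ∧ j = 2) by omega) with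
        ⟨rfl, rfl⟩ | ⟨rfl, rfl⟩ | ⟨rfl, rfl⟩
      · rw [s0, s1 0, t01]; exact hle.1
      · rw [s0, s2 0, t02]; exact hle.2.1
      · rw [s1 0, s2 0, t12]; exact hle.2.2
    refine hn fun i hi j hj hij => ?_
    rcases lt_or_gt_of_ne hij with h | h
    · exact g i j h hj
    · rw [hTs, show u (A i j) = u (A j i) from hA.1 i j]; exact g j i h hi
  obtain ⟨m, hm⟩ := exists_nat_gt (2 * us / η)
  obtain ⟨A, hA, hev⟩ := dup_iter hE hG hu hP T hTs hTm hTc (fun x => by simp [T]) τ (by omega)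
    (fun n hn => ⟨n - 1, by omega, by
      simp only [τ]
      rw [if_neg (by omega), if_neg (show n - 1 ≠ 0 by omega), show (n + 1) % 2 = (n - 1) % 2 by omega]⟩)
    h1 (2 * (m + 1)) (by omega)
  have key := ultra_alg hA (a := a) (b := b) (c := c) (η := η) (fun i j => hb _) (r := m + 1)
    (by omega) (fun i hi => ?_) (fun i hi => ?_) (fun i hi j hj => ?_)
    (fun i hi j hj hij => hTc _ _ (hev i hi j hj hij)) hs0.le
  · rw [div_lt_iff₀ hη0] at hm
    push_cast at key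
    have h3 := mul_le_mul_of_nonneg_left h2 (show (0 : ℝ) ≤ (m : ℝ) + 1 by positivity)
    linarith
  · have := hev 0 (by omega) (2 * i + 1) (by omega) (by omega)
    rw [s0, s1, t01] at this
    exact le_of_lt this
  · have := hev 0 (by omega) (2 * i + 2) (by omega) (by omega)
    rw [s0, s2, t02] at this
    exact this.1.le
  · have := hev (2 * i + 1) (by omega) (2 * j + 2) (by omega) (by omega)
    rw [s1, s2, t12] at this
    exact this.1.le

theorem arr_ultra (hE : Exch Λ) (hG : GGset Λ) {u : K → ℝ} (hu : Measurable u) {us : ℝ}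
    (hb : ∀ x, |u x| ≤ us) (hP : ∀ᵐ A ∂Λ, PSD fun i j => u (A i j)) :
    ∀ᵐ A ∂Λ, min (u (A 0 2)) (u (A 1 2)) ≤ u (A 0 1) := by
  have k1 : ∀ a b : ℚ, ∀ᵐ A ∂Λ, (a : ℝ) < b →
      ¬ (u (A 0 1) < a ∧ b < u (A 0 2) ∧ u (A 0 2) ≤ u (A 1 2)) := by
    intro a b
    by_cases hab : (a : ℝ) < b
    · obtain ⟨η, hη, h⟩ := ultra_null hE hG hu hb hP hab
      filter_upwards [ae_all_iff.2 fun c : ℚ => h c] with A hA _ hc
      obtain ⟨c, h1, h2⟩ := exists_rat_btwn (show u (A 1 2) < u (A 1 2) + η by linarith)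
      exact hA c ⟨hc.1, ⟨hc.2.1, hc.2.2.trans h1.le⟩, by linarith, h1.le⟩
    · exact Filter.Eventually.of_forall fun A h => absurd h hab
  have k2 : ∀ᵐ A ∂Λ, u (A 0 2) ≤ u (A 1 2) → u (A 0 2) ≤ u (A 0 1) := by
    filter_upwards [ae_all_iff.2 fun a => ae_all_iff.2 (k1 a)] with A hA h
    by_contra hneg
    obtain ⟨a, h1, h2⟩ := exists_rat_btwn (not_le.1 hneg)
    obtain ⟨b, h3, h4⟩ := exists_rat_btwn h2
    exact hA a b h3 ⟨h1, h4, h⟩
  have k3 := hE.ae (Equiv.swap 0 1).injective k2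
  filter_upwards [hP, k2, k3] with A hA h1 h2
  have e2 : Equiv.swap 0 1 2 = 2 := Equiv.swap_apply_of_ne_of_ne (by omega) (by omega)
  simp only [Equiv.swap_apply_left, Equiv.swap_apply_right, e2] at h2
  rcases le_total (u (A 0 2)) (u (A 1 2)) with h | h
  · exact (min_le_left _ _).trans (h1 h)
  · exact (min_le_right _ _).trans ((h2 h).trans_eq (hA.1 1 0))

end P157
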