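import Vale.Agent.P157.Upper1
import Vale.Agent.P157.Box

/-! P157 Upper: the upper bound. The parameters `b` maximise `SW - penalty` over a box; the field
coordinates stay in the interior by coercivity, the first order condition gives the lower bound on the
overlap needed by `upper_step`, and the pattern increments telescope.
-/

open MeasureTheory ProbabilityTheory Real Filter
open scoped BigOperators Matrix

namespace P157

section
variable {S₀ : Type} [MeasurableSpace S₀] {N L k n₀ M : ℕ} {μ : Measure S₀}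
  [IsProbabilityMeasure μ] {sp : S₀ → Fin N → ℝ} {f : ℝ → ℝ} {K : ℝ} {m p : ℕ → ℝ}

theorem up_obj (hk : IsPartition k m) (h : IsSp sp) (hN : 0 < N) (hL : 0 < L) (hf : Measurable f)
    (hK : ∀ y, |f y| ≤ K) {S η δ s lo hi : ℝ} (hη : η ≤ δ / 4)
    (hI : ∀ β : ℕ → ℝ, RecN k m μ sp β / N +
      ∑ j ∈ Finset.range (k + 1), β j ^ 2 * (tail k m p j - 1) / 2
        ≤ S + η * (1 + ∑ j ∈ Finset.range (k + 1), β j ^ 2))
    {b : TT n₀ k → ℝ} (hb : b ∈ box n₀ k s lo hi) :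
    Ob L k n₀ M f m μ sp s (fun j => (tail k m p j - 1 - δ) / 2) b ≤
      cL L k m + N * (S + η) - δ / 4 * ∑ j, b (.inr j) ^ 2
        + ((n₀ + 1) * (k + 1) : ℝ) * (25 * s ^ 2) + K * M := by
  have hN' : (0 : ℝ) < N := by exact_mod_cast hN
  have hsq : 0 < √(N : ℝ) := Real.sqrt_pos.2 hN'
  set β : ℕ → ℝ := fun j => if hj : j < k + 1 then b (.inr ⟨j, hj⟩) / √(N : ℝ) else 0 with hβ
  have e1 : ∀ j : Fin (k + 1), √(N : ℝ) * β j = b (.inr j) := by
    intro j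
    simp only [hβ, j.2, dif_pos]
    field_simp
  have e2 : ∀ j : Fin (k + 1), b (.inr j) ^ 2 = N * β j ^ 2 := by
    intro j
    rw [← e1, mul_pow, Real.sq_sqrt hN'.le]
  have h1 := S_init (n₀ := n₀) (f := f) (μ := μ) hk h hN hL β
  simp only [e1] at h1
  have h2 := SW_le_inr (L := L) (M := 0) (m := m) (μ := μ) h hN hL hf hK b
  have h3 := abs_SW_sub_pat (L := L) (m := m) (μ := μ) (b := b) h hL hf hK M 0
  simp only [Nat.cast_zero, sub_zero, Nat.abs_cast] at h3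
  have h4 := box_sq hb
  have h5 := hI β
  rw [← Fin.sum_univ_eq_sum_range (fun j => β j ^ 2 * (tail k m p j - 1) / 2),
    ← Fin.sum_univ_eq_sum_range (fun j => β j ^ 2)] at h5
  have h6 : RecN k m μ sp β + ∑ j : Fin (k + 1), (tail k m p j - 1) / 2 * b (.inr j) ^ 2 ≤
      N * (S + η) + η * ∑ j, b (.inr j) ^ 2 := by
    have := mul_le_mul_of_nonneg_left h5 hN'.le
    rw [mul_add, mul_div_cancel₀ _ hN'.ne', Finset.mul_sum] at this
    simp only [e2]
    rw [← Finset.mul_sum]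
    refine le_trans (le_of_eq ?_) (this.trans (le_of_eq (by ring)))
    congr 1
    exact Finset.sum_congr rfl fun j _ => by ring
  unfold Ob
  rw [pen_sum]
  have h7 : 0 ≤ ∑ x, 2 * (b (.inl x) - 2 * s) ^ 2 := Finset.sum_nonneg fun x _ => by positivity
  have h8 : ∑ j : Fin (k + 1), (tail k m p j - 1 - δ) / 2 * b (.inr j) ^ 2 =
      ∑ j : Fin (k + 1), (tail k m p j - 1) / 2 * b (.inr j) ^ 2 - δ / 2 * ∑ j, b (.inr j) ^ 2 := by
    rw [Finset.mul_sum, ← Finset.sum_sub_distrib]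
    exact Finset.sum_congr rfl fun j _ => by ring
  have h9 : 0 ≤ ∑ j, b (.inr j) ^ 2 := Finset.sum_nonneg fun j _ => sq_nonneg _
  have h10 := mul_le_mul_of_nonneg_right hη h9
  have h11 := le_abs_self (SW L k n₀ M f m μ sp b - SW L k n₀ 0 f m μ sp b)
  rw [h8]
  linarith

end

theorem tail_nonneg {k : ℕ} {m p : ℕ → ℝ} (hk : IsPartition k m) (hp : IsPath k p) (j : ℕ) :
    0 ≤ tail k m p j :=
  Finset.sum_nonneg fun i hi => mul_nonneg
    (sub_pos.2 (hk.2.2 i (Finset.mem_Icc.1 hi).2)).le (hp.nonneg (Finset.mem_Icc.1 hi).2)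

theorem upper {μ : ∀ N, Measure (Fin N → ℝ)} {sp : ∀ N, (Fin N → ℝ) → Fin N → ℝ} (hF : Fam μ sp)
    {f : ℝ → ℝ} {K : ℝ} (hf : NiceK f K) {α : ℝ} (hα : 0 < α) {ε : ℝ} (hε : 0 < ε) :
    ∃ δ : ℝ, 0 < δ ∧ ∀ (k : ℕ) (m p : ℕ → ℝ) (S : ℝ), 1 ≤ k → IsPartition k m → Mesh k m δ →
      IsPath k p → p k ≤ 1 → InitB μ sp k m p S →
      ∀ᶠ N : ℕ in Filter.atTop,
        EZ (μ N) (sp N) f ⌊α * N⌋₊ / N ≤ α * energy f k m p + S + ε := by
  obtain ⟨δ, B, hδ, hst⟩ := upper_step hf (ε := ε / (5 * α)) (by positivity)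
  refine ⟨δ, hδ, fun k m p S hk1 hk hm hp hp1 hI => ?_⟩
  obtain ⟨n₀, θ, τ', hθ, hτ', hst⟩ := hst hk hk1 hm
  have hK0 : 0 ≤ K := zero_le_one.trans hf.one_le
  have hfm := hf.meas
  have hfK := hf.c0.b0
  set E := energy f k m p + ε / (5 * α) with hE
  obtain ⟨nX, hnX⟩ : ∃ nX : ℝ, nX = (n₀ + 1) * (k + 1) := ⟨_, rfl⟩
  have hnX0 : 0 < nX := by rw [hnX]; positivity
  obtain ⟨η, hη⟩ : ∃ η : ℝ, η = min (δ / 4) (ε / 5) := ⟨_, rfl⟩
  have hη0 : 0 < η := by rw [hη]; positivity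
  have hη1 : η ≤ δ / 4 := hη ▸ min_le_left _ _
  have hη2 : η ≤ ε / 5 := hη ▸ min_le_right _ _
  obtain ⟨lam, hlam⟩ : ∃ lam : ℝ, lam = ε / (145 * nX) := ⟨_, rfl⟩
  have hlam0 : 0 < lam := by rw [hlam]; positivity
  have hlam1 : 29 * nX * lam = ε / 5 := by rw [hlam]; field_simp; ring
  obtain ⟨β₂, hβ₂⟩ : ∃ β₂ : ℝ, β₂ = ε / (5 * ((k + 1) * (1 + (1 + δ) / 2))) := ⟨_, rfl⟩
  have hβ0 : 0 < β₂ := by rw [hβ₂]; positivity
  have hβ1 : (k + 1) * ((1 + (1 + δ) / 2) * β₂) = ε / 5 := by rw [hβ₂]; field_simp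
  obtain ⟨Q, hQ⟩ : ∃ Q : ℝ, Q = 4 / δ * (|S| + ε + 2 * K * α) + β₂ := ⟨_, rfl⟩
  have hQ0 : 0 < 4 / δ * (|S| + ε + 2 * K * α) := by positivity
  have hQ1 : β₂ ≤ Q := by rw [hQ]; linarith
  have hQ2 : |S| + ε + 2 * K * α < δ / 4 * Q := by
    rw [hQ, mul_add, ← mul_assoc, show δ / 4 * (4 / δ) = 1 by field_simp, one_mul]
    have : 0 < δ / 4 * β₂ := by positivity
    linarith
  filter_upwards [hI η hη0, eventually_gt_atTop 0, ev_lin (θ⁻¹ ^ 2) hlam0,
    fluct_box hk n₀ (a := α) (c := 6 * √lam + √Q) hK0 (by positivity) (mul_pos hθ hlam0),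
    ev_lin |E| (by positivity : 0 < ε / 5)] with N hIN hN hθN hFl hEN
  have := hF.prob N
  have hsp := hF.isSp N
  have hN' : (0 : ℝ) < N := by exact_mod_cast hN
  obtain ⟨s, hs⟩ : ∃ s : ℝ, s = √lam * √(N : ℝ) := ⟨_, rfl⟩
  obtain ⟨lo, hlo⟩ : ∃ lo : ℝ, lo = √β₂ * √(N : ℝ) := ⟨_, rfl⟩
  obtain ⟨hi, hhi⟩ : ∃ hi : ℝ, hi = √Q * √(N : ℝ) := ⟨_, rfl⟩
  have hs0 : 0 ≤ s := by rw [hs]; positivity
  have hs2 : s ^ 2 = lam * N := by rw [hs, mul_pow, Real.sq_sqrt hlam0.le, Real.sq_sqrt hN'.le]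
  have hlo0 : 0 < lo := by rw [hlo]; positivity
  have hlo2 : lo ^ 2 = β₂ * N := by rw [hlo, mul_pow, Real.sq_sqrt hβ0.le, Real.sq_sqrt hN'.le]
  have hhi2 : hi ^ 2 = Q * N := by
    rw [hhi, mul_pow, Real.sq_sqrt (hβ0.le.trans hQ1), Real.sq_sqrt hN'.le]
  have hlh : lo ≤ hi := by
    rw [hlo, hhi]; exact mul_le_mul_of_nonneg_right (Real.sqrt_le_sqrt hQ1) (Real.sqrt_nonneg _)
  have hθs : θ⁻¹ ≤ s := by
    rw [← hs2] at hθN
    exact (pow_le_pow_iff_left₀ (by positivity) hs0 two_ne_zero).1 hθN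
  obtain ⟨L, hL, hAC⟩ := ((eventually_gt_atTop 0).and
    (S_ac_ev hk n₀ hF hfm hfK N B (5 * s + hi) hτ')).exists
  set c : Fin (k + 1) → ℝ := fun j => (tail k m p j - 1 - δ) / 2 with hc
  have hc0 : ∀ j, -((1 + δ) / 2) ≤ c j := fun j => by
    have := tail_nonneg hk hp j
    simp only [hc]; linarith
  choose bm hbm hmax using fun M : ℕ => exists_max_box (n₀ := n₀) (M := M) (m := m) (μ := μ N)
    hsp hN hL hfm hfK hs0 hlh c
  set v : ℕ → ℝ := fun M => Ob L k n₀ M f m (μ N) (sp N) s c (bm M) with hv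
  have hup : ∀ M, v M ≤ cL L k m + N * (S + η) - δ / 4 * ∑ j, bm M (.inr j) ^ 2
      + nX * (25 * (lam * N)) + K * M := fun M => by
    rw [hnX, ← hs2]; exact up_obj hk hsp hN hL hfm hfK hη1 hIN (hbm M)
  have hlow : ∀ M, cL L k m + EZ (μ N) (sp N) f M - nX * (4 * (lam * N)) - ε / 5 * N ≤ v M := by
    intro M
    have h1 := Ob_center (n₀ := n₀) (M := M) (m := m) (μ := μ N) hsp hN hL hfm hfK s lo hc0
    rw [← hnX, hs2, hlo2, ← mul_assoc (1 + (1 + δ) / 2), ← mul_assoc ((k : ℝ) + 1), hβ1] at h1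
    exact h1.trans (hmax M _ (center_mem hs0 hlh))
  have hstep : ∀ M : ℕ, ((M + 1 : ℕ) : ℝ) ≤ α * N → v (M + 1) ≤ v M + E := by
    intro M hM
    have hb := hbm (M + 1)
    have hint : ∀ j, bm (M + 1) (.inr j) < hi := by
      intro j
      have h1 := hup (M + 1)
      have h2 := hlow (M + 1)
      have h3 := neg_abs_le (EZ (μ N) (sp N) f (M + 1))
      have h4 := abs_EZ_le (μ := μ N) (M := M + 1) hsp hfm hfK
      have h5 : bm (M + 1) (.inr j) ^ 2 ≤ ∑ j, bm (M + 1) (.inr j) ^ 2 :=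
        Finset.single_le_sum (f := fun j => bm (M + 1) (.inr j) ^ 2) (fun _ _ => sq_nonneg _)
          (Finset.mem_univ j)
      have h6 := mul_le_mul_of_nonneg_left hM hK0
      have h7 := mul_le_mul_of_nonneg_left h5 (by positivity : 0 ≤ δ / 4)
      have h8 := mul_lt_mul_of_pos_right hQ2 hN'
      have h9 := mul_le_mul_of_nonneg_left (le_abs_self S) hN'.le
      have h10 := mul_le_mul_of_nonneg_left hη2 hN'.le
      have h11 : 29 * nX * lam * N = ε / 5 * N := by rw [hlam1]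
      have h12 : 0 < ε * N := by positivity
      have h13 : δ / 4 * bm (M + 1) (.inr j) ^ 2 < δ / 4 * hi ^ 2 := by
        rw [hhi2]; linarith only [h1, h2, h3, h4, h6, h7, h8, h9, h10, h11, h12]
      have h14 := lt_of_mul_lt_mul_left h13 (by positivity)
      exact lt_of_pow_lt_pow_left₀ 2 (hlo0.le.trans hlh) h14
    have h1 := hst (L := L) (M := M) (μ := μ N) hsp hN hL (b := bm (M + 1)) hθs (fun b' hb' => by
        rw [hs2, ← mul_assoc]
        refine hFl hsp hN hL hfm hfK b' hM fun t => (hb' t).trans ?_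
        have := box_abs hb hlo0.le hs0 t
        rw [add_mul, mul_assoc, ← hs, ← hhi]; linarith)
      (hAC N hN le_rfl _ _ (box_abs hb hlo0.le hs0)) (hAC N hN le_rfl _ _ (box_abs hb hlo0.le hs0))
      (touch_of_max hb (hmax (M + 1))) hp hp1 (fun j hj => by
        have := kkt_of_max hsp hN hL hfm hfK hlo0 hb (hmax (M + 1)) ⟨j, Nat.lt_succ_of_le hj⟩
          (hint _)
        simp only [hc] at this
        linarith)
    have h2 := hmax M _ hb
    simp only [hv, Ob] at h2 ⊢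
    linarith
  have htel : ∀ M : ℕ, (M : ℝ) ≤ α * N → v M ≤ v 0 + M * E := by
    intro M
    induction M with
    | zero => simp
    | succ M ih =>
      intro hM
      have h1 := hstep M hM
      have h2 := ih (le_trans (by push_cast; linarith) hM)
      push_cast
      linarith
  have hM1 : (⌊α * N⌋₊ : ℝ) ≤ α * N := Nat.floor_le (by positivity)
  have hM2 : α * N < (⌊α * N⌋₊ : ℝ) + 1 := Nat.lt_floor_add_one _
  have h1 := htel _ hM1
  have h2 := hlow ⌊α * N⌋₊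
  have h3 := hup 0
  have h4 : 0 ≤ δ / 4 * ∑ j, bm 0 (.inr j) ^ 2 :=
    mul_nonneg (by positivity) (Finset.sum_nonneg fun _ _ => sq_nonneg _)
  have h5 : (⌊α * N⌋₊ : ℝ) * E ≤ α * N * E + |E| := by
    have h6 : (⌊α * N⌋₊ - α * N) * E ≤ |(⌊α * N⌋₊ - α * N) * E| := le_abs_self _
    rw [abs_mul] at h6
    have h7 : |(⌊α * N⌋₊ : ℝ) - α * N| ≤ 1 := abs_le.2 ⟨by linarith, by linarith⟩
    linarith only [h6, mul_le_mul_of_nonneg_right h7 (abs_nonneg E)]
  have h6 : α * N * E = (α * energy f k m p + ε / 5) * N := by rw [hE]; field_simp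
  have h10 := mul_le_mul_of_nonneg_left hη2 hN'.le
  have h11 : 29 * nX * lam * N = ε / 5 * N := by rw [hlam1]
  rw [div_le_iff₀ hN']
  simp only [Nat.cast_zero, mul_zero, add_zero] at h3
  linarith only [h1, h2, h3, h4, h5, h6, h10, h11, hEN]

end P157
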