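import Vale.Agent.P157.PCav1
import Vale.Agent.P157.SSync
import Vale.Agent.P157.SPat
import Vale.Agent.P157.Grad
import Vale.Agent.P157.NiceB

/-! P157 Upper1: one pattern step of the upper bound.
Plan. `touch_sync` (system `M+1`) gives `p'` with `SSync (M+1) p' (2δ + δ)`; `ac_ind` and
`Sync.tail_close` give `tail p' j ≥ A2 (ov ind j) - 4δ ≥ tail p j - 5δ ≥ tail (top1 p) j - 6δ`
(`abs_tail_top1`); `SSync_pred`, `SW_succ`, `pc1` give `SW (M+1) - SW M ≤ parisi p' f + C δ + τ'`;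
`psi0_mono` and `top1_close` finish. `δ` is chosen from `K` and `ε` only.
-/

open MeasureTheory ProbabilityTheory Real
open scoped BigOperators Matrix

namespace P157


theorem upper_step {f : ℝ → ℝ} {K : ℝ} (hf : NiceK f K) {ε : ℝ} (hε : 0 < ε) :
    ∃ δ B : ℝ, 0 < δ ∧ ∀ {k : ℕ} {m : ℕ → ℝ} (_ : IsPartition k m) (_ : 1 ≤ k) (_ : Mesh k m δ),
      ∃ (n₀ : ℕ) (θ τ' : ℝ), 0 < θ ∧ 0 < τ' ∧ ∀ {S₀ : Type} [MeasurableSpace S₀] {N L M : ℕ}
      {μ : Measure S₀} [IsProbabilityMeasure μ] {sp : S₀ → Fin N → ℝ} (_ : IsSp sp) (_ : 0 < N)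
      (_ : 0 < L) {b : TT n₀ k → ℝ} {s : ℝ} (_ : θ⁻¹ ≤ s)
      (_ : ∀ b' : TT n₀ k → ℝ, (∀ t, |b' t| ≤ |b t| + s) →
        Fluct (SP L k n₀ N (M + 1) m) (μ.prod (unif L k)) (SH f m sp b') ≤ θ * s ^ 2)
      (_ : SAC L k n₀ (M + 1) f m μ sp b B τ') (_ : SAC L k n₀ M f m μ sp b B τ')
      (_ : Touch L k n₀ (M + 1) f m μ sp b s) {p : ℕ → ℝ} (_ : IsPath k p) (_ : p k ≤ 1)
      (_ : ∀ j ≤ k, tail k m p j - δ ≤ SA2 L k n₀ (M + 1) f m μ sp b
        (fun _ c c' => ov (sp c.1) (sp c'.1) * ind j c.2 c'.2)),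
      SW L k n₀ (M + 1) f m μ sp b - SW L k n₀ M f m μ sp b ≤ energy f k m p + ε := by
  have hK := hf.one_le
  set D : ℝ := K ^ 2 * exp (4 * K) / 2 * (exp (4 * K) * 3) + 1 + 3 * K ^ 2 + 2 * K with hD
  have hD0 : 0 < D := by positivity
  have hδ : 0 < ε / D := by positivity
  refine ⟨ε / D, max 3 K, hδ, fun {k m} hk hk1 hm => ?_⟩
  obtain ⟨n₀, θ, τ₁, hθ, hτ₁, h1⟩ := touch_sync hk hδ
  obtain ⟨τ₂, hτ₂, h2⟩ := ac_ind hk hδ
  refine ⟨n₀, θ, min (ε / D) (min τ₁ τ₂), hθ, lt_min hδ (lt_min hτ₁ hτ₂), ?_⟩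
  intro S₀ _ N L M μ _ sp h hN hL b s hs hF hA hA' hT p hp hp1 ht
  have := unif_prob hL k
  obtain ⟨p', hp', hsy⟩ := h1 h hN hL hf.meas hf.c0.b0 hs hF
    (AC.mono hA (le_max_left _ _) (le_trans (min_le_right _ _) (min_le_left _ _))) hT hm
  have hH := SH_good (L := L) (M := M + 1) (m := m) (b := b) h hf.meas hf.c0.b0
  have hi := h2 (μ := μ.prod (unif L k)) hH measurable_snd
    (AC.mono hA (le_max_left _ _) (le_trans (min_le_right _ _) (min_le_right _ _)))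
  have a1 := psi0_mono hk hf.c0 (hp.top1 hp1) hp' (η := 6 * (ε / D)) (by positivity) fun j hj => by
    have b1 := (abs_le.1 (Sync.tail_close hk hH h.fst measurable_snd hp' hsy hi hj)).2
    have b2 := (abs_le.1 (abs_tail_top1 hk hm hp hp1 hj)).2
    have b3 := ht j hj
    unfold SA2 at b3
    linarith
  have a2 := (abs_le.1 (top1_close hk hk1 hm hp hp1 hf.meas hf.c0.b0)).2
  have a3 := (abs_le.1 (pc1 hk (SH_good (L := L) (M := M) (m := m) (b := b) h hf.meas hf.c0.b0)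
    hN h.fst measurable_snd hp' hf.c0 hK (SSync_pred h hL hf.meas hf.c0.b0 hp' hsy)
    (AC.mono hA' (le_max_right _ _) (min_le_left _ _)))).2
  rw [SW_succ h hL hf.meas hf.c0.b0]
  have e : ε = ε / D * D := by field_simp
  generalize ε / D = δ at *
  unfold SW
  rw [e, hD]
  nlinarith

end P157
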